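import Crest.Agent.R335.A1_a

/-!
# R335/A1_c: multiplication with `exp (c ‖x - p‖)` (part of `A1`, sub-lead helper78)
-/

set_option autoImplicit false

namespace Crest.Agent.R335

open MeasureTheory Set Filter Topology
open scoped Gradient RealInnerProductSpace ENNReal ContDiff
open Crest.MathPhysics.ThreeBody

variable {f : E3 → ℝ} {G : E3 → E3}

theorem a1c_sm (p : E3) (c : ℝ) {ε : ℝ} (hε : 0 < ε) :
    ContDiff ℝ 1 fun x : E3 => Real.exp (c * √(‖x - p‖ ^ 2 + ε ^ 2)) :=
  (contDiff_const.mul ((((contDiff_id.sub contDiff_const).norm_sq ℝ).add contDiff_const).sqrt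
    fun x => by positivity)).exp

theorem a1c_grad (p : E3) (c : ℝ) {ε : ℝ} (hε : 0 < ε) (x : E3) :
    ∇ (fun x : E3 => Real.exp (c * √(‖x - p‖ ^ 2 + ε ^ 2))) x =
      (c * Real.exp (c * √(‖x - p‖ ^ 2 + ε ^ 2)) / √(‖x - p‖ ^ 2 + ε ^ 2)) • (x - p) := by
  have h0 : 0 < ‖x - p‖ ^ 2 + ε ^ 2 := by positivity
  have h1 := ((((((hasFDerivAt_id x).sub_const p).norm_sq).add_const (ε ^ 2)).sqrt h0.ne').const_mul c).exp
  refine ext_inner_right ℝ fun v => ?_
  have h2 := (Real.sqrt_pos.2 h0).ne'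
  rw [inner_gradient_left, real_inner_smul_left]
  erw [h1.fderiv]
  simp [inner_sub_left]
  field_simp

/-- `TH.mul_c1` with the smooth weights `exp (c √(‖x - p‖² + ε²))`, `ε = 1 / (n + 1)`, whose gradient is
`(c exp (c ρ) / ρ) • (x - p)`, `ρ = √(‖x - p‖² + ε²)`; then `H1.of_dominated` with the bound `M (|f| + ‖G‖)` (`f`, `G` vanish a.e. off a compact set) -/
theorem a1_exp_th (hf : TH univ f G) (p : E3) (c : ℝ) :
    H1 (fun x => Real.exp (c * ‖x - p‖) * f x)
      fun x => Real.exp (c * ‖x - p‖) • (G x + (c * f x / ‖x - p‖) • (x - p)) := by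
  obtain ⟨C, hC, -, h0⟩ := hf.cpt
  obtain ⟨r, hr⟩ := hC.exists_bound_of_continuousOn (f := fun x => x - p) (by fun_prop)
  set M := Real.exp (|c| * (r + 1)) with hM
  have hM0 : 0 < M := Real.exp_pos _
  let ε : ℕ → ℝ := fun n => 1 / ((n : ℝ) + 1)
  have hε : ∀ n, 0 < ε n := fun n => Nat.one_div_pos_of_nat
  have hε1 : ∀ n, ε n ≤ 1 := fun n => (div_le_one (by positivity)).2 (by linarith [n.cast_nonneg (α := ℝ)])
  have hε0 : Tendsto ε atTop (𝓝 0) := tendsto_one_div_add_atTop_nhds_zero_nat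
  have hρ : ∀ x : E3, Tendsto (fun n => √(‖x - p‖ ^ 2 + ε n ^ 2)) atTop (𝓝 ‖x - p‖) := fun x => by
    have := ((hε0.pow 2).const_add (‖x - p‖ ^ 2)).sqrt
    simpa using this
  have hχ : ∀ x : E3, Tendsto (fun n => Real.exp (c * √(‖x - p‖ ^ 2 + ε n ^ 2))) atTop
      (𝓝 (Real.exp (c * ‖x - p‖))) := fun x => ((hρ x).const_mul c).rexp
  refine H1.of_dominated (b := fun x => M * (1 + |c|) * (|f x| + ‖G x‖))
    (fun n => (hf.mul_c1 isOpen_univ (a1c_sm p c (hε n)).contDiffOn).h1)
    ((hf.h1.mf.abs.add hf.h1.mG.norm).const_mul _) (fun n => ?_)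
    (Eventually.of_forall fun x => (hχ x).mul_const _) ?_
  · filter_upwards [h0] with x hx
    by_cases hxC : x ∈ C
    · rw [a1c_grad p c (hε n)]
      have h1 : ‖x - p‖ ≤ √(‖x - p‖ ^ 2 + ε n ^ 2) := Real.le_sqrt_of_sq_le (by nlinarith)
      have h2 : √(‖x - p‖ ^ 2 + ε n ^ 2) ≤ r + 1 := by
        refine le_trans ?_ (add_le_add (hr x hxC) (hε1 n))
        rw [Real.sqrt_le_left (add_nonneg (norm_nonneg _) (hε n).le)]
        nlinarith [mul_nonneg (norm_nonneg (x - p)) (hε n).le]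
      have h3 : 0 < √(‖x - p‖ ^ 2 + ε n ^ 2) := Real.sqrt_pos.2 (by have := hε n; positivity)
      generalize √(‖x - p‖ ^ 2 + ε n ^ 2) = ρ at h1 h2 h3
      have h4 : Real.exp (c * ρ) ≤ M := Real.exp_le_exp.2 (by
        refine (le_abs_self _).trans ?_
        rw [abs_mul, abs_of_pos h3]
        gcongr)
      have h5 := Real.exp_pos (c * ρ)
      generalize Real.exp (c * ρ) = e at h4 h5
      have h6 : ‖(c * e / ρ) • (x - p)‖ ≤ |c| * M := by
        rw [norm_smul, Real.norm_eq_abs, abs_div, abs_mul, abs_of_pos h3, abs_of_pos h5, div_mul_eq_mul_div,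
          div_le_iff₀ h3]
        gcongr
      have a1 := mul_nonneg hM0.le (abs_nonneg (f x))
      have a2 := mul_nonneg hM0.le (norm_nonneg (G x))
      have a3 := mul_nonneg (abs_nonneg c) a1
      have a4 := mul_nonneg (abs_nonneg c) a2
      constructor
      · rw [abs_mul, abs_of_pos h5]
        have : e * |f x| ≤ M * |f x| := by gcongr
        linarith
      · refine (norm_add_le _ _).trans ?_
        rw [norm_smul, norm_smul (f x), Real.norm_eq_abs, Real.norm_eq_abs, abs_of_pos h5]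
        have b1 : e * ‖G x‖ ≤ M * ‖G x‖ := by gcongr
        have b2 := mul_le_mul_of_nonneg_left h6 (abs_nonneg (f x))
        linarith
    · simp [(hx hxC).1, (hx hxC).2]
  · filter_upwards [Measure.ae_ne volume p] with x hx
    simp only [a1c_grad p c (hε _)]
    have h1 : ‖x - p‖ ≠ 0 := norm_ne_zero_iff.2 (sub_ne_zero.2 hx)
    have := ((hχ x).smul_const (G x)).add
      (((((hχ x).const_mul c).div (hρ x) h1).smul_const (x - p)).const_smul (f x))
    have e : Real.exp (c * ‖x - p‖) • (G x + (c * f x / ‖x - p‖) • (x - p)) =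
        Real.exp (c * ‖x - p‖) • G x + f x • (c * Real.exp (c * ‖x - p‖) / ‖x - p‖) • (x - p) := by
      rw [smul_add, smul_smul, smul_smul]
      congr 2
      ring
    rw [e]
    exact this

/-- apply `a1_exp_th` to `φ f` (`H1.th_mul`) and rewrite -/
theorem a1_exp_loc (hf : H1 f G) (p : E3) (c : ℝ) :
    H1loc univ (fun x => Real.exp (c * ‖x - p‖) * f x)
      fun x => Real.exp (c * ‖x - p‖) • (G x + (c * f x / ‖x - p‖) • (x - p)) := by
  intro φ hφ
  have := a1_exp_th (hf.th_mul (hφ.sm.of_le (by simp)) hφ.cpt hφ.sub) p c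
  refine this.congr (Eventually.of_forall fun x => by ring) (Eventually.of_forall fun x => ?_)
  simp only [smul_add, smul_smul]
  rw [add_right_comm]
  congr 3 <;> ring

end Crest.Agent.R335
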