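import Crest.Agent.R335.A1_b
import Crest.Agent.R335.A1_c

/-!
# R335/A1_f: the trial function (part of `A1`, sub-lead helper78)
-/

set_option autoImplicit false

namespace Crest.Agent.R335

open MeasureTheory Set Filter Topology
open scoped Gradient RealInnerProductSpace ENNReal ContDiff
open Crest.MathPhysics.ThreeBody

theorem a1f_int : Integrable fun x : E3 => Real.exp (-2 * ‖x‖) := by
  have h := (integrable_one_add_norm (E := E3) (μ := volume) (r := 4) (by simp; norm_num)).const_mul 256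
  refine h.mono' (by fun_prop) (Eventually.of_forall fun x => ?_)
  have r0 := norm_nonneg x
  have e1 : 1 + ‖x‖ ≤ 4 * Real.exp (‖x‖ / 2) := by linarith [Real.add_one_le_exp (‖x‖ / 2)]
  have e2 : (1 + ‖x‖) ^ 4 ≤ 256 * Real.exp (2 * ‖x‖) := by
    calc _ ≤ (4 * Real.exp (‖x‖ / 2)) ^ 4 := pow_le_pow_left₀ (by positivity) e1 4
      _ = 256 * Real.exp (2 * ‖x‖) := by
        rw [mul_pow, ← Real.exp_nat_mul]
        congr 2
        · norm_num
        · push_cast; ring
  rw [Real.norm_of_nonneg (Real.exp_pos _).le, Real.rpow_neg (by positivity), neg_mul, Real.exp_neg,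
    show (4 : ℝ) = ((4 : ℕ) : ℝ) by norm_num, Real.rpow_natCast, ← div_eq_mul_inv, le_div_iff₀ (by positivity),
    inv_mul_le_iff₀ (Real.exp_pos _)]
  linarith

/-- `τ = exp (-‖x - p‖) χ`, `p = single 2 D`, `χ` from `exists_cut` with `s = D / 4` (so `τ = 0` off `closedBall p (D / 2) ⊆ {z > 0}`).
`a1_exp_th` with `c = -1` (`Tst.th`, `TH.mono`) gives the gradient `K` with `K + (τ / r) • (x - p) = exp (-r) • ∇ χ`, so by `a1_hyd_id`
`qf (a1VC p) τ K + nsq τ / 2 = (1/2) ∫ exp (-2 r) ‖∇ χ‖² ≤ (1/2) (4 M / D)² I`, `I = ∫ exp (-2 ‖x‖)` (integrable: `exp (-2 r) ≤ C (1 + r)^(-4)`,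
`integrable_one_add_norm`; `integral_sub_right_eq_self`), while `nsq τ ≥ exp (-2) * |ball 0 1| > 0` for `D ≥ 4`
(`Measure.addHaar_ball_center`).  The other nucleus lowers the energy (`a1_V1_eq`, `a1_qf_add`, `a1VC_nonpos`). -/
theorem a1_trial {δ : ℝ} (hδ : 0 < δ) : ∃ D₀ : ℝ, ∀ D, D₀ ≤ D → ∃ (τ : E3 → ℝ) (K : E3 → E3), H1 τ K ∧
    (∀ x, x 2 ≤ 0 → τ x = 0) ∧ qf (V1 D) τ K < (-1 / 2 + δ) * nsq τ := by
  obtain ⟨M, hM, HM⟩ := exists_cut (E := E3)
  set I : ℝ := ∫ x : E3, Real.exp (-2 * ‖x‖) with hI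
  have I0 : 0 ≤ I := integral_nonneg fun x => (Real.exp_pos _).le
  set m : ℝ := Real.exp (-2) * volume.real (Metric.ball (0 : E3) 1) with hm
  have m0 : 0 < m := mul_pos (Real.exp_pos _)
    (ENNReal.toReal_pos (Metric.measure_ball_pos volume _ one_pos).ne' measure_ball_lt_top.ne)
  refine ⟨4 + 8 * M ^ 2 * I / (δ * m), fun D hD => ?_⟩
  have q0 : 0 ≤ 8 * M ^ 2 * I / (δ * m) := by positivity
  have D4 : 4 ≤ D := by linarith
  set p : E3 := EuclideanSpace.single 2 D with hp
  obtain ⟨χ, hχ, χ01, χ1, χd⟩ := HM p (D / 4) (by linarith)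
  have h := a1_exp_th (hχ.th.mono (subset_univ _)) p (-1)
  refine ⟨_, _, h, fun x hx => ?_, ?_⟩
  · have : χ x = 0 := by
      refine image_eq_zero_of_notMem_tsupport fun h0 => ?_
      have h1 := mem_closedBall_iff_norm.1 (hχ.sub h0)
      have h2 := abs_z_le_norm (x - p)
      have h3 : (x - p) 2 = x 2 - D := by simp [hp]
      rw [h3] at h2
      linarith [neg_abs_le (x 2 - D)]
    simp only [this, mul_zero]
  set τ : E3 → ℝ := fun x => Real.exp (-1 * ‖x - p‖) * χ x with hτ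
  set K : E3 → E3 := fun x => Real.exp (-1 * ‖x - p‖) • (∇ χ x + (-1 * χ x / ‖x - p‖) • (x - p)) with hK
  obtain ⟨-, e1⟩ := a1_hyd_id h p
  have e2 : ∀ x, K x + (τ x / ‖x - p‖) • (x - p) = Real.exp (-1 * ‖x - p‖) • ∇ χ x := fun x => by
    simp only [hK, hτ, smul_add, smul_smul]
    rw [add_assoc, ← add_smul]
    have : Real.exp (-1 * ‖x - p‖) * (-1 * χ x / ‖x - p‖) + Real.exp (-1 * ‖x - p‖) * χ x / ‖x - p‖ = 0 := by ring
    rw [this, zero_smul, add_zero]
  have ex : ∀ x : E3, Real.exp (-1 * ‖x - p‖) ^ 2 = Real.exp (-2 * ‖x - p‖) := fun x => by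
    rw [← Real.exp_nat_mul]
    congr 1
    push_cast
    ring
  have iE : Integrable fun x : E3 => Real.exp (-2 * ‖x - p‖) := a1f_int.comp_sub_right p
  have e3 : ∫ x, ‖K x + (τ x / ‖x - p‖) • (x - p)‖ ^ 2 ≤ (M / (D / 4)) ^ 2 * I := by
    rw [hI, ← integral_sub_right_eq_self (fun x : E3 => Real.exp (-2 * ‖x‖)) p, ← integral_const_mul]
    refine integral_mono_of_nonneg (Eventually.of_forall fun x => by positivity) (iE.const_mul _)
      (Eventually.of_forall fun x => ?_)
    simp only [e2]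
    rw [norm_smul, mul_pow, Real.norm_of_nonneg (Real.exp_pos _).le, ex, mul_comm]
    exact mul_le_mul_of_nonneg_right (pow_le_pow_left₀ (norm_nonneg _) (χd x) 2) (Real.exp_pos _).le
  have e4 : m ≤ nsq τ := by
    have b1 : ∫ x in Metric.ball p 1, Real.exp (-2) ≤ ∫ x in Metric.ball p 1, τ x ^ 2 := by
      refine setIntegral_mono_on (integrableOn_const measure_ball_lt_top.ne) h.int_sq.integrableOn
        measurableSet_ball fun x hx => ?_
      have c1 := χ1 x (Metric.ball_subset_ball (by linarith) hx)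
      simp only [hτ, c1, mul_one, ex]
      exact Real.exp_le_exp.2 (by linarith [mem_ball_iff_norm.1 hx])
    have b2 : ∫ x in Metric.ball p 1, τ x ^ 2 ≤ nsq τ :=
      setIntegral_le_integral h.int_sq (Eventually.of_forall fun x => by positivity)
    rw [setIntegral_const, smul_eq_mul, Measure.real, Measure.addHaar_ball_center, mul_comm] at b1
    exact b1.trans b2
  have e5 : qf (V1 D) τ K ≤ qf (a1VC p) τ K := by
    have : V1 D = fun x => a1VC p x + a1VC (EuclideanSpace.single 2 (-D)) x := funext (a1_V1_eq D)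
    rw [this, a1_qf_add (a1_fb_VC _) (a1_fb_VC _) h]
    exact add_le_of_nonpos_right
      (integral_nonpos fun x => mul_nonpos_of_nonpos_of_nonneg (a1VC_nonpos _ _) (sq_nonneg _))
  have e6 : (1 / 2) * ((M / (D / 4)) ^ 2 * I) < δ * m := by
    have b1 : 8 * M ^ 2 * I / (δ * m) < D ^ 2 := by nlinarith
    rw [div_lt_iff₀ (by positivity)] at b1
    have b2 : (1 / 2) * ((M / (D / 4)) ^ 2 * I) = 8 * M ^ 2 * I / D ^ 2 := by
      field_simp
      ring
    rw [b2, div_lt_iff₀ (by positivity)]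
    linarith
  have e7 := mul_le_mul_of_nonneg_left e4 hδ.le
  linarith

end Crest.Agent.R335
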