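import Crest.Agent.R335.A1_g

/-!
# R335/A1_h: the lowest odd state (part of `A1`, sub-lead helper78)
-/

set_option autoImplicit false

namespace Crest.Agent.R335

open MeasureTheory Set Filter Topology
open scoped Gradient RealInnerProductSpace ENNReal ContDiff
open Crest.MathPhysics.ThreeBody

variable {V f u w : E3 → ℝ} {G K : E3 → E3} {e : ℝ}

theorem a1h_half : IsOpen {x : E3 | 0 < x 2} ∧ Convex ℝ {x : E3 | 0 < x 2} := by
  refine ⟨isOpen_lt continuous_const (by fun_prop), ?_⟩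
  intro x hx y hy a b ha hb hab
  simp only [mem_ofPred_eq] at hx hy ⊢
  simp only [PiLp.add_apply, PiLp.smul_apply, smul_eq_mul]
  rcases ha.eq_or_lt with h | h
  · subst h
    simp only [zero_add] at hab
    subst hab
    simpa using hy
  · have := mul_pos h hx
    have := mul_nonneg hb hy.le
    linarith

theorem a1h_eig (hV : FB V) (hs : ∀ x, V (a1R x) = V x)
    (hmin : ∀ g K, H1 g K → (∀ᵐ x, g (a1R x) = -1 * g x) → e * nsq g ≤ qf V g K) (hw : H1 w K)
    (ho : ∀ᵐ x, w (a1R x) = -w x) (he : qf V w K ≤ e * nsq w) : Eig V e w K :=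
  a1_eig_odd hV hs hw ho (euler hV (cls_sym a1R (-1)) hmin hw (ho.mono fun x hx => by simp [hx]) he)

/-- extension of a sign condition from the half space -/
theorem a1h_ext (ho : ∀ᵐ x, w (a1R x) = -w x) {P : ℝ → Prop} (h : ∀ᵐ x : E3, 0 < x 2 → P (x 2 * w x)) :
    ∀ᵐ x : E3, P (x 2 * w x) := by
  filter_upwards [h, a1_ae_iso a1R h, ho, ae_coord_ne 2 0] with x h1 h2 h3 h4
  rcases lt_or_gt_of_ne h4 with h5 | h5
  · have := h2 (by simpa using h5)
    rw [h3, a1R_two] at this
    simpa using this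
  · exact h1 h5

/-- an odd minimiser has a sign on the half space.  `w'` from `a1_tilde` is a minimiser, so an eigenfunction (`euler` with
`cls_sym a1R (-1)`, `a1_eig_odd`); so is `w` itself; `w' - w ≥ 0` on `{z > 0}` is an eigenfunction (`Eig.lin`); `pos_or_zero` on the half space. -/
theorem a1_sign_odd (hV : FB V) (hs : ∀ x, V (a1R x) = V x)
    (hmin : ∀ g K, H1 g K → (∀ᵐ x, g (a1R x) = -1 * g x) → e * nsq g ≤ qf V g K) (hw : H1 w K)
    (ho : ∀ᵐ x, w (a1R x) = -w x) (he : qf V w K ≤ e * nsq w) :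
    (∀ᵐ x, 0 ≤ x 2 * w x) ∨ ∀ᵐ x, x 2 * w x ≤ 0 := by
  obtain ⟨w', K', h1, h2, h3, h4, h5⟩ := a1_tilde hV hs hw ho
  have e1 := a1h_eig hV hs hmin hw ho he
  have e2 := a1h_eig hV hs hmin h1 (Eventually.of_forall h2) (by rw [h4, h5]; exact he)
  have e3 := Eig.lin hV e2 e1 1 (-1)
  rcases pos_or_zero hV e3 a1h_half.1 a1h_half.2 (Eventually.of_forall fun x hx => by
    have := h3 x hx
    have := le_abs_self (w x)
    linarith) with h | h
  · left
    refine a1h_ext ho (P := fun t => 0 ≤ t) ?_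
    filter_upwards [h] with x hx hx0
    have h6 := hx hx0
    have := h3 x hx0
    have := abs_nonneg (w x)
    exact mul_nonneg hx0.le (by linarith)
  · right
    refine a1h_ext ho (P := fun t => t ≤ 0) ?_
    filter_upwards [h] with x hx hx0
    have h6 := hx hx0
    have h7 := h3 x hx0
    refine mul_nonpos_of_nonneg_of_nonpos hx0.le ?_
    by_contra hc
    rw [abs_of_pos (not_le.1 hc)] at h7
    linarith

/-- `u w` has a sign (`z² u w = (z u) (z w)`) and integral `0` (`integral_eq_zero_iff_of_nonneg_ae`) -/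
theorem a1_zero_of_sign (hu : MemLp u 2 volume) (hw : MemLp w 2 volume) (hpos : ∀ᵐ x, 0 < x 2 * u x)
    (hs : (∀ᵐ x, 0 ≤ x 2 * w x) ∨ ∀ᵐ x, x 2 * w x ≤ 0) (h0 : ip u w = 0) : ∀ᵐ x, w x = 0 := by
  have hi : Integrable fun x => u x * w x := hu.integrable_mul hw
  have key : ∀ᵐ x, u x * w x = 0 := by
    rcases hs with h | h
    · refine (integral_eq_zero_iff_of_nonneg_ae ?_ hi).1 h0
      filter_upwards [hpos, h] with x h1 h2
      have h3 : x 2 ≠ 0 := fun h => by simp [h] at h1
      have h4 : 0 < x 2 ^ 2 := by positivity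
      have h5 : 0 ≤ x 2 ^ 2 * (u x * w x) := by nlinarith [mul_nonneg h1.le h2]
      exact (mul_nonneg_iff_of_pos_left h4).1 h5
    · have h6 : ∫ x, -(u x * w x) = 0 := by
        rw [integral_neg]
        exact neg_eq_zero.2 h0
      have h7 := (integral_eq_zero_iff_of_nonneg_ae (f := fun x => -(u x * w x)) ?_ hi.neg).1 h6
      · filter_upwards [h7] with x hx
        simpa using hx
      filter_upwards [hpos, h] with x h1 h2
      have h3 : x 2 ≠ 0 := fun h => by simp [h] at h1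
      have h4 : 0 < x 2 ^ 2 := by positivity
      have h5 : 0 ≤ x 2 ^ 2 * -(u x * w x) := by nlinarith [mul_nonneg h1.le (neg_nonneg.2 h2)]
      exact (mul_nonneg_iff_of_pos_left h4).1 h5
  filter_upwards [key, hpos] with x h1 h2
  rcases mul_eq_zero.1 h1 with h | h
  · simp [h] at h2
  · exact h

/-- `exists_min` in the class `cls_sym a1R (-1)` gives a normalised minimiser; replace it by its `a1_tilde`, which is `≥ 0` on the half space, an
eigenfunction (`euler`, `a1_eig_odd`), not zero, hence positive on the half space (`pos_or_zero`).  Symmetry: `w = u ∘ T` is odd (`a1R_comm`),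
an eigenfunction (`Eig.comp_iso`), normalised, `z w > 0`; `w - t u`, `t = ip u w`, is an odd eigenfunction orthogonal to `u`, so it vanishes
(`a1_sign_odd`, `a1_zero_of_sign`); then `t² = 1` and `t > 0`. -/
theorem a1_exists_u (hV : FB V) (hs : ∀ T, Sym T → ∀ x, V (T x) = V x) {n : ℕ} {a : Fin n → E3 → ℝ}
    (ha : ∀ i, MemLp (a i) 2 volume) {M : ℝ}
    (hlow : ∀ g K, H1 g K → e * nsq g - M * ∑ i, ip (a i) g ^ 2 ≤ qf V g K) (hf : H1 f G)
    (ho : ∀ x, f (a1R x) = -f x) (he : qf V f G < e * nsq f) :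
    ∃ (eu : ℝ) (u : E3 → ℝ) (Gu : E3 → E3), eu < e ∧ Eig V eu u Gu ∧ nsq u = 1 ∧ (∀ᵐ x, 0 < x 2 * u x) ∧
      (∀ x, u (a1R x) = -u x) ∧ ∀ T, SymP T → ∀ᵐ x, u (T x) = u x := by
  have hsR : ∀ x, V (a1R x) = V x := hs _ a1R_sym
  obtain ⟨u₀, K₀, hu₀, ho₀, nu₀, hlt, hmin⟩ := exists_min hV (cls_sym a1R (-1)) ha (fun g K h _ => hlow g K h) hf
    (Eventually.of_forall fun x => by simp [ho x]) he
  have ho₀' : ∀ᵐ x, u₀ (a1R x) = -u₀ x := ho₀.mono fun x hx => by simp [hx]
  obtain ⟨u, Gu, h1, h2, h3, h4, h5⟩ := a1_tilde hV hsR hu₀ ho₀'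
  have nu : nsq u = 1 := h4.trans nu₀
  have hu : Eig V (qf V u₀ K₀) u Gu :=
    a1h_eig hV hsR hmin h1 (Eventually.of_forall h2) (by rw [nu, h5, mul_one])
  have posu : ∀ᵐ x, 0 < x 2 * u x := by
    rcases pos_or_zero hV hu a1h_half.1 a1h_half.2 (Eventually.of_forall fun x hx => by
      rw [h3 x hx]; exact abs_nonneg _) with h | h
    · exfalso
      have h6 : ∀ᵐ x : E3, x 2 * u x = 0 :=
        a1h_ext (Eventually.of_forall h2) (P := fun t => t = 0) (h.mono fun x hx hx0 => by rw [hx hx0, mul_zero])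
      have h7 : nsq u = nsq fun _ : E3 => (0 : ℝ) := by
        refine a1_nsq_congr ?_
        filter_upwards [h6, ae_coord_ne 2 0] with x hx hx0
        exact (mul_eq_zero.1 hx).resolve_left hx0
      rw [nu] at h7
      simp [nsq] at h7
    · exact a1h_ext (Eventually.of_forall h2) (P := fun t => 0 < t) (h.mono fun x hx hx0 => mul_pos hx0 (hx hx0))
  refine ⟨_, u, Gu, hlt, hu, nu, posu, h2, fun T hT => ?_⟩
  have hT' := hu.comp_iso T (Eventually.of_forall (hs T (Or.inl hT)))
  set t := ip u fun x => u (T x) with ht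
  have e3 := Eig.lin hV hT' hu 1 (-t)
  have o3 : ∀ᵐ x, 1 * u (T (a1R x)) + -t * u (a1R x) = -(1 * u (T x) + -t * u x) :=
    Eventually.of_forall fun x => by
      rw [a1R_comm (Or.inl hT), h2, h2]
      ring
  have z3 := a1_zero_of_sign h1.mf e3.h1.mf posu (a1_sign_odd hV hsR hmin e3.h1 o3 e3.qf_eq.le) (by
    rw [s13a_ip_lin h1.mf hT'.h1.mf h1.mf, ip_self, nu, ← ht]
    ring)
  have h6 : ∀ᵐ x, u (T x) = t * u x := z3.mono fun x hx => by linarith
  have h7 : t ^ 2 = 1 := by
    have h3 : nsq (fun x => u (T x)) = nsq fun x => t * u x := a1_nsq_congr h6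
    rw [a1_nsq_iso, nu] at h3
    have h4 : nsq (fun x => t * u x) = t ^ 2 * nsq u := by
      unfold nsq
      rw [← integral_const_mul]
      congr 1
      funext x
      ring
    rw [h4, nu] at h3
    linarith
  have h8 : 0 < t := by
    obtain ⟨x, hx1, hx2, hx3⟩ := (h6.and (posu.and (a1_ae_iso T posu))).exists
    rw [hx1, hT x, mul_left_comm] at hx3
    exact (pos_iff_pos_of_mul_pos hx3).2 hx2
  have h9 : t = 1 := by nlinarith
  filter_upwards [h6] with x hx
  rw [hx, h9, one_mul]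

end Crest.Agent.R335
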