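import Crest.Agent.R335.A1_a

/-!
# R335/A1_i: the third level (part of `A1`, sub-lead helper78)
-/

set_option autoImplicit false

namespace Crest.Agent.R335

open MeasureTheory Set Filter Topology
open scoped Gradient RealInnerProductSpace ENNReal ContDiff
open Crest.MathPhysics.ThreeBody

variable {V g u : E3 → ℝ} {Gg Gu : E3 → E3} {e eg eu : ℝ}

theorem a1i_ip3 {k f : E3 → ℝ} (hk : MemLp k 2 volume) (hg : MemLp g 2 volume) (hu : MemLp u 2 volume)
    (hf : MemLp f 2 volume) (α β γ : ℝ) :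
    ip k (fun x => α * g x + β * u x + γ * f x) = α * ip k g + β * ip k u + γ * ip k f := by
  have hw : MemLp (fun x => α * g x + β * u x) 2 volume := (hg.const_mul α).add (hu.const_mul β)
  have h1 := s13a_ip_lin hk hw hf 1 γ
  simp only [one_mul] at h1
  rw [h1, s13a_ip_lin hk hg hu]

/-- the form on the span of `g`, `u`, `f` is diagonal (`qf_lin`, `nsq_lin`, `bf_lin`, `Eig.eq`, `Eig.qf_eq`, `s13a_ip_lin`; view the sum as
`1 * (α g + β u) + γ f`) -/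
theorem a1_diag (hV : FB V) (hg : Eig V eg g Gg) (hu : Eig V eu u Gu) (ng : nsq g = 1) (nu : nsq u = 1)
    (orth : ip g u = 0) {f : E3 → ℝ} {G : E3 → E3} (hf : H1 f G) (h1 : ip g f = 0) (h2 : ip u f = 0) (α β γ : ℝ) :
    H1 (fun x => α * g x + β * u x + γ * f x) (fun x => α • Gg x + β • Gu x + γ • G x) ∧
      nsq (fun x => α * g x + β * u x + γ * f x) = α ^ 2 + β ^ 2 + γ ^ 2 * nsq f ∧
      qf V (fun x => α * g x + β * u x + γ * f x) (fun x => α • Gg x + β • Gu x + γ • G x) =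
        eg * α ^ 2 + eu * β ^ 2 + γ ^ 2 * qf V f G := by
  have hw : H1 (fun x => α * g x + β * u x) (fun x => α • Gg x + β • Gu x) :=
    (hg.h1.const_mul α).add (hu.h1.const_mul β)
  refine ⟨hw.add (hf.const_mul γ), ?_, ?_⟩
  · have n1 := nsq_lin hw.mf hf.mf 1 γ
    simp only [one_mul] at n1
    rw [n1, nsq_lin hg.h1.mf hu.h1.mf, ip_comm (g := f), s13a_ip_lin hf.mf hg.h1.mf hu.h1.mf, ip_comm (f := f),
      ip_comm (f := f), h1, h2, ng, nu, orth]
    ring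
  · have q1 := qf_lin hV hw hf 1 γ
    simp only [one_mul, one_smul] at q1
    rw [q1, qf_lin hV hg.h1 hu.h1, bf_lin hV hg.h1 hu.h1 hf, hg.eq f G hf, hu.eq f G hf, hg.eq u Gu hu.h1,
      hg.qf_eq, hu.qf_eq, h1, h2, ng, nu, orth]
    ring

/-- two linear equations in three unknowns (`LinearMap.ker_ne_bot_of_finrank_lt`, or by hand with the cross product) -/
theorem a1_kernel (a b c a' b' c' : ℝ) : ∃ α β γ : ℝ, ¬(α = 0 ∧ β = 0 ∧ γ = 0) ∧ α * a + β * b + γ * c = 0 ∧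
    α * a' + β * b' + γ * c' = 0 := by
  by_cases h : b * c' - c * b' = 0 ∧ c * a' - a * c' = 0 ∧ a * b' - b * a' = 0
  · by_cases h1 : a = 0 ∧ b = 0
    · by_cases h2 : a' = 0 ∧ b' = 0
      · exact ⟨1, 0, 0, by simp, by simp [h1.1], by simp [h2.1]⟩
      · refine ⟨b', -a', 0, fun h3 => h2 ⟨neg_eq_zero.1 h3.2.1, h3.1⟩, by simp [h1.1, h1.2], by ring⟩
    · refine ⟨b, -a, 0, fun h3 => h1 ⟨neg_eq_zero.1 h3.2.1, h3.1⟩, by ring, by linarith [h.2.2]⟩
  · exact ⟨_, _, _, h, by ring, by ring⟩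

/-- First `f ⊥ g, u`: if `qf f < e nsq f`, take `(α, β, γ)` from `a1_kernel` such that `α g + β u + γ f ⊥ a 0, a 1`; then `hlow` and `a1_diag`
give `0 ≤ (eg - e) α² + (eu - e) β² + γ² (qf f - e nsq f) < 0`.  In general `f = α g + β u + 1 * f'`, `α = ip g f`, `β = ip u f`
(`qf_congr`). -/
theorem a1_low (hV : FB V) {a : Fin 2 → E3 → ℝ} (ha : ∀ i, MemLp (a i) 2 volume)
    (hlow : ∀ f G, H1 f G → e * nsq f - 1 * ∑ i, ip (a i) f ^ 2 ≤ qf V f G) (hg : Eig V eg g Gg)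
    (hu : Eig V eu u Gu) (ng : nsq g = 1) (nu : nsq u = 1) (orth : ip g u = 0) (h1 : eg < e) (h2 : eu < e) :
    ∀ f G, H1 f G → e * nsq f - (e - eg) * ip g f ^ 2 - (e - eu) * ip u f ^ 2 ≤ qf V f G := by
  have key : ∀ f G, H1 f G → ip g f = 0 → ip u f = 0 → e * nsq f ≤ qf V f G := by
    intro f G hf o1 o2
    by_contra hlt
    push Not at hlt
    obtain ⟨α, β, γ, hne, k0, k1⟩ := a1_kernel (ip (a 0) g) (ip (a 0) u) (ip (a 0) f) (ip (a 1) g) (ip (a 1) u)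
      (ip (a 1) f)
    obtain ⟨d1, d2, d3⟩ := a1_diag hV hg hu ng nu orth hf o1 o2 α β γ
    have h := hlow _ _ d1
    rw [Fin.sum_univ_two, a1i_ip3 (ha 0) hg.h1.mf hu.h1.mf hf.mf, a1i_ip3 (ha 1) hg.h1.mf hu.h1.mf hf.mf, k0, k1,
      d2, d3] at h
    have t1 : 0 ≤ (e - eg) * α ^ 2 := mul_nonneg (by linarith) (sq_nonneg _)
    have t2 : 0 ≤ (e - eu) * β ^ 2 := mul_nonneg (by linarith) (sq_nonneg _)
    have t3 : 0 ≤ (e * nsq f - qf V f G) * γ ^ 2 := mul_nonneg (by linarith) (sq_nonneg _)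
    have z1 : (e - eg) * α ^ 2 = 0 := by nlinarith
    have z2 : (e - eu) * β ^ 2 = 0 := by nlinarith
    have z3 : (e * nsq f - qf V f G) * γ ^ 2 = 0 := by nlinarith
    refine hne ⟨?_, ?_, ?_⟩
    · exact pow_eq_zero_iff two_ne_zero |>.1 ((mul_eq_zero.1 z1).resolve_left (by linarith))
    · exact pow_eq_zero_iff two_ne_zero |>.1 ((mul_eq_zero.1 z2).resolve_left (by linarith))
    · exact pow_eq_zero_iff two_ne_zero |>.1 ((mul_eq_zero.1 z3).resolve_left (by linarith))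
  intro f G hf
  obtain ⟨α, hα⟩ : ∃ α, α = ip g f := ⟨_, rfl⟩
  obtain ⟨β, hβ⟩ : ∃ β, β = ip u f := ⟨_, rfl⟩
  have hf' : H1 (fun x => -α * g x + -β * u x + 1 * f x) (fun x => (-α) • Gg x + (-β) • Gu x + (1 : ℝ) • G x) :=
    ((hg.h1.const_mul _).add (hu.h1.const_mul _)).add (hf.const_mul _)
  have o1 : ip g (fun x => -α * g x + -β * u x + 1 * f x) = 0 := by
    rw [a1i_ip3 hg.h1.mf hg.h1.mf hu.h1.mf hf.mf, ip_self, ng, orth, ← hα]
    ring
  have o2 : ip u (fun x => -α * g x + -β * u x + 1 * f x) = 0 := by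
    rw [a1i_ip3 hu.h1.mf hg.h1.mf hu.h1.mf hf.mf, ip_self, nu, ip_comm (f := u) (g := g), orth, ← hβ]
    ring
  have hk := key _ _ hf' o1 o2
  obtain ⟨-, d2, d3⟩ := a1_diag hV hg hu ng nu orth hf' o1 o2 α β 1
  have e1 : (fun x => α * g x + β * u x + 1 * (-α * g x + -β * u x + 1 * f x)) = f := by
    funext x; ring
  have e2 : (fun x => α • Gg x + β • Gu x + (1 : ℝ) • ((-α) • Gg x + (-β) • Gu x + (1 : ℝ) • G x)) = G := by
    funext x; module
  beta_reduce at d2 d3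
  rw [e1] at d2
  rw [e1, e2] at d3
  rw [← hα, ← hβ, d2, d3]
  nlinarith

end Crest.Agent.R335
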