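import Crest.Agent.R335.A1_a

/-!
# R335/A1_j: a ball on which `u` is bounded below (part of `A1`, sub-lead helper78)
-/

set_option autoImplicit false

namespace Crest.Agent.R335

open MeasureTheory Set Filter Topology
open scoped Gradient RealInnerProductSpace ENNReal ContDiff
open Crest.MathPhysics.ThreeBody

variable {D e : ℝ} {u : E3 → ℝ} {Gu : E3 → E3}

theorem a1j_coul {δ : ℝ} (hδ : 0 < δ) {x : E3} (hx : δ ≤ cyl x) (c : ℝ) :
    0 ≤ 1 / ‖x - EuclideanSpace.single 2 c‖ ∧ 1 / ‖x - EuclideanSpace.single 2 c‖ ≤ 1 / δ := by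
  refine ⟨by positivity, one_div_le_one_div_of_le hδ (hx.trans ?_)⟩
  have h1 := abs_cyl_sub_le x (EuclideanSpace.single 2 c)
  have h2 : cyl (EuclideanSpace.single 2 c) = 0 := by simp [cyl]
  rw [h2, sub_zero] at h1
  exact (le_abs_self _).trans h1

/-- For compact `C ⊆ offA` choose `δ > 0` with `cthickening δ C ⊆ offA`, better: `cyl ≥ 2 δ` on `C` (minimum of the continuous function `cyl`), so
`cyl ≥ δ` on `Ω = thickening δ C` (`abs_cyl_sub_le`), where `‖x - single 2 c‖ ≥ cyl x ≥ δ` and `|V1 D - e| ≤ 2 / δ + |e|`.  Apply `sup_sub`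
(`s = δ / 2`, `f = 0`, `N = √(nsq u)`) to `u` and `-u` (`Eig.eqS`, `EqS.subS`, `EqS.neg`, `H1.loc`, `fb_V1`). -/
theorem a1_bl (hu : Eig (V1 D) e u Gu) : Bl offA u := by
  intro C hC hs
  obtain ⟨δ, hδ, hCδ⟩ : ∃ δ : ℝ, 0 < δ ∧ ∀ x ∈ C, 3 * δ ≤ cyl x := by
    rcases C.eq_empty_or_nonempty with rfl | hne
    · exact ⟨1, one_pos, fun x hx => hx.elim⟩
    · obtain ⟨x₀, hx₀, hmin⟩ := hC.exists_isMinOn hne continuous_cyl.continuousOn
      have h0 : 0 < cyl x₀ := hs hx₀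
      exact ⟨cyl x₀ / 3, by positivity, fun x hx => by have : cyl x₀ ≤ cyl x := hmin hx; linarith⟩
  obtain ⟨B, hB, H⟩ := sup_sub (2 / δ + |e|) δ hδ
  have hΩ : IsOpen {x : E3 | δ < cyl x} := isOpen_lt continuous_const continuous_cyl
  have hV := (fb_V1 D).sub_const e
  have hVb : ∀ᵐ x : E3, x ∈ {x : E3 | δ < cyl x} → |V1 D x - e| ≤ 2 / δ + |e| := by
    refine Eventually.of_forall fun x hx => ?_
    obtain ⟨a1, a2⟩ := a1j_coul hδ (le_of_lt hx) D
    obtain ⟨a3, a4⟩ := a1j_coul hδ (le_of_lt hx) (-D)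
    have a5 : 2 / δ = 1 / δ + 1 / δ := by ring
    rw [V1, neg_div, abs_le]
    constructor <;> linarith [le_abs_self e, neg_abs_le e]
  have key : ∀ (w : E3 → ℝ) (G : E3 → E3), Eig (V1 D) e w G → ∀ᵐ x, x ∈ C → w x ≤ B * √(nsq w) := by
    intro w G hw
    have h1 := H _ _ 0 w G (√(nsq w)) hΩ (hw.h1.loc _) hV.meas hVb (hw.h1.mf.restrict _) MemLp.zero
      (hw.eqS (fb_V1 D) _).subS (by
        rw [Real.sq_sqrt nsq_nonneg]
        exact setIntegral_le_integral hw.h1.int_sq (Eventually.of_forall fun x => sq_nonneg _))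
      (by simp) (Real.sqrt_nonneg _)
    filter_upwards [h1] with x hx hxC
    refine hx fun y hy => ?_
    have h2 := abs_cyl_sub_le x y
    rw [Metric.mem_closedBall, dist_comm, dist_eq_norm] at hy
    have h3 := hCδ x hxC
    show δ < cyl y
    linarith [le_abs_self (cyl x - cyl y)]
  have hneg : Eig (V1 D) e (fun x => -1 * u x + 0 * u x) fun x => (-1 : ℝ) • Gu x + (0 : ℝ) • Gu x :=
    Eig.lin (fb_V1 D) hu hu (-1) 0
  refine ⟨B * √(nsq u) + B * √(nsq fun x => -1 * u x + 0 * u x), ?_⟩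
  filter_upwards [key u Gu hu, key _ _ hneg] with x h1 h2 hx
  have h3 := h1 hx
  have h4 := h2 hx
  have h5 : 0 ≤ B * √(nsq u) := by positivity
  have h6 : 0 ≤ B * √(nsq fun x => -1 * u x + 0 * u x) := by positivity
  rw [abs_le]
  constructor <;> linarith

/-- `exists_cont (sumClass_V1 D)` (`SymV` from `V1_sym`) gives `u'` continuous on `offA`; there is a point `x₀` of the nonempty open set
`offA ∩ {z > 0}` with `u' x₀ > 0` (an a.e. property holds somewhere on an open set: `IsOpen.measure_pos`, `Measure.exists_mem_of_measure_ne_zero_of_ae`);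
continuity at `x₀`. -/
theorem a1_ball (hu : Eig (V1 D) e u Gu) (hpos : ∀ᵐ x, 0 < x 2 * u x) : ∃ (x₀ : E3) (s m : ℝ), 0 < s ∧ 0 < m ∧
    s < x₀ 2 ∧ ∀ᵐ x, x ∈ Metric.closedBall x₀ s → m ≤ u x := by
  obtain ⟨w, hw, hc⟩ := exists_cont (sumClass_V1 D) (fun T hT => Eventually.of_forall (V1_sym D hT)) hu (a1_bl hu)
  have hU : IsOpen (offA ∩ {x : E3 | 0 < x 2}) := isOpen_offA.inter (isOpen_lt continuous_const (by fun_prop))
  have hne : (offA ∩ {x : E3 | 0 < x 2}).Nonempty :=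
    ⟨pt 1 1, by show 0 < cyl (pt 1 1); rw [cyl_pt zero_le_one]; exact one_pos, by simp⟩
  obtain ⟨x₀, hx₀, h1, h2⟩ := Measure.exists_mem_of_measure_ne_zero_of_ae (hU.measure_pos volume hne).ne'
    (ae_restrict_of_ae (hpos.and hw))
  have hz : 0 < x₀ 2 := hx₀.2
  have h3 : 0 < w x₀ := by rw [h2]; exact (mul_pos_iff_of_pos_left hz).1 h1
  have h4 : ContinuousAt w x₀ := hc.continuousAt (isOpen_offA.mem_nhds hx₀.1)
  obtain ⟨r, hr, h5⟩ := Metric.eventually_nhds_iff_ball.1 (h4.eventually (lt_mem_nhds (half_lt_self h3)))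
  refine ⟨x₀, min (r / 2) (x₀ 2 / 2), w x₀ / 2, by positivity, by positivity,
    (min_le_right _ _).trans_lt (half_lt_self hz), ?_⟩
  filter_upwards [hw] with x hx hb
  rw [← hx]
  exact (h5 x (Metric.closedBall_subset_ball ((min_le_left _ _).trans_lt (half_lt_self hr)) hb)).le

end Crest.Agent.R335
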