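import Crest.Agent.R335.A1_k

/-!
# R335/A1_l: the Hopf lemma (part of `A1`, sub-lead helper78)
-/

set_option autoImplicit false

namespace Crest.Agent.R335

open MeasureTheory Set Filter Topology
open scoped Gradient RealInnerProductSpace ENNReal ContDiff
open Crest.MathPhysics.ThreeBody

variable {V u : E3 → ℝ} {Gu : E3 → E3} {e : ℝ}

/-- `-u` is a subsolution of `-Δ/2 - e` where `u ≥ 0`, because `V ≤ 0`: `hu.eq ξ K` and `∫ V (u ξ) ≤ 0` (`ξ` vanishes a.e. off `Ω`) -/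
theorem a1_subS (hV0 : ∀ x, V x ≤ 0) (hu : Eig V e u Gu) {Ω : Set E3} (hpos : ∀ᵐ x, x ∈ Ω → 0 ≤ u x) :
    SubS Ω (fun _ => -e) (fun _ => 0) (fun x => -u x) fun x => -Gu x := by
  intro ξ K hξ h0
  obtain ⟨C, -, hC, hC0⟩ := hξ.cpt
  have h1 := hu.eq ξ K hξ.h1
  have h2 : ∫ x, V x * (u x * ξ x) ≤ 0 := by
    refine integral_nonpos_of_ae ?_
    filter_upwards [hC0, h0, hpos] with x a1 a2 a3
    refine mul_nonpos_of_nonpos_of_nonneg (hV0 x) ?_
    by_cases hx : x ∈ C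
    · exact mul_nonneg (a3 (hC hx)) a2
    · simp [(a1 hx).1]
  have h3 : ∫ x, (-e * -u x - 0) * ξ x = e * ip u ξ := by
    rw [ip, ← integral_const_mul]
    congr 1
    funext x
    ring
  unfold bf at h1
  simp only [inner_neg_left, integral_neg]
  rw [h3]
  linarith

theorem a1l_two (x y : E3) : x 2 ≤ y 2 + ‖x - y‖ := by
  have h := PiLp.norm_apply_le (x - y) 2
  rw [Real.norm_eq_abs] at h
  have h2 := (abs_le.1 h).2
  simp only [PiLp.sub_apply] at h2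
  linarith
/-- `cmp_sub` on `Ω = {z > 0} ∖ closedBall x₀ (s / 2)` with `w = -u`, `V = κ₀ = -e`, `f = 0`, `B = c η - c z γ`, `γ = exp (-α ‖x - x₀‖²)`,
`c = m / (x₀ 2 + s)`, `α > 0` with `α² s² - 10 α ≥ -2 e` (`a1_lap_gauss`), `A = ({η ≤ z} ∖ ball x₀ s) ∩ closedBall x₀ R` (compact), where `R` is so
large that `z γ ≤ (x₀ 2 + r) / (α r²) ≤ η` for `r = ‖x - x₀‖ > R`.  Outside `A`: `B ≥ 0 ≥ -u` if `z < η` or `r > R`; `B ≥ -m ≥ -u` on `ball x₀ s`. -/
theorem a1_hopf_eta (hV0 : ∀ x, V x ≤ 0) (he : e < 0) (hu : Eig V e u Gu) (hpos : ∀ᵐ x, 0 < x 2 → 0 ≤ u x)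
    {x₀ : E3} {s m α η : ℝ} (hs : 0 < s) (hm : 0 < m) (hx : s < x₀ 2) (hα : 0 < α)
    (hαs : -2 * e ≤ α ^ 2 * s ^ 2 - 10 * α) (hη : 0 < η) (hb : ∀ᵐ x, x ∈ Metric.closedBall x₀ s → m ≤ u x) :
    ∀ᵐ x, 0 < x 2 → m / (x₀ 2 + s) * (x 2 * Real.exp (-α * ‖x - x₀‖ ^ 2) - η) ≤ u x := by
  have hx0 := hx
  set c := m / (x₀ 2 + s) with hc
  have c0 : 0 < c := by rw [hc]; exact div_pos hm (by linarith)
  have cm : c * (x₀ 2 + s) = m := div_mul_cancel₀ _ (by linarith)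
  have c2 : Continuous fun x : E3 => x 2 := by fun_prop
  obtain ⟨hB, hl⟩ := a1_lap_gauss x₀ α (c * η) c
  have g1 : ∀ x : E3, Real.exp (-α * ‖x - x₀‖ ^ 2) ≤ 1 := fun x =>
    Real.exp_le_one_iff.2 (by nlinarith [sq_nonneg ‖x - x₀‖])
  have gz : ∀ x : E3, 0 < x 2 → x 2 * Real.exp (-α * ‖x - x₀‖ ^ 2) ≤ x 2 := fun x hx =>
    mul_le_of_le_one_right hx.le (g1 x)
  have inb : ∀ x : E3, 0 < x 2 → ‖x - x₀‖ ≤ s → c * (x 2 * Real.exp (-α * ‖x - x₀‖ ^ 2) - η) ≤ m := by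
    intro x h1 h2
    rw [← cm]
    exact mul_le_mul_of_nonneg_left (by linarith [gz x h1, a1l_two x x₀]) c0.le
  set R := max 1 ((x₀ 2 + 1) / (α * η)) with hR
  set Ω : Set E3 := {x | 0 < x 2} \ Metric.closedBall x₀ (s / 2) with hΩd
  set A : Set E3 := ({x | η ≤ x 2} \ Metric.ball x₀ s) ∩ Metric.closedBall x₀ R with hAd
  have hΩ : IsOpen Ω := (isOpen_lt continuous_const c2).sdiff Metric.isClosed_closedBall
  have hA : IsCompact A := (isCompact_closedBall x₀ R).inter_left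
    ((isClosed_le continuous_const c2).sdiff Metric.isOpen_ball)
  have lb : ∀ t : ℝ, LB Ω fun _ : E3 => t := fun t =>
    ⟨aestronglyMeasurable_const, fun K _ _ => ⟨|t|, Eventually.of_forall fun _ _ => le_rfl⟩⟩
  have key := cmp_sub hΩ (hu.h1.neg.loc Ω) (lb (-e)) (lb 0)
    (a1_subS hV0 hu (by filter_upwards [hpos] with x hx h using hx h.1)) hB.contDiffOn (κ₀ := -e) (by linarith)
    (Eventually.of_forall fun _ _ => le_rfl) (Eventually.of_forall fun x hx => by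
      rw [hl]
      have h1 : 0 < x 2 := hx.1
      have h2 : s / 2 < ‖x - x₀‖ := not_le.1 fun h => hx.2 (mem_closedBall_iff_norm.2 h)
      have h3 : s ^ 2 ≤ 4 * ‖x - x₀‖ ^ 2 := by nlinarith
      have h4 : 0 ≤ 4 * α ^ 2 * ‖x - x₀‖ ^ 2 - 10 * α + 2 * e := by
        nlinarith [mul_le_mul_of_nonneg_left h3 (sq_nonneg α)]
      have h5 := Real.exp_pos (-α * ‖x - x₀‖ ^ 2)
      have h6 := mul_nonneg (mul_pos c0 (mul_pos h5 h1)).le h4
      have h7 := mul_pos (mul_pos c0 h5) (mul_pos hα (hs.trans hx0))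
      have h8 := mul_pos (mul_pos c0 hη) (neg_pos.2 he)
      linarith)
    hA.isClosed (fun x hx => ⟨hη.trans_le hx.1.1, fun h => hx.1.2
      (Metric.closedBall_subset_ball (by linarith) h)⟩)
    (by
      filter_upwards [hpos, hb] with x a1 a2 h1 h2
      have z0 : 0 < x 2 := h1.1
      have u0 := a1 z0
      by_cases b1 : x 2 < η
      · have := mul_le_mul_of_nonneg_left ((gz x z0).trans b1.le) c0.le
        linarith
      by_cases b2 : x ∈ Metric.ball x₀ s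
      · have h3 := inb x z0 (mem_ball_iff_norm.1 b2).le
        have h4 := a2 (Metric.ball_subset_closedBall b2)
        linarith
      have b3 : R < ‖x - x₀‖ := by
        by_contra h
        exact h2 ⟨⟨not_lt.1 b1, b2⟩, mem_closedBall_iff_norm.2 (not_lt.1 h)⟩
      have r1 : 1 < ‖x - x₀‖ := (le_max_left _ _).trans_lt b3
      have r2 : (x₀ 2 + 1) / (α * η) < ‖x - x₀‖ := (le_max_right _ _).trans_lt b3
      rw [div_lt_iff₀ (mul_pos hα hη)] at r2
      have h3 : x 2 ≤ η * Real.exp (α * ‖x - x₀‖ ^ 2) := by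
        have e1 := Real.add_one_le_exp (α * ‖x - x₀‖ ^ 2)
        have e2 := a1l_two x x₀
        have e3 := mul_le_mul_of_nonneg_left e1 hη.le
        have e4 := mul_lt_mul_of_pos_right r2 (zero_lt_one.trans r1)
        have e5 := mul_le_mul_of_nonneg_left r1.le (hs.trans hx0).le
        nlinarith
      have h4 : x 2 * Real.exp (-α * ‖x - x₀‖ ^ 2) ≤ η := by
        rw [neg_mul, Real.exp_neg, ← div_eq_mul_inv, div_le_iff₀ (Real.exp_pos _)]
        exact h3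
      have := mul_le_mul_of_nonneg_left h4 c0.le
      linarith)
    (by
      rw [memLp_indicator_iff_restrict hA.measurableSet]
      have : IsFiniteMeasure (volume.restrict A) := isFiniteMeasure_restrict.2 hA.measure_lt_top.ne
      obtain ⟨M, hM⟩ := hA.exists_bound_of_continuousOn hB.continuous.continuousOn
      refine MemLp.pos_part ((hu.h1.neg.mf.restrict A).sub ?_)
      exact MemLp.of_bound hB.continuous.aestronglyMeasurable M
        ((ae_restrict_iff' hA.measurableSet).2 (Eventually.of_forall hM)))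
  filter_upwards [key, hb] with x a1 a2 z0
  by_cases h : x ∈ Metric.closedBall x₀ (s / 2)
  · have h1 := Metric.closedBall_subset_closedBall (half_le_self hs.le) h
    exact (inb x z0 (mem_closedBall_iff_norm.1 h1)).trans (a2 h1)
  · have := a1 ⟨z0, h⟩
    linarith

/-- `η = 1 / (n + 1) → 0` (`ae_all_iff`), oddness for `z < 0`, `‖x - x₀‖, ‖R x - x₀‖ ≤ L + ‖x₀‖` -/
theorem a1_hopf (hV0 : ∀ x, V x ≤ 0) (he : e < 0) (hu : Eig V e u Gu) (hpos : ∀ᵐ x, 0 < x 2 * u x)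
    (ho : ∀ x, u (a1R x) = -u x) {x₀ : E3} {s m : ℝ} (hs : 0 < s) (hm : 0 < m) (hx : s < x₀ 2)
    (hb : ∀ᵐ x, x ∈ Metric.closedBall x₀ s → m ≤ u x) (L : ℝ) :
    ∃ c : ℝ, 0 < c ∧ ∀ᵐ x, ‖x‖ ≤ L → c * x 2 ^ 2 ≤ x 2 * u x := by
  set α := max 1 ((10 - 2 * e) / s ^ 2) with hαd
  have α1 : 1 ≤ α := le_max_left _ _
  have α2 : 10 - 2 * e ≤ α * s ^ 2 := (div_le_iff₀ (by positivity)).1 (le_max_right _ _)
  have hp : ∀ᵐ x, 0 < x 2 → 0 ≤ u x := by
    filter_upwards [hpos] with x h1 h2 using ((mul_pos_iff_of_pos_left h2).1 h1).le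
  have h1 := ae_all_iff.2 fun n : ℕ => a1_hopf_eta hV0 he hu hp hs hm hx (α := α) (η := 1 / ((n : ℝ) + 1))
    (by linarith) (by nlinarith) Nat.one_div_pos_of_nat hb
  have c0 : 0 < m / (x₀ 2 + s) := div_pos hm (by linarith)
  have h2 : ∀ᵐ x, ‖x‖ ≤ L → 0 < x 2 →
      m / (x₀ 2 + s) * Real.exp (-α * (L + ‖x₀‖) ^ 2) * x 2 ≤ u x := by
    filter_upwards [h1] with x h3 hL z0
    have t1 : Tendsto (fun n : ℕ => m / (x₀ 2 + s) * (x 2 * Real.exp (-α * ‖x - x₀‖ ^ 2) - 1 / ((n : ℝ) + 1)))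
        atTop (𝓝 (m / (x₀ 2 + s) * (x 2 * Real.exp (-α * ‖x - x₀‖ ^ 2) - 0))) :=
      (tendsto_const_nhds.sub tendsto_one_div_add_atTop_nhds_zero_nat).const_mul _
    refine le_trans ?_ (le_of_tendsto' t1 fun n => h3 n z0)
    rw [sub_zero, mul_assoc, mul_comm _ (x 2)]
    refine mul_le_mul_of_nonneg_left (mul_le_mul_of_nonneg_left (Real.exp_le_exp.2 ?_) z0.le) c0.le
    have := pow_le_pow_left₀ (norm_nonneg _) ((norm_sub_le x x₀).trans (add_le_add_left hL _)) 2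
    nlinarith
  refine ⟨m / (x₀ 2 + s) * Real.exp (-α * (L + ‖x₀‖) ^ 2), mul_pos c0 (Real.exp_pos _), ?_⟩
  filter_upwards [h2, a1_ae_iso a1R h2] with x a1 a2 hL
  rcases lt_trichotomy (x 2) 0 with h | h | h
  · have := mul_le_mul_of_nonneg_left (a2 (by rwa [a1R.norm_map]) (by simpa using h)) (neg_pos.2 h).le
    rw [a1R_two, ho] at this
    linarith
  · simp [h]
  · have := mul_le_mul_of_nonneg_left (a1 hL h) h.le
    linarith

end Crest.Agent.R335
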