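import Crest.Agent.R335.Lib

/-!
# R335/C_c: the one body ground state (part of `C`, sub-lead helper10)
-/

set_option autoImplicit false

namespace Crest.Agent.R335

open MeasureTheory Set Filter Topology
open scoped Gradient RealInnerProductSpace ENNReal ContDiff
open Crest.MathPhysics.ThreeBody

variable {E : Type} [NormedAddCommGroup E] [InnerProductSpace ℝ E] [FiniteDimensional ℝ E]
  [MeasurableSpace E] [BorelSpace E]

variable {V f φ : E → ℝ} {G Gφ : E → E} {e e1 e2 : ℝ}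

theorem cc_nsq (c : ℝ) (f : E → ℝ) : nsq (fun x => c * f x) = c ^ 2 * nsq f := by
  simp only [nsq, mul_pow, integral_const_mul]

theorem cc_qf (c : ℝ) (W f : E → ℝ) (G : E → E) : qf W (fun x => c * f x) (fun x => c • G x) = c ^ 2 * qf W f G := by
  have e : ∀ x, W x * (c ^ 2 * f x ^ 2) = c ^ 2 * (W x * f x ^ 2) := fun x => by ring
  simp only [qf, norm_smul, mul_pow, Real.norm_eq_abs, sq_abs, e, integral_const_mul]
  ring

theorem cc_abs (hV : FB V) (hlow : ∀ g K, H1 g K → e * nsq g ≤ qf V g K) (hf : H1 f G)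
    (he : qf V f G ≤ e * nsq f) : Eig V e f G ∧ Eig V e (fun x => |f x|) fun x => if 0 ≤ f x then G x else -G x := by
  have h : ∀ {f G}, H1 f G → qf V f G ≤ e * nsq f → Eig V e f G := fun hf he =>
    ⟨hf, fun g K hg => euler hV cls_univ (fun g K hg _ => hlow g K hg) hf trivial he g K hg trivial⟩
  refine ⟨h hf he, h hf.abs ?_⟩
  have e1 : ∀ x, ‖if 0 ≤ f x then G x else -G x‖ = ‖G x‖ := fun x => by split_ifs <;> simp
  simpa only [qf, nsq, sq_abs, e1] using he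

theorem cc_zero (hV : FB V) (hlow : ∀ g K, H1 g K → e * nsq g ≤ qf V g K) (hφ : MemLp φ 2 volume)
    (hp : ∀ᵐ x, 0 < φ x) (hf : Eig V e f G) (h0 : ip φ f = 0) : ∀ᵐ x, f x = 0 := by
  have hi : Integrable fun x => φ x * f x := hφ.integrable_mul hf.h1.mf
  have h1 : ∀ᵐ x, φ x * f x = 0 := by
    rcases pos_or_zero hV ((cc_abs hV hlow hf.h1 hf.qf_eq.le).2.lin hV hf 1 1) isOpen_univ convex_univ
      (Eventually.of_forall fun x _ => by linarith [neg_abs_le (f x)]) with h | h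
    · have := (integral_eq_zero_iff_of_nonneg_ae (f := fun x => -(φ x * f x)) (by
        filter_upwards [h, hp] with x h1 h2
        exact neg_nonneg.2 (mul_nonpos_of_nonneg_of_nonpos h2.le (by linarith [h1 trivial, abs_nonneg (f x)])))
        hi.neg).1 (by rw [integral_neg, neg_eq_zero]; exact h0)
      exact this.mono fun x hx => neg_eq_zero.1 hx
    · exact (integral_eq_zero_iff_of_nonneg_ae (by
        filter_upwards [h, hp] with x h1 h2
        refine mul_nonneg h2.le (not_lt.1 fun h3 => ?_)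
        have := h1 trivial
        rw [abs_of_neg h3] at this
        linarith) hi).1 h0
  filter_upwards [h1, hp] with x h1 h2
  exact (mul_eq_zero.1 h1).resolve_left h2.ne'

/-- normalisation (`H1.const_mul` with `c = (√(nsq f))⁻¹`) -/
theorem c_normalise (hf : H1 f G) (h0 : 0 < nsq f) : ∃ c : ℝ, 0 < c ∧ c ^ 2 * nsq f = 1 ∧
    nsq (fun x => c * f x) = 1 ∧ ∀ W : E → ℝ, qf W (fun x => c * f x) (fun x => c • G x) = c ^ 2 * qf W f G := by
  have h : (√(nsq f))⁻¹ ^ 2 * nsq f = 1 := by rw [inv_pow, Real.sq_sqrt h0.le, inv_mul_cancel₀ h0.ne']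
  exact ⟨(√(nsq f))⁻¹, by positivity, h, (cc_nsq _ _).trans h, fun W => cc_qf _ _ _ _⟩

/-- `e = sInf {qf V g K | H1 g K, nsq g = 1}`; bounded below by `FB.kin_le`; if `nsq g = 0` then `g = 0`, `K = 0` a.e.
(`nsq_eq_zero`, `H1.unique`, `H1.zero`, `qf_congr`) -/
theorem c_inf (hV : FB V) (hf : H1 f G) (h0 : 0 < nsq f) : ∃ e : ℝ, (∀ g K, H1 g K → e * nsq g ≤ qf V g K) ∧
    ∀ ε : ℝ, 0 < ε → ∃ g K, H1 g K ∧ nsq g = 1 ∧ qf V g K < e + ε := by
  obtain ⟨C, -, hC⟩ := hV.kin_le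
  have hb : BddBelow {t | ∃ g K, H1 g K ∧ nsq g = 1 ∧ qf V g K = t} := ⟨-C / 4, by
    rintro _ ⟨g, K, hg, h1, rfl⟩
    have := hC g K hg
    have := s1_kin_nonneg K
    rw [h1] at *
    linarith⟩
  obtain ⟨c, -, -, hc, -⟩ := c_normalise hf h0
  have hn : {t | ∃ g K, H1 g K ∧ nsq g = 1 ∧ qf V g K = t}.Nonempty := ⟨_, _, _, hf.const_mul c, hc, rfl⟩
  refine ⟨sInf {t | ∃ g K, H1 g K ∧ nsq g = 1 ∧ qf V g K = t}, fun g K hg => ?_, fun ε hε => ?_⟩
  · rcases (nsq_nonneg (f := g)).eq_or_lt with h | h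
    · have h1 : g =ᵐ[volume] fun _ => 0 := nsq_eq_zero hg.mf h.symm
      rw [← h, qf_congr h1 (hg.unique H1.zero h1)]
      simp [qf]
    · obtain ⟨c, hc0, hc1, hc2, hc3⟩ := c_normalise hg h
      have h1 := csInf_le hb ⟨_, _, hg.const_mul c, hc2, rfl⟩
      rw [hc3] at h1
      calc _ ≤ c ^ 2 * qf V g K * nsq g := mul_le_mul_of_nonneg_right h1 h.le
        _ = qf V g K * (c ^ 2 * nsq g) := by ring
        _ = _ := by rw [hc1, mul_one]
  · obtain ⟨_, ⟨g, K, hg, h1, rfl⟩, h2⟩ := exists_lt_of_csInf_lt hn (lt_add_of_pos_right _ hε)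
    exact ⟨g, K, hg, h1, h2⟩

/-- `|f|` has the same `qf` and `nsq` (`H1.abs`), hence is a minimiser and an eigenfunction (`euler` with `cls_univ`);
`pos_or_zero` with `Ω = univ`; normalise.  Simplicity: `h = g - ip φ g • φ` is an eigenfunction (`Eig.lin`), so a
minimiser (`Eig.qf_eq`), orthogonal to `φ`; `(|h| + h) / 2 ≥ 0` is an eigenfunction, so `h ≤ 0` a.e. or `h > 0` a.e.;
`φ h` has a sign and integral `0`, so `h = 0` a.e. -/
theorem c_ground (hV : FB V) (hlow : ∀ g K, H1 g K → e * nsq g ≤ qf V g K) (hf : H1 f G) (h0 : 0 < nsq f)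
    (he : qf V f G ≤ e * nsq f) : ∃ φ Gφ, Eig V e φ Gφ ∧ nsq φ = 1 ∧ (∀ᵐ x, 0 < φ x) ∧
      ∀ g K, H1 g K → qf V g K ≤ e * nsq g → ∀ᵐ x, g x = ip φ g * φ x := by
  obtain ⟨c, hc0, hc1, -, -⟩ := c_normalise hf h0
  have h1 := (cc_abs hV hlow hf he).2
  have h2 := h1.lin hV h1 c 0
  have hpos : ∀ᵐ x, 0 < |f x| := by
    rcases pos_or_zero hV h1 isOpen_univ convex_univ (Eventually.of_forall fun x _ => abs_nonneg _) with h | h
    · refine absurd ?_ h0.ne'
      exact integral_eq_zero_of_ae (h.mono fun x hx => by simp [abs_eq_zero.1 (hx trivial)])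
    · exact h.mono fun x hx => hx trivial
  have hn : nsq (fun x => c * |f x| + 0 * |f x|) = 1 := by
    simp only [zero_mul, add_zero, cc_nsq]
    simpa only [nsq, sq_abs] using hc1
  have hp : ∀ᵐ x, 0 < c * |f x| + 0 * |f x| := hpos.mono fun x hx => by positivity
  refine ⟨_, _, h2, hn, hp, fun g K hg hle => ?_⟩
  have := cc_zero hV hlow h2.h1.mf hp ((cc_abs hV hlow hg hle).1.lin hV h2 1 (-ip (fun x => c * |f x| + 0 * |f x|) g))
    (by rw [s13a_ip_lin h2.h1.mf hg.mf h2.h1.mf, ip_self, hn]; ring)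
  exact this.mono fun x hx => by linarith

/-- expand `f = α φ + g`, `α = ip φ f`, `g ⊥ φ` (`qf_lin`, `nsq_lin`, `Eig.eq`, `Eig.qf_eq`) -/
theorem c_low (hV : FB V) (hφ : Eig V e1 φ Gφ) (hn : nsq φ = 1)
    (h : ∀ g K, H1 g K → ip φ g = 0 → e2 * nsq g ≤ qf V g K) :
    ∀ f G, H1 f G → e2 * nsq f - (e2 - e1) * ip φ f ^ 2 ≤ qf V f G := by
  intro f G hf
  have hg := (hf.const_mul 1).add (hφ.h1.const_mul (-ip φ f))
  have h1 := h _ _ hg (by rw [s13a_ip_lin hφ.h1.mf hf.mf hφ.h1.mf, ip_self, hn]; ring)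
  rw [qf_lin hV hf hφ.h1, nsq_lin hf.mf hφ.h1.mf, bf_comm, hφ.eq _ _ hf, hφ.qf_eq, hn, ip_comm (f := f)] at h1
  nlinarith

end Crest.Agent.R335
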