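import Crest.Agent.R335.A1_m
import Crest.Agent.R335.A1_f
import Crest.Agent.R335.A1_h
import Crest.Agent.R335.A1_i
import Crest.Agent.R335.A1_j
import Crest.Agent.R335.A1_l
import Crest.Agent.R335.C_c

/-!
# R335/A1: the one electron problem with two centres (SUB-LEAD part)

1. Hydrogen gap.  `a = exp(-‖x‖)` (use the smooth `exp(-√(‖x‖²+ε²))` or `H1.of_dominated` to see `a ∈ H¹`,
   `-Δa/2 - a/‖x‖ = -a/2` weakly).  Claim: `∃ c₀ > 0, ∀ f ∈ H¹, qf (-1/‖x‖) f ≥ (-1/2 + c₀) nsq f - M ip a f ²`.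
   Cheapest route: `E f := qf f + nsq f / 2 ≥ (1/2) ∫ a² ‖∇(f/a)‖²` (`picone`), in particular `E ≥ 0`, and
   `E (f - t a) = E f`.  Choose `t` = mean of `f/a` on `closedBall 0 8`, `h = f - t a`; `poincare_pair` gives
   `∫_{B 8} h² ≤ C E f`.  With `χ = 0` on `B 4`, `1` off `B 8`: `(1/4) nsq (χ h) ≤ E (χ h)` (potential `≥ -1/4`) and
   `E (χ h) ≤ C (E h + ∫_{B 8} h²)` by IMS (`qf_ims`, `E ≥ 0` on the other piece).  So `nsq h ≤ C E f`, and
   `nsq f - ip a f ² / nsq a ≤ nsq h`.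
2. Two centres: IMS partition `χ₁² + χ₂² + χ₀² = 1`, `χ_i` supported in `ball (± D e) (D/2)`, gradients `≤ C / D`.
   On `supp χ₁` the other nucleus contributes `≥ -1/D`, on `supp χ₀` the potential is `≥ -C/D`.  Hence
   `qf (V1 D) f ≥ e* nsq f - M (ip a₁ f ² + ip a₂ f ²)`, `e* = -1/2 + c₀/2`, `a_i = χ_i a(· ∓ D e)`, for `D ≥ D₀`.
3. Trial functions `a₁ ± a₂` (disjoint supports) have energy `≤ -1/2 + o(1) < e*`.  `exists_min` on all of `H¹` gives `g`
   (replace by `|g|`, `euler`, `pos_or_zero` on `univ`; simplicity: if `g'` is another minimiser then `g' - t g` with `t` such that it is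
   orthogonal to `g` is a minimiser, so is its modulus, which is `0` or positive a.e., so `g' - t g` has a sign: it is `0`); hence
   `g ∘ T = g`.  `exists_min` on the class of `z`-odd functions gives `u` (Euler equation for all test functions: split into even and odd
   part); replace `u` by `|u| sgn z` (`H1.half`), `pos_or_zero` on the half space; uniqueness in the class as before gives `u ∘ T = ± u`.
   `eg ≤ eu`; equality would make `u` a multiple of `g`.
4. `low`: the level after `g` could a priori be an even state below `eu`; this is excluded as follows.  On `{g,u}^⊥` the form is `≥ e*`: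
   otherwise `span {g, u, f}` (3-dimensional, the form is diagonal, all values `< e*`) contains a nonzero vector orthogonal to `a₁, a₂`.
   Put `e3 = e*`; expand `f = α g + β u + f'`.
5. `hopf`: `u` has a continuous representative off the axis (`exists_cont` with `sumClass_V1`; local boundedness off the nuclei from
   `sup_sub`), but the shell meets the axis: use `sup_sub`/barriers directly.  One way: `-u` is a subsolution of `-Δ/2 + M` on `{z > 0}` far from
   the nuclei (`M ≥ V1 - eu`, `u ≥ 0`).  (a) On compact subsets of `{z > 0} ∖ {D e}`, `u ≥ c > 0` a.e.: `ℓ = -log(u + ε)` as in `P4`,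
   with bounded potential (`exists_kernel`, `log_energy`, `poincare_sub`).  (b) Near the plane compare with
   `B = c sinh(ω z) cos(π (x - a)/2) cos(π (y - b)/2)` on the box `|x - a|, |y - b| < 1`, `0 < z < 1` (`cmp_sub_odd` applied to `-u`, barrier `-B`
   extended to a slightly larger box on which it is `≥ 0` laterally); cover the circle-strip by finitely many boxes.
-/

set_option autoImplicit false

namespace Crest.Agent.R335

open MeasureTheory Set Filter Topology
open scoped Gradient RealInnerProductSpace ENNReal ContDiff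
open Crest.MathPhysics.ThreeBody

theorem oneB_unif : ∃ cs : ℝ, 0 < cs ∧ ∀ ε : ℝ, 0 < ε → ∃ D₀ : ℝ, ∀ D : ℝ, D₀ ≤ D →
    ∃ (eg eu e3 : ℝ) (g : E3 → ℝ) (Gg : E3 → E3) (u : E3 → ℝ) (Gu : E3 → E3),
      OneB D eg eu e3 g Gg u Gu ∧ eu + cs ≤ e3 ∧ |eg + 1 / 2| ≤ ε ∧ |eu + 1 / 2| ≤ ε := by
  obtain ⟨c₁, D₁, hc₁, hc₁', hlow⟩ := a1_two_low
  refine ⟨c₁ / 2, by positivity, fun ε hε => ?_⟩
  have hδ : 0 < min ε (c₁ / 2) := by positivity
  have hδ1 : min ε (c₁ / 2) ≤ ε := min_le_left _ _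
  have hδ2 : min ε (c₁ / 2) ≤ c₁ / 2 := min_le_right _ _
  obtain ⟨D₂, htr⟩ := a1_trial hδ
  obtain ⟨D₄, hl0⟩ := a1_two_low0 hε
  refine ⟨max (max (max D₁ D₂) 1) D₄, fun D hD₄ => ?_⟩
  have hD : max (max D₁ D₂) 1 ≤ D := (le_max_left _ _).trans hD₄
  have hD4 : D₄ ≤ D := (le_max_right _ _).trans hD₄
  have hD1 : D₁ ≤ D := ((le_max_left _ _).trans (le_max_left _ _)).trans hD
  have hD2 : D₂ ≤ D := ((le_max_right _ _).trans (le_max_left _ _)).trans hD
  have hD3 : 1 ≤ D := (le_max_right _ _).trans hD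
  obtain ⟨a, ha, hlow'⟩ := hlow D hD1
  have hlow : ∀ f G, H1 f G → (-1 / 2 + min ε (c₁ / 2)) * nsq f - 1 * ∑ i, ip (a i) f ^ 2 ≤ qf (V1 D) f G := by
    intro f G hf
    have h1 := hlow' f G hf
    have h2 : (-1 / 2 + min ε (c₁ / 2)) * nsq f ≤ (-1 / 2 + c₁) * nsq f :=
      mul_le_mul_of_nonneg_right (by linarith) nsq_nonneg
    linarith
  obtain ⟨τ, Kτ, hτ, hτ0, hτe⟩ := htr D hD2
  have hV := fb_V1 D
  have hs : ∀ T, Sym T → ∀ x, V1 D (T x) = V1 D x := fun T hT x => V1_sym D hT x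
  -- the ground state
  obtain ⟨g₀, K₀, hg₀, -, ng₀, hg₀e, hg₀m⟩ :=
    exists_min hV cls_univ ha (fun g K h _ => hlow g K h) hτ trivial hτe
  have hmin : ∀ g K, H1 g K → qf (V1 D) g₀ K₀ * nsq g ≤ qf (V1 D) g K := fun g K h => hg₀m g K h trivial
  obtain ⟨g, Gg, hg, ng, posg, hsimple⟩ := c_ground hV hmin hg₀ (by rw [ng₀]; norm_num) (by rw [ng₀, mul_one])
  have symg : ∀ T, Sym T → ∀ᵐ x, g (T x) = g x := by
    intro T hT
    have hT' := hg.comp_iso T (Eventually.of_forall (hs T hT))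
    have h1 := hsimple _ _ hT'.h1 hT'.qf_eq.le
    set t := ip g fun x => g (T x) with ht
    have h2 : t ^ 2 = 1 := by
      have h3 : nsq (fun x => g (T x)) = nsq fun x => t * g x := a1_nsq_congr h1
      rw [a1_nsq_iso, ng] at h3
      have h4 : nsq (fun x => t * g x) = t ^ 2 * nsq g := by
        unfold nsq
        rw [← integral_const_mul]
        congr 1
        funext x
        ring
      rw [h4, ng] at h3
      linarith
    have h5 : 0 < t := by
      obtain ⟨x, hx1, hx2, hx3⟩ := (h1.and (posg.and (a1_ae_iso T posg))).exists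
      rw [hx1] at hx3
      exact (pos_iff_pos_of_mul_pos hx3).2 hx2
    have h6 : t = 1 := by nlinarith
    filter_upwards [h1] with x hx
    rw [hx, h6, one_mul]
  -- the odd state
  obtain ⟨ho1, ho2, ho3⟩ := a1_odd_ext hV (hs _ a1R_sym) hτ (Eventually.of_forall hτ0)
  obtain ⟨eu, u, Gu, heu, hu, nu, posu, oddu, symuP⟩ :=
    a1_exists_u hV hs ha hlow ho1 (fun x => by simp) (by rw [ho2, ho3]; linarith)
  have orth : ip g u = 0 := a1_ip_even_odd (symg _ a1R_sym) (Eventually.of_forall oddu)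
  have lt1 : qf (V1 D) g₀ K₀ < eu := by
    have h1 := hmin u Gu hu.h1
    rw [hu.qf_eq, nu, mul_one, mul_one] at h1
    refine lt_of_le_of_ne h1 fun h => ?_
    have h2 := hsimple u Gu hu.h1 (by rw [hu.qf_eq, h])
    rw [orth] at h2
    have h3 : nsq u = nsq fun _ : E3 => (0 : ℝ) := a1_nsq_congr (h2.mono fun x hx => by simpa using hx)
    rw [nu] at h3
    simp [nsq] at h3
  have neg : eu < 0 := by linarith
  obtain ⟨x₀, s, m, hs0, hm, hx₀, hb⟩ := a1_ball hu posu
  have hg₀l := hl0 D hD4 g₀ K₀ hg₀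
  rw [ng₀, mul_one] at hg₀l
  refine ⟨qf (V1 D) g₀ K₀, eu, -1 / 2 + c₁, g, Gg, u, Gu, ⟨hD3, hg, hu, ng, nu, orth, lt1, by linarith, neg,
    a1_low hV ha hlow' hg hu ng nu orth (by linarith) (by linarith), symg, symuP, fun T hT => ?_, posg, posu,
    fun L _ => ?_⟩, by linarith, abs_le.2 ⟨by linarith, by linarith⟩, abs_le.2 ⟨by linarith, by linarith⟩⟩
  · have h1 : SymP (T.trans a1R) := fun x => by simp [hT x]
    filter_upwards [symuP _ h1] with x hx
    rw [LinearIsometryEquiv.trans_apply, oddu] at hx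
    linarith
  · obtain ⟨c, hc, h⟩ := a1_hopf (a1_V1_nonpos D) neg hu posu oddu hs0 hm hx₀ hb (L + 4)
    exact ⟨c, hc, h.mono fun x hx _ h2 => hx h2⟩

theorem oneB : ∃ D₀ : ℝ, ∀ D : ℝ, D₀ ≤ D → ∃ (eg eu e3 : ℝ) (g : E3 → ℝ) (Gg : E3 → E3) (u : E3 → ℝ) (Gu : E3 → E3),
    OneB D eg eu e3 g Gg u Gu := by
  obtain ⟨cs, -, h⟩ := oneB_unif
  obtain ⟨D₀, h⟩ := h 1 one_pos
  refine ⟨D₀, fun D hD => ?_⟩
  obtain ⟨eg, eu, e3, g, Gg, u, Gu, h1, -⟩ := h D hD
  exact ⟨eg, eu, e3, g, Gg, u, Gu, h1⟩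

end Crest.Agent.R335
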