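import Crest.Agent.R335.Lib

/-!
# R335/A1_a: definitions and small tools for `A1` (sub-lead helper78)
-/

set_option autoImplicit false

namespace Crest.Agent.R335

open MeasureTheory Set Filter Topology
open scoped Gradient RealInnerProductSpace ENNReal ContDiff
open Crest.MathPhysics.ThreeBody

/-- the Coulomb potential of a unit charge at `p` -/
noncomputable def a1VC (p x : E3) : ℝ := -1 / ‖x - p‖

/-- the reflection `z ↦ -z` as an isometry -/
noncomputable def a1R : E3 ≃ₗᵢ[ℝ] E3 := Classical.choose (exists_refl 2)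

theorem a1R_apply (x : E3) (j : Fin 3) : a1R x j = if j = 2 then -x j else x j :=
  (Classical.choose_spec (exists_refl 2)).2.2.2.2 x j

@[simp] theorem a1R_two (x : E3) : a1R x 2 = -x 2 := by simp [a1R_apply]

@[simp] theorem a1R_R (x : E3) : a1R (a1R x) = x := (Classical.choose_spec (exists_refl 2)).2.2.2.1 x

@[simp] theorem a1R_symm (x : E3) : a1R.symm x = a1R x := by
  apply a1R.injective
  simp

theorem a1R_symM : SymM a1R := a1R_two

theorem a1R_sym : Sym a1R := Or.inr a1R_symM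

theorem a1R_eq (x : E3) : a1R x = x - (2 * x 2) • EuclideanSpace.single 2 (1 : ℝ) := by
  ext j
  rw [a1R_apply]
  fin_cases j <;> simp
  ring

theorem a1_ae_iso (T : E3 ≃ₗᵢ[ℝ] E3) {p : E3 → Prop} (h : ∀ᵐ x, p x) : ∀ᵐ x, p (T x) :=
  T.measurePreserving.quasiMeasurePreserving.ae h

/-- the symmetry group commutes with the reflection -/
theorem a1R_comm {T : E3 ≃ₗᵢ[ℝ] E3} (h : Sym T) (x : E3) : T (a1R x) = a1R (T x) := by
  have key : ∀ c : ℝ, c ^ 2 = 1 → (∀ y, T y 2 = c * y 2) → T (a1R x) = a1R (T x) := by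
    intro c hc hT
    have h2 : T (EuclideanSpace.single 2 (1 : ℝ)) 2 = c := by simp [hT]
    have hn : ‖T (EuclideanSpace.single 2 (1 : ℝ))‖ ^ 2 = 1 := by simp
    rw [EuclideanSpace.real_norm_sq_eq, Fin.sum_univ_three, h2, hc] at hn
    have h0 : T (EuclideanSpace.single 2 (1 : ℝ)) 0 = 0 := by
      nlinarith [sq_nonneg (T (EuclideanSpace.single 2 (1 : ℝ)) 0), sq_nonneg (T (EuclideanSpace.single 2 (1 : ℝ)) 1)]
    have h1 : T (EuclideanSpace.single 2 (1 : ℝ)) 1 = 0 := by
      nlinarith [sq_nonneg (T (EuclideanSpace.single 2 (1 : ℝ)) 0), sq_nonneg (T (EuclideanSpace.single 2 (1 : ℝ)) 1)]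
    have he : T (EuclideanSpace.single 2 (1 : ℝ)) = c • EuclideanSpace.single 2 (1 : ℝ) := by
      ext j
      fin_cases j
      · simpa using h0
      · simpa using h1
      · simpa using h2
    rw [a1R_eq x, a1R_eq (T x), map_sub, map_smul, he, smul_smul, hT x]
    congr 2
    ring
  rcases h with h | h
  · exact key 1 (by norm_num) fun y => by rw [h y, one_mul]
  · exact key (-1) (by norm_num) fun y => by rw [h y]; ring

theorem a1_fb_VC (p : E3) : FB (a1VC p) := by
  have h := (FB.of_sumClass (sumClass_coulomb p)).const_mul (-1)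
  have e : a1VC p = fun x => -1 * (1 / ‖x - p‖) := by
    funext x
    unfold a1VC
    ring
  rw [e]
  exact h

theorem a1VC_nonpos (p x : E3) : a1VC p x ≤ 0 :=
  div_nonpos_of_nonpos_of_nonneg (by norm_num) (norm_nonneg _)

theorem a1_V1_eq (D : ℝ) (x : E3) :
    V1 D x = a1VC (EuclideanSpace.single 2 D) x + a1VC (EuclideanSpace.single 2 (-D)) x := by
  unfold V1 a1VC
  ring

theorem a1_V1_nonpos (D : ℝ) (x : E3) : V1 D x ≤ 0 := by
  rw [a1_V1_eq]
  exact add_nonpos (a1VC_nonpos _ _) (a1VC_nonpos _ _)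

variable {V W f g : E3 → ℝ} {G K : E3 → E3}

/-- adding a potential -/
theorem a1_qf_add (hV : FB V) (hW : FB W) (hf : H1 f G) :
    qf (fun x => V x + W x) f G = qf V f G + ∫ x, W x * f x ^ 2 := by
  unfold qf
  have e : ∫ x, (V x + W x) * f x ^ 2 = (∫ x, V x * f x ^ 2) + ∫ x, W x * f x ^ 2 := by
    rw [← integral_add (hV.int f G hf) (hW.int f G hf)]
    congr 1
    funext x
    ring
  rw [e]
  ring

theorem a1_ip_iso (T : E3 ≃ₗᵢ[ℝ] E3) (f g : E3 → ℝ) : ip (fun x => f (T x)) (fun x => g (T x)) = ip f g :=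
  s1_int_iso T fun x => f x * g x

theorem a1_nsq_iso (T : E3 ≃ₗᵢ[ℝ] E3) (f : E3 → ℝ) : nsq (fun x => f (T x)) = nsq f :=
  s1_int_iso T fun x => f x ^ 2

theorem a1_bf_iso (T : E3 ≃ₗᵢ[ℝ] E3) (hV : ∀ x, V (T x) = V x) (f g : E3 → ℝ) (G K : E3 → E3) :
    bf V (fun x => f (T x)) (fun x => T.symm (G (T x))) (fun x => g (T x)) (fun x => T.symm (K (T x))) =
      bf V f G g K := by
  unfold bf
  have e1 : ∫ x, ⟪T.symm (G (T x)), T.symm (K (T x))⟫ = ∫ x, ⟪G x, K x⟫ := by
    rw [← s1_int_iso T fun x => ⟪G x, K x⟫]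
    simp
  have e2 : ∫ x, V x * (f (T x) * g (T x)) = ∫ x, V x * (f x * g x) := by
    rw [← s1_int_iso T fun x => V x * (f x * g x)]
    simp [hV]
  rw [e1, e2]

theorem a1_qf_iso (T : E3 ≃ₗᵢ[ℝ] E3) (hV : ∀ x, V (T x) = V x) (f : E3 → ℝ) (G : E3 → E3) :
    qf V (fun x => f (T x)) (fun x => T.symm (G (T x))) = qf V f G := by
  rw [← bf_self, a1_bf_iso T hV, bf_self]

theorem a1_nsq_congr (h : f =ᵐ[volume] g) : nsq f = nsq g :=
  integral_congr_ae (h.mono fun x hx => by simp only [hx])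

theorem a1_ip_congr {f' g' : E3 → ℝ} (h : f =ᵐ[volume] f') (h' : g =ᵐ[volume] g') : ip f g = ip f' g' :=
  integral_congr_ae (by filter_upwards [h, h'] with x hx hx'; simp only [hx, hx'])

theorem a1_bf_congr {f' g' : E3 → ℝ} {G' K' : E3 → E3} (h1 : f =ᵐ[volume] f') (h2 : G =ᵐ[volume] G')
    (h3 : g =ᵐ[volume] g') (h4 : K =ᵐ[volume] K') : bf V f G g K = bf V f' G' g' K' := by
  unfold bf
  rw [integral_congr_ae (g := fun x => ⟪G' x, K' x⟫) (by filter_upwards [h2, h4] with x hx hx'; simp only [hx, hx']),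
    integral_congr_ae (f := fun x => V x * (f x * g x)) (g := fun x => V x * (f' x * g' x))
      (by filter_upwards [h1, h3] with x hx hx'; simp only [hx, hx'])]

/-- the modulus has the same norm and energy -/
theorem a1_abs (V f : E3 → ℝ) (G : E3 → E3) : nsq (fun x => |f x|) = nsq f ∧
    qf V (fun x => |f x|) (fun x => if 0 ≤ f x then G x else -G x) = qf V f G := by
  refine ⟨by simp [nsq], ?_⟩
  unfold qf
  have e : ∀ x, ‖(if 0 ≤ f x then G x else -G x)‖ = ‖G x‖ := fun x => by split_ifs <;> simp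
  simp [e]

/-- an even and an odd function are orthogonal -/
theorem a1_ip_even_odd (hf : ∀ᵐ x, f (a1R x) = f x) (hg : ∀ᵐ x, g (a1R x) = -g x) : ip f g = 0 := by
  have h1 := a1_ip_iso a1R f g
  have h2 : ip (fun x => f (a1R x)) (fun x => g (a1R x)) = -ip f g := by
    unfold ip
    rw [← integral_neg]
    refine integral_congr_ae ?_
    filter_upwards [hf, hg] with x h1 h2
    rw [h1, h2]
    ring
  linarith

end Crest.Agent.R335
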