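import Crest.Agent.R335.A1_a

/-!
# R335/A1_b: the ground state identity of hydrogen (part of `A1`, sub-lead helper78)
-/

set_option autoImplicit false

namespace Crest.Agent.R335

open MeasureTheory Set Filter Topology
open scoped Gradient RealInnerProductSpace ENNReal ContDiff
open Crest.MathPhysics.ThreeBody

variable {f : E3 → ℝ} {G : E3 → E3}

theorem a1b_div (a : E3) {δ : ℝ} (hδ : 0 < δ) (x : E3) :
    LinearMap.trace ℝ E3 (fderiv ℝ (fun y : E3 => (√(‖y - a‖ ^ 2 + δ))⁻¹ • (y - a)) x : E3 →ₗ[ℝ] E3) =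
      3 * (√(‖x - a‖ ^ 2 + δ))⁻¹ - ‖x - a‖ ^ 2 * (√(‖x - a‖ ^ 2 + δ))⁻¹ ^ 3 := by
  have h0 : ‖x - a‖ ^ 2 + δ ≠ 0 := by positivity
  have h0' : √(‖x - a‖ ^ 2 + δ) ≠ 0 := by positivity
  have h1 : HasFDerivAt (fun y : E3 => y - a) (ContinuousLinearMap.id ℝ E3) x := (hasFDerivAt_id x).sub_const a
  have h2 := (hasDerivAt_inv h0').comp_hasFDerivAt x ((h1.norm_sq.add_const δ).sqrt h0)
  have h3 := (h2.smul h1).fderiv
  have e : fderiv ℝ (fun y : E3 => (√(‖y - a‖ ^ 2 + δ))⁻¹ • (y - a)) x = _ := h3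
  rw [e]
  have e2 : ∀ (L : E3 →L[ℝ] ℝ) (c : ℝ) (v : E3),
      LinearMap.trace ℝ E3 ((c • ContinuousLinearMap.id ℝ E3 + L.smulRight v : E3 →L[ℝ] E3) : E3 →ₗ[ℝ] E3) =
        3 * c + L v := fun L c v => by
    have e3 : ((c • ContinuousLinearMap.id ℝ E3 + L.smulRight v : E3 →L[ℝ] E3) : E3 →ₗ[ℝ] E3) =
        c • LinearMap.id + (L : E3 →ₗ[ℝ] ℝ).smulRight v := rfl
    rw [e3, map_add, map_smul, LinearMap.trace_id, LinearMap.trace_smulRight, finrank_euclideanSpace_fin]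
    simp [mul_comm]
  rw [e2]
  simp only [Function.comp_apply, ContinuousLinearMap.smul_apply, ContinuousLinearMap.comp_apply,
    ContinuousLinearMap.id_apply, innerSL_apply_apply, real_inner_self_eq_norm_sq, smul_eq_mul, nsmul_eq_mul,
    Nat.cast_ofNat]
  field_simp
  ring

theorem a1b_ne (p : E3) : ∀ᵐ x : E3, x ≠ p := by
  filter_upwards [ae_coord_ne 0 (p 0)] with x hx h
  exact hx (by rw [h])

theorem a1b_unit (p x : E3) : ‖(‖x - p‖⁻¹) • (x - p)‖ ≤ 1 := by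
  rw [norm_smul, norm_inv, norm_norm]
  exact inv_mul_le_one_of_le₀ le_rfl (norm_nonneg _)

theorem a1b_meas (p : E3) : AEStronglyMeasurable (fun x : E3 => (‖x - p‖⁻¹) • (x - p)) volume :=
  (show Measurable fun x : E3 => (‖x - p‖⁻¹) • (x - p) by fun_prop).aestronglyMeasurable

theorem a1b_memLp (hf : MemLp f 2 volume) (p : E3) : MemLp (fun x => f x • (‖x - p‖⁻¹) • (x - p)) 2 volume := by
  refine hf.of_le (hf.1.smul (a1b_meas p)) (Eventually.of_forall fun x => ?_)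
  rw [norm_smul]
  exact mul_le_of_le_one_right (norm_nonneg _) (a1b_unit p x)

theorem a1b_th (hf : TH univ f G) (p : E3) :
    ∫ x, a1VC p x * f x ^ 2 = ∫ x, f x * ⟪G x, (‖x - p‖⁻¹) • (x - p)⟫ := by
  have hδ : ∀ n : ℕ, (0 : ℝ) < 1 / ((n : ℝ) + 1) := fun n => by positivity
  have hY : ∀ n : ℕ, ContDiff ℝ 1 fun y : E3 => (√(‖y - p‖ ^ 2 + 1 / ((n : ℝ) + 1)))⁻¹ • (y - p) := fun n => by
    have h1 : ContDiff ℝ 1 fun y : E3 => y - p := contDiff_id.sub contDiff_const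
    have h2 : ContDiff ℝ 1 fun y : E3 => ‖y - p‖ ^ 2 + 1 / ((n : ℝ) + 1) := (h1.norm_sq ℝ).add contDiff_const
    have h3 := h2.sqrt fun y => by positivity
    exact (h3.inv fun y => by positivity).smul h1
  have h := fun n : ℕ => hf.sq_div isOpen_univ (hY n).contDiffOn
  simp only [fun n : ℕ => a1b_div p (hδ n)] at h
  have hw : ∀ n : ℕ, Continuous fun y : E3 => (√(‖y - p‖ ^ 2 + 1 / ((n : ℝ) + 1)))⁻¹ := fun n =>
    Continuous.inv₀ (by fun_prop) fun y => by positivity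
  have hle : ∀ (n : ℕ) (x : E3), ‖x - p‖ ≤ √(‖x - p‖ ^ 2 + 1 / ((n : ℝ) + 1)) := fun n x =>
    Real.le_sqrt_of_sq_le (le_add_of_nonneg_right (hδ n).le)
  have hlim : ∀ x : E3, x ≠ p →
      Tendsto (fun n : ℕ => (√(‖x - p‖ ^ 2 + 1 / ((n : ℝ) + 1)))⁻¹) atTop (𝓝 ‖x - p‖⁻¹) := fun x hx => by
    have t := ((tendsto_one_div_add_atTop_nhds_zero_nat (𝕜 := ℝ)).const_add (‖x - p‖ ^ 2)).sqrt
    rw [add_zero, Real.sqrt_sq (norm_nonneg _)] at t
    exact t.inv₀ (norm_ne_zero_iff.2 (sub_ne_zero.2 hx))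
  have t1 := tendsto_integral_of_dominated_convergence (μ := volume)
    (F := fun (n : ℕ) x => (3 * (√(‖x - p‖ ^ 2 + 1 / ((n : ℝ) + 1)))⁻¹ -
      ‖x - p‖ ^ 2 * (√(‖x - p‖ ^ 2 + 1 / ((n : ℝ) + 1)))⁻¹ ^ 3) * f x ^ 2)
    (f := fun x => -2 * (a1VC p x * f x ^ 2)) (fun x => -3 * (a1VC p x * f x ^ 2))
    (fun n => (((continuous_const.mul (hw n)).sub (Continuous.mul (by fun_prop) ((hw n).pow 3))).aestronglyMeasurable).mul
      hf.h1.int_sq.1) (((a1_fb_VC p).int f G hf.h1).const_mul _) (fun n => ?_) ?_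
  rotate_left
  · filter_upwards [a1b_ne p] with x hx
    have r0 : 0 < ‖x - p‖ := norm_pos_iff.2 (sub_ne_zero.2 hx)
    have r1 := hle n x
    set ρ := √(‖x - p‖ ^ 2 + 1 / ((n : ℝ) + 1))
    have r2 : 0 < ρ := r0.trans_le r1
    have r3 : ρ⁻¹ ≤ ‖x - p‖⁻¹ := inv_anti₀ r0 r1
    have r4 : ‖x - p‖ ^ 2 * ρ⁻¹ ^ 3 ≤ ρ⁻¹ := by
      have : ‖x - p‖ * ρ⁻¹ ≤ 1 := mul_inv_le_one_of_le₀ r1 r2.le
      have h2 : (‖x - p‖ * ρ⁻¹) ^ 2 ≤ 1 := pow_le_one₀ (by positivity) this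
      calc _ = (‖x - p‖ * ρ⁻¹) ^ 2 * ρ⁻¹ := by ring
        _ ≤ _ := mul_le_of_le_one_left (by positivity) h2
    have r5 : 0 ≤ ‖x - p‖ ^ 2 * ρ⁻¹ ^ 3 := by positivity
    have r6 : 0 < ρ⁻¹ := inv_pos.2 r2
    rw [Real.norm_of_nonneg (mul_nonneg (by linarith) (sq_nonneg _))]
    have e : -3 * (a1VC p x * f x ^ 2) = 3 * ‖x - p‖⁻¹ * f x ^ 2 := by unfold a1VC; ring
    rw [e]
    exact mul_le_mul_of_nonneg_right (by linarith) (sq_nonneg _)
  · filter_upwards [a1b_ne p] with x hx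
    have r0 : 0 < ‖x - p‖ := norm_pos_iff.2 (sub_ne_zero.2 hx)
    have t := ((((hlim x hx).const_mul 3).sub (((hlim x hx).pow 3).const_mul (‖x - p‖ ^ 2))).mul_const (f x ^ 2))
    convert t using 2
    unfold a1VC
    field_simp
    ring
  have t2 := tendsto_integral_of_dominated_convergence (μ := volume)
    (F := fun (n : ℕ) x => 2 * f x * ⟪G x, (√(‖x - p‖ ^ 2 + 1 / ((n : ℝ) + 1)))⁻¹ • (x - p)⟫)
    (f := fun x => 2 * (f x * ⟪G x, (‖x - p‖⁻¹) • (x - p)⟫)) (fun x => 2 * (‖f x‖ * ‖G x‖))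
    (fun n => (hf.h1.mf.1.const_mul 2).mul (hf.h1.mG.1.inner (hY n).continuous.aestronglyMeasurable))
    ((hf.h1.mf.norm.integrable_mul hf.h1.mG.norm).const_mul 2) (fun n => Eventually.of_forall fun x => ?_) ?_
  rotate_left
  · have r1 : ‖(√(‖x - p‖ ^ 2 + 1 / ((n : ℝ) + 1)))⁻¹ • (x - p)‖ ≤ 1 := by
      rw [norm_smul, norm_inv, Real.norm_of_nonneg (Real.sqrt_nonneg _)]
      exact inv_mul_le_one_of_le₀ (hle n x) (Real.sqrt_nonneg _)
    have r2 := (norm_inner_le_norm (𝕜 := ℝ) (G x) _).trans (mul_le_of_le_one_right (norm_nonneg _) r1)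
    rw [norm_mul, norm_mul, mul_assoc, Real.norm_ofNat]
    gcongr
  · filter_upwards [a1b_ne p] with x hx
    have t := ((tendsto_const_nhds (x := G x)).inner (𝕜 := ℝ) ((hlim x hx).smul_const (x - p))).const_mul (2 * f x)
    rwa [mul_assoc] at t
  have := tendsto_nhds_unique t1 (t2.neg.congr fun n => (h n).symm)
  rw [integral_const_mul, integral_const_mul] at this
  linarith

/-- `∫ f² / r = -∫ f ⟪G, (x - p) / r⟫`.  For `Tst univ` functions (`Tst.th`): `TH.sq_div` with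
`Y = (x - p) / √(‖x - p‖² + ε²)` (compare the proof of `hardy` in `S8`), `div Y = 3 / ρ - r² / ρ³`, `ρ = √(r² + ε²)`; let `ε = 1 / (n + 1) → 0`
by dominated convergence (`0 ≤ div Y ≤ 3 / r` for `x ≠ p`, `f² / r` is integrable by `(a1_fb_VC p).int`, `‖Y‖ ≤ 1`).  General `f`: `H1.dense`,
`FB.qf_tendsto` or `s3_small` on the left, `s3a_tendsto_mul` on the right (`|⟪G, n⟫ - ⟪K, n⟫| ≤ ‖G - K‖`). -/
theorem a1_div (hf : H1 f G) (p : E3) :
    ∫ x, a1VC p x * f x ^ 2 = ∫ x, f x * ⟪G x, (‖x - p‖⁻¹) • (x - p)⟫ := by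
  obtain ⟨φ, hφ, hA, -⟩ := hf.dense
  have h1 : ∀ n, H1 (φ n) (∇ (φ n)) := fun n => (hφ n).h1
  have t1 := (a1_fb_VC p).qf_tendsto h1 hf hA.l2 hA.l2G
  have t2 := (s3a_tendsto_inner (fun n => (h1 n).mG) (fun n => (h1 n).mG) hf.mG hf.mG hA.l2G hA.l2G).const_mul (1 / 2)
  simp only [real_inner_self_eq_norm_sq] at t2
  have t3 := t1.sub t2
  simp only [qf, add_sub_cancel_left] at t3
  have t4 := s3a_tendsto_inner (fun n => (h1 n).mG) (fun n => a1b_memLp (h1 n).mf p) hf.mG (a1b_memLp hf.mf p) hA.l2G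
    (tendsto_of_tendsto_of_tendsto_of_le_of_le tendsto_const_nhds hA.l2 (fun n => zero_le)
      fun n => eLpNorm_mono fun x => by
        rw [← sub_smul, norm_smul]
        exact mul_le_of_le_one_right (norm_nonneg _) (a1b_unit p x))
  simp only [inner_smul_right (𝕜 := ℝ) _ ((‖_ - p‖⁻¹) • _)] at t4
  exact tendsto_nhds_unique t3 (t4.congr fun n => (a1b_th (hφ n).th p).symm)

/-- expand the square (`x ≠ p` a.e., then `(x - p) / ‖x - p‖` is a unit vector) and use `a1_div` -/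
theorem a1_hyd_id (hf : H1 f G) (p : E3) :
    Integrable (fun x => ‖G x + (f x / ‖x - p‖) • (x - p)‖ ^ 2) ∧
      qf (a1VC p) f G + nsq f / 2 = (1 / 2) * ∫ x, ‖G x + (f x / ‖x - p‖) • (x - p)‖ ^ 2 := by
  have m := a1b_memLp hf.mf p
  have e : ∀ x, (f x / ‖x - p‖) • (x - p) = f x • (‖x - p‖⁻¹) • (x - p) := fun x => by
    rw [smul_smul, div_eq_mul_inv]
  simp only [e]
  refine ⟨(hf.mG.add m).norm.integrable_sq, ?_⟩
  have i1 := hf.int_grad_sq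
  have i2 : Integrable fun x => 2 * ⟪G x, f x • (‖x - p‖⁻¹) • (x - p)⟫ := (s12_int_inner hf.mG m).const_mul 2
  have i3 := hf.int_sq
  have i12 : Integrable fun x => ‖G x‖ ^ 2 + 2 * ⟪G x, f x • (‖x - p‖⁻¹) • (x - p)⟫ := i1.add i2
  have e2 : ∫ x, ‖G x + f x • (‖x - p‖⁻¹) • (x - p)‖ ^ 2 =
      ∫ x, (‖G x‖ ^ 2 + 2 * ⟪G x, f x • (‖x - p‖⁻¹) • (x - p)⟫ + f x ^ 2) := by
    refine integral_congr_ae ?_
    filter_upwards [a1b_ne p] with x hx
    have r0 : ‖x - p‖ ≠ 0 := norm_ne_zero_iff.2 (sub_ne_zero.2 hx)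
    rw [norm_add_sq_real, norm_smul, norm_smul, norm_inv, norm_norm, inv_mul_cancel₀ r0, mul_one, Real.norm_eq_abs,
      sq_abs]
  rw [e2, integral_add i12 i3, integral_add i1 i2, integral_const_mul, qf, a1_div hf p, nsq]
  simp only [inner_smul_right (𝕜 := ℝ) _ ((‖_ - p‖⁻¹) • _)]
  ring

end Crest.Agent.R335
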