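import Crest.Agent.R335.A1_b
import Crest.Agent.R335.A1_c

/-!
# R335/A1_d: the spectral gap of hydrogen (part of `A1`, sub-lead helper78)
-/

set_option autoImplicit false

namespace Crest.Agent.R335

open MeasureTheory Set Filter Topology
open scoped Gradient RealInnerProductSpace ENNReal ContDiff
open Crest.MathPhysics.ThreeBody

variable {f : E3 → ℝ} {G : E3 → E3}

/-- pointwise `1 / r ≤ 1 / (8 r²) + 2 * 1_U + 1 / 4` (on `U`: AM-GM `1 / r ≤ 1 / (8 r²) + 2`; off `U`: `r > 4`), then `hardy` -/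
theorem a1_hyd_far (hf : H1 f G) (p : E3) :
    nsq f / 4 - 2 * ∫ x in Metric.closedBall p 4, f x ^ 2 ≤ qf (a1VC p) f G + nsq f / 2 := by
  obtain ⟨h1, h2⟩ := hardy hf p
  have hU : MeasurableSet (Metric.closedBall p 4) := measurableSet_closedBall
  have i1 := (a1_fb_VC p).int f G hf
  have i2 := hf.int_sq
  have i3 := i2.indicator hU
  have k : ∫ x, -(a1VC p x * f x ^ 2) ≤ ∫ x, (1 / 8 * (f x ^ 2 / ‖x - p‖ ^ 2) +
      2 * (Metric.closedBall p 4).indicator (fun x => f x ^ 2) x + 1 / 4 * f x ^ 2) := by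
    refine integral_mono i1.neg (((h1.const_mul _).add (i3.const_mul _)).add (i2.const_mul _)) fun x => ?_
    have e : -(a1VC p x * f x ^ 2) = ‖x - p‖⁻¹ * f x ^ 2 := by unfold a1VC; ring
    have e2 : f x ^ 2 / ‖x - p‖ ^ 2 = ‖x - p‖⁻¹ ^ 2 * f x ^ 2 := by ring
    have h0 := sq_nonneg (f x)
    show -(a1VC p x * f x ^ 2) ≤ 1 / 8 * (f x ^ 2 / ‖x - p‖ ^ 2) +
      2 * (Metric.closedBall p 4).indicator (fun x => f x ^ 2) x + 1 / 4 * f x ^ 2
    rw [e, e2]
    by_cases hx : x ∈ Metric.closedBall p 4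
    · rw [indicator_of_mem hx]
      nlinarith [mul_nonneg (sq_nonneg (‖x - p‖⁻¹ - 4)) h0]
    · rw [indicator_of_notMem hx]
      rw [Metric.mem_closedBall, dist_eq_norm, not_le] at hx
      have h3 : ‖x - p‖⁻¹ ≤ 4⁻¹ := inv_anti₀ (by norm_num) hx.le
      nlinarith [mul_nonneg (sq_nonneg (‖x - p‖⁻¹)) h0, mul_le_mul_of_nonneg_right h3 h0]
  rw [integral_neg, integral_add ((h1.const_mul _).fun_add (i3.const_mul _)) (i2.const_mul _),
    integral_add (h1.const_mul _) (i3.const_mul _), integral_const_mul, integral_const_mul,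
    integral_const_mul, integral_indicator hU] at k
  unfold qf nsq
  linarith

theorem a1d_pair {μ : Measure E3} [IsFiniteMeasure μ] {w : E3 → ℝ} (hw : MemLp w 2 μ) :
    ∫ x, ∫ y, (w x - w y) ^ 2 ∂μ ∂μ = 2 * μ.real univ * ∫ x, w x ^ 2 ∂μ - 2 * (∫ x, w x ∂μ) ^ 2 := by
  have i1 : Integrable w μ := hw.integrable (by norm_num)
  have i2 := hw.integrable_sq
  have e : ∀ x, ∫ y, (w x - w y) ^ 2 ∂μ =
      μ.real univ * w x ^ 2 - 2 * (∫ y, w y ∂μ) * w x + ∫ y, w y ^ 2 ∂μ := fun x => by
    have : (fun y => (w x - w y) ^ 2) = fun y => w x ^ 2 - 2 * w x * w y + w y ^ 2 := by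
      funext y; ring
    rw [this, integral_add ((integrable_const _).sub' (i1.const_mul _)) i2,
      integral_sub (integrable_const _) (i1.const_mul _), integral_const, integral_const_mul, smul_eq_mul]
    ring
  simp only [e]
  rw [integral_add ((i2.const_mul _).sub' (i1.const_mul _)) (integrable_const _),
    integral_sub (i2.const_mul _) (i1.const_mul _), integral_const_mul, integral_const_mul, integral_const,
    smul_eq_mul]
  ring

theorem a1d_vol (p : E3) : 0 < (volume (Metric.closedBall p 4)).toReal :=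
  ENNReal.toReal_pos (Metric.measure_closedBall_pos volume p (by norm_num)).ne'
    (isCompact_closedBall p 4).measure_lt_top.ne

/-- `poincare_pair` (`Ω = univ`, `D = 8`) for `w = exp ‖x - p‖ * f` (`a1_exp_loc` with `c = 1`, `H1loc.memLp`); expand
`∫_U ∫_U (w x - w y)² = 2 |U| ∫_U w² - 2 (∫_U w)²`; `f² ≤ w²`; `‖∇ w‖² ≤ exp 8 * ‖G + (f / r) • (x - p)‖²` on `U`; `a1_hyd_id`. -/
theorem a1_hyd_near (hf : H1 f G) (p : E3) :
    ∫ x in Metric.closedBall p 4, f x ^ 2 ≤
      (∫ x in Metric.closedBall p 4, Real.exp ‖x - p‖ * f x) ^ 2 / (volume (Metric.closedBall p 4)).toReal +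
        1024 * Real.exp 8 * (qf (a1VC p) f G + nsq f / 2) := by
  have hc : IsCompact (Metric.closedBall p 4) := isCompact_closedBall p 4
  have hU : MeasurableSet (Metric.closedBall p 4) := measurableSet_closedBall
  have hl := a1_exp_loc hf p 1
  simp only [one_mul] at hl
  obtain ⟨m1, m2⟩ := hl.memLp isOpen_univ hc (subset_univ _)
  have k := poincare_pair isOpen_univ (convex_closedBall p 4) hc (subset_univ _) (D := 8)
    (fun x hx y hy => by
      rw [← dist_eq_norm]
      have := dist_triangle_right x y p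
      rw [Metric.mem_closedBall] at hx hy
      linarith) hl
  have : IsFiniteMeasure (volume.restrict (Metric.closedBall p 4)) :=
    isFiniteMeasure_restrict.2 hc.measure_lt_top.ne
  rw [a1d_pair m1, finrank_euclideanSpace_fin, measureReal_restrict_apply_univ, Measure.real] at k
  have hV := a1d_vol p
  obtain ⟨i1, e1⟩ := a1_hyd_id hf p
  have b1 : ∫ x in Metric.closedBall p 4, f x ^ 2 ≤
      ∫ x in Metric.closedBall p 4, (Real.exp ‖x - p‖ * f x) ^ 2 := by
    refine integral_mono hf.int_sq.integrableOn m1.integrable_sq fun x => ?_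
    have : 1 ≤ Real.exp ‖x - p‖ ^ 2 := one_le_pow₀ (Real.one_le_exp (norm_nonneg _))
    show f x ^ 2 ≤ (Real.exp ‖x - p‖ * f x) ^ 2
    rw [mul_pow]
    exact le_mul_of_one_le_left (sq_nonneg _) this
  have b2 : ∫ x in Metric.closedBall p 4, ‖Real.exp ‖x - p‖ • (G x + (f x / ‖x - p‖) • (x - p))‖ ^ 2 ≤
      ∫ x in Metric.closedBall p 4, Real.exp 8 * ‖G x + (f x / ‖x - p‖) • (x - p)‖ ^ 2 := by
    refine setIntegral_mono_on ((memLp_two_iff_integrable_sq_norm m2.1).1 m2) (i1.const_mul _).integrableOn hU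
      fun x hx => ?_
    rw [Metric.mem_closedBall, dist_eq_norm] at hx
    rw [norm_smul, mul_pow, Real.norm_of_nonneg (Real.exp_pos _).le, sq (Real.exp _), ← Real.exp_add]
    exact mul_le_mul_of_nonneg_right (Real.exp_le_exp.2 (by linarith)) (sq_nonneg _)
  have b3 : ∫ x in Metric.closedBall p 4, ‖G x + (f x / ‖x - p‖) • (x - p)‖ ^ 2 ≤
      ∫ x, ‖G x + (f x / ‖x - p‖) • (x - p)‖ ^ 2 :=
    setIntegral_le_integral i1 (Eventually.of_forall fun x => sq_nonneg _)
  rw [integral_const_mul] at b2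
  have b4 := b2.trans (mul_le_mul_of_nonneg_left b3 (Real.exp_pos 8).le)
  rw [e1]
  refine b1.trans ?_
  rw [div_add' _ _ _ hV.ne', le_div_iff₀ hV]
  have b5 := mul_le_mul_of_nonneg_left b4 hV.le
  linarith

/-- with `C = 1024 exp 8`: `c₀ = 1 / (4 (1 + 2 C))`, `a = √(2 / (|U| (1 + 2 C))) * 1_U * exp ‖x - p‖` (`memLp_indicator_iff_restrict`,
bounded on a set of finite measure; `integral_indicator`) -/
theorem a1_hyd_gap : ∃ c₀ : ℝ, 0 < c₀ ∧ c₀ ≤ 1 / 4 ∧ ∀ p : E3, ∃ a : E3 → ℝ, MemLp a 2 volume ∧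
    ∀ f G, H1 f G → (-1 / 2 + c₀) * nsq f - ip a f ^ 2 ≤ qf (a1VC p) f G := by
  obtain ⟨C, hC, hCe⟩ : ∃ C : ℝ, 0 < C ∧ C = 1024 * Real.exp 8 := ⟨_, by positivity, rfl⟩
  refine ⟨1 / (4 * (1 + 2 * C)), by positivity, one_div_le_one_div_of_le (by norm_num) (by linarith), fun p => ?_⟩
  have hc : IsCompact (Metric.closedBall p 4) := isCompact_closedBall p 4
  have hU : MeasurableSet (Metric.closedBall p 4) := measurableSet_closedBall
  have hV := a1d_vol p
  have : IsFiniteMeasure (volume.restrict (Metric.closedBall p 4)) :=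
    isFiniteMeasure_restrict.2 hc.measure_lt_top.ne
  refine ⟨fun x => √(2 / ((volume (Metric.closedBall p 4)).toReal * (1 + 2 * C))) *
    (Metric.closedBall p 4).indicator (fun x => Real.exp ‖x - p‖) x, MemLp.const_mul ?_ _, fun f G hf => ?_⟩
  · rw [memLp_indicator_iff_restrict hU]
    refine MemLp.of_bound (by fun_prop) (Real.exp 4) ((ae_restrict_iff' hU).2 (.of_forall fun x hx => ?_))
    rw [Metric.mem_closedBall, dist_eq_norm] at hx
    rw [Real.norm_of_nonneg (Real.exp_pos _).le]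
    exact Real.exp_le_exp.2 hx
  · have h1 := a1_hyd_far hf p
    have h2 := a1_hyd_near hf p
    rw [← hCe] at h2
    have e : ip (fun x => √(2 / ((volume (Metric.closedBall p 4)).toReal * (1 + 2 * C))) *
        (Metric.closedBall p 4).indicator (fun x => Real.exp ‖x - p‖) x) f =
        √(2 / ((volume (Metric.closedBall p 4)).toReal * (1 + 2 * C))) *
          ∫ x in Metric.closedBall p 4, Real.exp ‖x - p‖ * f x := by
      unfold ip
      rw [← integral_indicator hU, ← integral_const_mul]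
      congr 1
      funext x
      rw [mul_assoc, indicator_mul_left]
    rw [e, mul_pow, Real.sq_sqrt (by positivity)]
    generalize (volume (Metric.closedBall p 4)).toReal = V at *
    generalize (∫ x in Metric.closedBall p 4, Real.exp ‖x - p‖ * f x) ^ 2 = m at *
    have e2 : (-1 / 2 + 1 / (4 * (1 + 2 * C))) * nsq f - 2 / (V * (1 + 2 * C)) * m =
        (nsq f / 4 - 2 * (m / V)) / (1 + 2 * C) - nsq f / 2 := by
      field_simp
      ring
    rw [e2, sub_le_iff_le_add, div_le_iff₀ (by positivity)]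
    linarith

end Crest.Agent.R335
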