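import Crest.Agent.R335.A1_d

/-!
# R335/A1_e: two centres: lower bound up to a form of rank two (part of `A1`, sub-lead helper78)
-/

set_option autoImplicit false

namespace Crest.Agent.R335

open MeasureTheory Set Filter Topology
open scoped Gradient RealInnerProductSpace ENNReal ContDiff
open Crest.MathPhysics.ThreeBody

/-- a quadratic partition of unity: `χ 0 = sin (π/2 θ)`, `χ 1 = cos (π/2 θ)` with `θ` from `exists_cut` (centre `p`, scale `s`);
`‖∇ (h ∘ θ)‖ = |h'| ‖∇ θ‖ ≤ 2 ‖∇ θ‖` (`s2a_norm_grad`, `fderiv_comp`/`HasFDerivAt.sin`) -/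
theorem a1_part : ∃ M : ℝ, 0 ≤ M ∧ ∀ (p : E3) (s : ℝ), 0 < s → ∃ χ : Fin 2 → E3 → ℝ, (∀ i, ContDiff ℝ 1 (χ i)) ∧
    (∀ i x, ‖∇ (χ i) x‖ ≤ M / s) ∧ (∀ x, ∑ i, χ i x ^ 2 = 1) ∧ (∀ x, 2 * s < ‖x - p‖ → χ 0 x = 0) ∧
      ∀ x, ‖x - p‖ < s → χ 1 x = 0 := by
  obtain ⟨M, hM, h⟩ := exists_cut (E := E3)
  refine ⟨2 * M, by positivity, fun p s hs => ?_⟩
  obtain ⟨θ, hθ, -, h1, h2⟩ := h p s hs
  have c1 : ContDiff ℝ 1 fun x => Real.pi / 2 * θ x := contDiff_const.mul (hθ.sm.of_le (by simp))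
  have d1 : ∀ x, HasFDerivAt (fun x => Real.pi / 2 * θ x) ((Real.pi / 2) • fderiv ℝ θ x) x := fun x =>
    (hθ.sm.differentiable (by simp) x).hasFDerivAt.const_mul _
  have n1 : ∀ (x : E3) (c : ℝ), |c| ≤ 1 → ‖c • (Real.pi / 2) • fderiv ℝ θ x‖ ≤ 2 * M / s := by
    intro x c hc
    have h3 := h2 x
    rw [s2a_norm_grad] at h3
    rw [norm_smul, norm_smul, Real.norm_eq_abs, Real.norm_eq_abs, abs_of_pos (by positivity : 0 < Real.pi / 2),
      mul_div_assoc]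
    have h4 : Real.pi / 2 ≤ 2 := by linarith [Real.pi_le_four]
    calc _ ≤ 1 * (2 * (M / s)) := by gcongr
      _ = _ := one_mul _
  refine ⟨![fun x => Real.sin (Real.pi / 2 * θ x), fun x => Real.cos (Real.pi / 2 * θ x)], fun i => ?_,
    fun i x => ?_, fun x => ?_, fun x hx => ?_, fun x hx => ?_⟩
  · fin_cases i
    · exact c1.sin
    · exact c1.cos
  · rw [s2a_norm_grad]
    fin_cases i
    · exact (congrArg norm (d1 x).sin.fderiv).trans_le (n1 x _ (Real.abs_cos_le_one _))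
    · exact (congrArg norm (d1 x).cos.fderiv).trans_le (n1 x _ (by rw [abs_neg]; exact Real.abs_sin_le_one _))
  · simp [Fin.sum_univ_two]
  · have : θ x = 0 := image_eq_zero_of_notMem_tsupport fun h3 => by
      have := hθ.sub h3
      rw [mem_closedBall_iff_norm] at this
      linarith
    simp [this]
  · have : θ x = 1 := h1 x (mem_ball_iff_norm.2 hx)
    simp [this]

theorem a1e_low {p : E3} {χ f : E3 → ℝ} {K : E3 → E3} {d : ℝ} (hd : 0 < d) (hf : H1 (fun x => χ x * f x) K)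
    (h : ∀ x, ‖x - p‖ < d → χ x = 0) :
    -(1 / d) * nsq (fun x => χ x * f x) ≤ ∫ x, a1VC p x * (χ x * f x) ^ 2 := by
  rw [nsq, ← integral_const_mul]
  refine integral_mono (hf.int_sq.const_mul _) ((a1_fb_VC p).int _ _ hf) fun x => ?_
  by_cases hx : ‖x - p‖ < d
  · simp [h x hx]
  · refine mul_le_mul_of_nonneg_right ?_ (sq_nonneg _)
    rw [a1VC, neg_div, neg_le_neg_iff]
    exact one_div_le_one_div_of_le hd (not_lt.1 hx)
/-- `qf_ims` with `a1_part` (`p = single 2 D`, `s = D / 2`).  `p₁ = single 2 D`, `p₂ = single 2 (-D)`, `‖p₁ - p₂‖ = 2 D`.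
Where `χ 0 ≠ 0` one has `‖x - p₂‖ ≥ D`, so `a1VC p₂ ≥ -1 / D`; where `χ 1 ≠ 0` one has `a1VC p₁ ≥ -2 / D`.  Use `a1_V1_eq`, `a1_qf_add`,
`a1_hyd_gap` at `p₁` for `χ 0 * f` and at `p₂` for `χ 1 * f` (`H1.mul_c1_bdd`), `a i = χ i * a_i`, `nsq (χ 0 f) + nsq (χ 1 f) = nsq f`.  The loss is
`(2 / D + (2 M / D)²) nsq f ≤ c₀ / 2 * nsq f` for large `D`; `c₁ = c₀ / 2`. -/
theorem a1_two_low : ∃ c₁ D₀ : ℝ, 0 < c₁ ∧ c₁ ≤ 1 / 4 ∧ ∀ D, D₀ ≤ D → ∃ a : Fin 2 → E3 → ℝ,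
    (∀ i, MemLp (a i) 2 volume) ∧
      ∀ f G, H1 f G → (-1 / 2 + c₁) * nsq f - 1 * ∑ i, ip (a i) f ^ 2 ≤ qf (V1 D) f G := by
  obtain ⟨c₀, hc0, hc1, hgap⟩ := a1_hyd_gap
  obtain ⟨M, hM, hpart⟩ := a1_part
  refine ⟨c₀ / 2, max 1 (2 * (2 + 4 * M ^ 2) / c₀), by positivity, by linarith, fun D hD => ?_⟩
  have D1 : 1 ≤ D := (le_max_left _ _).trans hD
  have D2 : 2 * (2 + 4 * M ^ 2) / c₀ ≤ D := (le_max_right _ _).trans hD
  have D0 : 0 < D := by linarith
  set p₁ : E3 := EuclideanSpace.single 2 D with hp₁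
  set p₂ : E3 := EuclideanSpace.single 2 (-D) with hp₂
  have hp : ‖p₁ - p₂‖ = 2 * D := by
    have : p₁ - p₂ = EuclideanSpace.single 2 (2 * D) := by
      ext j
      fin_cases j <;> simp [hp₁, hp₂]
      ring
    rw [this]
    simp [abs_of_pos D0]
  obtain ⟨χ, c1, c2, c3, c4, c5⟩ := hpart p₁ (D / 2) (by positivity)
  obtain ⟨a1, m1, g1⟩ := hgap p₁
  obtain ⟨a2, m2, g2⟩ := hgap p₂
  have hχ : ∀ i x, |χ i x| ≤ 1 := fun i x => by
    have := Finset.single_le_sum (f := fun i => χ i x ^ 2) (fun i _ => sq_nonneg _) (Finset.mem_univ i)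
    rw [c3] at this
    exact (sq_le_one_iff_abs_le_one _).1 this
  have hm : ∀ (i : Fin 2) {a : E3 → ℝ}, MemLp a 2 volume → MemLp (fun x => χ i x * a x) 2 volume :=
    fun i a ha => ha.of_le ((c1 i).continuous.aestronglyMeasurable.mul ha.1) (Eventually.of_forall fun x => by
      rw [norm_mul]
      exact mul_le_of_le_one_left (norm_nonneg _) (hχ i x))
  refine ⟨![fun x => χ 0 x * a1 x, fun x => χ 1 x * a2 x], fun i => ?_, fun f G hf => ?_⟩
  · fin_cases i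
    · exact hm 0 m1
    · exact hm 1 m2
  have hfb : FB (V1 D) := by
    have e : V1 D = fun x => a1VC p₁ x + a1VC p₂ x := funext (a1_V1_eq D)
    rw [e]
    exact (a1_fb_VC _).add (a1_fb_VC _)
  have hH := fun i => hf.mul_c1_bdd (c1 i) (M := max 1 (M / (D / 2))) (fun x => (hχ i x).trans (le_max_left _ _))
    fun x => (c2 i x).trans (le_max_right _ _)
  have q1 := a1_qf_add (a1_fb_VC p₁) (a1_fb_VC p₂) (hH 0)
  have q2 := a1_qf_add (a1_fb_VC p₂) (a1_fb_VC p₁) (hH 1)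
  have e1 : (fun x => a1VC p₁ x + a1VC p₂ x) = V1 D := (funext (a1_V1_eq D)).symm
  have e2 : (fun x => a1VC p₂ x + a1VC p₁ x) = V1 D := by
    rw [← e1]
    funext x
    ring
  rw [e1] at q1
  rw [e2] at q2
  have l1 := a1e_low (p := p₂) D0 (hH 0) fun x hx => c4 x (by
    have := norm_sub_le_norm_sub_add_norm_sub p₁ x p₂
    rw [hp, norm_sub_rev p₁ x] at this
    linarith)
  have l2 := a1e_low (p := p₁) (half_pos D0) (hH 1) c5
  have n0 : nsq (fun x => χ 0 x * f x) + nsq (fun x => χ 1 x * f x) = nsq f := by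
    unfold nsq
    rw [← integral_add (hH 0).int_sq (hH 1).int_sq]
    congr 1
    funext x
    have := c3 x
    rw [Fin.sum_univ_two] at this
    linear_combination f x ^ 2 * this
  have l3 : ∫ x, (∑ i, ‖∇ (χ i) x‖ ^ 2) * f x ^ 2 ≤ 2 * (M / (D / 2)) ^ 2 * nsq f := by
    rw [nsq, ← integral_const_mul]
    refine integral_mono_of_nonneg (Eventually.of_forall fun x =>
      mul_nonneg (Finset.sum_nonneg fun i _ => sq_nonneg _) (sq_nonneg _)) (hf.int_sq.const_mul _)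
      (Eventually.of_forall fun x => mul_le_mul_of_nonneg_right ?_ (sq_nonneg _))
    rw [Fin.sum_univ_two]
    have h0 := pow_le_pow_left₀ (norm_nonneg _) (c2 0 x) 2
    have h1 := pow_le_pow_left₀ (norm_nonneg _) (c2 1 x) 2
    linarith
  have i1 : ∀ (i : Fin 2) (a : E3 → ℝ), ip (fun x => χ i x * a x) f = ip a fun x => χ i x * f x := fun i a => by
    unfold ip
    congr 1
    funext x
    ring
  have loss : 1 / (D / 2) + (M / (D / 2)) ^ 2 ≤ c₀ / 2 := by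
    rw [div_le_iff₀ hc0] at D2
    have h1 : (M / (D / 2)) ^ 2 ≤ 4 * M ^ 2 / D := by
      rw [div_pow, div_le_div_iff₀ (by positivity) D0]
      nlinarith [mul_le_mul_of_nonneg_left (show D ≤ D ^ 2 by nlinarith) (sq_nonneg M)]
    have h2 : (2 + 4 * M ^ 2) / D ≤ c₀ / 2 := by
      rw [div_le_iff₀ D0]
      linarith
    have h3 : 1 / (D / 2) = 2 / D := by field_simp
    rw [add_div] at h2
    linarith
  have hn : 0 ≤ nsq f := nsq_nonneg
  have hn0 : 0 ≤ nsq fun x => χ 0 x * f x := nsq_nonneg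
  have l4 : 1 / D * nsq (fun x => χ 0 x * f x) ≤ 1 / (D / 2) * nsq fun x => χ 0 x * f x :=
    mul_le_mul_of_nonneg_right (one_div_le_one_div_of_le (half_pos D0) (by linarith)) hn0
  have l5 := mul_le_mul_of_nonneg_right loss hn
  have g3 := g1 _ _ (hH 0)
  have g4 := g2 _ _ (hH 1)
  rw [qf_ims hfb hf c1 c2 c3, Fin.sum_univ_two, Fin.sum_univ_two, q1, q2]
  simp only [Matrix.cons_val_zero, Matrix.cons_val_one, i1]
  rw [← n0] at l3 l5 ⊢
  linarith

end Crest.Agent.R335
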