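import Crest.Agent.R335.A1_a

/-!
# R335/A1_g: odd functions (part of `A1`, sub-lead helper78)
-/

set_option autoImplicit false

namespace Crest.Agent.R335

open MeasureTheory Set Filter Topology
open scoped Gradient RealInnerProductSpace ENNReal ContDiff
open Crest.MathPhysics.ThreeBody

variable {V u v : E3 → ℝ} {G K : E3 → E3} {e : ℝ}

/-- odd extension.  `H1.comp_iso`, `H1.sub`, `a1R_symm`; `qf_lin`, `nsq_lin` with `a = 1`, `b = -1`, `a1_qf_iso`, `a1_nsq_iso`.  The cross terms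
vanish: for a.e. `x` either `v x = 0 ∧ K x = 0` or `v (R x) = 0 ∧ K (R x) = 0` (`H1.level hv 0`, `a1_ae_iso`). -/
theorem a1_odd_ext (hV : FB V) (hs : ∀ x, V (a1R x) = V x) (hv : H1 v K) (h0 : ∀ᵐ x, x 2 ≤ 0 → v x = 0) :
    H1 (fun x => v x - v (a1R x)) (fun x => K x - a1R (K (a1R x))) ∧
      nsq (fun x => v x - v (a1R x)) = 2 * nsq v ∧
      qf V (fun x => v x - v (a1R x)) (fun x => K x - a1R (K (a1R x))) = 2 * qf V v K := by
  have hR : H1 (fun x => v (a1R x)) fun x => a1R (K (a1R x)) := by simpa using hv.comp_iso a1R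
  have hz : ∀ᵐ x, x 2 ≤ 0 → v x = 0 ∧ K x = 0 := by
    filter_upwards [h0, hv.level 0] with x h1 h2 hx
    exact ⟨h1 hx, h2 (h1 hx)⟩
  have hc : ∀ᵐ x, v x * v (a1R x) = 0 ∧ ⟪K x, a1R (K (a1R x))⟫ = 0 := by
    filter_upwards [hz, a1_ae_iso a1R hz] with x h1 h2
    rcases le_total (x 2) 0 with h | h
    · obtain ⟨h3, h4⟩ := h1 h
      simp [h3, h4]
    · obtain ⟨h3, h4⟩ := h2 (by simpa using h)
      simp [h3, h4]
  have hip : ip v (fun x => v (a1R x)) = 0 := by
    unfold ip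
    rw [integral_congr_ae (g := fun _ => (0 : ℝ)) (hc.mono fun x hx => hx.1), integral_zero]
  have hbf : bf V v K (fun x => v (a1R x)) (fun x => a1R (K (a1R x))) = 0 := by
    unfold bf
    rw [integral_congr_ae (g := fun _ => (0 : ℝ)) (hc.mono fun x hx => hx.2),
      integral_congr_ae (f := fun x => V x * (v x * v (a1R x))) (g := fun _ => (0 : ℝ))
        (hc.mono fun x hx => by simp only [hx.1, mul_zero]), integral_zero]
    simp
  have hq : qf V (fun x => v (a1R x)) (fun x => a1R (K (a1R x))) = qf V v K := by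
    simpa using a1_qf_iso a1R hs v K
  refine ⟨hv.sub hR, ?_, ?_⟩
  · have h := nsq_lin hv.mf hR.mf 1 (-1)
    rw [hip, a1_nsq_iso] at h
    have e : (fun x => v x - v (a1R x)) = fun x => 1 * v x + -1 * v (a1R x) := by
      funext x
      ring
    rw [e, h]
    ring
  · have h := qf_lin hV hv hR 1 (-1)
    rw [hbf, hq] at h
    have e : (fun x => v x - v (a1R x)) = fun x => 1 * v x + -1 * v (a1R x) := by
      funext x
      ring
    have e' : (fun x => K x - a1R (K (a1R x))) = fun x => (1 : ℝ) • K x + (-1 : ℝ) • a1R (K (a1R x)) := by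
      funext x
      simp [sub_eq_add_neg]
    rw [e, e', h]
    ring

/-- `v = 1_{z > 0} u` is in `H¹` (`H1.half hu 2 a1R_apply`), `u = v - v ∘ R` a.e. (`ae_coord_ne`), the gradients agree by `H1.unique`; so
`nsq u = 2 nsq v`, `qf u = 2 qf v`.  Take the odd extension `w` of `|v|` (`H1.abs`, `a1_abs`). -/
theorem a1_tilde (hV : FB V) (hs : ∀ x, V (a1R x) = V x) (hu : H1 u G) (ho : ∀ᵐ x, u (a1R x) = -u x) :
    ∃ (w : E3 → ℝ) (K : E3 → E3), H1 w K ∧ (∀ x, w (a1R x) = -w x) ∧ (∀ x, 0 < x 2 → w x = |u x|) ∧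
      nsq w = nsq u ∧ qf V w K = qf V u G := by
  have hv := hu.half 2 a1R_apply ho
  set v := ({x : E3 | 0 < x 2}.indicator u) with hvd
  set Kv := ({x : E3 | 0 < x 2}.indicator G) with hKd
  have hv0 : ∀ x : E3, x 2 ≤ 0 → v x = 0 := fun x hx => indicator_of_notMem (by simpa using hx) _
  have hv1 : ∀ x : E3, 0 < x 2 → v x = u x := fun x hx => indicator_of_mem (by simpa using hx) _
  obtain ⟨h1, h2, h3⟩ := a1_odd_ext hV hs hv (Eventually.of_forall hv0)
  have he : (fun x => v x - v (a1R x)) =ᵐ[volume] u := by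
    filter_upwards [ho, ae_coord_ne 2 0] with x hx hx0
    rcases lt_or_gt_of_ne hx0 with h | h
    · rw [hv0 x h.le, hv1 (a1R x) (by simpa using h), hx]
      ring
    · rw [hv1 x h, hv0 (a1R x) (by simpa using h.le)]
      ring
  have hn : nsq u = 2 * nsq v := by rw [← h2, a1_nsq_congr he]
  have hq : qf V u G = 2 * qf V v Kv := by rw [← h3, qf_congr he (h1.unique hu he)]
  obtain ⟨g1, g2, g3⟩ := a1_odd_ext hV hs hv.abs (Eventually.of_forall fun x hx => by simp [hv0 x hx])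
  refine ⟨_, _, g1, fun x => by simp, fun x hx => ?_, ?_, ?_⟩
  · simp only [hv1 x hx, hv0 (a1R x) (by simpa using hx.le)]
    simp
  · rw [g2, (a1_abs V v Kv).1, hn]
  · rw [g3, (a1_abs V v Kv).2, hq]

/-- test with `ξ - ξ ∘ R`: `bf u (ξ ∘ R) = bf (u ∘ R) ξ = - bf u ξ` (`a1_bf_iso`, `a1_bf_congr`, `H1.unique` for `u ∘ R = -u`, `bf_lin`, `bf_comm`),
the same for `ip` (`a1_ip_iso`, `s13a_ip_lin`) -/
theorem a1_eig_odd (hV : FB V) (hs : ∀ x, V (a1R x) = V x) (hu : H1 u G) (ho : ∀ᵐ x, u (a1R x) = -u x)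
    (h : ∀ g K, H1 g K → (∀ᵐ x, g (a1R x) = -1 * g x) → bf V u G g K = e * ip u g) : Eig V e u G := by
  refine ⟨hu, fun ξ X hξ => ?_⟩
  have hξR : H1 (fun x => ξ (a1R x)) fun x => a1R.symm (X (a1R x)) := hξ.comp_iso a1R
  have huR : H1 (fun x => u (a1R x)) fun x => a1R.symm (G (a1R x)) := hu.comp_iso a1R
  have hG : (fun x => a1R.symm (G (a1R x))) =ᵐ[volume] fun x => (-1 : ℝ) • G x :=
    huR.unique (hu.const_mul (-1)) (ho.mono fun x hx => by simp [hx])
  have ho' : (fun x => u (a1R x)) =ᵐ[volume] fun x => -1 * u x := ho.mono fun x hx => by simp [hx]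
  have b1 : bf V (fun x => ξ (a1R x)) (fun x => a1R.symm (X (a1R x))) u G = -bf V ξ X u G := by
    have h1 := a1_bf_iso a1R hs ξ u X G
    rw [a1_bf_congr (ae_eq_refl _) (ae_eq_refl _) ho' hG, bf_comm] at h1
    have h2 := bf_lin hV hu hu hξR (-1) 0
    simp only [zero_mul, add_zero, zero_smul] at h2
    rw [h2, bf_comm] at h1
    linarith
  have i1 : ip u (fun x => ξ (a1R x)) = -ip u ξ := by
    have h1 := a1_ip_iso a1R u ξ
    rw [a1_ip_congr ho' (ae_eq_refl _)] at h1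
    have h2 : ip (fun x => -1 * u x) (fun x => ξ (a1R x)) = -ip u (fun x => ξ (a1R x)) := by
      unfold ip
      rw [← integral_neg]
      congr 1
      funext x
      ring
    linarith
  have h3 := h _ _ ((hξ.const_mul 1).add (hξR.const_mul (-1))) (Eventually.of_forall fun x => by simp)
  rw [bf_comm, bf_lin hV hξ hξR hu, s13a_ip_lin hu.mf hξ.mf hξR.mf, b1, i1, bf_comm] at h3
  linarith

end Crest.Agent.R335
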