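import Crest.Agent.R335.A1_a
import Crest.Agent.R83.Inf
import Crest.Agent.R83.L1b

/-!
# R335/A1_k: the barrier of the Hopf lemma (part of `A1`, sub-lead helper78)
-/

set_option autoImplicit false

namespace Crest.Agent.R335

open MeasureTheory Set Filter Topology
open scoped Gradient RealInnerProductSpace ENNReal ContDiff
open Crest.MathPhysics.ThreeBody

/-- `R83.lap_mul`, `R83.lap_comp` (`h = exp`), `R83.l1b_lap_aff`, `R83.l1b_lap_add`, `R83.lap_const`, or `R83.newt_lap` with explicit partial derivatives: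
with `γ = exp (-α r²)`: `∇ γ = -2 α γ (x - x₀)`, `Δ γ = (4 α² r² - 6 α) γ`, `Δ (z γ) = z Δ γ + 2 ∂_z γ` -/
theorem a1_lap_gauss (x₀ : E3) (α b c : ℝ) :
    ContDiff ℝ 2 (fun x : E3 => b - c * (x 2 * Real.exp (-α * ‖x - x₀‖ ^ 2))) ∧
      ∀ x, lap (fun x : E3 => b - c * (x 2 * Real.exp (-α * ‖x - x₀‖ ^ 2))) x =
        -c * (Real.exp (-α * ‖x - x₀‖ ^ 2) * (x 2 * (4 * α ^ 2 * ‖x - x₀‖ ^ 2 - 10 * α) + 4 * α * x₀ 2)) := by
  have e0 : ∀ x : E3, ‖x - x₀‖ = ‖x₀ - x‖ := fun x => norm_sub_rev _ _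
  have hH : ContDiff ℝ ∞ fun t : ℝ => Real.exp (-α * t) := by fun_prop
  have hd : ∀ t : ℝ, HasDerivAt (fun t : ℝ => Real.exp (-α * t)) (-α * Real.exp (-α * t)) t := fun t => by
    simpa [mul_comm] using ((hasDerivAt_id t).const_mul (-α)).exp
  have d1 : deriv (fun t : ℝ => Real.exp (-α * t)) = fun t => -α * Real.exp (-α * t) := funext fun t => (hd t).deriv
  have d2 : ∀ t, deriv (fun t : ℝ => -α * Real.exp (-α * t)) t = -α * (-α * Real.exp (-α * t)) := fun t =>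
    ((hd t).const_mul (-α)).deriv
  have hγ : ContDiff ℝ 2 fun x : E3 => Real.exp (-α * ‖x₀ - x‖ ^ 2) := (hH.comp (p1_sm x₀)).of_le p1_two
  have hz : ContDiff ℝ 2 fun x : E3 => x 2 := (EuclideanSpace.proj 2 : E3 →L[ℝ] ℝ).contDiff
  simp only [e0]
  refine ⟨contDiff_const.sub (contDiff_const.mul (hz.mul hγ)), fun x => ?_⟩
  have e1 : (fun x : E3 => b - c * (x 2 * Real.exp (-α * ‖x₀ - x‖ ^ 2))) =
      fun x : E3 => b + -c * (x 2 * Real.exp (-α * ‖x₀ - x‖ ^ 2)) := by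
    funext y; ring
  have e2 : Crest.Agent.R83.lap (fun y : E3 => y 2) x = 0 := by
    have : ∇ (fun y : E3 => y 2) = fun _ => Crest.Agent.R83.e 2 := funext (Crest.Agent.R83.grad_coord 2)
    simp [Crest.Agent.R83.lap, Crest.Agent.R83.dvg, this]
  have e3 := p1_lap_rad hH x₀ x
  have e4 := congrFun (p1_D (hH.differentiable (by simp)) x₀ 2) x
  rw [d1] at e3 e4
  rw [d2] at e3
  rw [e1]
  show Crest.Agent.R83.lap _ _ = _
  rw [Crest.Agent.R83.l1b_lap_aff (hz.mul hγ), Crest.Agent.R83.lap_mul hz.contDiffAt hγ.contDiffAt, e2,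
    Crest.Agent.R83.grad_coord, real_inner_comm, Crest.Agent.R83.inner_grad]
  rw [Crest.Agent.R83.newtD] at e4
  rw [e4, show Crest.Agent.R83.lap _ _ = _ from e3]
  ring

end Crest.Agent.R335
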