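import Crest.Agent.R335.A1_e

/-!
# R335/A1_m: lower bound for the two centre problem (part of `A1`, sub-lead helper78)
-/

set_option autoImplicit false

namespace Crest.Agent.R335

open MeasureTheory Set Filter Topology
open scoped Gradient RealInnerProductSpace ENNReal ContDiff
open Crest.MathPhysics.ThreeBody

theorem a1m_dist (D : ℝ) (hD : 0 ≤ D) :
    ‖(EuclideanSpace.single 2 D : E3) - EuclideanSpace.single 2 (-D)‖ = 2 * D := by
  have h := geo_norm_sub (EuclideanSpace.single 2 D) (-D)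
  simp only [PiLp.norm_single, Real.norm_eq_abs, sq_abs, PiLp.single_apply, if_true] at h
  have h2 : ‖(EuclideanSpace.single 2 D : E3) - EuclideanSpace.single 2 (-D)‖ ^ 2 = (2 * D) ^ 2 := by
    rw [h]
    ring
  exact (sq_eq_sq₀ (norm_nonneg _) (by positivity)).1 h2

/-- a far nucleus costs little -/
theorem a1m_far {f : E3 → ℝ} {G : E3 → E3} (hf : H1 f G) (p : E3) {r : ℝ} (hr : 0 < r)
    (h : ∀ x, ‖x - p‖ < r → f x = 0) : -(1 / r) * nsq f ≤ ∫ x, a1VC p x * f x ^ 2 := by
  unfold nsq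
  rw [← integral_const_mul]
  refine integral_mono (hf.int_sq.const_mul _) ((a1_fb_VC p).int f G hf) fun x => ?_
  by_cases hx : ‖x - p‖ < r
  · simp [h x hx]
  · refine mul_le_mul_of_nonneg_right ?_ (sq_nonneg _)
    unfold a1VC
    rw [neg_div, neg_le_neg_iff]
    exact one_div_le_one_div_of_le hr (not_lt.1 hx)

theorem a1m_hyd {f : E3 → ℝ} {G : E3 → E3} (hf : H1 f G) (p : E3) : -1 / 2 * nsq f ≤ qf (a1VC p) f G := by
  have h := (a1_hyd_id hf p).2
  have h2 : 0 ≤ ∫ x, ‖G x + (f x / ‖x - p‖) • (x - p)‖ ^ 2 := integral_nonneg fun x => by positivity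
  linarith

/-- lower bound for the ground state energy -/
theorem a1_two_low0 {ε : ℝ} (hε : 0 < ε) : ∃ D₀ : ℝ, ∀ D, D₀ ≤ D →
    ∀ f G, H1 f G → (-1 / 2 - ε) * nsq f ≤ qf (V1 D) f G := by
  obtain ⟨M, hM, hp⟩ := a1_part
  refine ⟨max 1 ((2 + 4 * M ^ 2) / ε), fun D hD f G hf => ?_⟩
  have hD1 : 1 ≤ D := (le_max_left _ _).trans hD
  have hD2 : (2 + 4 * M ^ 2) / ε ≤ D := (le_max_right _ _).trans hD
  have hD0 : 0 < D := by linarith
  obtain ⟨χ, h1, h2, h3, h4, h5⟩ := hp (EuclideanSpace.single 2 D) (D / 2) (by positivity)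
  have hb : ∀ i x, |χ i x| ≤ max 1 (M / (D / 2)) := fun i x => by
    refine le_trans ?_ (le_max_left _ _)
    rw [← sq_le_one_iff_abs_le_one, ← h3 x]
    exact Finset.single_le_sum (f := fun i => χ i x ^ 2) (fun i _ => sq_nonneg _) (Finset.mem_univ i)
  have hχ : ∀ i, H1 (fun x => χ i x * f x) fun x => χ i x • G x + f x • ∇ (χ i) x := fun i =>
    hf.mul_c1_bdd (h1 i) (hb i) fun x => (h2 i x).trans (le_max_right _ _)
  have e := qf_ims (fb_V1 D) hf h1 h2 h3
  rw [Fin.sum_univ_two] at e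
  have eV : V1 D = fun x => a1VC (EuclideanSpace.single 2 D) x + a1VC (EuclideanSpace.single 2 (-D)) x :=
    funext (a1_V1_eq D)
  have eV' : V1 D = fun x => a1VC (EuclideanSpace.single 2 (-D)) x + a1VC (EuclideanSpace.single 2 D) x :=
    funext fun x => by rw [a1_V1_eq, add_comm]
  have q0 : (-1 / 2 - 2 / D) * nsq (fun x => χ 0 x * f x) ≤
      qf (V1 D) (fun x => χ 0 x * f x) fun x => χ 0 x • G x + f x • ∇ (χ 0) x := by
    rw [eV, a1_qf_add (a1_fb_VC _) (a1_fb_VC _) (hχ 0)]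
    have g1 := a1m_hyd (hχ 0) (EuclideanSpace.single 2 D)
    have g2 := a1m_far (hχ 0) (EuclideanSpace.single 2 (-D)) (r := D / 2) (by positivity) fun x hx => by
      have g3 := norm_sub_le_norm_sub_add_norm_sub (EuclideanSpace.single 2 D : E3) x (EuclideanSpace.single 2 (-D))
      rw [a1m_dist D hD0.le, norm_sub_rev _ x] at g3
      simp only [h4 x (by linarith), zero_mul]
    have g4 : 1 / (D / 2) = 2 / D := by field_simp
    rw [g4] at g2
    linarith
  have q1 : (-1 / 2 - 2 / D) * nsq (fun x => χ 1 x * f x) ≤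
      qf (V1 D) (fun x => χ 1 x * f x) fun x => χ 1 x • G x + f x • ∇ (χ 1) x := by
    rw [eV', a1_qf_add (a1_fb_VC _) (a1_fb_VC _) (hχ 1)]
    have g1 := a1m_hyd (hχ 1) (EuclideanSpace.single 2 (-D))
    have g2 := a1m_far (hχ 1) (EuclideanSpace.single 2 D) (r := D / 2) (by positivity) fun x hx => by
      simp only [h5 x hx, zero_mul]
    have g4 : 1 / (D / 2) = 2 / D := by field_simp
    rw [g4] at g2
    linarith
  have hn : nsq (fun x => χ 0 x * f x) + nsq (fun x => χ 1 x * f x) = nsq f := by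
    unfold nsq
    rw [← integral_add (hχ 0).int_sq (hχ 1).int_sq]
    congr 1
    funext x
    have := h3 x
    rw [Fin.sum_univ_two] at this
    linear_combination f x ^ 2 * this
  have hg : ∫ x, (∑ i, ‖∇ (χ i) x‖ ^ 2) * f x ^ 2 ≤ 2 * (M / (D / 2)) ^ 2 * nsq f := by
    unfold nsq
    rw [← integral_const_mul]
    refine integral_mono_of_nonneg (Eventually.of_forall fun x => by positivity) (hf.int_sq.const_mul _)
      (Eventually.of_forall fun x => ?_)
    refine mul_le_mul_of_nonneg_right ?_ (sq_nonneg _)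
    rw [Fin.sum_univ_two]
    have g0 := pow_le_pow_left₀ (norm_nonneg _) (h2 0 x) 2
    have g1 := pow_le_pow_left₀ (norm_nonneg _) (h2 1 x) 2
    linarith
  have hc : 2 / D + (M / (D / 2)) ^ 2 ≤ ε := by
    rw [div_le_iff₀ hε] at hD2
    have g1 : (M / (D / 2)) ^ 2 ≤ 4 * M ^ 2 / D := by
      have : (M / (D / 2)) ^ 2 = 4 * M ^ 2 / D / D := by field_simp; ring
      rw [this]
      exact div_le_self (by positivity) hD1
    have g2 : 2 / D + 4 * M ^ 2 / D ≤ ε := by
      rw [← add_div, div_le_iff₀ hD0]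
      linarith
    linarith
  have hn0 : 0 ≤ nsq f := nsq_nonneg
  have g5 := mul_le_mul_of_nonneg_right hc hn0
  have g6 : (-1 / 2 - 2 / D) * nsq f = (-1 / 2 - 2 / D) * nsq (fun x => χ 0 x * f x) +
      (-1 / 2 - 2 / D) * nsq (fun x => χ 1 x * f x) := by rw [← hn]; ring
  nlinarith

end Crest.Agent.R335
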