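import Crest.Agent.R335.A2_Ten

/-!
# R335/A2_Two: finite rank lower bounds for one, two and three electrons (part of `A2`, sub-lead helper17)
-/

set_option autoImplicit false
set_option linter.unusedSectionVars false

namespace Crest.Agent.R335

open MeasureTheory Set Filter Topology
open scoped Gradient RealInnerProductSpace ENNReal ContDiff
open Crest.MathPhysics.ThreeBody

variable {D eg eu e3 : ℝ} {g u : E3 → ℝ} {Gg Gu : E3 → E3}

theorem a2two_congr {E : Type} [NormedAddCommGroup E] [InnerProductSpace ℝ E] [FiniteDimensional ℝ E]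
    [MeasurableSpace E] [BorelSpace E] {ι : Type} [Fintype ι] {V V' : E → ℝ} {e e' : ℝ} {a a' : ι → E → ℝ}
    {c c' : ι → ℝ} (h : Low V e a c) (hV : ∀ x, V x = V' x) (he : e = e') (ha : ∀ i x, a i x = a' i x)
    (hc : ∀ i, c i = c' i) : Low V' e' a' c' := by
  obtain rfl : V = V' := funext hV
  obtain rfl : a = a' := funext fun i => funext (ha i)
  obtain rfl : c = c' := funext hc
  exact he ▸ h

theorem a2two_congr' {E : Type} [NormedAddCommGroup E] [InnerProductSpace ℝ E] [FiniteDimensional ℝ E]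
    [MeasurableSpace E] [BorelSpace E] {ι : Type} [DecidableEq ι] {a a' : ι → E → ℝ}
    (h : ON a) (ha : ∀ i x, a i x = a' i x) : ON a' := by
  obtain rfl : a = a' := funext fun i => funext (ha i)
  exact h

theorem a2two_le (h : OneB D eg eu e3 g Gg u Gu) (i : Fin 2) : eg ≤ ![eg, eu] i := by
  fin_cases i
  · exact le_rfl
  · exact h.lt1.le

/-- `OneB.ng`, `nu`, `orth`, `ip_self`, `ip_comm`; `fin_cases` -/
theorem a2_on1 (h : OneB D eg eu e3 g Gg u Gu) : ON (![g, u] : Fin 2 → E3 → ℝ) := by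
  refine ⟨fun i => ?_, fun i j => ?_⟩
  · fin_cases i
    · exact h.eg_.h1.mf
    · exact h.eu_.h1.mf
  · fin_cases i <;> fin_cases j
    · exact ip_self.trans h.ng
    · exact h.orth
    · exact ip_comm.trans h.orth
    · exact ip_self.trans h.nu

/-- `OneB.low`, `Fin.sum_univ_two` -/
theorem a2_low1 (h : OneB D eg eu e3 g Gg u Gu) :
    Low (V1 D) e3 (![g, u] : Fin 2 → E3 → ℝ) fun i => e3 - ![eg, eu] i := by
  intro f G hf
  have := h.low f G hf
  rw [Fin.sum_univ_two]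
  simp only [Matrix.cons_val_zero, Matrix.cons_val_one]
  linarith

/-- `exists_spl2 0`, `ON.tensor`; `tens s a b = t2 a b` -/
theorem a2_on2 (h : OneB D eg eu e3 g Gg u Gu) : ON (fam2 g u) := by
  obtain ⟨s, h1, h2, -⟩ := exists_spl2 0
  refine a2two_congr' (ON.tensor s (a2_on1 h) (a2_on1 h)) fun p y => ?_
  simp only [tens, fam2, t2, h1, h2, zero_add]

/-- `exists_spl2 0`, `Low.tensor` with `m = e3 - eg` -/
theorem a2_low20 (h : OneB D eg eu e3 g Gg u Gu) :
    Low (fun y : E6 => V1 D (pos2 0 y) + V1 D (pos2 1 y)) (e3 + eg) (fam2 g u) (co2 eg eu e3) := by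
  obtain ⟨s, h1, h2, -⟩ := exists_spl2 0
  have hm : 0 ≤ e3 - eg := by linarith [h.lt1, h.lt2]
  have hc : ∀ i : Fin 2, e3 - ![eg, eu] i ≤ e3 - eg := fun i => by linarith [a2two_le h i]
  refine a2two_congr (Low.tensor s (fb_V1 D) (fb_V1 D) (a2_on1 h) (a2_on1 h) (a2_low1 h) (a2_low1 h) hm hc hc)
    (fun y => ?_) (by ring) (fun p y => ?_) fun p => ?_
  · simp only [h1, h2, zero_add]
  · simp only [tens, fam2, t2, h1, h2, zero_add]
  · simp only [co2]
    ring

/-- `Low.add` with `fb_rep2`, `fb_pos2`, `fb_V1` -/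
theorem a2_low2 (h : OneB D eg eu e3 g Gg u Gu) {Z : ℝ} (hZ : 0 < Z) :
    Low (V2 D Z) (e3 + eg) (fam2 g u) (co2 eg eu e3) := by
  exact (a2_low20 h).add ((fb_pos2 (fb_V1 D) 0).add (fb_pos2 (fb_V1 D) 1)) fb_rep2 (fun y => by positivity)
    (inv_pos.2 hZ).le

/-- `exists_spl3 2` (`s.p1 X = elPos 2 X`, `s.p2 X = mk2 (elPos 0 X) (elPos 1 X)`), `ON.tensor` -/
theorem a2_on3 (h : OneB D eg eu e3 g Gg u Gu) : ON (fam3 g u) := by
  obtain ⟨s, h1, h2, -⟩ := exists_spl3 2
  refine a2two_congr' (ON.tensor s (a2_on1 h) (a2_on2 h)) fun p X => ?_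
  simp only [tens, fam3, fam2, t2, t3, h1, h2]
  exact mul_comm _ _

/-- `exists_spl3 2`, `Low.tensor` for `a2_low1`, `a2_low20` with `m = e3 - eg`; then `Low.add` with `fb_rep3`, `fb_elPos` -/
theorem a2_low3 (h : OneB D eg eu e3 g Gg u Gu) {Z : ℝ} (hZ : 0 < Z) :
    Low (V3 D Z) (e3 + 2 * eg) (fam3 g u) (co3 eg eu e3) := by
  obtain ⟨s, h1, h2, -⟩ := exists_spl3 2
  have hm : 0 ≤ e3 - eg := by linarith [h.lt1, h.lt2]
  have hc : ∀ i : Fin 2, e3 - ![eg, eu] i ≤ e3 - eg := fun i => by linarith [a2two_le h i]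
  have hc' : ∀ p, co2 eg eu e3 p ≤ e3 - eg := fun p => by
    simp only [co2]
    linarith [a2two_le h p.1, a2two_le h p.2]
  have h0 : Low (fun X : E9 => V1 D (elPos 0 X) + V1 D (elPos 1 X) + V1 D (elPos 2 X)) (e3 + 2 * eg) (fam3 g u)
      (co3 eg eu e3) := by
    refine a2two_congr (Low.tensor s (fb_V1 D) ((fb_pos2 (fb_V1 D) 0).add (fb_pos2 (fb_V1 D) 1)) (a2_on1 h)
      (a2_on2 h) (a2_low1 h) (a2_low20 h) hm hc hc') (fun X => ?_) (by ring) (fun p X => ?_) fun p => ?_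
    · simp only [h1, h2]
      exact add_comm _ _
    · simp only [tens, fam3, fam2, t2, t3, h1, h2]
      exact mul_comm _ _
    · simp only [co2, co3]
      ring
  exact h0.add (((fb_elPos (fb_V1 D) 0).add (fb_elPos (fb_V1 D) 1)).add (fb_elPos (fb_V1 D) 2))
    (((fb_rep3 (i := 0) (j := 1) (by decide)).add (fb_rep3 (i := 0) (j := 2) (by decide))).add
      (fb_rep3 (i := 1) (j := 2) (by decide))) (fun X => by positivity) (inv_pos.2 hZ).le

end Crest.Agent.R335
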