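import Crest.Agent.R335.A2_Dec
import Crest.Agent.R335.A2_Two

/-!
# R335/A2_Dip: the dipole matrix element (part of `A2`, sub-lead helper17)
-/

set_option autoImplicit false
set_option linter.unusedSectionVars false

namespace Crest.Agent.R335

open MeasureTheory Set Filter Topology
open scoped Gradient RealInnerProductSpace ENNReal ContDiff
open Crest.MathPhysics.ThreeBody

variable {D eg eu e3 : ℝ} {g u : E3 → ℝ} {Gg Gu : E3 → E3}

/-- `a2_decay` for `V1 D` (`a2_on1`, `a2_low1`, `FB.kin_le`, `fb_V1`, `γ = e3 - eu`), `a2_weight` with `w x = x 2` -/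
theorem a2_mom (h : OneB D eg eu e3 g Gg u Gu) :
    MemLp (fun x => x 2 * g x) 2 volume ∧ MemLp (fun x => x 2 * u x) 2 volume := by
  obtain ⟨C₀, -, hC₀⟩ := (fb_V1 D).kin_le
  obtain ⟨α, C, hα, -, H⟩ := a2_decay (a2_on1 h).mem (fun i => e3 - ![eg, eu] i) e3 C₀ (sub_pos.2 h.lt2)
  have hw : Continuous fun x : E3 => x 2 := by fun_prop
  have hw2 : ∀ x : E3, |x 2| ≤ 2 * ‖x‖ := fun x => by
    linarith [abs_z_le_norm x, norm_nonneg x]
  have h1 := H α le_rfl (V1 D) g Gg eg (fb_V1 D) h.eg_ h.ng (by linarith [h.lt1]) hC₀ (a2_low1 h)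
  have h2 := H α le_rfl (V1 D) u Gu eu (fb_V1 D) h.eu_ h.nu (by linarith) hC₀ (a2_low1 h)
  exact ⟨(a2_weight hw hw2 h.eg_.h1.mf hα h1.1 h1.2).1, (a2_weight hw hw2 h.eu_.h1.mf hα h2.1 h2.2).1⟩

/-- the integrand is positive a.e. (`OneB.posg`, `OneB.posu`) and integrable (`a2_mom`); `integral_pos_iff_support_of_nonneg_ae`
or `integral_eq_zero_iff_of_nonneg_ae` -/
theorem a2_mom_pos (h : OneB D eg eu e3 g Gg u Gu) : 0 < ip (fun x => x 2 * u x) g := by
  have hi : Integrable fun x : E3 => (x 2 * u x) * g x := (a2_mom h).2.integrable_mul h.eg_.h1.mf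
  have hp : ∀ᵐ x : E3, 0 < (x 2 * u x) * g x := by
    filter_upwards [h.posg, h.posu] with x h1 h2 using mul_pos h2 h1
  have h0 : 0 ≤ᵐ[volume] fun x : E3 => (x 2 * u x) * g x := hp.mono fun x hx => hx.le
  refine lt_of_le_of_ne (integral_nonneg_of_ae h0) fun he => ?_
  have hz := (integral_eq_zero_iff_of_nonneg_ae h0 hi).1 he.symm
  have : ∀ᵐ x : E3, False := by
    filter_upwards [hp, hz] with x h1 h2
    exact h1.ne' h2
  exact this.exists.elim fun _ hx => hx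

/-- with `zg x = x 2 * g x`, `zu x = x 2 * u x`: `w sgu = -(√2)⁻¹ (t2 zg u + t2 g zu + t2 zu g + t2 u zg)`; `exists_spl2 0`,
`tens_memLp`, `ip_tens`; the scalar product is `-(√2)⁻¹ * 2 * ip zu g` (`OneB.orth`, `OneB.ng`) -/
theorem a2_dip0 (h : OneB D eg eu e3 g Gg u Gu) :
    MemLp (fun y : E6 => (pos2 0 y 2 + pos2 1 y 2) * sgu g u y) 2 volume ∧
      ip (fun y : E6 => (pos2 0 y 2 + pos2 1 y 2) * sgu g u y) (t2 g g) < 0 := by
  obtain ⟨s, hs1, hs2, -⟩ := exists_spl2 0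
  have ht : ∀ a b : E3 → ℝ, t2 a b = tens s a b := fun a b => by
    funext y
    simp only [t2, tens, hs1, hs2, zero_add]
  have hm : ∀ {a b : E3 → ℝ}, MemLp a 2 volume → MemLp b 2 volume → MemLp (t2 a b) 2 volume := fun ha hb => by
    rw [ht]
    exact tens_memLp s ha hb
  have hip : ∀ a b a' b' : E3 → ℝ, ip (t2 a b) (t2 a' b') = ip a a' * ip b b' := fun a b a' b' => by
    rw [ht, ht, ip_tens]
  obtain ⟨hzg, hzu⟩ := a2_mom h
  have hg := h.eg_.h1.mf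
  have hu := h.eu_.h1.mf
  set zg : E3 → ℝ := fun x => x 2 * g x with hzgd
  set zu : E3 → ℝ := fun x => x 2 * u x with hzud
  have e : (fun y : E6 => (pos2 0 y 2 + pos2 1 y 2) * sgu g u y) =
      fun y => -(√2)⁻¹ * (t2 zg u y + t2 g zu y + t2 zu g y + t2 u zg y) := by
    funext y
    simp only [sgu, t2, hzgd, hzud]
    ring
  have m1 := hm hzg hu
  have m2 := hm hg hzu
  have m3 := hm hzu hg
  have m4 := hm hu hzg
  have m0 := hm hg hg
  rw [e]
  refine ⟨(((m1.add m2).add m3).add m4).const_mul _, ?_⟩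
  have i1 : Integrable fun y => t2 zg u y * t2 g g y := m1.integrable_mul m0
  have i2 : Integrable fun y => t2 g zu y * t2 g g y := m2.integrable_mul m0
  have i3 : Integrable fun y => t2 zu g y * t2 g g y := m3.integrable_mul m0
  have i4 : Integrable fun y => t2 u zg y * t2 g g y := m4.integrable_mul m0
  have e2 : ip (fun y => -(√2)⁻¹ * (t2 zg u y + t2 g zu y + t2 zu g y + t2 u zg y)) (t2 g g) =
      -(√2)⁻¹ * (ip (t2 zg u) (t2 g g) + ip (t2 g zu) (t2 g g) + ip (t2 zu g) (t2 g g) + ip (t2 u zg) (t2 g g)) := by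
    have i12 : Integrable fun y => t2 zg u y * t2 g g y + t2 g zu y * t2 g g y := i1.add i2
    have i123 : Integrable fun y => t2 zg u y * t2 g g y + t2 g zu y * t2 g g y + t2 zu g y * t2 g g y :=
      i12.add i3
    simp only [ip]
    rw [← integral_add i1 i2, ← integral_add i12 i3, ← integral_add i123 i4, ← integral_const_mul]
    refine integral_congr_ae (Eventually.of_forall fun y => ?_)
    simp only
    ring
  have hug : ip u g = 0 := by rw [ip_comm, h.orth]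
  have hgg : ip g g = 1 := by rw [ip_self, h.ng]
  rw [e2, hip, hip, hip, hip, hug, hgg]
  have hp : 0 < ip zu g := a2_mom_pos h
  have h2 : 0 < (√2)⁻¹ := by positivity
  nlinarith [mul_pos h2 hp]

/-- `a2_dip_abs`, `a2_dip0`, `a2_weight` (`geoc_norm2`, `s15_cont_pos2`, `EuclideanSpace.norm_eq` or `PiLp.norm_apply_le`) -/
theorem a2_dip (h : OneB D eg eu e3 g Gg u Gu) {α : ℝ} (hα : 0 < α) (C : ℝ) : ∃ η₀ : ℝ, 0 < η₀ ∧
    ∀ (Φ Θ : E6 → ℝ) (G : E6 → E6), MemLp Φ 2 volume → MemLp Θ 2 volume →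
      Integrable (fun y => Real.exp (2 * α * ‖y‖) * (Φ y ^ 2 + ‖G y‖ ^ 2)) →
      ∫ y, Real.exp (2 * α * ‖y‖) * (Φ y ^ 2 + ‖G y‖ ^ 2) ≤ C →
      nsq (fun y => Φ y - t2 g g y) ≤ η₀ → nsq (fun y => Θ y - sgu g u y) ≤ η₀ →
      ∫ y, Θ y * ((pos2 0 y 2 + pos2 1 y 2) * Φ y) < 0 := by
  obtain ⟨s, hs1, hs2, -⟩ := exists_spl2 0
  have ht : ∀ a b : E3 → ℝ, t2 a b = tens s a b := fun a b => by
    funext y
    simp only [t2, tens, hs1, hs2, zero_add]
  have hm : ∀ {a b : E3 → ℝ}, MemLp a 2 volume → MemLp b 2 volume → MemLp (t2 a b) 2 volume := fun ha hb => by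
    rw [ht]
    exact tens_memLp s ha hb
  have hg := h.eg_.h1.mf
  have hu := h.eu_.h1.mf
  have hs : MemLp (sgu g u) 2 volume := ((hm hg hu).add (hm hu hg)).const_mul _
  obtain ⟨hws, hneg⟩ := a2_dip0 h
  obtain ⟨η₀, hη, H⟩ := a2_dip_abs (w := fun y : E6 => pos2 0 y 2 + pos2 1 y 2) hs (hm hg hg) hws hneg
    (4 / α ^ 2 * C)
  have hz : Continuous fun x : E3 => x 2 := by fun_prop
  have hw : Continuous fun y : E6 => pos2 0 y 2 + pos2 1 y 2 :=
    (hz.comp (s15_cont_pos2 0)).add (hz.comp (s15_cont_pos2 1))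
  have hw2 : ∀ y : E6, |pos2 0 y 2 + pos2 1 y 2| ≤ 2 * ‖y‖ := fun y => by
    have h0 := geoc_norm2 y
    have h1 : ‖pos2 0 y‖ ≤ ‖y‖ :=
      (pow_le_pow_iff_left₀ (norm_nonneg _) (norm_nonneg _) two_ne_zero).1 (by nlinarith [sq_nonneg ‖pos2 1 y‖])
    have h2 : ‖pos2 1 y‖ ≤ ‖y‖ :=
      (pow_le_pow_iff_left₀ (norm_nonneg _) (norm_nonneg _) two_ne_zero).1 (by nlinarith [sq_nonneg ‖pos2 0 y‖])
    linarith [abs_add_le (pos2 0 y 2) (pos2 1 y 2), abs_z_le_norm (pos2 0 y), abs_z_le_norm (pos2 1 y)]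
  refine ⟨η₀, hη, fun Φ Θ G hΦ hΘ h1 h2 h3 h4 => ?_⟩
  obtain ⟨k1, k2⟩ := a2_weight hw hw2 hΦ hα h1 h2
  exact H Φ Θ hΦ hΘ k1 k2 h3 h4

end Crest.Agent.R335
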