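import Crest.Agent.R335.A2_Bes

/-!
# R335/A2_Sy: symmetries of the potentials and of the trial functions (part of `A2`, sub-lead helper17)
-/

set_option autoImplicit false
set_option linter.unusedSectionVars false

namespace Crest.Agent.R335

open MeasureTheory Set Filter Topology
open scoped Gradient RealInnerProductSpace ENNReal ContDiff
open Crest.MathPhysics.ThreeBody

variable {D eg eu e3 : ℝ} {g u : E3 → ℝ} {Gg Gu : E3 → E3}

theorem a2_sw2_sw2 (y : E6) : sw2 (sw2 y) = y := by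
  rw [sw2, sw2, pos2_mk2_0, pos2_mk2_1, mk2_pos2]

theorem a2_sw3_sw3 (X : E9) : sw3 (sw3 X) = X := by
  rw [sw3, sw3, elPos_mk3_0, elPos_mk3_1, elPos_mk3_2, mk3_elPos]

theorem a2_dg2_refl (y : E6) : dg2 refl (dg2 refl y) = y := by
  obtain ⟨T, -, h1, h2⟩ := exists_refl_z
  have h : ∀ x, refl (refl x) = x := fun x => by rw [← h1 x, ← h2, T.symm_apply_apply]
  rw [dg2, dg2, pos2_mk2_0, pos2_mk2_1, h, h, mk2_pos2]

theorem a2_sw2_dg2 (T : E3 → E3) (y : E6) : sw2 (dg2 T y) = dg2 T (sw2 y) := by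
  simp only [sw2, dg2, pos2_mk2_0, pos2_mk2_1]

theorem a2_sw3_dg3 (T : E3 → E3) (X : E9) : sw3 (dg3 T X) = dg3 T (sw3 X) := by
  simp only [sw3, dg3, elPos_mk3_0, elPos_mk3_1, elPos_mk3_2]

/-- `norm_sub_rev` -/
theorem a2_V2_sw (D Z : ℝ) (y : E6) : V2 D Z (sw2 y) = V2 D Z y := by
  simp only [V2, sw2, pos2_mk2_0, pos2_mk2_1]
  rw [norm_sub_rev (pos2 1 y)]
  ring

theorem a2_V3_sw (D Z : ℝ) (X : E9) : V3 D Z (sw3 X) = V3 D Z X := by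
  simp only [V3, sw3, elPos_mk3_0, elPos_mk3_1, elPos_mk3_2]
  rw [norm_sub_rev (elPos 1 X) (elPos 0 X)]
  ring

/-- `V1_sym`, `map_sub`, `LinearIsometryEquiv.norm_map` -/
theorem a2_V2_dg (D Z : ℝ) {T : E3 ≃ₗᵢ[ℝ] E3} (hT : Sym T) (y : E6) : V2 D Z (dg2 T y) = V2 D Z y := by
  simp only [V2, dg2, pos2_mk2_0, pos2_mk2_1, V1_sym D hT, ← map_sub, LinearIsometryEquiv.norm_map]

theorem a2_V3_dg (D Z : ℝ) {T : E3 ≃ₗᵢ[ℝ] E3} (hT : Sym T) (X : E9) : V3 D Z (dg3 T X) = V3 D Z X := by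
  simp only [V3, dg3, elPos_mk3_0, elPos_mk3_1, elPos_mk3_2, V1_sym D hT, ← map_sub,
    LinearIsometryEquiv.norm_map]

/-- `exists_spl2`, `Spl.ae_p1` -/
theorem a2_ae_pos2 (i : Fin 2) {p : E3 → Prop} (h : ∀ᵐ x, p x) : ∀ᵐ y : E6, p (pos2 i y) := by
  obtain ⟨s, h1, -⟩ := exists_spl2 i
  simpa only [h1] using s.ae_p1 h

/-- `exists_spl3`, `Spl.ae_p1` -/
theorem a2_ae_elPos (i : Fin 3) {p : E3 → Prop} (h : ∀ᵐ x, p x) : ∀ᵐ X : E9, p (elPos i X) := by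
  obtain ⟨s, h1, -⟩ := exists_spl3 i
  simpa only [h1] using s.ae_p1 h

theorem t2_sw2 (a b : E3 → ℝ) (y : E6) : t2 a b (sw2 y) = t2 b a y := by
  simp only [t2, sw2, pos2_mk2_0, pos2_mk2_1, mul_comm]

theorem t3_sw3 (a b c : E3 → ℝ) (X : E9) : t3 a b c (sw3 X) = t3 b a c X := by
  simp only [t3, sw3, elPos_mk3_0, elPos_mk3_1, elPos_mk3_2]
  ring

theorem t2_dg2 {a b : E3 → ℝ} {T : E3 → E3} {σ τ : ℝ} (ha : ∀ᵐ x, a (T x) = σ * a x) (hb : ∀ᵐ x, b (T x) = τ * b x) :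
    ∀ᵐ y, t2 a b (dg2 T y) = σ * τ * t2 a b y := by
  filter_upwards [a2_ae_pos2 0 ha, a2_ae_pos2 1 hb] with y h0 h1
  simp only [t2, dg2, pos2_mk2_0, pos2_mk2_1, h0, h1]
  ring

theorem auf_eq (g u : E3 → ℝ) (X : E9) : auf g u X = (√2)⁻¹ * t3 u g g X + -(√2)⁻¹ * t3 g u g X := by
  simp only [auf, t3]
  ring

theorem auf_sw3 (g u : E3 → ℝ) (X : E9) : auf g u (sw3 X) = -auf g u X := by
  simp only [auf, sw3, elPos_mk3_0, elPos_mk3_1, elPos_mk3_2]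
  ring

/-- `exists_refl_z`, `OneB.symg`, `OneB.symuM` -/
theorem a2_refl (h : OneB D eg eu e3 g Gg u Gu) : (∀ᵐ x, g (refl x) = 1 * g x) ∧ ∀ᵐ x, u (refl x) = -1 * u x := by
  obtain ⟨T, hT, h1, -⟩ := exists_refl_z
  constructor
  · filter_upwards [h.symg T (Or.inr hT)] with x hx
    rw [← h1, hx, one_mul]
  · filter_upwards [h.symuM T hT] with x hx
    rw [← h1, hx, neg_one_mul]

theorem a2_gg_dg (h : OneB D eg eu e3 g Gg u Gu) {T : E3 ≃ₗᵢ[ℝ] E3} (hT : Sym T) :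
    ∀ᵐ y, t2 g g (dg2 T y) = 1 * t2 g g y := by
  have h1 : ∀ᵐ x, g (T x) = 1 * g x := (h.symg T hT).mono fun x hx => by rw [hx, one_mul]
  simpa only [mul_one] using t2_dg2 h1 h1

theorem a2_sgu_mem (h : OneB D eg eu e3 g Gg u Gu) : PΘ (sgu g u) := by
  obtain ⟨h1, h2⟩ := a2_refl h
  constructor
  · refine Eventually.of_forall fun y => ?_
    simp only [sgu, t2_sw2]
    ring
  · filter_upwards [t2_dg2 h1 h2, t2_dg2 h2 h1] with y h3 h4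
    simp only [sgu, h3, h4]
    ring

theorem a2_auf_dgP (h : OneB D eg eu e3 g Gg u Gu) {T : E3 ≃ₗᵢ[ℝ] E3} (hT : SymP T) :
    ∀ᵐ X, auf g u (dg3 T X) = 1 * auf g u X := by
  have h1 := h.symg T (Or.inl hT)
  have h2 := h.symuP T hT
  filter_upwards [a2_ae_elPos 0 h1, a2_ae_elPos 1 h1, a2_ae_elPos 2 h1, a2_ae_elPos 0 h2, a2_ae_elPos 1 h2]
    with X a0 a1 a2 b0 b1
  simp only [auf, dg3, elPos_mk3_0, elPos_mk3_1, elPos_mk3_2, a0, a1, a2, b0, b1, one_mul]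

theorem a2_auf_dgM (h : OneB D eg eu e3 g Gg u Gu) {T : E3 ≃ₗᵢ[ℝ] E3} (hT : SymM T) :
    ∀ᵐ X, auf g u (dg3 T X) = -1 * auf g u X := by
  have h1 := h.symg T (Or.inr hT)
  have h2 := h.symuM T hT
  filter_upwards [a2_ae_elPos 0 h1, a2_ae_elPos 1 h1, a2_ae_elPos 2 h1, a2_ae_elPos 0 h2, a2_ae_elPos 1 h2]
    with X a0 a1 a2 b0 b1
  simp only [auf, dg3, elPos_mk3_0, elPos_mk3_1, elPos_mk3_2, a0, a1, a2, b0, b1]
  ring

/-- `cls_sym`, `Cls.inter`, `exists_sw2`, `exists_refl_z`, `exists_dg2` -/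
theorem cls_PΘ : Cls PΘ := by
  obtain ⟨S, hS, -⟩ := exists_sw2
  obtain ⟨T, -, h1, -⟩ := exists_refl_z
  obtain ⟨T', h3, -⟩ := exists_dg2 T
  have e : (T : E3 → E3) = refl := funext h1
  have h := (cls_sym S 1).inter (cls_sym T' (-1))
  simp only [hS, h3, e, one_mul, neg_one_mul] at h
  exact h

/-- `cls_sym`, `exists_sw3` -/
theorem cls_PF : Cls PF := by
  obtain ⟨S, hS, -⟩ := exists_sw3
  have h := cls_sym S (-1)
  simp only [hS, neg_one_mul] at h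
  exact h

/-- `a2_sw3_dg3`, `exists_dg3`, `a2_ae_iso` -/
theorem PF.dg3 {f : E9 → ℝ} (hf : PF f) (T : E3 ≃ₗᵢ[ℝ] E3) : PF fun X => f (dg3 T X) := by
  obtain ⟨T', h3, -⟩ := exists_dg3 T
  have h := T'.measurePreserving.quasiMeasurePreserving.ae hf
  filter_upwards [h] with X hX
  rw [← a2_sw3_dg3, ← h3]
  exact hX

end Crest.Agent.R335
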