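import Crest.Agent.R335.A2_Gs
import Crest.Agent.R335.A2_Sy

/-!
# R335/A2_Eig: the minimisers in the symmetry classes are eigenfunctions (part of `A2`, sub-lead helper17)
-/

set_option autoImplicit false
set_option linter.unusedSectionVars false

namespace Crest.Agent.R335

open MeasureTheory Set Filter Topology
open scoped Gradient RealInnerProductSpace ENNReal ContDiff
open Crest.MathPhysics.ThreeBody

variable {D Z e0 ε μ e : ℝ}

/-- `a2_euler_ext` twice: first with `T = dg2 refl` (`exists_refl_z`, `exists_dg2`, `a2_dg2_refl`, `a2_V2_dg`), `σ = -1`,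
`Q f = ∀ᵐ y, f (sw2 y) = f y` (`a2_sw2_dg2`, `a2_ae_iso`), then with `T = sw2` (`exists_sw2`), `σ = 1`, `Q f = True` -/
theorem Gs.eigΘ {t Θ : E6 → ℝ} {G : E6 → E6} (h : Gs (V2 D Z) PΘ t e0 ε μ e Θ G) : Eig (V2 D Z) e Θ G := by
  obtain ⟨T0, hM, hT0, -⟩ := exists_refl_z
  obtain ⟨T, hT, -⟩ := exists_dg2 T0
  have e0 : (T0 : E3 → E3) = refl := funext hT0
  have hT' : ∀ y, T y = dg2 refl y := fun y => by rw [hT, e0]
  obtain ⟨S, hS, -⟩ := exists_sw2
  have s1 := a2_euler_ext (e := e) (fb_V2 D Z) h.h1 T (fun y => by rw [hT', hT', a2_dg2_refl])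
    (fun y => by rw [hT, a2_V2_dg D Z (Or.inr hM)]) (σ := -1) (by norm_num)
    (by filter_upwards [h.mem.2] with y hy; rw [hT', hy]; ring) (Q := fun f => ∀ᵐ y, f (sw2 y) = f y)
    (fun f hf => by
      filter_upwards [hf, a2_ae_iso T hf] with y h1 h2
      rw [h1, hT', hT', ← a2_sw2_dg2, ← hT', h2])
    (fun f K hf h1 h2 => h.eul f K hf ⟨h1, by filter_upwards [h2] with y hy; rw [← hT', hy]; ring⟩)
  have s2 := a2_euler_ext (e := e) (fb_V2 D Z) h.h1 S (fun y => by rw [hS, hS, a2_sw2_sw2])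
    (fun y => by rw [hS, a2_V2_sw]) (σ := 1) (by norm_num)
    (by filter_upwards [h.mem.1] with y hy; rw [hS, hy, one_mul]) (Q := fun _ => True) (fun _ _ => trivial)
    (fun f K hf _ h2 => s1 f K hf (by filter_upwards [h2] with y hy; rw [← hS, hy, one_mul]))
  exact ⟨h.h1, fun ξ K hξ => s2 ξ K hξ trivial⟩

/-- `a2_euler_ext` with `T = sw3`, `σ = -1`, `Q f = True` -/
theorem Gs.eigF {t F : E9 → ℝ} {G : E9 → E9} (h : Gs (V3 D Z) PF t e0 ε μ e F G) : Eig (V3 D Z) e F G := by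
  obtain ⟨S, hS, -⟩ := exists_sw3
  have s2 := a2_euler_ext (e := e) (fb_V3 D Z) h.h1 S (fun y => by rw [hS, hS, a2_sw3_sw3])
    (fun y => by rw [hS, a2_V3_sw]) (σ := -1) (by norm_num)
    (by filter_upwards [h.mem] with y hy; rw [hS, hy]; ring) (Q := fun _ => True) (fun _ _ => trivial)
    (fun f K hf _ h2 => h.eul f K hf (by filter_upwards [h2] with y hy; rw [← hS, hy]; ring))
  exact ⟨h.h1, fun ξ K hξ => s2 ξ K hξ trivial⟩

/-- `Gs.congr` with `F' X = 2⁻¹ * (F X - F (sw3 X))`, `a2_sw3_sw3` -/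
theorem Gs.antiF {t F : E9 → ℝ} {G : E9 → E9} (h : Gs (V3 D Z) PF t e0 ε μ e F G) :
    ∃ F', Gs (V3 D Z) PF t e0 ε μ e F' G ∧ ∀ X, F' (sw3 X) = -F' X := by
  have anti : ∀ X, (fun X => 2⁻¹ * (F X - F (sw3 X))) (sw3 X) = -(fun X => 2⁻¹ * (F X - F (sw3 X))) X := fun X => by
    simp only [a2_sw3_sw3]
    ring
  refine ⟨fun X => 2⁻¹ * (F X - F (sw3 X)), h.congr ?_ (Eventually.of_forall anti), anti⟩
  filter_upwards [h.mem] with X hX
  rw [hX]
  ring

end Crest.Agent.R335
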