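import Crest.Agent.R335.A2_Bes

/-!
# R335/A2_Pert: abstract perturbation lemma (part of `A2`, sub-lead helper17)
-/

set_option autoImplicit false
set_option linter.unusedSectionVars false

namespace Crest.Agent.R335

open MeasureTheory Set Filter Topology
open scoped Gradient RealInnerProductSpace ENNReal ContDiff
open Crest.MathPhysics.ThreeBody

variable {E : Type} [NormedAddCommGroup E] [InnerProductSpace ℝ E] [FiniteDimensional ℝ E]
  [MeasurableSpace E] [BorelSpace E]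

variable {V t Φ : E → ℝ} {G Gt : E → E} {P : (E → ℝ) → Prop} {e0 ε μ e : ℝ}

/-- For `f ⊥ Φ` in the class let `α = ip t Φ ≠ 0`, `β = -ip t f`, `h = α f + β Φ` (`Cls.lin`), `ip t h = 0`, so
`(e0 + μ) nsq h ≤ qf h`; `qf h = α² qf f + β² e` (`qf_lin`, `heul`, `bf_comm`), `nsq h = α² nsq f + β²` (`nsq_lin`); `e ≤ e0 + μ`. -/
theorem a2_gap_orth (hV : FB V) (hP : Cls P) (ht : MemLp t 2 volume) (hΦ : H1 Φ G) (hPΦ : P Φ) (hn : nsq Φ = 1)
    (hen : qf V Φ G = e) (he : e ≤ e0 + μ) (h0 : ip t Φ ≠ 0)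
    (heul : ∀ f K, H1 f K → P f → bf V Φ G f K = e * ip Φ f)
    (hlow : ∀ f K, H1 f K → P f → e0 * nsq f + μ * (nsq f - ip t f ^ 2) ≤ qf V f K) :
    ∀ f K, H1 f K → P f → ip Φ f = 0 → (e0 + μ) * nsq f ≤ qf V f K := by
  intro f K hf hPf hip
  set α := ip t Φ with hα
  set β := -ip t f with hβ
  have h1 := hlow _ _ ((hf.const_mul α).add (hΦ.const_mul β)) (hP.lin f Φ α β hPf hPΦ)
  rw [qf_lin hV hf hΦ, nsq_lin hf.mf hΦ.mf, s13a_ip_lin ht hf.mf hΦ.mf, bf_comm, heul f K hf hPf,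
    ip_comm (f := f), hip, hen, hn] at h1
  have h2 : α * ip t f + β * ip t Φ = 0 := by rw [hβ, hα]; ring
  rw [h2] at h1
  have h3 : 0 < α ^ 2 := by positivity
  have h4 : β ^ 2 * e ≤ β ^ 2 * (e0 + μ) := mul_le_mul_of_nonneg_left he (sq_nonneg _)
  refine le_of_mul_le_mul_left ?_ h3
  nlinarith

/-- write `f = f' + α Φ` with `α = ip Φ f`, `f' = 1 * f + (-α) * Φ ⊥ Φ`; expand `qf f'` and `nsq f'` (`qf_lin`, `nsq_lin`) -/
theorem a2_gap_all (hV : FB V) (hP : Cls P) (hΦ : H1 Φ G) (hPΦ : P Φ) (hn : nsq Φ = 1) (hen : qf V Φ G = e) {γ : ℝ}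
    (heul : ∀ f K, H1 f K → P f → bf V Φ G f K = e * ip Φ f)
    (h : ∀ f K, H1 f K → P f → ip Φ f = 0 → (e + γ) * nsq f ≤ qf V f K) :
    ∀ f K, H1 f K → P f → (e + γ) * nsq f - γ * ip Φ f ^ 2 ≤ qf V f K := by
  intro f K hf hPf
  set α := ip Φ f with hα
  have h0 : ip Φ (fun x => 1 * f x + -α * Φ x) = 0 := by
    rw [s13a_ip_lin hΦ.mf hf.mf hΦ.mf, ip_self, hn, ← hα]
    ring
  have h1 := h _ _ ((hf.const_mul 1).add (hΦ.const_mul (-α))) (hP.lin f Φ 1 (-α) hPf hPΦ) h0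
  rw [qf_lin hV hf hΦ, nsq_lin hf.mf hΦ.mf, bf_comm, heul f K hf hPf, ip_comm (f := f), ← hα, hen, hn] at h1
  nlinarith

theorem a2pert_pos (hV : FB V) (hP : Cls P) (ht : H1 t Gt) (hPt : P t) (hn : nsq t = 1) (hμ : 0 < μ) (hε : ε ≤ μ / 2)
    (hlow : ∀ f K, H1 f K → P f → e0 * nsq f + μ * (nsq f - ip t f ^ 2) ≤ qf V f K) (htr : qf V t Gt ≤ e0 + ε)
    (hΦ : H1 Φ G) (hPΦ : P Φ) (hnΦ : nsq Φ = 1)
    (hmin : ∀ g' K', H1 g' K' → P g' → qf V Φ G * nsq g' ≤ qf V g' K') (h0 : 0 ≤ ip t Φ) :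
    Gs V P t e0 ε μ (qf V Φ G) Φ G := by
  have hhi : qf V Φ G ≤ e0 + ε := by
    have := hmin t Gt ht hPt
    rw [hn, mul_one] at this
    linarith
  have hsq : ip t Φ ^ 2 ≤ 1 := by
    have := ip_sq_le ht.mf hΦ.mf
    rwa [hn, hnΦ, mul_one] at this
  have h1 : ip t Φ ≤ 1 := by nlinarith
  have hl := hlow Φ G hΦ hPΦ
  rw [hnΦ, mul_one] at hl
  have hpos : 0 < ip t Φ := by
    refine lt_of_le_of_ne h0 fun h => ?_
    rw [← h] at hl
    linarith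
  have heul := euler hV hP hmin hΦ hPΦ (by rw [hnΦ, mul_one])
  refine ⟨hΦ, hPΦ, hnΦ, rfl, by nlinarith, hhi, hpos, ?_, heul, ?_⟩
  · have e : (fun x => Φ x - t x) = fun x => 1 * Φ x + -1 * t x := by
      funext x
      ring
    rw [e, nsq_lin hΦ.mf ht.mf, hn, hnΦ, ip_comm (f := Φ)]
    have h2 : μ * (1 - ip t Φ) ≤ μ * (1 - ip t Φ ^ 2) := mul_le_mul_of_nonneg_left (by nlinarith) hμ.le
    linarith
  · refine a2_gap_all hV hP hΦ hPΦ hnΦ rfl heul fun f K hf hPf hip => ?_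
    refine le_trans ?_ (a2_gap_orth hV hP ht.mf hΦ hPΦ hnΦ rfl (by linarith) hpos.ne' heul hlow f K hf hPf hip)
    exact mul_le_mul_of_nonneg_right (by linarith) nsq_nonneg

/-- `exists_min` with `n = 1`, `a = ![t]`, threshold `e0 + μ`, `M = μ`; replace the minimiser by its negative if
`ip t Φ < 0` (`Cls.lin` with `-1, 0`); `euler`; with `α = ip t Φ ∈ [0, 1]` (`ip_sq_le`): `e0 + μ (1 - α²) ≤ e ≤ e0 + ε`, so
`α² ≥ 1 / 2`, `nsq (Φ - t) = 2 - 2 α ≤ 2 (1 - α²)`; `a2_gap_orth`, `a2_gap_all` -/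
theorem a2_pert (hV : FB V) (hP : Cls P) (ht : H1 t Gt) (hPt : P t) (hn : nsq t = 1) (hμ : 0 < μ) (hε : ε ≤ μ / 2)
    (hlow : ∀ f K, H1 f K → P f → e0 * nsq f + μ * (nsq f - ip t f ^ 2) ≤ qf V f K) (htr : qf V t Gt ≤ e0 + ε) :
    ∃ e Φ G, Gs V P t e0 ε μ e Φ G := by
  obtain ⟨g, K, hg, hPg, hng, -, hmin⟩ := exists_min hV hP (n := 1) (a := fun _ => t) (fun _ => ht.mf) (e := e0 + μ)
    (M := μ) (fun g K hg hPg => by
      have := hlow g K hg hPg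
      rw [Fin.sum_univ_one]
      linarith) ht hPt (by rw [hn]; linarith)
  rcases le_total 0 (ip t g) with h0 | h0
  · exact ⟨_, g, K, a2pert_pos hV hP ht hPt hn hμ hε hlow htr hg hPg hng hmin h0⟩
  · have hg' := (hg.const_mul (-1)).add (hg.const_mul 0)
    have hq : qf V (fun x => -1 * g x + 0 * g x) (fun x => (-1 : ℝ) • K x + (0 : ℝ) • K x) = qf V g K := by
      rw [qf_lin hV hg hg]
      ring
    refine ⟨_, _, _, a2pert_pos hV hP ht hPt hn hμ hε hlow htr hg' (hP.lin g g (-1) 0 hPg hPg) ?_ ?_ ?_⟩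
    · rw [nsq_lin hg.mf hg.mf, hng]
      ring
    · rw [hq]
      exact hmin
    · rw [s13a_ip_lin ht.mf hg.mf hg.mf]
      linarith

end Crest.Agent.R335
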