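import Crest.Agent.R335.A2_Sy

/-!
# R335/A2_Tri: energies of the trial functions (part of `A2`, sub-lead helper17)
-/

set_option autoImplicit false
set_option linter.unusedSectionVars false

namespace Crest.Agent.R335

open MeasureTheory Set Filter Topology
open scoped Gradient RealInnerProductSpace ENNReal ContDiff
open Crest.MathPhysics.ThreeBody

variable {D eg eu e3 : ℝ} {g u : E3 → ℝ} {Gg Gu : E3 → E3}

theorem a2tri_t2 (D : ℝ) : ∃ T : (E3 → ℝ) → (E3 → E3) → (E3 → ℝ) → (E3 → E3) → E6 → E6,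
    (∀ {a A b B}, H1 a A → H1 b B → H1 (t2 a b) (T a A b B)) ∧
    (∀ a b a' b', ip (t2 a b) (t2 a' b') = ip a a' * ip b b') ∧
    ∀ {a A b B a' A' b' B'}, H1 a A → H1 b B → H1 a' A' → H1 b' B' →
      bf (fun y : E6 => V1 D (pos2 0 y) + V1 D (pos2 1 y)) (t2 a b) (T a A b B) (t2 a' b') (T a' A' b' B') =
        bf (V1 D) a A a' A' * ip b b' + ip a a' * bf (V1 D) b B b' B' := by
  obtain ⟨s, h1, h2, -⟩ := exists_spl2 0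
  have e : ∀ a b, t2 a b = fun x => a (s.p1 x) * b (s.p2 x) := fun a b => by
    funext x; rw [h1, h2]; rfl
  have e' : (fun y : E6 => V1 D (pos2 0 y) + V1 D (pos2 1 y)) =
      fun x => V1 D (s.p1 x) + V1 D (s.p2 x) := by
    funext x; rw [h1, h2]; rfl
  refine ⟨fun a A b B x => b (s.p2 x) • s.i1 (A (s.p1 x)) + a (s.p1 x) • s.i2 (B (s.p2 x)),
    fun ha hb => ?_, fun a b a' b' => ?_, fun ha hb ha' hb' => ?_⟩
  · rw [e]; exact H1.tensor s ha hb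
  · rw [e, e]; exact c_ip_tt s _ _ _ _
  · rw [e, e, e']; exact c_bf_tt s (fb_V1 D) (fb_V1 D) ha hb ha' hb'

theorem a2tri_fb (D : ℝ) : FB fun y : E6 => V1 D (pos2 0 y) + V1 D (pos2 1 y) :=
  (fb_pos2 (fb_V1 D) 0).add (fb_pos2 (fb_V1 D) 1)

theorem a2tri_V2 (D Z : ℝ) {f : E6 → ℝ} {G : E6 → E6} (hf : H1 f G) : qf (V2 D Z) f G =
    qf (fun y : E6 => V1 D (pos2 0 y) + V1 D (pos2 1 y)) f G +
      Z⁻¹ * ∫ y, 1 / ‖pos2 0 y - pos2 1 y‖ * f y ^ 2 :=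
  a2_qf_add (a2tri_fb D) fb_rep2 hf Z⁻¹

theorem a2tri_sq : ((√2)⁻¹ : ℝ) ^ 2 + (√2)⁻¹ ^ 2 = 1 := by
  rw [inv_pow, Real.sq_sqrt (by norm_num)]; norm_num


/-- `exists_spl2 0`, `H1.tensor`, `c_qf_tt`, `c_nsq_tt`, `Eig.qf_eq`, `a2_qf_add` (`fb_rep2`, `fb_pos2`, `fb_V1`) -/
theorem a2_tri_gg (h : OneB D eg eu e3 g Gg u Gu) : ∃ (G : E6 → E6) (K : ℝ), H1 (t2 g g) G ∧ nsq (t2 g g) = 1 ∧
    ∀ Z : ℝ, qf (V2 D Z) (t2 g g) G = 2 * eg + Z⁻¹ * K := by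
  obtain ⟨T, h1, h2, h3⟩ := a2tri_t2 D
  have hg := h.eg_.h1
  refine ⟨_, ∫ y, 1 / ‖pos2 0 y - pos2 1 y‖ * t2 g g y ^ 2, h1 hg hg, ?_, fun Z => ?_⟩
  · rw [← ip_self, h2, ip_self, h.ng, one_mul]
  · rw [a2tri_V2 D Z (h1 hg hg), ← bf_self, h3 hg hg hg hg, bf_self, ip_self, h.eg_.qf_eq, h.ng]
    ring
/-- the symmetric (`σ = 1`) and the antisymmetric (`σ = -1`) combination, noninteracting energy.  `H1.tensor`, `qf_lin`,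
`nsq_lin`, `c_qf_tt`, `c_bf_tt`, `c_ip_tt`, `c_nsq_tt`, `Eig.eq`, `OneB.orth` -/
theorem a2_tri_comb (h : OneB D eg eu e3 g Gg u Gu) (α β : ℝ) : ∃ G : E6 → E6,
    H1 (fun y => α * t2 g u y + β * t2 u g y) G ∧ nsq (fun y => α * t2 g u y + β * t2 u g y) = α ^ 2 + β ^ 2 ∧
    qf (fun y : E6 => V1 D (pos2 0 y) + V1 D (pos2 1 y)) (fun y => α * t2 g u y + β * t2 u g y) G =
      (eg + eu) * (α ^ 2 + β ^ 2) := by
  obtain ⟨T, h1, h2, h3⟩ := a2tri_t2 D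
  have hg := h.eg_.h1
  have hu := h.eu_.h1
  have o' : ip u g = 0 := ip_comm.trans h.orth
  refine ⟨_, ((h1 hg hu).const_mul α).add ((h1 hu hg).const_mul β), ?_, ?_⟩
  · rw [nsq_lin (h1 hg hu).mf (h1 hu hg).mf, ← ip_self, ← ip_self, h2, h2, h2, h.orth, ip_self, ip_self,
      h.ng, h.nu]
    ring
  · rw [qf_lin (a2tri_fb D) (h1 hg hu) (h1 hu hg), ← bf_self, ← bf_self, h3 hg hu hg hu, h3 hg hu hu hg,
      h3 hu hg hu hg, h.orth, o', bf_self, bf_self, ip_self, ip_self, h.eg_.qf_eq, h.eu_.qf_eq, h.ng, h.nu]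
    ring
/-- `a2_tri_comb` with `α = β = -(√2)⁻¹`, `a2_qf_add` -/
theorem a2_tri_s (h : OneB D eg eu e3 g Gg u Gu) : ∃ (G : E6 → E6) (K : ℝ), H1 (sgu g u) G ∧ nsq (sgu g u) = 1 ∧
    ∀ Z : ℝ, qf (V2 D Z) (sgu g u) G = eg + eu + Z⁻¹ * K := by
  obtain ⟨G, h1, h2, h3⟩ := a2_tri_comb h (-(√2)⁻¹) (-(√2)⁻¹)
  have e : (fun y => -(√2)⁻¹ * t2 g u y + -(√2)⁻¹ * t2 u g y) = sgu g u := by
    funext y; rw [sgu]; ring
  rw [e] at h1 h2 h3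
  rw [neg_sq, a2tri_sq] at h2 h3
  refine ⟨G, ∫ y, 1 / ‖pos2 0 y - pos2 1 y‖ * sgu g u y ^ 2, h1, h2, fun Z => ?_⟩
  rw [a2tri_V2 D Z h1, h3, mul_one]
/-- `exists_spl3 2` (`s.p1 X = elPos 2 X`, `s.p2 X = mk2 (elPos 0 X) (elPos 1 X)`): `auf g u` is the tensor product of `g` and
`a2_tri_comb` with `α = -(√2)⁻¹`, `β = (√2)⁻¹`; `c_qf_tt`, `c_nsq_tt`, `a2_qf_add` (`fb_rep3`, `fb_elPos`) -/
theorem a2_tri_auf (h : OneB D eg eu e3 g Gg u Gu) : ∃ (G : E9 → E9) (K : ℝ), H1 (auf g u) G ∧ nsq (auf g u) = 1 ∧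
    ∀ Z : ℝ, qf (V3 D Z) (auf g u) G = 2 * eg + eu + Z⁻¹ * K := by
  obtain ⟨G, h1, h2, h3⟩ := a2_tri_comb h (-(√2)⁻¹) (√2)⁻¹
  rw [neg_sq, a2tri_sq] at h2 h3
  obtain ⟨s, p1, p2, -⟩ := exists_spl3 2
  have q2 : ∀ X, s.p2 X = mk2 (elPos 0 X) (elPos 1 X) := p2
  have hg := h.eg_.h1
  have e : (fun X => g (s.p1 X) * (fun y => -(√2)⁻¹ * t2 g u y + (√2)⁻¹ * t2 u g y) (s.p2 X)) =
      auf g u := by
    funext X
    simp only [p1, q2, t2, pos2_mk2_0, pos2_mk2_1, auf]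
    ring
  have ht := H1.tensor s hg h1
  rw [e] at ht
  obtain ⟨k1, k2⟩ := c_qf_ae s (fb_V1 D) (a2tri_fb D) hg h1 ht
    (Eventually.of_forall fun X => (congrFun e X).symm)
  have fW : FB fun X : E9 => 1 / ‖elPos 0 X - elPos 1 X‖ + 1 / ‖elPos 0 X - elPos 2 X‖ +
      1 / ‖elPos 1 X - elPos 2 X‖ :=
    ((fb_rep3 (by decide)).add (fb_rep3 (by decide))).add (fb_rep3 (by decide))
  refine ⟨_, ∫ X, (1 / ‖elPos 0 X - elPos 1 X‖ + 1 / ‖elPos 0 X - elPos 2 X‖ +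
    1 / ‖elPos 1 X - elPos 2 X‖) * auf g u X ^ 2, ht, by rw [k2, h2, h.ng, one_mul], fun Z => ?_⟩
  have k3 := a2_qf_add ((FB.comp_p1 s (fb_V1 D)).add (FB.comp_p2 s (a2tri_fb D))) fW ht Z⁻¹
  have e' : V3 D Z = fun X => V1 D (s.p1 X) + (V1 D (pos2 0 (s.p2 X)) + V1 D (pos2 1 (s.p2 X))) +
      Z⁻¹ * (1 / ‖elPos 0 X - elPos 1 X‖ + 1 / ‖elPos 0 X - elPos 2 X‖ +
        1 / ‖elPos 1 X - elPos 2 X‖) := by
    funext X
    simp only [p1, q2, pos2_mk2_0, pos2_mk2_1, V3]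
    ring
  rw [e', k3, k1, h2, h3, h.eg_.qf_eq, h.ng]
  ring
end Crest.Agent.R335
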