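import Crest.Agent.R335.A2_Cor
import Crest.Agent.R335.A2_Tri
import Crest.Agent.R335.A2_Pert
import Crest.Agent.R335.A2_Eig
import Crest.Agent.R335.A2_Dip

/-!
# R335/A2: spectral data of the ion and of the three electron system (SUB-LEAD part)

Notation `δ = eu - eg > 0`, `Δ = e3 - eu > 0`, `γ = min δ Δ / 4`.  All lower bounds use that the repulsion is `≥ 0`
and `OneB.low` on slices (`H1.slice`, `exists_spl2`, `exists_spl3`): for `f` on `ℝ⁶`,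
`qf (V2) f ≥ ∑_i ∫ (e3 |f|² - (e3 - eg) ⟨g, f⟩_i² - (e3 - eu) ⟨u, f⟩_i²)`.
It is convenient to prove once: with the orthogonal projections `P_i^g, P_i^u` in the variable `i` (they commute), the operator
`∑_i (e3 - (e3-eg) P_i^g - (e3-eu) P_i^u)` is diagonal on the pieces `∏_i {P^g, P^u, 1 - P^g - P^u}`.  Consequences:
* ion: `qf f ≥ (eg + eu) nsq f - δ ip (g⊗g) f ²`;  `qf f ≥ (eg + e3) nsq f - M ∑ ip (a⊗b) f ²` (`a, b ∈ {g,u}`);
  on swap-symmetric `z`-odd `f`: `qf f ≥ (eg + eu + 4γ) nsq f - M ip s f ²` with `s = (g⊗u + u⊗g)/√2`.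
* three electrons, `f` antisymmetric in `0,1` (so `P_0^g P_1^g f = 0 = P_0^u P_1^u f`):
  `qf f ≥ (2 eg + eu + 4γ) nsq f - M ip (auf g u) f ²`, and for all `f ∈ H¹` which vanish on a big ball
  `qf f ≥ (2 eg + e3 - ε) nsq f` (finite rank part `{g,u}^{⊗3}`, `finite_rank_far`).
Trial functions `g⊗g`, `s`, `auf g u` have energies `2 eg + O(1/Z)`, `eg + eu + O(1/Z)`, `2 eg + eu + O(1/Z)` (`fb_rep2`, `fb_rep3`).
`exists_min` + `euler` give `Φ, Θ, F` (Euler equations for all test functions: project the test function on the symmetry class).  The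
lower bounds give `ip (trial) (minimiser) ² ≥ 1 - C/Z`; fix the sign; this is `clΦ`, `clF`.  `gap`: if `f ⊥ Φ` had energy `< E0 + γ`, the
plane spanned by `f, Φ` (form diagonal) would contain a vector orthogonal to `g⊗g` with energy `< 2 eg + C/Z + γ < eg + eu`.  The same
argument gives uniqueness of `Φ` and `F` up to a scalar, so `Φ ∘ T = ± Φ`, and the sign is that of the trial function (overlap
`> 1/2`).  `F` is made pointwise antisymmetric by `(F - F ∘ sw3)/2`.  Decay: `agmon` (constants uniform in `Z`, `kin_le_V2/V3`); decrease `a` so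
that `a² ≤ γ`.  `dip`: choose the sign of `Θ` close to `-s`; with `T_N z = max (-N) (min z N)`,
`∫ Θ (z₀ + z₁) Φ = ∫ Θ (T_N z₀ + T_N z₁) Φ + O(C/N)` (uniform decay; do the same for `Θ` uniformly) and the truncated integral tends to
`-√2 ∫ g T_N(z) u ≤ -√2 ∫ g T_1(z) u < 0`.
-/

set_option autoImplicit false

namespace Crest.Agent.R335

open MeasureTheory Set Filter Topology
open scoped Gradient RealInnerProductSpace ENNReal ContDiff
open Crest.MathPhysics.ThreeBody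

theorem spec {D eg eu e3 : ℝ} {g u : E3 → ℝ} {Gg Gu : E3 → E3} (h : OneB D eg eu e3 g Gg u Gu) :
    ∃ γ a C : ℝ, 0 < γ ∧ 0 < a ∧ a ^ 2 ≤ γ ∧ 1 ≤ C ∧ ∀ η : ℝ, 0 < η → ∃ Z₀ : ℝ, ∀ Z : ℝ, Z₀ ≤ Z →
      ∃ (E0 ES E : ℝ) (Φ : E6 → ℝ) (GΦ : E6 → E6) (Θ : E6 → ℝ) (GΘ : E6 → E6) (F : E9 → ℝ) (GF : E9 → E9),
        Spec D Z eu γ a C η g u E0 ES E Φ GΦ Θ GΘ F GF := by
  have hμ := h.mu_pos
  have hm1 := mu_le1 eg eu e3
  have hm2 := mu_le2 eg eu e3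
  set μ := mu eg eu e3 with hμd
  obtain ⟨G1, K1, h1, n1, q1⟩ := a2_tri_gg h
  obtain ⟨G2, K2, h2, n2, q2⟩ := a2_tri_s h
  obtain ⟨G3, K3, h3, n3, q3⟩ := a2_tri_auf h
  obtain ⟨C2, -, k2⟩ := kin_le_V2 D
  obtain ⟨C3, -, k3⟩ := kin_le_V3 D
  obtain ⟨α2, B2, hα2, -, d2⟩ := a2_decay (a2_on2 h).mem (co2 eg eu e3) (e3 + eg) C2 (half_pos hμ)
  obtain ⟨α3, B3, hα3, -, d3⟩ := a2_decay (a2_on3 h).mem (co3 eg eu e3) (e3 + 2 * eg) C3 (half_pos hμ)
  obtain ⟨a, ha, ha2, ha3, haγ⟩ : ∃ a : ℝ, 0 < a ∧ a ≤ α2 ∧ a ≤ α3 ∧ a ^ 2 ≤ μ / 2 := by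
    refine ⟨min (min α2 α3) (min 1 (μ / 2)), lt_min (lt_min hα2 hα3) (lt_min one_pos (half_pos hμ)),
      (min_le_left _ _).trans (min_le_left _ _), (min_le_left _ _).trans (min_le_right _ _), ?_⟩
    have e1 : min (min α2 α3) (min 1 (μ / 2)) ≤ 1 := (min_le_right _ _).trans (min_le_left _ _)
    have e2 : min (min α2 α3) (min 1 (μ / 2)) ≤ μ / 2 := (min_le_right _ _).trans (min_le_right _ _)
    have e3 : 0 < min (min α2 α3) (min 1 (μ / 2)) := lt_min (lt_min hα2 hα3) (lt_min one_pos (half_pos hμ))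
    nlinarith
  obtain ⟨η₀, hη₀, dip⟩ := a2_dip h ha B2
  refine ⟨μ / 2, a, max 1 B2, half_pos hμ, ha, haγ, le_max_left _ _, fun η hη => ?_⟩
  obtain ⟨ε, hε, hε1, hε2, hε3, hε4⟩ : ∃ ε : ℝ, 0 < ε ∧ ε ≤ μ / 2 ∧ ε ≤ η ∧ 2 * ε ≤ μ * η ∧ 2 * ε ≤ μ * η₀ := by
    refine ⟨min (min (μ / 2) η) (min (μ * η / 2) (μ * η₀ / 2)),
      lt_min (lt_min (half_pos hμ) hη) (lt_min (by positivity) (by positivity)),
      (min_le_left _ _).trans (min_le_left _ _), (min_le_left _ _).trans (min_le_right _ _), ?_, ?_⟩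
    · have : min (min (μ / 2) η) (min (μ * η / 2) (μ * η₀ / 2)) ≤ μ * η / 2 :=
        (min_le_right _ _).trans (min_le_left _ _)
      linarith
    · have : min (min (μ / 2) η) (min (μ * η / 2) (μ * η₀ / 2)) ≤ μ * η₀ / 2 :=
        (min_le_right _ _).trans (min_le_right _ _)
      linarith
  refine ⟨max η⁻¹ ((|K1| + |K2| + |K3|) / ε), fun Z hZ => ?_⟩
  have hZ1 : η⁻¹ ≤ Z := (le_max_left _ _).trans hZ
  have hZ0 : 0 < Z := (inv_pos.2 hη).trans_le hZ1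
  have hZ2 : |K1| + |K2| + |K3| ≤ Z * ε := (div_le_iff₀ hε).1 ((le_max_right _ _).trans hZ)
  have hK : ∀ K : ℝ, |K| ≤ |K1| + |K2| + |K3| → Z⁻¹ * K ≤ ε := fun K hK => by
    rw [inv_mul_le_iff₀ hZ0]
    exact (le_abs_self K).trans (hK.trans hZ2)
  have a1 := abs_nonneg K1
  have a2 := abs_nonneg K2
  have a3 := abs_nonneg K3
  obtain ⟨E0, Φ, GΦ, gΦ⟩ := a2_pert (fb_V2 D Z) cls_univ h1 trivial n1 hμ hε1
    (fun f K hf _ => a2_lb_ion h hZ0 hf) (by rw [q1]; linarith [hK K1 (by linarith)])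
  obtain ⟨ES, Θ, GΘ, gΘ⟩ := a2_pert (fb_V2 D Z) cls_PΘ h2 (a2_sgu_mem h) n2 hμ hε1
    (fun f K hf hP => a2_lb_odd h hZ0 hf hP) (by rw [q2]; linarith [hK K2 (by linarith)])
  obtain ⟨E, F0, GF, gF0⟩ := a2_pert (fb_V3 D Z) cls_PF h3 (Eventually.of_forall (auf_sw3 g u)) n3 hμ hε1
    (fun f K hf hP => a2_lb_three h hZ0 hf hP) (by rw [q3]; linarith [hK K3 (by linarith)])
  obtain ⟨F, gF, anti⟩ := gF0.antiF
  have eΦ : Eig (V2 D Z) E0 Φ GΦ := ⟨gΦ.h1, fun ξ K hξ => gΦ.eul ξ K hξ trivial⟩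
  have eΘ := gΘ.eigΘ
  have eF := gF.eigF
  have l1 := gΦ.lo
  have u1 := gΦ.hi
  have u2 := gΘ.hi
  have l3 := gF.lo
  have u3 := gF.hi
  have lt1 := h.lt1
  have lt2 := h.lt2
  have neg := h.neg
  have dΦ := d2 a ha2 _ Φ GΦ E0 (fb_V2 D Z) eΦ gΦ.nrm (by linarith) (k2 Z hZ0) (a2_low2 h hZ0)
  have dΘ := d2 a ha2 _ Θ GΘ ES (fb_V2 D Z) eΘ gΘ.nrm (by linarith) (k2 Z hZ0) (a2_low2 h hZ0)
  have dF := d3 a ha3 _ F GF E (fb_V3 D Z) eF gF.nrm (by linarith) (k3 Z hZ0) (a2_low3 h hZ0)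
  have cΦ := gΦ.cl
  have cΘ := gΘ.cl
  have cF := gF.cl
  refine ⟨E0, ES, E, Φ, GΦ, Θ, GΘ, F, GF, hZ1, eΦ, eΘ, eF, gΦ.nrm, gΘ.nrm, ⟨gF.h1, anti, gF.nrm, fun F' G' hF' hP => ?_⟩,
    fun f G hf => gΦ.gap f G hf trivial, by linarith, abs_le.2 ⟨by linarith, by linarith⟩, ?_, fun T hT => ?_,
    gΘ.mem.2, fun T hT => ?_, fun T hT => ?_, ⟨dΦ.1, dΦ.2.trans (le_max_right _ _)⟩, dΘ.1, dF.1,
    le_of_mul_le_mul_left (cΦ.trans hε3) hμ, le_of_mul_le_mul_left (cF.trans hε3) hμ,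
    dip Φ Θ GΦ gΦ.h1.mf gΘ.h1.mf dΦ.1 dΦ.2 (le_of_mul_le_mul_left (cΦ.trans hε4) hμ)
      (le_of_mul_le_mul_left (cΘ.trans hε4) hμ)⟩
  · rw [gF.en]
    exact gF.min hμ F' G' hF' hP
  · obtain ⟨S, hS, -⟩ := exists_sw2
    have := gΦ.sym hμ S (fun y => by rw [hS, a2_V2_sw]) trivial (σ := 1) (by norm_num)
      (Eventually.of_forall fun y => by rw [hS, t2_sw2, one_mul])
    filter_upwards [this] with y hy
    rwa [hS, one_mul] at hy
  · obtain ⟨S, hS, -⟩ := exists_dg2 T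
    have := gΦ.sym hμ S (fun y => by rw [hS, a2_V2_dg D Z hT]) trivial (σ := 1) (by norm_num)
      (by simpa only [hS] using a2_gg_dg h hT)
    filter_upwards [this] with y hy
    rwa [hS, one_mul] at hy
  · obtain ⟨S, hS, -⟩ := exists_dg3 T
    have := gF.sym hμ S (fun y => by rw [hS, a2_V3_dg D Z (Or.inl hT)])
      (by simpa only [hS] using gF.mem.dg3 T) (σ := 1) (by norm_num) (by simpa only [hS] using a2_auf_dgP h hT)
    filter_upwards [this] with y hy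
    rwa [hS, one_mul] at hy
  · obtain ⟨S, hS, -⟩ := exists_dg3 T
    have := gF.sym hμ S (fun y => by rw [hS, a2_V3_dg D Z (Or.inr hT)])
      (by simpa only [hS] using gF.mem.dg3 T) (σ := -1) (by norm_num) (by simpa only [hS] using a2_auf_dgM h hT)
    filter_upwards [this] with y hy
    rwa [hS, neg_one_mul] at hy

end Crest.Agent.R335
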