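import Crest.Agent.R335.A2_Defs

/-!
# R335/A2_Bes: Bessel inequality, finite rank lower bounds, substitutions (part of `A2`, sub-lead helper17)
-/

set_option autoImplicit false
set_option linter.unusedSectionVars false

namespace Crest.Agent.R335

open MeasureTheory Set Filter Topology
open scoped Gradient RealInnerProductSpace ENNReal ContDiff
open Crest.MathPhysics.ThreeBody

variable {E : Type} [NormedAddCommGroup E] [InnerProductSpace ℝ E] [FiniteDimensional ℝ E]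
  [MeasurableSpace E] [BorelSpace E]

variable {ι : Type} [Fintype ι] [DecidableEq ι] {a : ι → E → ℝ} {V W f g : E → ℝ} {G K : E → E}

/-- `integral_finset_sum`, `MemLp.integrable_mul` -/
theorem a2_ip_sum (hf : MemLp f 2 volume) (ha : ∀ i, MemLp (a i) 2 volume) (y : ι → ℝ) :
    ip f (fun x => ∑ i, y i * a i x) = ∑ i, y i * ip f (a i) := by
  unfold ip
  simp only [Finset.mul_sum, mul_left_comm (f _), ← integral_const_mul]
  exact integral_finset_sum _ fun i _ => (hf.integrable_mul (ha i)).const_mul _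

/-- `memLp_finset_sum` -/
theorem a2_memLp_sum (ha : ∀ i, MemLp (a i) 2 volume) (y : ι → ℝ) :
    MemLp (fun x => ∑ i, y i * a i x) 2 volume :=
  memLp_finset_sum _ fun i _ => (ha i).const_mul _

/-- `nsq_lin` with `1, -1`, `a2_ip_sum` (twice), `ip_self`, `ip_comm` -/
theorem ON.nsq_proj (ha : ON a) (hf : MemLp f 2 volume) :
    nsq (fun x => f x - ∑ i, ip (a i) f * a i x) = nsq f - ∑ i, ip (a i) f ^ 2 := by
  have hs := a2_memLp_sum ha.mem fun i => ip (a i) f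
  have h1 := nsq_lin hf hs 1 (-1)
  have e : (fun x => f x - ∑ i, ip (a i) f * a i x) = fun x => 1 * f x + -1 * ∑ i, ip (a i) f * a i x := by
    funext x; ring
  have h2 : ip f (fun x => ∑ i, ip (a i) f * a i x) = ∑ i, ip (a i) f ^ 2 := by
    rw [a2_ip_sum hf ha.mem]
    exact Finset.sum_congr rfl fun i _ => by rw [ip_comm (f := f), sq]
  have h3 : nsq (fun x => ∑ i, ip (a i) f * a i x) = ∑ i, ip (a i) f ^ 2 := by
    rw [← ip_self, a2_ip_sum hs ha.mem]
    refine Finset.sum_congr rfl fun i _ => ?_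
    rw [ip_comm (g := a i), a2_ip_sum (ha.mem i) ha.mem]
    simp [ha.ip_eq, sq]
  rw [e, h1, h2, h3]
  ring

theorem ON.bessel (ha : ON a) (hf : MemLp f 2 volume) : ∑ i, ip (a i) f ^ 2 ≤ nsq f := by
  have h := ha.nsq_proj hf
  have h0 : 0 ≤ nsq (fun x => f x - ∑ i, ip (a i) f * a i x) := nsq_nonneg
  linarith

/-- with `x i = ip (a i) f ^ 2`, `N = nsq f`: `qf ≥ e (N - ∑ x i) + ∑ (e - c i) x i ≥ (e0 + μ) (N - ∑ x i) +
e0 ∑_{i ∈ S} x i + (e0 + μ) ∑_{i ∉ S} x i` (`ON.bessel`, `Finset.sum_add_sum_compl`) -/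
theorem Low.gap (ha : ON a) {e e0 μ y : ℝ} {c : ι → ℝ} (h : Low V e a c) (hf : H1 f G) (S : Finset ι)
    (he : e0 + μ ≤ e) (hS : ∀ i ∈ S, e0 ≤ e - c i) (hS' : ∀ i ∉ S, ip (a i) f = 0 ∨ e0 + μ ≤ e - c i)
    (hy : ∑ i ∈ S, ip (a i) f ^ 2 = y) : e0 * nsq f + μ * (nsq f - y) ≤ qf V f G := by
  have h1 := h f G hf
  have h2 := ha.bessel hf.mf
  have h3 := Finset.sum_add_sum_compl S fun i => ip (a i) f ^ 2
  have h4 := Finset.sum_add_sum_compl S fun i => (e - c i) * ip (a i) f ^ 2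
  have h5 : e0 * ∑ i ∈ S, ip (a i) f ^ 2 ≤ ∑ i ∈ S, (e - c i) * ip (a i) f ^ 2 := by
    rw [Finset.mul_sum]
    exact Finset.sum_le_sum fun i hi => mul_le_mul_of_nonneg_right (hS i hi) (sq_nonneg _)
  have h6 : (e0 + μ) * ∑ i ∈ Sᶜ, ip (a i) f ^ 2 ≤ ∑ i ∈ Sᶜ, (e - c i) * ip (a i) f ^ 2 := by
    rw [Finset.mul_sum]
    refine Finset.sum_le_sum fun i hi => ?_
    rcases hS' i (Finset.mem_compl.1 hi) with h | h
    · simp [h]
    · exact mul_le_mul_of_nonneg_right h (sq_nonneg _)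
  have h7 : ∑ i, (e - c i) * ip (a i) f ^ 2 = e * ∑ i, ip (a i) f ^ 2 - ∑ i, c i * ip (a i) f ^ 2 := by
    simp only [sub_mul, Finset.sum_sub_distrib, Finset.mul_sum]
  have h8 := mul_le_mul_of_nonneg_right he (sub_nonneg.2 h2)
  rw [hy] at h3 h5
  rw [← h3] at h7 h8
  nlinarith

/-- `FB.int`, `integral_add` -/
theorem a2_qf_add (hV : FB V) (hW : FB W) (hf : H1 f G) (c : ℝ) :
    qf (fun x => V x + c * W x) f G = qf V f G + c * ∫ x, W x * f x ^ 2 := by
  unfold qf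
  have e : (fun x => (V x + c * W x) * f x ^ 2) = fun x => V x * f x ^ 2 + c * (W x * f x ^ 2) := by
    funext x; ring
  rw [e, integral_add (hV.int f G hf) ((hW.int f G hf).const_mul c), integral_const_mul]
  ring

theorem Low.add {e z : ℝ} {c : ι → ℝ} (h : Low V e a c) (hV : FB V) (hW : FB W) (h0 : ∀ x, 0 ≤ W x) (hz : 0 ≤ z) :
    Low (fun x => V x + z * W x) e a c := by
  intro f G hf
  rw [a2_qf_add hV hW hf]
  have : 0 ≤ z * ∫ x, W x * f x ^ 2 := mul_nonneg hz (integral_nonneg fun x => mul_nonneg (h0 x) (sq_nonneg _))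
  linarith [h f G hf]

/-- `s1_int_iso` -/
theorem a2_ip_iso (T : E ≃ₗᵢ[ℝ] E) (f g : E → ℝ) : ip (fun x => f (T x)) (fun x => g (T x)) = ip f g :=
  s1_int_iso T fun x => f x * g x

theorem a2_nsq_iso (T : E ≃ₗᵢ[ℝ] E) (f : E → ℝ) : nsq (fun x => f (T x)) = nsq f :=
  s1_int_iso T fun x => f x ^ 2

/-- `s1_int_iso`, `LinearIsometryEquiv.inner_map_map` -/
theorem a2_bf_iso (T : E ≃ₗᵢ[ℝ] E) (hV : ∀ x, V (T x) = V x) (f : E → ℝ) (G : E → E) (g : E → ℝ) (K : E → E) :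
    bf V (fun x => f (T x)) (fun x => T.symm (G (T x))) (fun x => g (T x)) (fun x => T.symm (K (T x))) =
      bf V f G g K := by
  unfold bf
  simp only [LinearIsometryEquiv.inner_map_map]
  rw [s1_int_iso T fun x => ⟪G x, K x⟫, ← s1_int_iso T fun x => V x * (f x * g x)]
  simp only [hV]

theorem a2_qf_iso (T : E ≃ₗᵢ[ℝ] E) (hV : ∀ x, V (T x) = V x) (f : E → ℝ) (G : E → E) :
    qf V (fun x => f (T x)) (fun x => T.symm (G (T x))) = qf V f G := by
  unfold qf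
  simp only [LinearIsometryEquiv.norm_map]
  rw [s1_int_iso T fun x => ‖G x‖ ^ 2, ← s1_int_iso T fun x => V x * f x ^ 2]
  simp only [hV]

theorem a2_ip_congr {f' g' : E → ℝ} (h1 : ∀ᵐ x, f x = f' x) (h2 : ∀ᵐ x, g x = g' x) : ip f g = ip f' g' := by
  refine integral_congr_ae ?_
  filter_upwards [h1, h2] with x a1 a2
  rw [a1, a2]

theorem a2_nsq_congr {f' : E → ℝ} (h1 : ∀ᵐ x, f x = f' x) : nsq f = nsq f' := by
  refine integral_congr_ae ?_
  filter_upwards [h1] with x a1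
  rw [a1]

theorem a2_bf_congr {f' g' : E → ℝ} {G' K' : E → E} (h1 : ∀ᵐ x, f x = f' x) (h2 : ∀ᵐ x, G x = G' x)
    (h3 : ∀ᵐ x, g x = g' x) (h4 : ∀ᵐ x, K x = K' x) : bf V f G g K = bf V f' G' g' K' := by
  unfold bf
  congr 1
  · congr 1
    refine integral_congr_ae ?_
    filter_upwards [h2, h4] with x a1 a2
    rw [a1, a2]
  · refine integral_congr_ae ?_
    filter_upwards [h1, h3] with x a1 a2
    rw [a1, a2]

/-- `ip f g = ip (f ∘ T) (g ∘ T)`, `integral_const_mul` -/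
theorem a2_ip_sym (T : E ≃ₗᵢ[ℝ] E) {f' : E → ℝ} {σ : ℝ} (h1 : ∀ᵐ x, f (T x) = f' x) (h2 : ∀ᵐ x, g (T x) = σ * g x) :
    ip f g = σ * ip f' g := by
  rw [← a2_ip_iso T f g, a2_ip_congr h1 h2]
  unfold ip
  rw [← integral_const_mul]
  simp only [mul_left_comm]

/-- `LinearIsometryEquiv.measurePreserving`, `MeasurePreserving.quasiMeasurePreserving`, `QuasiMeasurePreserving.ae` -/
theorem a2_ae_iso (T : E ≃ₗᵢ[ℝ] E) {p : E → Prop} (h : ∀ᵐ x, p x) : ∀ᵐ x, p (T x) :=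
  T.measurePreserving.quasiMeasurePreserving.ae h

end Crest.Agent.R335
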