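import Crest.Agent.R335.A2_Two
import Crest.Agent.R335.A2_Sy

/-!
# R335/A2_Cor: spectral gaps of the noninteracting problems (part of `A2`, sub-lead helper17)
-/

set_option autoImplicit false
set_option linter.unusedSectionVars false

namespace Crest.Agent.R335

open MeasureTheory Set Filter Topology
open scoped Gradient RealInnerProductSpace ENNReal ContDiff
open Crest.MathPhysics.ThreeBody

variable {D eg eu e3 : ℝ} {g u : E3 → ℝ} {Gg Gu : E3 → E3}

theorem a2cor_sq : ((√2)⁻¹ : ℝ) ^ 2 = 1 / 2 := by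
  rw [inv_pow, Real.sq_sqrt (by norm_num)]
  norm_num

theorem a2cor_sw3 {f : E9 → ℝ} (hP : PF f) (a b c : E3 → ℝ) : ip (t3 a b c) f = -ip (t3 b a c) f := by
  obtain ⟨T, hT, -⟩ := exists_sw3
  have h := a2_ip_sym T (f := t3 a b c) (g := f) (f' := t3 b a c) (σ := -1)
    (Eventually.of_forall fun x => by rw [hT, t3_sw3]) (by
      filter_upwards [hP] with x hx
      rw [hT, hx, neg_one_mul])
  rw [h, neg_one_mul]

theorem a2cor_sw2 {f : E6 → ℝ} (hP : PΘ f) (a b : E3 → ℝ) : ip (t2 a b) f = ip (t2 b a) f := by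
  obtain ⟨T, hT, -⟩ := exists_sw2
  have h := a2_ip_sym T (f := t2 a b) (g := f) (f' := t2 b a) (σ := 1)
    (Eventually.of_forall fun x => by rw [hT, t2_sw2]) (by
      filter_upwards [hP.1] with x hx
      rw [hT, hx, one_mul])
  rw [h, one_mul]

theorem a2cor_gg (h : OneB D eg eu e3 g Gg u Gu) {f : E6 → ℝ} (hP : PΘ f) : ip (t2 g g) f = 0 := by
  obtain ⟨T, -, hT, -⟩ := exists_refl_z
  obtain ⟨T', hT', -⟩ := exists_dg2 T
  have e : (T : E3 → E3) = refl := funext hT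
  have h1 := a2_ip_sym T' (f := t2 g g) (g := f) (f' := t2 g g) (σ := -1)
    (by
      filter_upwards [t2_dg2 (a2_refl h).1 (a2_refl h).1] with x hx
      rw [hT', e, hx, one_mul, one_mul]) (by
      filter_upwards [hP.2] with x hx
      rw [hT', e, hx, neg_one_mul])
  linarith

/-- `Low.gap` for `a2_on2`, `a2_low2` with `S = {(0, 0)}` (`mu_le1`, `mu_le2`, `OneB.lt1`, `OneB.lt2`) -/
theorem a2_lb_ion (h : OneB D eg eu e3 g Gg u Gu) {Z : ℝ} (hZ : 0 < Z) {f : E6 → ℝ} {G : E6 → E6} (hf : H1 f G) :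
    2 * eg * nsq f + mu eg eu e3 * (nsq f - ip (t2 g g) f ^ 2) ≤ qf (V2 D Z) f G := by
  have h1 := mu_le1 eg eu e3
  have h2 := mu_le2 eg eu e3
  have h3 := h.lt1
  have h4 := h.lt2
  refine Low.gap (a2_on2 h) (a2_low2 h hZ) hf {(0, 0)} (by linarith) (fun i hi => ?_) (fun i hi => Or.inr ?_) ?_
  · rw [Finset.mem_singleton.1 hi]
    simp only [co2, Matrix.cons_val_zero]
    linarith
  · obtain ⟨i, j⟩ := i
    fin_cases i <;> fin_cases j <;> simp [co2] at hi ⊢ <;> linarith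
  · rw [Finset.sum_singleton]
    rfl

/-- `Low.gap` with `S = {(0, 1), (1, 0)}`.  `ip (t2 g g) f = 0 = ip (t2 u u) f` (`a2_ip_sym` with the isometry `dg2 refl`:
`exists_refl_z`, `exists_dg2`, `t2_dg2`, `a2_refl`), `ip (t2 g u) f = ip (t2 u g) f` (`a2_ip_sym`, `exists_sw2`, `t2_sw2`),
`ip (sgu g u) f = -(√2)⁻¹ (ip (t2 g u) f + ip (t2 u g) f)` (`s13a_ip_lin`, `ip_comm`; `MemLp` from `(a2_on2 h).mem`) -/
theorem a2_lb_odd (h : OneB D eg eu e3 g Gg u Gu) {Z : ℝ} (hZ : 0 < Z) {f : E6 → ℝ} {G : E6 → E6} (hf : H1 f G)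
    (hP : PΘ f) : (eg + eu) * nsq f + mu eg eu e3 * (nsq f - ip (sgu g u) f ^ 2) ≤ qf (V2 D Z) f G := by
  have h1 := mu_le1 eg eu e3
  have h2 := mu_le2 eg eu e3
  have h3 := h.lt1
  have h4 := h.lt2
  refine Low.gap (a2_on2 h) (a2_low2 h hZ) hf {(0, 1), (1, 0)} (by linarith) (fun i hi => ?_) (fun i hi => ?_) ?_
  · obtain ⟨i, j⟩ := i
    fin_cases i <;> fin_cases j <;> simp [co2] at hi ⊢ <;> linarith
  · obtain ⟨i, j⟩ := i
    fin_cases i <;> fin_cases j
    · exact Or.inl (a2cor_gg h hP)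
    · simp at hi
    · simp at hi
    · refine Or.inr ?_
      simp [co2]
      linarith
  · rw [Finset.sum_pair (by decide)]
    have m1 : MemLp (t2 g u) 2 volume := (a2_on2 h).mem (0, 1)
    have m2 : MemLp (t2 u g) 2 volume := (a2_on2 h).mem (1, 0)
    have e1 : sgu g u = fun y => -(√2)⁻¹ * t2 g u y + -(√2)⁻¹ * t2 u g y := by
      funext y
      unfold sgu
      ring
    have e2 : ip (sgu g u) f = -(√2)⁻¹ * ip (t2 g u) f + -(√2)⁻¹ * ip (t2 u g) f := by
      rw [ip_comm, e1, s13a_ip_lin hf.mf m1 m2, ip_comm (f := f), ip_comm (f := f)]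
    change ip (t2 g u) f ^ 2 + ip (t2 u g) f ^ 2 = _
    rw [e2, a2cor_sw2 hP g u]
    have := a2cor_sq
    linear_combination (-4 * ip (t2 u g) f ^ 2) * this

/-- `Low.gap` for `a2_on3`, `a2_low3` with `S = {(0, 0, 1), (0, 1, 0)}`.  `ip (t3 a b c) f = -ip (t3 b a c) f` (`a2_ip_sym`,
`exists_sw3`, `t3_sw3`), so the terms `(k, 0, 0)`, `(k, 1, 1)` vanish; `auf_eq` -/
theorem a2_lb_three (h : OneB D eg eu e3 g Gg u Gu) {Z : ℝ} (hZ : 0 < Z) {f : E9 → ℝ} {G : E9 → E9} (hf : H1 f G)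
    (hP : PF f) : (2 * eg + eu) * nsq f + mu eg eu e3 * (nsq f - ip (auf g u) f ^ 2) ≤ qf (V3 D Z) f G := by
  have h1 := mu_le1 eg eu e3
  have h2 := mu_le2 eg eu e3
  have h3 := h.lt1
  have h4 := h.lt2
  have z : ∀ a c : E3 → ℝ, ip (t3 a a c) f = 0 := fun a c => by
    have := a2cor_sw3 hP a a c
    linarith
  refine Low.gap (a2_on3 h) (a2_low3 h hZ) hf {(0, 0, 1), (0, 1, 0)} (by linarith) (fun i hi => ?_)
    (fun i hi => ?_) ?_
  · obtain ⟨i, j, k⟩ := i
    fin_cases i <;> fin_cases j <;> fin_cases k <;> simp [co3] at hi ⊢ <;> linarith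
  · obtain ⟨i, j, k⟩ := i
    fin_cases i <;> fin_cases j <;> fin_cases k
    · exact Or.inl (z g g)
    · simp at hi
    · simp at hi
    · exact Or.inl (z u g)
    · exact Or.inl (z g u)
    · refine Or.inr ?_
      simp [co3]
      linarith
    · refine Or.inr ?_
      simp [co3]
      linarith
    · exact Or.inl (z u u)
  · rw [Finset.sum_pair (by decide)]
    have m1 : MemLp (t3 g u g) 2 volume := (a2_on3 h).mem (0, 0, 1)
    have m2 : MemLp (t3 u g g) 2 volume := (a2_on3 h).mem (0, 1, 0)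
    have e1 : auf g u = fun X => (√2)⁻¹ * t3 u g g X + -(√2)⁻¹ * t3 g u g X := funext (auf_eq g u)
    have e2 : ip (auf g u) f = (√2)⁻¹ * ip (t3 u g g) f + -(√2)⁻¹ * ip (t3 g u g) f := by
      rw [ip_comm, e1, s13a_ip_lin hf.mf m2 m1, ip_comm (f := f), ip_comm (f := f)]
    change ip (t3 g u g) f ^ 2 + ip (t3 u g g) f ^ 2 = _
    rw [e2, a2cor_sw3 hP g u g]
    have := a2cor_sq
    linear_combination (-4 * ip (t3 u g g) f ^ 2) * this

end Crest.Agent.R335
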