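import Crest.Agent.R335.A2_Bes

/-!
# R335/A2_Dec: uniform exponential decay (part of `A2`, sub-lead helper17)
-/

set_option autoImplicit false
set_option linter.unusedSectionVars false

namespace Crest.Agent.R335

open MeasureTheory Set Filter Topology
open scoped Gradient RealInnerProductSpace ENNReal ContDiff
open Crest.MathPhysics.ThreeBody

variable {E : Type} [NormedAddCommGroup E] [InnerProductSpace ℝ E] [FiniteDimensional ℝ E]
  [MeasurableSpace E] [BorelSpace E]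

/-- Let `M = ∑ |c i| + 1`; `finite_rank_far` for `fun k => a ((Fintype.equivFin ι).symm k)` (`Equiv.sum_comp`) with `ε = γ / (2 M)`
gives `R`; `agmon (γ / 2) R (max C₀ e)`.  For `α' ≤ α` dominate the integrand (`Integrable.mono'`; measurability from `H1.mf`,
`H1.mG`). -/
theorem a2_decay {ι : Type} [Fintype ι] {a : ι → E → ℝ} (ha : ∀ i, MemLp (a i) 2 volume) (c : ι → ℝ) (e C₀ : ℝ)
    {γ : ℝ} (hγ : 0 < γ) : ∃ α C : ℝ, 0 < α ∧ 0 ≤ C ∧ ∀ α' : ℝ, α' ≤ α → ∀ (V f : E → ℝ) (G : E → E) (e' : ℝ),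
      FB V → Eig V e' f G → nsq f = 1 → e' + γ ≤ e →
      (∀ g K, H1 g K → ∫ x, ‖K x‖ ^ 2 ≤ 4 * qf V g K + C₀ * nsq g) → Low V e a c →
      Integrable (fun x => Real.exp (2 * α' * ‖x‖) * (f x ^ 2 + ‖G x‖ ^ 2)) ∧
        ∫ x, Real.exp (2 * α' * ‖x‖) * (f x ^ 2 + ‖G x‖ ^ 2) ≤ C := by
  obtain ⟨M, hM⟩ : ∃ M : ℝ, M = ∑ i, |c i| + 1 := ⟨_, rfl⟩
  have M1 : ∀ i, c i ≤ M := fun i => by
    have := Finset.single_le_sum (f := fun i => |c i|) (fun i _ => abs_nonneg _) (Finset.mem_univ i)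
    have := le_abs_self (c i)
    linarith
  have M0 : 0 < M := by
    have : 0 ≤ ∑ i, |c i| := Finset.sum_nonneg fun i _ => abs_nonneg _
    linarith
  obtain ⟨R, hR, hfar⟩ := finite_rank_far (a := fun k => a ((Fintype.equivFin ι).symm k)) (fun k => ha _)
    (show 0 < γ / (2 * M) by positivity)
  obtain ⟨α, C, hα, hC, hag⟩ := agmon (E := E) (γ / 2) R (max C₀ e) (half_pos hγ) hR
  refine ⟨α, C, hα, hC, fun α' hα' V f G e' hV hf hn he hK hL => ?_⟩
  obtain ⟨i1, i2⟩ := hag V f G e' hV hf hn.le (by linarith [le_max_right C₀ e]) (fun g K hg => by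
      have := mul_le_mul_of_nonneg_right (le_max_left C₀ e) (nsq_nonneg (f := g))
      linarith [hK g K hg]) (fun g K hg h0 => by
      have h1 := hfar g hg.mf h0
      rw [Equiv.sum_comp (Fintype.equivFin ι).symm fun i => ip (a i) g ^ 2] at h1
      have h2 : ∑ i, c i * ip (a i) g ^ 2 ≤ M * ∑ i, ip (a i) g ^ 2 := by
        rw [Finset.mul_sum]
        exact Finset.sum_le_sum fun i _ => mul_le_mul_of_nonneg_right (M1 i) (sq_nonneg _)
      have h3 := mul_le_mul_of_nonneg_left h1 M0.le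
      have h4 : M * (γ / (2 * M) * nsq g) = γ / 2 * nsq g := by field_simp
      have h5 := mul_le_mul_of_nonneg_right he (nsq_nonneg (f := g))
      have h6 := hL g K hg
      linarith)
  have hle : ∀ x, Real.exp (2 * α' * ‖x‖) * (f x ^ 2 + ‖G x‖ ^ 2) ≤ Real.exp (2 * α * ‖x‖) * (f x ^ 2 + ‖G x‖ ^ 2) :=
    fun x => by gcongr
  have i3 : Integrable fun x => Real.exp (2 * α' * ‖x‖) * (f x ^ 2 + ‖G x‖ ^ 2) := by
    refine i1.mono' ((by fun_prop : Continuous fun x : E => Real.exp (2 * α' * ‖x‖)).aestronglyMeasurable.mul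
      ((hf.h1.mf.1.pow 2).add (hf.h1.mG.1.norm.pow 2))) (Eventually.of_forall fun x => ?_)
    rw [Real.norm_of_nonneg (by positivity)]
    exact hle x
  exact ⟨i3, (integral_mono i3 i1 hle).trans i2⟩

/-- `w² ≤ 4 ‖x‖² ≤ 4 α⁻² exp (2 α ‖x‖)` (`Real.add_one_le_exp`), `memLp_two_iff_integrable_sq` -/
theorem a2_weight {w f : E → ℝ} {G : E → E} (hw : Continuous w) (hw2 : ∀ x, |w x| ≤ 2 * ‖x‖) (hf : MemLp f 2 volume)
    {α C : ℝ} (hα : 0 < α) (h1 : Integrable fun x => Real.exp (2 * α * ‖x‖) * (f x ^ 2 + ‖G x‖ ^ 2))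
    (h2 : ∫ x, Real.exp (2 * α * ‖x‖) * (f x ^ 2 + ‖G x‖ ^ 2) ≤ C) :
    MemLp (fun x => w x * f x) 2 volume ∧ nsq (fun x => w x * f x) ≤ 4 / α ^ 2 * C := by
  have hle : ∀ x, (w x * f x) ^ 2 ≤ 4 / α ^ 2 * (Real.exp (2 * α * ‖x‖) * (f x ^ 2 + ‖G x‖ ^ 2)) := fun x => by
    have a1 : α * ‖x‖ ≤ Real.exp (α * ‖x‖) := by linarith [Real.add_one_le_exp (α * ‖x‖)]
    have a2 : (α * ‖x‖) ^ 2 ≤ Real.exp (2 * α * ‖x‖) := by
      rw [mul_assoc, show (2 : ℝ) = ((2 : ℕ) : ℝ) by norm_num, Real.exp_nat_mul]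
      exact pow_le_pow_left₀ (by positivity) a1 2
    have a3 : w x ^ 2 ≤ (2 * ‖x‖) ^ 2 := by
      rw [← sq_abs]
      exact pow_le_pow_left₀ (abs_nonneg _) (hw2 x) 2
    have a4 : w x ^ 2 ≤ 4 / α ^ 2 * Real.exp (2 * α * ‖x‖) := by
      refine a3.trans ?_
      rw [div_mul_eq_mul_div, le_div_iff₀ (by positivity)]
      nlinarith
    rw [mul_pow, ← mul_assoc]
    exact mul_le_mul a4 (by nlinarith [sq_nonneg ‖G x‖]) (sq_nonneg _) (by positivity)
  have m : AEStronglyMeasurable (fun x => w x * f x) volume := hw.aestronglyMeasurable.mul hf.1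
  have i3 : Integrable fun x => (w x * f x) ^ 2 := by
    refine (h1.const_mul (4 / α ^ 2)).mono' (m.pow 2) (Eventually.of_forall fun x => ?_)
    rw [Real.norm_of_nonneg (sq_nonneg _)]
    exact hle x
  refine ⟨(memLp_two_iff_integrable_sq m).2 i3, ?_⟩
  refine (integral_mono i3 (h1.const_mul _) hle).trans ?_
  rw [integral_const_mul]
  exact mul_le_mul_of_nonneg_left h2 (by positivity)

/-- `ip Θ (w Φ) = ip (Θ - s) (w Φ) + ip (w s) (Φ - t) + ip (w s) t`, `ip_sq_le` for the first two terms; take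
`η₀ = κ² / (16 (|B| + nsq (w s) + 1))` with `κ = -ip (w s) t` -/
theorem a2_dip_abs {w s t : E → ℝ} (hs : MemLp s 2 volume) (ht : MemLp t 2 volume)
    (hws : MemLp (fun x => w x * s x) 2 volume) (hneg : ip (fun x => w x * s x) t < 0) (B : ℝ) :
    ∃ η₀ : ℝ, 0 < η₀ ∧ ∀ Φ Θ : E → ℝ, MemLp Φ 2 volume → MemLp Θ 2 volume → MemLp (fun x => w x * Φ x) 2 volume →
      nsq (fun x => w x * Φ x) ≤ B → nsq (fun x => Φ x - t x) ≤ η₀ → nsq (fun x => Θ x - s x) ≤ η₀ →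
      ∫ x, Θ x * (w x * Φ x) < 0 := by
  obtain ⟨κ, hκ⟩ : ∃ κ, κ = -ip (fun x => w x * s x) t := ⟨_, rfl⟩
  have κ0 : 0 < κ := by linarith
  have n0 := nsq_nonneg (f := fun x => w x * s x)
  have B0 := abs_nonneg B
  obtain ⟨A, hA⟩ : ∃ A, A = |B| + nsq (fun x => w x * s x) + 1 := ⟨_, rfl⟩
  have A0 : 0 < A := by linarith
  refine ⟨κ ^ 2 / (16 * A), by positivity, fun Φ Θ hΦ hΘ hwΦ h1 h2 h3 => ?_⟩
  have e0 : κ ^ 2 / (16 * A) * A = (κ / 4) ^ 2 := by field_simp; norm_num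
  have η0 : 0 ≤ κ ^ 2 / (16 * A) := by positivity
  have a1 : ip (fun x => Θ x - s x) (fun x => w x * Φ x) ≤ κ / 4 := by
    refine (abs_le_of_sq_le_sq' ?_ (by positivity)).2
    refine (ip_sq_le (hΘ.sub hs) hwΦ).trans (e0 ▸ ?_)
    exact mul_le_mul h3 (by linarith [le_abs_self B]) nsq_nonneg η0
  have a2 : ip (fun x => w x * s x) (fun x => Φ x - t x) ≤ κ / 4 := by
    refine (abs_le_of_sq_le_sq' ?_ (by positivity)).2
    refine (ip_sq_le hws (hΦ.sub ht)).trans (e0 ▸ ?_)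
    rw [mul_comm]
    exact mul_le_mul h2 (by linarith) nsq_nonneg η0
  have i1 : Integrable fun x => (Θ x - s x) * (w x * Φ x) := (hΘ.sub hs).integrable_mul hwΦ
  have i2 : Integrable fun x => w x * s x * (Φ x - t x) := hws.integrable_mul (hΦ.sub ht)
  have i3 : Integrable fun x => w x * s x * t x := hws.integrable_mul ht
  have e1 : ∫ x, Θ x * (w x * Φ x) = ip (fun x => Θ x - s x) (fun x => w x * Φ x) +
      ip (fun x => w x * s x) (fun x => Φ x - t x) + ip (fun x => w x * s x) t := by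
    unfold ip
    rw [← integral_add i1 i2, ← integral_add (i1.fun_add i2) i3]
    exact integral_congr_ae (Eventually.of_forall fun x => by ring)
  rw [e1]
  linarith

end Crest.Agent.R335
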