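import Crest.Agent.R335.Lib

/-!
# R335/C_b: forms of tensor products (part of `C`, sub-lead helper10)
-/

set_option autoImplicit false

namespace Crest.Agent.R335

open MeasureTheory Set Filter Topology
open scoped Gradient RealInnerProductSpace ENNReal ContDiff
open Crest.MathPhysics.ThreeBody

variable {A B E : Type} [NormedAddCommGroup A] [InnerProductSpace ℝ A] [FiniteDimensional ℝ A]
  [MeasurableSpace A] [BorelSpace A] [NormedAddCommGroup B] [InnerProductSpace ℝ B] [FiniteDimensional ℝ B]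
  [MeasurableSpace B] [BorelSpace B] [NormedAddCommGroup E] [InnerProductSpace ℝ E] [FiniteDimensional ℝ E]
  [MeasurableSpace E] [BorelSpace E] (s : Spl A B E)

variable {V f f' : A → ℝ} {U g g' : B → ℝ} {G G' : A → A} {K K' : B → B}

/-- `Spl.integral_mul` -/
theorem c_ip_tt (f f' : A → ℝ) (g g' : B → ℝ) :
    ip (fun x => f (s.p1 x) * g (s.p2 x)) (fun x => f' (s.p1 x) * g' (s.p2 x)) = ip f f' * ip g g' := by
  unfold ip
  rw [← s.integral_mul (f := fun a => f a * f' a) (g := fun b => g b * g' b)]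
  congr 1
  funext x
  ring

theorem c_nsq_tt (f : A → ℝ) (g : B → ℝ) : nsq (fun x => f (s.p1 x) * g (s.p2 x)) = nsq f * nsq g := by
  rw [← ip_self, ← ip_self, ← ip_self, c_ip_tt]

theorem cb_int {p : A → ℝ} {q : B → ℝ} (hp : Integrable p) (hq : Integrable q) :
    Integrable fun x => p (s.p1 x) * q (s.p2 x) :=
  (s11_mq s).integrable_comp_of_integrable (hp.mul_prod hq)

/-- pointwise (`Spl.inn`, `p1_i1`, ...): the scalar product of the gradients is
`⟪G, G'⟫(p1 x) * (g g')(p2 x) + (f f')(p1 x) * ⟪K, K'⟫(p2 x)`; four products, each integrable (a product of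
integrable functions of `p1 x`, `p2 x` is integrable: `Integrable.mul_prod`, `s11_mq`), `Spl.integral_mul`,
`FB.int_mul`, `H1.int_mul`, `H1.int_inner` -/
theorem c_bf_tt (hV : FB V) (hU : FB U) (hf : H1 f G) (hg : H1 g K) (hf' : H1 f' G') (hg' : H1 g' K') :
    bf (fun x => V (s.p1 x) + U (s.p2 x)) (fun x => f (s.p1 x) * g (s.p2 x))
        (fun x => g (s.p2 x) • s.i1 (G (s.p1 x)) + f (s.p1 x) • s.i2 (K (s.p2 x)))
        (fun x => f' (s.p1 x) * g' (s.p2 x))
        (fun x => g' (s.p2 x) • s.i1 (G' (s.p1 x)) + f' (s.p1 x) • s.i2 (K' (s.p2 x))) =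
      bf V f G f' G' * ip g g' + ip f f' * bf U g K g' K' := by
  have e1 : ∀ x, ⟪g (s.p2 x) • s.i1 (G (s.p1 x)) + f (s.p1 x) • s.i2 (K (s.p2 x)),
      g' (s.p2 x) • s.i1 (G' (s.p1 x)) + f' (s.p1 x) • s.i2 (K' (s.p2 x))⟫ =
      ⟪G (s.p1 x), G' (s.p1 x)⟫ * (g (s.p2 x) * g' (s.p2 x)) +
        f (s.p1 x) * f' (s.p1 x) * ⟪K (s.p2 x), K' (s.p2 x)⟫ := by
    intro x
    rw [s.inn]
    simp only [map_add, map_smul, s.p1_i1, s.p1_i2, s.p2_i1, s.p2_i2, smul_zero, add_zero, zero_add,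
      real_inner_smul_left, real_inner_smul_right]
    ring
  have e2 : ∀ x, (V (s.p1 x) + U (s.p2 x)) * (f (s.p1 x) * g (s.p2 x) * (f' (s.p1 x) * g' (s.p2 x))) =
      V (s.p1 x) * (f (s.p1 x) * f' (s.p1 x)) * (g (s.p2 x) * g' (s.p2 x)) +
        f (s.p1 x) * f' (s.p1 x) * (U (s.p2 x) * (g (s.p2 x) * g' (s.p2 x))) := fun x => by ring
  unfold bf ip
  simp only [e1, e2]
  rw [integral_add (cb_int s (hf.int_inner hf') (hg.int_mul hg'))
      (cb_int s (hf.int_mul hf') (hg.int_inner hg')),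
    integral_add (cb_int s (hV.int_mul hf hf') (hg.int_mul hg'))
      (cb_int s (hf.int_mul hf') (hU.int_mul hg hg')),
    s.integral_mul (f := fun a => ⟪G a, G' a⟫) (g := fun b => g b * g' b),
    s.integral_mul (f := fun a => f a * f' a) (g := fun b => ⟪K b, K' b⟫),
    s.integral_mul (f := fun a => V a * (f a * f' a)) (g := fun b => g b * g' b),
    s.integral_mul (f := fun a => f a * f' a) (g := fun b => U b * (g b * g' b))]
  ring

/-- `bf_self`, `ip_self` -/
theorem c_qf_tt (hV : FB V) (hU : FB U) (hf : H1 f G) (hg : H1 g K) :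
    qf (fun x => V (s.p1 x) + U (s.p2 x)) (fun x => f (s.p1 x) * g (s.p2 x))
        (fun x => g (s.p2 x) • s.i1 (G (s.p1 x)) + f (s.p1 x) • s.i2 (K (s.p2 x))) =
      qf V f G * nsq g + nsq f * qf U g K := by
  rw [← bf_self, c_bf_tt s hV hU hf hg hf hg, bf_self, bf_self, ip_self, ip_self]

/-- `H1.tensor`, `H1.unique`, `qf_congr` -/
theorem c_qf_ae (hV : FB V) (hU : FB U) (hf : H1 f G) (hg : H1 g K) {F : E → ℝ} {J : E → E} (hF : H1 F J)
    (h : ∀ᵐ x, F x = f (s.p1 x) * g (s.p2 x)) :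
    qf (fun x => V (s.p1 x) + U (s.p2 x)) F J = qf V f G * nsq g + nsq f * qf U g K ∧ nsq F = nsq f * nsq g := by
  refine ⟨?_, ?_⟩
  · rw [← c_qf_tt s hV hU hf hg]
    exact qf_congr h (hF.unique (H1.tensor s hf hg) h)
  · rw [← c_nsq_tt s]
    unfold nsq
    refine integral_congr_ae ?_
    filter_upwards [h] with x hx
    rw [hx]

end Crest.Agent.R335
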