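import Crest.Agent.R335.C_a
import Crest.Agent.R335.C_b

/-!
# R335/A2_Defs: definitions for `A2` (sub-lead helper17).  DO NOT CHANGE
-/

set_option autoImplicit false
set_option linter.unusedSectionVars false

namespace Crest.Agent.R335

open MeasureTheory Set Filter Topology
open scoped Gradient RealInnerProductSpace ENNReal ContDiff
open Crest.MathPhysics.ThreeBody

section General

variable {E : Type} [NormedAddCommGroup E] [InnerProductSpace ℝ E] [FiniteDimensional ℝ E]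
  [MeasurableSpace E] [BorelSpace E]

/-- orthonormal family in `L²` -/
structure ON {ι : Type} [DecidableEq ι] (a : ι → E → ℝ) : Prop where
  mem : ∀ i, MemLp (a i) 2 volume
  ip_eq : ∀ i j, ip (a i) (a j) = if i = j then 1 else 0

/-- lower bound for the form, up to a finite rank form -/
def Low {ι : Type} [Fintype ι] (V : E → ℝ) (e : ℝ) (a : ι → E → ℝ) (c : ι → ℝ) : Prop :=
  ∀ f G, H1 f G → e * nsq f - ∑ i, c i * ip (a i) f ^ 2 ≤ qf V f G

/-- the ground state `Φ` in the class `P`, close to the trial function `t` -/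
structure Gs (V : E → ℝ) (P : (E → ℝ) → Prop) (t : E → ℝ) (e0 ε μ e : ℝ) (Φ : E → ℝ) (G : E → E) : Prop where
  h1 : H1 Φ G
  mem : P Φ
  nrm : nsq Φ = 1
  en : qf V Φ G = e
  lo : e0 ≤ e
  hi : e ≤ e0 + ε
  pos : 0 < ip t Φ
  cl : μ * nsq (fun x => Φ x - t x) ≤ 2 * ε
  eul : ∀ f K, H1 f K → P f → bf V Φ G f K = e * ip Φ f
  gap : ∀ f K, H1 f K → P f → (e + μ / 2) * nsq f - μ / 2 * ip Φ f ^ 2 ≤ qf V f K

end General

section Split

variable {A B E : Type} [NormedAddCommGroup A] [InnerProductSpace ℝ A] [FiniteDimensional ℝ A]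
  [MeasurableSpace A] [BorelSpace A] [NormedAddCommGroup B] [InnerProductSpace ℝ B] [FiniteDimensional ℝ B]
  [MeasurableSpace B] [BorelSpace B] [NormedAddCommGroup E] [InnerProductSpace ℝ E] [FiniteDimensional ℝ E]
  [MeasurableSpace E] [BorelSpace E] (s : Spl A B E)

/-- the component along `φ` in the first variable -/
noncomputable def fib1 (φ : A → ℝ) (F : E → ℝ) (b : B) : ℝ := ip φ fun a => F (s.j a b)

/-- the component along `ψ` in the second variable -/
noncomputable def fib2 (ψ : B → ℝ) (F : E → ℝ) (a : A) : ℝ := ip ψ fun b => F (s.j a b)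

/-- tensor product -/
def tens (φ : A → ℝ) (ψ : B → ℝ) (x : E) : ℝ := φ (s.p1 x) * ψ (s.p2 x)

end Split

/-- product of two orbitals -/
def t2 (a b : E3 → ℝ) (y : E6) : ℝ := a (pos2 0 y) * b (pos2 1 y)

/-- product of three orbitals -/
def t3 (a b c : E3 → ℝ) (X : E9) : ℝ := a (elPos 0 X) * b (elPos 1 X) * c (elPos 2 X)

/-- trial function for the odd state of the ion (note the sign) -/
noncomputable def sgu (g u : E3 → ℝ) (y : E6) : ℝ := -(√2)⁻¹ * (t2 g u y + t2 u g y)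

/-- the products of the two orbitals -/
def fam2 (g u : E3 → ℝ) (p : Fin 2 × Fin 2) : E6 → ℝ := t2 (![g, u] p.1) (![g, u] p.2)

/-- the products of the two orbitals; `p.1` is the orbital of electron `2` -/
def fam3 (g u : E3 → ℝ) (p : Fin 2 × Fin 2 × Fin 2) : E9 → ℝ := t3 (![g, u] p.2.1) (![g, u] p.2.2) (![g, u] p.1)

/-- coefficients of the finite rank part -/
def co2 (eg eu e3 : ℝ) (p : Fin 2 × Fin 2) : ℝ := e3 + eg - ![eg, eu] p.1 - ![eg, eu] p.2

/-- coefficients of the finite rank part -/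
def co3 (eg eu e3 : ℝ) (p : Fin 2 × Fin 2 × Fin 2) : ℝ :=
  e3 + 2 * eg - ![eg, eu] p.1 - ![eg, eu] p.2.1 - ![eg, eu] p.2.2

/-- the gap of the noninteracting problems -/
def mu (eg eu e3 : ℝ) : ℝ := min (eu - eg) (e3 - eu)

/-- symmetry class of `Θ` -/
def PΘ (f : E6 → ℝ) : Prop := (∀ᵐ y, f (sw2 y) = f y) ∧ ∀ᵐ y, f (dg2 refl y) = -f y

/-- symmetry class of `F` -/
def PF (f : E9 → ℝ) : Prop := ∀ᵐ X, f (sw3 X) = -f X

theorem OneB.mu_pos {D eg eu e3 : ℝ} {g u : E3 → ℝ} {Gg Gu : E3 → E3} (h : OneB D eg eu e3 g Gg u Gu) :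
    0 < mu eg eu e3 :=
  lt_min (sub_pos.2 h.lt1) (sub_pos.2 h.lt2)

theorem mu_le1 (eg eu e3 : ℝ) : mu eg eu e3 ≤ eu - eg := min_le_left _ _

theorem mu_le2 (eg eu e3 : ℝ) : mu eg eu e3 ≤ e3 - eu := min_le_right _ _

end Crest.Agent.R335
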