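import Crest.Agent.R335.A2_Bes

/-!
# R335/A2_Gs: consequences of the gap (part of `A2`, sub-lead helper17)
-/

set_option autoImplicit false
set_option linter.unusedSectionVars false

namespace Crest.Agent.R335

open MeasureTheory Set Filter Topology
open scoped Gradient RealInnerProductSpace ENNReal ContDiff
open Crest.MathPhysics.ThreeBody

variable {E : Type} [NormedAddCommGroup E] [InnerProductSpace ℝ E] [FiniteDimensional ℝ E]
  [MeasurableSpace E] [BorelSpace E]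

variable {V t Φ : E → ℝ} {G : E → E} {P : (E → ℝ) → Prop} {e0 ε μ e : ℝ}

/-- `Gs.gap`, `ip_sq_le` -/
theorem Gs.min (h : Gs V P t e0 ε μ e Φ G) (hμ : 0 < μ) : ∀ f K, H1 f K → P f → e * nsq f ≤ qf V f K := by
  intro f K hf hP
  have h1 := h.gap f K hf hP
  have h2 := ip_sq_le h.h1.mf hf.mf
  rw [h.nrm, one_mul] at h2
  nlinarith

/-- `H1.congr`, `qf_congr`, `a2_ip_congr`, `a2_nsq_congr`, `a2_bf_congr` -/
theorem Gs.congr (h : Gs V P t e0 ε μ e Φ G) {Φ' : E → ℝ} (h1 : ∀ᵐ x, Φ x = Φ' x) (h2 : P Φ') :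
    Gs V P t e0 ε μ e Φ' G := by
  have hG : ∀ᵐ x, G x = G x := Eventually.of_forall fun _ => rfl
  have hr : ∀ f : E → ℝ, ∀ᵐ x, f x = f x := fun f => Eventually.of_forall fun _ => rfl
  refine ⟨h.h1.congr h1 hG, h2, ?_, ?_, h.lo, h.hi, ?_, ?_, fun f K hf hP => ?_, fun f K hf hP => ?_⟩
  · rw [← a2_nsq_congr h1, h.nrm]
  · rw [← qf_congr h1 hG, h.en]
  · rw [← a2_ip_congr (hr t) h1]
    exact h.pos
  · have : nsq (fun x => Φ x - t x) = nsq fun x => Φ' x - t x :=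
      a2_nsq_congr (by filter_upwards [h1] with x hx; rw [hx])
    rw [← this]
    exact h.cl
  · rw [← a2_bf_congr h1 hG (hr f) (Eventually.of_forall fun _ => rfl), ← a2_ip_congr h1 (hr f)]
    exact h.eul f K hf hP
  · rw [← a2_ip_congr h1 (hr f)]
    exact h.gap f K hf hP

/-- `f = Φ ∘ T` (`H1.comp_iso`) has `qf = e`, `nsq = 1` (`a2_qf_iso`, `a2_nsq_iso`), so `α = ip Φ f` has `α² ≥ 1` (`Gs.gap`) and
`nsq (1 * f + (-α) * Φ) = 1 - α² ≤ 0`, `f = α Φ` a.e. (`nsq_eq_zero`).  `ip t Φ = ip (t ∘ T) f = σ α ip t Φ`, so `σ α = 1`. -/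
theorem Gs.sym (h : Gs V P t e0 ε μ e Φ G) (hμ : 0 < μ) (T : E ≃ₗᵢ[ℝ] E) (hV : ∀ x, V (T x) = V x)
    (hP : P fun x => Φ (T x)) {σ : ℝ} (hσ : σ ^ 2 = 1) (ht : ∀ᵐ x, t (T x) = σ * t x) :
    ∀ᵐ x, Φ (T x) = σ * Φ x := by
  have hf := h.h1.comp_iso T
  have g1 := h.gap _ _ hf hP
  rw [a2_qf_iso T hV, a2_nsq_iso T, h.nrm, h.en] at g1
  set α := ip Φ fun x => Φ (T x) with hα
  have h1 : 1 ≤ α ^ 2 := by nlinarith
  have h2 := nsq_lin hf.mf h.h1.mf 1 (-α)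
  rw [a2_nsq_iso T, h.nrm, ip_comm, ← hα] at h2
  have h3 : nsq (fun x => 1 * Φ (T x) + -α * Φ x) = 0 := le_antisymm (by nlinarith) nsq_nonneg
  have h4 := nsq_eq_zero ((hf.mf.const_mul 1).add (h.h1.mf.const_mul (-α))) h3
  have h5 : ∀ᵐ x, Φ (T x) = α * Φ x := by
    filter_upwards [h4] with x hx
    have : 1 * Φ (T x) + -α * Φ x = 0 := hx
    linarith
  have h6 : ip t Φ = α * ip (fun x => σ * t x) Φ := a2_ip_sym T ht h5
  have h7 : ip (fun x => σ * t x) Φ = σ * ip t Φ := by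
    simp only [ip, mul_assoc, integral_const_mul]
  rw [h7] at h6
  have h8 : α * σ = 1 := by
    have hp := h.pos
    have : (α * σ - 1) * ip t Φ = 0 := by linarith
    rcases mul_eq_zero.1 this with h' | h'
    · linarith
    · exact absurd h' hp.ne'
  have h9 : α = σ := by
    calc α = α * σ ^ 2 := by rw [hσ, mul_one]
      _ = α * σ * σ := by ring
      _ = σ := by rw [h8, one_mul]
  rwa [h9] at h5

/-- `(Φ ∘ T, T.symm ∘ G ∘ T) = σ (Φ, G)` a.e. (`H1.comp_iso`, `H1.const_mul`, `H1.unique`), so `a2_bf_iso`, `a2_bf_congr` give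
`bf Φ f = σ bf Φ (f ∘ T)`, the same for `ip` (`a2_ip_iso`); test with `2⁻¹ f + (σ / 2) f ∘ T` (`bf_lin`, `bf_comm`, `s13a_ip_lin`) -/
theorem a2_euler_ext (hV : FB V) (hΦ : H1 Φ G) (T : E ≃ₗᵢ[ℝ] E) (hT : ∀ x, T (T x) = x) (hVT : ∀ x, V (T x) = V x)
    {σ : ℝ} (hσ : σ ^ 2 = 1) (hs : ∀ᵐ x, Φ (T x) = σ * Φ x) {Q : (E → ℝ) → Prop}
    (hQ : ∀ f, Q f → Q fun x => 2⁻¹ * f x + σ / 2 * f (T x))
    (h : ∀ f K, H1 f K → Q f → (∀ᵐ x, f (T x) = σ * f x) → bf V Φ G f K = e * ip Φ f) :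
    ∀ f K, H1 f K → Q f → bf V Φ G f K = e * ip Φ f := by
  intro f K hf hQf
  have hfT := hf.comp_iso T
  have hG : ∀ᵐ x, T.symm (G (T x)) = σ • G x := (hΦ.comp_iso T).unique (hΦ.const_mul σ) hs
  have hr : ∀ f : E → ℝ, ∀ᵐ x, f x = f x := fun f => Eventually.of_forall fun _ => rfl
  have b1 : bf V Φ G f K = σ * bf V Φ G (fun x => f (T x)) fun x => T.symm (K (T x)) := by
    rw [← a2_bf_iso T hVT Φ G f K, a2_bf_congr hs hG (hr _) (Eventually.of_forall fun _ => rfl)]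
    have := bf_lin hV hΦ hΦ hfT σ 0
    simpa using this
  have i1 : ip Φ f = σ * ip Φ fun x => f (T x) := by
    rw [← a2_ip_iso T Φ f, a2_ip_congr hs (hr _)]
    simp only [ip, mul_assoc, integral_const_mul]
  have hf' := (hf.const_mul 2⁻¹).add (hfT.const_mul (σ / 2))
  have key := h _ _ hf' (hQ f hQf) (Eventually.of_forall fun x => by
    rw [hT]
    linear_combination (-(f (T x)) / 2) * hσ)
  rw [bf_comm, bf_lin hV hf hfT hΦ, s13a_ip_lin hΦ.mf hf.mf hfT.mf, bf_comm V (f := f),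
    bf_comm V (f := fun x => f (T x))] at key
  linear_combination key + 2⁻¹ * b1 - e * 2⁻¹ * i1

end Crest.Agent.R335
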