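import Crest.Agent.R335.A2_Bes

/-!
# R335/A2_Key: two commuting families of projections (part of `A2`, sub-lead helper17)
-/

set_option autoImplicit false
set_option linter.unusedSectionVars false

namespace Crest.Agent.R335

open MeasureTheory Set Filter Topology
open scoped Gradient RealInnerProductSpace ENNReal ContDiff
open Crest.MathPhysics.ThreeBody

variable {A B E : Type} [NormedAddCommGroup A] [InnerProductSpace ℝ A] [FiniteDimensional ℝ A]
  [MeasurableSpace A] [BorelSpace A] [NormedAddCommGroup B] [InnerProductSpace ℝ B] [FiniteDimensional ℝ B]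
  [MeasurableSpace B] [BorelSpace B] [NormedAddCommGroup E] [InnerProductSpace ℝ E] [FiniteDimensional ℝ E]
  [MeasurableSpace E] [BorelSpace E] (s : Spl A B E)

variable {ι κ : Type} [Fintype ι] [DecidableEq ι] [Fintype κ] [DecidableEq κ] {a : ι → A → ℝ} {b : κ → B → ℝ}
  {φ : A → ℝ} {ψ : B → ℝ} {F : E → ℝ}

/-- `s12a_memLp` with `H = fun p => F (s.j p.1 p.2)` (`MemLp.comp_measurePreserving`, `Spl.mp`) -/
theorem fib2_memLp (hψ : MemLp ψ 2 volume) (hF : MemLp F 2 volume) : MemLp (fib2 s ψ F) 2 volume := by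
  exact s12a_memLp (H := fun p => F (s.j p.1 p.2)) (hF.comp_measurePreserving s.mp) hψ

/-- `fib2_memLp` for `s.swap` (`Spl.swap_j`) -/
theorem fib1_memLp (hφ : MemLp φ 2 volume) (hF : MemLp F 2 volume) : MemLp (fib1 s φ F) 2 volume := by
  have := fib2_memLp s.swap hφ hF
  unfold fib2 at this
  simp only [Spl.swap_j] at this
  exact this

/-- `Spl.memLp_tensor` -/
theorem tens_memLp (hφ : MemLp φ 2 volume) (hψ : MemLp ψ 2 volume) : MemLp (tens s φ ψ) 2 volume := by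
  exact s.memLp_tensor hφ hψ

/-- `c_ip_fib`, `ip_comm` -/
theorem ip_fib1 (hφ : MemLp φ 2 volume) (hψ : MemLp ψ 2 volume) (hF : MemLp F 2 volume) :
    ip ψ (fib1 s φ F) = ip (tens s φ ψ) F := by
  exact ip_comm.trans ((c_ip_fib s hF hφ hψ).symm.trans ip_comm)

/-- `c_ip_fib'`, `ip_comm` -/
theorem ip_fib2 (hφ : MemLp φ 2 volume) (hψ : MemLp ψ 2 volume) (hF : MemLp F 2 volume) :
    ip φ (fib2 s ψ F) = ip (tens s φ ψ) F := by
  exact ip_comm.trans ((c_ip_fib' s hF hψ hφ).symm.trans ip_comm)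

/-- `c_ip_tt` -/
theorem ip_tens (φ φ' : A → ℝ) (ψ ψ' : B → ℝ) : ip (tens s φ ψ) (tens s φ' ψ') = ip φ φ' * ip ψ ψ' := by
  exact c_ip_tt s φ φ' ψ ψ'

theorem ON.tensor (ha : ON a) (hb : ON b) : ON fun p : ι × κ => tens s (a p.1) (b p.2) := by
  refine ⟨fun p => tens_memLp s (ha.mem _) (hb.mem _), fun p q => ?_⟩
  rw [ip_tens, ha.ip_eq, hb.ip_eq]
  by_cases h1 : p.1 = q.1 <;> by_cases h2 : p.2 = q.2 <;> simp [h1, h2, Prod.ext_iff]

/-- Bessel in a.e. slice (`s11b_memLp`, `ON.bessel`), integrate (`c_nsq_slice`, `integral_finset_sum`,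
`MemLp.integrable_sq`, `integral_mono_ae`) -/
theorem a2_bessel_fib2 (hb : ON b) (hF : MemLp F 2 volume) : ∑ j, nsq (fib2 s (b j) F) ≤ nsq F := by
  obtain ⟨h1, h2⟩ := c_nsq_slice s hF
  have hi : ∀ j, Integrable fun x => fib2 s (b j) F x ^ 2 := fun j => (fib2_memLp s (hb.mem j) hF).integrable_sq
  rw [h2]
  unfold nsq at h1 ⊢
  rw [← integral_finsetSum _ fun j _ => hi j]
  refine integral_mono_ae (integrable_finsetSum _ fun j _ => hi j) h1 ?_
  filter_upwards [s11b_memLp s hF] with x hx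
  exact hb.bessel hx

theorem a2key_ip_sum {f : E → ℝ} {t : ι → E → ℝ} (hf : MemLp f 2 volume) (ht : ∀ i, MemLp (t i) 2 volume) :
    ip f (fun x => ∑ i, t i x) = ∑ i, ip f (t i) := by
  simpa only [one_mul] using a2_ip_sum hf ht fun _ => 1

theorem a2key_memLp (ha : ON a) (hF : MemLp F 2 volume) :
    MemLp (fun x => ∑ i, tens s (a i) (fib1 s (a i) F) x) 2 volume := by
  simpa only [one_mul] using
    a2_memLp_sum (fun i => tens_memLp s (ha.mem i) (fib1_memLp s (ha.mem i) hF)) fun _ => 1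

/-- `nsq_lin`, `a2_ip_sum` with `y = 1`, `ip_fib1`, `ip_tens` -/
theorem a2_nsq_rem (ha : ON a) (hF : MemLp F 2 volume) :
    nsq (fun x => F x - ∑ i, tens s (a i) (fib1 s (a i) F) x) = nsq F - ∑ i, nsq (fib1 s (a i) F) := by
  have hf : ∀ i, MemLp (fib1 s (a i) F) 2 volume := fun i => fib1_memLp s (ha.mem i) hF
  have ht : ∀ i, MemLp (tens s (a i) (fib1 s (a i) F)) 2 volume := fun i => tens_memLp s (ha.mem i) (hf i)
  have hP := a2key_memLp s ha hF
  have h1 := nsq_lin hF hP 1 (-1)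
  have h2 : ip F (fun x => ∑ i, tens s (a i) (fib1 s (a i) F) x) = ∑ i, nsq (fib1 s (a i) F) := by
    rw [a2key_ip_sum hF ht]
    exact Finset.sum_congr rfl fun i _ => ip_comm.trans ((ip_fib1 s (ha.mem i) (hf i) hF).symm.trans ip_self)
  have h3 : nsq (fun x => ∑ i, tens s (a i) (fib1 s (a i) F) x) = ∑ i, nsq (fib1 s (a i) F) := by
    rw [← ip_self, a2key_ip_sum hP ht]
    refine Finset.sum_congr rfl fun i _ => ?_
    rw [ip_comm, a2key_ip_sum (ht i) ht]
    simp only [ip_tens, ha.ip_eq, ite_mul, one_mul, zero_mul, Finset.sum_ite_eq, Finset.mem_univ, if_true, ip_self]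
  rw [h2, h3] at h1
  simp only [one_mul, neg_mul, ← sub_eq_add_neg] at h1
  linarith

/-- for a.e. `x` the slice is in `L²` (`s11b_memLp`); `Spl.p1_j`, `Spl.p2_j`, `s13a_ip_lin`, `a2_ip_sum`, `ip_fib1`, `ip_fib2` -/
theorem a2_fib2_rem (ha : ON a) (hψ : MemLp ψ 2 volume) (hF : MemLp F 2 volume) :
    ∀ᵐ x, fib2 s ψ (fun x => F x - ∑ i, tens s (a i) (fib1 s (a i) F) x) x =
      fib2 s ψ F x - ∑ i, ip (a i) (fib2 s ψ F) * a i x := by
  have hf : ∀ i, MemLp (fib1 s (a i) F) 2 volume := fun i => fib1_memLp s (ha.mem i) hF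
  filter_upwards [s11b_memLp s hF] with x hx
  have h1 := s13a_ip_lin hψ hx (a2_memLp_sum hf fun i => a i x) 1 (-1)
  rw [a2_ip_sum hψ hf] at h1
  simp only [one_mul, neg_mul, ← sub_eq_add_neg] at h1
  unfold fib2 tens
  simp only [Spl.p1_j, Spl.p2_j]
  rw [h1]
  congr 1
  refine Finset.sum_congr rfl fun i _ => ?_
  rw [ip_fib1 s (ha.mem i) hψ hF, ← ip_fib2 s (ha.mem i) hψ hF, mul_comm]
  rfl

/-- `a2_bessel_fib2` for the remainder, `a2_nsq_rem`, `a2_fib2_rem`, `a2_nsq_congr`, `ON.nsq_proj`, `ip_fib2` -/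
theorem a2_key (ha : ON a) (hb : ON b) (hF : MemLp F 2 volume) :
    ∑ i, nsq (fib1 s (a i) F) + ∑ j, nsq (fib2 s (b j) F) ≤
      nsq F + ∑ i, ∑ j, ip (tens s (a i) (b j)) F ^ 2 := by
  have h1 := a2_bessel_fib2 s hb (hF.sub (a2key_memLp s ha hF))
  have h2 := a2_nsq_rem s ha hF
  have h3 : ∀ j, nsq (fib2 s (b j) fun x => F x - ∑ i, tens s (a i) (fib1 s (a i) F) x) =
      nsq (fib2 s (b j) F) - ∑ i, ip (tens s (a i) (b j)) F ^ 2 := fun j => by
    rw [a2_nsq_congr (a2_fib2_rem s ha (hb.mem j) hF), ha.nsq_proj (fib2_memLp s (hb.mem j) hF)]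
    simp only [ip_fib2 s (ha.mem _) (hb.mem j) hF]
  change ∑ j, nsq (fib2 s (b j) fun x => F x - ∑ i, tens s (a i) (fib1 s (a i) F) x) ≤
    nsq (fun x => F x - ∑ i, tens s (a i) (fib1 s (a i) F) x) at h1
  simp only [h3, Finset.sum_sub_distrib] at h1
  rw [Finset.sum_comm] at h1
  linarith

end Crest.Agent.R335
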