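import Crest.Agent.R335.A2_Key

/-!
# R335/A2_Ten: lower bound for a sum of two forms in different variables (part of `A2`, sub-lead helper17)
-/

set_option autoImplicit false
set_option linter.unusedSectionVars false

namespace Crest.Agent.R335

open MeasureTheory Set Filter Topology
open scoped Gradient RealInnerProductSpace ENNReal ContDiff
open Crest.MathPhysics.ThreeBody

variable {A B E : Type} [NormedAddCommGroup A] [InnerProductSpace ℝ A] [FiniteDimensional ℝ A]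
  [MeasurableSpace A] [BorelSpace A] [NormedAddCommGroup B] [InnerProductSpace ℝ B] [FiniteDimensional ℝ B]
  [MeasurableSpace B] [BorelSpace B] [NormedAddCommGroup E] [InnerProductSpace ℝ E] [FiniteDimensional ℝ E]
  [MeasurableSpace E] [BorelSpace E] (s : Spl A B E)

variable {ι κ : Type} [Fintype ι] [DecidableEq ι] [Fintype κ] [DecidableEq κ] {a : ι → A → ℝ} {b : κ → B → ℝ}
  {V : A → ℝ} {U : B → ℝ} {F : E → ℝ} {G : E → E} {e e' : ℝ} {c : ι → ℝ} {c' : κ → ℝ}

theorem a2ten_int {N Q : A → ℝ} {y : κ → A → ℝ} (hN : Integrable N) (hy : ∀ j, MemLp (y j) 2 volume)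
    (hQ : Integrable Q) (h : ∀ᵐ x, e' * N x - ∑ j, c' j * y j x ^ 2 ≤ Q x) :
    e' * (∫ x, N x) - ∑ j, c' j * nsq (y j) ≤ ∫ x, Q x := by
  have i1 : ∀ j ∈ Finset.univ, Integrable fun x => c' j * y j x ^ 2 := fun j _ => (hy j).integrable_sq.const_mul _
  have i2 : Integrable fun x => ∑ j, c' j * y j x ^ 2 := integrable_finsetSum _ i1
  have e1 : ∫ x, (e' * N x - ∑ j, c' j * y j x ^ 2) = e' * (∫ x, N x) - ∑ j, c' j * nsq (y j) := by
    rw [integral_sub (hN.const_mul _) i2, integral_const_mul, integral_finsetSum _ i1]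
    simp only [integral_const_mul, nsq]
  rw [← e1]
  exact integral_mono_ae ((hN.const_mul _).sub i2) hQ h

/-- `H1.slice`, `c_nsq_slice`, `c_qf_slice`, `fib2_memLp`, `MemLp.integrable_sq`, `integral_mono_ae` -/
theorem Low.slice2 (hU : FB U) (hb : ∀ j, MemLp (b j) 2 volume) (h : Low U e' b c') (hF : H1 F G) :
    e' * nsq F - ∑ j, c' j * nsq (fib2 s (b j) F) ≤
      ∫ x, qf U (fun y => F (s.j x y)) fun y => s.p2 (G (s.j x y)) := by
  obtain ⟨i1, e1⟩ := c_nsq_slice s hF.mf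
  rw [e1]
  refine a2ten_int i1 (fun j => fib2_memLp s (hb j) hF.mf) (c_qf_slice s hU hF).1 ?_
  filter_upwards [H1.slice s hF] with x hx
  exact h _ _ hx

/-- the same for the other factor (`c_slice'`, `c_nsq_slice'`, `c_qf_slice'`, `fib1_memLp`), or use `s.swap` -/
theorem Low.slice1 (hV : FB V) (ha : ∀ i, MemLp (a i) 2 volume) (h : Low V e a c) (hF : H1 F G) :
    e * nsq F - ∑ i, c i * nsq (fib1 s (a i) F) ≤
      ∫ y, qf V (fun x => F (s.j x y)) fun x => s.p1 (G (s.j x y)) := by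
  obtain ⟨i1, e1⟩ := c_nsq_slice' s hF.mf
  rw [e1]
  refine a2ten_int i1 (fun i => fib1_memLp s (ha i) hF.mf) (c_qf_slice' s hV hF).1 ?_
  filter_upwards [c_slice' s hF] with x hx
  exact h _ _ hx

/-- pure algebra: `∑ c i p i + ∑ c' j q j = ∑ c i (p i - ∑_j x i j) + ∑ c' j (q j - ∑_i x i j) + ∑ (c i + c' j) x i j
≤ m (P - X) + m (Q - X) + ∑ (c i + c' j) x i j ≤ m (N - X) + ∑ (c i + c' j) x i j` (`Finset.sum_comm`) -/
theorem a2_ten_alg {p : ι → ℝ} {q : κ → ℝ} {x : ι → κ → ℝ} {N m : ℝ} (hm : 0 ≤ m) (hc : ∀ i, c i ≤ m)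
    (hc' : ∀ j, c' j ≤ m) (hp : ∀ i, ∑ j, x i j ≤ p i) (hq : ∀ j, ∑ i, x i j ≤ q j)
    (hN : ∑ i, p i + ∑ j, q j ≤ N + ∑ i, ∑ j, x i j) :
    ∑ i, c i * p i + ∑ j, c' j * q j ≤ m * N + ∑ i, ∑ j, (c i + c' j - m) * x i j := by
  have h1 : ∑ i, c i * (p i - ∑ j, x i j) ≤ ∑ i, m * (p i - ∑ j, x i j) :=
    Finset.sum_le_sum fun i _ => mul_le_mul_of_nonneg_right (hc i) (sub_nonneg.2 (hp i))
  have h2 : ∑ j, c' j * (q j - ∑ i, x i j) ≤ ∑ j, m * (q j - ∑ i, x i j) :=
    Finset.sum_le_sum fun j _ => mul_le_mul_of_nonneg_right (hc' j) (sub_nonneg.2 (hq j))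
  rw [← Finset.mul_sum, Finset.sum_sub_distrib] at h1 h2
  rw [Finset.sum_comm (f := fun j i => x i j)] at h2
  simp only [mul_sub, Finset.sum_sub_distrib] at h1 h2
  have e1 : ∑ i, ∑ j, (c i + c' j - m) * x i j =
      ∑ i, c i * ∑ j, x i j + ∑ j, c' j * ∑ i, x i j - m * ∑ i, ∑ j, x i j := by
    simp only [Finset.mul_sum]
    rw [Finset.sum_comm (f := fun j i => c' j * x i j), ← Finset.sum_add_distrib, ← Finset.sum_sub_distrib]
    refine Finset.sum_congr rfl fun i _ => ?_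
    rw [← Finset.sum_add_distrib, ← Finset.sum_sub_distrib]
    exact Finset.sum_congr rfl fun j _ => by ring
  have h3 := mul_le_mul_of_nonneg_left hN hm
  rw [e1]
  linarith

/-- `c_qf_split`, the two slice lemmas, `a2_ten_alg` with `a2_key` and `ON.bessel` for `fib1`, `fib2` (`ip_fib1`, `ip_fib2`),
`Fintype.sum_prod_type` -/
theorem Low.tensor (hV : FB V) (hU : FB U) (ha : ON a) (hb : ON b) (h1 : Low V e a c) (h2 : Low U e' b c') {m : ℝ}
    (hm : 0 ≤ m) (hc : ∀ i, c i ≤ m) (hc' : ∀ j, c' j ≤ m) :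
    Low (fun x => V (s.p1 x) + U (s.p2 x)) (e + e' - m) (fun p : ι × κ => tens s (a p.1) (b p.2))
      fun p => c p.1 + c' p.2 - m := by
  intro F G hF
  have l1 := Low.slice1 s hV ha.mem h1 hF
  have l2 := Low.slice2 s hU hb.mem h2 hF
  have k := a2_ten_alg (c := c) (c' := c') (p := fun i => nsq (fib1 s (a i) F)) (q := fun j => nsq (fib2 s (b j) F))
    (x := fun i j => ip (tens s (a i) (b j)) F ^ 2) (N := nsq F) hm hc hc'
    (fun i => by
      have := hb.bessel (fib1_memLp s (ha.mem i) hF.mf)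
      simpa only [ip_fib1 s (ha.mem i) (hb.mem _) hF.mf] using this)
    (fun j => by
      have := ha.bessel (fib2_memLp s (hb.mem j) hF.mf)
      simpa only [ip_fib2 s (ha.mem _) (hb.mem j) hF.mf] using this)
    (a2_key s ha hb hF.mf)
  rw [c_qf_split s hV hU hF, Fintype.sum_prod_type]
  linarith

end Crest.Agent.R335
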