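import Crest.Agent.R335.A3_Defs

/-!
# R335/A3_Cld: the amplitude is close to `u` (part of A3, sub-lead helper5; definitions in `A3_Defs`)
-/

set_option autoImplicit false

namespace Crest.Agent.R335

open MeasureTheory Set Filter Topology
open scoped Gradient RealInnerProductSpace ENNReal ContDiff
open Crest.MathPhysics.ThreeBody

theorem a3cld_mem {f g : E3 → ℝ} (hf : MemLp f 2 volume) (hg : MemLp g 2 volume) :
    MemLp (fun y : E6 => f (pos2 0 y) * g (pos2 1 y)) 2 volume := by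
  obtain ⟨t, t1, t2, -⟩ := exists_spl2 0
  have h := t.memLp_tensor hf hg
  simp only [t1, t2, zero_add] at h
  exact h

theorem a3cld_ip (f g f' g' : E3 → ℝ) :
    ip (fun y : E6 => f (pos2 0 y) * g (pos2 1 y)) (fun y => f' (pos2 0 y) * g' (pos2 1 y)) = ip f f' * ip g g' := by
  obtain ⟨t, t1, t2, -⟩ := exists_spl2 0
  have h := t.integral_mul (f := fun a => f a * f' a) (g := fun b => g b * g' b)
  simp only [t1, t2, zero_add] at h
  rw [ip, ip, ip, ← h]
  exact integral_congr_ae (ae_of_all _ fun y => by ring)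

theorem a3cld_sub {Φ f k : E6 → ℝ} (hΦ : MemLp Φ 2 volume) (hf : MemLp f 2 volume) (hk : MemLp k 2 volume) :
    ip (fun y => Φ y - f y) k = ip Φ k - ip f k := by
  refine Eq.trans ?_ (integral_sub (hΦ.integrable_mul hk) (hf.integrable_mul hk))
  exact integral_congr_ae (ae_of_all _ fun y => by simp only [Pi.mul_apply]; ring)

/-- With `e = F - auf g u`, `gg = g ⊗ g`, `ug = u ⊗ g` (`exists_spl2 0`, `Spl.integral_mul`, `Spl.memLp_tensor`; `nsq gg = nsq ug = 1`,
`ip gg ug = 0`): `√2 auf (at0 x y) = u x * gg y - g x * ug y`, hence for a.e. `x`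
`ip Φ (√2 F(x,·)) - u x = √2 ip Φ (e(x,·)) + u x * α - g x * β`, `α = ip (Φ - gg) gg`, `β = ip (Φ - gg) ug`, `α², β² ≤ η`.
`(ip Φ (e(x,·)))² ≤ nsq (e(x,·))`, whose integral is `nsq e` (`Spl.integral_eq`; `auf ∈ L²`).  `(p + q + r)² ≤ 3 (p² + q² + r²)`. -/
theorem a3_cld {s : Spl E3 E6 E9} (hs : ∀ a y, s.j a y = at0 a y) {g u : E3 → ℝ} (hg : MemLp g 2 volume)
    (hu : MemLp u 2 volume) (ng : nsq g = 1) (nu : nsq u = 1) (orth : ip g u = 0) {Φ : E6 → ℝ}
    (hΦ : MemLp Φ 2 volume) (nΦ : nsq Φ = 1) {F : E9 → ℝ} (hF : MemLp F 2 volume) {η : ℝ}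
    (h1 : nsq (fun y => Φ y - g (pos2 0 y) * g (pos2 1 y)) ≤ η) (h2 : nsq (fun X => F X - auf g u X) ≤ η) :
    nsq (fun x => ip Φ (sl s (fun X => √2 * F X) x) - u x) ≤ 12 * η := by
  have Mgg := a3cld_mem hg hg
  have Mug := a3cld_mem hu hg
  have e1 := a3cld_ip g g g g
  have e2 := a3cld_ip g g u g
  have e3 := a3cld_ip u g u g
  have hA : ∀ a y, auf g u (s.j a y) =
      (√2)⁻¹ * (u a * (g (pos2 0 y) * g (pos2 1 y)) - g a * (u (pos2 0 y) * g (pos2 1 y))) := fun a y => by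
    rw [hs, auf, at0, elPos_mk3_0, elPos_mk3_1, elPos_mk3_2]
    ring
  obtain ⟨gg, hgg⟩ : ∃ gg : E6 → ℝ, gg = fun y => g (pos2 0 y) * g (pos2 1 y) := ⟨_, rfl⟩
  obtain ⟨ug, hug⟩ : ∃ ug : E6 → ℝ, ug = fun y => u (pos2 0 y) * g (pos2 1 y) := ⟨_, rfl⟩
  replace hA : ∀ a y, auf g u (s.j a y) = (√2)⁻¹ * (u a * gg y - g a * ug y) := by
    rw [hgg, hug]; exact hA
  replace h1 : nsq (fun y => Φ y - gg y) ≤ η := by rw [hgg]; exact h1
  rw [← hgg] at Mgg e1 e2
  rw [← hug] at Mug e2 e3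
  rw [ip_self (f := g), ng, mul_one] at e1 e2 e3
  rw [orth] at e2
  rw [ip_self (f := u), nu, ip_self] at e3
  have MA : MemLp (auf g u) 2 volume := by
    have e : auf g u = fun X => (√2)⁻¹ * (u (s.p1 X) * gg (s.p2 X) - g (s.p1 X) * ug (s.p2 X)) := by
      funext X
      rw [← hA, s.j_p]
    rw [e]
    exact ((s.memLp_tensor hu Mgg).sub (s.memLp_tensor hg Mug)).const_mul _
  have Me : MemLp (fun X => F X - auf g u X) 2 volume := hF.sub MA
  have Md : MemLp (fun y => Φ y - gg y) 2 volume := hΦ.sub Mgg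
  have hα : (ip Φ gg - 1) ^ 2 ≤ η := by
    have h := ip_sq_le Md Mgg
    rw [a3cld_sub hΦ Mgg Mgg, ← ip_self (f := gg), e1, mul_one] at h
    exact h.trans h1
  have hβ : ip Φ ug ^ 2 ≤ η := by
    have h := ip_sq_le Md Mug
    rw [a3cld_sub hΦ Mgg Mug, e2, e3, mul_one, sub_zero] at h
    exact h.trans h1
  have ie := (s.integrable_fibre Me.integrable_sq).2
  have iu := hu.integrable_sq
  have ig := hg.integrable_sq
  have h3 : nsq (fun x => ip Φ (sl s (fun X => √2 * F X) x) - u x) ≤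
      ∫ x, (6 * (∫ y, (F (s.j x y) - auf g u (s.j x y)) ^ 2) + 3 * η * u x ^ 2 + 3 * η * g x ^ 2) := by
    refine integral_mono_of_nonneg (ae_of_all _ fun x => sq_nonneg _)
      (((ie.const_mul 6).add (iu.const_mul _)).add (ig.const_mul _)) ?_
    filter_upwards [(s12b_slice s Me).1] with x hx
    have h4 := ip_sq_le hΦ hx
    rw [nΦ, one_mul, nsq] at h4
    have h0 : √2 ≠ 0 := by positivity
    have h5 : ip Φ (sl s (fun X => √2 * F X) x) =
        √2 * ip Φ (fun y => F (s.j x y) - auf g u (s.j x y)) + u x * ip Φ gg - g x * ip Φ ug := by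
      have i1 := (hΦ.integrable_mul hx).const_mul √2
      have i2 := (hΦ.integrable_mul Mgg).const_mul (u x)
      have i3 := (hΦ.integrable_mul Mug).const_mul (g x)
      simp only [Pi.mul_apply] at i1 i2 i3
      have i4 := integral_sub (i1.add i2) i3
      simp only [Pi.add_apply] at i4
      rw [ip, ip, ip, ip, ← integral_const_mul, ← integral_const_mul, ← integral_const_mul, ← integral_add i1 i2,
        ← i4]
      refine integral_congr_ae (ae_of_all _ fun y => ?_)
      simp only [sl, hA]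
      field_simp
      ring
    obtain ⟨p, hp⟩ : ∃ p, p = ip Φ (fun y => F (s.j x y) - auf g u (s.j x y)) := ⟨_, rfl⟩
    rw [← hp] at h4 h5
    have h6 : (√2 * p) ^ 2 = 2 * p ^ 2 := by rw [mul_pow, Real.sq_sqrt zero_le_two]
    have h7 : (u x * (ip Φ gg - 1)) ^ 2 ≤ η * u x ^ 2 := by
      rw [mul_pow, mul_comm]
      exact mul_le_mul_of_nonneg_right hα (sq_nonneg _)
    have h8 : (g x * ip Φ ug) ^ 2 ≤ η * g x ^ 2 := by
      rw [mul_pow, mul_comm]
      exact mul_le_mul_of_nonneg_right hβ (sq_nonneg _)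
    rw [h5, show √2 * p + u x * ip Φ gg - g x * ip Φ ug - u x =
      √2 * p + u x * (ip Φ gg - 1) - g x * ip Φ ug by ring]
    generalize √2 * p = A at h6
    generalize u x * (ip Φ gg - 1) = B at h7
    generalize g x * ip Φ ug = C at h8
    nlinarith [sq_nonneg (A - B), sq_nonneg (A + C), sq_nonneg (B + C)]
  have i5 := integral_add ((ie.const_mul 6).add (iu.const_mul (3 * η))) (ig.const_mul (3 * η))
  simp only [Pi.add_apply] at i5
  rw [i5,
    integral_add (ie.const_mul 6) (iu.const_mul _), integral_const_mul, integral_const_mul, integral_const_mul,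
    ← s.integral_eq Me.integrable_sq] at h3
  rw [nsq] at ng nu h2
  rw [ng, nu] at h3
  linarith

end Crest.Agent.R335
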