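import Crest.Agent.R335.A3_Ion2

/-!
# R335/A3_Exp: multipole expansions (part of A3, sub-lead helper5; definitions in `A3_Defs`)
-/

set_option autoImplicit false

namespace Crest.Agent.R335

open MeasureTheory Set Filter Topology
open scoped Gradient RealInnerProductSpace ENNReal ContDiff
open Crest.MathPhysics.ThreeBody

variable {Z M : ℝ} {f g : E6 → ℝ}

theorem a3exp_env (x : E3) (y : E6) :
    (1 + ‖pos2 0 y‖) ^ 4 * (1 + (1 / ‖x - pos2 0 y‖ + 1 / ‖refl x - pos2 0 y‖)) +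
      (1 + ‖pos2 1 y‖) ^ 4 * (1 + (1 / ‖x - pos2 1 y‖ + 1 / ‖refl x - pos2 1 y‖)) ≤ 2 * env x y := by
  have h0 : (1 + ‖pos2 0 y‖) ^ 4 ≤ (1 + ‖y‖) ^ 4 := by gcongr; exact norm_pos2_le 0 y
  have h1 : (1 + ‖pos2 1 y‖) ^ 4 ≤ (1 + ‖y‖) ^ 4 := by gcongr; exact norm_pos2_le 1 y
  unfold env
  set a := 1 / ‖x - pos2 0 y‖ + 1 / ‖refl x - pos2 0 y‖ with ha
  set b := 1 / ‖x - pos2 1 y‖ + 1 / ‖refl x - pos2 1 y‖ with hb
  have a0 : 0 ≤ a := by positivity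
  have b0 : 0 ≤ b := by positivity
  have p0 : 0 ≤ (1 + ‖y‖) ^ 4 := by positivity
  have e0 := mul_le_mul_of_nonneg_right h0 (by linarith : 0 ≤ 1 + a)
  have e1 := mul_le_mul_of_nonneg_right h1 (by linarith : 0 ≤ 1 + b)
  nlinarith [mul_nonneg p0 a0, mul_nonneg p0 b0]

/-- `Dc.bound` with `k = Wx Z x - 2/(Z r)`, `|k| ≤ 4/(Z r²) env` (`a3_ker1`, `norm_pos2_le`) -/
theorem a3_mono (hZ : 1 ≤ Z) (hf : Dc M f) (hg : MemLp g 2 volume) {x : E3} (hx : 1 ≤ ‖x‖) :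
    Integrable (fun y => Wx Z x y * (f y * g y)) ∧
      |wI Z x f g - 2 / (Z * ‖x‖) * ip f g| ≤ 4 * √M / (Z * ‖x‖ ^ 2) * √(nsq g) := by
  have hZ0 : 0 < Z := by linarith
  have hx0 : 0 < ‖x‖ := by linarith
  have m0 := (s15_cont_pos2 0).measurable
  have m1 := (s15_cont_pos2 1).measurable
  have hk : Measurable fun y => Wx Z x y - 2 / (Z * ‖x‖) := by
    unfold Wx
    fun_prop
  obtain ⟨i1, b1⟩ := hf.bound (c := 4 / (Z * ‖x‖ ^ 2)) hg hk x (by positivity) fun y => by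
    have e : Wx Z x y - 2 / (Z * ‖x‖) =
        Z⁻¹ * ((1 / ‖x - pos2 0 y‖ - 1 / ‖x‖) + (1 / ‖x - pos2 1 y‖ - 1 / ‖x‖)) := by
      unfold Wx
      field_simp
      ring
    have k0 := a3_ker1 hx (pos2 0 y)
    have k1 := a3_ker1 hx (pos2 1 y)
    have k2 := a3exp_env x y
    have q0 : (1 + ‖pos2 0 y‖) ^ 4 * (1 + 1 / ‖x - pos2 0 y‖) ≤
        (1 + ‖pos2 0 y‖) ^ 4 * (1 + (1 / ‖x - pos2 0 y‖ + 1 / ‖refl x - pos2 0 y‖)) := by
      gcongr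
      exact le_add_of_nonneg_right (by positivity)
    have q1 : (1 + ‖pos2 1 y‖) ^ 4 * (1 + 1 / ‖x - pos2 1 y‖) ≤
        (1 + ‖pos2 1 y‖) ^ 4 * (1 + (1 / ‖x - pos2 1 y‖ + 1 / ‖refl x - pos2 1 y‖)) := by
      gcongr
      exact le_add_of_nonneg_right (by positivity)
    have q2 : 2 / ‖x‖ ^ 2 * ((1 + ‖pos2 0 y‖) ^ 4 * (1 + 1 / ‖x - pos2 0 y‖) +
        (1 + ‖pos2 1 y‖) ^ 4 * (1 + 1 / ‖x - pos2 1 y‖)) ≤ 2 / ‖x‖ ^ 2 * (2 * env x y) :=
      mul_le_mul_of_nonneg_left (by linarith) (by positivity)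
    rw [e, abs_mul, abs_of_pos (inv_pos.2 hZ0)]
    calc _ ≤ Z⁻¹ * (2 / ‖x‖ ^ 2 * (2 * env x y)) :=
          mul_le_mul_of_nonneg_left ((abs_add_le _ _).trans (by linarith)) (inv_pos.2 hZ0).le
      _ = _ := by field_simp; ring
  have i2 : Integrable fun y => 2 / (Z * ‖x‖) * (f y * g y) := (hf.1.integrable_mul hg).const_mul _
  have i3 : Integrable fun y => Wx Z x y * (f y * g y) := by
    refine (i1.add i2).congr (Eventually.of_forall fun y => ?_)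
    simp only [Pi.add_apply]
    ring
  refine ⟨i3, ?_⟩
  have e : wI Z x f g - 2 / (Z * ‖x‖) * ip f g = ∫ y, (Wx Z x y - 2 / (Z * ‖x‖)) * (f y * g y) := by
    rw [wI, ip, ← integral_const_mul, ← integral_sub i3 i2]
    congr 1
    funext y
    ring
  rw [e]
  refine (abs_integral_le_integral_abs.trans b1).trans (le_of_eq ?_)
  ring

/-- `wI_odd`, `Dc.bound` with `k = (2 Z)⁻¹ ∑ j (kj j x y - 2 x₂ (y_j)₂ / r³)` (`a3_ker4`) and with `k = (y₀)₂ + (y₁)₂` -/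
theorem a3_dip (hZ : 1 ≤ Z) (hf : Dc M f) (hg : MemLp g 2 volume) (hodd : ∀ᵐ y, f (rf y) = -f y)
    (hev : ∀ᵐ y, g (rf y) = g y) {x : E3} (hx : 1 ≤ ‖x‖) :
    |wI Z x f g - x 2 / (Z * ‖x‖ ^ 3) * ∫ y, f y * ((pos2 0 y 2 + pos2 1 y 2) * g y)| ≤
      100 * √M * ((1 + |x 2|) / ‖x‖ ^ 4) * √(nsq g) := by
  have hZ0 : 0 < Z := by linarith
  have hx0 : 0 < ‖x‖ := by linarith
  have m0 := (s15_cont_pos2 0).measurable
  have m1 := (s15_cont_pos2 1).measurable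
  obtain ⟨i1, e1⟩ := wI_odd (Z := Z) x (f := f) (g := g) (by
    filter_upwards [hodd, hev] with y h1 h2
    rw [h1, h2, neg_mul]) (a3_mono hZ hf hg hx).1
  have m2 : Measurable fun v : E3 => v 2 := (EuclideanSpace.proj 2 : E3 →L[ℝ] ℝ).continuous.measurable
  have m3 : Measurable fun y => pos2 0 y 2 := m2.comp m0
  have m4 : Measurable fun y => pos2 1 y 2 := m2.comp m1
  have hk : Measurable fun y => (2 * Z)⁻¹ * ((kj 0 x y - 2 * x 2 * pos2 0 y 2 / ‖x‖ ^ 3) +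
      (kj 1 x y - 2 * x 2 * pos2 1 y 2 / ‖x‖ ^ 3)) := by
    unfold kj
    fun_prop
  obtain ⟨i2, b2⟩ := hf.bound (c := 100 * ((1 + |x 2|) / ‖x‖ ^ 4)) hg hk x (by positivity) fun y => by
    have k0 := a3_ker4 hx (pos2 0 y)
    have k1 := a3_ker4 hx (pos2 1 y)
    have k2 := a3exp_env x y
    have q0 : 0 ≤ env x y := by unfold env; positivity
    have q2 := mul_le_mul_of_nonneg_left k2 (by positivity : 0 ≤ 100 * (1 + |x 2|) / ‖x‖ ^ 4)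
    have q3 : (2 * Z)⁻¹ ≤ 2⁻¹ := inv_anti₀ (by norm_num) (by linarith)
    rw [abs_mul, abs_of_pos (by positivity : 0 < (2 * Z)⁻¹)]
    calc _ ≤ 2⁻¹ * (100 * (1 + |x 2|) / ‖x‖ ^ 4 * (2 * env x y)) := by
          refine mul_le_mul q3 ((abs_add_le _ _).trans ?_) (abs_nonneg _) (by norm_num)
          unfold kj
          linarith
      _ = _ := by ring
  have e : wI Z x f g - x 2 / (Z * ‖x‖ ^ 3) * ∫ y, f y * ((pos2 0 y 2 + pos2 1 y 2) * g y) =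
      ∫ y, (2 * Z)⁻¹ * ((kj 0 x y - 2 * x 2 * pos2 0 y 2 / ‖x‖ ^ 3) +
        (kj 1 x y - 2 * x 2 * pos2 1 y 2 / ‖x‖ ^ 3)) * (f y * g y) := by
    rw [e1, ← integral_const_mul, sub_eq_iff_eq_add', ← sub_eq_iff_eq_add, ← integral_sub i1 i2]
    congr 1
    funext y
    field_simp
    ring
  rw [e]
  refine (abs_integral_le_integral_abs.trans b2).trans (le_of_eq ?_)
  ring

end Crest.Agent.R335
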