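import Crest.Agent.R335.A3_Defs

/-!
# R335/A3_Dc: weighted Hardy inequality (part of A3, sub-lead helper5; definitions in `A3_Defs`)
-/

set_option autoImplicit false

namespace Crest.Agent.R335

open MeasureTheory Set Filter Topology
open scoped Gradient RealInnerProductSpace ENNReal ContDiff
open Crest.MathPhysics.ThreeBody

theorem a3dc_mem {F : Type} [NormedAddCommGroup F] {u : E6 → F} {b : E6 → ℝ} (hu : AEStronglyMeasurable u volume)
    (hb : Integrable b) (h : ∀ y, ‖u y‖ ^ 2 ≤ b y) : MemLp u 2 volume ∧ ∫ y, ‖u y‖ ^ 2 ≤ ∫ y, b y := by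
  have h1 : Integrable fun y => ‖u y‖ ^ 2 := hb.mono' (hu.norm.pow 2) (.of_forall fun y => by simpa using h y)
  exact ⟨(memLp_two_iff_integrable_sq_norm hu).2 h1, integral_mono h1 hb h⟩

theorem a3dc_meas (x : E3) : Measurable (env x) := by
  have h0 := geo_measurable_pos2 0
  have h1 := geo_measurable_pos2 1
  unfold env
  fun_prop

theorem a3dc_wt {a : ℝ} (ha : 0 < a) : ContDiff ℝ 1 (wt a) ∧ ∀ y, ‖∇ (wt a) y‖ ≤ a * wt a y ∧
    wt a y ^ 2 ≤ Real.exp (2 * a) * Real.exp (2 * a * ‖y‖) ∧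
    (1 + ‖y‖) ^ 4 ≤ 24 / a ^ 4 * Real.exp a * wt a y := by
  refine ⟨(contDiff_const.mul s14_w_smooth).exp, fun y => ⟨?_, ?_, ?_⟩⟩
  · have h1 := ((s14_w_smooth.differentiable one_ne_zero y).hasFDerivAt.const_mul a).exp.fderiv
    rw [s14_grad_norm, show wt a = fun y => Real.exp (a * s14_w y) from rfl, h1, norm_smul, norm_smul,
      Real.norm_of_nonneg (Real.exp_pos _).le, Real.norm_of_nonneg ha.le, mul_comm a (Real.exp _)]
    gcongr
    exact mul_le_of_le_one_right ha.le (s14_w_d y)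
  · rw [wt, ← Real.exp_nat_mul, ← Real.exp_add, Real.exp_le_exp]
    push_cast
    nlinarith [s14_w_le y]
  · have h1 := Real.pow_div_factorial_le_exp (a * (1 + ‖y‖)) (by positivity) 4
    have h2 : Real.exp (a * (1 + ‖y‖)) ≤ Real.exp a * wt a y := by
      rw [wt, ← Real.exp_add, Real.exp_le_exp]
      nlinarith [s14_w_ge y]
    rw [mul_assoc, div_mul_eq_mul_div, le_div_iff₀ (by positivity)]
    norm_num [Nat.factorial, mul_pow] at h1
    linarith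

/-- `p y = (1 + ‖y‖²)²` is `C¹`, `(1 + ‖y‖)⁴ ≤ 4 p`, `‖∇ p‖ ≤ 4 p`, `p² ≤ c(a) e^(2 a ‖y‖)`; `p f ∈ H¹` (`H1.mul_c1`) with
`nsq (p f) + ∫ ‖gradient‖² ≤ c' C`; `hardy2` for `p f` at the points `x` and `refl x`; `env² ≤ 16 p² · 5 (1 + ∑ 1/A²)`.
For the weight: `wt a y ^ 2 ≤ e^(2a) e^(2 a ‖y‖)` (`s14_w_le`). -/
theorem dc_of_dec {a : ℝ} (ha : 0 < a) (C : ℝ) : ∃ M : ℝ, 0 ≤ M ∧ ∀ (f : E6 → ℝ) (G : E6 → E6), H1 f G →
    Integrable (fun y => Real.exp (2 * a * ‖y‖) * (f y ^ 2 + ‖G y‖ ^ 2)) →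
    ∫ y, Real.exp (2 * a * ‖y‖) * (f y ^ 2 + ‖G y‖ ^ 2) ≤ C →
    Dc M f ∧ MemLp (fun y => wt a y * f y) 2 volume ∧ nsq (fun y => wt a y * f y) ≤ M := by
  obtain ⟨w1, w2⟩ := a3dc_wt ha
  obtain ⟨N, hN⟩ : ∃ N, N = 2 * (1 + a ^ 2) * Real.exp (2 * a) := ⟨_, rfl⟩
  obtain ⟨c, hc⟩ : ∃ c, c = 24 / a ^ 4 * Real.exp a := ⟨_, rfl⟩
  have N0 : 0 ≤ N := by rw [hN]; positivity
  refine ⟨(85 * c ^ 2 + 1) * (N * |C|), by positivity, fun f G hf hi hC => ?_⟩
  have hb : ∫ y, N * (Real.exp (2 * a * ‖y‖) * (f y ^ 2 + ‖G y‖ ^ 2)) ≤ N * |C| := by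
    rw [integral_const_mul]
    exact mul_le_mul_of_nonneg_left (hC.trans (le_abs_self _)) N0
  have key : ∀ y, 2 * (1 + a ^ 2) * wt a y ^ 2 * (f y ^ 2 + ‖G y‖ ^ 2) ≤
      N * (Real.exp (2 * a * ‖y‖) * (f y ^ 2 + ‖G y‖ ^ 2)) := fun y => by
    rw [hN]
    linarith [mul_le_mul_of_nonneg_right (w2 y).2.1
      (by positivity : 0 ≤ 2 * (1 + a ^ 2) * (f y ^ 2 + ‖G y‖ ^ 2))]
  obtain ⟨a1, a2⟩ := a3dc_mem (u := fun y => wt a y * f y) (w1.continuous.aestronglyMeasurable.mul hf.mf.1)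
    (hi.const_mul N) fun y => le_trans (by
      rw [Real.norm_eq_abs, sq_abs]
      nlinarith [sq_nonneg (wt a y * f y), sq_nonneg (wt a y * ‖G y‖), sq_nonneg (a * wt a y * f y),
        sq_nonneg (a * wt a y * ‖G y‖)]) (key y)
  obtain ⟨b1, b2⟩ := a3dc_mem (u := fun y => wt a y • G y + f y • ∇ (wt a) y)
    ((w1.continuous.aestronglyMeasurable.smul hf.mG.1).add
      (hf.mf.1.smul (s1a_grad_cont w1).aestronglyMeasurable)) (hi.const_mul N) fun y => le_trans (by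
      have h0 : 0 ≤ wt a y := (Real.exp_pos _).le
      have h1 : ‖wt a y • G y + f y • ∇ (wt a) y‖ ≤ wt a y * ‖G y‖ + |f y| * (a * wt a y) := by
        refine (norm_add_le _ _).trans ?_
        rw [norm_smul, norm_smul, Real.norm_of_nonneg h0, Real.norm_eq_abs]
        gcongr
        exact (w2 y).1
      refine (pow_le_pow_left₀ (norm_nonneg _) h1 2).trans ?_
      rw [← sq_abs (f y)]
      nlinarith [sq_nonneg (wt a y * |f y|), sq_nonneg (wt a y * ‖G y‖ - |f y| * (a * wt a y)),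
        sq_nonneg (a * wt a y * ‖G y‖)]) (key y)
  have hu := hf.mul_c1 w1 a1 b1
  simp only [Real.norm_eq_abs, sq_abs] at a2
  have a3 := a2.trans hb
  have b3 := b2.trans hb
  refine ⟨⟨hf.mf, fun x => ?_⟩, a1, a3.trans (le_mul_of_one_le_left (by positivity) (by nlinarith [sq_nonneg c]))⟩
  obtain ⟨c1, d1⟩ := hardy2 hu 0 x
  obtain ⟨c2, d2⟩ := hardy2 hu 0 (refl x)
  obtain ⟨c3, d3⟩ := hardy2 hu 1 x
  obtain ⟨c4, d4⟩ := hardy2 hu 1 (refl x)
  obtain ⟨e1, e2⟩ := a3dc_mem (u := fun y => env x y * f y) ((a3dc_meas x).aestronglyMeasurable.mul hf.mf.1)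
    (((hu.int_sq.fun_add (c1.fun_add c2)).fun_add (c3.fun_add c4)).const_mul (5 * c ^ 2)) fun y => by
      have h1 : (env x y * f y) ^ 2 ≤ (c * wt a y * (1 + (1 / ‖x - pos2 0 y‖ + 1 / ‖refl x - pos2 0 y‖) +
          (1 / ‖x - pos2 1 y‖ + 1 / ‖refl x - pos2 1 y‖)) * f y) ^ 2 := by
        rw [mul_pow, mul_pow _ (f y), env, hc]
        gcongr
        exact (w2 y).2.2
      rw [Real.norm_eq_abs, sq_abs]
      refine h1.trans ?_
      simp only [div_eq_mul_inv _ (_ ^ 2), ← inv_pow, one_div]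
      generalize ‖x - pos2 0 y‖⁻¹ = p, ‖refl x - pos2 0 y‖⁻¹ = q, ‖x - pos2 1 y‖⁻¹ = r, ‖refl x - pos2 1 y‖⁻¹ = s
      have h2 : (1 + (p + q) + (r + s)) ^ 2 ≤ 5 * (1 + (p ^ 2 + q ^ 2) + (r ^ 2 + s ^ 2)) := by
        nlinarith [sq_nonneg (1 - p), sq_nonneg (1 - q), sq_nonneg (1 - r), sq_nonneg (1 - s), sq_nonneg (p - q),
          sq_nonneg (p - r), sq_nonneg (p - s), sq_nonneg (q - r), sq_nonneg (q - s), sq_nonneg (r - s)]
      linarith [mul_le_mul_of_nonneg_left h2 (sq_nonneg (c * (wt a y * f y)))]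
  refine ⟨e1, ?_⟩
  rw [integral_const_mul, integral_add (hu.int_sq.fun_add (c1.fun_add c2)) (c3.fun_add c4),
    integral_add hu.int_sq (c1.fun_add c2), integral_add c1 c2, integral_add c3 c4] at e2
  simp only [Real.norm_eq_abs, sq_abs] at e2
  refine e2.trans ((mul_le_mul_of_nonneg_left (by linarith : _ ≤ 17 * (N * |C|)) (by positivity)).trans ?_)
  nlinarith [mul_nonneg N0 (abs_nonneg C)]

/-- Cauchy-Schwarz (`ip_sq_le` for `env * |f|` and `|g|`) -/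
theorem Dc.bound {M c : ℝ} {f g k : E6 → ℝ} (hf : Dc M f) (hg : MemLp g 2 volume) (hk : Measurable k) (x : E3)
    (hc : 0 ≤ c) (h : ∀ y, |k y| ≤ c * env x y) :
    Integrable (fun y => k y * (f y * g y)) ∧ ∫ y, |k y * (f y * g y)| ≤ c * √M * √(nsq g) := by
  obtain ⟨a1, a2⟩ := hf.2 x
  have a3 : Integrable fun y => c * (|env x y * f y| * |g y|) := (a1.abs.integrable_mul hg.abs).const_mul c
  have a4 : ∀ y, |k y * (f y * g y)| ≤ c * (|env x y * f y| * |g y|) := fun y => by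
    rw [abs_mul, abs_mul, abs_mul, mul_assoc, ← mul_assoc c]
    gcongr
    exact (h y).trans (mul_le_mul_of_nonneg_left (le_abs_self _) hc)
  have a5 : Integrable fun y => k y * (f y * g y) :=
    a3.mono' (hk.aestronglyMeasurable.mul (hf.1.1.mul hg.1)) (.of_forall a4)
  refine ⟨a5, (integral_mono a5.abs a3 a4).trans ?_⟩
  have a6 := Real.le_sqrt_of_sq_le (ip_sq_le (f := fun y => |env x y * f y|) (g := fun y => |g y|) a1.abs hg.abs)
  simp only [nsq, sq_abs] at a6 a2 ⊢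
  rw [integral_const_mul, mul_assoc]
  rw [Real.sqrt_mul (integral_nonneg fun y => sq_nonneg _)] at a6
  exact mul_le_mul_of_nonneg_left (a6.trans (by gcongr)) hc

end Crest.Agent.R335
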