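import Crest.Agent.R335.A3_Defs

/-!
# R335/A3_Ker: pointwise bounds for the Coulomb kernels (part of A3, sub-lead helper5; definitions in `A3_Defs`)
-/

set_option autoImplicit false

namespace Crest.Agent.R335

open MeasureTheory Set Filter Topology
open scoped Gradient RealInnerProductSpace ENNReal ContDiff
open Crest.MathPhysics.ThreeBody

theorem a3_norm_refl (x : E3) : ‖refl x‖ = ‖x‖ := by
  obtain ⟨T, -, h1, -⟩ := exists_refl_z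
  rw [← h1, T.norm_map]

theorem a3_norm_sub_refl (x y : E3) : ‖x - refl y‖ = ‖refl x - y‖ := by
  obtain ⟨T, -, h1, h2⟩ := exists_refl_z
  rw [← T.symm.norm_map, map_sub, ← h1 y, T.symm_apply_apply, h2]

theorem a3_sq_sub (x y : E3) : ‖refl x - y‖ ^ 2 - ‖x - y‖ ^ 2 = 4 * x 2 * y 2 := by
  rw [geob_norm_sq, geob_norm_sq]
  simp [refl]
  ring

theorem a3ker_A (x y : E3) : |‖x - y‖ - ‖x‖| ≤ ‖y‖ := by
  have := abs_norm_sub_norm_le (x - y) x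
  rwa [sub_sub_cancel_left, norm_neg] at this

theorem a3ker_B (x y : E3) : |‖refl x - y‖ - ‖x‖| ≤ ‖y‖ := by
  have := a3ker_A (refl x) y
  rwa [a3_norm_refl] at this

theorem a3ker_pow {t : ℝ} (ht : 0 ≤ t) :
    1 ≤ (1 + t) ^ 4 ∧ t ≤ (1 + t) ^ 4 ∧ 2 * t ^ 2 ≤ (1 + t) ^ 4 ∧ t ^ 3 ≤ (1 + t) ^ 4 ∧ t ^ 4 ≤ (1 + t) ^ 4 := by
  have h2 : 0 ≤ t ^ 2 := by positivity
  have h3 : 0 ≤ t ^ 3 := by positivity
  have h4 : 0 ≤ t ^ 4 := by positivity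
  have e : (1 + t) ^ 4 = 1 + 4 * t + 6 * t ^ 2 + 4 * t ^ 3 + t ^ 4 := by ring
  rw [e]
  refine ⟨?_, ?_, ?_, ?_, ?_⟩ <;> linarith

theorem a3ker_abs {a b : ℝ} (ha : 0 ≤ a) (hb : 0 ≤ b) : |a - b| ≤ a + b := by
  rw [abs_le]; constructor <;> linarith

theorem a3ker_1 {r t A : ℝ} (hr : 1 ≤ r) (ht : 0 ≤ t) (hA0 : 0 ≤ A) (hA : |A - r| ≤ t) :
    |1 / A - 1 / r| ≤ 2 / r ^ 2 * ((1 + t) ^ 4 * (1 + 1 / A)) := by
  obtain ⟨p0, p1, p2, -, -⟩ := a3ker_pow ht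
  have hr0 : 0 < r := by linarith
  have ha : 0 ≤ 1 / A := by positivity
  obtain ⟨l, u⟩ := abs_le.1 hA
  by_cases h : t ≤ r / 2
  · have hA1 : r / 2 ≤ A := by linarith
    have hA2 : 0 < A := by linarith
    have e : 1 / A - 1 / r = (r - A) / (A * r) := by field_simp
    rw [e, abs_div, abs_of_pos (by positivity : 0 < A * r), abs_sub_comm]
    calc |A - r| / (A * r) ≤ t / (r / 2 * r) := by gcongr
      _ = 2 / r ^ 2 * (t * 1) := by field_simp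
      _ ≤ _ := by gcongr; linarith
  · have h1 : 1 / r ≤ 1 := (div_le_one hr0).2 hr
    have h2 : 1 ≤ 2 / r ^ 2 * (1 + t) ^ 4 := by
      rw [div_mul_eq_mul_div, one_le_div (by positivity)]
      nlinarith [not_le.1 h]
    calc |1 / A - 1 / r| ≤ 1 / A + 1 / r := a3ker_abs ha (by positivity)
      _ ≤ 1 * (1 + 1 / A) := by linarith
      _ ≤ 2 / r ^ 2 * (1 + t) ^ 4 * (1 + 1 / A) := by gcongr
      _ = _ := by ring

theorem a3ker_e {A B c : ℝ} (hA : 0 < A) (hB : 0 < B) (h : B ^ 2 - A ^ 2 = c) :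
    1 / A - 1 / B = c / (A * B * (A + B)) := by
  rw [← h]; field_simp; ring

theorem a3ker_P {r A B : ℝ} (hr : 0 < r) (hA : r / 2 ≤ A) (hB : r / 2 ≤ B) : r ^ 3 / 4 ≤ A * B * (A + B) := by
  have hA0 : 0 ≤ A := by linarith
  have hB0 : 0 ≤ B := by linarith
  calc r ^ 3 / 4 = r / 2 * (r / 2) * (r / 2 + r / 2) := by ring
    _ ≤ _ := by gcongr

theorem a3ker_2 {r t A B x y : ℝ} (hr : 1 ≤ r) (ht : 0 ≤ t) (hA0 : 0 ≤ A) (hB0 : 0 ≤ B) (hA : |A - r| ≤ t)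
    (hB : |B - r| ≤ t) (hy : |y| ≤ t) (h : B ^ 2 - A ^ 2 = 4 * x * y) :
    |1 / A - 1 / B| ≤ 16 * (1 + |x|) / r ^ 3 * ((1 + t) ^ 4 * (1 + (1 / A + 1 / B))) := by
  obtain ⟨p0, p1, p2, p3, -⟩ := a3ker_pow ht
  have hr0 : 0 < r := by linarith
  have ha : 0 ≤ 1 / A := by positivity
  have hb : 0 ≤ 1 / B := by positivity
  have hx := abs_nonneg x
  by_cases h1 : t ≤ r / 2
  · have hA1 : r / 2 ≤ A := by linarith [(abs_le.1 hA).1]
    have hB1 : r / 2 ≤ B := by linarith [(abs_le.1 hB).1]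
    have hP := a3ker_P hr0 hA1 hB1
    have hP0 : 0 < r ^ 3 / 4 := by positivity
    have e := a3ker_e (by linarith) (by linarith) h
    calc |1 / A - 1 / B| = 4 * |x| * |y| / (A * B * (A + B)) := by
          rw [e, abs_div, abs_of_pos (hP0.trans_le hP), abs_mul, abs_mul, abs_of_pos (by norm_num : (0 : ℝ) < 4)]
      _ ≤ 4 * |x| * t / (r ^ 3 / 4) := by gcongr
      _ = 16 * |x| / r ^ 3 * (t * 1) := by field_simp; ring
      _ ≤ _ := by gcongr <;> linarith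
  · have h2 : 1 ≤ 16 * (1 + |x|) / r ^ 3 * (1 + t) ^ 4 := by
      rw [div_mul_eq_mul_div, one_le_div (by positivity)]
      have : r ^ 3 ≤ (2 * t) ^ 3 := by gcongr; linarith [not_le.1 h1]
      nlinarith [mul_nonneg hx (zero_le_one.trans p0)]
    calc |1 / A - 1 / B| ≤ 1 / A + 1 / B := a3ker_abs ha hb
      _ ≤ 1 * (1 + (1 / A + 1 / B)) := by linarith
      _ ≤ 16 * (1 + |x|) / r ^ 3 * (1 + t) ^ 4 * (1 + (1 / A + 1 / B)) := by gcongr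
      _ = _ := by ring

theorem a3ker_4 {r t A B x y : ℝ} (hr : 1 ≤ r) (ht : 0 ≤ t) (hA0 : 0 ≤ A) (hB0 : 0 ≤ B) (hA : |A - r| ≤ t)
    (hB : |B - r| ≤ t) (hy : |y| ≤ t) (h : B ^ 2 - A ^ 2 = 4 * x * y) :
    |1 / A - 1 / B - 2 * x * y / r ^ 3| ≤
      100 * (1 + |x|) / r ^ 4 * ((1 + t) ^ 4 * (1 + (1 / A + 1 / B))) := by
  obtain ⟨p0, p1, p2, p3, p4⟩ := a3ker_pow ht
  have hr0 : 0 < r := by linarith
  have ha : 0 ≤ 1 / A := by positivity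
  have hb : 0 ≤ 1 / B := by positivity
  have hx := abs_nonneg x
  by_cases h1 : t ≤ r / 2
  · obtain ⟨a1, a2⟩ := abs_le.1 hA
    obtain ⟨b1, b2⟩ := abs_le.1 hB
    have hA1 : r / 2 ≤ A := by linarith
    have hB1 : r / 2 ≤ B := by linarith
    have hP := a3ker_P hr0 hA1 hB1
    have hP0 : 0 < r ^ 3 / 4 := by positivity
    have q1 : |A * B - r ^ 2| ≤ 5 / 2 * r * t := by
      have e : A * B - r ^ 2 = (A - r) * B + r * (B - r) := by ring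
      rw [e]
      refine (abs_add_le _ _).trans ?_
      rw [abs_mul, abs_mul, abs_of_nonneg hB0, abs_of_pos hr0]
      have : |A - r| * B ≤ t * (3 / 2 * r) := by gcongr; linarith
      have : r * |B - r| ≤ r * t := by gcongr
      linarith
    have q2 : |2 * r ^ 3 - A * B * (A + B)| ≤ 23 / 2 * r ^ 2 * t := by
      have e : 2 * r ^ 3 - A * B * (A + B) = -((A * B - r ^ 2) * (A + B) + r ^ 2 * ((A - r) + (B - r))) := by ring
      rw [e, abs_neg]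
      refine (abs_add_le _ _).trans ?_
      rw [abs_mul, abs_mul, abs_of_nonneg (add_nonneg hA0 hB0), abs_of_pos (by positivity : 0 < r ^ 2)]
      have : |A * B - r ^ 2| * (A + B) ≤ 5 / 2 * r * t * (3 * r) := by gcongr; linarith
      have : r ^ 2 * |A - r + (B - r)| ≤ r ^ 2 * (t + t) := by
        gcongr; exact (abs_add_le _ _).trans (add_le_add hA hB)
      nlinarith [mul_nonneg (sq_nonneg r) ht]
    have e := a3ker_e (by linarith) (by linarith) h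
    set P := A * B * (A + B)
    have hP1 : 0 < P := hP0.trans_le hP
    have e2 : 1 / A - 1 / B - 2 * x * y / r ^ 3 = 2 * x * y * (2 * r ^ 3 - P) / (r ^ 3 * P) := by
      rw [e]; field_simp; ring
    rw [e2, abs_div, abs_of_pos (by positivity : 0 < r ^ 3 * P), abs_mul, abs_mul, abs_mul, abs_two]
    calc 2 * |x| * |y| * |2 * r ^ 3 - P| / (r ^ 3 * P)
        ≤ 2 * |x| * t * (23 / 2 * r ^ 2 * t) / (r ^ 3 * (r ^ 3 / 4)) := by gcongr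
      _ = 92 * |x| / r ^ 4 * (t ^ 2 * 1) := by field_simp; ring
      _ ≤ _ := by
        have c1 : 92 * |x| ≤ 100 * (1 + |x|) := by linarith
        have c2 : t ^ 2 ≤ (1 + t) ^ 4 := by linarith [sq_nonneg t]
        have c3 : 1 ≤ 1 + (1 / A + 1 / B) := by linarith
        gcongr
  · have h2 : r ≤ 2 * t := by linarith [not_le.1 h1]
    have h3 : 1 ≤ 100 * (1 + |x|) / r ^ 4 * (1 + t) ^ 4 := by
      rw [div_mul_eq_mul_div, one_le_div (by positivity)]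
      have : r ^ 4 ≤ (2 * t) ^ 4 := by gcongr
      have c1 := mul_nonneg hx (zero_le_one.trans p0)
      have c2 : (2 * t) ^ 4 = 16 * t ^ 4 := by ring
      have c3 : 100 * (1 + |x|) * (1 + t) ^ 4 = 100 * (1 + t) ^ 4 + 100 * (|x| * (1 + t) ^ 4) := by ring
      linarith
    have h4 : |2 * x * y / r ^ 3| ≤ 100 * (1 + |x|) / r ^ 4 * (1 + t) ^ 4 := by
      rw [abs_div, abs_of_pos (by positivity : 0 < r ^ 3), abs_mul, abs_mul, abs_two]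
      calc 2 * |x| * |y| / r ^ 3 = 2 * |x| / r ^ 4 * (|y| * r) := by field_simp
        _ ≤ 2 * |x| / r ^ 4 * (t * (2 * t)) := by gcongr
        _ ≤ _ := by
          have c1 : 2 * |x| ≤ 100 * (1 + |x|) := by linarith
          have c2 : t * (2 * t) ≤ (1 + t) ^ 4 := by linarith
          gcongr
    have h5 : 1 * (1 / A + 1 / B) ≤ 100 * (1 + |x|) / r ^ 4 * (1 + t) ^ 4 * (1 / A + 1 / B) := by gcongr
    calc |1 / A - 1 / B - 2 * x * y / r ^ 3| ≤ |1 / A - 1 / B| + |2 * x * y / r ^ 3| := abs_sub _ _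
      _ ≤ 1 * (1 / A + 1 / B) + |2 * x * y / r ^ 3| := by linarith [a3ker_abs ha hb]
      _ ≤ 100 * (1 + |x|) / r ^ 4 * (1 + t) ^ 4 * (1 / A + 1 / B) + 100 * (1 + |x|) / r ^ 4 * (1 + t) ^ 4 :=
          add_le_add h5 h4
      _ = _ := by ring

/-- `|1/A - 1/r| ≤ ‖y‖ / (r A)` for `A ≠ 0`; if `‖y‖ ≤ r/2` then `A ≥ r/2`, otherwise `1 ≤ 2 ‖y‖ / r` -/
theorem a3_ker1 {x : E3} (hx : 1 ≤ ‖x‖) (y : E3) :
    |1 / ‖x - y‖ - 1 / ‖x‖| ≤ 2 / ‖x‖ ^ 2 * ((1 + ‖y‖) ^ 4 * (1 + 1 / ‖x - y‖)) := by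
  exact a3ker_1 hx (norm_nonneg _) (norm_nonneg _) (a3ker_A x y)

/-- if `‖y‖ ≤ r/2`: `1/A - 1/B = 4 x₂ y₂ / (A B (A + B))`, `A, B ≥ r/2`; otherwise `|1/A - 1/B| ≤ 1/A + 1/B` and `1 ≤ 2 ‖y‖ / r` -/
theorem a3_ker2 {x : E3} (hx : 1 ≤ ‖x‖) (y : E3) :
    |1 / ‖x - y‖ - 1 / ‖refl x - y‖| ≤
      16 * (1 + |x 2|) / ‖x‖ ^ 3 * ((1 + ‖y‖) ^ 4 * (1 + (1 / ‖x - y‖ + 1 / ‖refl x - y‖))) := by
  exact a3ker_2 hx (norm_nonneg _) (norm_nonneg _) (norm_nonneg _) (a3ker_A x y) (a3ker_B x y)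
    (abs_z_le_norm y) (a3_sq_sub x y)

theorem a3_ker3 {x : E3} (hx : 1 ≤ ‖x‖) (y : E3) :
    |1 / ‖x - y‖ - 1 / ‖refl x - y‖| ≤ 4 / ‖x‖ ∨ 3 / 4 * ‖x‖ ≤ ‖y‖ := by
  refine or_iff_not_imp_right.2 fun h => ?_
  have h := not_le.1 h
  have h0 : 0 < ‖x‖ / 4 := by linarith
  have key : ∀ A : ℝ, |A - ‖x‖| ≤ ‖y‖ → 0 ≤ 1 / A ∧ 1 / A ≤ 4 / ‖x‖ := by
    intro A hA
    have h1 : ‖x‖ / 4 ≤ A := by linarith [(abs_le.1 hA).1]
    refine ⟨(one_div_pos.2 (h0.trans_le h1)).le, (one_div_le_one_div_of_le h0 h1).trans (le_of_eq ?_)⟩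
    rw [one_div_div]
  obtain ⟨a1, a2⟩ := key _ (a3ker_A x y)
  obtain ⟨b1, b2⟩ := key _ (a3ker_B x y)
  rw [abs_le]; constructor <;> linarith

/-- if `t = ‖y‖ ≤ r/2`: `|A - r|, |B - r| ≤ t`, `|A B - r²| ≤ 5/2 r t`, `|A B (A + B) - 2 r³| ≤ 19/2 r² t`, `A B (A + B) ≥ r³/4`,
so `|1/(A B (A + B)) - 1/(2 r³)| ≤ 19 t / r⁴`; otherwise bound the three terms separately with `1 ≤ 2 ‖y‖ / r` -/
theorem a3_ker4 {x : E3} (hx : 1 ≤ ‖x‖) (y : E3) :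
    |1 / ‖x - y‖ - 1 / ‖refl x - y‖ - 2 * x 2 * y 2 / ‖x‖ ^ 3| ≤
      100 * (1 + |x 2|) / ‖x‖ ^ 4 * ((1 + ‖y‖) ^ 4 * (1 + (1 / ‖x - y‖ + 1 / ‖refl x - y‖))) := by
  exact a3ker_4 hx (norm_nonneg _) (norm_nonneg _) (norm_nonneg _) (a3ker_A x y) (a3ker_B x y)
    (abs_z_le_norm y) (a3_sq_sub x y)

end Crest.Agent.R335
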