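import Crest.Agent.R335.A3_Par
import Crest.Agent.R335.A3_Ker
import Crest.Agent.R335.A3_Dc

/-!
# R335/A3_Ion2: the cross term between the even and the odd part (part of A3, sub-lead helper5; definitions in `A3_Defs`)
-/

set_option autoImplicit false

namespace Crest.Agent.R335

open MeasureTheory Set Filter Topology
open scoped Gradient RealInnerProductSpace ENNReal ContDiff
open Crest.MathPhysics.ThreeBody

variable {Z : ℝ} {f g : E6 → ℝ}

/-- the odd part of the kernel -/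
noncomputable def kj (j : Fin 2) (x : E3) (y : E6) : ℝ := 1 / ‖x - pos2 j y‖ - 1 / ‖refl x - pos2 j y‖

theorem a3ion2_cs {u v : E6 → ℝ} (hu : MemLp u 2 volume) (hv : MemLp v 2 volume) :
    Integrable (fun y => |u y| * |v y|) ∧ ∫ y, |u y| * |v y| ≤ √(nsq u) * √(nsq v) := by
  have hu' : MemLp (fun y => |u y|) 2 volume := hu.abs
  have hv' : MemLp (fun y => |v y|) 2 volume := hv.abs
  refine ⟨hu'.integrable_mul hv', ?_⟩
  have h := ip_sq_le hu' hv'
  have e1 : nsq (fun y => |u y|) = nsq u := by simp only [nsq, sq_abs]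
  have e2 : nsq (fun y => |v y|) = nsq v := by simp only [nsq, sq_abs]
  rw [e1, e2] at h
  rw [← Real.sqrt_mul nsq_nonneg]
  exact Real.le_sqrt_of_sq_le h

theorem a3ion2_meas (j : Fin 2) (x : E3) : Measurable fun y : E6 => 1 / ‖x - pos2 j y‖ :=
  measurable_const.div (continuous_const.sub (s15_cont_pos2 j)).norm.measurable

theorem a3ion2_hardy {o : E6 → ℝ} {K : E6 → E6} (ho : H1 o K) (j : Fin 2) (x : E3) :
    MemLp (fun y => 1 / ‖x - pos2 j y‖ * o y) 2 volume ∧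
      √(nsq fun y => 1 / ‖x - pos2 j y‖ * o y) ≤ 2 * √(∫ y, ‖K y‖ ^ 2) := by
  obtain ⟨h1, h2⟩ := hardy2 ho j x
  have e : (fun y => (1 / ‖x - pos2 j y‖ * o y) ^ 2) = fun y => o y ^ 2 / ‖x - pos2 j y‖ ^ 2 := by
    funext y
    ring
  refine ⟨(memLp_two_iff_integrable_sq ((a3ion2_meas j x).aestronglyMeasurable.mul ho.mf.1)).2 ?_, ?_⟩
  · exact e ▸ h1
  · unfold nsq
    rw [e]
    refine (Real.sqrt_le_sqrt h2).trans (le_of_eq ?_)
    rw [Real.sqrt_mul (by norm_num), show (4 : ℝ) = 2 ^ 2 by norm_num, Real.sqrt_sq (by norm_num)]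

theorem a3ion2_ev (hf : MemLp f 2 volume) : √(nsq (ev f)) ≤ √(nsq f) := by
  refine Real.sqrt_le_sqrt ?_
  rw [nsq_od_ev hf]
  exact le_add_of_nonneg_left nsq_nonneg

theorem a3ion2_env {x : E3} (hx : 1 ≤ ‖x‖) (j : Fin 2) (y : E6) :
    |kj j x y| ≤ 16 * (1 + |x 2|) / ‖x‖ ^ 3 * env x y := by
  refine (a3_ker2 hx (pos2 j y)).trans (mul_le_mul_of_nonneg_left ?_ (by positivity))
  unfold env
  refine mul_le_mul (pow_le_pow_left₀ (by positivity) (by linarith [norm_pos2_le j y]) 4) ?_ (by positivity)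
    (by positivity)
  have h0 : 0 ≤ 1 / ‖x - pos2 0 y‖ + 1 / ‖refl x - pos2 0 y‖ := by positivity
  have h1 : 0 ≤ 1 / ‖x - pos2 1 y‖ + 1 / ‖refl x - pos2 1 y‖ := by positivity
  fin_cases j
  · simp only [Fin.zero_eta]
    linarith
  · simp only [Fin.mk_one]
    linarith

theorem a3ion2_pt {A B r ε w e e' o d φ : ℝ} (hA : 0 ≤ A) (hB : 0 ≤ B) (hr : 0 ≤ r) (hε : 0 ≤ ε)
    (he : e = d * φ + e') (h : |A - B| ≤ r ∨ 1 ≤ ε * w) :
    |(A - B) * (e * o)| ≤ |d| * |(A - B) * (φ * o)| + r * (|e'| * |o|) + ε * (|w * e| * |A * o|) +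
      ε * (|w * e| * |B * o|) := by
  rcases h with h | h
  · have h1 : (A - B) * (e * o) = d * ((A - B) * (φ * o)) + (A - B) * (e' * o) := by
      rw [he]
      ring
    have h2 : |(A - B) * (e' * o)| ≤ r * (|e'| * |o|) := by
      rw [abs_mul, abs_mul e']
      exact mul_le_mul_of_nonneg_right h (by positivity)
    have h3 := abs_add_le (d * ((A - B) * (φ * o))) ((A - B) * (e' * o))
    rw [abs_mul d] at h3
    have h4 : 0 ≤ ε * (|w * e| * |A * o|) := by positivity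
    have h5 : 0 ≤ ε * (|w * e| * |B * o|) := by positivity
    rw [h1]
    linarith
  · have h1 : |A - B| ≤ A + B := abs_le.2 ⟨by linarith, by linarith⟩
    have h2 : 1 ≤ ε * |w| := h.trans (mul_le_mul_of_nonneg_left (le_abs_self w) hε)
    have h3 : |(A - B) * (e * o)| ≤ (ε * |w|) * ((A + B) * (|e| * |o|)) := by
      rw [abs_mul, abs_mul e]
      exact (mul_le_mul_of_nonneg_right h1 (by positivity)).trans (le_mul_of_one_le_left (by positivity) h2)
    have h4 : 0 ≤ |d| * |(A - B) * (φ * o)| := by positivity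
    have h5 : 0 ≤ r * (|e'| * |o|) := by positivity
    rw [abs_mul w, abs_mul A, abs_mul B, abs_of_nonneg hA, abs_of_nonneg hB]
    linarith

/-- `Wx Z x (rf y) = Z⁻¹ * (1 / ‖refl x - y₀‖ + 1 / ‖refl x - y₁‖)` (`pos2_rf`, `a3_norm_sub_refl`); substitute `y ↦ rf y`
(`integral_rf`, `integrable_rf`) and take the mean -/
theorem wI_odd (x : E3) (hodd : ∀ᵐ y, f (rf y) * g (rf y) = -(f y * g y))
    (hi : Integrable fun y => Wx Z x y * (f y * g y)) :
    Integrable (fun y => (2 * Z)⁻¹ * (kj 0 x y + kj 1 x y) * (f y * g y)) ∧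
      wI Z x f g = ∫ y, (2 * Z)⁻¹ * (kj 0 x y + kj 1 x y) * (f y * g y) := by
  have h1 : ∀ᵐ y, Wx Z x (rf y) * (f (rf y) * g (rf y)) =
      -(Z⁻¹ * (1 / ‖refl x - pos2 0 y‖ + 1 / ‖refl x - pos2 1 y‖) * (f y * g y)) := by
    filter_upwards [hodd] with y hy
    rw [hy]
    simp only [Wx, pos2_rf, a3_norm_sub_refl]
    ring
  have h2 : Integrable fun y => -(Z⁻¹ * (1 / ‖refl x - pos2 0 y‖ + 1 / ‖refl x - pos2 1 y‖) * (f y * g y)) :=
    (integrable_rf hi).congr h1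
  have h3 : ∫ y, -(Z⁻¹ * (1 / ‖refl x - pos2 0 y‖ + 1 / ‖refl x - pos2 1 y‖) * (f y * g y)) = wI Z x f g := by
    rw [← integral_congr_ae h1]
    exact integral_rf fun y => Wx Z x y * (f y * g y)
  have e : (fun y => (2 * Z)⁻¹ * (kj 0 x y + kj 1 x y) * (f y * g y)) = fun y =>
      (1 / 2) * (Wx Z x y * (f y * g y) +
        -(Z⁻¹ * (1 / ‖refl x - pos2 0 y‖ + 1 / ‖refl x - pos2 1 y‖) * (f y * g y))) := by
    funext y
    simp only [Wx, kj, mul_inv]
    ring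
  rw [e]
  refine ⟨(hi.add h2).const_mul _, ?_⟩
  rw [integral_const_mul, integral_add hi h2, h3]
  unfold wI
  ring

/-- One term.  Let `g = f - d Φ`, so `ev f = d Φ + ev g` a.e.  Pointwise (`a3_ker2`, `a3_ker3`, `norm_pos2_le`, `s14_w_ge`):
`|kj| |ev f| ≤ |d| 16 (1 + |z|)/r³ env |Φ| + (4/r) |ev g| + e^(-3 a r/4) |wt a * ev f| (1/A + 1/B)`
(the first two terms where `|kj| ≤ 4/r`, the third one where `‖y‖ ≥ 3 r/4`).  Multiply with `|od f|`, use `Dc.bound`, `ip_sq_le`,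
`hardy2` for `od f` at `x` and `refl x`, `nsq (ev g) ≤ nsq g`, `wt a * ev f = ev (wt a * f)` (`nsq_od_ev`, `wt_rf`). -/
theorem a3_cross_j {a M : ℝ} (ha : 0 ≤ a) {Φ : E6 → ℝ} (hΦ : Dc M Φ) (he : ∀ᵐ y, Φ (rf y) = Φ y) {x : E3}
    (hx : 1 ≤ ‖x‖) {K : E6 → E6} (hf : MemLp f 2 volume) (ho : H1 (od f) K)
    (hw : MemLp (fun y => wt a y * f y) 2 volume) (d : ℝ) (j : Fin 2) :
    Integrable (fun y => kj j x y * (ev f y * od f y)) ∧ ∫ y, |kj j x y * (ev f y * od f y)| ≤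
      (16 * √M * ((1 + |x 2|) / ‖x‖ ^ 3 * |d|) + 4 * (√(nsq fun y => f y - d * Φ y) / ‖x‖)) * √(nsq (od f)) +
        4 * Real.exp (-(3 / 4 * a * ‖x‖)) * √(nsq fun y => wt a y * f y) * √(∫ y, ‖K y‖ ^ 2) := by
  have hg : MemLp (fun y => f y - d * Φ y) 2 volume := hf.sub (hΦ.1.const_mul d)
  have hk : Measurable (kj j x) := (a3ion2_meas j x).sub (a3ion2_meas j (refl x))
  obtain ⟨i1, b1⟩ := hΦ.bound ho.mf hk x (by positivity) (a3ion2_env hx j)
  obtain ⟨i2, b2⟩ := a3ion2_cs (memLp_ev hg) ho.mf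
  obtain ⟨mA, nA⟩ := a3ion2_hardy ho j x
  obtain ⟨mB, nB⟩ := a3ion2_hardy ho j (refl x)
  obtain ⟨i3, b3⟩ := a3ion2_cs (memLp_ev hw) mA
  obtain ⟨i4, b4⟩ := a3ion2_cs (memLp_ev hw) mB
  have e1 := a3ion2_ev hg
  have e2 := a3ion2_ev hw
  have hr : 0 ≤ 4 / ‖x‖ := by positivity
  have hε : 0 ≤ Real.exp (-(3 / 4 * a * ‖x‖)) := (Real.exp_pos _).le
  have hb : ∀ᵐ y, |kj j x y * (ev f y * od f y)| ≤ |d| * |kj j x y * (Φ y * od f y)| +
      4 / ‖x‖ * (|ev (fun y => f y - d * Φ y) y| * |od f y|) +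
      Real.exp (-(3 / 4 * a * ‖x‖)) * (|ev (fun y => wt a y * f y) y| * |1 / ‖x - pos2 j y‖ * od f y|) +
      Real.exp (-(3 / 4 * a * ‖x‖)) * (|ev (fun y => wt a y * f y) y| * |1 / ‖refl x - pos2 j y‖ * od f y|) := by
    filter_upwards [he] with y hy
    have e3 : ev (fun y => wt a y * f y) y = wt a y * ev f y := by
      simp only [ev, wt_rf]
      ring
    rw [e3]
    refine a3ion2_pt (by positivity) (by positivity) hr hε ?_ ((a3_ker3 hx (pos2 j y)).imp id fun h => ?_)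
    · simp only [ev, hy]
      ring
    · unfold wt
      rw [← Real.exp_add]
      refine Real.one_le_exp ?_
      have := mul_le_mul_of_nonneg_left (h.trans ((norm_pos2_le j y).trans (s14_w_ge y))) ha
      linarith
  have j1 := i1.abs.const_mul |d|
  have j2 := i2.const_mul (4 / ‖x‖)
  have j3 := i3.const_mul (Real.exp (-(3 / 4 * a * ‖x‖)))
  have j4 := i4.const_mul (Real.exp (-(3 / 4 * a * ‖x‖)))
  have hI : Integrable fun y => kj j x y * (ev f y * od f y) :=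
    (((j1.add j2).add j3).add j4).mono' (hk.aestronglyMeasurable.mul ((memLp_ev hf).1.mul ho.mf.1)) hb
  refine ⟨hI, (integral_mono_ae hI.abs (((j1.add j2).add j3).add j4) hb).trans ?_⟩
  rw [integral_add' ((j1.add j2).add j3) j4, integral_add' (j1.add j2) j3, integral_add' j1 j2,
    integral_const_mul, integral_const_mul, integral_const_mul, integral_const_mul]
  have c1 := mul_le_mul_of_nonneg_left b1 (abs_nonneg d)
  have c2 := mul_le_mul_of_nonneg_left
    (b2.trans (mul_le_mul_of_nonneg_right e1 (Real.sqrt_nonneg _))) hr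
  have c3 := mul_le_mul_of_nonneg_left
    (b3.trans (mul_le_mul e2 nA (Real.sqrt_nonneg _) (Real.sqrt_nonneg _))) hε
  have c4 := mul_le_mul_of_nonneg_left
    (b4.trans (mul_le_mul e2 nB (Real.sqrt_nonneg _) (Real.sqrt_nonneg _))) hε
  refine (add_le_add (add_le_add (add_le_add c1 c2) c3) c4).trans (le_of_eq ?_)
  ring

end Crest.Agent.R335
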