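import Crest.Agent.R335.A3_Ion1
import Crest.Agent.R335.A3_Ion2

/-!
# R335/A3_Ion3: the inequality for the odd part (part of A3, sub-lead helper5; definitions in `A3_Defs`)
-/

set_option autoImplicit false

namespace Crest.Agent.R335

open MeasureTheory Set Filter Topology
open scoped Gradient RealInnerProductSpace ENNReal ContDiff
open Crest.MathPhysics.ThreeBody

theorem a3ion3_alg {γ C E0 Q n s t : ℝ} (hγ : 0 < γ) (hC : 0 ≤ C) (hE : E0 ≤ 0) (hn : 0 ≤ n)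
    (h1 : (E0 + γ) * n ≤ Q) (h2 : s ^ 2 ≤ 4 * Q + C * n) :
    (E0 + γ / 2) * n - 16 * ((2 * γ + C) / γ) * t ^ 2 ≤ Q - 4 * t * s := by
  have hp : 0 < 2 * γ + C := by positivity
  obtain ⟨θ, hθ⟩ : ∃ θ, θ = γ / (2 * γ + C) := ⟨_, rfl⟩
  obtain ⟨w, hw⟩ : ∃ w, w = (2 * γ + C) / γ := ⟨_, rfl⟩
  have a1 : θ * w = 1 := by rw [hθ, hw]; field_simp
  have a2 : θ * (2 * γ + C) = γ := by rw [hθ]; field_simp
  have a3 : 0 < θ := by rw [hθ]; positivity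
  have a4 : θ ≤ 1 := by rw [hθ, div_le_one hp]; linarith
  rw [← hw]
  have b1 : 4 * t * s ≤ θ * s ^ 2 / 4 + 16 * w * t ^ 2 := by
    refine le_of_mul_le_mul_left ?_ a3
    have e : θ * (θ * s ^ 2 / 4 + 16 * w * t ^ 2) = θ ^ 2 * s ^ 2 / 4 + 16 * (θ * w) * t ^ 2 := by ring
    rw [e, a1]
    nlinarith [sq_nonneg (θ * s / 2 - 4 * t)]
  have b2 := mul_le_mul_of_nonneg_left h1 (sub_nonneg.2 a4)
  have b3 := mul_le_mul_of_nonneg_left h2 a3.le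
  have b4 : θ * E0 * n ≤ 0 := mul_nonpos_of_nonpos_of_nonneg (mul_nonpos_of_nonneg_of_nonpos a3.le hE) hn
  have b5 : 0 ≤ θ * C * n := by positivity
  have b6 : θ * (2 * γ + C) * n = γ * n := by rw [a2]
  nlinarith

/-- `sf f (od f) = qf (od f) + (V1 - E) nsq (od f) + wI (od f) (od f) + wI (ev f) (od f)` (`bf_od`, `h1_ev`, `wI_lin`, `od_add_ev`).
`|wI (ev f) (od f)|` is bounded by the right hand side of `a3_cross_j` (`wI_odd`, `(2 Z)⁻¹ ≤ 1/2`, two terms).  With `n = nsq (od f)`,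
`k = ∫ ‖K‖²`: `qf ≥ (E0 + γ) n` (`gap`, `ip_even_odd`), `k ≤ 4 qf + C n` (`kin_le_V2`), so for `θ = γ / (2 γ + C)`
`qf ≥ (E0 + γ/2) n + θ k / 4` (`E0 ≤ 0`), and `4 e √N √k ≤ θ k / 4 + (16/θ) e² N`, `e² = e^(-3 a r/2) ≤ e^(-a r/2)`. -/
theorem Ion.odd {D Z γ E0 a M : ℝ} {Φ : E6 → ℝ} {GΦ : E6 → E6} (h : Ion D Z γ E0 Φ GΦ) (ha : 0 ≤ a) (hΦ : Dc M Φ) :
    ∃ c : ℝ, 0 ≤ c ∧ ∀ (E : ℝ) (x : E3) (f : E6 → ℝ) (G K : E6 → E6) (d : ℝ), 1 ≤ ‖x‖ → H1 f G → H1 (od f) K →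
      MemLp (fun y => wt a y * f y) 2 volume →
      (E0 - E + V1 D x + γ / 2) * nsq (od f) -
          c * ((1 + |x 2|) / ‖x‖ ^ 3 * |d| + √(nsq fun y => f y - d * Φ y) / ‖x‖) * √(nsq (od f)) -
          (c * Real.exp (-a * ‖x‖ / 4)) ^ 2 * nsq (fun y => wt a y * f y) ≤ sf D Z E x f G (od f) K := by
  obtain ⟨C, hC, hkin⟩ := kin_le_V2 D
  have hγ := h.γpos
  have hZ : 0 < Z := lt_of_lt_of_le one_pos h.Zge
  have hw0 : 0 ≤ 16 * ((2 * γ + C) / γ) := by positivity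
  have hM0 : 0 ≤ 16 * √M := by positivity
  refine ⟨16 * √M + 4 + 16 * ((2 * γ + C) / γ), by positivity, fun E x f G K d hx hf ho hw => ?_⟩
  obtain ⟨J, he⟩ := h1_ev hf
  obtain ⟨e1, e2⟩ := bf_od (D := D) (Z := Z) hf ho
  have e3 : wI Z x f (od f) = wI Z x (od f) (od f) + wI Z x (ev f) (od f) := by
    have := wI_lin (Z := Z) ho he ho x 1 1
    simp only [one_mul, od_add_ev] at this
    rw [wI_comm x f, wI_comm x (ev f)]
    exact this
  have e4 := wI_self_nonneg hZ.le x (od f)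
  obtain ⟨-, e5⟩ := wI_odd (Z := Z) (f := ev f) (g := od f) x
    (Eventually.of_forall fun y => by rw [ev_rf, od_rf, mul_neg]) ((fb_Wx Z x).int_mul he ho)
  obtain ⟨i0, j0⟩ := a3_cross_j ha hΦ h.even hx hf.mf ho hw d 0
  obtain ⟨i1, j1⟩ := a3_cross_j ha hΦ h.even hx hf.mf ho hw d 1
  have hZ2 : (2 * Z)⁻¹ ≤ 1 / 2 := by
    rw [one_div]
    exact inv_anti₀ two_pos (by linarith [h.Zge])
  have e6 : |wI Z x (ev f) (od f)| ≤
      1 / 2 * ((∫ y, |kj 0 x y * (ev f y * od f y)|) + ∫ y, |kj 1 x y * (ev f y * od f y)|) := by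
    rw [e5, ← integral_add i0.abs i1.abs, ← integral_const_mul]
    rw [← Real.norm_eq_abs]
    refine norm_integral_le_of_norm_le ((i0.abs.add i1.abs).const_mul _) (Eventually.of_forall fun y => ?_)
    rw [Real.norm_eq_abs, mul_assoc, add_mul, abs_mul, abs_of_nonneg (by positivity : 0 ≤ (2 * Z)⁻¹)]
    exact mul_le_mul hZ2 (abs_add_le _ _) (abs_nonneg _) (by norm_num)
  have g1 := h.gap _ _ ho
  rw [ip_even_odd h.even (Eventually.of_forall (od_rf f))] at g1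
  have g2 := hkin Z hZ _ _ ho
  have hk : 0 ≤ ∫ y, ‖K y‖ ^ 2 := integral_nonneg fun y => sq_nonneg _
  have hn : 0 ≤ nsq (od f) := nsq_nonneg
  have hN : 0 ≤ nsq fun y => wt a y * f y := nsq_nonneg
  have g3 := a3ion3_alg (Q := qf (V2 D Z) (od f) K) (s := √(∫ y, ‖K y‖ ^ 2))
    (t := Real.exp (-(3 / 4 * a * ‖x‖)) * √(nsq fun y => wt a y * f y)) hγ hC h.E0le hn (by linarith)
    (by rw [Real.sq_sqrt hk]; exact g2)
  rw [mul_pow, Real.sq_sqrt hN] at g3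
  have g4 : Real.exp (-(3 / 4 * a * ‖x‖)) ≤ Real.exp (-a * ‖x‖ / 4) :=
    Real.exp_le_exp.2 (by nlinarith [mul_nonneg ha (norm_nonneg x)])
  have hP : 0 ≤ (1 + |x 2|) / ‖x‖ ^ 3 * |d| := by positivity
  have hR : 0 ≤ √(nsq fun y => f y - d * Φ y) / ‖x‖ := by positivity
  have hs : 0 ≤ √(nsq (od f)) := Real.sqrt_nonneg _
  rw [sf, e1, e2, e3]
  generalize 16 * ((2 * γ + C) / γ) = w at *
  generalize 16 * √M = m at *
  have g5 : w * (Real.exp (-(3 / 4 * a * ‖x‖)) ^ 2 * nsq fun y => wt a y * f y) ≤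
      ((m + 4 + w) * Real.exp (-a * ‖x‖ / 4)) ^ 2 * nsq fun y => wt a y * f y := by
    rw [← mul_assoc, mul_pow]
    refine mul_le_mul_of_nonneg_right (mul_le_mul (by nlinarith) (by gcongr) (by positivity) (by positivity)) hN
  have g6 : (m * ((1 + |x 2|) / ‖x‖ ^ 3 * |d|) + 4 * (√(nsq fun y => f y - d * Φ y) / ‖x‖)) * √(nsq (od f)) ≤
      (m + 4 + w) * ((1 + |x 2|) / ‖x‖ ^ 3 * |d| + √(nsq fun y => f y - d * Φ y) / ‖x‖) * √(nsq (od f)) := by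
    refine mul_le_mul_of_nonneg_right ?_ hs
    rw [mul_add]
    exact add_le_add (mul_le_mul_of_nonneg_right (by linarith) hP) (mul_le_mul_of_nonneg_right (by linarith) hR)
  have g7 := neg_abs_le (wI Z x (ev f) (od f))
  linarith

end Crest.Agent.R335
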