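import Crest.Agent.R335.A3_Defs

/-!
# R335/A3_KI: the Kato inequality from two tested inequalities (part of A3, sub-lead helper5; definitions in `A3_Defs`)
-/

set_option autoImplicit false

namespace Crest.Agent.R335

open MeasureTheory Set Filter Topology
open scoped Gradient RealInnerProductSpace ENNReal ContDiff
open Crest.MathPhysics.ThreeBody

theorem a3ki_len {s0 s1 : Spl E3 E6 E9} {Y0 Y1 : E9 → ℝ} (h0 : MemLp Y0 2 volume) (h1 : MemLp Y1 2 volume) :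
    (Integrable fun a => nsq (sl s0 Y0 a) + nsq (sl s1 Y1 a)) ∧
      MemLp (len s0 Y0 s1 Y1) 2 volume ∧ nsq (len s0 Y0 s1 Y1) = nsq Y0 + nsq Y1 := by
  have i0 : Integrable fun a => nsq (sl s0 Y0 a) := (s0.integrable_fibre h0.integrable_sq).2
  have i1 : Integrable fun a => nsq (sl s1 Y1 a) := (s1.integrable_fibre h1.integrable_sq).2
  have i : Integrable fun a => nsq (sl s0 Y0 a) + nsq (sl s1 Y1 a) := i0.add i1
  have e : ∀ a, len s0 Y0 s1 Y1 a ^ 2 = nsq (sl s0 Y0 a) + nsq (sl s1 Y1 a) := fun a =>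
    Real.sq_sqrt (add_nonneg nsq_nonneg nsq_nonneg)
  refine ⟨i, ?_, ?_⟩
  · have hm : AEStronglyMeasurable (len s0 Y0 s1 Y1) volume :=
      Real.continuous_sqrt.comp_aestronglyMeasurable i.aestronglyMeasurable
    rw [memLp_two_iff_integrable_sq hm]
    simpa only [e] using i
  · have e0 : nsq Y0 = ∫ a, nsq (sl s0 Y0 a) := s0.integral_eq h0.integrable_sq
    have e1 : nsq Y1 = ∫ a, nsq (sl s1 Y1 a) := s1.integral_eq h1.integrable_sq
    rw [e0, e1, ← integral_add i0 i1, nsq]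
    simp only [e]

/-- `ki_of_test` with `n = 2`, `s = ![s0, s1]`, `Y = ![Y0, Y1]`, `G = ![G0, G1]` (`Fin.sum_univ_two`; `nsq (sl s Y a)` unfolds to
`∫ b, Y (s.j a b) ^ 2`).  The function `φ (κ y² - σ y - t²)` is integrable, since `φ` is bounded and vanishes a.e. outside a
compact subset of `Ω` (`y ∈ L²` by `H1.fibre_norm`); then `integral_mono_ae`. -/
theorem a3_ki {s0 s1 : Spl E3 E6 E9} {Y0 Y1 : E9 → ℝ} {G0 G1 : E9 → E9} (h0 : H1 Y0 G0) (h1 : H1 Y1 G1)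
    {T0 T1 : E3 → ℝ} (t0 : TI s0 Y0 G0 T0) (t1 : TI s1 Y1 G1 T1) {Ω : Set E3} (hΩ : IsOpen Ω) {κ σ t : E3 → ℝ}
    (hκ : LB Ω κ) (hσ : MemLp (Ω.indicator σ) 2 volume) (ht : MemLp (Ω.indicator t) 2 volume)
    (hle : ∀ᵐ a, a ∈ Ω → κ a * (nsq (sl s0 Y0 a) + nsq (sl s1 Y1 a)) - σ a * len s0 Y0 s1 Y1 a - t a ^ 2 ≤
      T0 a + T1 a) : ∃ K, KI Ω (len s0 Y0 s1 Y1) K κ σ t := by
  have hs : ∀ a, (∑ i, ∫ b, (![Y0, Y1] : Fin 2 → E9 → ℝ) i (((![s0, s1] : Fin 2 → Spl E3 E6 E9) i).j a b) ^ 2) =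
      nsq (sl s0 Y0 a) + nsq (sl s1 Y1 a) := fun a => by
    rw [Fin.sum_univ_two]; rfl
  have key := ki_of_test (n := 2) ![s0, s1] (Y := ![Y0, Y1]) (G := ![G0, G1])
    (fun i => by fin_cases i; exacts [h0, h1]) hΩ hκ hσ ht ?_
  · simp only [hs] at key
    exact key
  intro φ K hφ hφ0 hM hH
  simp only [hs]
  rw [Fin.sum_univ_two]
  have hm : AEStronglyMeasurable φ volume := hφ.h1.mf.aestronglyMeasurable
  obtain ⟨i0, l0⟩ := t0 φ K hm hφ0 hM (hH 0)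
  obtain ⟨i1, l1⟩ := t1 φ K hm hφ0 hM (hH 1)
  obtain ⟨C, hC, hCΩ, hz⟩ := hφ.cpt
  obtain ⟨M, hM⟩ := hM
  obtain ⟨M', hM'⟩ := hκ.2 C hC hCΩ
  obtain ⟨hN, hy, -⟩ := a3ki_len (s0 := s0) (s1 := s1) h0.mf h1.mf
  have hb : ∀ᵐ a, ‖φ a‖ ≤ M := ae_of_all _ fun a => by rw [Real.norm_of_nonneg (hφ0 a)]; exact hM a
  have j1 : Integrable fun a => φ a * κ a * (nsq (sl s0 Y0 a) + nsq (sl s1 Y1 a)) := by
    refine hN.bdd_mul (c := M * |M'|) (hm.mul hκ.1) ?_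
    filter_upwards [hz, hM'] with a a1 a2
    have hM0 : 0 ≤ M := (hφ0 a).trans (hM a)
    by_cases ha : a ∈ C
    · rw [norm_mul, Real.norm_of_nonneg (hφ0 a), Real.norm_eq_abs]
      exact mul_le_mul (hM a) ((a2 ha).trans (le_abs_self _)) (abs_nonneg _) hM0
    · rw [(a1 ha).1, zero_mul, norm_zero]
      positivity
  have j2 : Integrable fun a => φ a * (Ω.indicator σ a * len s0 Y0 s1 Y1 a) :=
    (hσ.integrable_mul hy).bdd_mul hm hb
  have j3 : Integrable fun a => φ a * Ω.indicator t a ^ 2 := ht.integrable_sq.bdd_mul hm hb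
  have j : Integrable fun a => φ a * (κ a * (nsq (sl s0 Y0 a) + nsq (sl s1 Y1 a)) -
      σ a * √(nsq (sl s0 Y0 a) + nsq (sl s1 Y1 a)) - t a ^ 2) := by
    refine ((j1.sub j2).sub j3).congr ?_
    filter_upwards [hz] with a a1
    simp only [Pi.sub_apply]
    by_cases ha : a ∈ C
    · rw [indicator_of_mem (hCΩ ha), indicator_of_mem (hCΩ ha), len]
      ring
    · rw [(a1 ha).1]
      ring
  have hle' : ∫ a, φ a * (κ a * (nsq (sl s0 Y0 a) + nsq (sl s1 Y1 a)) -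
      σ a * √(nsq (sl s0 Y0 a) + nsq (sl s1 Y1 a)) - t a ^ 2) ≤ (∫ a, φ a * T0 a) + ∫ a, φ a * T1 a := by
    rw [← integral_add i0 i1]
    refine integral_mono_ae j (i0.add i1) ?_
    filter_upwards [hz, hle] with a a1 a2
    by_cases ha : a ∈ C
    · rw [← mul_add]
      exact mul_le_mul_of_nonneg_left (a2 (hCΩ ha)) (hφ0 a)
    · rw [(a1 ha).1]
      simp
  simp only [Matrix.cons_val_zero, Matrix.cons_val_one]
  linarith

/-- the gradient is unique (`H1.unique`) -/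
theorem KI.of_h1 {Ω : Set E3} {y κ σ t : E3 → ℝ} {G G' : E3 → E3} (h : KI Ω y G κ σ t) (h' : H1 y G') :
    KI Ω y G' κ σ t := by
  refine ⟨h', h.nn, h.bκ, h.ms, h.mt, fun ε hε ξ hξ h0 => ?_⟩
  have e : ∫ x, y x / √(y x ^ 2 + ε ^ 2) * ⟪G' x, ∇ ξ x⟫ = ∫ x, y x / √(y x ^ 2 + ε ^ 2) * ⟪G x, ∇ ξ x⟫ := by
    refine integral_congr_ae ?_
    filter_upwards [h.h1.unique h' (ae_eq_refl _)] with x hx
    rw [hx]
  rw [e]
  exact h.le ε hε ξ hξ h0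

theorem a3_len_memLp {s0 s1 : Spl E3 E6 E9} {Y0 Y1 : E9 → ℝ} (h0 : MemLp Y0 2 volume) (h1 : MemLp Y1 2 volume) :
    MemLp (len s0 Y0 s1 Y1) 2 volume ∧ nsq (len s0 Y0 s1 Y1) = nsq Y0 + nsq Y1 :=
  (a3ki_len h0 h1).2

end Crest.Agent.R335
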