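import Crest.Agent.R335.A3_Defs

/-!
# R335/A3_Meas: measurability and local bounds (part of A3, sub-lead helper5; definitions in `A3_Defs`)
-/

set_option autoImplicit false

namespace Crest.Agent.R335

open MeasureTheory Set Filter Topology
open scoped Gradient RealInnerProductSpace ENNReal ContDiff
open Crest.MathPhysics.ThreeBody

theorem a3meas_Wx (Z : ℝ) : Measurable fun p : E3 × E6 => Wx Z p.1 p.2 := by
  unfold Wx
  have h0 : Measurable fun p : E3 × E6 => pos2 0 p.2 := (geo_measurable_pos2 0).comp measurable_snd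
  have h1 : Measurable fun p : E3 × E6 => pos2 1 p.2 := (geo_measurable_pos2 1).comp measurable_snd
  exact ((measurable_const.div (measurable_fst.sub h0).norm).add
    (measurable_const.div (measurable_fst.sub h1).norm)).const_mul _

theorem a3meas_ind {L M : ℝ} {m g : E3 → ℝ} (hm : Measurable m) (hb : ∀ x, L < ‖x‖ → |m x| ≤ M)
    (hg : MemLp g 2 volume) : MemLp ((far L).indicator fun x => m x * g x) 2 volume := by
  have hS := (isOpen_far L).measurableSet
  refine MemLp.of_le_mul (c := M) hg ((hm.aestronglyMeasurable.mul hg.1).indicator hS)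
    (ae_of_all _ fun x => ?_)
  by_cases hx : x ∈ far L
  · rw [indicator_of_mem hx, norm_mul]
    exact mul_le_mul_of_nonneg_right (hb x hx) (norm_nonneg _)
  · rw [indicator_of_notMem hx, norm_zero]
    have h1 : L < ‖(EuclideanSpace.single 0 (|L| + 1) : E3)‖ := by
      rw [PiLp.norm_single, Real.norm_eq_abs, abs_of_pos (by positivity)]
      linarith [le_abs_self L]
    exact mul_nonneg ((abs_nonneg _).trans (hb _ h1)) (norm_nonneg _)

theorem a3meas_z : Measurable fun x : E3 => x 2 := (EuclideanSpace.proj (2 : Fin 3)).continuous.measurable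

/-- replace `Φ` by a measurable modification; `StronglyMeasurable.integral_prod_right` -/
theorem a3_meas_W (Z : ℝ) {Φ : E6 → ℝ} (hΦ : AEStronglyMeasurable Φ volume) : Measurable fun x => wI Z x Φ Φ := by
  have e : (fun x => wI Z x Φ Φ) = fun x => ∫ y, Wx Z x y * (hΦ.mk Φ y * hΦ.mk Φ y) := by
    funext x
    refine integral_congr_ae ?_
    filter_upwards [hΦ.ae_eq_mk] with y hy
    rw [← hy]
  rw [e]
  have hm : Measurable fun p : E3 × E6 => hΦ.mk Φ p.2 :=
    hΦ.stronglyMeasurable_mk.measurable.comp measurable_snd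
  exact (StronglyMeasurable.integral_prod_right'
    (f := fun p : E3 × E6 => Wx Z p.1 p.2 * (hΦ.mk Φ p.2 * hΦ.mk Φ p.2))
    ((a3meas_Wx Z).mul (hm.mul hm)).stronglyMeasurable).measurable

/-- `AEStronglyMeasurable.integral_prod_right'`, `Spl.mp` -/
theorem a3_meas_S (s : Spl E3 E6 E9) (Z : ℝ) {Φ : E6 → ℝ} (hΦ : AEStronglyMeasurable Φ volume) {Y : E9 → ℝ}
    (hY : AEStronglyMeasurable Y volume) : AEStronglyMeasurable (fun x => wI Z x Φ (sl s Y x)) volume := by
  have h1 : AEStronglyMeasurable (fun p : E3 × E6 => Y (s.j p.1 p.2)) (volume.prod volume) :=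
    hY.comp_quasiMeasurePreserving s.mp.quasiMeasurePreserving
  have h2 : AEStronglyMeasurable (fun p : E3 × E6 => Φ p.2) (volume.prod volume) := hΦ.comp_snd
  exact AEStronglyMeasurable.integral_prod_right'
    (f := fun p : E3 × E6 => Wx Z p.1 p.2 * (Φ p.2 * Y (s.j p.1 p.2)))
    ((a3meas_Wx Z).aestronglyMeasurable.mul (h2.mul h1))

/-- `V1` is continuous off the nuclei -/
theorem a3_lb0 (D I : ℝ) : IsOpen {x : E3 | x ≠ EuclideanSpace.single 2 D ∧ x ≠ EuclideanSpace.single 2 (-D)} ∧
    LB {x : E3 | x ≠ EuclideanSpace.single 2 D ∧ x ≠ EuclideanSpace.single 2 (-D)} fun x => I + V1 D x := by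
  refine ⟨isOpen_ne.inter isOpen_ne, ((measurable_V1 D).const_add I).aestronglyMeasurable, ?_⟩
  refine Bl.of_continuousOn (continuousOn_const.add ?_)
  unfold V1
  refine (continuousOn_const.div (by fun_prop) fun x hx => ?_).sub
    (continuousOn_const.div (by fun_prop) fun x hx => ?_)
  · exact norm_ne_zero_iff.2 (sub_ne_zero.2 hx.1)
  · exact norm_ne_zero_iff.2 (sub_ne_zero.2 hx.2)

/-- `V1_expand` -/
theorem a3_lb1 {D L : ℝ} (hD : 0 ≤ D) (hL : D + 1 ≤ L) (I c : ℝ) : LB (far L) fun x => I + V1 D x + c := by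
  refine ⟨(((measurable_V1 D).const_add I).add_const c).aestronglyMeasurable, fun K _ hK =>
    ⟨|I| + 2 + |c|, ae_of_all _ fun x hx => ?_⟩⟩
  have h1 : L < ‖x‖ := hK hx
  have h2 := (V1_expand hD (x := x) (by linarith)).2
  have := abs_add_le (I + V1 D x) c
  have := abs_add_le I (V1 D x)
  linarith

theorem a3_lb2 {D L M : ℝ} (hD : 0 ≤ D) (hL : D + 1 ≤ L) (I c : ℝ) {W : E3 → ℝ} (hW : Measurable W)
    (h : ∀ x, L < ‖x‖ → |W x| ≤ M) : LB (far L) fun x => I + V1 D x + W x - c / ‖x‖ ^ 4 := by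
  refine ⟨((((measurable_V1 D).const_add I).add hW).sub
    (measurable_const.div (measurable_norm.pow_const 4))).aestronglyMeasurable, fun K _ hK =>
    ⟨|I| + 2 + M + |c|, ae_of_all _ fun x hx => ?_⟩⟩
  have h1 : L < ‖x‖ := hK hx
  have h2 := (V1_expand hD (x := x) (by linarith)).2
  have h3 := h x h1
  have h4 : |c / ‖x‖ ^ 4| ≤ |c| := by
    rw [abs_div]
    refine div_le_self (abs_nonneg _) ?_
    rw [abs_of_nonneg (by positivity)]
    exact one_le_pow₀ (by linarith)
  have := abs_sub (I + V1 D x + W x) (c / ‖x‖ ^ 4)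
  have := abs_add_le (I + V1 D x) (W x)
  have := abs_add_le I (V1 D x)
  linarith

theorem a3_ind1 {L : ℝ} (hL : 1 ≤ L) {Z : ℝ} (hZ : 1 ≤ Z) (c : ℝ) {d : E3 → ℝ} (hd : MemLp d 2 volume) :
    MemLp ((far L).indicator fun x => c / (Z * ‖x‖ ^ 2) * |d x|) 2 volume := by
  refine a3meas_ind (M := |c|) (measurable_const.div ((measurable_norm.pow_const 2).const_mul Z))
    (fun x hx => ?_) hd.abs
  rw [abs_div]
  refine div_le_self (abs_nonneg _) ?_
  have h1 : 1 ≤ ‖x‖ ^ 2 := one_le_pow₀ (by linarith)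
  rw [abs_of_nonneg (by positivity)]
  nlinarith

theorem a3_ind2 {L : ℝ} (hL : 1 ≤ L) (c : ℝ) {d q : E3 → ℝ} (hd : MemLp d 2 volume) (hq : MemLp q 2 volume) :
    MemLp ((far L).indicator fun x => c * ((1 + |x 2|) / ‖x‖ ^ 3 * |d x| + q x / ‖x‖)) 2 volume := by
  have h1 := a3meas_ind (L := L) (M := |c| * 2) (m := fun x => c * ((1 + |x 2|) / ‖x‖ ^ 3))
    (((a3meas_z.abs.const_add 1).div (measurable_norm.pow_const 3)).const_mul c) (fun x hx => by
      rw [abs_mul]
      refine mul_le_mul_of_nonneg_left ?_ (abs_nonneg _)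
      have a1 : 1 ≤ ‖x‖ := by linarith
      have a2 := abs_z_le_norm x
      have a3 : ‖x‖ ≤ ‖x‖ ^ 3 := le_self_pow₀ a1 (by norm_num)
      rw [abs_of_nonneg (by positivity), div_le_iff₀ (by positivity)]
      linarith) hd.abs
  have h2 := a3meas_ind (L := L) (M := |c|) (m := fun x => c / ‖x‖)
    (measurable_const.div measurable_norm) (fun x hx => by
      rw [abs_div]
      refine div_le_self (abs_nonneg _) ?_
      rw [abs_of_nonneg (norm_nonneg _)]; linarith) hq
  convert h1.add h2 using 1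
  funext x
  by_cases hx : x ∈ far L
  · simp only [Pi.add_apply, indicator_of_mem hx, Pi.abs_apply]; ring
  · simp only [Pi.add_apply, indicator_of_notMem hx, add_zero]

theorem a3_ind3 (L : ℝ) {a : ℝ} (ha : 0 ≤ a) (c : ℝ) {y : E3 → ℝ} (hy : MemLp y 2 volume) :
    MemLp ((far L).indicator fun x => c * (Real.exp (-a * ‖x‖ / 4) * y x)) 2 volume := by
  have h1 := a3meas_ind (L := L) (M := |c|) (m := fun x => c * Real.exp (-a * ‖x‖ / 4))
    (by fun_prop) (fun x _ => by
      rw [abs_mul, abs_of_pos (Real.exp_pos _)]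
      refine mul_le_of_le_one_right (abs_nonneg _) (Real.exp_le_one_iff.2 ?_)
      have := mul_nonneg ha (norm_nonneg x)
      linarith) hy
  simpa only [mul_assoc] using h1

theorem a3_ind4 (L : ℝ) (c : ℝ) {y : E3 → ℝ} (hy : MemLp y 2 volume) :
    MemLp ((far L).indicator fun x => c * y x) 2 volume :=
  (hy.const_mul c).indicator (isOpen_far L).measurableSet

theorem a3_ind0 (Ω : Set E3) : MemLp (Ω.indicator (0 : E3 → ℝ)) 2 volume := by
  rw [indicator_zero']; exact MemLp.zero

end Crest.Agent.R335
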