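import Crest.Agent.R335.A3_Defs

/-!
# R335/A3_Sym: symmetries of the slices (part of A3, sub-lead helper5; definitions in `A3_Defs`)
-/

set_option autoImplicit false

namespace Crest.Agent.R335

open MeasureTheory Set Filter Topology
open scoped Gradient RealInnerProductSpace ENNReal ContDiff
open Crest.MathPhysics.ThreeBody

variable {s : Spl E3 E6 E9} {F : E9 → ℝ}

theorem a3sym_sub (T : E6 ≃ₗᵢ[ℝ] E6) (g : E6 → ℝ) : ∫ y, g (T y) = ∫ y, g y :=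
  T.measurePreserving.integral_comp T.toHomeomorph.measurableEmbedding g

/-- `Spl.ae_ae`, `Slot.eqv`, substitution `y ↦ dg2 T y` (`exists_dg2`) -/
theorem a3_nsq_sym (hs : Slot s) (T : E3 ≃ₗᵢ[ℝ] E3) {c : ℝ} (hc : c ^ 2 = 1) (h : ∀ᵐ X, F (dg3 T X) = c * F X) :
    ∀ᵐ a, nsq (sl s F (T a)) = nsq (sl s F a) := by
  obtain ⟨T', h1, -⟩ := exists_dg2 T
  filter_upwards [s.ae_ae h] with a ha
  unfold nsq sl
  rw [← a3sym_sub T' fun y => F (s.j (T a) y) ^ 2]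
  refine integral_congr_ae ?_
  filter_upwards [ha] with y hy
  rw [h1, ← hs.eqv, hy, mul_pow, hc, one_mul]

theorem a3_ip_sym (hs : Slot s) (T : E3 ≃ₗᵢ[ℝ] E3) {c : ℝ} (h : ∀ᵐ X, F (dg3 T X) = c * F X) {Φ : E6 → ℝ}
    (hΦ : ∀ᵐ y, Φ (dg2 T y) = Φ y) : ∀ᵐ a, ip Φ (sl s F (T a)) = c * ip Φ (sl s F a) := by
  obtain ⟨T', h1, -⟩ := exists_dg2 T
  filter_upwards [s.ae_ae h] with a ha
  unfold ip sl
  rw [← a3sym_sub T' fun y => Φ y * F (s.j (T a) y), ← integral_const_mul]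
  refine integral_congr_ae ?_
  filter_upwards [ha, hΦ] with y hy h2
  rw [h1, ← hs.eqv, hy, h2]
  ring

/-- `sw3 (at2 a y) = at2 a (sw2 y)`, substitution `y ↦ sw2 y` (`exists_sw2`) -/
theorem a3_anti (h : ∀ X, F (sw3 X) = -F X) {Φ : E6 → ℝ} (hΦ : ∀ᵐ y, Φ (sw2 y) = Φ y) (a : E3) :
    ip Φ (fun y => F (at2 a y)) = 0 := by
  obtain ⟨T', h1, -⟩ := exists_sw2
  have e : ip Φ (fun y => F (at2 a y)) = -ip Φ (fun y => F (at2 a y)) := by
    unfold ip
    rw [← integral_neg, ← a3sym_sub T' fun y => Φ y * F (at2 a y)]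
    refine integral_congr_ae ?_
    filter_upwards [hΦ] with y hy
    have e1 : at2 a (sw2 y) = sw3 (at2 a y) := by simp [at2, sw2, sw3]
    rw [h1, hy, e1, h]
    ring
  linarith

end Crest.Agent.R335
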