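import Crest.Agent.R335.A3_Defs

/-!
# R335/A3_Wt: the equation for a weighted eigenfunction (part of A3, sub-lead helper5; definitions in `A3_Defs`)
-/

set_option autoImplicit false

namespace Crest.Agent.R335

open MeasureTheory Set Filter Topology
open scoped Gradient RealInnerProductSpace ENNReal ContDiff
open Crest.MathPhysics.ThreeBody

theorem a3wt_int {E : Type} [NormedAddCommGroup E] [InnerProductSpace ℝ E] [FiniteDimensional ℝ E]
    [MeasurableSpace E] [BorelSpace E] {G K : E → E} (hG : MemLp G 2 volume) (hK : MemLp K 2 volume) :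
    Integrable fun x => ⟪G x, K x⟫ :=
  (hG.norm.integrable_mul hK.norm).mono' (hG.1.inner hK.1) (Eventually.of_forall fun _ => norm_inner_le_norm _ _)
/-- `H1.mul_c1` gives the first part.  For `ξ ∈ Tst univ` test `hF` with `w ξ` (`H1.of_c1_cpt`, gradient `w • ∇ ξ + ξ • ∇ w`).  In general
approximate `ξ` (`H1.dense`) and pass to the limit with `FB.bf_tendsto`, `s3a_tendsto_inner`, `s3a_tendsto_mul`, `s3a_tendsto_const`
(the functions `F • ∇ w` and `⟪G, ∇ w⟫` are in `L²`). -/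
theorem a3_weight {E : Type} [NormedAddCommGroup E] [InnerProductSpace ℝ E] [FiniteDimensional ℝ E]
    [MeasurableSpace E] [BorelSpace E] {V F w : E → ℝ} {G : E → E} {e c : ℝ} (hV : FB V) (hF : Eig V e F G)
    (hw : ContDiff ℝ 1 w) (hd : ∀ x, ‖∇ w x‖ ≤ c * |w x|) (h1 : MemLp (fun x => w x * F x) 2 volume)
    (h2 : MemLp (fun x => w x • G x) 2 volume) :
    H1 (fun x => w x * F x) (fun x => w x • G x + F x • ∇ w x) ∧ ∀ ξ K, H1 ξ K →
      bf V (fun x => w x * F x) (fun x => w x • G x + F x • ∇ w x) ξ K - e * ip (fun x => w x * F x) ξ =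
        (1 / 2) * (∫ x, ⟪F x • ∇ w x, K x⟫) - (1 / 2) * ∫ x, ξ x * ⟪G x, ∇ w x⟫ := by
  have cg := (s1a_grad_cont hw).aestronglyMeasurable (μ := volume)
  have m1 : MemLp (fun x => F x • ∇ w x) 2 volume := by
    refine h1.of_le_mul (c := c) (hF.h1.mf.1.smul cg) (Eventually.of_forall fun x => ?_)
    rw [norm_smul, norm_mul, Real.norm_eq_abs (w x)]
    have := mul_le_mul_of_nonneg_left (hd x) (norm_nonneg (F x))
    linarith
  have m2 : MemLp (fun x => ⟪G x, ∇ w x⟫) 2 volume := by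
    refine h2.of_le_mul (c := c) (hF.h1.mG.1.inner cg) (Eventually.of_forall fun x => ?_)
    refine (norm_inner_le_norm _ _).trans ?_
    rw [norm_smul, Real.norm_eq_abs (w x)]
    have := mul_le_mul_of_nonneg_left (hd x) (norm_nonneg (G x))
    linarith
  have hH := hF.h1.mul_c1 hw h1 (h2.add m1)
  refine ⟨hH, fun ξ K hξ => ?_⟩
  have tst : ∀ φ, Tst univ φ →
      bf V (fun x => w x * F x) (fun x => w x • G x + F x • ∇ w x) φ (∇ φ) - e * ip (fun x => w x * F x) φ =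
        (1 / 2) * (∫ x, ⟪F x • ∇ w x, ∇ φ x⟫) - (1 / 2) * ∫ x, φ x * ⟪G x, ∇ w x⟫ := fun φ hφ => by
    have key := hF.eq _ _ (hφ.th.mul_c1 isOpen_univ hw.contDiffOn).h1
    have i1 := a3wt_int h2 hφ.h1.mG
    have i2 := a3wt_int m1 hφ.h1.mG
    have i3 : Integrable fun x => φ x * ⟪G x, ∇ w x⟫ := hφ.h1.mf.integrable_mul m2
    have e1 : ∫ x, ⟪w x • G x + F x • ∇ w x, ∇ φ x⟫ = (∫ x, ⟪w x • G x, ∇ φ x⟫) + ∫ x, ⟪F x • ∇ w x, ∇ φ x⟫ := by
      rw [← integral_add i1 i2]
      simp only [inner_add_left]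
    have e2 : ∫ x, ⟪G x, w x • ∇ φ x + φ x • ∇ w x⟫ = (∫ x, ⟪w x • G x, ∇ φ x⟫) + ∫ x, φ x * ⟪G x, ∇ w x⟫ := by
      rw [← integral_add i1 i3]
      simp only [inner_add_right, real_inner_smul_left, real_inner_smul_right]
    have e3 : ∀ x, F x * (w x * φ x) = w x * F x * φ x := fun x => by ring
    simp only [bf, ip, e3] at key ⊢
    rw [e1]
    rw [e2] at key
    linarith
  obtain ⟨φ, hφ, hA, -⟩ := hξ.dense
  have t1 := hV.bf_tendsto (fun _ => hH) (fun n => (hφ n).h1) hH hξ (s3a_tendsto_const _) (s3a_tendsto_const _)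
    hA.l2 hA.l2G
  have t2 := s3a_tendsto_mul (fun _ => h1) (fun n => (hφ n).h1.mf) h1 hξ.mf (s3a_tendsto_const _) hA.l2
  have t3 := s3a_tendsto_inner (fun _ => m1) (fun n => (hφ n).h1.mG) m1 hξ.mG (s3a_tendsto_const _) hA.l2G
  have t4 := s3a_tendsto_mul (fun n => (hφ n).h1.mf) (fun _ => m2) hξ.mf m2 hA.l2 (s3a_tendsto_const _)
  exact tendsto_nhds_unique ((t1.sub (t2.const_mul e)).congr fun n => tst _ (hφ n))
    ((t3.const_mul _).sub (t4.const_mul _))

end Crest.Agent.R335
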