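import Crest.Agent.R335.A3_Sl
import Crest.Agent.R335.A3_Wt

/-!
# R335/A3_TI3: tested inequalities: the weighted function (part of A3, sub-lead helper5; definitions in `A3_Defs`)
-/

set_option autoImplicit false

namespace Crest.Agent.R335

open MeasureTheory Set Filter Topology
open scoped Gradient RealInnerProductSpace ENNReal ContDiff
open Crest.MathPhysics.ThreeBody

variable {s : Spl E3 E6 E9} {D Z E : ℝ} {U Y : E9 → ℝ} {GU GY : E9 → E9}

/-- `w X = wt a (p2 X)` is `C¹`, `‖∇ w‖ ≤ a w` (`s14_w_smooth`, `s14_w_d`, `s14_grad_norm`, `‖p2 v‖ ≤ ‖v‖`), `⟪∇ w X, i1 k⟫ = 0` -/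
theorem a3_wt_grad (s : Spl E3 E6 E9) {a : ℝ} (ha : 0 ≤ a) : ContDiff ℝ 1 (fun X => wt a (s.p2 X)) ∧
    (∀ X, ‖∇ (fun X => wt a (s.p2 X)) X‖ ≤ a * |wt a (s.p2 X)|) ∧
    ∀ X k, ⟪∇ (fun X => wt a (s.p2 X)) X, s.i1 k⟫ = 0 := by
  have hd : ∀ X, HasFDerivAt (fun X => wt a (s.p2 X))
      (wt a (s.p2 X) • (a • (fderiv ℝ s14_w (s.p2 X)).comp s.p2)) X := fun X => by
    have h1 : HasFDerivAt (fun X => s14_w (s.p2 X)) ((fderiv ℝ s14_w (s.p2 X)).comp s.p2) X :=
      ((s14_w_smooth.differentiable one_ne_zero) (s.p2 X)).hasFDerivAt.comp X s.p2.hasFDerivAt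
    exact (h1.const_mul a).exp
  refine ⟨Real.contDiff_exp.comp (contDiff_const.mul (s14_w_smooth.comp s.p2.contDiff)), fun X => ?_,
    fun X k => ?_⟩
  · rw [s14_grad_norm, (hd X).fderiv, norm_smul, norm_smul, Real.norm_eq_abs, Real.norm_of_nonneg ha, mul_comm]
    refine mul_le_mul_of_nonneg_right (mul_le_of_le_one_right ha ?_) (abs_nonneg _)
    refine ContinuousLinearMap.opNorm_le_bound _ zero_le_one fun v => ?_
    have h1 : ‖s.p2 v‖ ≤ ‖v‖ := (abs_le_of_sq_le_sq' (s11_p2_le s v) (norm_nonneg _)).2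
    calc _ ≤ ‖fderiv ℝ s14_w (s.p2 X)‖ * ‖s.p2 v‖ := (fderiv ℝ s14_w (s.p2 X)).le_opNorm _
      _ ≤ 1 * ‖v‖ := mul_le_mul (s14_w_d _) h1 (norm_nonneg _) zero_le_one
  · rw [gradient, InnerProductSpace.toDual_symm_apply, (hd X).fderiv]
    simp [s.p2_i1]

/-- `w² ≤ e^(2a) e^(2 a ‖X‖)` (`s14_w_le`) gives the hypotheses of `a3_weight` (`fb_V3`).  Take `ξ = φ Y`, `Y = w U`,
`GY = w • GU + U • ∇ w`: the right hand side of `a3_weight` is `(1/2) ∫ φ U² ‖∇ w‖² ≤ (a²/2) ∫ φ Y²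
= (a²/2) ∫ a, φ a * nsq (sl Y a)`.  The left hand side is given by `a3_slice` (with `U := Y`). -/
theorem ti_weight (hs : Slot s) (hU : Eig (V3 D Z) E U GU) {a : ℝ} (ha : 0 ≤ a)
    (hdec : Integrable fun X => Real.exp (2 * a * ‖X‖) * (U X ^ 2 + ‖GU X‖ ^ 2)) :
    ∃ GY, H1 (wtE s a U) GY ∧ TI s (wtE s a U) GY fun x =>
      sf D Z E x (sl s (wtE s a U) x) (slG s GY x) (sl s (wtE s a U) x) (slG s GY x) -
        a ^ 2 / 2 * nsq (sl s (wtE s a U) x) := by
  obtain ⟨hw, hwd, hw0⟩ := a3_wt_grad s ha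
  set w : E9 → ℝ := fun X => wt a (s.p2 X) with hwdef
  have hwle : ∀ X, w X ^ 2 ≤ Real.exp (2 * a) * Real.exp (2 * a * ‖X‖) := fun X => by
    have h1 : ‖s.p2 X‖ ≤ ‖X‖ := (abs_le_of_sq_le_sq' (s11_p2_le s X) (norm_nonneg _)).2
    have h2 := s14_w_le (s.p2 X)
    simp only [hwdef, wt]
    rw [← Real.exp_nat_mul, ← Real.exp_add, Real.exp_le_exp]
    push_cast
    nlinarith [mul_le_mul_of_nonneg_left (h2.trans (add_le_add_right h1 1)) ha]
  have hwc : Continuous w := hw.continuous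
  have m1 : MemLp (fun X => w X * U X) 2 volume := by
    have hm : AEStronglyMeasurable (fun X => w X * U X) volume := hwc.aestronglyMeasurable.mul hU.h1.mf.1
    refine (memLp_two_iff_integrable_sq hm).2 ((hdec.const_mul (Real.exp (2 * a))).mono' (hm.pow 2)
      (Eventually.of_forall fun X => ?_))
    rw [Real.norm_of_nonneg (sq_nonneg _), mul_pow, ← mul_assoc]
    exact mul_le_mul (hwle X) (le_add_of_nonneg_right (sq_nonneg _)) (sq_nonneg _) (by positivity)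
  have m2 : MemLp (fun X => w X • GU X) 2 volume := by
    have hm : AEStronglyMeasurable (fun X => w X • GU X) volume := hwc.aestronglyMeasurable.smul hU.h1.mG.1
    refine (memLp_two_iff_integrable_sq_norm hm).2 ((hdec.const_mul (Real.exp (2 * a))).mono' (hm.norm.pow 2)
      (Eventually.of_forall fun X => ?_))
    rw [Real.norm_of_nonneg (sq_nonneg _), norm_smul, mul_pow, Real.norm_eq_abs, sq_abs, ← mul_assoc]
    exact mul_le_mul (hwle X) (le_add_of_nonneg_left (sq_nonneg _)) (sq_nonneg _) (by positivity)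
  obtain ⟨hY, hid⟩ := a3_weight (fb_V3 D Z) hU hw hwd m1 m2
  have eY : wtE s a U = fun X => w X * U X := rfl
  rw [eY]
  refine ⟨_, hY, fun φ K hφ hφ0 ⟨M, hM⟩ hT => ?_⟩
  have hM' : ∀ b, |φ b| ≤ M := fun b => by rw [abs_of_nonneg (hφ0 b)]; exact hM b
  obtain ⟨i1, e1⟩ := a3_slice hs D Z E hY hY hφ hM' hT
  have e2 := hid _ _ hT
  have mφ : AEStronglyMeasurable (fun x => φ (s.p1 x)) volume := hφ.comp_fst.comp_measurePreserving (s11_mq s)
  have iY : Integrable fun x => φ (s.p1 x) * (w x * U x) ^ 2 :=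
    hY.int_sq.bdd_mul mφ (Eventually.of_forall fun x => hM' _)
  have e3 : ∀ b, ∫ y, φ (s.p1 (s.j b y)) * (w (s.j b y) * U (s.j b y)) ^ 2 =
      φ b * nsq (sl s (fun X => w X * U X) b) := fun b => by
    simp only [s.p1_j]
    rw [integral_const_mul]
    rfl
  have i2 : Integrable fun b => φ b * nsq (sl s (fun X => w X * U X) b) := by
    have := (s.integrable_fibre iY).2
    simpa only [e3] using this
  have e4 : ∫ x, φ (s.p1 x) * (w x * U x) ^ 2 = ∫ b, φ b * nsq (sl s (fun X => w X * U X) b) := by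
    rw [s.integral_eq iY]
    simp only [e3]
  have m3 : MemLp (fun X => U X • ∇ w X) 2 volume := by
    have := hY.mG.sub m2
    refine this.ae_eq (Eventually.of_forall fun X => ?_)
    simp
  have i3 : Integrable fun x => ⟪U x • ∇ w x,
      φ (s.p1 x) • (w x • GU x + U x • ∇ w x) + (w x * U x) • s.i1 (K (s.p1 x))⟫ :=
    (m3.norm.integrable_mul hT.mG.norm).mono' (m3.1.inner hT.mG.1)
      (Eventually.of_forall fun x => norm_inner_le_norm _ _)
  have b4 : ∀ x, φ (s.p1 x) * ‖U x • ∇ w x‖ ^ 2 ≤ a ^ 2 * (φ (s.p1 x) * (w x * U x) ^ 2) := fun x => by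
    have h1 : ‖U x • ∇ w x‖ ≤ a * |w x * U x| := by
      rw [norm_smul, Real.norm_eq_abs, abs_mul]
      nlinarith [mul_le_mul_of_nonneg_left (hwd x) (abs_nonneg (U x))]
    have h2 : ‖U x • ∇ w x‖ ^ 2 ≤ (a * |w x * U x|) ^ 2 := by gcongr
    rw [mul_pow, sq_abs] at h2
    nlinarith [mul_le_mul_of_nonneg_left h2 (hφ0 (s.p1 x))]
  have i4 : Integrable fun x => φ (s.p1 x) * ‖U x • ∇ w x‖ ^ 2 :=
    ((memLp_two_iff_integrable_sq_norm m3.1).1 m3).bdd_mul mφ (Eventually.of_forall fun x => hM' _)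
  have e5 : ∫ x, φ (s.p1 x) * (w x * U x) * ⟪GU x, ∇ w x⟫ =
      (∫ x, ⟪U x • ∇ w x, φ (s.p1 x) • (w x • GU x + U x • ∇ w x) + (w x * U x) • s.i1 (K (s.p1 x))⟫) -
        ∫ x, φ (s.p1 x) * ‖U x • ∇ w x‖ ^ 2 := by
    rw [← integral_sub i3 i4]
    refine integral_congr_ae (Eventually.of_forall fun x => ?_)
    simp only [inner_add_right, real_inner_smul_right, real_inner_self_eq_norm_sq]
    simp only [real_inner_smul_left, hw0]
    rw [real_inner_comm (GU x)]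
    ring
  have b5 : ∫ x, φ (s.p1 x) * ‖U x • ∇ w x‖ ^ 2 ≤ a ^ 2 * ∫ x, φ (s.p1 x) * (w x * U x) ^ 2 := by
    rw [← integral_const_mul]
    exact integral_mono i4 (iY.const_mul _) b4
  have e6 : ∀ T N : E3 → ℝ, (fun b => φ b * (T b - a ^ 2 / 2 * N b)) =
      fun b => φ b * T b - a ^ 2 / 2 * (φ b * N b) := fun T N => by
    funext b; ring
  beta_reduce
  rw [e6]
  refine ⟨i1.sub (i2.const_mul _), ?_⟩
  rw [integral_sub i1 (i2.const_mul _), integral_const_mul, ← e4]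
  simp only [real_inner_self_eq_norm_sq] at e1
  beta_reduce at e1 e2
  rw [e1, e5] at e2
  linarith

end Crest.Agent.R335
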