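import Crest.Agent.R335.A3_TI2

/-!
# R335/A3_Thin: thin slabs (part of A3, sub-lead helper5; definitions in `A3_Defs`)
-/

set_option autoImplicit false

namespace Crest.Agent.R335

open MeasureTheory Set Filter Topology
open scoped Gradient RealInnerProductSpace ENNReal ContDiff
open Crest.MathPhysics.ThreeBody

variable {s : Spl E3 E6 E9} {F : E9 → ℝ} {G : E9 → E9}

/-- a function which is odd in `x₂`: `H1.slice s.swap`, `H1.thin` (`i = 2`, `exists_refl`) on a.e. slice in the ion variables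
(`Spl.ae_ae s.swap`, `Spl.swap_j`), `‖p1 v‖ ≤ ‖v‖`; Fubini (`Spl.integral_eq` for `s` and `s.swap`) for
`X ↦ indicator {|x 2| < ε} 1 (p1 X) * F X ^ 2` -/
theorem a3_thin_odd (hF : H1 F G) (h : ∀ᵐ X, F (s.j (refl (s.p1 X)) (s.p2 X)) = -F X) {ε : ℝ} (hε : 0 < ε) :
    ∫ a in {x : E3 | |x 2| < ε}, nsq (sl s F a) ≤ (∫ X, ‖G X‖ ^ 2) * ε ^ 2 := by
  set S : Set E3 := {x : E3 | |x 2| < ε} with hS
  have mS : MeasurableSet S := (isOpen_lt (by fun_prop) continuous_const).measurableSet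
  have iF : Integrable fun X => F X ^ 2 := hF.mf.integrable_sq
  have iG : Integrable fun X => ‖G X‖ ^ 2 := hF.mG.norm.integrable_sq
  have iI : Integrable ((s.p1 ⁻¹' S).indicator fun X => F X ^ 2) :=
    iF.indicator (s.p1.continuous.measurable mS)
  have e0 : ∀ a b, (s.p1 ⁻¹' S).indicator (fun X => F X ^ 2) (s.j a b) =
      S.indicator (fun a => F (s.j a b) ^ 2) a := fun a b => by
    by_cases ha : a ∈ S
    · rw [indicator_of_mem ha, indicator_of_mem (by rw [mem_preimage, s.p1_j]; exact ha)]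
    · rw [indicator_of_notMem ha, indicator_of_notMem (by rw [mem_preimage, s.p1_j]; exact ha)]
  have e1 : ∫ a in S, nsq (sl s F a) = ∫ X, (s.p1 ⁻¹' S).indicator (fun X => F X ^ 2) X := by
    rw [s.integral_eq iI, ← integral_indicator mS]
    refine integral_congr_ae (Eventually.of_forall fun a => ?_)
    simp only [e0]
    by_cases ha : a ∈ S
    · simp only [indicator_of_mem ha, nsq, sl]
    · simp only [indicator_of_notMem ha, integral_zero]
  obtain ⟨T, -, -, -, -, hT⟩ := exists_refl 2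
  have hT' : ∀ x, T x = refl x := fun x => by
    ext j
    rw [hT]
    fin_cases j <;> simp [refl]
  rw [e1, s.swap.integral_eq iI, s.swap.integral_eq iG, mul_comm, ← integral_const_mul]
  refine integral_mono_ae (s.swap.integrable_fibre iI).2 ((s.swap.integrable_fibre iG).2.const_mul _) ?_
  filter_upwards [H1.slice s.swap hF, s.swap.ae_ae h, (s.swap.integrable_fibre iG).1] with b h1 h2 h3
  simp only [Spl.swap_j] at h1 h2 h3 ⊢
  simp only [s.p1_j, s.p2_j] at h2
  have h4 := h1.thin 2 hT (by simpa only [hT'] using h2) hε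
  simp only [e0]
  rw [integral_indicator mS]
  refine h4.trans (mul_le_mul_of_nonneg_left ?_ (sq_nonneg ε))
  refine (setIntegral_le_integral h1.mG.norm.integrable_sq
    (Eventually.of_forall fun a => sq_nonneg _)).trans ?_
  refine integral_mono h1.mG.norm.integrable_sq h3 fun a => ?_
  have := s.norm_sq (G (s.j a b))
  change ‖s.p1 (G (s.j a b))‖ ^ 2 ≤ ‖G (s.j a b)‖ ^ 2
  nlinarith [sq_nonneg ‖s.p2 (G (s.j a b))‖]

/-- `evE s F (j (refl a) b) = (F (j (refl a) b) + F (j (refl a) (rf b))) / 2 = -(F (j a (rf b)) + F (j a b)) / 2`: use `h` at `X` and at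
`T X` (`a3_exists_Tb`, `Slot.eqv`, `rf_rf`); `a3_h1_evE`, `a3_thin_odd` -/
theorem a3_thin (hs : Slot s) (hF : H1 F G) (h : ∀ᵐ X, F (dg3 refl X) = -F X) :
    ∃ M : ℝ, ∀ ε : ℝ, 0 < ε → ∫ a in {x : E3 | |x 2| < ε}, nsq (sl s (evE s F) a) ≤ M * ε ^ 2 := by
  obtain ⟨GN, hN⟩ := a3_h1_evE (s := s) hF
  obtain ⟨T, hT, -, -⟩ := a3_exists_Tb s
  refine ⟨_, fun ε hε => a3_thin_odd hN ?_ hε⟩
  filter_upwards [h, T.measurePreserving.quasiMeasurePreserving.ae h] with X h1 h2
  rw [hT, hs.eqv] at h2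
  rw [← s.j_p X, hs.eqv] at h1
  change F (s.j (refl (s.p1 X)) (rf (rf (s.p2 X)))) = _ at h2
  change F (s.j (refl (s.p1 X)) (rf (s.p2 X))) = _ at h1
  rw [rf_rf] at h2
  rw [s.j_p] at h1
  simp only [evE, s.p1_j, s.p2_j]
  rw [h1, h2]
  ring

end Crest.Agent.R335
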