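import Crest.Agent.R335.A3_Ten
import Crest.Agent.R335.A3_KI
import Crest.Agent.R335.A3_TI3
import Crest.Agent.R335.A3_Ion3
import Crest.Agent.R335.A3_Exp
import Crest.Agent.R335.A3_Sym
import Crest.Agent.R335.A3_Thin
import Crest.Agent.R335.A3_Cld
import Crest.Agent.R335.A3_Meas

/-!
# R335/A3_Asm: the five Kato inequalities and the two equations (part of A3)
-/

set_option autoImplicit false

namespace Crest.Agent.R335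

open MeasureTheory Set Filter Topology
open scoped Gradient RealInnerProductSpace ENNReal ContDiff
open Crest.MathPhysics.ThreeBody

/-- the two components of the vector valued function -/
structure Two (D Z γ E0 E : ℝ) (Φ : E6 → ℝ) (GΦ : E6 → E6) (s0 s2 : Spl E3 E6 E9) (U F : E9 → ℝ)
    (GU GF : E9 → E9) : Prop where
  D1 : 1 ≤ D
  ion : Ion D Z γ E0 Φ GΦ
  h0 : Slot s0
  h2 : Slot s2
  eU : Eig (V3 D Z) E U GU
  eF : Eig (V3 D Z) E F GF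
  orth : ∀ x, ip Φ (sl s2 F x) = 0

theorem len_nonneg (s0 : Spl E3 E6 E9) (Y0 : E9 → ℝ) (s1 : Spl E3 E6 E9) (Y1 : E9 → ℝ) (a : E3) :
    0 ≤ len s0 Y0 s1 Y1 a := Real.sqrt_nonneg _

theorem len_sq (s0 : Spl E3 E6 E9) (Y0 : E9 → ℝ) (s1 : Spl E3 E6 E9) (Y1 : E9 → ℝ) (a : E3) :
    len s0 Y0 s1 Y1 a ^ 2 = nsq (sl s0 Y0 a) + nsq (sl s1 Y1 a) :=
  Real.sq_sqrt (add_nonneg nsq_nonneg nsq_nonneg)

theorem le_len (s0 : Spl E3 E6 E9) (Y0 : E9 → ℝ) (s1 : Spl E3 E6 E9) (Y1 : E9 → ℝ) (a : E3) :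
    √(nsq (sl s0 Y0 a)) ≤ len s0 Y0 s1 Y1 a :=
  Real.sqrt_le_sqrt (le_add_of_nonneg_right nsq_nonneg)

theorem a3_num_kR {γ W C c p d g n S : ℝ} (hγ : 0 < γ) (hW : W ≤ γ / 2) (hg : 0 ≤ g) (hn : 0 ≤ n)
    (hS : |S| ≤ c * p * √g) (hC : 2 * c ^ 2 / γ ≤ C) :
    (W - C * p ^ 2) * (d ^ 2 + g + n) ≤ γ * g + W * d ^ 2 + 2 * d * S + γ * n := by
  have hC0 : 0 ≤ C := le_trans (by positivity) hC
  have e1 : √g ^ 2 = g := Real.sq_sqrt hg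
  have e2 : -(|d| * (c * p * √g)) ≤ d * S := by
    have := abs_mul d S
    have h2 := mul_le_mul_of_nonneg_left hS (abs_nonneg d)
    linarith [neg_abs_le (d * S)]
  have e3 : 2 * (|d| * (c * p * √g)) ≤ γ / 2 * g + 2 * c ^ 2 / γ * p ^ 2 * d ^ 2 := by
    have h1 : 0 ≤ (γ * √g - 2 * c * p * |d|) ^ 2 / (2 * γ) := by positivity
    have h2 : (γ * √g - 2 * c * p * |d|) ^ 2 / (2 * γ) =
        γ / 2 * √g ^ 2 + 2 * c ^ 2 / γ * p ^ 2 * |d| ^ 2 - 2 * (|d| * (c * p * √g)) := by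
      field_simp; ring
    rw [h2, e1, sq_abs] at h1
    linarith
  have e4 : 2 * c ^ 2 / γ * p ^ 2 * d ^ 2 ≤ C * p ^ 2 * d ^ 2 := by gcongr
  have e5 : 0 ≤ C * p ^ 2 * (g + n) := by positivity
  have e6 : W * (g + n) ≤ γ / 2 * (g + n) := mul_le_mul_of_nonneg_right hW (by positivity)
  have e7 : 0 ≤ γ * n := by positivity
  nlinarith

theorem a3_num_cs {a b c d : ℝ} (ha : 0 ≤ a) (hb : 0 ≤ b) (hc : 0 ≤ c) (hd : 0 ≤ d) :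
    √a * √b + √c * √d ≤ √(a + c) * √(b + d) := by
  rw [← Real.sqrt_mul (add_nonneg ha hc)]
  refine Real.le_sqrt_of_sq_le ?_
  have e1 := Real.sq_sqrt ha
  have e2 := Real.sq_sqrt hb
  have e3 := Real.sq_sqrt hc
  have e4 := Real.sq_sqrt hd
  have : (√a * √b + √c * √d) ^ 2 = (√a ^ 2 + √c ^ 2) * (√b ^ 2 + √d ^ 2) - (√a * √d - √c * √b) ^ 2 := by ring
  rw [this, e1, e2, e3, e4]
  linarith [sq_nonneg (√a * √d - √c * √b)]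

variable {D Z γ E0 E M : ℝ} {Φ : E6 → ℝ} {GΦ : E6 → E6} {s0 s2 : Spl E3 E6 E9} {U F : E9 → ℝ} {GU GF : E9 → E9}

theorem Two.hd (h : Two D Z γ E0 E Φ GΦ s0 s2 U F GU GF) {Θ : E6 → ℝ} (hΘ : MemLp Θ 2 volume) :
    H1 (fun x => ip Θ (sl s0 U x)) fun a => ∫ b, Θ b • s0.p1 (GU (s0.j a b)) :=
  H1.fibre_ip s0 h.eU.h1 hΘ

theorem Two.kR0 (h : Two D Z γ E0 E Φ GΦ s0 s2 U F GU GF) :
    ∃ K, KI {x | x ≠ EuclideanSpace.single 2 D ∧ x ≠ EuclideanSpace.single 2 (-D)} (len s0 U s2 F) K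
      (fun x => E0 - E + V1 D x) 0 0 := by
  refine a3_ki h.eU.h1 h.eF.h1 (ti_plain h.h0 h.eU) (ti_plain h.h2 h.eF) (a3_lb0 D 0).1 (a3_lb0 D _).2
    (a3_ind0 _) (a3_ind0 _) ?_
  filter_upwards [h.eU.h1.sl s0, h.eF.h1.sl s2] with x e0 e2 _
  have := h.ion.plain E x e0
  have := h.ion.plain E x e2
  simp only [Pi.zero_apply]
  linarith

/-- the bound for the source term -/
theorem Two.Sle (h : Two D Z γ E0 E Φ GΦ s0 s2 U F GU GF) (hΦ : Dc M Φ) :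
    ∀ᵐ x, 1 ≤ ‖x‖ → |wI Z x Φ (sl s0 (prE s0 Φ U) x)| ≤
      4 * √M / (Z * ‖x‖ ^ 2) * √(nsq (sl s0 (prE s0 Φ U) x)) := by
  filter_upwards [h.eU.h1.sl s0] with x e0 hx
  have m : MemLp (fun y => sl s0 U x y - ip Φ (sl s0 U x) * Φ y) 2 volume := e0.mf.sub (hΦ.1.const_mul _)
  have := (a3_mono h.ion.Zge hΦ m hx).2
  rw [(h.ion.pyth e0.mf).1, mul_zero, sub_zero] at this
  rw [sl_prE]
  exact this

theorem Two.kR (h : Two D Z γ E0 E Φ GΦ s0 s2 U F GU GF) (hΦ : Dc M Φ) (hM : 0 ≤ M) {C L : ℝ}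
    (hC : 32 * M / γ ≤ C) (hL : D + 1 ≤ L) (hW : ∀ x, L < ‖x‖ → wI Z x Φ Φ ≤ γ / 2) :
    ∃ K, KI (far L) (len s0 U s2 F) K (fun x => E0 - E + V1 D x + wI Z x Φ Φ - C / ‖x‖ ^ 4) 0 0 := by
  have hZ := h.ion.Zge
  have hD := h.D1
  refine a3_ki h.eU.h1 h.eF.h1 (ti_plain h.h0 h.eU) (ti_plain h.h2 h.eF) (isOpen_far L)
    (a3_lb2 (M := γ / 2) (by linarith) hL _ _ (a3_meas_W Z hΦ.1.1) fun x hx => ?_) (a3_ind0 _) (a3_ind0 _) ?_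
  · rw [abs_of_nonneg (wI_self_nonneg (by linarith) x Φ)]
    exact hW x hx
  filter_upwards [h.eU.h1.sl s0, h.eF.h1.sl s2, h.Sle hΦ] with x e0 e2 e3 hx
  have hx' : L < ‖x‖ := hx
  have hx1 : 1 ≤ ‖x‖ := by linarith
  have a0 := h.ion.full E x e0
  have a2 := h.ion.orth E x e2 (h.orth x)
  have a3 := (h.ion.pyth e0.mf).2
  have a4 := e3 hx1
  rw [sl_prE] at a4
  have a5 : |wI Z x Φ fun y => sl s0 U x y - ip Φ (sl s0 U x) * Φ y| ≤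
      4 * √M * (1 / ‖x‖ ^ 2) * √(nsq fun y => sl s0 U x y - ip Φ (sl s0 U x) * Φ y) := by
    refine a4.trans (mul_le_mul_of_nonneg_right ?_ (Real.sqrt_nonneg _))
    rw [mul_one_div]
    exact div_le_div_of_nonneg_left (by positivity) (by positivity) (le_mul_of_one_le_left (by positivity) hZ)
  have a6 := a3_num_kR (d := ip Φ (sl s0 U x)) (C := C) h.ion.γpos (hW x hx') nsq_nonneg
    (nsq_nonneg (f := sl s2 F x)) a5 (by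
      rw [mul_pow, Real.sq_sqrt hM]
      refine le_trans (le_of_eq ?_) hC
      ring)
  have a7 : C / ‖x‖ ^ 4 = C * (1 / ‖x‖ ^ 2) ^ 2 := by
    field_simp
  simp only [Pi.zero_apply]
  rw [a7]
  rw [a3] at a0 ⊢
  nlinarith

theorem Two.kq (h : Two D Z γ E0 E Φ GΦ s0 s2 U F GU GF) (hΦ : Dc M Φ) {C : ℝ} (hC : 4 * √M ≤ C) :
    ∃ K, KI (far (D + 1)) (len s0 (prE s0 Φ U) s2 F) K (fun x => E0 - E + V1 D x + γ)
      (fun x => C / (Z * ‖x‖ ^ 2) * |ip Φ (sl s0 U x)|) 0 := by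
  have hZ := h.ion.Zge
  have hD := h.D1
  obtain ⟨GY, hY, tY⟩ := ti_proj h.h0 h.eU h.ion.eig.h1 h.ion.nrm
  refine a3_ki hY h.eF.h1 tY (ti_plain h.h2 h.eF) (isOpen_far _) (a3_lb1 (by linarith) le_rfl _ _)
    (a3_ind1 (by linarith) hZ _ (h.hd hΦ.1).mf) (a3_ind0 _) ?_
  filter_upwards [h.eU.h1.sl s0, h.eF.h1.sl s2, h.Sle hΦ, hY.sl s0] with x e0 e2 e3 e4 hx
  have hx' : D + 1 < ‖x‖ := hx
  have hx1 : 1 ≤ ‖x‖ := by linarith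
  have a2 := h.ion.orth E x e2 (h.orth x)
  have a4 := e3 hx1
  have a5 := le_len s0 (prE s0 Φ U) s2 F x
  have a6 : |wI Z x Φ (sl s0 (prE s0 Φ U) x)| ≤ C / (Z * ‖x‖ ^ 2) * len s0 (prE s0 Φ U) s2 F x := by
    refine a4.trans (mul_le_mul (div_le_div_of_nonneg_right hC (by positivity)) a5 (Real.sqrt_nonneg _) ?_)
    have : 0 ≤ C := le_trans (by positivity) hC
    positivity
  have a7 := mul_le_mul_of_nonneg_left a6 (abs_nonneg (ip Φ (sl s0 U x)))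
  rw [← abs_mul] at a7
  have a8 := neg_abs_le (ip Φ (sl s0 U x) * wI Z x Φ (sl s0 (prE s0 Φ U) x))
  rw [sl_prE] at e4
  have a0 := h.ion.proj E x e0 e4
  rw [← sl_prE] at a0
  simp only [Pi.zero_apply]
  nlinarith

theorem Two.kw (h : Two D Z γ E0 E Φ GΦ s0 s2 U F GU GF) {a : ℝ} (ha : 0 ≤ a) (haγ : a ^ 2 ≤ γ)
    (w1 : MemLp (fun y => wt a y * Φ y) 2 volume) (w2 : nsq (fun y => wt a y * Φ y) ≤ M)
    (dU : Integrable fun X => Real.exp (2 * a * ‖X‖) * (U X ^ 2 + ‖GU X‖ ^ 2))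
    (dF : Integrable fun X => Real.exp (2 * a * ‖X‖) * (F X ^ 2 + ‖GF X‖ ^ 2)) {C : ℝ} (hC : γ * M ≤ C ^ 2) :
    ∃ K, KI (far (D + 1)) (len s0 (wtE s0 a U) s2 (wtE s2 a F)) K (fun x => E0 - E + V1 D x + γ / 2) 0
      fun x => C * len s0 U s2 F x := by
  have hD := h.D1
  obtain ⟨G0, h0, t0⟩ := ti_weight h.h0 h.eU ha dU
  obtain ⟨G2, h2, t2⟩ := ti_weight h.h2 h.eF ha dF
  refine a3_ki h0 h2 t0 t2 (isOpen_far _) (a3_lb1 (by linarith) le_rfl _ _) (a3_ind0 _)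
    (a3_ind4 _ _ (a3_len_memLp h.eU.h1.mf h.eF.h1.mf).1) ?_
  filter_upwards [h.eU.h1.sl s0, h.eF.h1.sl s2, h0.sl s0, h2.sl s2] with x e0 e2 e3 e4 _
  rw [sl_wtE] at e3 e4
  have a0 := h.ion.weight E x e0.mf e3 w1 w2
  have a2 := h.ion.weight E x e2.mf e4 w1 w2
  rw [← sl_wtE] at a0 a2
  have n0 : 0 ≤ nsq (sl s0 (wtE s0 a U) x) := nsq_nonneg
  have n2 : 0 ≤ nsq (sl s2 (wtE s2 a F) x) := nsq_nonneg
  have a3 := mul_le_mul_of_nonneg_right hC (add_nonneg (nsq_nonneg (f := sl s0 U x)) (nsq_nonneg (f := sl s2 F x)))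
  have a4 := mul_le_mul_of_nonneg_right haγ (add_nonneg n0 n2)
  simp only [Pi.zero_apply, mul_pow, len_sq]
  nlinarith

theorem Two.ko (h : Two D Z γ E0 E Φ GΦ s0 s2 U F GU GF) (hΦ : Dc M Φ) {a : ℝ} (ha : 0 ≤ a)
    (wU : MemLp (wtE s0 a U) 2 volume) (wF : MemLp (wtE s2 a F) 2 volume) :
    ∃ c : ℝ, 0 ≤ c ∧ ∀ C, c ≤ C → ∃ K, KI (far (D + 1)) (len s0 (odE s0 U) s2 (odE s2 F)) K
      (fun x => E0 - E + V1 D x + γ / 2)
      (fun x => C * ((1 + |x 2|) / ‖x‖ ^ 3 * |ip Φ (sl s0 U x)| + len s0 (prE s0 Φ U) s2 F x / ‖x‖))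
      fun x => C * (Real.exp (-a * ‖x‖ / 4) * len s0 (wtE s0 a U) s2 (wtE s2 a F) x) := by
  have hD := h.D1
  obtain ⟨c, hc, H⟩ := h.ion.odd ha hΦ
  refine ⟨c, hc, fun C hC => ?_⟩
  obtain ⟨G0, h0, t0⟩ := ti_odd h.h0 h.eU
  obtain ⟨G2, h2, t2⟩ := ti_odd h.h2 h.eF
  obtain ⟨GY, hY, -⟩ := ti_proj h.h0 h.eU h.ion.eig.h1 h.ion.nrm
  refine a3_ki h0 h2 t0 t2 (isOpen_far _) (a3_lb1 (by linarith) le_rfl _ _)
    (a3_ind2 (by linarith) _ (h.hd hΦ.1).mf (a3_len_memLp hY.mf h.eF.h1.mf).1)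
    (a3_ind3 _ ha _ (a3_len_memLp wU wF).1) ?_
  filter_upwards [h.eU.h1.sl s0, h.eF.h1.sl s2, h0.sl s0, h2.sl s2, (s12b_slice s0 wU).1, (s12b_slice s2 wF).1]
    with x e0 e2 e3 e4 e5 e6 hx
  have hx' : D + 1 < ‖x‖ := hx
  have hx1 : 1 ≤ ‖x‖ := by linarith
  rw [sl_odE] at e3 e4
  have e5' : MemLp (sl s0 (wtE s0 a U) x) 2 volume := e5
  have e6' : MemLp (sl s2 (wtE s2 a F) x) 2 volume := e6
  rw [sl_wtE] at e5' e6'
  have a0 := H E x _ _ _ (ip Φ (sl s0 U x)) hx1 e0 e3 e5'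
  have a2 := H E x _ _ _ 0 hx1 e2 e4 e6'
  rw [← sl_wtE, ← sl_odE, ← sl_prE] at a0
  simp only [zero_mul, sub_zero, abs_zero, mul_zero, zero_add] at a2
  rw [← sl_wtE, ← sl_odE] at a2
  have a3 := a3_num_cs (nsq_nonneg (f := sl s0 (prE s0 Φ U) x)) (nsq_nonneg (f := sl s0 (odE s0 U) x))
    (nsq_nonneg (f := sl s2 F x)) (nsq_nonneg (f := sl s2 (odE s2 F) x))
  have a4 := le_len s0 (odE s0 U) s2 (odE s2 F) x
  change _ ≤ len s0 (prE s0 Φ U) s2 F x * len s0 (odE s0 U) s2 (odE s2 F) x at a3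
  set A := (1 + |x 2|) / ‖x‖ ^ 3 * |ip Φ (sl s0 U x)| with hA
  have A0 : 0 ≤ A := by positivity
  set yo := len s0 (odE s0 U) s2 (odE s2 F) x
  set q := len s0 (prE s0 Φ U) s2 F x
  have yo0 : 0 ≤ yo := len_nonneg _ _ _ _ _
  have q0 : 0 ≤ q := len_nonneg _ _ _ _ _
  have a5 : c * (A + √(nsq (sl s0 (prE s0 Φ U) x)) / ‖x‖) * √(nsq (sl s0 (odE s0 U) x)) +
      c * (√(nsq (sl s2 F x)) / ‖x‖) * √(nsq (sl s2 (odE s2 F) x)) ≤ C * (A + q / ‖x‖) * yo := by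
    have b1 : A * √(nsq (sl s0 (odE s0 U) x)) ≤ A * yo := mul_le_mul_of_nonneg_left a4 A0
    have b2 := div_le_div_of_nonneg_right a3 (norm_nonneg x)
    have b3 : (A + √(nsq (sl s0 (prE s0 Φ U) x)) / ‖x‖) * √(nsq (sl s0 (odE s0 U) x)) +
        (√(nsq (sl s2 F x)) / ‖x‖) * √(nsq (sl s2 (odE s2 F) x)) ≤ (A + q / ‖x‖) * yo := by
      calc _ = A * √(nsq (sl s0 (odE s0 U) x)) + (√(nsq (sl s0 (prE s0 Φ U) x)) * √(nsq (sl s0 (odE s0 U) x)) +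
            √(nsq (sl s2 F x)) * √(nsq (sl s2 (odE s2 F) x))) / ‖x‖ := by ring
        _ ≤ A * yo + q * yo / ‖x‖ := add_le_add b1 b2
        _ = _ := by ring
    have b4 := mul_le_mul_of_nonneg_left b3 hc
    have b5 : c * ((A + q / ‖x‖) * yo) ≤ C * ((A + q / ‖x‖) * yo) :=
      mul_le_mul_of_nonneg_right hC (by positivity)
    nlinarith
  have a6 : (c * Real.exp (-a * ‖x‖ / 4)) ^ 2 * (nsq (sl s0 (wtE s0 a U) x) + nsq (sl s2 (wtE s2 a F) x)) ≤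
      (C * (Real.exp (-a * ‖x‖ / 4) * len s0 (wtE s0 a U) s2 (wtE s2 a F) x)) ^ 2 := by
    rw [← len_sq, ← mul_pow, ← mul_assoc]
    have := len_nonneg s0 (wtE s0 a U) s2 (wtE s2 a F) x
    gcongr
  linarith

theorem Two.eqd (h : Two D Z γ E0 E Φ GΦ s0 s2 U F GU GF) {S : E3 → ℝ}
    (hS : ∀ᵐ x, S x = wI Z x Φ (sl s0 (prE s0 Φ U) x)) (Ω : Set E3) :
    EqS Ω (fun x => E0 - E + V1 D x + wI Z x Φ Φ) (fun x => -S x) (fun x => ip Φ (sl s0 U x))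
      fun a => ∫ b, Φ b • s0.p1 (GU (s0.j a b)) := by
  intro ξ K hξ
  rw [← a3_tensor h.h0 h.eU h.ion.eig hξ.h1]
  congr 1
  refine integral_congr_ae ?_
  filter_upwards [hS, h.eU.h1.sl s0] with x e1 e0
  rw [e1, sl_prE, h.ion.wI_split x e0]
  ring

theorem Two.eqS (h : Two D Z γ E0 E Φ GΦ s0 s2 U F GU GF) {ES : ℝ} {Θ : E6 → ℝ} {GΘ : E6 → E6}
    (hΘ : Eig (V2 D Z) ES Θ GΘ) {σ : E3 → ℝ}
    (hσ : ∀ᵐ x, σ x = 2 / (Z * ‖x‖) * ip Θ (sl s0 U x) - wI Z x Θ (sl s0 U x)) (Ω : Set E3) :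
    EqS Ω (fun x => E0 - E + (ES - E0) + V1 D x + 2 / (Z * ‖x‖)) σ (fun x => ip Θ (sl s0 U x))
      fun a => ∫ b, Θ b • s0.p1 (GU (s0.j a b)) := by
  intro ξ K hξ
  rw [← a3_tensor h.h0 h.eU hΘ hξ.h1]
  congr 1
  refine integral_congr_ae ?_
  filter_upwards [hσ] with x e1
  rw [e1]
  ring

theorem Two.σa (h : Two D Z γ E0 E Φ GΦ s0 s2 U F GU GF) {Θ : E6 → ℝ} {GΘ : E6 → E6} (hΘ : H1 Θ GΘ)
    (dΘ : Dc M Θ) (odd : ∀ᵐ y, Θ (rf y) = -Θ y) {C : ℝ} (hC : 100 * √M ≤ C) :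
    ∀ᵐ x, D + 1 < ‖x‖ → |2 / (Z * ‖x‖) * ip Θ (sl s0 U x) - wI Z x Θ (sl s0 U x) -
        -(∫ y, Θ y * ((pos2 0 y 2 + pos2 1 y 2) * Φ y)) / Z * x 2 / ‖x‖ ^ 3 * ip Φ (sl s0 U x)| ≤
      C * ((1 + |x 2|) / ‖x‖ ^ 4 * |ip Φ (sl s0 U x)| + len s0 (prE s0 Φ U) s2 F x / ‖x‖ ^ 2) := by
  have hZ := h.ion.Zge
  have hD := h.D1
  filter_upwards [h.eU.h1.sl s0] with x e0 hx
  have hx1 : 1 ≤ ‖x‖ := by linarith
  have hΦ := h.ion.eig.h1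
  set d := ip Φ (sl s0 U x) with hd
  have hg := e0.sub (hΦ.const_mul d)
  have o1 : ip Θ Φ = 0 := by rw [ip_comm]; exact ip_even_odd h.ion.even odd
  have a1 := (a3_mono hZ dΘ hg.mf hx1).2
  have a2 := a3_dip hZ dΘ hΦ.mf odd h.ion.even hx1
  rw [h.ion.nrm, Real.sqrt_one, mul_one] at a2
  have a3 : wI Z x Θ (sl s0 U x) = d * wI Z x Θ Φ + wI Z x Θ fun y => sl s0 U x y - d * Φ y := by
    have := wI_lin (Z := Z) hΦ hg hΘ x d 1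
    rw [one_mul] at this
    rw [← this]
    congr 1
    funext y
    ring
  have a4 : ip Θ (fun y => sl s0 U x y - d * Φ y) = ip Θ (sl s0 U x) := by
    have i1 : Integrable fun y => Θ y * sl s0 U x y := hΘ.int_mul e0
    have i2 : Integrable fun y => d * (Θ y * Φ y) := (hΘ.int_mul hΦ).const_mul d
    have : ip Θ (fun y => sl s0 U x y - d * Φ y) = ip Θ (sl s0 U x) - d * ip Θ Φ := by
      unfold ip
      rw [← integral_const_mul, ← integral_sub i1 i2]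
      congr 1
      funext y
      ring
    rw [this, o1, mul_zero, sub_zero]
  rw [a4] at a1
  have a5 := le_len s0 (prE s0 Φ U) s2 F x
  rw [sl_prE] at a5
  have q0 := len_nonneg s0 (prE s0 Φ U) s2 F x
  have hC0 : 0 ≤ C := le_trans (by positivity) hC
  have a6 : 4 * √M / (Z * ‖x‖ ^ 2) * √(nsq fun y => sl s0 U x y - d * Φ y) ≤
      C * (len s0 (prE s0 Φ U) s2 F x / ‖x‖ ^ 2) := by
    have b1 : 4 * √M / (Z * ‖x‖ ^ 2) ≤ C / ‖x‖ ^ 2 :=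
      div_le_div₀ hC0 (by linarith [Real.sqrt_nonneg M]) (by positivity) (le_mul_of_one_le_left (by positivity) hZ)
    calc _ ≤ C / ‖x‖ ^ 2 * len s0 (prE s0 Φ U) s2 F x := mul_le_mul b1 a5 (Real.sqrt_nonneg _) (by positivity)
      _ = _ := by ring
  have a7 : |d * (wI Z x Θ Φ - x 2 / (Z * ‖x‖ ^ 3) * ∫ y, Θ y * ((pos2 0 y 2 + pos2 1 y 2) * Φ y))| ≤
      C * ((1 + |x 2|) / ‖x‖ ^ 4 * |d|) := by
    rw [abs_mul]
    calc _ ≤ |d| * (C * ((1 + |x 2|) / ‖x‖ ^ 4)) :=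
          mul_le_mul_of_nonneg_left (a2.trans (mul_le_mul_of_nonneg_right hC (by positivity))) (abs_nonneg d)
      _ = _ := by ring
  have a8 : 2 / (Z * ‖x‖) * ip Θ (sl s0 U x) - wI Z x Θ (sl s0 U x) -
        -(∫ y, Θ y * ((pos2 0 y 2 + pos2 1 y 2) * Φ y)) / Z * x 2 / ‖x‖ ^ 3 * d =
      -((wI Z x Θ fun y => sl s0 U x y - d * Φ y) - 2 / (Z * ‖x‖) * ip Θ (sl s0 U x)) -
        d * (wI Z x Θ Φ - x 2 / (Z * ‖x‖ ^ 3) * ∫ y, Θ y * ((pos2 0 y 2 + pos2 1 y 2) * Φ y)) := by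
    rw [a3]
    field_simp
    ring
  rw [a8]
  refine (abs_sub _ _).trans ?_
  rw [abs_neg]
  linarith

end Crest.Agent.R335
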