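import Crest.Agent.R335.Lib
import Crest.Agent.R335.A3_Asm

/-!
# R335/A3: scalar inequalities for the components of the ground state (SUB-LEAD part)

`Ψ(x) = (√2 F(x,·,·), F(·,·,x))` (splittings `exists_spl3 0`, `exists_spl3 2`), `R = |Ψ|`, `d x = √2 ∫ Φ F(at0 x ·)`,
`Y₁ = √2 F - d ⊗ Φ`, `Y₂ = F` (second splitting), `q = |(Y₁, Y₂)|`, `I = E0 - E`, `W x = ∫ Wx Z x · Φ²`.
All `KI` statements come from `ki_of_test`: test `Spec.eF` with `φ(x_i) Y`, split the gradient term with `Spl.inn`, `V3_at0/at2`, and use on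
a.e. slice (`H1.slice`) the ion inequality `Spec.gap` and `Wx ≥ 0`.  Slices of `F` at slot `2` are antisymmetric, hence orthogonal to `Φ`.
* Expansions (uniform in `Z`, from `decΦ`, `hardy2` for `χ(y_j/r) Φ` near `y_j = x`):
  `‖(Wx Z x - 2/(Z r)) Φ‖_{L²} ≤ C/(Z r²)` for `r = ‖x‖ > D + 1`; this gives `Wa`, and `S x = ∫ (Wx - 2/(Z r)) Φ Y₁(x,·)` (note `Y₁ ⊥ Φ`).
* `kR0`: `⟨Ψ, (H_ion - E0 + Wx) Ψ⟩ ≥ 0`.  `kR`: it is `≥ W d² + 2 d S + γ q² ≥ (W - C/r⁴)(d² + q²)` when `W ≤ γ/2`.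
* `eqd`: test with `ξ(x₀) Φ`.  `kq`: test with `φ Y₁`, `φ Y₂`; the terms with `d ⊗ Φ` drop out except `d S`.
* `kw`: `w y = exp(a √(1 + ‖y‖²))`, `yw = |w Ψ|` (`w F ∈ H¹` by `decF`; for the test function `φ w² F` truncate `w` or note that `φ` has compact
  support and `w² F ∈ H¹` if `a` is halved: you may prove `Scal` with the weight `exp((a/2) √..)`, `3/8 ≥ 1/4`).  On slices `bf f (w² f) = qf (w f) - ½ ∫ ‖∇w‖² f²`.
* `ko`: `Ψᵒ(x) = (Ψ(x) + Ψ(refl x))/2` is odd in the ion variables (`symFM`), `Ψᵉ = Ψ - Ψᵒ` is even in the ion variables and odd in `x`; `yo = |Ψᵒ|`,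
  `ye = |Ψᵉ|`.  For even `φ` test with `φ Fᵒ`; for general `φ` symmetrise (all coefficients are even in `z`).  The only cross term is
  `⟨Fᵒ, W^{oe} Fᵉ⟩`, `W^{oe} = (Wx x - Wx (refl x))/2`.  Split each `j`-term into the set where `‖x - y_j‖, ‖refl x - y_j‖ ≥ r/4` (there `|W^{oe}| ≤ C/r`,
  and `≤ C |z| ‖y‖/r³` if `‖y_j‖ ≤ r/2`; write `Fᵉ = d Φ/√2 + Yᵉ`) and the rest (`‖y‖ ≥ 3r/4`: Hardy for `Fᵒ`, `‖1 Fᵉ‖ ≤ e^{-..} yw`; absorb
  `θ ‖∇Fᵒ‖²` by a convex combination of `gap` and `kin_le_V2`, `E0 ≤ 0`).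
* `thin`: `H1.thin`-type estimate for `Ψᵉ` (apply it on a.e. slice in the ion variables, `Spl.swap`).
* `dS x = √2 ∫ Θ F(at0 x ·)`, test with `ξ(x₀) Θ`; `γS = ES - E0 ≥ γ` (`Θ ⊥ Φ` by parity), `σ = -⟨Θ, Wx Φ⟩ d - ⟨(Wx - 2/(Z r)) Θ, Y₁⟩`,
  `⟨Θ, Wx Φ⟩ = (2Z)⁻¹ ∑_j ∫ Θ Φ (1/‖x - y_j‖ - 1/‖x - refl y_j‖)` and
  `1/‖x - y‖ - 1/‖x - refl y‖ = 4 z y₂ / (A B (A + B))`, `A = ‖x - y‖`, `B = ‖x - refl y‖`; `μ = -dip / Z`.
* `cld`: `d - u = √2 ⟨Φ, F - auf⟩ + √2 ⟨Φ - g⊗g, auf⟩` and `√2 ⟨g⊗g, auf(x,·)⟩ = u x`.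
Measurable representatives: `W, S, σ` are parametrised integrals (use measurable modifications of `Φ, Θ, F`).
-/

set_option autoImplicit false

namespace Crest.Agent.R335

open MeasureTheory Set Filter Topology
open scoped Gradient RealInnerProductSpace ENNReal ContDiff
open Crest.MathPhysics.ThreeBody

theorem scal {D eg eu e3 : ℝ} {g u : E3 → ℝ} {Gg Gu : E3 → E3} (h : OneB D eg eu e3 g Gg u Gu) {γ a C : ℝ}
    (hγ : 0 < γ) (ha : 0 < a) (haγ : a ^ 2 ≤ γ) (hC : 1 ≤ C) : ∃ C₂ : ℝ, 1 ≤ C₂ ∧ ∀ (η Z E0 ES E : ℝ) (Φ : E6 → ℝ)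
      (GΦ : E6 → E6) (Θ : E6 → ℝ) (GΘ : E6 → E6) (F : E9 → ℝ) (GF : E9 → E9), 0 < η → η ≤ 1 →
      Spec D Z eu γ a C η g u E0 ES E Φ GΦ Θ GΘ F GF →
      ∃ (I γS C' μ : ℝ) (GR : E3 → E3) (d : E3 → ℝ) (Gd : E3 → E3) (q : E3 → ℝ) (Gq : E3 → E3) (yw : E3 → ℝ)
        (Gw : E3 → E3) (yo : E3 → ℝ) (Go : E3 → E3) (ye dS : E3 → ℝ) (GS : E3 → E3) (W S σ : E3 → ℝ),
        Scal D Z eu γ a C₂ η u (Rof F) I γS C' μ GR d Gd q Gq yw Gw yo Go ye dS GS W S σ := by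
  obtain ⟨M, hM, HM⟩ := dc_of_dec ha C
  have sM := Real.sqrt_nonneg M
  have hMγ : 0 ≤ 32 * M / γ := by positivity
  refine ⟨12 + 4 * √M + 32 * M / γ, by linarith, ?_⟩
  intro η Z E0 ES E Φ GΦ Θ GΘ F GF hη hη1 sp
  have hZ : 1 ≤ Z := le_trans (one_le_inv_iff₀.2 ⟨hη, hη1⟩) sp.Zge
  obtain ⟨Tz, Tm, Tz1, -⟩ := exists_refl_z
  have Tz2 : (Tz : E3 → E3) = refl := funext Tz1
  have even : ∀ᵐ y, Φ (rf y) = Φ y := by
    have := sp.symΦ Tz (Or.inr Tm)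
    rwa [Tz2] at this
  have oddF : ∀ᵐ X, F (dg3 refl X) = -F X := by
    have := sp.symFM Tz Tm
    rwa [Tz2] at this
  have ion : Ion D Z γ E0 Φ GΦ := ⟨hZ, hγ, sp.eΦ, sp.nΦ, sp.gap, sp.E0le, even⟩
  obtain ⟨s0, s2, h0, h2, j0, j2⟩ := a3_slots
  have eU : Eig (V3 D Z) E (fun X => √2 * F X) fun X => √2 • GF X := by
    have := Eig.lin (fb_V3 D Z) sp.eF sp.eF √2 0
    simpa only [zero_mul, add_zero, zero_smul] using this
  set U : E9 → ℝ := fun X => √2 * F X with hU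
  set GU : E9 → E9 := fun X => √2 • GF X with hGU
  have s22 : (√2 : ℝ) ^ 2 = 2 := Real.sq_sqrt (by norm_num)
  have two : Two D Z γ E0 E Φ GΦ s0 s2 U F GU GF := by
    refine ⟨h.Dpos, ion, h0, h2, eU, sp.eF, fun x => ?_⟩
    have : sl s2 F x = fun y => F (at2 x y) := by funext y; simp only [sl, j2]
    rw [this]
    exact a3_anti sp.min.anti sp.swΦ x
  have hR : Rof F = len s0 U s2 F := by
    funext x
    simp only [Rof, len, nsq, sl, j0, j2, hU, mul_pow, s22, integral_const_mul]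
  obtain ⟨dΦ, w1, w2⟩ := HM Φ GΦ sp.eΦ.h1 sp.decΦ.1 sp.decΦ.2
  obtain ⟨M', hM', HM'⟩ := dc_of_dec ha (∫ y, Real.exp (2 * a * ‖y‖) * (Θ y ^ 2 + ‖GΘ y‖ ^ 2))
  obtain ⟨dΘ, -, -⟩ := HM' Θ GΘ sp.eΘ.h1 sp.decΘ le_rfl
  have dU : Integrable fun X => Real.exp (2 * a * ‖X‖) * (U X ^ 2 + ‖GU X‖ ^ 2) := by
    refine (sp.decF.const_mul 2).congr (Eventually.of_forall fun X => ?_)
    simp only [hU, hGU, norm_smul, mul_pow, Real.norm_eq_abs, sq_abs, s22]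
    ring
  obtain ⟨_, wU, -⟩ := ti_weight h0 eU ha.le dU
  obtain ⟨_, wF, -⟩ := ti_weight h2 sp.eF ha.le sp.decF
  obtain ⟨c, hc, hko⟩ := two.ko dΦ ha.le wU.mf wF.mf
  have sM' := Real.sqrt_nonneg M'
  have sγ := Real.sqrt_nonneg (γ * M)
  set C' := c + √(γ * M) + 100 * √M' with hC'
  obtain ⟨GR, kR0⟩ := two.kR0
  obtain ⟨Gq, kq⟩ := two.kq dΦ (C := 12 + 4 * √M + 32 * M / γ) (by linarith)
  obtain ⟨Gw, kw⟩ := two.kw ha.le haγ w1 w2 dU sp.decF (C := C') (by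
    rw [← Real.sq_sqrt (show 0 ≤ γ * M by positivity)]
    exact pow_le_pow_left₀ sγ (by linarith) 2)
  obtain ⟨Go, ko⟩ := hko C' (by linarith)
  obtain ⟨GY, hY, -⟩ := ti_proj h0 eU sp.eΦ.h1 sp.nΦ
  have mS := a3_meas_S s0 Z dΦ.1.1 hY.mf.1
  have hS := two.hd dΘ.1
  have mσ : AEStronglyMeasurable (fun x => 2 / (Z * ‖x‖) * ip Θ (sl s0 U x) - wI Z x Θ (sl s0 U x)) volume :=
    ((show Measurable fun x : E3 => 2 / (Z * ‖x‖) by fun_prop).aestronglyMeasurable.mul hS.mf.1).sub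
      (a3_meas_S s0 Z dΘ.1.1 eU.h1.mf.1)
  obtain ⟨G0e, e0⟩ := a3_h1_evE (s := s0) eU.h1
  obtain ⟨G2e, e2⟩ := a3_h1_evE (s := s2) sp.eF.h1
  have oddU : ∀ᵐ X, U (dg3 refl X) = -U X := by
    filter_upwards [oddF] with X hX
    simp only [hU, hX, mul_neg]
  have oΘ : ip Φ Θ = 0 := ip_even_odd even sp.oddΘ
  have hD := h.Dpos
  rw [hR]
  refine ⟨E0 - E, ES - E0, C', -(∫ y, Θ y * ((pos2 0 y 2 + pos2 1 y 2) * Φ y)) / Z, GR, _, _, _, Gq, _, Gw, _, Go,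
    len s0 (evE s0 U) s2 (evE s2 F), _, _, fun x => wI Z x Φ Φ, mS.mk _, mσ.mk _, sp.Zge, sp.ion, ?_, ?_, ?_, ?_, kR0,
    a3_meas_W Z dΦ.1.1, fun x => wI_self_nonneg (by linarith) x Φ, fun x hx => ?_, fun L hL hW => ?_, two.hd dΦ.1, ?_,
    ?_, mS.stronglyMeasurable_mk.measurable, two.eqd mS.ae_eq_mk.symm _, ?_, ?_, kq, kw, ?_, ko, ?_,
    (a3_len_memLp e0.mf e2.mf).1, hS, ?_, mσ.stronglyMeasurable_mk.measurable, two.eqS sp.eΘ mσ.ae_eq_mk.symm _, ?_⟩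
  · have := sp.gap Θ GΘ sp.eΘ.h1
    rw [oΘ, sp.eΘ.qf_eq, sp.nΘ] at this
    linarith
  · exact div_pos (neg_pos.2 sp.dip) (by linarith)
  · rw [(a3_len_memLp eU.h1.mf sp.eF.h1.mf).2]
    have : nsq U = 2 * nsq F := by simp only [nsq, hU, mul_pow, s22, integral_const_mul]
    rw [this, sp.min.nrm]
    norm_num
  · intro T hT
    obtain ⟨k, k1, k2⟩ : ∃ k : ℝ, k ^ 2 = 1 ∧ ∀ᵐ X, F (dg3 T X) = k * F X := by
      rcases hT with hT | hT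
      · exact ⟨1, by norm_num, by simpa only [one_mul] using sp.symFP T hT⟩
      · exact ⟨-1, by norm_num, by simpa only [neg_one_mul] using sp.symFM T hT⟩
    have k3 : ∀ᵐ X, U (dg3 T X) = k * U X := by
      filter_upwards [k2] with X hX
      simp only [hU, hX]
      ring
    filter_upwards [a3_nsq_sym h0 T k1 k3, a3_nsq_sym h2 T k1 k2] with x x0 x2
    simp only [len, x0, x2]
  · have := (a3_mono hZ dΦ dΦ.1 (x := x) (by linarith)).2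
    rw [ip_self, sp.nΦ, Real.sqrt_one, mul_one, mul_one] at this
    exact this.trans (div_le_div_of_nonneg_right (by linarith) (by positivity))
  · obtain ⟨K, hK⟩ := two.kR dΦ hM (C := 12 + 4 * √M + 32 * M / γ) (by linarith) hL hW
    exact hK.of_h1 kR0.h1
  · have k3 : ∀ᵐ X, U (dg3 Tz X) = -1 * U X := by
      rw [Tz2]
      simpa only [neg_one_mul] using oddU
    have := a3_ip_sym h0 Tz k3 (sp.symΦ Tz (Or.inr Tm))
    simpa only [Tz1, neg_one_mul] using this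
  · refine (a3_cld j0 h.eg_.h1.mf h.eu_.h1.mf h.ng h.nu h.orth dΦ.1 sp.nΦ sp.eF.h1.mf sp.clΦ sp.clF).trans ?_
    exact mul_le_mul_of_nonneg_right (by linarith) hη.le
  · filter_upwards [two.Sle dΦ, mS.ae_eq_mk] with x x1 x2 hx
    rw [← x2]
    refine (x1 (by linarith)).trans (mul_le_mul (div_le_div_of_nonneg_right (by linarith) (by positivity))
      (le_len _ _ _ _ _) (Real.sqrt_nonneg _) (by positivity))
  · filter_upwards [eU.h1.sl s0] with x x0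
    rw [len_sq, len_sq, sl_prE, (ion.pyth x0.mf).2]
    ring
  · filter_upwards [eU.h1.sl s0, sp.eF.h1.sl s2] with x x0 x2
    rw [len_sq, len_sq, len_sq, sl_odE, sl_odE, sl_evE, sl_evE, nsq_od_ev x0.mf, nsq_od_ev x2.mf]
    ring
  · obtain ⟨M0, t0⟩ := a3_thin h0 eU.h1 oddU
    obtain ⟨M2, t2⟩ := a3_thin h2 sp.eF.h1 oddF
    refine ⟨M0 + M2, fun ε hε => ?_⟩
    have i0 : Integrable fun x => nsq (sl s0 (evE s0 U) x) := (s0.integrable_fibre e0.int_sq).2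
    have i2 : Integrable fun x => nsq (sl s2 (evE s2 F) x) := (s2.integrable_fibre e2.int_sq).2
    simp only [len_sq]
    rw [integral_add i0.integrableOn i2.integrableOn]
    linarith [t0 ε hε, t2 ε hε]
  · filter_upwards [eU.h1.sl s0] with x x0
    refine le_trans (Real.abs_le_sqrt ?_) (le_len _ _ _ _ _)
    have := ip_sq_le dΘ.1 x0.mf
    rwa [sp.nΘ, one_mul] at this
  · filter_upwards [two.σa sp.eΘ.h1 dΘ sp.oddΘ (C := C') (by linarith), mσ.ae_eq_mk] with x x1 x2 hx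
    rw [← x2]
    exact x1 hx

end Crest.Agent.R335
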