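import Crest.Agent.R335.S5

/-!
# R335/S14: Agmon estimate with uniform constants
-/

set_option autoImplicit false

namespace Crest.Agent.R335

open MeasureTheory Set Filter Topology
open scoped Gradient RealInnerProductSpace ENNReal ContDiff
open Crest.MathPhysics.ThreeBody

variable {E : Type} [NormedAddCommGroup E] [InnerProductSpace ℝ E] [FiniteDimensional ℝ E]
  [MeasurableSpace E] [BorelSpace E]

omit [MeasurableSpace E] [BorelSpace E] in
theorem s14_grad_norm (φ : E → ℝ) (x : E) : ‖∇ φ x‖ = ‖fderiv ℝ φ x‖ := by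
  simp [gradient]

set_option maxHeartbeats 1600000 in
/-- the estimate for one bounded weight -/
theorem s14_core {γ R C₀ a S Mθ W N : ℝ} (hγ : 0 < γ) (ha : 0 < a) (ha2 : a ^ 2 = γ / 2) (hM : 0 ≤ Mθ)
    {θ p : E → ℝ} (hθ : ContDiff ℝ 1 θ) (hθ01 : ∀ x, 0 ≤ θ x ∧ θ x ≤ 1) (hθ0 : ∀ x, ‖x‖ ≤ R → θ x = 0)
    (hθ1 : ∀ x, S < ‖x‖ → θ x = 1) (hθd : ∀ x, ‖fderiv ℝ θ x‖ ≤ Mθ) (hθd0 : ∀ x, S < ‖x‖ → fderiv ℝ θ x = 0)
    (hp : ContDiff ℝ 1 p) (hpd : ∀ x, ‖fderiv ℝ p x‖ ≤ 1) (hpN : ∀ x, p x ≤ N) (hpW : ∀ x, ‖x‖ ≤ S → p x ≤ W)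
    {V f : E → ℝ} {G : E → E} {e : ℝ} (hV : FB V) (hf : Eig V e f G) (hn : nsq f ≤ 1) (he : e ≤ C₀)
    (hk : ∀ g K, H1 g K → ∫ x, ‖K x‖ ^ 2 ≤ 4 * qf V g K + C₀ * nsq g)
    (hgap : ∀ g K, H1 g K → (∀ᵐ x, ‖x‖ ≤ R → g x = 0) → (e + γ) * nsq g ≤ qf V g K) :
    ∫⁻ x, ENNReal.ofReal (Real.exp (2 * a * p x) * (f x ^ 2 + ‖G x‖ ^ 2)) ≤
      ENNReal.ofReal ((1 + 6 * γ + 10 * |C₀|) * (2 * (Real.exp (a * W) * Mθ) ^ 2 / γ) +
        12 * (Real.exp (a * W) * Mθ) ^ 2 + Real.exp (a * W) ^ 2 * (1 + 5 * |C₀|)) := by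
  set Q := Real.exp (a * W) with hQ
  set B := (Q * Mθ) ^ 2 with hB
  have hQ0 : 0 < Q := Real.exp_pos _
  have hB0 : 0 ≤ B := sq_nonneg _
  set ψ : E → ℝ := fun x => θ x * Real.exp (a * p x) with hψ
  have hψc : ContDiff ℝ 1 ψ := hθ.mul (Real.contDiff_exp.comp (contDiff_const.mul hp))
  have hψ0 : ∀ x, 0 ≤ ψ x := fun x => mul_nonneg (hθ01 x).1 (Real.exp_pos _).le
  have hψN : ∀ x, ψ x ≤ Real.exp (a * N) := fun x => by
    have h1 : Real.exp (a * p x) ≤ Real.exp (a * N) :=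
      Real.exp_le_exp.2 (mul_le_mul_of_nonneg_left (hpN x) ha.le)
    have h2 : θ x * Real.exp (a * p x) ≤ 1 * Real.exp (a * p x) :=
      mul_le_mul_of_nonneg_right (hθ01 x).2 (Real.exp_pos _).le
    simp only [hψ]; linarith
  have hψd : ∀ x, ‖∇ ψ x‖ ≤ a * ψ x + Q * Mθ := fun x => by
    rw [s14_grad_norm]
    have d1 : HasFDerivAt θ (fderiv ℝ θ x) x := (hθ.differentiable one_ne_zero x).hasFDerivAt
    have d2 : HasFDerivAt p (fderiv ℝ p x) x := (hp.differentiable one_ne_zero x).hasFDerivAt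
    have d3 : HasFDerivAt (fun y => Real.exp (a * p y)) (Real.exp (a * p x) • (a • fderiv ℝ p x)) x :=
      (d2.const_mul a).exp
    have d4 : HasFDerivAt ψ (θ x • (Real.exp (a * p x) • (a • fderiv ℝ p x)) +
        Real.exp (a * p x) • fderiv ℝ θ x) x := d1.mul d3
    rw [d4.fderiv]
    refine (norm_add_le _ _).trans (add_le_add ?_ ?_)
    · rw [norm_smul, norm_smul, norm_smul, Real.norm_of_nonneg (hθ01 x).1,
        Real.norm_of_nonneg (Real.exp_pos _).le, Real.norm_of_nonneg ha.le]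
      have := hpd x
      have h3 : 0 ≤ θ x * Real.exp (a * p x) * a := mul_nonneg (hψ0 x) ha.le
      simp only [hψ]
      nlinarith [mul_le_mul_of_nonneg_left this h3]
    · rw [norm_smul, Real.norm_of_nonneg (Real.exp_pos _).le]
      by_cases hx : S < ‖x‖
      · rw [hθd0 x hx, norm_zero, mul_zero]; positivity
      · have h1 : Real.exp (a * p x) ≤ Q :=
          Real.exp_le_exp.2 (mul_le_mul_of_nonneg_left (hpW x (not_lt.1 hx)) ha.le)
        exact mul_le_mul h1 (hθd x) (norm_nonneg _) hQ0.le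
  have hψd2 : ∀ x, ‖∇ ψ x‖ ^ 2 ≤ γ * ψ x ^ 2 + 2 * B := fun x => by
    have h1 := hψd x
    have h2 : ‖∇ ψ x‖ ^ 2 ≤ (a * ψ x + Q * Mθ) ^ 2 := pow_le_pow_left₀ (norm_nonneg _) h1 2
    have h3 : γ = 2 * a ^ 2 := by linarith
    rw [h3, hB]
    nlinarith [sq_nonneg (a * ψ x - Q * Mθ)]
  set M := Real.exp (a * N) + a * Real.exp (a * N) + Q * Mθ with hMdef
  have hE0 : 0 < Real.exp (a * N) := Real.exp_pos _
  have b1 : ∀ x, |ψ x| ≤ M := fun x => by
    rw [abs_of_nonneg (hψ0 x)]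
    have := hψN x
    have : 0 ≤ a * Real.exp (a * N) := by positivity
    have : 0 ≤ Q * Mθ := by positivity
    linarith
  have b2 : ∀ x, ‖∇ ψ x‖ ≤ M := fun x => by
    have h1 := hψd x
    have h2 := mul_le_mul_of_nonneg_left (hψN x) ha.le
    linarith
  have hg : H1 (fun x => ψ x * f x) fun x => ψ x • G x + f x • ∇ ψ x := hf.h1.mul_c1_bdd hψc b1 b2
  have hloc := Eig.loc hV hf hψc b1 b2
  set g : E → ℝ := fun x => ψ x * f x with hgdef
  set K : E → E := fun x => ψ x • G x + f x • ∇ ψ x with hKdef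
  have ig := hg.int_sq
  have iK := hg.int_grad_sq
  have i1 := hf.h1.int_sq
  have iG := hf.h1.int_grad_sq
  have n0 : 0 ≤ nsq f := nsq_nonneg
  have ng0 : 0 ≤ nsq g := nsq_nonneg
  have e1 : ∫ x, ‖∇ ψ x‖ ^ 2 * f x ^ 2 ≤ γ * nsq g + 2 * B := by
    have : ∫ x, ‖∇ ψ x‖ ^ 2 * f x ^ 2 ≤ ∫ x, (γ * g x ^ 2 + 2 * B * f x ^ 2) := by
      refine integral_mono_of_nonneg (Eventually.of_forall fun x => by positivity)
        ((ig.const_mul γ).add (i1.const_mul (2 * B))) (Eventually.of_forall fun x => ?_)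
      have := mul_le_mul_of_nonneg_right (hψd2 x) (sq_nonneg (f x))
      simp only [hgdef]
      nlinarith
    rw [integral_add (ig.const_mul γ) (i1.const_mul (2 * B)), integral_const_mul, integral_const_mul] at this
    have h2 : 2 * B * nsq f ≤ 2 * B * 1 := mul_le_mul_of_nonneg_left hn (by positivity)
    unfold nsq at h2 ⊢
    linarith
  have e2 : (e + γ) * nsq g ≤ qf V g K := hgap g K hg (Eventually.of_forall fun x hx => by
    simp [hgdef, hψ, hθ0 x hx])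
  set N₁ := 2 * B / γ with hN₁
  have e3 : nsq g ≤ N₁ := by
    rw [hN₁, le_div_iff₀ hγ]
    nlinarith
  have hC : C₀ ≤ |C₀| := le_abs_self _
  have hC0 : 0 ≤ |C₀| := abs_nonneg _
  have e4 : qf V g K ≤ (|C₀| + γ / 2) * N₁ + B := by
    have h1 : e * nsq g ≤ |C₀| * nsq g := mul_le_mul_of_nonneg_right (he.trans hC) ng0
    have h2 : (|C₀| + γ / 2) * nsq g ≤ (|C₀| + γ / 2) * N₁ := mul_le_mul_of_nonneg_left e3 (by positivity)
    nlinarith
  have e5 : ∫ x, ‖K x‖ ^ 2 ≤ (5 * |C₀| + 2 * γ) * N₁ + 4 * B := by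
    have h1 := hk g K hg
    have h2 : C₀ * nsq g ≤ |C₀| * nsq g := mul_le_mul_of_nonneg_right hC ng0
    have h3 : |C₀| * nsq g ≤ |C₀| * N₁ := mul_le_mul_of_nonneg_left e3 hC0
    nlinarith
  have e6 : ∫ x, ‖G x‖ ^ 2 ≤ 5 * |C₀| := by
    have h1 := hk f G hf.h1
    rw [hf.qf_eq] at h1
    have h2 : e * nsq f ≤ |C₀| * nsq f := mul_le_mul_of_nonneg_right (he.trans hC) n0
    have h2' : C₀ * nsq f ≤ |C₀| * nsq f := mul_le_mul_of_nonneg_right hC n0
    have h3 : |C₀| * nsq f ≤ |C₀| * 1 := mul_le_mul_of_nonneg_left hn hC0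
    linarith
  -- pointwise bound
  set u : E → ℝ := fun x => (1 + 2 * γ) * g x ^ 2 + 2 * ‖K x‖ ^ 2 + (4 * B + Q ^ 2) * f x ^ 2 + Q ^ 2 * ‖G x‖ ^ 2
    with hu
  have j1 := ig.const_mul (1 + 2 * γ)
  have j2 := iK.const_mul 2
  have j3 := i1.const_mul (4 * B + Q ^ 2)
  have j4 := iG.const_mul (Q ^ 2)
  have iu : Integrable u := ((j1.add j2).add j3).add j4
  have pw : ∀ x, Real.exp (2 * a * p x) * (f x ^ 2 + ‖G x‖ ^ 2) ≤ u x := fun x => by
    have hexp : Real.exp (2 * a * p x) = Real.exp (a * p x) ^ 2 := by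
      rw [← Real.exp_nat_mul]; congr 1; push_cast; ring
    rw [hexp]
    by_cases hx : S < ‖x‖
    · have hψx : ψ x = Real.exp (a * p x) := by simp [hψ, hθ1 x hx]
      rw [← hψx]
      have h1 : ψ x • G x = K x - f x • ∇ ψ x := by simp [hKdef]
      have h2 : ψ x * ‖G x‖ ≤ ‖K x‖ + |f x| * ‖∇ ψ x‖ := by
        have h3 : ‖ψ x • G x‖ ≤ ‖K x‖ + ‖f x • ∇ ψ x‖ := by rw [h1]; exact norm_sub_le _ _
        rwa [norm_smul, norm_smul, Real.norm_of_nonneg (hψ0 x), Real.norm_eq_abs] at h3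
      have h4 : (ψ x * ‖G x‖) ^ 2 ≤ (‖K x‖ + |f x| * ‖∇ ψ x‖) ^ 2 :=
        pow_le_pow_left₀ (mul_nonneg (hψ0 x) (norm_nonneg _)) h2 2
      have h5 : (‖K x‖ + |f x| * ‖∇ ψ x‖) ^ 2 ≤ 2 * ‖K x‖ ^ 2 + 2 * (f x ^ 2 * ‖∇ ψ x‖ ^ 2) := by
        have h6 : (|f x| * ‖∇ ψ x‖) ^ 2 = f x ^ 2 * ‖∇ ψ x‖ ^ 2 := by rw [mul_pow, sq_abs]
        nlinarith [sq_nonneg (‖K x‖ - |f x| * ‖∇ ψ x‖)]
      have h7 := mul_le_mul_of_nonneg_left (hψd2 x) (sq_nonneg (f x))
      have h8 : 0 ≤ Q ^ 2 * f x ^ 2 := by positivity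
      have h9 : 0 ≤ Q ^ 2 * ‖G x‖ ^ 2 := by positivity
      simp only [hu, hgdef]
      nlinarith
    · have h1 : Real.exp (a * p x) ≤ Q :=
        Real.exp_le_exp.2 (mul_le_mul_of_nonneg_left (hpW x (not_lt.1 hx)) ha.le)
      have h2 : Real.exp (a * p x) ^ 2 ≤ Q ^ 2 := pow_le_pow_left₀ (Real.exp_pos _).le h1 2
      have h3 := mul_le_mul_of_nonneg_right h2 (by positivity : 0 ≤ f x ^ 2 + ‖G x‖ ^ 2)
      have h4 : 0 ≤ (1 + 2 * γ) * g x ^ 2 := by positivity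
      have h5 : 0 ≤ 2 * ‖K x‖ ^ 2 := by positivity
      have h6 : 0 ≤ 4 * B * f x ^ 2 := by positivity
      simp only [hu]
      linarith
  have u0 : ∀ x, 0 ≤ u x := fun x => le_trans (by positivity) (pw x)
  have eu : ∫ x, u x ≤ (1 + 6 * γ + 10 * |C₀|) * N₁ + 12 * B + Q ^ 2 * (1 + 5 * |C₀|) := by
    have : ∫ x, u x = (1 + 2 * γ) * nsq g + 2 * (∫ x, ‖K x‖ ^ 2) + (4 * B + Q ^ 2) * nsq f +
        Q ^ 2 * ∫ x, ‖G x‖ ^ 2 := by
      simp only [hu]
      have j12 : Integrable fun x => (1 + 2 * γ) * g x ^ 2 + 2 * ‖K x‖ ^ 2 := j1.add j2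
      have j123 : Integrable fun x => (1 + 2 * γ) * g x ^ 2 + 2 * ‖K x‖ ^ 2 + (4 * B + Q ^ 2) * f x ^ 2 :=
        j12.add j3
      rw [integral_add j123 j4, integral_add j12 j3, integral_add j1 j2,
        integral_const_mul, integral_const_mul, integral_const_mul, integral_const_mul]
      rfl
    rw [this]
    have h1 : (1 + 2 * γ) * nsq g ≤ (1 + 2 * γ) * N₁ := mul_le_mul_of_nonneg_left e3 (by positivity)
    have h2 : (4 * B + Q ^ 2) * nsq f ≤ (4 * B + Q ^ 2) * 1 := mul_le_mul_of_nonneg_left hn (by positivity)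
    have h3 : Q ^ 2 * ∫ x, ‖G x‖ ^ 2 ≤ Q ^ 2 * (5 * |C₀|) := mul_le_mul_of_nonneg_left e6 (by positivity)
    nlinarith
  calc ∫⁻ x, ENNReal.ofReal (Real.exp (2 * a * p x) * (f x ^ 2 + ‖G x‖ ^ 2))
      ≤ ∫⁻ x, ENNReal.ofReal (u x) := lintegral_mono fun x => ENNReal.ofReal_le_ofReal (pw x)
    _ = ENNReal.ofReal (∫ x, u x) :=
        (ofReal_integral_eq_lintegral_ofReal iu (Eventually.of_forall u0)).symm
    _ ≤ _ := ENNReal.ofReal_le_ofReal eu

/-- the smooth version of the norm -/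
noncomputable def s14_w (x : E) : ℝ := √(1 + ‖x‖ ^ 2)

omit [FiniteDimensional ℝ E] [MeasurableSpace E] [BorelSpace E] in
theorem s14_w_smooth : ContDiff ℝ 1 (s14_w : E → ℝ) :=
  (contDiff_const.add (contDiff_norm_sq ℝ)).sqrt fun x => by positivity

omit [InnerProductSpace ℝ E] [FiniteDimensional ℝ E] [MeasurableSpace E] [BorelSpace E] in
theorem s14_w_ge (x : E) : ‖x‖ ≤ s14_w x :=
  Real.le_sqrt_of_sq_le (by linarith)

omit [InnerProductSpace ℝ E] [FiniteDimensional ℝ E] [MeasurableSpace E] [BorelSpace E] in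
theorem s14_w_le (x : E) : s14_w x ≤ 1 + ‖x‖ :=
  Real.sqrt_le_iff.2 ⟨by positivity, by nlinarith [norm_nonneg x]⟩

omit [InnerProductSpace ℝ E] [FiniteDimensional ℝ E] [MeasurableSpace E] [BorelSpace E] in
theorem s14_w_pos (x : E) : 0 < s14_w x := Real.sqrt_pos.2 (by positivity)

omit [FiniteDimensional ℝ E] [MeasurableSpace E] [BorelSpace E] in
theorem s14_w_d (x : E) : ‖fderiv ℝ (s14_w : E → ℝ) x‖ ≤ 1 := by
  have d1 : HasFDerivAt (fun y : E => 1 + ‖y‖ ^ 2) (2 • innerSL ℝ x) x :=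
    (hasStrictFDerivAt_norm_sq x).hasFDerivAt.const_add 1
  have d2 : HasFDerivAt (s14_w : E → ℝ) ((1 / (2 * √(1 + ‖x‖ ^ 2))) • (2 • innerSL ℝ x)) x :=
    d1.sqrt (by positivity)
  rw [d2.fderiv, norm_smul]
  have h1 : ‖(2 • innerSL ℝ x : E →L[ℝ] ℝ)‖ ≤ 2 * ‖x‖ := by
    rw [two_smul]
    refine (norm_add_le _ _).trans ?_
    rw [innerSL_apply_norm]; linarith
  have hw := s14_w_pos x
  have h2 := s14_w_ge x
  unfold s14_w at hw h2
  rw [Real.norm_of_nonneg (by positivity)]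
  calc 1 / (2 * √(1 + ‖x‖ ^ 2)) * ‖(2 • innerSL ℝ x : E →L[ℝ] ℝ)‖
      ≤ 1 / (2 * √(1 + ‖x‖ ^ 2)) * (2 * √(1 + ‖x‖ ^ 2)) :=
        mul_le_mul_of_nonneg_left (by linarith) (by positivity)
    _ = 1 := by field_simp

/-- bounded truncations -/
noncomputable def s14_p (t : ℝ) (x : E) : ℝ := s14_w x - s14_w x ^ 2 / (t + s14_w x)

omit [InnerProductSpace ℝ E] [FiniteDimensional ℝ E] [MeasurableSpace E] [BorelSpace E] in
theorem s14_p_eq {t : ℝ} (ht : 0 ≤ t) (x : E) : s14_p t x = t - t ^ 2 * (t + s14_w x)⁻¹ := by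
  have := s14_w_pos x
  unfold s14_p
  field_simp
  ring

omit [FiniteDimensional ℝ E] [MeasurableSpace E] [BorelSpace E] in
theorem s14_p_smooth {t : ℝ} (ht : 0 ≤ t) : ContDiff ℝ 1 (s14_p t : E → ℝ) :=
  s14_w_smooth.sub ((s14_w_smooth.pow 2).div (contDiff_const.add s14_w_smooth) fun x => by
    have := s14_w_pos x; positivity)

omit [FiniteDimensional ℝ E] [MeasurableSpace E] [BorelSpace E] in
theorem s14_p_d {t : ℝ} (ht : 0 ≤ t) (x : E) : ‖fderiv ℝ (s14_p t : E → ℝ) x‖ ≤ 1 := by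
  have hw := s14_w_pos x
  have d1 : HasFDerivAt (s14_w : E → ℝ) (fderiv ℝ s14_w x) x :=
    (s14_w_smooth.differentiable one_ne_zero x).hasFDerivAt
  have d0 : HasDerivAt (fun s : ℝ => t - t ^ 2 * (t + s)⁻¹) (t ^ 2 / (t + s14_w x) ^ 2) (s14_w x) := by
    have h1 : HasDerivAt (fun s : ℝ => t + s) 1 (s14_w x) := (hasDerivAt_id _).const_add t
    have h2 : HasDerivAt (fun s : ℝ => t - t ^ 2 * (t + s)⁻¹) (-(t ^ 2 * (-1 / (t + s14_w x) ^ 2))) (s14_w x) :=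
      ((h1.inv (by positivity)).const_mul (t ^ 2)).const_sub t
    refine h2.congr_deriv ?_
    ring
  have d2 := d0.comp_hasFDerivAt x d1
  have : (s14_p t : E → ℝ) = (fun s : ℝ => t - t ^ 2 * (t + s)⁻¹) ∘ s14_w := by
    funext y; exact s14_p_eq ht y
  rw [this, d2.fderiv, norm_smul, Real.norm_of_nonneg (by positivity)]
  have h3 : t ^ 2 / (t + s14_w x) ^ 2 ≤ 1 := by
    rw [div_le_one (by positivity)]
    nlinarith
  exact mul_le_one₀ h3 (norm_nonneg _) (s14_w_d x)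

omit [InnerProductSpace ℝ E] [FiniteDimensional ℝ E] [MeasurableSpace E] [BorelSpace E] in
theorem s14_p_le {t : ℝ} (ht : 0 ≤ t) (x : E) : s14_p t x ≤ t ∧ s14_p t x ≤ 1 + ‖x‖ := by
  have hw := s14_w_pos x
  constructor
  · rw [s14_p_eq ht]
    have : 0 ≤ t ^ 2 * (t + s14_w x)⁻¹ := by positivity
    linarith
  · have h1 := s14_w_le x
    have : 0 ≤ s14_w x ^ 2 / (t + s14_w x) := by positivity
    unfold s14_p; linarith

omit [InnerProductSpace ℝ E] [FiniteDimensional ℝ E] [MeasurableSpace E] [BorelSpace E] in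
theorem s14_p_lim (x : E) : Tendsto (fun n : ℕ => s14_p (n : ℝ) x) atTop (𝓝 (s14_w x)) := by
  have h1 : Tendsto (fun n : ℕ => (n : ℝ) + s14_w x) atTop atTop :=
    tendsto_atTop_add_const_right _ _ tendsto_natCast_atTop_atTop
  have h2 := (tendsto_const_nhds (x := s14_w x ^ 2)).div_atTop h1
  simpa [s14_p] using (tendsto_const_nhds (x := s14_w x)).sub h2

/-- `Eig.loc` with `χ = θ(‖x‖ / R) exp(a' min-like(⟨x⟩, n))` (smooth bounded truncations of the weight).  The constants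
depend only on the listed data. -/
theorem agmon (γ R C₀ : ℝ) (hγ : 0 < γ) (hR : 0 < R) : ∃ a C : ℝ, 0 < a ∧ 0 ≤ C ∧
    ∀ (V f : E → ℝ) (G : E → E) (e : ℝ), FB V → Eig V e f G → nsq f ≤ 1 → e ≤ C₀ →
      (∀ g K, H1 g K → ∫ x, ‖K x‖ ^ 2 ≤ 4 * qf V g K + C₀ * nsq g) →
      (∀ g K, H1 g K → (∀ᵐ x, ‖x‖ ≤ R → g x = 0) → (e + γ) * nsq g ≤ qf V g K) →
      Integrable (fun x => Real.exp (2 * a * ‖x‖) * (f x ^ 2 + ‖G x‖ ^ 2)) ∧
        ∫ x, Real.exp (2 * a * ‖x‖) * (f x ^ 2 + ‖G x‖ ^ 2) ≤ C := by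
  obtain ⟨M, hM, hcut⟩ := exists_cut (E := E)
  obtain ⟨χ, hχ, h01, h1, hd⟩ := hcut 0 (2 * R) (by positivity)
  set a := √(γ / 2) with ha
  have ha0 : 0 < a := Real.sqrt_pos.2 (by positivity)
  have ha2 : a ^ 2 = γ / 2 := Real.sq_sqrt (by positivity)
  set Mθ := M / (2 * R) with hMθ
  have hM0 : 0 ≤ Mθ := by positivity
  set S := 2 * (2 * R) with hS
  set C := (1 + 6 * γ + 10 * |C₀|) * (2 * (Real.exp (a * (1 + S)) * Mθ) ^ 2 / γ) +
        12 * (Real.exp (a * (1 + S)) * Mθ) ^ 2 + Real.exp (a * (1 + S)) ^ 2 * (1 + 5 * |C₀|) with hC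
  have hC0 : 0 ≤ C := by positivity
  refine ⟨a, C, ha0, hC0, fun V f G e hV hf hn he hk hgap => ?_⟩
  have hc1 : ContDiff ℝ 1 χ := hχ.sm.of_le (by exact_mod_cast le_top)
  have hout : ∀ x : E, S < ‖x‖ → x ∉ tsupport χ := fun x hx h => by
    have := hχ.sub h
    rw [mem_closedBall_zero_iff] at this
    linarith
  have hfd : ∀ x, fderiv ℝ (fun y => 1 - χ y) x = -fderiv ℝ χ x := fun x => fderiv_const_sub 1
  have key : ∀ n : ℕ, ∫⁻ x, ENNReal.ofReal (Real.exp (2 * a * s14_p (n : ℝ) x) * (f x ^ 2 + ‖G x‖ ^ 2)) ≤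
      ENNReal.ofReal C := fun n =>
    s14_core (θ := fun y => 1 - χ y) (S := S) (N := n) hγ ha0 ha2 hM0 (contDiff_const.sub hc1)
      (fun x => ⟨by linarith [(h01 x).2], by linarith [(h01 x).1]⟩)
      (fun x hx => by rw [h1 x (by rw [mem_ball_zero_iff]; linarith)]; ring)
      (fun x hx => by rw [image_eq_zero_of_notMem_tsupport (hout x hx)]; ring)
      (fun x => by rw [hfd, norm_neg, ← s14_grad_norm]; exact hd x)
      (fun x hx => by
        rw [hfd, neg_eq_zero]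
        exact image_eq_zero_of_notMem_tsupport fun h => hout x hx (tsupport_fderiv_subset ℝ h))
      (s14_p_smooth (Nat.cast_nonneg n)) (s14_p_d (Nat.cast_nonneg n))
      (fun x => (s14_p_le (Nat.cast_nonneg n) x).1)
      (fun x hx => by linarith [(s14_p_le (Nat.cast_nonneg n) x).2]) hV hf hn he hk hgap
  have m0 : AEStronglyMeasurable (fun x => f x ^ 2 + ‖G x‖ ^ 2) volume :=
    (hf.h1.int_sq.add hf.h1.int_grad_sq).aestronglyMeasurable
  have mn : ∀ n : ℕ, AEMeasurable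
      (fun x => ENNReal.ofReal (Real.exp (2 * a * s14_p (n : ℝ) x) * (f x ^ 2 + ‖G x‖ ^ 2))) volume := fun n => by
    have hc : Continuous fun x : E => Real.exp (2 * a * s14_p (n : ℝ) x) :=
      Real.continuous_exp.comp (continuous_const.mul (s14_p_smooth (Nat.cast_nonneg n)).continuous)
    exact (hc.aestronglyMeasurable.mul m0).aemeasurable.ennreal_ofReal
  have fat := lintegral_liminf_le' (u := atTop) mn
  have lim : ∀ x, liminf (fun n : ℕ =>
      ENNReal.ofReal (Real.exp (2 * a * s14_p (n : ℝ) x) * (f x ^ 2 + ‖G x‖ ^ 2))) atTop =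
      ENNReal.ofReal (Real.exp (2 * a * s14_w x) * (f x ^ 2 + ‖G x‖ ^ 2)) := fun x =>
    (ENNReal.tendsto_ofReal (((Real.continuous_exp.tendsto _).comp
      ((s14_p_lim x).const_mul (2 * a))).mul_const _)).liminf_eq
  simp only [lim] at fat
  have fin : ∫⁻ x, ENNReal.ofReal (Real.exp (2 * a * ‖x‖) * (f x ^ 2 + ‖G x‖ ^ 2)) ≤ ENNReal.ofReal C := by
    refine le_trans (lintegral_mono fun x => ENNReal.ofReal_le_ofReal ?_) (fat.trans ?_)
    · exact mul_le_mul_of_nonneg_right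
        (Real.exp_le_exp.2 (mul_le_mul_of_nonneg_left (s14_w_ge x) (by positivity))) (by positivity)
    · exact liminf_le_of_frequently_le' (Frequently.of_forall key)
  have hc : Continuous fun x : E => Real.exp (2 * a * ‖x‖) := by fun_prop
  have nn : 0 ≤ᵐ[volume] fun x : E => Real.exp (2 * a * ‖x‖) * (f x ^ 2 + ‖G x‖ ^ 2) :=
    Eventually.of_forall fun x => by positivity
  have int : Integrable fun x : E => Real.exp (2 * a * ‖x‖) * (f x ^ 2 + ‖G x‖ ^ 2) :=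
    ⟨hc.aestronglyMeasurable.mul m0,
      (hasFiniteIntegral_iff_ofReal nn).2 (fin.trans_lt ENNReal.ofReal_lt_top)⟩
  refine ⟨int, ?_⟩
  rw [← ofReal_integral_eq_lintegral_ofReal int nn] at fin
  exact (ENNReal.ofReal_le_ofReal_iff hC0).1 fin

/-- finite rank forms are small far out -/
theorem finite_rank_far {n : ℕ} {a : Fin n → E → ℝ} (ha : ∀ i, MemLp (a i) 2 volume) {ε : ℝ} (hε : 0 < ε) :
    ∃ R : ℝ, 0 < R ∧ ∀ g : E → ℝ, MemLp g 2 volume → (∀ᵐ x, ‖x‖ ≤ R → g x = 0) →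
      ∑ i, ip (a i) g ^ 2 ≤ ε * nsq g := by
  have ia : ∀ i, Integrable fun x => a i x ^ 2 := fun i => (ha i).integrable_sq
  set s : ℕ → Set E := fun k => {x | (k : ℝ) < ‖x‖} with hs
  have ms : ∀ k, MeasurableSet (s k) := fun k => (isOpen_lt continuous_const continuous_norm).measurableSet
  have anti : Antitone s := fun k l hkl x hx => by
    have : (k : ℝ) ≤ l := by exact_mod_cast hkl
    exact lt_of_le_of_lt this hx
  have emp : ⋂ k, s k = ∅ := by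
    rw [eq_empty_iff_forall_notMem]
    intro x hx
    obtain ⟨k, hk⟩ := exists_nat_gt ‖x‖
    exact absurd (mem_iInter.1 hx k) (not_lt.2 hk.le)
  have lim : ∀ i, Tendsto (fun k => ∫ x in s k, a i x ^ 2) atTop (𝓝 0) := fun i => by
    have := tendsto_setIntegral_of_antitone ms anti ⟨0, (ia i).integrableOn⟩
    simpa [emp] using this
  have lim2 : Tendsto (fun k => ∑ i, ∫ x in s k, a i x ^ 2) atTop (𝓝 0) := by
    simpa using tendsto_finsetSum Finset.univ fun i _ => lim i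
  obtain ⟨k, hk1, hk2⟩ := ((lim2.eventually (gt_mem_nhds hε)).and (eventually_ge_atTop 1)).exists
  refine ⟨k, by exact_mod_cast hk2, fun g hg h0 => ?_⟩
  have e1 : ∀ i, ip (a i) g ^ 2 ≤ (∫ x in s k, a i x ^ 2) * nsq g := fun i => by
    have h1 : ip (a i) g = ip ((s k).indicator (a i)) g := by
      refine integral_congr_ae ?_
      filter_upwards [h0] with x hx
      by_cases h : x ∈ s k
      · simp [indicator_of_mem h]
      · simp [hx (not_lt.1 h)]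
    have h2 : nsq ((s k).indicator (a i)) = ∫ x in s k, a i x ^ 2 := by
      rw [← integral_indicator (ms k)]
      refine integral_congr_ae (Eventually.of_forall fun x => ?_)
      by_cases h : x ∈ s k <;> simp [h]
    rw [h1, ← h2]
    exact ip_sq_le ((ha i).indicator (ms k)) hg
  calc ∑ i, ip (a i) g ^ 2 ≤ ∑ i, (∫ x in s k, a i x ^ 2) * nsq g := Finset.sum_le_sum fun i _ => e1 i
    _ = (∑ i, ∫ x in s k, a i x ^ 2) * nsq g := (Finset.sum_mul ..).symm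
    _ ≤ ε * nsq g := mul_le_mul_of_nonneg_right hk1.le nsq_nonneg

end Crest.Agent.R335
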