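import Crest.Agent.R335.S15a

/-!
# R335/S15: the Coulomb potentials on `ℝ⁶` and `ℝ⁹`
-/

set_option autoImplicit false

namespace Crest.Agent.R335

open MeasureTheory Set Filter Topology
open scoped Gradient RealInnerProductSpace ENNReal ContDiff
open Crest.MathPhysics.ThreeBody

theorem s15_fb_of_hardy {E : Type} [NormedAddCommGroup E] [InnerProductSpace ℝ E] [FiniteDimensional ℝ E]
    [MeasurableSpace E] [BorelSpace E] {r : E → ℝ} (hr : Continuous r)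
    (h : ∀ f G, H1 f G → Integrable (fun x => f x ^ 2 / r x ^ 2) ∧
      ∫ x, f x ^ 2 / r x ^ 2 ≤ 4 * ∫ x, ‖G x‖ ^ 2) : FB fun x => 1 / r x := by
  have hm : AEStronglyMeasurable (fun x => 1 / r x) volume :=
    (measurable_const.div hr.measurable).aestronglyMeasurable
  have key : ∀ δ : ℝ, 0 < δ → ∀ a b : ℝ, |1 / a| * b ^ 2 ≤ δ * (b ^ 2 / a ^ 2) + 1 / (4 * δ) * b ^ 2 := by
    intro δ hδ a b
    have e : b ^ 2 / a ^ 2 = |1 / a| ^ 2 * b ^ 2 := by
      rw [sq_abs, div_pow, one_pow]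
      ring
    have h1 : |1 / a| ≤ δ * |1 / a| ^ 2 + 1 / (4 * δ) := by
      have h2 : 0 ≤ (2 * δ * |1 / a| - 1) ^ 2 / (4 * δ) := by positivity
      have h3 : (2 * δ * |1 / a| - 1) ^ 2 / (4 * δ) = δ * |1 / a| ^ 2 + 1 / (4 * δ) - |1 / a| := by
        field_simp
        ring
      linarith
    rw [e]
    nlinarith [mul_le_mul_of_nonneg_right h1 (sq_nonneg b)]
  have hint : ∀ f G, H1 f G → Integrable fun x => 1 / r x * f x ^ 2 := by
    intro f G hf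
    refine (((h f G hf).1.const_mul 1).add (hf.int_sq.const_mul (1 / (4 * 1)))).mono'
      (hm.mul hf.int_sq.1) (Eventually.of_forall fun x => ?_)
    rw [Real.norm_eq_abs, abs_mul, abs_of_nonneg (sq_nonneg (f x))]
    exact key 1 one_pos _ _
  refine ⟨hm, hint, fun ε hε => ⟨1 / (4 * (ε / 4)), by positivity, fun f G hf => ?_⟩⟩
  have i1 : Integrable fun x => |1 / r x| * f x ^ 2 := by
    refine (hint f G hf).abs.congr (Eventually.of_forall fun x => ?_)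
    simp only [abs_mul, abs_of_nonneg (sq_nonneg (f x))]
  have i2 := (h f G hf).1.const_mul (ε / 4)
  have i3 := hf.int_sq.const_mul (1 / (4 * (ε / 4)))
  have h1 : ∫ x, |1 / r x| * f x ^ 2 ≤
      ∫ x, (ε / 4 * (f x ^ 2 / r x ^ 2) + 1 / (4 * (ε / 4)) * f x ^ 2) :=
    integral_mono i1 (i2.add i3) fun x => key _ (by positivity) _ _
  rw [integral_add i2 i3, integral_const_mul, integral_const_mul] at h1
  have h2 := mul_le_mul_of_nonneg_left (h f G hf).2 (by positivity : 0 ≤ ε / 4)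
  simp only [nsq]
  linarith

theorem s15_cont_pos2 (i : Fin 2) : Continuous (pos2 i) := by
  obtain ⟨s, h, -⟩ := exists_spl2 i
  exact s.p1.continuous.congr h

theorem s15_cont_elPos (i : Fin 3) : Continuous (elPos i : E9 → E3) := by
  obtain ⟨s, h, -⟩ := exists_spl3 i
  exact s.p1.continuous.congr h

theorem s15_kin {E : Type} [NormedAddCommGroup E] [InnerProductSpace ℝ E] [FiniteDimensional ℝ E]
    [MeasurableSpace E] [BorelSpace E] {V : E → ℝ} (hV : FB V) : ∃ C : ℝ, 0 ≤ C ∧ ∀ W : E → ℝ, FB W →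
      (∀ x, V x ≤ W x) → ∀ f G, H1 f G → ∫ y, ‖G y‖ ^ 2 ≤ 4 * qf W f G + C * nsq f := by
  obtain ⟨C, hC, h⟩ := hV.kin_le
  refine ⟨C, hC, fun W hW hle f G hf => (h f G hf).trans ?_⟩
  have h1 : ∫ x, V x * f x ^ 2 ≤ ∫ x, W x * f x ^ 2 :=
    integral_mono (hV.int f G hf) (hW.int f G hf) fun x => mul_le_mul_of_nonneg_right (hle x) (sq_nonneg _)
  simp only [qf]
  linarith

theorem fb_V1 (D : ℝ) : FB (V1 D) := by
  exact FB.of_sumClass (sumClass_V1 D)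

theorem fb_rep2 : FB fun y : E6 => 1 / ‖pos2 0 y - pos2 1 y‖ := by
  exact s15_fb_of_hardy ((s15_cont_pos2 0).sub (s15_cont_pos2 1)).norm fun f G hf => hardy2' hf

theorem fb_rep3 {i j : Fin 3} (h : i ≠ j) : FB fun X : E9 => 1 / ‖elPos i X - elPos j X‖ := by
  exact s15_fb_of_hardy ((s15_cont_elPos i).sub (s15_cont_elPos j)).norm fun f G hf => hardy3 hf h

theorem fb_pos2 {v : E3 → ℝ} (hv : FB v) (i : Fin 2) : FB fun y : E6 => v (pos2 i y) := by
  obtain ⟨s, h, -⟩ := exists_spl2 i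
  simpa only [h] using FB.comp_p1 s hv

theorem fb_elPos {v : E3 → ℝ} (hv : FB v) (i : Fin 3) : FB fun X : E9 => v (elPos i X) := by
  obtain ⟨s, h, -⟩ := exists_spl3 i
  simpa only [h] using FB.comp_p1 s hv

theorem fb_V2 (D Z : ℝ) : FB (V2 D Z) := by
  exact ((fb_pos2 (fb_V1 D) 0).add (fb_pos2 (fb_V1 D) 1)).add (fb_rep2.const_mul Z⁻¹)

theorem fb_V3 (D Z : ℝ) : FB (V3 D Z) := by
  exact (((fb_elPos (fb_V1 D) 0).add (fb_elPos (fb_V1 D) 1)).add (fb_elPos (fb_V1 D) 2)).add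
    ((((fb_rep3 (i := 0) (j := 1) (by decide)).add (fb_rep3 (i := 0) (j := 2) (by decide))).add
      (fb_rep3 (i := 1) (j := 2) (by decide))).const_mul Z⁻¹)

theorem fb_Wx (Z : ℝ) (x : E3) : FB (Wx Z x) := by
  have h : ∀ i : Fin 2, FB fun y : E6 => 1 / ‖x - pos2 i y‖ := fun i =>
    s15_fb_of_hardy (continuous_const.sub (s15_cont_pos2 i)).norm fun f G hf => hardy2 hf i x
  exact ((h 0).add (h 1)).const_mul Z⁻¹

/-- uniform control of the kinetic energy (the repulsion is nonnegative) -/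
theorem kin_le_V2 (D : ℝ) : ∃ C : ℝ, 0 ≤ C ∧ ∀ Z : ℝ, 0 < Z → ∀ f G, H1 f G →
    ∫ y, ‖G y‖ ^ 2 ≤ 4 * qf (V2 D Z) f G + C * nsq f := by
  obtain ⟨C, hC, h⟩ := s15_kin ((fb_pos2 (fb_V1 D) 0).add (fb_pos2 (fb_V1 D) 1))
  refine ⟨C, hC, fun Z hZ => h _ (fb_V2 D Z) fun y => le_add_of_nonneg_right ?_⟩
  positivity

theorem kin_le_V3 (D : ℝ) : ∃ C : ℝ, 0 ≤ C ∧ ∀ Z : ℝ, 0 < Z → ∀ f G, H1 f G →
    ∫ y, ‖G y‖ ^ 2 ≤ 4 * qf (V3 D Z) f G + C * nsq f := by
  obtain ⟨C, hC, h⟩ := s15_kin (((fb_elPos (fb_V1 D) 0).add (fb_elPos (fb_V1 D) 1)).add (fb_elPos (fb_V1 D) 2))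
  refine ⟨C, hC, fun Z hZ => h _ (fb_V3 D Z) fun y => le_add_of_nonneg_right ?_⟩
  positivity

end Crest.Agent.R335
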