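import Crest.Agent.R335.Geoc

/-!
# R335/Geo: elementary geometry of `ℝ³`, concrete splittings of `ℝ⁶` and `ℝ⁹`
-/

set_option autoImplicit false

namespace Crest.Agent.R335

open MeasureTheory Set Filter Topology
open scoped Gradient RealInnerProductSpace ENNReal ContDiff
open Crest.MathPhysics.ThreeBody

theorem geo_measurable_pos2 (i : Fin 2) : Measurable (pos2 i) := by
  unfold pos2
  fun_prop

theorem geo_measurable_elPos (i : Fin 3) : Measurable (elPos i) := by
  unfold elPos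
  fun_prop

theorem geo_norm_sub (x : E3) (c : ℝ) :
    ‖x - EuclideanSpace.single 2 c‖ ^ 2 = ‖x‖ ^ 2 - 2 * (c * x 2) + c ^ 2 := by
  rw [norm_sub_sq_real, EuclideanSpace.inner_single_right, PiLp.norm_single, Real.norm_eq_abs, sq_abs]
  simp

theorem measurable_V1 (D : ℝ) : Measurable (V1 D) := by
  unfold V1
  fun_prop

theorem measurable_V2 (D Z : ℝ) : Measurable (V2 D Z) := by
  have h0 := geo_measurable_pos2 0
  have h1 := geo_measurable_pos2 1
  exact (((measurable_V1 D).comp h0).add ((measurable_V1 D).comp h1)).add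
    (((h0.sub h1).norm.const_div 1).const_mul _)

theorem measurable_V3 (D Z : ℝ) : Measurable (V3 D Z) := by
  have h0 := geo_measurable_elPos 0
  have h1 := geo_measurable_elPos 1
  have h2 := geo_measurable_elPos 2
  exact ((((measurable_V1 D).comp h0).add ((measurable_V1 D).comp h1)).add ((measurable_V1 D).comp h2)).add
    (((((h0.sub h1).norm.const_div 1).add ((h0.sub h2).norm.const_div 1)).add
      ((h1.sub h2).norm.const_div 1)).const_mul _)

theorem V1_sym (D : ℝ) {T : E3 ≃ₗᵢ[ℝ] E3} (h : Sym T) (x : E3) : V1 D (T x) = V1 D x := by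
  have key : ∀ c c' : ℝ, c ^ 2 = c' ^ 2 → c * T x 2 = c' * x 2 →
      ‖T x - EuclideanSpace.single 2 c‖ = ‖x - EuclideanSpace.single 2 c'‖ := fun c c' h1 h2 => by
    rw [← sq_eq_sq₀ (norm_nonneg _) (norm_nonneg _), geo_norm_sub, geo_norm_sub, T.norm_map, h1, h2]
  unfold V1
  rcases h with h | h
  · rw [key D D rfl (by rw [h x]), key (-D) (-D) rfl (by rw [h x])]
  · rw [key D (-D) (by ring) (by rw [h x]; ring), key (-D) D (by ring) (by rw [h x]; ring)]
    ring

theorem V3_at0 (D Z : ℝ) (x : E3) (y : E6) : V3 D Z (at0 x y) = V1 D x + V2 D Z y + Wx Z x y := by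
  simp only [V3, V2, Wx, at0, elPos_mk3_0, elPos_mk3_1, elPos_mk3_2]
  ring

theorem V3_at2 (D Z : ℝ) (x : E3) (y : E6) : V3 D Z (at2 x y) = V1 D x + V2 D Z y + Wx Z x y := by
  simp only [V3, V2, Wx, at2, elPos_mk3_0, elPos_mk3_1, elPos_mk3_2]
  rw [norm_sub_rev (pos2 0 y) x, norm_sub_rev (pos2 1 y) x]
  ring

/-- expansion of the nuclear potential -/
theorem V1_expand {D : ℝ} (hD : 0 ≤ D) {x : E3} (hx : D + 1 ≤ ‖x‖) :
    |V1 D x + 2 / ‖x‖| ≤ 2 * D * (D + 1) / ‖x‖ ^ 2 ∧ |V1 D x| ≤ 2 := by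
  have key : ∀ c : ℝ, |c| = D → |1 / ‖x - EuclideanSpace.single 2 c‖ - 1 / ‖x‖| ≤ D * (D + 1) / ‖x‖ ^ 2 ∧
      |1 / ‖x - EuclideanSpace.single 2 c‖| ≤ 1 := fun c hc => by
    have h1 : |‖x‖ - ‖x - EuclideanSpace.single 2 c‖| ≤ D := by
      refine (abs_norm_sub_norm_le _ _).trans ?_
      rw [sub_sub_cancel, PiLp.norm_single, Real.norm_eq_abs, hc]
    generalize ‖x - EuclideanSpace.single 2 c‖ = a at h1
    generalize ‖x‖ = r at h1 hx
    have ha : r - D ≤ a := by linarith [(abs_le.1 h1).2]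
    have ha1 : 1 ≤ a := by linarith
    have hr : 0 < r := by linarith
    have ha0 : 0 < a := by linarith
    constructor
    · rw [div_sub_div _ _ ha0.ne' hr.ne', one_mul, mul_one, abs_div, abs_of_pos (mul_pos ha0 hr),
        div_le_div_iff₀ (mul_pos ha0 hr) (by positivity)]
      have h2 : r ≤ (D + 1) * a := by nlinarith
      calc |r - a| * r ^ 2 ≤ D * (r * r) := by rw [sq]; gcongr
        _ ≤ D * ((D + 1) * a * r) := by gcongr
        _ = D * (D + 1) * (a * r) := by ring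
    · rw [abs_of_pos (by positivity), div_le_one ha0]
      exact ha1
  obtain ⟨a1, a2⟩ := key D (abs_of_nonneg hD)
  obtain ⟨b1, b2⟩ := key (-D) (by rw [abs_neg, abs_of_nonneg hD])
  have e : 2 / ‖x‖ = 2 * (1 / ‖x‖) := by ring
  have e' : 2 * D * (D + 1) / ‖x‖ ^ 2 = 2 * (D * (D + 1) / ‖x‖ ^ 2) := by ring
  rw [abs_le] at a1 a2 b1 b2
  unfold V1
  rw [abs_le, abs_le, e, e', neg_div]
  exact ⟨⟨by linarith [a1.2, b1.2], by linarith [a1.1, b1.1]⟩, by linarith [a2.2, b2.2], by linarith [a2.1, b2.1]⟩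

end Crest.Agent.R335
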