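import Crest.Agent.R335.S6
import Crest.Agent.R335.Geo

/-!
# R335/S7: the axis is removable; odd functions; half spaces (all in `ℝ³`)
-/

set_option autoImplicit false

namespace Crest.Agent.R335

open MeasureTheory Set Filter Topology
open scoped Gradient RealInnerProductSpace ENNReal ContDiff
open Crest.MathPhysics.ThreeBody

variable {f : E3 → ℝ} {G : E3 → E3}

theorem s7a_small {h : E3 → ℝ} (hh : Integrable h) {S : ℕ → Set E3} (hS : ∀ n, MeasurableSet (S n))
    (h0 : ∀ᵐ x, ∀ᶠ n in atTop, x ∉ S n) : Tendsto (fun n => ∫ x in S n, h x) atTop (𝓝 0) := by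
  have h1 := tendsto_integral_of_dominated_convergence (μ := volume) (F := fun n => (S n).indicator h)
    (f := fun _ => (0 : ℝ)) (fun x => ‖h x‖) (fun n => hh.1.indicator (hS n)) hh.norm
    (fun n => Eventually.of_forall fun x => norm_indicator_le_norm_self h x) (by
      filter_upwards [h0] with x hx
      refine tendsto_const_nhds.congr' ?_
      filter_upwards [hx] with n hn
      rw [indicator_of_notMem hn])
  simpa only [integral_indicator (hS _), integral_zero] using h1

theorem s7a_theta : ∃ L : ℝ, 0 ≤ L ∧ (∀ t, |deriv Real.smoothTransition t| ≤ L) ∧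
    ∀ t, t < 0 ∨ 1 < t → deriv Real.smoothTransition t = 0 := by
  have h0 : ∀ t, t < 0 ∨ 1 < t → deriv Real.smoothTransition t = 0 := by
    rintro t (ht | ht)
    · have : Real.smoothTransition =ᶠ[𝓝 t] fun _ => 0 := by
        filter_upwards [Iio_mem_nhds ht] with s hs using Real.smoothTransition.zero_of_nonpos (le_of_lt hs)
      rw [this.deriv_eq, deriv_const]
    · have : Real.smoothTransition =ᶠ[𝓝 t] fun _ => 1 := by
        filter_upwards [Ioi_mem_nhds ht] with s hs using Real.smoothTransition.one_of_one_le (le_of_lt hs)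
      rw [this.deriv_eq, deriv_const]
  have hc : Continuous (deriv Real.smoothTransition) :=
    (Real.smoothTransition.contDiff (n := 1)).continuous_deriv le_rfl
  obtain ⟨L, hL⟩ := (isCompact_Icc (a := (0 : ℝ)) (b := 1)).exists_bound_of_continuousOn hc.continuousOn
  refine ⟨max L 0, le_max_right _ _, fun t => ?_, h0⟩
  by_cases ht : t ∈ Icc (0 : ℝ) 1
  · exact (hL t ht).trans (le_max_left _ _)
  · rw [h0 t (by simpa only [mem_Icc, not_and_or, not_le] using ht), abs_zero]
    exact le_max_right _ _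

theorem s7a_dom {h : E3 → ℝ} (hh : Integrable h) {A : Set E3} {χ : ℕ → E3 → ℝ} (hχ : ∀ n, Continuous (χ n))
    (hb : ∀ n x, |χ n x| ≤ 1) (hl : ∀ᵐ x, Tendsto (fun n => χ n x) atTop (𝓝 (A.indicator 1 x))) :
    Tendsto (fun n => ∫ x, χ n x * h x) atTop (𝓝 (∫ x, A.indicator h x)) := by
  refine tendsto_integral_of_dominated_convergence (fun x => ‖h x‖)
    (fun n => (hχ n).aestronglyMeasurable.mul hh.1) hh.norm (fun n => Eventually.of_forall fun x => ?_) ?_
  · rw [norm_mul]
    exact mul_le_of_le_one_left (norm_nonneg _) (hb n x)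
  · filter_upwards [hl] with x hx
    have := hx.mul_const (h x)
    by_cases hxA : x ∈ A
    · simpa [hxA] using this
    · simpa [hxA] using this

theorem s7a_lim (h1 : MemLp f 2 volume) (h2 : MemLp G 2 volume) {Ω A : Set E3} (hA : MeasurableSet A)
    (hw : ∀ ψ, Tst Ω ψ → ∀ a : E3, ∫ x, f x * fderiv ℝ ψ x a = -∫ x, ⟪G x, a⟫ * ψ x)
    {χ : ℕ → E3 → ℝ} (hχ : ∀ n, ContDiff ℝ ∞ (χ n)) (hs : ∀ n, tsupport (χ n) ⊆ Ω)
    (hb : ∀ n x, |χ n x| ≤ 1) (hl : ∀ᵐ x, Tendsto (fun n => χ n x) atTop (𝓝 (A.indicator 1 x)))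
    (he : ∀ φ, Tst univ φ → ∀ a : E3,
      Tendsto (fun n => ∫ x, f x * (fderiv ℝ (χ n) x a * φ x)) atTop (𝓝 0)) :
    H1 (A.indicator f) (A.indicator G) := by
  refine ⟨h1.indicator hA, h2.indicator hA, fun φ hφ a => ?_⟩
  have t1 := s7a_dom (s1a_i1 h1 hφ a) (fun n => (hχ n).continuous) hb hl
  have t2 := s7a_dom (s1a_i2 h2 hφ a) (fun n => (hχ n).continuous) hb hl
  have key : ∀ n, (∫ x, χ n x * (f x * fderiv ℝ φ x a)) + ∫ x, f x * (fderiv ℝ (χ n) x a * φ x) =
      -∫ x, χ n x * (⟪G x, a⟫ * φ x) := by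
    intro n
    have hψ : Tst Ω (fun x => χ n x * φ x) :=
      ⟨(hχ n).mul hφ.sm, hφ.cpt.mul_left, (tsupport_mul_subset_left (f := χ n) (g := φ)).trans (hs n)⟩
    have e := hw _ hψ a
    have hd : ∀ x, fderiv ℝ (fun x => χ n x * φ x) x a = χ n x * fderiv ℝ φ x a + fderiv ℝ (χ n) x a * φ x := by
      intro x
      rw [fderiv_fun_mul ((hχ n).differentiable (by simp) x) (hφ.sm.differentiable (by simp) x)]
      simp [mul_comm]
    have i1 : Integrable fun x => χ n x * (f x * fderiv ℝ φ x a) :=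
      (s1a_i1 h1 hφ a).bdd_mul (c := 1) (hχ n).continuous.aestronglyMeasurable (Eventually.of_forall (hb n))
    have i2 : Integrable fun x => f x * (fderiv ℝ (χ n) x a * φ x) :=
      h1.integrable_mul (q := 2) (Continuous.memLp_of_hasCompactSupport
        ((((hχ n).continuous_fderiv (by simp)).clm_apply continuous_const).mul hφ.sm.continuous) hφ.cpt.mul_left)
    rw [← integral_add i1 i2]
    simp only [hd] at e
    convert e using 2
    · funext x; ring
    · congr 1; funext x; ring
  have t3 := t1.add (he φ hφ a)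
  simp only [key, add_zero] at t3
  have e := tendsto_nhds_unique t3 t2.neg
  convert e using 2
  · funext x
    by_cases hx : x ∈ A <;> simp [hx]
  · congr 1; funext x
    by_cases hx : x ∈ A <;> simp [hx]

theorem s7a_weak (hf : H1loc offA f G) (ψ : E3 → ℝ) (hψ : Tst offA ψ) (h1 : MemLp f 2 volume)
    (h2 : MemLp G 2 volume) (a : E3) : ∫ x, f x * fderiv ℝ ψ x a = -∫ x, ⟪G x, a⟫ * ψ x := by
  obtain ⟨η, hη, -, h3⟩ := exists_tst_one isOpen_univ hψ.cpt (subset_univ (tsupport ψ))
  have e := (hf ψ hψ).wg η hη a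
  have e1 : ∀ x, ψ x * f x * fderiv ℝ η x a = 0 := by
    intro x
    by_cases hx : x ∈ tsupport ψ
    · have : η =ᶠ[𝓝 x] fun _ => 1 := h3.filter_mono (nhds_le_nhdsSet hx)
      simp [this.fderiv_eq]
    · simp [image_eq_zero_of_notMem_tsupport hx]
  have e2 : ∀ x, ⟪ψ x • G x + f x • ∇ ψ x, a⟫ * η x = ⟪G x, a⟫ * ψ x + f x * fderiv ℝ ψ x a := by
    intro x
    by_cases hx : x ∈ tsupport ψ
    · have : η x = 1 := h3.self_of_nhdsSet x hx
      rw [this, inner_add_left, real_inner_smul_left, real_inner_smul_left, inner_gradient_left]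
      ring
    · have h4 := s1a_grad_zero hx
      rw [← inner_gradient_left, h4, image_eq_zero_of_notMem_tsupport hx]
      simp
  simp only [e1, e2, integral_zero] at e
  rw [integral_add (s1a_i2 h2 hψ a) (s1a_i1 h1 hψ a)] at e
  linarith

theorem s7a_box {δ R : ℝ} (hδ : 0 ≤ δ) (hR : 0 ≤ R) :
    ∃ B : Set E3, MeasurableSet B ∧ volume B ≠ ⊤ ∧ volume.real B = 8 * δ ^ 2 * R ∧
      ∀ x : E3, |x 0| ≤ δ → |x 1| ≤ δ → |x 2| ≤ R → x ∈ B := by
  set r : Fin 3 → ℝ := ![δ, δ, R] with hr
  have hm := PiLp.volume_preserving_ofLp (Fin 3)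
  have hv : volume ((WithLp.ofLp : E3 → Fin 3 → ℝ) ⁻¹' Icc (-r) r) = volume (Icc (-r) r) :=
    hm.measure_preimage measurableSet_Icc.nullMeasurableSet
  refine ⟨WithLp.ofLp ⁻¹' Icc (-r) r, hm.measurable measurableSet_Icc, ?_, ?_, fun x a b c => ?_⟩
  · rw [hv]
    exact isCompact_Icc.measure_lt_top.ne
  · rw [Measure.real, hv, Real.volume_Icc_pi_toReal]
    · simp [Fin.prod_univ_three, hr]
      ring
    · intro i
      fin_cases i <;> simp [hr] <;> linarith
  · constructor <;> intro i <;> fin_cases i <;> simp [hr] <;>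
      linarith [abs_le.1 a, abs_le.1 b, abs_le.1 c]


theorem s7a_coord (x : E3) (i : Fin 3) : |x i| ≤ ‖x‖ := by
  simpa using PiLp.norm_apply_le x i

theorem s7a_cs {u v : ℕ → E3 → ℝ} (hu : ∀ n, MemLp (u n) 2 volume) (hv : ∀ n, MemLp (v n) 2 volume) {w : ℕ → ℝ}
    (h : ∀ n, nsq (u n) * nsq (v n) ≤ w n) (hw : Tendsto w atTop (𝓝 0)) :
    Tendsto (fun n => ∫ x, u n x * v n x) atTop (𝓝 0) := by
  have h1 : Tendsto (fun n => ip (u n) (v n) ^ 2) atTop (𝓝 0) :=
    squeeze_zero (fun n => sq_nonneg _) (fun n => (ip_sq_le (hu n) (hv n)).trans (h n)) hw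
  have h2 := h1.sqrt
  simp only [Real.sqrt_sq_eq_abs, Real.sqrt_zero] at h2
  exact (tendsto_zero_iff_abs_tendsto_zero _).2 h2

/-- test with `φ χ(cyl / δ)`: the error is at most `‖f‖_{L²(cyl < δ, supp φ)} * O(1) → 0` -/
theorem H1loc.h1_offA (hf : H1loc offA f G) (h1 : MemLp f 2 volume) (h2 : MemLp G 2 volume) : H1 f G := by
  obtain ⟨L, hL0, hL, hz⟩ := s7a_theta
  set q : E3 → ℝ := fun x => x 0 ^ 2 + x 1 ^ 2 with hq
  have hqc : ContDiff ℝ ∞ q := by
    simp only [hq]
    exact ((EuclideanSpace.proj (0 : Fin 3) : E3 →L[ℝ] ℝ).contDiff.pow 2).add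
      ((EuclideanSpace.proj (1 : Fin 3) : E3 →L[ℝ] ℝ).contDiff.pow 2)
  have hqd : ∀ x a : E3, fderiv ℝ q x a = 2 * x 0 * a 0 + 2 * x 1 * a 1 := by
    intro x a
    have := (((EuclideanSpace.proj (0 : Fin 3) : E3 →L[ℝ] ℝ).hasFDerivAt (x := x)).pow 2).add
      (((EuclideanSpace.proj (1 : Fin 3) : E3 →L[ℝ] ℝ).hasFDerivAt (x := x)).pow 2)
    have h3 : HasFDerivAt q _ x := this
    rw [h3.fderiv]
    simp
  set χ : ℕ → E3 → ℝ := fun n x => Real.smoothTransition (((n : ℝ) + 1) ^ 2 * q x - 1) with hχ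
  have hχd : ∀ n (x a : E3), fderiv ℝ (χ n) x a = deriv Real.smoothTransition (((n : ℝ) + 1) ^ 2 * q x - 1) *
      (((n : ℝ) + 1) ^ 2 * (2 * x 0 * a 0 + 2 * x 1 * a 1)) := by
    intro n x a
    have h3 := (((hqc.differentiable (by simp) x).hasFDerivAt.const_mul (((n : ℝ) + 1) ^ 2)).sub_const 1)
    have h4 := ((Real.smoothTransition.contDiff (n := 1)).differentiable one_ne_zero
      (((n : ℝ) + 1) ^ 2 * q x - 1)).hasDerivAt.comp_hasFDerivAt x h3
    have h5 : HasFDerivAt (χ n) _ x := h4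
    rw [h5.fderiv]
    simp [hqd]
  have hqpos : ∀ x ∈ offA, 0 < q x := fun x hx => by
    have : 0 < cyl x := hx
    have h3 := cyl_sq x
    simp only [hq]
    rw [← h3]
    positivity
  have hev : ∀ x ∈ offA, ∀ᶠ n : ℕ in atTop, 2 < ((n : ℝ) + 1) ^ 2 * q x := fun x hx => by
    have h3 : Tendsto (fun n : ℕ => ((n : ℝ) + 1) ^ 2 * q x) atTop atTop :=
      ((tendsto_pow_atTop two_ne_zero).comp
        (tendsto_natCast_atTop_atTop.atTop_add tendsto_const_nhds)).atTop_mul_const (hqpos x hx)
    exact h3.eventually_gt_atTop 2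
  have key := s7a_lim (Ω := offA) (A := univ) (χ := χ) h1 h2 MeasurableSet.univ
    (fun ψ hψ a => s7a_weak hf ψ hψ h1 h2 a)
    (fun n => Real.smoothTransition.contDiff.comp ((contDiff_const.mul hqc).sub contDiff_const))
    (fun n => ?_) (fun n x => ?_) ?_ (fun φ hφ a => ?_)
  · simpa using key
  · refine (closure_minimal (t := {x | 1 ≤ ((n : ℝ) + 1) ^ 2 * q x}) (fun x hx => ?_)
      (isClosed_le continuous_const (continuous_const.mul hqc.continuous))).trans fun x hx => ?_
    · by_contra hn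
      exact hx (Real.smoothTransition.zero_of_nonpos (by simp only [mem_ofPred_eq, not_le] at hn; linarith))
    · have h3 : 1 ≤ ((n : ℝ) + 1) ^ 2 * q x := hx
      have h4 := cyl_sq x
      rcases (cyl_nonneg x).lt_or_eq with h5 | h5
      · exact h5
      · have : q x = 0 := by simp only [hq]; rw [← h4, ← h5]; simp
        rw [this] at h3
        linarith
  · rw [abs_of_nonneg (Real.smoothTransition.nonneg _)]
    exact Real.smoothTransition.le_one _
  · filter_upwards [ae_offA] with x hx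
    refine tendsto_const_nhds.congr' ?_
    filter_upwards [hev x hx] with n hn
    simp only [hχ, indicator_univ, Pi.one_apply]
    rw [Real.smoothTransition.one_of_one_le (by linarith)]
  · obtain ⟨M, hM⟩ := hφ.cpt.exists_bound_of_continuous hφ.sm.continuous
    obtain ⟨R, hR0, hR⟩ := hφ.cpt.isCompact.isBounded.subset_closedBall_lt 0 (0 : E3)
    set S : ℕ → Set E3 := fun n => {x | ((n : ℝ) + 1) ^ 2 * q x ≤ 2} with hS
    have hSm : ∀ n, MeasurableSet (S n) := fun n =>
      (isClosed_le (continuous_const.mul hqc.continuous) continuous_const).measurableSet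
    have hD0 : ∀ n x, x ∉ S n → fderiv ℝ (χ n) x a = 0 := fun n x hx => by
      rw [hχd, hz _ (Or.inr (by simp only [hS, mem_ofPred_eq, not_le] at hx; linarith)), zero_mul]
    have hv : ∀ n, MemLp (fun x => fderiv ℝ (χ n) x a * φ x) 2 volume := fun n =>
      Continuous.memLp_of_hasCompactSupport
        ((((Real.smoothTransition.contDiff.comp ((contDiff_const.mul hqc).sub contDiff_const) :
          ContDiff ℝ ∞ (χ n)).continuous_fderiv (by simp)).clm_apply continuous_const).mul hφ.sm.continuous)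
        hφ.cpt.mul_left
    have hC : ∀ n, nsq (fun x => fderiv ℝ (χ n) x a * φ x) ≤ (8 * L * ‖a‖ * M) ^ 2 * (32 * R) := by
      intro n
      have hN : (0 : ℝ) < n + 1 := by positivity
      obtain ⟨B, hB, hBt, hBv, hBm⟩ := s7a_box (δ := 2 / ((n : ℝ) + 1)) (R := R) (by positivity) hR0.le
      have h3 : ∀ x, (fderiv ℝ (χ n) x a * φ x) ^ 2 ≤
          B.indicator (fun _ => (8 * L * ‖a‖ * M * ((n : ℝ) + 1)) ^ 2) x := by
        intro x
        by_cases hx : x ∈ S n
        · by_cases hx' : x ∈ tsupport φ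
          · have h4 : ((n : ℝ) + 1) ^ 2 * (x 0 ^ 2 + x 1 ^ 2) ≤ 2 := hx
            have h5 : ∀ y z : ℝ, ((n : ℝ) + 1) ^ 2 * (y ^ 2 + z ^ 2) ≤ 2 → |y| ≤ 2 / ((n : ℝ) + 1) := by
              intro y z hyz
              rw [le_div_iff₀ hN]
              refine abs_le_of_sq_le_sq' ?_ (by norm_num) |>.2
              rw [mul_pow, sq_abs]
              nlinarith [sq_nonneg (((n : ℝ) + 1) * z)]
            have a0 := h5 _ _ h4
            have a1 := h5 (x 1) (x 0) (by linarith)
            have a2 : |x 2| ≤ R := (s7a_coord x 2).trans (by simpa using hR hx')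
            rw [indicator_of_mem (hBm x a0 a1 a2)]
            have b0 := mul_le_mul a0 (s7a_coord a 0) (abs_nonneg _) (by positivity)
            have b1 := mul_le_mul a1 (s7a_coord a 1) (abs_nonneg _) (by positivity)
            have b2 : |2 * x 0 * a 0 + 2 * x 1 * a 1| ≤ 8 * ‖a‖ / ((n : ℝ) + 1) := by
              refine (abs_add_le _ _).trans ?_
              rw [abs_mul, abs_mul, abs_mul, abs_mul, abs_two]
              have : 8 * ‖a‖ / ((n : ℝ) + 1) = 4 * (2 / ((n : ℝ) + 1) * ‖a‖) := by ring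
              rw [this]
              linarith
            have b3 : |fderiv ℝ (χ n) x a| ≤ L * (((n : ℝ) + 1) ^ 2 * (8 * ‖a‖ / ((n : ℝ) + 1))) := by
              rw [hχd, abs_mul, abs_mul, abs_of_nonneg (sq_nonneg ((n : ℝ) + 1))]
              exact mul_le_mul (hL _) (mul_le_mul_of_nonneg_left b2 (sq_nonneg _)) (by positivity) hL0
            have b4 := mul_le_mul b3 (hM x) (norm_nonneg _) (by positivity)
            rw [Real.norm_eq_abs, ← abs_mul] at b4
            rw [← sq_abs]
            refine pow_le_pow_left₀ (abs_nonneg _) (b4.trans (le_of_eq ?_)) 2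
            field_simp
          · rw [image_eq_zero_of_notMem_tsupport hx', mul_zero, zero_pow two_ne_zero]
            exact indicator_nonneg (fun _ _ => sq_nonneg _) x
        · rw [hD0 n x hx, zero_mul, zero_pow two_ne_zero]
          exact indicator_nonneg (fun _ _ => sq_nonneg _) x
      refine (integral_mono (hv n).integrable_sq ((integrable_indicator_iff hB).2 (integrableOn_const hBt)) h3).trans
        (le_of_eq ?_)
      rw [integral_indicator_const _ hB, hBv, smul_eq_mul]
      field_simp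
      ring
    have hs0 := (s7a_small h1.integrable_sq hSm (by
      filter_upwards [ae_offA] with x hx
      filter_upwards [hev x hx] with n hn
      simpa only [hS, mem_ofPred_eq, not_le] using hn)).mul_const ((8 * L * ‖a‖ * M) ^ 2 * (32 * R))
    rw [zero_mul] at hs0
    have h6 := s7a_cs (fun n => h1.indicator (hSm n)) hv (fun n => ?_) hs0
    · refine h6.congr fun n => integral_congr_ae (Eventually.of_forall fun x => ?_)
      by_cases hx : x ∈ S n
      · simp [hx]
      · simp [hx, hD0 n x hx]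
    · have : nsq ((S n).indicator f) = ∫ x in S n, f x ^ 2 := by
        rw [nsq, ← integral_indicator (hSm n)]
        refine integral_congr_ae (Eventually.of_forall fun x => ?_)
        by_cases hx : x ∈ S n <;> simp [hx]
      rw [← this]
      exact mul_le_mul_of_nonneg_left (hC n) nsq_nonneg


theorem s7a_1d {g g' b : ℝ → ℝ} (hg : ∀ t, HasDerivAt g (g' t) t) (hc : Continuous g') (hb : Continuous b)
    (hle : ∀ t, g' t ^ 2 ≤ b t) {ε : ℝ} (hε : 0 < ε) :
    ∫ t in Ioo (-ε) ε, (g t - g (-t)) ^ 2 ≤ 4 * ε ^ 2 * ∫ t in Ioo (-ε) ε, b t := by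
  have hgc : Continuous g := continuous_iff_continuousAt.2 fun t => (hg t).continuousAt
  set I := ∫ t in Ioo (-ε) ε, b t with hI
  have hI' : I = ∫ t in (-ε)..ε, b t := by
    rw [intervalIntegral.integral_of_le (by linarith), integral_Ioc_eq_integral_Ioo]
  have key : ∀ u v, -ε ≤ u → u ≤ v → v ≤ ε → (g v - g u) ^ 2 ≤ 2 * ε * I := by
    intro u v h1 h2 h3
    set l := (g v - g u) / (2 * ε) with hl
    have e1 : ∫ t in u..v, 2 * l * g' t = 2 * l * (g v - g u) := by
      rw [intervalIntegral.integral_const_mul, intervalIntegral.integral_eq_sub_of_hasDerivAt (fun t _ => hg t)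
        (hc.intervalIntegrable _ _)]
    have e2 : ∫ t in u..v, 2 * l * g' t ≤ ∫ t in u..v, (l ^ 2 + b t) :=
      intervalIntegral.integral_mono_on h2 ((continuous_const.mul hc).intervalIntegrable _ _)
        ((continuous_const.add hb).intervalIntegrable _ _) fun t _ => by nlinarith [hle t, sq_nonneg (l - g' t)]
    have e3 : ∫ t in u..v, (l ^ 2 + b t) ≤ ∫ t in (-ε)..ε, (l ^ 2 + b t) :=
      intervalIntegral.integral_mono_interval h1 h2 h3
        (Eventually.of_forall fun t => add_nonneg (sq_nonneg _) ((sq_nonneg _).trans (hle t)))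
        ((continuous_const.add hb).intervalIntegrable _ _)
    rw [intervalIntegral.integral_add (a := -ε) (continuous_const.intervalIntegrable _ _)
      (hb.intervalIntegrable _ _), intervalIntegral.integral_const, ← hI', smul_eq_mul] at e3
    have e4 : g v - g u = 2 * ε * l := by rw [hl]; field_simp
    rw [e4] at e1 ⊢
    have e5 : 2 * ε * l ^ 2 ≤ I := by nlinarith
    nlinarith
  have h2 : ∫ t in Ioo (-ε) ε, (g t - g (-t)) ^ 2 ≤ ∫ t in Ioo (-ε) ε, 2 * ε * I := by
    refine setIntegral_mono_on ?_ (integrableOn_const (by simp)) measurableSet_Ioo fun t ht => ?_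
    · exact (((hgc.sub (hgc.comp continuous_neg)).pow 2).integrableOn_Icc).mono_set Ioo_subset_Icc_self
    · rcases le_total t 0 with h | h
      · have := key t (-t) ht.1.le (by linarith) (by linarith [ht.1])
        linarith [sub_sq' (g t) (g (-t)), sub_sq' (g (-t)) (g t)]
      · exact key (-t) t (by linarith [ht.2]) (by linarith) ht.2.le
  refine h2.trans (le_of_eq ?_)
  rw [setIntegral_const, Real.volume_real_Ioo_of_le (by linarith), smul_eq_mul]
  ring

theorem s7a_fub (i : Fin 3) : ∃ p : (Fin 2 → ℝ) → E3, (∀ y, p y i = 0) ∧ ∀ h : E3 → ℝ, Integrable h →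
    ∫ x, h x = ∫ y, ∫ t : ℝ, h (p y + t • EuclideanSpace.single i (1 : ℝ)) := by
  set e := (MeasurableEquiv.piFinSuccAbove (fun _ : Fin 3 => ℝ) i).symm with he
  have m1 : MeasurePreserving e := (volume_preserving_piFinSuccAbove (fun _ : Fin 3 => ℝ) i).symm _
  have m2 := (PiLp.volume_preserving_toLp (Fin 3)).comp m1
  refine ⟨fun y => WithLp.toLp 2 (e (0, y)), fun y => by simp [he], fun h hh => ?_⟩
  have e1 : ∀ y t, WithLp.toLp 2 (e (0, y)) + t • EuclideanSpace.single i (1 : ℝ) = WithLp.toLp 2 (e (t, y)) := by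
    intro y t
    ext j
    rcases Fin.eq_self_or_eq_succAbove i j with rfl | ⟨k, rfl⟩
    · simp [he]
    · simp [he, Fin.succAbove_ne]
  simp only [e1]
  have i1 := m2.integrable_comp_of_integrable hh
  rw [← m2.map_eq, integral_map m2.measurable.aemeasurable (by rw [m2.map_eq]; exact hh.1)]
  exact integral_prod_symm _ i1

theorem s7a_smooth {φ : E3 → ℝ} (hφ : Tst univ φ) (i : Fin 3) {T : E3 ≃ₗᵢ[ℝ] E3}
    (hT : ∀ x j, T x j = if j = i then -x j else x j) {ε : ℝ} (hε : 0 < ε) :
    ∫ x in {x : E3 | |x i| < ε}, (φ x - φ (T x)) ^ 2 ≤ 4 * ε ^ 2 * ∫ x in {x : E3 | |x i| < ε}, ‖∇ φ x‖ ^ 2 := by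
  obtain ⟨p, hp, hF⟩ := s7a_fub i
  have hS : MeasurableSet {x : E3 | |x i| < ε} :=
    (isOpen_lt (EuclideanSpace.proj i : E3 →L[ℝ] ℝ).continuous.abs continuous_const).measurableSet
  have i1 : Integrable fun x => (φ x - φ (T x)) ^ 2 := (hφ.h1.sub (hφ.h1.comp_iso T)).int_sq
  have i2 : Integrable fun x => 4 * ε ^ 2 * ‖∇ φ x‖ ^ 2 := hφ.h1.int_grad_sq.const_mul _
  rw [← integral_const_mul, ← sub_nonneg, ← integral_sub i2.integrableOn i1.integrableOn, ← integral_indicator hS,
    hF _ ((i2.sub' i1).indicator hS)]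
  refine integral_nonneg fun y => ?_
  set v : E3 := EuclideanSpace.single i (1 : ℝ) with hv
  have hvn : ‖v‖ = 1 := by simp [hv]
  have hTv : ∀ t : ℝ, T (p y + t • v) = p y + (-t) • v := by
    intro t
    ext j
    rw [hT]
    by_cases hj : j = i
    · subst hj; simp [hp, hv]
    · simp [hj, hv]
  have hl : Continuous fun t : ℝ => p y + t • v := by fun_prop
  have hgc := (s1a_grad_cont (hφ.sm.of_le (by simp))).comp hl
  have h1 := s7a_1d (g := fun t => φ (p y + t • v)) (g' := fun t => ⟪∇ φ (p y + t • v), v⟫)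
    (b := fun t => ‖∇ φ (p y + t • v)‖ ^ 2) (fun t => ?_) (hgc.inner continuous_const) (hgc.norm.pow 2)
    (fun t => ?_) hε
  · have e1 : ∀ t : ℝ, {x : E3 | |x i| < ε}.indicator (fun x => 4 * ε ^ 2 * ‖∇ φ x‖ ^ 2 - (φ x - φ (T x)) ^ 2)
        (p y + t • v) = (Ioo (-ε) ε).indicator (fun t => 4 * ε ^ 2 * ‖∇ φ (p y + t • v)‖ ^ 2 -
          (φ (p y + t • v) - φ (p y + (-t) • v)) ^ 2) t := by
      intro t
      have : (p y + t • v) ∈ {x : E3 | |x i| < ε} ↔ t ∈ Ioo (-ε) ε := by simp [hp, hv, abs_lt]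
      by_cases ht : t ∈ Ioo (-ε) ε
      · rw [indicator_of_mem ht, indicator_of_mem (this.2 ht), hTv]
      · rw [indicator_of_notMem ht, indicator_of_notMem (fun h => ht (this.1 h))]
    have hφc := hφ.sm.continuous
    show 0 ≤ ∫ t : ℝ, _
    simp only [e1]
    rw [integral_indicator measurableSet_Ioo, integral_sub, integral_const_mul]
    · linarith
    · exact ((continuous_const.mul (hgc.norm.pow 2)).integrableOn_Icc).mono_set Ioo_subset_Icc_self
    · exact (Continuous.integrableOn_Icc (by fun_prop)).mono_set Ioo_subset_Icc_self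
  · rw [inner_gradient_left]
    have h2 : HasDerivAt (fun t : ℝ => p y + t • v) v t := by
      simpa using ((hasDerivAt_id t).smul_const v).const_add (p y)
    exact (hφ.sm.differentiable (by simp) _).hasFDerivAt.comp_hasDerivAt t h2
  · have := abs_real_inner_le_norm (∇ φ (p y + t • v)) v
    rw [hvn, mul_one] at this
    rw [← sq_abs]
    exact pow_le_pow_left₀ (abs_nonneg _) this 2

theorem s7a_l2 {F : Type} [NormedAddCommGroup F] [InnerProductSpace ℝ F] {u : ℕ → E3 → F} {w : E3 → F}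
    (hu : ∀ n, MemLp (u n) 2 volume) (hw : MemLp w 2 volume)
    (h : Tendsto (fun n => eLpNorm (fun x => u n x - w x) 2 volume) atTop (𝓝 0)) (S : Set E3) :
    Tendsto (fun n => ∫ x in S, ‖u n x‖ ^ 2) atTop (𝓝 (∫ x in S, ‖w x‖ ^ 2)) := by
  have key : ∀ (z : E3 → F) (hz : MemLp z 2 (volume.restrict S)), ∫ x in S, ‖z x‖ ^ 2 = ‖hz.toLp z‖ ^ 2 := by
    intro z hz
    rw [← real_inner_self_eq_norm_sq, L2.inner_def]
    refine integral_congr_ae ?_
    filter_upwards [hz.coeFn_toLp] with x hx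
    rw [hx, real_inner_self_eq_norm_sq]
  have h2 := (Lp.tendsto_Lp_iff_tendsto_eLpNorm'' u (fun n => (hu n).restrict S) w (hw.restrict S)).2
    (tendsto_of_tendsto_of_tendsto_of_le_of_le tendsto_const_nhds h (fun _ => zero_le)
      fun n => eLpNorm_mono_measure _ Measure.restrict_le_self)
  rw [key w (hw.restrict S)]
  simp only [fun n => key (u n) ((hu n).restrict S)]
  exact h2.norm.pow 2

/-- thin slabs: one dimensional fundamental theorem of calculus for odd smooth approximations -/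
theorem H1.thin (hf : H1 f G) (i : Fin 3) {T : E3 ≃ₗᵢ[ℝ] E3} (hT : ∀ x j, T x j = if j = i then -x j else x j)
    (hodd : ∀ᵐ x, f (T x) = -f x) {ε : ℝ} (hε : 0 < ε) :
    ∫ x in {x : E3 | |x i| < ε}, f x ^ 2 ≤ ε ^ 2 * ∫ x in {x : E3 | |x i| < ε}, ‖G x‖ ^ 2 := by
  obtain ⟨φ, hφ, hA, -, -⟩ := hf.dense
  have t1 := (s7a_l2 (fun n => (hφ n).h1.mG) hf.mG hA.l2G {x : E3 | |x i| < ε}).const_mul (4 * ε ^ 2)
  have m1 : ∀ n, MemLp (fun x => φ n x - f x) 2 volume := fun n => (hφ n).h1.mf.sub hf.mf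
  have t2 := s7a_l2 (u := fun n x => φ n x - φ n (T x)) (w := fun x => f x - f (T x))
    (fun n => ((hφ n).h1.sub ((hφ n).h1.comp_iso T)).mf) (hf.sub (hf.comp_iso T)).mf (by
      have h3 := hA.l2.add hA.l2
      rw [add_zero] at h3
      refine tendsto_of_tendsto_of_tendsto_of_le_of_le tendsto_const_nhds h3 (fun _ => zero_le) fun n => ?_
      have e1 : (fun x => φ n x - φ n (T x) - (f x - f (T x))) =
          (fun x => φ n x - f x) - (fun x => φ n x - f x) ∘ T := by
        funext x; simp only [Pi.sub_apply, Function.comp_apply]; ring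
      rw [e1]
      refine (eLpNorm_sub_le (m1 n).1 ((m1 n).comp_measurePreserving T.measurePreserving).1 one_le_two).trans ?_
      rw [eLpNorm_comp_measurePreserving (m1 n).1 T.measurePreserving]) {x : E3 | |x i| < ε}
  have h4 := le_of_tendsto_of_tendsto' t2 t1 fun n => by
    simpa only [Real.norm_eq_abs, sq_abs] using s7a_smooth (hφ n) i hT hε
  have e2 : ∫ x in {x : E3 | |x i| < ε}, ‖f x - f (T x)‖ ^ 2 = 4 * ∫ x in {x : E3 | |x i| < ε}, f x ^ 2 := by
    rw [← integral_const_mul]
    refine integral_congr_ae (ae_restrict_of_ae ?_)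
    filter_upwards [hodd] with x hx
    rw [hx, Real.norm_eq_abs, sq_abs]
    ring
  linarith

/-- the restriction of an odd function to a half space: multiply with `θ (x i / ε)` and use `H1.thin` -/
theorem H1.half (hf : H1 f G) (i : Fin 3) {T : E3 ≃ₗᵢ[ℝ] E3} (hT : ∀ x j, T x j = if j = i then -x j else x j)
    (hodd : ∀ᵐ x, f (T x) = -f x) :
    H1 ({x : E3 | 0 < x i}.indicator f) ({x : E3 | 0 < x i}.indicator G) := by
  obtain ⟨L, hL0, hL, hz⟩ := s7a_theta
  set π : E3 →L[ℝ] ℝ := EuclideanSpace.proj i with hπ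
  have hπx : ∀ x, π x = x i := fun _ => rfl
  set χ : ℕ → E3 → ℝ := fun n x => Real.smoothTransition (((n : ℝ) + 1) * x i) with hχ
  have hχs : ∀ n, ContDiff ℝ ∞ (χ n) := fun n =>
    Real.smoothTransition.contDiff.comp (contDiff_const.mul π.contDiff)
  have hχd : ∀ n (x a : E3), fderiv ℝ (χ n) x a =
      deriv Real.smoothTransition (((n : ℝ) + 1) * x i) * (((n : ℝ) + 1) * a i) := by
    intro n x a
    have h3 := (π.hasFDerivAt (x := x)).const_mul ((n : ℝ) + 1)
    have h4 := ((Real.smoothTransition.contDiff (n := 1)).differentiable one_ne_zero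
      (((n : ℝ) + 1) * x i)).hasDerivAt.comp_hasFDerivAt x h3
    have h5 : HasFDerivAt (χ n) _ x := h4
    rw [h5.fderiv]
    simp [hπx]
  have hev : ∀ c : ℝ, 0 < c → ∀ᶠ n : ℕ in atTop, 2 < ((n : ℝ) + 1) * c := fun c hc =>
    ((tendsto_natCast_atTop_atTop.atTop_add tendsto_const_nhds).atTop_mul_const hc).eventually_gt_atTop 2
  refine s7a_lim (Ω := univ) (χ := χ) hf.mf hf.mG (isOpen_lt continuous_const π.continuous).measurableSet hf.wg
    hχs (fun n => subset_univ _) (fun n x => ?_) (Eventually.of_forall fun x => ?_) fun φ hφ a => ?_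
  · rw [abs_of_nonneg (Real.smoothTransition.nonneg _)]
    exact Real.smoothTransition.le_one _
  · by_cases hx : 0 < x i
    · refine tendsto_const_nhds.congr' ?_
      filter_upwards [hev _ hx] with n hn
      rw [indicator_of_mem (by exact hx)]
      simp only [hχ, Pi.one_apply]
      rw [Real.smoothTransition.one_of_one_le (by linarith)]
    · refine tendsto_const_nhds.congr fun n => ?_
      rw [indicator_of_notMem (by exact hx)]
      simp only [hχ]
      rw [Real.smoothTransition.zero_of_nonpos (mul_nonpos_of_nonneg_of_nonpos (by positivity) (not_lt.1 hx))]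
  · set S : ℕ → Set E3 := fun n => {x | |x i| < 2 / ((n : ℝ) + 1)} with hS
    have hSm : ∀ n, MeasurableSet (S n) := fun n => (isOpen_lt π.continuous.abs continuous_const).measurableSet
    have hb : ∀ n x, |fderiv ℝ (χ n) x a| ≤ L * (((n : ℝ) + 1) * ‖a‖) := fun n x => by
      rw [hχd, abs_mul, abs_mul, abs_of_nonneg (by positivity : (0 : ℝ) ≤ n + 1)]
      exact mul_le_mul (hL _) (mul_le_mul_of_nonneg_left (s7a_coord a i) (by positivity)) (by positivity) hL0
    have hD0 : ∀ n x, x ∉ S n → fderiv ℝ (χ n) x a = 0 := fun n x hx => by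
      have hN : (0 : ℝ) < n + 1 := by positivity
      have h1 : 2 / ((n : ℝ) + 1) ≤ |x i| := not_lt.1 hx
      rw [div_le_iff₀ hN] at h1
      rw [hχd, hz, zero_mul]
      rcases abs_cases (x i) with h | h
      · right; rw [h.1] at h1; linarith
      · left; exact mul_neg_of_pos_of_neg hN h.2
    have hu : ∀ n, MemLp (fun x => f x * fderiv ℝ (χ n) x a) 2 volume := fun n => by
      refine (hf.mf.const_mul (L * (((n : ℝ) + 1) * ‖a‖))).of_le (hf.mf.1.mul
        (((hχs n).continuous_fderiv (by simp)).clm_apply continuous_const).aestronglyMeasurable)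
        (Eventually.of_forall fun x => ?_)
      rw [norm_mul, norm_mul, mul_comm]
      exact mul_le_mul_of_nonneg_right ((hb n x).trans (le_abs_self _)) (norm_nonneg _)
    have hs0 := (s7a_small hf.int_grad_sq hSm (by
      filter_upwards [ae_coord_ne i 0] with x hx
      filter_upwards [hev _ (abs_pos.2 hx)] with n hn
      have hN : (0 : ℝ) < n + 1 := by positivity
      simp only [hS, mem_ofPred_eq, not_lt]
      rw [div_le_iff₀ hN]
      linarith)).mul_const ((2 * L * ‖a‖) ^ 2 * nsq φ)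
    rw [zero_mul] at hs0
    have h6 := s7a_cs hu (fun _ => s1a_mφ hφ) (fun n => ?_) hs0
    · simpa only [mul_assoc] using h6
    · have hN : (0 : ℝ) < n + 1 := by positivity
      have h7 := hf.thin i hT hodd (ε := 2 / ((n : ℝ) + 1)) (by positivity)
      have h8 : nsq (fun x => f x * fderiv ℝ (χ n) x a) ≤ (L * (((n : ℝ) + 1) * ‖a‖)) ^ 2 * ∫ x in S n, f x ^ 2 := by
        rw [← integral_const_mul, ← integral_indicator (hSm n)]
        refine integral_mono (hu n).integrable_sq ((hf.int_sq.const_mul _).indicator (hSm n)) fun x => ?_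
        by_cases hx : x ∈ S n
        · rw [indicator_of_mem hx]
          have := pow_le_pow_left₀ (abs_nonneg _) (hb n x) 2
          rw [sq_abs] at this
          simp only [mul_pow] at this ⊢
          nlinarith [sq_nonneg (f x)]
        · simp [hx, hD0 n x hx]
      rw [← mul_assoc]
      refine mul_le_mul_of_nonneg_right (h8.trans ((mul_le_mul_of_nonneg_left h7 (sq_nonneg _)).trans
        (le_of_eq ?_))) nsq_nonneg
      simp only [hS]
      field_simp

end Crest.Agent.R335
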