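import Crest.Agent.R335.S12
import Crest.Agent.R335.S14
import Crest.Agent.R335.S15
import Crest.Agent.R335.S7a

/-!
# R335/A3_Defs: definitions (part of A3, sub-lead helper5; definitions in `A3_Defs`)
-/

set_option autoImplicit false

namespace Crest.Agent.R335

open MeasureTheory Set Filter Topology
open scoped Gradient RealInnerProductSpace ENNReal ContDiff
open Crest.MathPhysics.ThreeBody

/-- a splitting `(x, y)` of `ℝ⁹` into one electron and the ion -/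
structure Slot (s : Spl E3 E6 E9) : Prop where
  pot : ∀ D Z a y, V3 D Z (s.j a y) = V1 D a + V2 D Z y + Wx Z a y
  eqv : ∀ (T : E3 → E3) a y, dg3 T (s.j a y) = s.j (T a) (dg2 T y)

/-- the slice of a function -/
noncomputable def sl (s : Spl E3 E6 E9) (F : E9 → ℝ) (a : E3) : E6 → ℝ := fun b => F (s.j a b)

/-- the gradient of the slice (`H1.slice`) -/
noncomputable def slG (s : Spl E3 E6 E9) (G : E9 → E9) (a : E3) : E6 → E6 := fun b => s.p2 (G (s.j a b))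

/-- the length of a pair of functions in the fibres -/
noncomputable def len (s0 : Spl E3 E6 E9) (Y0 : E9 → ℝ) (s1 : Spl E3 E6 E9) (Y1 : E9 → ℝ) (a : E3) : ℝ :=
  √(nsq (sl s0 Y0 a) + nsq (sl s1 Y1 a))

/-- the repulsion form -/
noncomputable def wI (Z : ℝ) (x : E3) (f g : E6 → ℝ) : ℝ := ∫ y, Wx Z x y * (f y * g y)

/-- the form of `H_ion + V1 x - E + Wx x` -/
noncomputable def sf (D Z E : ℝ) (x : E3) (f : E6 → ℝ) (G : E6 → E6) (g : E6 → ℝ) (K : E6 → E6) : ℝ :=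
  bf (V2 D Z) f G g K + (V1 D x - E) * ip f g + wI Z x f g

/-- the inequality which one gets by testing with `φ(x) Y` -/
def TI (s : Spl E3 E6 E9) (Y : E9 → ℝ) (G : E9 → E9) (T : E3 → ℝ) : Prop :=
  ∀ (φ : E3 → ℝ) (K : E3 → E3), AEStronglyMeasurable φ volume → (∀ a, 0 ≤ φ a) → (∃ M : ℝ, ∀ a, φ a ≤ M) →
    H1 (fun x => φ (s.p1 x) * Y x) (fun x => φ (s.p1 x) • G x + Y x • s.i1 (K (s.p1 x))) →
    Integrable (fun a => φ a * T a) ∧
      (1 / 2) * (∫ x, (φ (s.p1 x) * ‖s.p1 (G x)‖ ^ 2 + Y x * ⟪s.p1 (G x), K (s.p1 x)⟫)) + ∫ a, φ a * T a ≤ 0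

/-- reflection of the ion -/
noncomputable def rf (y : E6) : E6 := dg2 refl y

/-- odd part -/
noncomputable def od (f : E6 → ℝ) (y : E6) : ℝ := (f y - f (rf y)) / 2

/-- even part -/
noncomputable def ev (f : E6 → ℝ) (y : E6) : ℝ := (f y + f (rf y)) / 2

/-- odd part in the ion variables -/
noncomputable def odE (s : Spl E3 E6 E9) (F : E9 → ℝ) (X : E9) : ℝ := (F X - F (s.j (s.p1 X) (rf (s.p2 X)))) / 2

/-- even part in the ion variables -/
noncomputable def evE (s : Spl E3 E6 E9) (F : E9 → ℝ) (X : E9) : ℝ := (F X + F (s.j (s.p1 X) (rf (s.p2 X)))) / 2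

/-- the component orthogonal to `Φ` in the fibres -/
noncomputable def prE (s : Spl E3 E6 E9) (Φ : E6 → ℝ) (F : E9 → ℝ) (X : E9) : ℝ :=
  F X - ip Φ (sl s F (s.p1 X)) * Φ (s.p2 X)

/-- exponential weight -/
noncomputable def wt (a : ℝ) (y : E6) : ℝ := Real.exp (a * s14_w y)

/-- multiplication with the weight in the ion variables -/
noncomputable def wtE (s : Spl E3 E6 E9) (a : ℝ) (F : E9 → ℝ) (X : E9) : ℝ := wt a (s.p2 X) * F X

/-- envelope for all kernels -/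
noncomputable def env (x : E3) (y : E6) : ℝ :=
  (1 + ‖y‖) ^ 4 * (1 + (1 / ‖x - pos2 0 y‖ + 1 / ‖refl x - pos2 0 y‖) + (1 / ‖x - pos2 1 y‖ + 1 / ‖refl x - pos2 1 y‖))

/-- decay of a function of the ion variables -/
def Dc (M : ℝ) (f : E6 → ℝ) : Prop :=
  MemLp f 2 volume ∧ ∀ x, MemLp (fun y => env x y * f y) 2 volume ∧ nsq (fun y => env x y * f y) ≤ M

/-- the ground state of the ion -/
structure Ion (D Z γ E0 : ℝ) (Φ : E6 → ℝ) (GΦ : E6 → E6) : Prop where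
  Zge : 1 ≤ Z
  γpos : 0 < γ
  eig : Eig (V2 D Z) E0 Φ GΦ
  nrm : nsq Φ = 1
  gap : ∀ f G, H1 f G → (E0 + γ) * nsq f - γ * ip Φ f ^ 2 ≤ qf (V2 D Z) f G
  E0le : E0 ≤ 0
  even : ∀ᵐ y, Φ (rf y) = Φ y

theorem a3_slots : ∃ s0 s2 : Spl E3 E6 E9, Slot s0 ∧ Slot s2 ∧ (∀ a y, s0.j a y = at0 a y) ∧
    ∀ a y, s2.j a y = at2 a y := by
  obtain ⟨s0, -, -, h0, -, -⟩ := exists_spl3 0
  obtain ⟨s2, -, -, -, -, h2⟩ := exists_spl3 2
  refine ⟨s0, s2, ⟨fun D Z a y => ?_, fun T a y => ?_⟩, ⟨fun D Z a y => ?_, fun T a y => ?_⟩, h0 rfl, h2 rfl⟩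
  · rw [h0 rfl, V3_at0]
  · simp [h0 rfl, at0, dg3, dg2]
  · rw [h2 rfl, V3_at2]
  · simp [h2 rfl, at2, dg3, dg2]

theorem sl_odE (s : Spl E3 E6 E9) (F : E9 → ℝ) (a : E3) : sl s (odE s F) a = od (sl s F a) := by
  funext b; simp only [sl, odE, od, s.p1_j, s.p2_j]

theorem sl_evE (s : Spl E3 E6 E9) (F : E9 → ℝ) (a : E3) : sl s (evE s F) a = ev (sl s F a) := by
  funext b; simp only [sl, evE, ev, s.p1_j, s.p2_j]

theorem sl_prE (s : Spl E3 E6 E9) (Φ : E6 → ℝ) (F : E9 → ℝ) (a : E3) :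
    sl s (prE s Φ F) a = fun b => sl s F a b - ip Φ (sl s F a) * Φ b := by
  funext b; simp only [sl, prE, s.p1_j, s.p2_j]

theorem sl_wtE (s : Spl E3 E6 E9) (a : ℝ) (F : E9 → ℝ) (x : E3) :
    sl s (wtE s a F) x = fun b => wt a b * sl s F x b := by
  funext b; simp only [sl, wtE, s.p2_j]

theorem H1.sl (s : Spl E3 E6 E9) {F : E9 → ℝ} {G : E9 → E9} (h : H1 F G) : ∀ᵐ a, H1 (sl s F a) (slG s G a) :=
  H1.slice s h

/-- the reflection of the ion as an isometry -/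
theorem exists_rf : ∃ T : E6 ≃ₗᵢ[ℝ] E6, (∀ y, T y = rf y) ∧ ∀ y, T.symm y = rf y := by
  obtain ⟨T, -, h1, h2⟩ := exists_refl_z
  obtain ⟨T', h3, h4⟩ := exists_dg2 T
  refine ⟨T', fun y => ?_, fun y => ?_⟩
  · rw [h3, rf, show (T : E3 → E3) = refl from funext h1]
  · rw [h4, rf, show (T.symm : E3 → E3) = refl from funext h2]

theorem rf_rf (y : E6) : rf (rf y) = y := by
  obtain ⟨T, h1, h2⟩ := exists_rf
  rw [← h1 y, ← h2, T.symm_apply_apply]

theorem norm_rf (y : E6) : ‖rf y‖ = ‖y‖ := by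
  obtain ⟨T, h1, -⟩ := exists_rf
  rw [← h1, T.norm_map]

theorem pos2_rf (i : Fin 2) (y : E6) : pos2 i (rf y) = refl (pos2 i y) := by
  fin_cases i <;> simp [rf, dg2]

theorem norm_pos2_le (i : Fin 2) (y : E6) : ‖pos2 i y‖ ≤ ‖y‖ := by
  have h := geoc_norm2 y
  refine abs_le_of_sq_le_sq' ?_ (norm_nonneg _) |>.2
  fin_cases i <;> simp only [Fin.zero_eta, Fin.mk_one, Fin.isValue] <;> nlinarith [sq_nonneg ‖pos2 0 y‖, sq_nonneg ‖pos2 1 y‖]

theorem Wx_nonneg {Z : ℝ} (hZ : 0 ≤ Z) (x : E3) (y : E6) : 0 ≤ Wx Z x y := by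
  unfold Wx; positivity

theorem one_le_wt {a : ℝ} (ha : 0 ≤ a) (y : E6) : 1 ≤ wt a y :=
  Real.one_le_exp (mul_nonneg ha (s14_w_pos y).le)

theorem wt_rf (a : ℝ) (y : E6) : wt a (rf y) = wt a y := by
  simp only [wt, s14_w, norm_rf]

end Crest.Agent.R335
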