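import Crest.Agent.R335.A3_Defs

/-!
# R335/A3_Ion1: inequalities on the slices (part of A3, sub-lead helper5; definitions in `A3_Defs`)
-/

set_option autoImplicit false

namespace Crest.Agent.R335

open MeasureTheory Set Filter Topology
open scoped Gradient RealInnerProductSpace ENNReal ContDiff
open Crest.MathPhysics.ThreeBody

variable {D Z γ E0 E : ℝ} {Φ f : E6 → ℝ} {GΦ G K : E6 → E6}

theorem a3ion1_ip_lin {g k : E6 → ℝ} (hf : MemLp f 2 volume) (hg : MemLp g 2 volume) (hk : MemLp k 2 volume)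
    (a b : ℝ) : ip k (fun y => a * f y + b * g y) = a * ip k f + b * ip k g := by
  have h1 : Integrable fun y => k y * f y := hk.integrable_mul hf
  have h2 : Integrable fun y => k y * g y := hk.integrable_mul hg
  unfold ip
  rw [← integral_const_mul, ← integral_const_mul, ← integral_add (h1.const_mul a) (h2.const_mul b)]
  congr 1; funext y; ring

theorem a3ion1_sf_self (E : ℝ) (x : E3) :
    sf D Z E x f G f G = qf (V2 D Z) f G + (V1 D x - E) * nsq f + wI Z x f f := by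
  rw [sf, bf_self, ip_self]

theorem a3ion1_sub (d : ℝ) : (fun y => f y - d * Φ y) = fun y => 1 * f y + -d * Φ y := by
  funext y; ring

theorem a3ion1_dec (f Φ : E6 → ℝ) (d : ℝ) : f = fun y => d * Φ y + 1 * (f y - d * Φ y) := by
  funext y; ring

theorem wI_self_nonneg (hZ : 0 ≤ Z) (x : E3) (f : E6 → ℝ) : 0 ≤ wI Z x f f := by
  exact integral_nonneg fun y => mul_nonneg (Wx_nonneg hZ x y) (mul_self_nonneg _)

/-- `fb_Wx`, `FB.int_mul` -/
theorem wI_lin {g k : E6 → ℝ} {J : E6 → E6} (hf : H1 f G) (hg : H1 g K) (hk : H1 k J) (x : E3) (a b : ℝ) :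
    wI Z x k (fun y => a * f y + b * g y) = a * wI Z x k f + b * wI Z x k g := by
  have h1 := (fb_Wx Z x).int_mul hk hf
  have h2 := (fb_Wx Z x).int_mul hk hg
  unfold wI
  rw [← integral_const_mul, ← integral_const_mul, ← integral_add (h1.const_mul a) (h2.const_mul b)]
  congr 1; funext y; ring

theorem wI_comm (x : E3) (f g : E6 → ℝ) : wI Z x f g = wI Z x g f := by
  unfold wI
  congr 1; funext y; ring

theorem Ion.pyth (h : Ion D Z γ E0 Φ GΦ) (hf : MemLp f 2 volume) :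
    ip Φ (fun y => f y - ip Φ f * Φ y) = 0 ∧ nsq f = ip Φ f ^ 2 + nsq fun y => f y - ip Φ f * Φ y := by
  have hΦ := h.eig.h1.mf
  rw [a3ion1_sub, a3ion1_ip_lin hf hΦ hΦ, nsq_lin hf hΦ, ip_self, h.nrm, ip_comm (f := f)]
  constructor <;> ring

/-- `bf_self`, `ip_self`, `gap`, `ip_sq_le` -/
theorem Ion.plain (h : Ion D Z γ E0 Φ GΦ) (E : ℝ) (x : E3) (hf : H1 f G) :
    (E0 - E + V1 D x) * nsq f ≤ sf D Z E x f G f G := by
  have h1 := h.gap f G hf
  have h2 := ip_sq_le h.eig.h1.mf hf.mf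
  have h3 := wI_self_nonneg (Z := Z) (by linarith [h.Zge]) x f
  rw [h.nrm, one_mul] at h2
  have h4 := mul_le_mul_of_nonneg_left h2 h.γpos.le
  rw [a3ion1_sf_self]
  linarith

theorem Ion.orth (h : Ion D Z γ E0 Φ GΦ) (E : ℝ) (x : E3) (hf : H1 f G) (h0 : ip Φ f = 0) :
    (E0 - E + V1 D x + γ) * nsq f ≤ sf D Z E x f G f G := by
  have h1 := h.gap f G hf
  have h3 := wI_self_nonneg (Z := Z) (by linarith [h.Zge]) x f
  rw [h0] at h1
  rw [a3ion1_sf_self]
  linarith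

theorem Ion.wI_split (h : Ion D Z γ E0 Φ GΦ) (x : E3) (hf : H1 f G) :
    wI Z x Φ f = ip Φ f * wI Z x Φ Φ + wI Z x Φ fun y => f y - ip Φ f * Φ y := by
  have hΦ := h.eig.h1
  have hg := hf.sub (hΦ.const_mul (ip Φ f))
  have h1 := wI_lin (Z := Z) hΦ hg hΦ x (ip Φ f) 1
  rw [← a3ion1_dec f Φ (ip Φ f), one_mul] at h1
  exact h1

/-- `f = d Φ + g`, `wI f f = d² wI Φ Φ + 2 d wI Φ g + wI g g` -/
theorem Ion.full (h : Ion D Z γ E0 Φ GΦ) (E : ℝ) (x : E3) (hf : H1 f G) :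
    (E0 - E + V1 D x) * nsq f + γ * nsq (fun y => f y - ip Φ f * Φ y) + wI Z x Φ Φ * ip Φ f ^ 2 +
      2 * ip Φ f * wI Z x Φ (fun y => f y - ip Φ f * Φ y) ≤ sf D Z E x f G f G := by
  have hΦ := h.eig.h1
  have hg := hf.sub (hΦ.const_mul (ip Φ f))
  have h1 := h.gap f G hf
  have h2 := (h.pyth hf.mf).2
  have h3 := wI_self_nonneg (Z := Z) (by linarith [h.Zge]) x fun y => f y - ip Φ f * Φ y
  have h4 := wI_lin (Z := Z) hΦ hg hf x (ip Φ f) 1
  have h5 := wI_lin (Z := Z) hΦ hg hg x (ip Φ f) 1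
  have h6 := h.wI_split x hf
  rw [← a3ion1_dec f Φ (ip Φ f), one_mul] at h4 h5
  rw [wI_comm x f Φ, wI_comm x f (fun y => f y - ip Φ f * Φ y), h5, h6,
    wI_comm x (fun y => f y - ip Φ f * Φ y) Φ] at h4
  rw [a3ion1_sf_self, h4]
  have h7 : γ * nsq f = γ * ip Φ f ^ 2 + γ * nsq fun y => f y - ip Φ f * Φ y := by
    rw [← mul_add, ← h2]
  linarith

/-- `f = g + d Φ`, a.e. `G = K + d • GΦ` (`H1.unique`), `bf_lin`, `bf Φ g = E0 * ip Φ g = 0` -/
theorem Ion.proj (h : Ion D Z γ E0 Φ GΦ) (E : ℝ) (x : E3) (hf : H1 f G)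
    (hg : H1 (fun y => f y - ip Φ f * Φ y) K) :
    (E0 - E + V1 D x + γ) * nsq (fun y => f y - ip Φ f * Φ y) +
        ip Φ f * wI Z x Φ (fun y => f y - ip Φ f * Φ y) ≤
      sf D Z E x f G (fun y => f y - ip Φ f * Φ y) K := by
  have hΦ := h.eig.h1
  have h0 := (h.pyth hf.mf).1
  have h1 := h.gap _ K hg
  have h3 := wI_self_nonneg (Z := Z) (by linarith [h.Zge]) x fun y => f y - ip Φ f * Φ y
  have h5 := wI_lin (Z := Z) hΦ hg hg x (ip Φ f) 1
  have h6 := a3ion1_ip_lin hΦ.mf hg.mf hg.mf (ip Φ f) 1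
  have h7 := bf_lin (fb_V2 D Z) hΦ hg hg (ip Φ f) 1
  have h8 : H1 f fun y => ip Φ f • GΦ y + (1 : ℝ) • K y := by
    have := (hΦ.const_mul (ip Φ f)).add (hg.const_mul 1)
    rwa [← a3ion1_dec f Φ (ip Φ f)] at this
  have h9 : bf (V2 D Z) f G (fun y => f y - ip Φ f * Φ y) K =
      bf (V2 D Z) f (fun y => ip Φ f • GΦ y + (1 : ℝ) • K y) (fun y => f y - ip Φ f * Φ y) K := by
    unfold bf
    congr 2
    refine integral_congr_ae ?_
    filter_upwards [hf.unique h8 (ae_eq_refl _)] with y hy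
    rw [hy]
  rw [← a3ion1_dec f Φ (ip Φ f), one_mul] at h5 h6 h7
  rw [h.eig.eq _ K hg, h0, bf_self] at h7
  rw [ip_comm (g := Φ), h0, ip_self, ip_comm (g := f)] at h6
  rw [wI_comm x _ f, wI_comm x _ Φ] at h5
  rw [h0] at h1
  rw [sf, h9, h7, h6, h5]
  linarith

/-- `ip Φ (w f) = ip (w Φ) f` -/
theorem Ion.weight (h : Ion D Z γ E0 Φ GΦ) (E : ℝ) (x : E3) {a M : ℝ} (hf : MemLp f 2 volume)
    (hw : H1 (fun y => wt a y * f y) K) (h1 : MemLp (fun y => wt a y * Φ y) 2 volume)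
    (h2 : nsq (fun y => wt a y * Φ y) ≤ M) :
    (E0 - E + V1 D x + γ) * nsq (fun y => wt a y * f y) - γ * M * nsq f ≤
      sf D Z E x (fun y => wt a y * f y) K (fun y => wt a y * f y) K := by
  have h3 := h.gap _ K hw
  have h4 := wI_self_nonneg (Z := Z) (by linarith [h.Zge]) x fun y => wt a y * f y
  have h5 : ip Φ (fun y => wt a y * f y) = ip (fun y => wt a y * Φ y) f := by
    unfold ip
    congr 1; funext y; ring
  have h6 := (ip_sq_le h1 hf).trans (mul_le_mul_of_nonneg_right h2 nsq_nonneg)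
  have h7 := mul_le_mul_of_nonneg_left h6 h.γpos.le
  rw [h5] at h3
  rw [a3ion1_sf_self]
  linarith

end Crest.Agent.R335
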