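import Crest.Agent.R335.A3_Defs

/-!
# R335/A3_Par: parity in the ion variables (part of A3, sub-lead helper5; definitions in `A3_Defs`)
-/

set_option autoImplicit false

namespace Crest.Agent.R335

open MeasureTheory Set Filter Topology
open scoped Gradient RealInnerProductSpace ENNReal ContDiff
open Crest.MathPhysics.ThreeBody

variable {f g : E6 → ℝ}

theorem a3par_mp : MeasurePreserving rf (volume : Measure E6) volume := by
  obtain ⟨T, h1, -⟩ := exists_rf
  rw [← show (T : E6 → E6) = rf from funext h1]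
  exact T.measurePreserving

/-- `exists_rf`, `LinearIsometryEquiv.measurePreserving` -/
theorem integral_rf (f : E6 → ℝ) : ∫ y, f (rf y) = ∫ y, f y := by
  obtain ⟨T, h1, -⟩ := exists_rf
  simp only [← h1]
  exact T.measurePreserving.integral_comp T.toHomeomorph.measurableEmbedding f

theorem ae_rf {p : E6 → Prop} (h : ∀ᵐ y, p y) : ∀ᵐ y, p (rf y) := by
  exact a3par_mp.quasiMeasurePreserving.ae h

theorem memLp_rf (hf : MemLp f 2 volume) : MemLp (fun y => f (rf y)) 2 volume := by
  exact hf.comp_measurePreserving a3par_mp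

theorem integrable_rf (hf : Integrable f) : Integrable fun y => f (rf y) := by
  exact a3par_mp.integrable_comp_of_integrable hf

theorem od_rf (f : E6 → ℝ) (y : E6) : od f (rf y) = -od f y := by
  simp only [od, rf_rf]
  ring

theorem ev_rf (f : E6 → ℝ) (y : E6) : ev f (rf y) = ev f y := by
  simp only [ev, rf_rf]
  ring

theorem od_add_ev (f : E6 → ℝ) (y : E6) : od f y + ev f y = f y := by
  simp only [od, ev]
  ring

theorem memLp_od (hf : MemLp f 2 volume) : MemLp (od f) 2 volume := by
  have h := (hf.sub (memLp_rf hf)).const_mul (1 / 2)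
  refine h.ae_eq (Eventually.of_forall fun y => ?_)
  simp only [od, Pi.sub_apply]
  ring

theorem memLp_ev (hf : MemLp f 2 volume) : MemLp (ev f) 2 volume := by
  have h := (hf.add (memLp_rf hf)).const_mul (1 / 2)
  refine h.ae_eq (Eventually.of_forall fun y => ?_)
  simp only [ev, Pi.add_apply]
  ring

/-- the integral of an odd function -/
theorem integral_odd (h : ∀ᵐ y, f (rf y) = -f y) : ∫ y, f y = 0 := by
  have h1 := integral_rf f
  rw [integral_congr_ae h, integral_neg] at h1
  linarith

theorem ip_even_odd (hf : ∀ᵐ y, f (rf y) = f y) (hg : ∀ᵐ y, g (rf y) = -g y) : ip f g = 0 := by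
  refine integral_odd ?_
  filter_upwards [hf, hg] with y h1 h2
  rw [h1, h2, mul_neg]

theorem nsq_od_ev (hf : MemLp f 2 volume) : nsq f = nsq (od f) + nsq (ev f) := by
  have h1 := nsq_lin (memLp_od hf) (memLp_ev hf) 1 1
  have h2 : ip (od f) (ev f) = 0 := by
    rw [ip_comm]
    exact ip_even_odd (Eventually.of_forall (ev_rf f)) (Eventually.of_forall (od_rf f))
  simp only [one_mul, od_add_ev, h2, one_pow, mul_zero, add_zero] at h1
  exact h1

theorem V2_rf (D Z : ℝ) (y : E6) : V2 D Z (rf y) = V2 D Z y := by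
  obtain ⟨T, hT, h1, -⟩ := exists_refl_z
  simp only [V2, pos2_rf, ← h1, V1_sym D (Or.inr hT), ← map_sub, T.norm_map]

/-- `H1.comp_iso`, `H1.unique`: a.e. `K y = (1/2) • (G y - T (G (T y)))`; `⟪G - K, K⟫` and `V2 (ev f) (od f)` are odd -/
theorem bf_od {D Z : ℝ} {G K : E6 → E6} (hf : H1 f G) (ho : H1 (od f) K) :
    bf (V2 D Z) f G (od f) K = qf (V2 D Z) (od f) K ∧ ip f (od f) = nsq (od f) := by
  obtain ⟨T, h1, h2⟩ := exists_rf
  have a1 : H1 (od f) fun y => (1 / 2 : ℝ) • (G y - T.symm (G (T y))) := by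
    refine ((hf.sub (hf.comp_iso T)).const_mul (1 / 2)).congr (Eventually.of_forall fun y => ?_)
      EventuallyEq.rfl
    simp only [od, h1]
    ring
  have a2 := ho.unique a1 EventuallyEq.rfl
  have a3 : ∫ y, (⟪G y, K y⟫ - ‖K y‖ ^ 2) = 0 := by
    rw [← integral_odd (f := fun y => (‖G y‖ ^ 2 - ‖G (rf y)‖ ^ 2) / 4)
      (Eventually.of_forall fun y => by simp only [rf_rf]; ring)]
    refine integral_congr_ae ?_
    filter_upwards [a2] with y hy
    rw [hy, ← h1, ← T.symm.norm_map (G (T y)), inner_smul_right, norm_smul, mul_pow, norm_sub_sq_real,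
      inner_sub_right, real_inner_self_eq_norm_sq, Real.norm_eq_abs, sq_abs]
    ring
  have a4 : ∫ y, (V2 D Z y * (f y * od f y) - V2 D Z y * od f y ^ 2) = 0 := by
    refine integral_odd (Eventually.of_forall fun y => ?_)
    simp only [V2_rf, od, rf_rf]
    ring
  have a5 : ∫ y, (f y * od f y - od f y ^ 2) = 0 := by
    refine integral_odd (Eventually.of_forall fun y => ?_)
    simp only [od, rf_rf]
    ring
  rw [integral_sub (hf.int_inner ho) ho.int_grad_sq] at a3
  rw [integral_sub ((fb_V2 D Z).int_mul hf ho) ((fb_V2 D Z).int _ _ ho)] at a4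
  rw [integral_sub (hf.int_mul ho) ho.int_sq] at a5
  simp only [bf, qf, ip, nsq]
  constructor <;> linarith

theorem h1_ev {G : E6 → E6} (hf : H1 f G) : ∃ K, H1 (ev f) K := by
  obtain ⟨T, h1, -⟩ := exists_rf
  refine ⟨_, ((hf.add (hf.comp_iso T)).const_mul (1 / 2)).congr (Eventually.of_forall fun y => ?_)
    EventuallyEq.rfl⟩
  simp only [ev, h1]
  ring

end Crest.Agent.R335
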