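import Crest.Agent.R335.A3_Defs

/-!
# R335/A3_Sl: the form in slices (part of A3, sub-lead helper5; definitions in `A3_Defs`)
-/

set_option autoImplicit false

namespace Crest.Agent.R335

open MeasureTheory Set Filter Topology
open scoped Gradient RealInnerProductSpace ENNReal ContDiff
open Crest.MathPhysics.ThreeBody

variable {s : Spl E3 E6 E9} {D Z E : ℝ} {U Y : E9 → ℝ} {GU GY : E9 → E9}

/-- `Wx = V3 - V1 - V2` (`Slot.pot`, `Spl.j_p`, `FB.comp_p1`, `FB.comp_p2`, `FB.add`, `FB.const_mul`) -/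
theorem a3_fbW (hs : Slot s) (Z : ℝ) : FB fun X => Wx Z (s.p1 X) (s.p2 X) := by
  have h := (fb_V3 0 Z).add (((FB.comp_p1 s (fb_V1 0)).add (FB.comp_p2 s (fb_V2 0 Z))).const_mul (-1))
  have e : (fun X => Wx Z (s.p1 X) (s.p2 X)) =
      fun X => V3 0 Z X + -1 * (V1 0 (s.p1 X) + V2 0 Z (s.p2 X)) := by
    funext X
    have := hs.pot 0 Z (s.p1 X) (s.p2 X)
    rw [s.j_p] at this
    rw [this]; ring
  rw [e]; exact h

/-- `Y • i1 K` is the difference of the gradient of `φ Y` and of `φ • GY` -/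
theorem a3_memLp_K (hY : H1 Y GY) {φ : E3 → ℝ} {K : E3 → E3} (hφ : AEStronglyMeasurable φ volume) {M : ℝ}
    (hM : ∀ a, |φ a| ≤ M)
    (hT : H1 (fun x => φ (s.p1 x) * Y x) fun x => φ (s.p1 x) • GY x + Y x • s.i1 (K (s.p1 x))) :
    MemLp (fun x => Y x • s.i1 (K (s.p1 x))) 2 volume := by
  have h1 : MemLp (fun x => φ (s.p1 x) • GY x) 2 volume :=
    hY.mG.of_le_mul (c := M) ((s12_aesm s hφ).smul hY.mG.1) (.of_forall fun x => by
      rw [norm_smul, Real.norm_eq_abs]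
      exact mul_le_mul_of_nonneg_right (hM _) (norm_nonneg _))
  have h2 := hT.mG.sub h1
  refine h2.ae_eq (.of_forall fun x => ?_)
  simp

theorem a3sl_bdd {h : E9 → ℝ} (hh : Integrable h) {φ : E3 → ℝ} (hφ : AEStronglyMeasurable φ volume) {M : ℝ}
    (hM : ∀ a, |φ a| ≤ M) : Integrable fun x => φ (s.p1 x) * h x :=
  hh.bdd_mul (c := M) (s12_aesm s hφ) (.of_forall fun _ => hM _)

theorem a3sl_add {X : Type} [MeasurableSpace X] {μ : Measure X} {f g : X → ℝ} (hf : Integrable f μ)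
    (hg : Integrable g μ) : Integrable (fun x => f x + g x) μ := hf.add hg

theorem a3sl_inner (J : E9) (c : ℝ) (k : E3) : ⟪J, c • s.i1 k⟫ = c * ⟪s.p1 J, k⟫ := by
  rw [real_inner_smul_right, s.inn, s.p1_i1, s.p2_i1, inner_zero_right, add_zero]

/-- `Y ⟪p1 J, K⟫ = ⟪J, Y • i1 K⟫` (`Spl.inn`) -/
theorem a3_int_grad (hY : H1 Y GY) {φ : E3 → ℝ} {K : E3 → E3} (hφ : AEStronglyMeasurable φ volume) {M : ℝ}
    (hM : ∀ a, |φ a| ≤ M)
    (hT : H1 (fun x => φ (s.p1 x) * Y x) fun x => φ (s.p1 x) • GY x + Y x • s.i1 (K (s.p1 x)))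
    {J : E9 → E9} (hJ : MemLp J 2 volume) :
    Integrable (fun x => φ (s.p1 x) * ⟪s.p1 (J x), s.p1 (GY x)⟫) ∧
      Integrable fun x => Y x * ⟪s.p1 (J x), K (s.p1 x)⟫ := by
  refine ⟨a3sl_bdd (s12_int_inner (s.p1.comp_memLp' hJ) (s.p1.comp_memLp' hY.mG)) hφ hM, ?_⟩
  have h := s12_int_inner hJ (a3_memLp_K hY hφ hM hT)
  simpa only [a3sl_inner] using h

/-- Split `⟪GU, φ GY + Y i1 K⟫ = φ ⟪p1 GU, p1 GY⟫ + Y ⟪p1 GU, K⟫ + φ ⟪p2 GU, p2 GY⟫` (`Spl.inn`) and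
`V3 = V1 + V2 + Wx`.  The functions `⟪p2 GU, p2 GY⟫`, `V2 U Y`, `V1 U Y`, `U Y`, `Wx U Y` are integrable on `E9`
(`FB.int_mul`); use `Spl.integral_eq`, `Spl.integrable_fibre` for them (times the bounded function `φ ∘ p1`). -/
theorem a3_slice (hs : Slot s) (D Z E : ℝ) (hU : H1 U GU) (hY : H1 Y GY) {φ : E3 → ℝ} {K : E3 → E3}
    (hφ : AEStronglyMeasurable φ volume) {M : ℝ} (hM : ∀ a, |φ a| ≤ M)
    (hT : H1 (fun x => φ (s.p1 x) * Y x) fun x => φ (s.p1 x) • GY x + Y x • s.i1 (K (s.p1 x))) :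
    Integrable (fun a => φ a * sf D Z E a (sl s U a) (slG s GU a) (sl s Y a) (slG s GY a)) ∧
      bf (V3 D Z) U GU (fun x => φ (s.p1 x) * Y x) (fun x => φ (s.p1 x) • GY x + Y x • s.i1 (K (s.p1 x))) -
          E * ip U (fun x => φ (s.p1 x) * Y x) =
        (1 / 2) * (∫ x, (φ (s.p1 x) * ⟪s.p1 (GU x), s.p1 (GY x)⟫ + Y x * ⟪s.p1 (GU x), K (s.p1 x)⟫)) +
          ∫ a, φ a * sf D Z E a (sl s U a) (slG s GU a) (sl s Y a) (slG s GY a) := by
  have i1 : Integrable fun x => ⟪s.p2 (GU x), s.p2 (GY x)⟫ :=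
    s12_int_inner (s.p2.comp_memLp' hU.mG) (s.p2.comp_memLp' hY.mG)
  have i2 := (FB.comp_p2 s (fb_V2 D Z)).int_mul hU hY
  have i3 := ((FB.comp_p1 s (fb_V1 D)).sub_const E).int_mul hU hY
  have i4 := (a3_fbW hs Z).int_mul hU hY
  obtain ⟨h, hh⟩ : ∃ h : E9 → ℝ, h = fun x => (1 / 2) * ⟪s.p2 (GU x), s.p2 (GY x)⟫ +
      V2 D Z (s.p2 x) * (U x * Y x) + (V1 D (s.p1 x) - E) * (U x * Y x) +
        Wx Z (s.p1 x) (s.p2 x) * (U x * Y x) := ⟨_, rfl⟩
  have ih : Integrable h := by rw [hh]; exact (((i1.const_mul _).add i2).add i3).add i4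
  have iφ := a3sl_bdd (s := s) ih hφ hM
  have key : (fun a => ∫ b, φ (s.p1 (s.j a b)) * h (s.j a b)) =ᵐ[volume]
      fun a => φ a * sf D Z E a (sl s U a) (slG s GU a) (sl s Y a) (slG s GY a) := by
    filter_upwards [(s.integrable_fibre i1).1, (s.integrable_fibre i2).1, (s.integrable_fibre i3).1,
      (s.integrable_fibre i4).1] with a j1 j2 j3 j4
    simp only [s.p1_j]
    rw [integral_const_mul, hh]
    simp only []
    rw [integral_add (a3sl_add (a3sl_add (j1.const_mul _) j2) j3) j4,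
      integral_add (a3sl_add (j1.const_mul _) j2) j3,
      integral_add (j1.const_mul _) j2, integral_const_mul]
    simp only [s.p1_j, s.p2_j, integral_const_mul, sf, bf, ip, wI, sl, slG]
  refine ⟨(s.integrable_fibre iφ).2.congr key, ?_⟩
  obtain ⟨k1, k2⟩ := a3_int_grad hY hφ hM hT hU.mG
  have l1 := hU.int_inner hT
  have l2 := (fb_V3 D Z).int_mul hU hT
  have l3 := hU.int_mul hT
  rw [← integral_congr_ae key, ← s.integral_eq iφ, bf, ip, ← integral_const_mul, ← integral_const_mul,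
    ← integral_const_mul, ← integral_add (l1.const_mul _) l2,
    ← integral_sub (a3sl_add (l1.const_mul _) l2) (l3.const_mul _),
    ← integral_add ((a3sl_add k1 k2).const_mul _) iφ]
  refine integral_congr_ae (.of_forall fun x => ?_)
  have e1 := hs.pot D Z (s.p1 x) (s.p2 x)
  rw [s.j_p] at e1
  simp only [hh, e1, inner_add_right, a3sl_inner, real_inner_smul_right (GU x) (GY x), s.inn (GU x) (GY x)]
  ring

end Crest.Agent.R335
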