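import Crest.Agent.R335.A3_Sl

/-!
# R335/A3_TI1: tested inequalities: the eigenfunction and its projection (part of A3, sub-lead helper5; definitions in `A3_Defs`)
-/

set_option autoImplicit false

namespace Crest.Agent.R335

open MeasureTheory Set Filter Topology
open scoped Gradient RealInnerProductSpace ENNReal ContDiff
open Crest.MathPhysics.ThreeBody

variable {s : Spl E3 E6 E9} {D Z E : ℝ} {U Y : E9 → ℝ} {GU GY : E9 → E9}

/-- `a3_slice` and `hU.eq` -/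
theorem ti_of_orth (hs : Slot s) (hU : Eig (V3 D Z) E U GU) (hY : H1 Y GY)
    (H : ∀ (φ : E3 → ℝ) (K : E3 → E3) (M : ℝ), AEStronglyMeasurable φ volume → (∀ a, |φ a| ≤ M) →
      H1 (fun x => φ (s.p1 x) * Y x) (fun x => φ (s.p1 x) • GY x + Y x • s.i1 (K (s.p1 x))) →
      ∫ x, (φ (s.p1 x) * ⟪s.p1 (GU x), s.p1 (GY x)⟫ + Y x * ⟪s.p1 (GU x), K (s.p1 x)⟫) =
        ∫ x, (φ (s.p1 x) * ‖s.p1 (GY x)‖ ^ 2 + Y x * ⟪s.p1 (GY x), K (s.p1 x)⟫)) :
    TI s Y GY fun a => sf D Z E a (sl s U a) (slG s GU a) (sl s Y a) (slG s GY a) := by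
  intro φ K hφ h0 ⟨M, hM⟩ hT
  have hM' : ∀ a, |φ a| ≤ M := fun a => by rw [abs_of_nonneg (h0 a)]; exact hM a
  obtain ⟨i, e⟩ := a3_slice hs D Z E hU.h1 hY hφ hM' hT
  refine ⟨i, le_of_eq ?_⟩
  rw [← H φ K M hφ hM' hT, ← e, hU.eq _ _ hT, sub_self]

theorem ti_plain (hs : Slot s) (hU : Eig (V3 D Z) E U GU) :
    TI s U GU fun a => sf D Z E a (sl s U a) (slG s GU a) (sl s U a) (slG s GU a) := by
  exact ti_of_orth hs hU hU.h1 fun φ K M _ _ _ => by simp only [real_inner_self_eq_norm_sq]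

/-- `d a = ip Φ (sl s U a)` is in `H¹` with gradient `Gd a = ∫ b, Φ b • p1 (GU (j a b))` (`H1.fibre_ip`), `GY = GU - (Φ • i1 Gd + d • i2 GΦ)`
(`H1.tensor`, `H1.sub`), so `p1 GU = p1 GY + Φ • Gd`.  For a.e. `a`: `∫ b, Φ b * Y (j a b) = 0` and
`∫ b, Φ b • p1 (GY (j a b)) = Gd a - (∫ Φ²) • Gd a = 0`.  Use `ti_of_orth`, `a3_int_grad` (with `J = GY` and with
`J = Φ • i1 Gd`, `s11_memLp`) and `Spl.integral_eq`. -/
theorem ti_proj (hs : Slot s) (hU : Eig (V3 D Z) E U GU) {Φ : E6 → ℝ} {GΦ : E6 → E6} (hΦ : H1 Φ GΦ)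
    (hn : nsq Φ = 1) : ∃ GY, H1 (prE s Φ U) GY ∧
      TI s (prE s Φ U) GY fun a => sf D Z E a (sl s U a) (slG s GU a) (sl s (prE s Φ U) a) (slG s GY a) := by
  have hd := H1.fibre_ip s hU.h1 hΦ.mf
  set Gd : E3 → E3 := fun a => ∫ b, Φ b • s.p1 (GU (s.j a b)) with hGd
  have hY : H1 (prE s Φ U) fun x => GU x - (Φ (s.p2 x) • s.i1 (Gd (s.p1 x)) +
      (∫ b, Φ b * U (s.j (s.p1 x) b)) • s.i2 (GΦ (s.p2 x))) := hU.h1.sub (H1.tensor s hd hΦ)
  refine ⟨_, hY, ti_of_orth hs hU hY fun φ K M hφ hM hT => ?_⟩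
  set GY : E9 → E9 := fun x => GU x - (Φ (s.p2 x) • s.i1 (Gd (s.p1 x)) +
      (∫ b, Φ b * U (s.j (s.p1 x) b)) • s.i2 (GΦ (s.p2 x))) with hGY
  have e1 : ∀ x, s.p1 (GY x) = s.p1 (GU x) - Φ (s.p2 x) • Gd (s.p1 x) := fun x => by
    simp only [hGY, map_sub, map_add, map_smul, s.p1_i1, s.p1_i2, smul_zero, add_zero]
  have mJ : MemLp (fun x => Φ (s.p2 x) • s.i1 (Gd (s.p1 x))) 2 volume :=
    s11_memLp s.swap hΦ.mf (s.i1.comp_memLp' hd.mG)
  obtain ⟨i1, i2⟩ := a3_int_grad hY hφ hM hT hY.mG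
  obtain ⟨i3, i4⟩ := a3_int_grad hY hφ hM hT mJ
  simp only [map_smul, s.p1_i1] at i3 i4
  have z1 : ∫ x, φ (s.p1 x) * ⟪Φ (s.p2 x) • Gd (s.p1 x), s.p1 (GY x)⟫ = 0 := by
    rw [s.integral_eq i3]
    refine integral_eq_zero_of_ae ?_
    filter_upwards [(s12b_slice s hU.h1.mG).1] with a ha
    have j1 : Integrable fun b => Φ b • s.p1 (GU (s.j a b)) := 
      memLp_one_iff_integrable.1 ((s.p1.comp_memLp' ha).smul hΦ.mf)
    have j2 : Integrable fun b => Φ b ^ 2 • Gd a := hΦ.int_sq.smul_const _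
    have e2 : ∀ b, φ a * ⟪Φ b • Gd a, s.p1 (GY (s.j a b))⟫ =
        φ a * ⟪Gd a, Φ b • s.p1 (GU (s.j a b)) - Φ b ^ 2 • Gd a⟫ := fun b => by
      rw [e1, s.p1_j, s.p2_j, inner_smul_left, inner_sub_right, inner_sub_right, inner_smul_right, inner_smul_right,
        inner_smul_right]
      simp only [conj_trivial]
      ring
    simp only [s.p1_j, s.p2_j, Pi.zero_apply, e2]
    have j3 : Integrable fun b => Φ b • s.p1 (GU (s.j a b)) - Φ b ^ 2 • Gd a := j1.sub j2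
    rw [integral_const_mul, integral_inner j3, integral_sub j1 j2, integral_smul_const]
    have : ∫ b, Φ b ^ 2 = 1 := hn
    rw [this, one_smul, sub_self, inner_zero_right, mul_zero]
  have z2 : ∫ x, prE s Φ U x * ⟪Φ (s.p2 x) • Gd (s.p1 x), K (s.p1 x)⟫ = 0 := by
    rw [s.integral_eq i4]
    refine integral_eq_zero_of_ae ?_
    filter_upwards [(s12b_slice s hU.h1.mf).1] with a ha
    have j1 : Integrable fun b => Φ b * U (s.j a b) := hΦ.mf.integrable_mul ha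
    have j2 : Integrable fun b => ip Φ (sl s U a) * Φ b ^ 2 := hΦ.int_sq.const_mul _
    have e2 : ∀ b, prE s Φ U (s.j a b) * ⟪Φ b • Gd a, K a⟫ =
        ⟪Gd a, K a⟫ * (Φ b * U (s.j a b) - ip Φ (sl s U a) * Φ b ^ 2) := fun b => by
      simp only [prE, s.p1_j, s.p2_j, inner_smul_left, conj_trivial]
      ring
    simp only [s.p1_j, s.p2_j, Pi.zero_apply, e2]
    rw [integral_const_mul, integral_sub j1 j2, integral_const_mul]
    have h1 : ∫ b, Φ b ^ 2 = 1 := hn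
    have h2 : ∫ b, Φ b * U (s.j a b) = ip Φ (sl s U a) := rfl
    rw [h1, h2, mul_one, sub_self, mul_zero]
  have e3 : ∀ x, φ (s.p1 x) * ⟪s.p1 (GU x), s.p1 (GY x)⟫ + prE s Φ U x * ⟪s.p1 (GU x), K (s.p1 x)⟫ =
      (φ (s.p1 x) * ⟪s.p1 (GY x), s.p1 (GY x)⟫ + prE s Φ U x * ⟪s.p1 (GY x), K (s.p1 x)⟫) +
        (φ (s.p1 x) * ⟪Φ (s.p2 x) • Gd (s.p1 x), s.p1 (GY x)⟫ +
          prE s Φ U x * ⟪Φ (s.p2 x) • Gd (s.p1 x), K (s.p1 x)⟫) := fun x => by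
    have : s.p1 (GU x) = s.p1 (GY x) + Φ (s.p2 x) • Gd (s.p1 x) := by rw [e1, sub_add_cancel]
    rw [this, inner_add_left, inner_add_left]
    ring
  have i12 : Integrable fun x => φ (s.p1 x) * ⟪s.p1 (GY x), s.p1 (GY x)⟫ +
      prE s Φ U x * ⟪s.p1 (GY x), K (s.p1 x)⟫ := i1.add i2
  have i34 : Integrable fun x => φ (s.p1 x) * ⟪Φ (s.p2 x) • Gd (s.p1 x), s.p1 (GY x)⟫ +
      prE s Φ U x * ⟪Φ (s.p2 x) • Gd (s.p1 x), K (s.p1 x)⟫ := i3.add i4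
  rw [integral_congr_ae (Eventually.of_forall e3), integral_add i12 i34, integral_add i3 i4, z1, z2, add_zero,
    add_zero]
  simp only [real_inner_self_eq_norm_sq]
  rfl

end Crest.Agent.R335
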