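import Crest.Agent.R335.A3_TI1

/-!
# R335/A3_TI2: tested inequalities: the odd part (part of A3, sub-lead helper5; definitions in `A3_Defs`)
-/

set_option autoImplicit false

namespace Crest.Agent.R335

open MeasureTheory Set Filter Topology
open scoped Gradient RealInnerProductSpace ENNReal ContDiff
open Crest.MathPhysics.ThreeBody

variable {s : Spl E3 E6 E9} {D Z E : ℝ} {U Y : E9 → ℝ} {GU GY : E9 → E9}

/-- the reflection of the ion variables is an isometry of `ℝ⁹` (`geoc_iso`, `exists_rf`, `Spl.norm_sq`) -/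
theorem a3_exists_Tb (s : Spl E3 E6 E9) : ∃ T : E9 ≃ₗᵢ[ℝ] E9, (∀ X, T X = s.j (s.p1 X) (rf (s.p2 X))) ∧
    (∀ X, T.symm X = T X) ∧ ∀ X, s.p1 (T X) = s.p1 X := by
  obtain ⟨R, hR, -⟩ := exists_rf
  have hi : ∀ X : E9, s.j (s.p1 (s.j (s.p1 X) (rf (s.p2 X)))) (rf (s.p2 (s.j (s.p1 X) (rf (s.p2 X))))) = X :=
    fun X => by rw [s.p1_j, s.p2_j, rf_rf, s.j_p]
  obtain ⟨T, h1, h2⟩ := geoc_iso (fun X : E9 => s.j (s.p1 X) (rf (s.p2 X)))
    (fun X : E9 => s.j (s.p1 X) (rf (s.p2 X)))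
    (fun X Y => by simp only [← hR, Spl.j, map_add]; abel)
    (fun c X => by simp only [← hR, Spl.j, map_smul, smul_add]) hi hi
    (fun X => by rw [s.norm_sq, s.p1_j, s.p2_j, norm_rf, ← s.norm_sq])
  exact ⟨T, h1, fun X => by rw [h1, h2], fun X => by rw [h1, s.p1_j]⟩
/-- `H1.comp_iso` -/
theorem a3_h1_evE (hU : H1 U GU) : ∃ GN, H1 (evE s U) GN := by
  obtain ⟨T, h1, -, -⟩ := a3_exists_Tb s
  have h := (hU.add (hU.comp_iso T)).const_mul (1 / 2)
  have e : evE s U = fun X => 1 / 2 * (U X + U (T X)) := by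
    funext X; rw [evE, h1]; ring
  exact ⟨_, e ▸ h⟩
theorem a3ti2_odd (T : E9 ≃ₗᵢ[ℝ] E9) {h : E9 → ℝ} (hh : ∀ X, h (T X) = -h X) : ∫ X, h X = 0 := by
  have h1 : ∫ X, h (T X) = ∫ X, h X :=
    T.measurePreserving.integral_comp T.toHomeomorph.measurableEmbedding h
  simp only [hh, integral_neg] at h1
  linarith


/-- `GY X = (1/2) • (GU X - T (GU (T X)))` (`H1.comp_iso`), so `p1 (GY X) = (p1 (GU X) - p1 (GU (T X))) / 2` is odd under `T` and
`p1 (GU X) - p1 (GY X)` is even.  Use `ti_of_orth`, `a3_int_grad` (with `J = GY` and `J = GU - GY`); the integral of an odd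
function vanishes (`T.measurePreserving.integral_comp'` or `integral_comp`). -/
theorem ti_odd (hs : Slot s) (hU : Eig (V3 D Z) E U GU) : ∃ GY, H1 (odE s U) GY ∧
    TI s (odE s U) GY fun a => sf D Z E a (sl s U a) (slG s GU a) (sl s (odE s U) a) (slG s GY a) := by
  obtain ⟨T, h1, h2, h3⟩ := a3_exists_Tb s
  have hTT : ∀ X, T (T X) = X := fun X => by rw [← h2 (T X), T.symm_apply_apply]
  have e : odE s U = fun X => 1 / 2 * (U X - U (T X)) := by
    funext X; rw [odE, h1]; ring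
  set GY : E9 → E9 := fun X => (1 / 2 : ℝ) • (GU X - T.symm (GU (T X))) with hGY
  have hY : H1 (odE s U) GY := e ▸ (hU.h1.sub (hU.h1.comp_iso T)).const_mul (1 / 2)
  have hodd : ∀ X, odE s U (T X) = -odE s U X := fun X => by
    simp only [e, hTT]; ring
  have hp : ∀ X, s.p1 (GY X) = (1 / 2 : ℝ) • (s.p1 (GU X) - s.p1 (GU (T X))) := fun X => by
    simp only [hGY, map_smul, map_sub, h2, h3]
  have hpo : ∀ X, s.p1 (GY (T X)) = -s.p1 (GY X) := fun X => by
    rw [hp, hp, hTT, ← smul_neg, neg_sub]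
  have hpe : ∀ X, s.p1 (GU (T X) - GY (T X)) = s.p1 (GU X - GY X) := fun X => by
    rw [map_sub, map_sub, hpo, hp]
    module
  refine ⟨GY, hY, ti_of_orth hs hU hY fun φ K M hφ hM hT => ?_⟩
  obtain ⟨i1, i2⟩ := a3_int_grad hY hφ hM hT hY.mG
  obtain ⟨i3, i4⟩ := a3_int_grad hY hφ hM hT (J := fun X => GU X - GY X) (hU.h1.mG.sub hY.mG)
  have hz : ∫ x, (φ (s.p1 x) * ⟪s.p1 (GU x - GY x), s.p1 (GY x)⟫ +
      odE s U x * ⟪s.p1 (GU x - GY x), K (s.p1 x)⟫) = 0 := by
    refine a3ti2_odd T fun X => ?_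
    rw [h3, hpe, hpo, hodd, inner_neg_right]
    ring
  have hadd := integral_add (i1.add i2) (i3.add i4)
  simp only [Pi.add_apply] at hadd
  rw [hz, add_zero] at hadd
  simp only [← real_inner_self_eq_norm_sq]
  rw [← hadd]
  refine integral_congr_ae (Eventually.of_forall fun x => ?_)
  simp only [map_sub, inner_sub_left]
  ring
end Crest.Agent.R335
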