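import Crest.Agent.R335.A3_Sl

/-!
# R335/A3_Ten: testing with a product (part of A3, sub-lead helper5; definitions in `A3_Defs`)
-/

set_option autoImplicit false

namespace Crest.Agent.R335

open MeasureTheory Set Filter Topology
open scoped Gradient RealInnerProductSpace ENNReal ContDiff
open Crest.MathPhysics.ThreeBody

variable {s : Spl E3 E6 E9} {D Z E : ℝ} {U Y : E9 → ℝ} {GU GY : E9 → E9}

/-- Test `hU` with `ξ ⊗ Φ` (`H1.tensor`).  `⟪GU, Φ • i1 K + ξ • i2 GΦ⟫ = Φ ⟪p1 GU, K⟫ + ξ ⟪p2 GU, GΦ⟫` (`Spl.inn`).  All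
pieces are integrable on `E9` (`s11_memLp`, `FB.int_mul` with `FB.comp_p1`, `FB.comp_p2`, `a3_fbW`); use `Spl.integral_eq`,
`Spl.integrable_fibre`, `integral_inner`; on a.e. slice (`H1.sl`) `bf V2 Φ GΦ (sl U a) (slG GU a) = e0 * ip Φ (sl U a)`. -/
theorem a3_tensor (hs : Slot s) (hU : Eig (V3 D Z) E U GU) {e0 : ℝ} {Φ : E6 → ℝ} {GΦ : E6 → E6}
    (hΦ : Eig (V2 D Z) e0 Φ GΦ) {ξ : E3 → ℝ} {K : E3 → E3} (hξ : H1 ξ K) :
    (1 / 2) * (∫ a, ⟪∫ b, Φ b • s.p1 (GU (s.j a b)), K a⟫) +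
      ∫ a, ((e0 - E + V1 D a) * ip Φ (sl s U a) + wI Z a Φ (sl s U a)) * ξ a = 0 := by
  have hT := H1.tensor s hξ hΦ.h1
  have heq := hU.eq _ _ hT
  have hG1 : MemLp (fun x => s.p1 (GU x)) 2 volume := s.p1.comp_memLp' hU.h1.mG
  have hG2 : MemLp (fun x => s.p2 (GU x)) 2 volume := s.p2.comp_memLp' hU.h1.mG
  have m1 : MemLp (fun x => Φ (s.p2 x) • K (s.p1 x)) 2 volume := s11_memLp s.swap hΦ.h1.mf hξ.mG
  have m2 : MemLp (fun x => ξ (s.p1 x) • GΦ (s.p2 x)) 2 volume := s11_memLp s hξ.mf hΦ.h1.mG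
  have i1 : Integrable fun x => ⟪s.p1 (GU x), Φ (s.p2 x) • K (s.p1 x)⟫ := s12_int_inner hG1 m1
  have i2 : Integrable fun x => ⟪s.p2 (GU x), ξ (s.p1 x) • GΦ (s.p2 x)⟫ := s12_int_inner hG2 m2
  have i3 := (fb_V3 D Z).int_mul hU.h1 hT
  have i6 := hU.h1.int_mul hT
  have e1 : ∫ x, ⟪GU x, Φ (s.p2 x) • s.i1 (K (s.p1 x)) + ξ (s.p1 x) • s.i2 (GΦ (s.p2 x))⟫ =
      (∫ x, ⟪s.p1 (GU x), Φ (s.p2 x) • K (s.p1 x)⟫) + ∫ x, ⟪s.p2 (GU x), ξ (s.p1 x) • GΦ (s.p2 x)⟫ := by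
    rw [← integral_add i1 i2]
    refine integral_congr_ae (Eventually.of_forall fun x => ?_)
    simp only [s.inn (GU x), map_add, map_smul, s.p1_i1, s.p1_i2, s.p2_i1, s.p2_i2, smul_zero, add_zero,
      zero_add]
  have e2 : ∫ x, ⟪s.p1 (GU x), Φ (s.p2 x) • K (s.p1 x)⟫ =
      ∫ a, ⟪∫ b, Φ b • s.p1 (GU (s.j a b)), K a⟫ := by
    rw [s.integral_eq i1]
    refine integral_congr_ae ?_
    filter_upwards [s11b_memLp s hG1] with a ha
    have h4 : Integrable fun b => Φ b • s.p1 (GU (s.j a b)) := by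
      refine Integrable.mono' (hΦ.h1.mf.norm.integrable_mul ha.norm) (hΦ.h1.mf.1.smul ha.1)
        (Eventually.of_forall fun x => ?_)
      exact (norm_smul _ _).le
    rw [real_inner_comm, ← integral_inner h4]
    refine integral_congr_ae (Eventually.of_forall fun b => ?_)
    simp only [s.p1_j, s.p2_j, real_inner_smul_right]
    rw [real_inner_comm]
  have ig : Integrable fun x => (1 / 2) * ⟪s.p2 (GU x), ξ (s.p1 x) • GΦ (s.p2 x)⟫ +
      V3 D Z x * (U x * (ξ (s.p1 x) * Φ (s.p2 x))) - E * (U x * (ξ (s.p1 x) * Φ (s.p2 x))) :=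
    ((i2.const_mul _).add i3).sub (i6.const_mul E)
  have e3 : ∫ x, ((1 / 2) * ⟪s.p2 (GU x), ξ (s.p1 x) • GΦ (s.p2 x)⟫ +
      V3 D Z x * (U x * (ξ (s.p1 x) * Φ (s.p2 x))) - E * (U x * (ξ (s.p1 x) * Φ (s.p2 x)))) =
      ∫ a, ((e0 - E + V1 D a) * ip Φ (sl s U a) + wI Z a Φ (sl s U a)) * ξ a := by
    rw [s.integral_eq ig]
    refine integral_congr_ae ?_
    filter_upwards [hU.h1.sl s] with a ha
    have j1 := hΦ.h1.int_inner ha
    have j2 := (fb_V2 D Z).int_mul hΦ.h1 ha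
    have j3 := (fb_Wx Z a).int_mul hΦ.h1 ha
    have j4 := hΦ.h1.int_mul ha
    have h1 := hΦ.eq _ _ ha
    have h2 : ∀ b, (1 / 2) * ⟪s.p2 (GU (s.j a b)), ξ (s.p1 (s.j a b)) • GΦ (s.p2 (s.j a b))⟫ +
        V3 D Z (s.j a b) * (U (s.j a b) * (ξ (s.p1 (s.j a b)) * Φ (s.p2 (s.j a b)))) -
        E * (U (s.j a b) * (ξ (s.p1 (s.j a b)) * Φ (s.p2 (s.j a b)))) =
        ξ a * ((1 / 2) * ⟪GΦ b, slG s GU a b⟫ + V2 D Z b * (Φ b * sl s U a b) +
          Wx Z a b * (Φ b * sl s U a b) + (V1 D a - E) * (Φ b * sl s U a b)) := by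
      intro b
      simp only [s.p1_j, s.p2_j, hs.pot, real_inner_smul_right, sl, slG]
      rw [real_inner_comm (GΦ b)]
      ring
    simp only [h2]
    have k1 : Integrable fun b => (1 / 2) * ⟪GΦ b, slG s GU a b⟫ + V2 D Z b * (Φ b * sl s U a b) :=
      (j1.const_mul _).add j2
    have k2 : Integrable fun b => (1 / 2) * ⟪GΦ b, slG s GU a b⟫ + V2 D Z b * (Φ b * sl s U a b) +
        Wx Z a b * (Φ b * sl s U a b) := k1.add j3
    rw [integral_const_mul, integral_add k2 (j4.const_mul _), integral_add k1 j3,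
      integral_add (j1.const_mul _) j2, integral_const_mul, integral_const_mul]
    simp only [bf, ip, wI] at h1 ⊢
    rw [h1]
    ring
  have k3 : Integrable fun x => (1 / 2) * ⟪s.p2 (GU x), ξ (s.p1 x) • GΦ (s.p2 x)⟫ +
      V3 D Z x * (U x * (ξ (s.p1 x) * Φ (s.p2 x))) := (i2.const_mul _).add i3
  rw [← e3, ← e2, integral_sub k3 (i6.const_mul E), integral_add (i2.const_mul _) i3,
    integral_const_mul, integral_const_mul]
  simp only [bf, ip] at heq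
  rw [e1] at heq
  linarith

end Crest.Agent.R335
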