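import Crest.Agent.R335.A4_St9

/-!
# R335/A4: tails by explicit barriers (SUB-LEAD part)

`k = √(2 I)`, `b = (2 - 2/Z)/k`, `V0 = I + V1 + W`, `f = r^(b-1) e^(-k r)`, `g = f / r`.  For `η ≤ -eu/2`, `(k, b)` lies in a compact set
which depends on `eu` only.  Basic formula: for a radial `F(r)`: `lap (z^n F) = n (n-1) z^(n-2) F + z^n (F'' + (2 + 2 n) F'/r)`; more generally
`lap (h(z) F) = h'' F + 2 h' z F'/r + h (F'' + 2 F'/r)`.  For `F = r^β e^(-k r)`: `F''/F = k² - 2 k β/r + β(β-1)/r²`.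
`F_± = r^β e^(-k r) (1 ± A r^(-1/2))`: the factor gives a margin `∓ (k A/2) r^(-3/2)` which beats all `O(r^(-2))` errors.
Fix `L₁ = L₁(D, eu, γ, C)` so large that all barrier inequalities with uniform constants hold for `r ≥ L₁`; starting values on the shell
`L₁ < r < L₁ + 1` come from `sup_sub` (`KI.subS`; `R ≤ C₀` uniformly, since `nsq R = 3`); `A = {r ≥ L₁ + 1/2}`.
1. `R ≤ C₁ f` (`kR`, `KI.cmp`, barrier `f (1 - A r^(-1/2))`).   2. `q ≤ C₂ r^(-2) f` (`kq`, mass `γ`).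
3. `|S| ≤ C/(Z r²) q`.  `e = d - u` solves an equation with right hand side `O(η)` on the shell, `‖e‖₂² ≤ C η`: `|e| ≤ C √η` (`sup_sub`),
   `|e| ≤ C √η |z|` (`lip_odd` near the plane, trivial for `|z| ≥ 1/4`); `u` is bounded on the shell and `|u| ≤ C |z|` likewise.  With `OneB.hopf`:
   `c z/2 ≤ d ≤ C z` on the shell, `z > 0`, once `η` is small.
4. `|d| ≤ C |z| g`: `cmp_sub_odd` for `± d`, barrier `K z g (1 - A r^(-1/2)) - κ r^(-3) g (√(1 + z²) - 1)`.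
5. `q ≤ C r^(-2) √(1 + z²) g`, hence `|S| ≤ (C/Z) r^(-4) (1 + |z|) g`.
6. `d ≥ c' z g` on `z > 0`: `cmp_sub_odd` for `-d`, barrier `-(c' z g (1 + A r^(-1/2)) + κ r^(-4) g (√(1 + z²) - 1))`, `κ ~ C/Z`; `c'` is fixed by step 3, the
   source is `O(1/Z)`; this is the only place where smallness of `η` relative to `L₁` is used.
From here on constants may depend on `Z`, and `L` is increased.
7. `yw ≤ C f` (`KI.bl` for the starting values).   8. `yo ≤ C r^(-3) (K + z²) g`, `K = 4/γ + 1`.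
9. `dS ≥ c'' r^(-3) g (ε₀ + z²) - K e^(-k' r)`, `k < k' < √(k² + 2 γS)`, `ε₀ = 1/(2 (γS + 1))` (`cmp_sub` for `-dS`; the source is
   `≥ c z² r^(-3) g - C r^(-4) (1 + z²) g` by 4-6 and oddness of `d`).  This gives `low`.
`bdd`: `kR0`, `KI.bl`.
-/

set_option autoImplicit false

namespace Crest.Agent.R335

open MeasureTheory Set Filter Topology
open scoped Gradient RealInnerProductSpace ENNReal ContDiff
open Crest.MathPhysics.ThreeBody

/-- the assembly for fixed data -/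
theorem a4_tail {D eu γ a C η : ℝ} {u : E3 → ℝ} {X : Dt} (F : Frame D eu γ a C η) (H : X.Ok D eu γ a C η u) {L6 c6 : ℝ}
    (hc6 : 0 < c6) (h6 : ∀ᵐ x, L6 < ‖x‖ → c6 * x 2 ^ 2 * gfun X.k X.b x ≤ x 2 * X.d x) :
    ∃ (L C₁ c : ℝ), Tail X.k X.b L C₁ c X.R X.GR X.d X.Gd (X.V0 D) fun x => -X.S x := by
  obtain ⟨L4, K4, hK4, h4⟩ := step4 F H
  obtain ⟨L5, K5, hK5, h5⟩ := step5 F H
  obtain ⟨L8, K8, hK8, h8⟩ := step8 F H
  obtain ⟨L9, c9, hc9, h9⟩ := step9 F H hc6 h6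
  obtain ⟨L, hL1, hL2, hL4, hL5, hL6, hL8, hL9⟩ : ∃ L : ℝ, D + 1 ≤ L ∧ 2 * (2 + C) / γ ≤ L ∧ L4 ≤ L ∧ L5 ≤ L ∧ L6 ≤ L ∧
      L8 ≤ L ∧ L9 ≤ L := by
    refine ⟨max (D + 1) (max (2 * (2 + C) / γ) (max L4 (max L5 (max L6 (max L8 L9))))), ?_⟩
    simp only [le_max_iff, le_refl, true_or, or_true, and_self]
  have hD := F.hD
  have hC := F.hC
  obtain ⟨C₁, hC0, hC1, hC4, hC5, hC5', hC8⟩ : ∃ C₁ : ℝ, 4 * D * (D + 1) + 2 * C ≤ C₁ ∧ C ≤ C₁ ∧ K4 ≤ C₁ ∧ K5 ≤ C₁ ∧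
      C * K5 ≤ C₁ ∧ K8 ≤ C₁ := by
    refine ⟨max (4 * D * (D + 1) + 2 * C) (max C (max K4 (max K5 (max (C * K5) K8)))), ?_⟩
    simp only [le_max_iff, le_refl, true_or, or_true, and_self]
  have hpos : ∀ x : E3, L < ‖x‖ → 0 < ‖x‖ := fun x hx => by linarith
  have hg := fun x : E3 => gfun_nonneg X.k X.b x
  refine ⟨L, C₁, min c6 c9, (par_k F H).2.2.2.2.2.1, by linarith, hC.trans hC1, lt_min hc6 hc9, H.kR0.h1, H.kR0.nn, H.hd,
    H.symR, par_bdd H, (par_V0 F H).1, H.mS.neg, fun x hx => ?_, par_sub F H hL1 hL2 hC1, H.eqd.mono (far_mono hL1), ?_,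
    (par_le H).mono fun x hx => hx.1, ?_, ?_, ?_, ?_, X.yo, X.ye, H.thin.choose, H.mye, H.pyth', ?_, H.thin.choose_spec⟩
  · refine (par_crit F H x (hL1.trans_lt hx)).trans ?_
    gcongr
  · filter_upwards [par_S F H, h5] with x h1 h2 hx
    have r0 := hpos x hx
    have a1 := h1 (hL1.trans_lt hx)
    have a2 := h2 (hL5.trans_lt hx)
    have q0 := H.kq.nn x
    have g0 := hg x
    rw [abs_neg]
    calc |X.S x| ≤ C * η * X.q x / ‖x‖ ^ 2 := a1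
      _ ≤ C * 1 * (K5 * (1 + |x 2|) / ‖x‖ ^ 2 * gfun X.k X.b x) / ‖x‖ ^ 2 := by
        gcongr
        exact F.η1
      _ = C * K5 * (1 + |x 2|) / ‖x‖ ^ 4 * gfun X.k X.b x := by
        field_simp
      _ ≤ C₁ * (1 + |x 2|) / ‖x‖ ^ 4 * gfun X.k X.b x := by gcongr
  · filter_upwards [h6] with x h1 hx
    refine le_trans ?_ (h1 (hL6.trans_lt hx))
    have g0 := hg x
    gcongr
    exact min_le_left _ _
  · filter_upwards [h4] with x h1 hx
    refine (h1 (hL4.trans_lt hx)).trans ?_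
    have g0 := hg x
    gcongr
  · filter_upwards [h5, H.pyth] with x h1 h2 hx
    have a2 := h1 (hL5.trans_lt hx)
    have q0 := H.kq.nn x
    have g0 := hg x
    rw [h2]
    gcongr
    refine a2.trans ?_
    gcongr
  · filter_upwards [h9] with x h1 hx
    refine le_trans ?_ (h1 (hL9.trans_lt hx))
    have g0 := hg x
    have r0 := hpos x hx
    gcongr
    exact min_le_right _ _
  · filter_upwards [h8] with x h1 hx
    rw [abs_of_nonneg (H.ko.nn x)]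
    refine (h1 (hL8.trans_lt hx)).trans ?_
    have g0 := hg x
    gcongr

theorem tail_of_scal {D eg eu e3 : ℝ} {g u : E3 → ℝ} {Gg Gu : E3 → E3} (h : OneB D eg eu e3 g Gg u Gu) {γ a C : ℝ}
    (hγ : 0 < γ) (ha : 0 < a) (hC : 1 ≤ C) : ∃ η : ℝ, 0 < η ∧ η ≤ 1 ∧ ∀ (Z : ℝ) (R : E3 → ℝ) (I γS C' μ : ℝ)
      (GR : E3 → E3) (d : E3 → ℝ) (Gd : E3 → E3) (q : E3 → ℝ) (Gq : E3 → E3) (yw : E3 → ℝ) (Gw : E3 → E3)
      (yo : E3 → ℝ) (Go : E3 → E3) (ye dS : E3 → ℝ) (GS : E3 → E3) (W S σ : E3 → ℝ),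
      Scal D Z eu γ a C η u R I γS C' μ GR d Gd q Gq yw Gw yo Go ye dS GS W S σ →
      ∃ (k b L C₁ c : ℝ) (V0 S' : E3 → ℝ), Tail k b L C₁ c R GR d Gd V0 S' := by
  obtain ⟨η0, hη0, h6⟩ := step6 h γ a C
  have hneg := h.neg
  refine ⟨min η0 (min 1 (-eu / 2)), lt_min hη0 (lt_min one_pos (by linarith)), (min_le_right _ _).trans (min_le_left _ _), ?_⟩
  intro Z R I γS C' μ GR d Gd q Gq yw Gw yo Go ye dS GS W S σ H
  have F : Frame D eu γ a C (min η0 (min 1 (-eu / 2))) :=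
    ⟨h.Dpos, hneg, hγ, ha, hC, lt_min hη0 (lt_min one_pos (by linarith)), (min_le_right _ _).trans (min_le_left _ _),
      (min_le_right _ _).trans (min_le_right _ _)⟩
  let X : Dt := ⟨Z, I, γS, C', μ, R, d, q, yw, yo, ye, dS, W, S, σ, GR, Gd, Gq, Gw, Go, GS⟩
  have HX : X.Ok D eu γ a C (min η0 (min 1 (-eu / 2))) u := H
  obtain ⟨L6, c6, hc6, h6'⟩ := h6 _ X (min_le_left _ _) F HX
  obtain ⟨L, C₁, c, hT⟩ := a4_tail F HX hc6 h6'
  exact ⟨X.k, X.b, L, C₁, c, X.V0 D, fun x => -X.S x, hT⟩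

end Crest.Agent.R335
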