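import Crest.Agent.R335.A4_Defs

/-!
# R335/A4_Bas (part A4, sub-lead helper14)

Measure theoretic helpers; local bounds on exterior domains.  Aux prefix `a4b_`.
-/

set_option autoImplicit false

namespace Crest.Agent.R335

open MeasureTheory Set Filter Topology
open scoped Gradient RealInnerProductSpace ENNReal ContDiff
open Crest.MathPhysics.ThreeBody

variable {Ω Ω' : Set E3} {f B : E3 → ℝ}

theorem far_mono {L L' : ℝ} (h : L ≤ L') : far L' ⊆ far L := by
  exact fun _ hx => lt_of_le_of_lt h hx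
theorem far_ne_zero {L : ℝ} (hL : 0 ≤ L) {x : E3} (hx : L < ‖x‖) : x ≠ 0 := by
  exact norm_pos_iff.1 (hL.trans_lt hx)
theorem isClosed_out (L : ℝ) : IsClosed {x : E3 | L ≤ ‖x‖} := by
  exact isClosed_le continuous_const continuous_norm
theorem Bl.of_le (hB : ContinuousOn B Ω) (h : ∀ᵐ x, x ∈ Ω → |f x| ≤ B x) : Bl Ω f := by
  intro K hK hs
  obtain ⟨M, hM⟩ := hK.exists_bound_of_continuousOn (hB.mono hs)
  refine ⟨M, ?_⟩
  filter_upwards [h] with x hx hxK
  exact (hx (hs hxK)).trans ((le_abs_self _).trans (hM x hxK))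
theorem LB.of_le (hf : AEStronglyMeasurable f volume) (hB : ContinuousOn B Ω) (h : ∀ᵐ x, x ∈ Ω → |f x| ≤ B x) :
    LB Ω f := by
  exact ⟨hf, Bl.of_le hB h⟩
theorem LB.mono (h : LB Ω f) (hs : Ω' ⊆ Ω) : LB Ω' f := by
  exact ⟨h.1, fun K hK hK' => h.2 K hK (hK'.trans hs)⟩
theorem LB.sub_const (h : LB Ω f) (c : ℝ) : LB Ω fun x => f x - c := by
  refine ⟨h.1.sub aestronglyMeasurable_const, fun K hK hs => ?_⟩
  obtain ⟨M, hM⟩ := h.2 K hK hs
  refine ⟨M + |c|, ?_⟩
  filter_upwards [hM] with x hx hxK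
  exact (abs_sub _ _).trans (add_le_add (hx hxK) le_rfl)
theorem LB.neg (h : LB Ω f) : LB Ω fun x => -f x := by
  refine ⟨h.1.neg, fun K hK hs => ?_⟩
  simpa only [abs_neg] using h.2 K hK hs
/-- restriction to a smaller domain (directly from the definition) -/
theorem KI.sub {y κ s t : E3 → ℝ} {G : E3 → E3} (h : KI Ω y G κ s t) (hΩ : MeasurableSet Ω') (hs : Ω' ⊆ Ω) :
    KI Ω' y G κ s t := by
  have key : ∀ {p : E3 → ℝ}, MemLp (Ω.indicator p) 2 volume → MemLp (Ω'.indicator p) 2 volume := by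
    intro p hp
    have := hp.indicator hΩ
    rwa [indicator_indicator, inter_eq_self_of_subset_left hs] at this
  exact ⟨h.h1, h.nn, h.bκ.mono hs, key h.ms, key h.mt,
    fun ε hε ξ hξ => h.le ε hε ξ ⟨hξ.sm, hξ.cpt, hξ.sub.trans hs⟩⟩
/-- a locally bounded function is bounded on the shell -/
theorem Bl.shell {L L' : ℝ} (h : Bl (far L) f) (hL : L < L') :
    ∃ M : ℝ, 0 < M ∧ ∀ᵐ x, L' ≤ ‖x‖ → ‖x‖ ≤ L' + 1 → |f x| ≤ M := by
  obtain ⟨M, hM⟩ := h ({x | L' ≤ ‖x‖} ∩ Metric.closedBall 0 (L' + 1))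
    ((isCompact_closedBall _ _).inter_left (isClosed_out L')) fun x hx => hL.trans_le hx.1
  refine ⟨max M 1, by positivity, ?_⟩
  filter_upwards [hM] with x hx h1 h2
  exact (hx ⟨h1, mem_closedBall_zero_iff.2 h2⟩).trans (le_max_left _ _)
theorem norm_refl (x : E3) : ‖refl x‖ = ‖x‖ := by
  obtain ⟨T, -, hT, -⟩ := exists_refl_z
  rw [← hT, T.norm_map]
@[simp] theorem refl_2 (x : E3) : refl x 2 = -x 2 := by
  simp [refl]
theorem gfun_refl (k β : ℝ) (x : E3) : gfun k β (refl x) = gfun k β x := by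
  simp only [gfun, norm_refl]
/-- `exists_refl_z`, `LinearIsometryEquiv.measurePreserving` -/
theorem ae_refl {p : E3 → Prop} (h : ∀ᵐ x, p x) : ∀ᵐ x, p (refl x) := by
  obtain ⟨T, -, hT, -⟩ := exists_refl_z
  simpa only [hT] using T.measurePreserving.quasiMeasurePreserving.ae h
/-- `sup_sub` with `s = 1` -/
theorem sup_far (M : ℝ) : ∃ C : ℝ, 0 ≤ C ∧ ∀ (L : ℝ) (V f w : E3 → ℝ) (G : E3 → E3) (N : ℝ), H1 w G →
    AEStronglyMeasurable V volume → (∀ᵐ x, L < ‖x‖ → |V x| ≤ M) → MemLp f 2 (volume.restrict (far L)) →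
    SubS (far L) V f w G → nsq w ≤ N ^ 2 → ∫ x in far L, f x ^ 2 ≤ N ^ 2 → 0 ≤ N →
    ∀ᵐ x, L + 1 < ‖x‖ → w x ≤ C * N := by
  obtain ⟨C, hC, H⟩ := sup_sub M 1 one_pos
  refine ⟨C, hC, fun L V f w G N hw hV hM hf hs hN hfN hN0 => ?_⟩
  have h1 : ∫ x in far L, w x ^ 2 ≤ N ^ 2 :=
    (setIntegral_le_integral hw.int_sq (Eventually.of_forall fun x => sq_nonneg _)).trans hN
  filter_upwards [H (far L) V f w G N (isOpen_far L) (hw.loc _) hV hM (hw.mf.restrict _) hf hs h1 hfN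
    hN0] with x hx h2
  refine hx fun y hy => ?_
  have h3 := norm_sub_norm_le x y
  rw [Metric.mem_closedBall, dist_comm, dist_eq_norm] at hy
  show L < ‖y‖
  linarith
/-- `measure_null_of_locally_null`: a point with `|z| < 1/2` lies in `ball a (1/2)`, `a = (x 0, x 1, 0)`, and `ball a 2 ⊆ far L`
(`lip_odd`); near the other points `|z| > 1/4`, so `|w| ≤ N ≤ 4 N |z|` (`N ≥ 0` because `|w| ≤ N` at the point). -/
theorem lip_far (M : ℝ) : ∃ C : ℝ, 0 ≤ C ∧ ∀ (L : ℝ) (V f w : E3 → ℝ) (G : E3 → E3) (N : ℝ), H1 w G →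
    AEStronglyMeasurable V volume → AEStronglyMeasurable f volume →
    (∀ᵐ x, L < ‖x‖ → |V x| ≤ M ∧ |w x| ≤ N ∧ |f x| ≤ N ∧ w (refl x) = -w x) → EqS (far L) V f w G →
    ∀ᵐ x, L + 3 < ‖x‖ → |w x| ≤ C * N * |x 2| := by
  obtain ⟨C, hC, H⟩ := lip_odd M
  refine ⟨C + 4, by positivity, fun L V f w G N hw hV hf hb he => ?_⟩
  rw [ae_iff]
  refine measure_null_of_locally_null _ fun x hx => ?_
  simp only [mem_setOf_eq, Classical.not_imp, not_le] at hx
  have main : ∃ U ∈ 𝓝 x, ∀ᵐ y, y ∈ U → L + 3 < ‖y‖ → |w y| ≤ (C + 4) * N * |y 2| := by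
    rcases lt_or_ge |x 2| (1 / 2) with h | h
    · set a : E3 := !₂[x 0, x 1, 0] with ha
      have h1 : ‖x - a‖ < 1 / 2 := by
        have : ‖x - a‖ ^ 2 = |x 2| ^ 2 := by rw [geob_norm_sq, sq_abs]; simp [ha]
        rwa [(pow_left_inj₀ (norm_nonneg _) (abs_nonneg _) two_ne_zero).1 this]
      have h2 : Metric.ball a 2 ⊆ far L := fun y hy => by
        rw [Metric.mem_ball, dist_comm, dist_eq_norm] at hy
        have h3 := norm_sub_norm_le x a
        have h4 := norm_sub_norm_le a y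
        show L < ‖y‖
        linarith [hx.1]
      refine ⟨Metric.ball a (1 / 2), Metric.isOpen_ball.mem_nhds (by rwa [Metric.mem_ball, dist_eq_norm]),
        ?_⟩
      filter_upwards [H a V f w G N (by simp [ha]) (hw.loc _) hV hf
        (hb.mono fun y hy hya => hy (h2 hya)) (he.mono h2), hb] with y h3 h4 h5 h6
      have h7 : 0 ≤ N := (abs_nonneg _).trans (h4 (by linarith)).2.1
      have := mul_nonneg h7 (abs_nonneg (y 2))
      linarith [h3 h5]
    · refine ⟨{y | 1 / 4 < |y 2|}, (isOpen_lt continuous_const (by fun_prop)).mem_nhds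
        (show 1 / 4 < |x 2| by linarith), ?_⟩
      filter_upwards [hb] with y h4 h5 h6
      have h8 := (h4 (by linarith)).2.1
      have h7 : 0 ≤ N := (abs_nonneg _).trans h8
      have h9 : 1 / 4 < |y 2| := h5
      have := mul_nonneg hC (mul_nonneg h7 (abs_nonneg (y 2)))
      nlinarith
  obtain ⟨U, hU, h⟩ := main
  refine ⟨_, inter_mem_nhdsWithin _ hU, measure_mono_null (fun y hy => ?_) (ae_iff.1 h)⟩
  exact fun h' => hy.1 (h' hy.2)
end Crest.Agent.R335
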