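import Crest.Agent.R335.A4_Defs

/-!
# R335/A4_Gf (part A4, sub-lead helper14)

Elementary facts about `gfun`, profiles.  Aux prefix `a4g_`.
-/

set_option autoImplicit false

namespace Crest.Agent.R335

open MeasureTheory Set Filter Topology
open scoped Gradient RealInnerProductSpace ENNReal ContDiff
open Crest.MathPhysics.ThreeBody

variable {k β : ℝ} {x : E3}

theorem gfun_nonneg (k β : ℝ) (x : E3) : 0 ≤ gfun k β x := mul_nonneg (Real.rpow_nonneg (norm_nonneg x) _) (Real.exp_pos _).le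

theorem gfun_sub_nat (k β : ℝ) (n : ℕ) (hx : x ≠ 0) : gfun k (β - n) x = gfun k β x / ‖x‖ ^ n := by
  unfold gfun
  rw [show β - n - 2 = (β - 2) - n by ring, Real.rpow_sub_natCast (norm_ne_zero_iff.2 hx)]
  ring

theorem gfun_add_one (k β : ℝ) (hx : x ≠ 0) : gfun k (β + 1) x = gfun k β x * ‖x‖ := by
  unfold gfun
  rw [show β + 1 - 2 = (β - 2) + 1 by ring, Real.rpow_add_one (norm_ne_zero_iff.2 hx)]
  ring

theorem gfun_sub_half (k β : ℝ) (hx : x ≠ 0) : gfun k (β - 1 / 2) x = gfun k β x / √‖x‖ := by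
  unfold gfun
  rw [show β - 1 / 2 - 2 = (β - 2) - 1 / 2 by ring, Real.rpow_sub (norm_pos_iff.2 hx), Real.sqrt_eq_rpow]
  ring

/-- `m = L' ^ (-(B + 2)) * exp (-k2 L')`, `M = L' ^ (B + 2)`, `L' = max L 1`, `B = |B2|` -/
theorem gfun_shell (k2 B2 L : ℝ) : ∃ m M : ℝ, 0 < m ∧ 0 < M ∧ ∀ (k β : ℝ) (x : E3), 0 ≤ k → k ≤ k2 → |β| ≤ B2 →
    1 ≤ ‖x‖ → ‖x‖ ≤ L → m ≤ gfun k β x ∧ gfun k β x ≤ M := by
  have hL : (1 : ℝ) ≤ max L 1 := le_max_right _ _
  have hL0 : (0 : ℝ) < max L 1 := by linarith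
  refine ⟨max L 1 ^ (-(|B2| + 2)) * Real.exp (-k2 * max L 1), max L 1 ^ (|B2| + 2), by positivity, by positivity,
    fun k β x hk hk2 hβ h1 h2 => ?_⟩
  have h3 : ‖x‖ ≤ max L 1 := h2.trans (le_max_left _ _)
  have h0 : 0 < ‖x‖ := by linarith
  have hb := abs_le.1 (hβ.trans (le_abs_self B2))
  have hB := abs_nonneg B2
  unfold gfun
  constructor
  · refine mul_le_mul ?_ (Real.exp_le_exp.2 ?_) (Real.exp_pos _).le (Real.rpow_nonneg h0.le _)
    · exact (Real.rpow_le_rpow_of_nonpos h0 h3 (by linarith)).trans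
        (Real.rpow_le_rpow_of_exponent_le h1 (by linarith [hb.1]))
    · have := mul_le_mul hk2 h3 h0.le (hk.trans hk2)
      linarith
  · have e1 : Real.exp (-k * ‖x‖) ≤ 1 := Real.exp_le_one_iff.2 (by nlinarith)
    refine (mul_le_of_le_one_right (Real.rpow_nonneg h0.le _) e1).trans ?_
    exact (Real.rpow_le_rpow_of_exponent_le h1 (by linarith [hb.2])).trans
      (Real.rpow_le_rpow h0.le h3 (by linarith))

/-- `tendsto_rpow_mul_exp_neg_mul_atTop_nhds_zero` -/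
theorem gfun_small {k k' : ℝ} (hk : k < k') (β β' : ℝ) {ε : ℝ} (hε : 0 < ε) :
    ∃ L : ℝ, 1 ≤ L ∧ ∀ x : E3, L < ‖x‖ → gfun k' β' x ≤ ε * gfun k β x := by
  have h := tendsto_rpow_mul_exp_neg_mul_atTop_nhds_zero (β' - β) (k' - k) (by linarith)
  obtain ⟨L, hL⟩ := eventually_atTop.1 (h.eventually (ge_mem_nhds hε))
  refine ⟨max L 1, le_max_right _ _, fun x hx => ?_⟩
  have h0 : 0 < ‖x‖ := lt_trans (lt_of_lt_of_le one_pos (le_max_right _ _)) hx
  have h1 := hL ‖x‖ ((le_max_left _ _).trans hx.le)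
  have e : gfun k' β' x = ‖x‖ ^ (β' - β) * Real.exp (-(k' - k) * ‖x‖) * gfun k β x := by
    unfold gfun
    rw [show β' - 2 = (β' - β) + (β - 2) by ring, Real.rpow_add h0,
      show -k' * ‖x‖ = -(k' - k) * ‖x‖ + -k * ‖x‖ by ring, Real.exp_add]
    ring
  rw [e]
  exact mul_le_mul_of_nonneg_right h1 (gfun_nonneg _ _ _)

theorem exp_mul_gfun (k β c : ℝ) (x : E3) : Real.exp (-c * ‖x‖) * gfun k β x = gfun (k + c) β x := by
  unfold gfun
  rw [show -(k + c) * ‖x‖ = -c * ‖x‖ + -k * ‖x‖ by ring, Real.exp_add]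
  ring

/-- `gfun k β x ≤ C (1 + r) ^ (-2)` for `r > L` (`gfun_small` with `gfun 0 0 = r ^ (-2)` far out, continuity on the compact shell), and
`integrable_one_add_norm` with exponent `4` -/
theorem memLp_gfun (hk : 0 < k) (β : ℝ) {L : ℝ} (hL : 0 < L) : MemLp ((far L).indicator (gfun k β)) 2 volume := by
  obtain ⟨L1, hL1, h1⟩ := gfun_small hk 0 β one_pos
  have hK : IsCompact (Metric.closedBall (0 : E3) L1 ∩ {x | L ≤ ‖x‖}) :=
    (isCompact_closedBall _ _).inter_right (isClosed_le continuous_const continuous_norm)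
  obtain ⟨M, hM⟩ := hK.exists_bound_of_continuousOn ((continuousOn_gfun k β).mono fun x hx =>
    norm_pos_iff.1 (lt_of_lt_of_le hL hx.2))
  have hm : AEStronglyMeasurable ((far L).indicator (gfun k β)) volume :=
    ((measurable_gfun k β).indicator (isOpen_far L).measurableSet).aestronglyMeasurable
  rw [memLp_two_iff_integrable_sq hm]
  have hi : Integrable (fun x : E3 => (1 + ‖x‖) ^ (-(4 : ℝ))) := integrable_one_add_norm (by simp; norm_num)
  refine (hi.const_mul (16 + M ^ 2 * (1 + L1) ^ 4)).mono' (hm.pow 2) (Eventually.of_forall fun x => ?_)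
  have hp : 0 < (1 + ‖x‖) ^ 4 := by positivity
  have e : (1 + ‖x‖) ^ (-(4 : ℝ)) = ((1 + ‖x‖) ^ 4)⁻¹ := by
    rw [Real.rpow_neg (by positivity), show (4 : ℝ) = (4 : ℕ) by norm_num, Real.rpow_natCast]
  rw [e, Real.norm_of_nonneg (sq_nonneg _), ← div_eq_mul_inv, le_div_iff₀ hp]
  have hA : 0 ≤ M ^ 2 * (1 + L1) ^ 4 := by positivity
  by_cases hx : x ∈ far L
  · rw [indicator_of_mem hx]
    have hx' : L < ‖x‖ := hx
    have g0 := gfun_nonneg k β x
    rcases le_or_gt ‖x‖ L1 with h | h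
    · have h2 := hM x ⟨by simpa using h, hx'.le⟩
      rw [Real.norm_of_nonneg g0] at h2
      have h3 : gfun k β x ^ 2 ≤ M ^ 2 := pow_le_pow_left₀ g0 h2 2
      have h4 : (1 + ‖x‖) ^ 4 ≤ (1 + L1) ^ 4 := pow_le_pow_left₀ (by positivity) (by linarith) 4
      have := mul_le_mul h3 h4 hp.le (sq_nonneg M)
      linarith
    · have h0 : 0 < ‖x‖ := by linarith
      have h2 := h1 x h
      have e2 : gfun 0 0 x = (‖x‖ ^ 2)⁻¹ := by
        unfold gfun
        rw [zero_sub, Real.rpow_neg h0.le, Real.rpow_two]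
        simp
      rw [e2, one_mul, ← one_div, le_div_iff₀ (by positivity)] at h2
      have h3 : (gfun k β x * ‖x‖ ^ 2) ^ 2 ≤ 1 := pow_le_one₀ (by positivity) h2
      have h4 : (1 + ‖x‖) ^ 4 ≤ (2 * ‖x‖) ^ 4 := pow_le_pow_left₀ (by positivity) (by linarith) 4
      have h5 := mul_le_mul_of_nonneg_left h4 (sq_nonneg (gfun k β x))
      nlinarith
  · rw [indicator_of_notMem hx]
    simp only [ne_eq, OfNat.ofNat_ne_zero, not_false_eq_true, zero_pow, zero_mul]
    linarith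

theorem prof_one {m : ℝ} (hm : 0 < m) : Prof m fun _ => 1 := by
  refine ⟨contDiff_const, fun _ => one_pos, fun z => by simp, fun z => by simp, fun z => ?_⟩
  simp
  positivity

/-- `h' = z / h`, `h'' = K / h³ ≤ h / K`, `K = 2 / m` -/
theorem prof_sqrt {m : ℝ} (hm : 0 < m) : Prof m fun z => √(2 / m + z ^ 2) := by
  have hK : 0 < 2 / m := by positivity
  have hp : ∀ z : ℝ, 0 < 2 / m + z ^ 2 := fun z => by positivity
  have hs : ∀ z : ℝ, 0 < √(2 / m + z ^ 2) := fun z => Real.sqrt_pos.2 (hp z)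
  have hd : ∀ z : ℝ, HasDerivAt (fun z : ℝ => √(2 / m + z ^ 2)) (z / √(2 / m + z ^ 2)) z := fun z => by
    have h1 : HasDerivAt (fun z : ℝ => 2 / m + z ^ 2) (2 * z) z := by
      simpa using (hasDerivAt_pow 2 z).const_add (2 / m)
    refine (h1.sqrt (hp z).ne').congr_deriv ?_
    have := (hs z).ne'
    field_simp
  have e1 : deriv (fun z : ℝ => √(2 / m + z ^ 2)) = fun z => z / √(2 / m + z ^ 2) := funext fun z => (hd z).deriv
  refine ⟨(contDiff_const.add (contDiff_id.pow 2)).sqrt fun z => (hp z).ne', hs, fun z => ?_, fun z => ?_, fun z => ?_⟩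
  · rw [e1]
    have := hs z
    have e : z / √(2 / m + z ^ 2) * z = z ^ 2 / √(2 / m + z ^ 2) := by ring
    simp only [e]
    positivity
  · rw [e1]
    have h1 := hs z
    have h2 := Real.mul_self_sqrt (hp z).le
    simp only
    rw [div_mul_eq_mul_div, div_le_iff₀ h1]
    nlinarith [sq_nonneg z]
  · rw [e1, ((hasDerivAt_id' z).fun_div (hd z) (hs z).ne').deriv]
    have h1 := hs z
    have h2 := Real.sq_sqrt (hp z).le
    set s := √(2 / m + z ^ 2) with hsdef
    have e : (1 * s - z * (z / s)) / s ^ 2 = (2 / m) / s ^ 3 := by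
      have : z ^ 2 = s ^ 2 - 2 / m := by linarith
      field_simp
      field_simp at this
      linarith
    rw [e, div_le_iff₀ (by positivity)]
    have h3 : (2 / m) ^ 2 ≤ (s ^ 2) ^ 2 := pow_le_pow_left₀ hK.le (by nlinarith [sq_nonneg z]) 2
    have h4 := mul_le_mul_of_nonneg_left h3 (by positivity : 0 ≤ m / 2)
    have e2 : m / 2 * (2 / m) ^ 2 = 2 / m := by field_simp
    calc 2 / m = m / 2 * (2 / m) ^ 2 := e2.symm
      _ ≤ m / 2 * (s ^ 2) ^ 2 := h4
      _ = m / 2 * s * s ^ 3 := by ring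

theorem prof_sq {m : ℝ} (hm : 0 < m) : Prof m fun z => 4 / m + z ^ 2 := by
  have hd : ∀ z : ℝ, HasDerivAt (fun z : ℝ => 4 / m + z ^ 2) (2 * z) z := fun z => by
    simpa using (hasDerivAt_pow 2 z).const_add (4 / m)
  have e1 : deriv (fun z : ℝ => 4 / m + z ^ 2) = fun z => 2 * z := funext fun z => (hd z).deriv
  have h4 : 0 < 4 / m := by positivity
  refine ⟨contDiff_const.add (contDiff_id.pow 2), fun z => by positivity, fun z => ?_, fun z => ?_, fun z => ?_⟩
  · rw [e1]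
    nlinarith [sq_nonneg z]
  · rw [e1]
    nlinarith [sq_nonneg z]
  · have h2 : HasDerivAt (fun z : ℝ => 2 * z) 2 z := by simpa using (hasDerivAt_id' z).const_mul 2
    rw [e1, h2.deriv]
    have e : m / 2 * (4 / m + z ^ 2) = 2 + m / 2 * z ^ 2 := by field_simp; ring
    rw [e]
    have : 0 ≤ m / 2 * z ^ 2 := by positivity
    linarith

/-- comparison of the profiles with `1 + |z|`, `1 + z²` -/
theorem prof_cmp {m : ℝ} (hm : 0 < m) : ∃ N : ℝ, 1 ≤ N ∧ ∀ z : ℝ,
    1 + |z| ≤ N * √(2 / m + z ^ 2) ∧ √(2 / m + z ^ 2) ≤ N * (1 + |z|) ∧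
    1 + z ^ 2 ≤ N * (4 / m + z ^ 2) ∧ 4 / m + z ^ 2 ≤ N * (1 + z ^ 2) := by
  have hK : 0 < 2 / m := by positivity
  have e4 : 4 / m = 2 * (2 / m) := by ring
  rw [e4]
  generalize 2 / m = K at hK
  have hs : 0 < √K := Real.sqrt_pos.2 hK
  have i1 : 0 < 1 / √K := by positivity
  have i2 : 0 < 1 / (2 * K) := by positivity
  refine ⟨1 + 1 / √K + √K + 1 / (2 * K) + 2 * K, by linarith, fun z => ?_⟩
  have a1 : |z| ≤ √(K + z ^ 2) := Real.abs_le_sqrt (by linarith)
  have a2 : √K ≤ √(K + z ^ 2) := Real.sqrt_le_sqrt (by nlinarith [sq_nonneg z])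
  have a3 : √(K + z ^ 2) ≤ √K + |z| := by
    refine Real.sqrt_le_iff.2 ⟨by positivity, ?_⟩
    have h1 := Real.sq_sqrt hK.le
    have h2 := sq_abs z
    nlinarith [mul_nonneg hs.le (abs_nonneg z)]
  have a4 : 1 ≤ 1 / √K * √(K + z ^ 2) := by
    rw [one_div, ← div_eq_inv_mul, le_div_iff₀ hs]
    linarith
  have a5 : 1 / (2 * K) * (2 * K) = 1 := by field_simp
  have hz := abs_nonneg z
  have hz2 := sq_nonneg z
  have hr : 0 ≤ √(K + z ^ 2) := Real.sqrt_nonneg _
  refine ⟨?_, ?_, ?_, ?_⟩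
  · have : 0 ≤ (√K + 1 / (2 * K) + 2 * K) * √(K + z ^ 2) := by positivity
    nlinarith
  · have h1 : 0 ≤ (1 / √K + 1 / (2 * K) + 2 * K) * (1 + |z|) := by positivity
    have h2 : 0 ≤ √K * |z| := by positivity
    nlinarith
  · have h1 : 0 ≤ (1 / √K + √K + 2 * K) * (2 * K + z ^ 2) := by positivity
    have h2 : 0 ≤ 1 / (2 * K) * z ^ 2 := by positivity
    nlinarith
  · have h1 : 0 ≤ (1 / √K + √K + 1 / (2 * K)) * (1 + z ^ 2) := by positivity
    have h2 : 0 ≤ K * z ^ 2 := by positivity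
    nlinarith

end Crest.Agent.R335
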