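import Crest.Agent.R335.A4_Lap
import Crest.Agent.R335.A4_Gf
import Crest.Agent.R335.A4_Bas

/-!
# R335/A4_Bar1 (part A4, sub-lead helper14)

The critical radial barrier.  Aux prefix `a41_`.
-/

set_option autoImplicit false

namespace Crest.Agent.R335

open MeasureTheory Set Filter Topology
open scoped Gradient RealInnerProductSpace ENNReal ContDiff
open Crest.MathPhysics.ThreeBody

set_option maxHeartbeats 400000 in
theorem a41_real {k1 k2 C0 k b V s : ℝ} (hk1 : 0 < k1) (h1 : k1 ≤ k) (h2 : k ≤ k2) (hb : |b| ≤ k2) (hs : 2 ≤ s)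
    (hs1 : 4 * ((k2 + 2) ^ 2 + |C0|) / k1 ≤ s) (hs2 : 2 * (2 * k2 ^ 2 + |C0|) / k1 ^ 2 ≤ s)
    (hV : |2 * V - (k ^ 2 - 2 * k * b / s ^ 2)| ≤ C0 / (s ^ 2) ^ 2) :
    k1 ^ 2 / 4 ≤ V ∧ 0 ≤ -(1 / 2) * ((k ^ 2 - 2 * k * (b + 1 - 1) / s ^ 2 + (b + 1 - 2) * (b + 1 - 1) / (s ^ 2) ^ 2) -
      (k ^ 2 - 2 * k * (b + 1 / 2 - 1) / s ^ 2 + (b + 1 / 2 - 2) * (b + 1 / 2 - 1) / (s ^ 2) ^ 2) / s) +
        V * (1 - 1 / s) := by
  have s0 : 0 < s := by linarith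
  obtain ⟨d, hd⟩ : ∃ d, 2 * V - (k ^ 2 - 2 * k * b / s ^ 2) = d / (s ^ 2) ^ 2 :=
    ⟨(2 * V - (k ^ 2 - 2 * k * b / s ^ 2)) * (s ^ 2) ^ 2, by field_simp⟩
  have hd2 : |d| ≤ |C0| := by
    rw [hd, abs_div, abs_of_pos (by positivity : (0 : ℝ) < (s ^ 2) ^ 2)] at hV
    exact ((div_le_div_iff_of_pos_right (by positivity)).1 hV).trans (le_abs_self _)
  have hVe : V = (k ^ 2 - 2 * k * b / s ^ 2 + d / (s ^ 2) ^ 2) / 2 := by linarith
  obtain ⟨b1, b2⟩ := abs_le.1 hb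
  obtain ⟨d1, d2⟩ := abs_le.1 hd2
  have k0 : 0 < k := by linarith
  rw [div_le_iff₀ hk1] at hs1
  rw [div_le_iff₀ (by positivity)] at hs2
  have c0 := abs_nonneg C0
  constructor
  · have e1 : k * b ≤ k2 ^ 2 := by nlinarith
    have e2 : 2 * k * b / s ^ 2 ≤ 2 * k2 ^ 2 / s := by
      rw [div_le_div_iff₀ (by positivity) s0]
      have : s ≤ s ^ 2 := by nlinarith
      nlinarith [mul_le_mul_of_nonneg_left this (by positivity : (0 : ℝ) ≤ 2 * k2 ^ 2)]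
    have e3 : -|C0| / s ≤ d / (s ^ 2) ^ 2 := by
      have : s ≤ (s ^ 2) ^ 2 := by nlinarith [sq_nonneg (s ^ 2 - 1), sq_nonneg s]
      rw [div_le_div_iff₀ s0 (by positivity)]
      nlinarith [mul_le_mul_of_nonneg_left this c0]
    have e4 : (2 * k2 ^ 2 + |C0|) / s ≤ k1 ^ 2 / 2 := by
      rw [div_le_iff₀ s0]
      linarith
    have e5 : k1 ^ 2 ≤ k ^ 2 := by nlinarith
    rw [add_div] at e4
    rw [neg_div] at e3
    linarith
  · have e : -(1 / 2) * ((k ^ 2 - 2 * k * (b + 1 - 1) / s ^ 2 + (b + 1 - 2) * (b + 1 - 1) / (s ^ 2) ^ 2) -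
        (k ^ 2 - 2 * k * (b + 1 / 2 - 1) / s ^ 2 + (b + 1 / 2 - 2) * (b + 1 / 2 - 1) / (s ^ 2) ^ 2) / s) +
          V * (1 - 1 / s) =
        (k * s ^ 2 + (d - (b - 1) * b) * s + ((b - 3 / 2) * (b - 1 / 2) - d)) / (2 * s ^ 5) := by
      rw [hVe]
      field_simp
      ring
    rw [e]
    refine div_nonneg ?_ (by positivity)
    have e1 : (b - 1) * b ≤ (k2 + 2) ^ 2 := by nlinarith
    have e2 : -(k2 + 2) ^ 2 ≤ (b - 3 / 2) * (b - 1 / 2) := by nlinarith [sq_nonneg (b - 1)]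
    have e3 : -((k2 + 2) ^ 2 + |C0|) * s ≤ (d - (b - 1) * b) * s :=
      mul_le_mul_of_nonneg_right (by linarith) s0.le
    have e4 : s * k1 * s ≤ k * s ^ 2 := by nlinarith
    have e5 := mul_le_mul_of_nonneg_right hs1 s0.le
    have e6 : 0 ≤ (k2 + 2) ^ 2 + |C0| := by positivity
    have e7 := mul_le_mul_of_nonneg_left (show 1 ≤ s by linarith) e6
    have e8 := mul_nonneg e6 s0.le
    linarith
/-- With `V = k²/2 - k b / r + ε`, `|ε| ≤ C0 / (2 r²)`, `lap_gfun` gives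
`(-lap/2 + V) gfun k β = gfun k β * (k (β - 1 - b) / r - (β - 2)(β - 1) / (2 r²) + ε)`.  For `β = b + 1` this is `O(r⁻²)`, for
`β = b + 1/2` it is `-k / (2 r) + O(r⁻²)`, and `gfun k (b + 1/2) = gfun k (b + 1) / √r` (`gfun_sub_half`).  Put `s = √r`; one needs
`k1 / (2 s³) ≥ E / s⁴ + E / s⁵`. -/
theorem bar_rad {k1 : ℝ} (hk1 : 0 < k1) (k2 C0 : ℝ) : ∃ L1 : ℝ, 1 ≤ L1 ∧ ∀ (k b V : ℝ) (x : E3),
    k1 ≤ k → k ≤ k2 → |b| ≤ k2 → L1 < ‖x‖ → |2 * V - (k ^ 2 - 2 * k * b / ‖x‖)| ≤ C0 / ‖x‖ ^ 2 →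
    k1 ^ 2 / 4 ≤ V ∧ 0 ≤ -(1 / 2) * lap (bar1 k b) x + V * bar1 k b x ∧
      gfun k (b + 1) x / 2 ≤ bar1 k b x ∧ bar1 k b x ≤ gfun k (b + 1) x := by
  set S : ℝ := max 2 (max (4 * ((k2 + 2) ^ 2 + |C0|) / k1) (2 * (2 * k2 ^ 2 + |C0|) / k1 ^ 2)) with hS
  have S2 : 2 ≤ S := le_max_left _ _
  refine ⟨S ^ 2, by nlinarith, fun k b V x h1 h2 hb hx hV => ?_⟩
  have x0 : x ≠ 0 := far_ne_zero (sq_nonneg S) hx
  have hs : S ≤ √‖x‖ := Real.le_sqrt_of_sq_le hx.le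
  have hr : ‖x‖ = √‖x‖ ^ 2 := (Real.sq_sqrt (norm_nonneg x)).symm
  have hg : gfun k (b + 1 / 2) x = gfun k (b + 1) x / √‖x‖ := by
    rw [← gfun_sub_half k (b + 1) x0]
    congr 1
    ring
  have hl : lap (bar1 k b) x = lap (gfun k (b + 1)) x - lap (gfun k (b + 1 / 2)) x :=
    a4_lap_sub (cd_gfun _ _ x0) (cd_gfun _ _ x0)
  rw [hl, (lap_gfun _ _ x0).2, (lap_gfun _ _ x0).2, bar1, hg]
  have g0 := gfun_nonneg k (b + 1) x
  generalize gfun k (b + 1) x = g at g0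
  generalize √‖x‖ = s at hs hr
  rw [hr] at hV ⊢
  obtain ⟨r1, r2⟩ := a41_real hk1 h1 h2 hb (S2.trans hs) (((le_max_left _ _).trans (le_max_right _ _)).trans hs)
    (((le_max_right _ _).trans (le_max_right _ _)).trans hs) hV
  have s2 : 2 ≤ s := S2.trans hs
  have e1 : g / s ≤ g / 2 := div_le_div_of_nonneg_left g0 two_pos s2
  have e2 : 0 ≤ g / s := div_nonneg g0 (by linarith)
  refine ⟨r1, le_of_le_of_eq (mul_nonneg g0 r2) ?_, by linarith, by linarith⟩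
  ring

/-- `KI.cmp` with `B = 2 N * bar1`, `κ' = κ` -/
theorem cmp_rad {k1 : ℝ} (hk1 : 0 < k1) (k2 C0 : ℝ) : ∃ L1 : ℝ, 1 ≤ L1 ∧ ∀ (L k b N : ℝ)
    (y κ : E3 → ℝ) (G : E3 → E3), L1 ≤ L → k1 ≤ k → k ≤ k2 → |b| ≤ k2 → 0 < N →
    KI (far L) y G κ 0 0 → Crit k b C0 L κ →
    (∀ᵐ x, L < ‖x‖ → ‖x‖ < L + 1 → y x ≤ N * gfun k (b + 1) x) →
    ∀ᵐ x, L < ‖x‖ → y x ≤ 2 * N * gfun k (b + 1) x := by
  obtain ⟨L1, hL1, h⟩ := bar_rad hk1 k2 C0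
  refine ⟨L1, hL1, fun L k b N y κ G hL h1 h2 hb hN hy hκ hout => ?_⟩
  have hΩ : IsOpen (far L) := isOpen_lt continuous_const continuous_norm
  have hx0 : ∀ x ∈ far L, x ≠ 0 := fun x hx => far_ne_zero (by linarith) hx
  have hh := fun x (hx : x ∈ far L) => h k b (κ x) x h1 h2 hb (hL.trans_lt hx) (hκ x hx)
  have hc : ∀ x ∈ far L, ContDiffAt ℝ 2 (bar1 k b) x := fun x hx =>
    (cd_gfun _ _ (hx0 x hx)).sub (cd_gfun _ _ (hx0 x hx))
  have hB0 : Bl (far L) (0 : E3 → ℝ) := Bl.of_continuousOn continuousOn_const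
  have gpos : ∀ x ∈ far L, 0 < gfun k (b + 1) x := fun x hx =>
    mul_pos (Real.rpow_pos_of_pos (norm_pos_iff.2 (hx0 x hx)) _) (Real.exp_pos _)
  have key := KI.cmp hΩ hy hB0 hB0 (B := fun x => 2 * N * bar1 k b x)
    (fun x hx => (contDiffAt_const.mul (hc x hx)).contDiffWithinAt)
    (fun x hx => mul_pos (by positivity) ((half_pos (gpos x hx)).trans_le (hh x hx).2.2.1)) hy.bκ
    (κ₀ := k1 ^ 2 / 4) (by positivity) (Eventually.of_forall fun x hx => ⟨(hh x hx).1, le_rfl, by simp⟩)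
    (Eventually.of_forall fun x hx => by
      rw [a4_lap_cmul _ (hc x hx)]
      have := mul_nonneg (by positivity : 0 ≤ 2 * N) (hh x hx).2.1
      simp only [Pi.zero_apply]
      linarith)
    (isClosed_out (L + 1)) (fun x hx => show L < ‖x‖ from (lt_add_one L).trans_le hx)
    (by
      filter_upwards [hout] with x hx h3 h4
      have h5 := hx h3 (not_le.1 h4)
      have := mul_le_mul_of_nonneg_left (hh x h3).2.2.1 (by positivity : 0 ≤ 2 * N)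
      linarith)
  filter_upwards [key] with x hx h3
  exact (hx h3).trans (mul_le_mul_of_nonneg_left (hh x h3).2.2.2 (by positivity))

end Crest.Agent.R335
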