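import Crest.Agent.R335.A4_Lap
import Crest.Agent.R335.A4_Gf

/-!
# R335/A4_Bar4 (part A4, sub-lead helper14)

The critical barrier on the upper half space.  Aux prefix `a44_`.
-/

set_option autoImplicit false

namespace Crest.Agent.R335

open MeasureTheory Set Filter Topology
open scoped Gradient RealInnerProductSpace ENNReal ContDiff
open Crest.MathPhysics.ThreeBody

theorem a44_quad {b k2 c d : ℝ} (hb : |b| ≤ k2) (hc : |c| ≤ 5) (hd : |d| ≤ 5) :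
    |(b - c) * (b - d)| ≤ (k2 + 5) ^ 2 := by
  have h0 : 0 ≤ k2 := (abs_nonneg _).trans hb
  have h1 : |b - c| ≤ k2 + 5 := (abs_sub _ _).trans (by linarith)
  have h2 : |b - d| ≤ k2 + 5 := (abs_sub _ _).trans (by linarith)
  rw [abs_mul, sq]
  exact mul_le_mul h1 h2 (abs_nonneg _) (by linarith)

/-- the core inequality, `w = r^(-1/2)` -/
theorem a44_core {w z e σ k k1 E a1 a2 a3 a4 : ℝ} (hw0 : 0 < w) (hw1 : w ≤ 1) (hz : 0 ≤ z) (he0 : 0 ≤ e)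
    (he1 : e ≤ 1) (hez : 1 - e ≤ z) (hσ : |σ| ≤ 1) (hE : 0 ≤ E) (h1 : |a1| ≤ E * w ^ 4) (h2 : |a2| ≤ E * w ^ 4)
    (h3 : |a3| ≤ E * w ^ 2) (h4 : |a4| ≤ E * w ^ 2) (hk : k1 ≤ k) (hs : (8 * E + 1) * w ≤ k1) :
    w ^ 6 / 2 ≤ σ * z * a1 + z * w * (k * w ^ 2 / 2 + a2) + w ^ 6 * (e / 2 + e * z * a3 + (1 - e) * a4) := by
  have p2 : w ^ 2 ≤ 1 := pow_le_one₀ hw0.le hw1
  have p4 : w ^ 4 ≤ 1 := pow_le_one₀ hw0.le hw1
  have q4 : 0 ≤ w ^ 4 := by positivity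
  have q2 : 0 ≤ w ^ 2 := by positivity
  have t1 : -(z * (E * w ^ 4)) ≤ σ * z * a1 := by
    have : |σ * z * a1| ≤ 1 * z * (E * w ^ 4) := by
      rw [abs_mul, abs_mul, abs_of_nonneg hz]
      gcongr
    linarith [neg_abs_le (σ * z * a1)]
  have t2 : -(z * (E * w ^ 4)) ≤ z * w * a2 := by
    have : |z * w * a2| ≤ z * 1 * (E * w ^ 4) := by
      rw [abs_mul, abs_mul, abs_of_nonneg hz, abs_of_pos hw0]
      gcongr
    linarith [neg_abs_le (z * w * a2)]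
  have t3 : -(z * (E * w ^ 4)) ≤ w ^ 6 * (e * z * a3) := by
    have : |w ^ 6 * (e * z * a3)| ≤ w ^ 6 * (1 * z * (E * w ^ 2)) := by
      rw [abs_mul, abs_mul, abs_mul, abs_of_nonneg hz, abs_of_nonneg he0, abs_of_pos (pow_pos hw0 6)]
      gcongr
    have h5 : w ^ 6 * (1 * z * (E * w ^ 2)) = w ^ 4 * (z * (E * w ^ 4)) := by ring
    have h6 : w ^ 4 * (z * (E * w ^ 4)) ≤ 1 * (z * (E * w ^ 4)) := by gcongr
    linarith [neg_abs_le (w ^ 6 * (e * z * a3))]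
  have t4 : -(z * (E * w ^ 4)) ≤ w ^ 6 * ((1 - e) * a4) := by
    have : |w ^ 6 * ((1 - e) * a4)| ≤ w ^ 6 * (z * (E * w ^ 2)) := by
      rw [abs_mul, abs_mul, abs_of_nonneg (sub_nonneg.2 he1), abs_of_pos (pow_pos hw0 6)]
      gcongr
    have h5 : w ^ 6 * (z * (E * w ^ 2)) = w ^ 4 * (z * (E * w ^ 4)) := by ring
    have h6 : w ^ 4 * (z * (E * w ^ 4)) ≤ 1 * (z * (E * w ^ 4)) := by gcongr
    linarith [neg_abs_le (w ^ 6 * ((1 - e) * a4))]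
  have t5 : w ^ 6 * (1 - e) ≤ z * w ^ 4 := by
    calc w ^ 6 * (1 - e) = w ^ 2 * ((1 - e) * w ^ 4) := by ring
      _ ≤ 1 * (z * w ^ 4) := by
        have : 0 ≤ 1 - e := sub_nonneg.2 he1
        gcongr
      _ = _ := by ring
  have t6 : (8 * E + 1) * (z * w ^ 4) ≤ z * w * (k * w ^ 2) := by
    calc (8 * E + 1) * (z * w ^ 4) = ((8 * E + 1) * w) * (z * w ^ 3) := by ring
      _ ≤ k * (z * w ^ 3) := by
        have : (8 * E + 1) * w ≤ k := hs.trans hk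
        gcongr
      _ = _ := by ring
  nlinarith

theorem a44_d1 : deriv (fun z : ℝ => 1 - Real.exp (-z)) = fun z => Real.exp (-z) := by
  funext z
  have : HasDerivAt (fun z : ℝ => 1 - Real.exp (-z)) (Real.exp (-z)) z := by
    simpa using ((hasDerivAt_neg z).exp).const_sub 1
  exact this.deriv

theorem a44_d2 : deriv (fun z : ℝ => Real.exp (-z)) = fun z => -Real.exp (-z) := by
  funext z
  have : HasDerivAt (fun z : ℝ => Real.exp (-z)) (-Real.exp (-z)) z := by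
    simpa using (hasDerivAt_neg z).exp
  exact this.deriv

theorem a44_cd : ContDiff ℝ 2 fun z : ℝ => 1 - Real.exp (-z) := by
  fun_prop

/-- the real inequality behind `bar_odd` -/
theorem a44_real {w z e σ k k1 k2 b C0 V g : ℝ} (hw0 : 0 < w) (hw1 : w ≤ 1) (hz : 0 ≤ z) (he0 : 0 ≤ e)
    (he1 : e ≤ 1) (hez : 1 - e ≤ z) (hσ : |σ| ≤ 1) (hk1 : 0 < k1) (hk : k1 ≤ k) (hk2 : k ≤ k2) (hb : |b| ≤ k2)
    (hV : |2 * V - (k ^ 2 - 2 * k * b * w ^ 2)| ≤ C0 * w ^ 4) (hg : 0 ≤ g)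
    (hs : (8 * (5 * k2 + 5 + (k2 + 5) ^ 2 + |C0|) + 1) * w ≤ k1) :
    g * w ^ 6 / 2 ≤ -(1 / 2) *
      (σ * (g * (0 + 2 * (1 * z) * ((b - 2) * w ^ 2 - k) * w ^ 2 +
          z * (k ^ 2 - 2 * k * (b - 1) * w ^ 2 + (b - 2) * (b - 1) * w ^ 4))) -
        g * w * (0 + 2 * (1 * z) * ((b - 1 / 2 - 2) * w ^ 2 - k) * w ^ 2 +
          z * (k ^ 2 - 2 * k * (b - 1 / 2 - 1) * w ^ 2 + (b - 1 / 2 - 2) * (b - 1 / 2 - 1) * w ^ 4)) +
        g * w ^ 6 * (-e + 2 * (e * z) * ((b - 3 - 2) * w ^ 2 - k) * w ^ 2 +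
          (1 - e) * (k ^ 2 - 2 * k * (b - 3 - 1) * w ^ 2 + (b - 3 - 2) * (b - 3 - 1) * w ^ 4))) +
      V * (σ * (z * g) - z * (g * w) + (1 - e) * (g * w ^ 6)) := by
  set ε := V - k ^ 2 / 2 + k * b * w ^ 2 with hε
  have hk0 : 0 < k := by linarith
  have hk20 : 0 ≤ k2 := by linarith
  have p2 : w ^ 2 ≤ 1 := pow_le_one₀ hw0.le hw1
  have q4 : 0 ≤ w ^ 4 := by positivity
  have q2 : 0 ≤ w ^ 2 := by positivity
  have p42 : w ^ 4 ≤ w ^ 2 := by nlinarith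
  have hC0 := abs_nonneg C0
  have hε1 : |ε| ≤ |C0| * w ^ 4 := by
    have h1 : 2 * V - (k ^ 2 - 2 * k * b * w ^ 2) = 2 * ε := by rw [hε]; ring
    rw [h1, abs_mul, abs_two] at hV
    have h2 : C0 * w ^ 4 ≤ |C0| * w ^ 4 := mul_le_mul_of_nonneg_right (le_abs_self _) q4
    linarith [abs_nonneg ε]
  have hq : ∀ c d : ℝ, |c| ≤ 5 → |d| ≤ 5 → |(b - c) * (b - d) / 2 * w ^ 4| ≤ (k2 + 5) ^ 2 * w ^ 4 := by
    intro c d hc hd
    rw [abs_mul, abs_of_nonneg q4, abs_div, abs_two]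
    have := a44_quad hb hc hd
    have := abs_nonneg ((b - c) * (b - d))
    gcongr
    linarith
  set E := 5 * k2 + 5 + (k2 + 5) ^ 2 + |C0| with hE
  have hE0 : 0 ≤ E := by positivity
  have hE4 : (k2 + 5) ^ 2 * w ^ 4 + |C0| * w ^ 4 ≤ E * w ^ 4 := by
    rw [← add_mul]
    gcongr
    linarith
  have b1 : |-((b - 2) * (b - -1) / 2 * w ^ 4) + ε| ≤ E * w ^ 4 := by
    refine (abs_add_le _ _).trans ?_
    rw [abs_neg]
    have := hq 2 (-1) (by norm_num [abs_le]) (by norm_num [abs_le])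
    linarith
  have b2 : |(b - 5 / 2) * (b - -(1 / 2)) / 2 * w ^ 4 - ε| ≤ E * w ^ 4 := by
    refine (abs_sub _ _).trans ?_
    have := hq (5 / 2) (-(1 / 2)) (by norm_num [abs_le]) (by norm_num [abs_le])
    linarith
  have b3 : |(k - (b - 5) * w ^ 2) * w ^ 2| ≤ E * w ^ 2 := by
    rw [abs_mul, abs_of_nonneg q2]
    gcongr
    refine (abs_sub _ _).trans ?_
    have h1 : |(b - 5) * w ^ 2| ≤ (k2 + 5) * 1 := by
      rw [abs_mul, abs_of_nonneg q2]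
      have : |b - 5| ≤ k2 + 5 := (abs_sub _ _).trans (by rw [abs_of_pos (by norm_num : (0 : ℝ) < 5)]; linarith)
      gcongr
    rw [abs_of_pos hk0]
    nlinarith [sq_nonneg (k2 + 5)]
  have b4 : |-(4 * k * w ^ 2) - (b - 5) * (b - 4) / 2 * w ^ 4 + ε| ≤ E * w ^ 2 := by
    refine (abs_add_le _ _).trans ?_
    have h1 := abs_sub (-(4 * k * w ^ 2)) ((b - 5) * (b - 4) / 2 * w ^ 4)
    rw [abs_neg, abs_of_nonneg (by positivity : 0 ≤ 4 * k * w ^ 2)] at h1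
    have h2 := hq 5 4 (by norm_num [abs_le]) (by norm_num [abs_le])
    have h3 : (k2 + 5) ^ 2 * w ^ 4 ≤ (k2 + 5) ^ 2 * w ^ 2 := by gcongr
    have h4 : |C0| * w ^ 4 ≤ |C0| * w ^ 2 := by gcongr
    have h5 : 4 * k * w ^ 2 ≤ (5 * k2 + 5) * w ^ 2 := by
      gcongr
      linarith
    have h6 : E * w ^ 2 = (5 * k2 + 5) * w ^ 2 + (k2 + 5) ^ 2 * w ^ 2 + |C0| * w ^ 2 := by rw [hE]; ring
    linarith
  have key := mul_le_mul_of_nonneg_left (a44_core hw0 hw1 hz he0 he1 hez hσ hE0 b1 b2 b3 b4 hk hs) hg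
  have hV' : V = ε + k ^ 2 / 2 - k * b * w ^ 2 := by rw [hε]; ring
  rw [hV']
  refine le_of_eq_of_le (by ring) (key.trans (le_of_eq ?_))
  ring

theorem cd_bar4 (σ k b : ℝ) {x : E3} (hx : x ≠ 0) : ContDiffAt ℝ 2 (bar4 σ k b) x :=
  ((contDiffAt_const.mul (cd_hg contDiff_id k b hx)).sub (cd_hg contDiff_id k (b - 1 / 2) hx)).add
    (cd_hg a44_cd k (b - 3) hx)

/-- With `V = k²/2 - k b / r + ε`, `|ε| ≤ C0 / (2 r²)`, `lap_hg` gives
`(-lap/2 + V) hg h k β = gfun k β * (-h''/2 + h' z (k - (β-2)/r) / r + h (k (β-1-b)/r - (β-2)(β-1)/(2 r²) + ε))`.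
`h = z`: the bracket is `z (k (β - b) / r + O(r⁻²))`; so the first two terms of `bar4` give at least
`z g (k1 / (2 r^(3/2)) - E / r² - E / r^(5/2))`.  `h = 1 - e^(-z) ∈ [0, z]`, `β = b - 3`: the bracket is `≥ e^(-z) / 2 - E z / r`.
For large `r` the sum is `≥ r⁻³ g (e^(-z) / 2 + z) ≥ r⁻³ g / 2` (`1 - z ≤ e^(-z)`).  Put `s = √r`; `gfun_sub_half`, `gfun_sub_nat`.
The last two inequalities hold for `r ≥ 16`. -/
theorem bar_odd {k1 : ℝ} (hk1 : 0 < k1) (k2 C0 : ℝ) : ∃ L1 : ℝ, 1 ≤ L1 ∧ ∀ (σ k b V : ℝ) (x : E3),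
    |σ| ≤ 1 → k1 ≤ k → k ≤ k2 → |b| ≤ k2 → L1 < ‖x‖ → 0 ≤ x 2 →
    |2 * V - (k ^ 2 - 2 * k * b / ‖x‖)| ≤ C0 / ‖x‖ ^ 2 →
    gfun k (b - 3) x / 2 ≤ -(1 / 2) * lap (bar4 σ k b) x + V * bar4 σ k b x ∧
      (σ - 1 / 4) * x 2 * gfun k b x ≤ bar4 σ k b x ∧ bar4 σ k b x ≤ (σ + 1 / 4) * x 2 * gfun k b x := by
  set S : ℝ := max 4 ((8 * (5 * k2 + 5 + (k2 + 5) ^ 2 + |C0|) + 1) / k1) with hS
  have hS4 : 4 ≤ S := le_max_left _ _
  refine ⟨S ^ 2, by nlinarith, fun σ k b V x hσ hk hk2 hb hx hz hV => ?_⟩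
  have hr0 : 0 < ‖x‖ := by nlinarith
  have hx0 : x ≠ 0 := norm_pos_iff.1 hr0
  have hs : S ≤ √‖x‖ := Real.le_sqrt_of_sq_le hx.le
  have hs0 : 0 < √‖x‖ := by linarith
  set w : ℝ := (√‖x‖)⁻¹ with hw
  have hw0 : 0 < w := inv_pos.2 hs0
  have hw4 : w ≤ 1 / 4 := by
    rw [hw, ← one_div]
    exact one_div_le_one_div_of_le (by norm_num) (by linarith)
  have hw2 : ‖x‖⁻¹ = w ^ 2 := by rw [hw, inv_pow, Real.sq_sqrt hr0.le]
  have hd1 : ∀ t : ℝ, t / ‖x‖ = t * w ^ 2 := fun t => by rw [div_eq_mul_inv, hw2]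
  have hd2 : ∀ t : ℝ, t / ‖x‖ ^ 2 = t * w ^ 4 := fun t => by rw [div_eq_mul_inv, ← inv_pow, hw2, ← pow_mul]
  have hd3 : ∀ t : ℝ, t / ‖x‖ ^ 3 = t * w ^ 6 := fun t => by rw [div_eq_mul_inv, ← inv_pow, hw2, ← pow_mul]
  have hgn := gfun_nonneg k b x
  have hg2 : gfun k (b - 1 / 2) x = gfun k b x * w := by rw [gfun_sub_half k b hx0, div_eq_mul_inv]
  have hg3 : gfun k (b - 3) x = gfun k b x * w ^ 6 := by
    rw [← hd3, ← gfun_sub_nat k b 3 hx0]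
    norm_num
  have he0 : 0 ≤ Real.exp (-x 2) := (Real.exp_pos _).le
  have he1 : Real.exp (-x 2) ≤ 1 := Real.exp_le_one_iff.2 (by linarith)
  have hez : 1 - Real.exp (-x 2) ≤ x 2 := by linarith [Real.add_one_le_exp (-x 2)]
  have hbar : bar4 σ k b x = σ * (x 2 * gfun k b x) - x 2 * (gfun k b x * w) +
      (1 - Real.exp (-x 2)) * (gfun k b x * w ^ 6) := by
    rw [← hg2, ← hg3]
    rfl
  have hzg : 0 ≤ x 2 * gfun k b x := mul_nonneg hz hgn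
  refine ⟨?_, ?_, ?_⟩
  · have c1 := cd_hg (h := fun z => z) contDiff_id k b hx0
    have c2 := cd_hg (h := fun z => z) contDiff_id k (b - 1 / 2) hx0
    have c3 := cd_hg a44_cd k (b - 3) hx0
    have hl : lap (bar4 σ k b) x = σ * lap (hg (fun z => z) k b) x - lap (hg (fun z => z) k (b - 1 / 2)) x +
        lap (hg (fun z => 1 - Real.exp (-z)) k (b - 3)) x := by
      rw [← a4_lap_cmul σ c1, ← a4_lap_sub (contDiffAt_const.mul c1) c2,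
        ← a4_lap_add ((contDiffAt_const.mul c1).sub c2) c3]
      rfl
    have i1 : deriv (fun z : ℝ => z) = fun _ => 1 := deriv_id''
    have i2 : deriv (fun _ : ℝ => (1 : ℝ)) = fun _ => 0 := deriv_const' 1
    rw [hl, hbar, lap_hg (h := fun z => z) contDiff_id k b hx0,
      lap_hg (h := fun z => z) contDiff_id k (b - 1 / 2) hx0, lap_hg a44_cd k (b - 3) hx0, i1, i2, a44_d1, a44_d2,
      hg2, hg3]
    rw [hd1, hd2] at hV
    simp only [hd1, hd2]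
    refine a44_real hw0 (by linarith) hz he0 he1 hez hσ hk1 hk hk2 hb hV hgn ?_
    have h1 : (8 * (5 * k2 + 5 + (k2 + 5) ^ 2 + |C0|) + 1) / k1 ≤ √‖x‖ := (le_max_right _ _).trans hs
    rw [div_le_iff₀ hk1] at h1
    rw [hw, ← div_eq_mul_inv, div_le_iff₀ hs0]
    linarith
  · rw [hbar]
    have h1 : 0 ≤ (1 - Real.exp (-x 2)) * (gfun k b x * w ^ 6) := mul_nonneg (by linarith) (by positivity)
    have h2 : x 2 * gfun k b x * w ≤ x 2 * gfun k b x * (1 / 4) := by gcongr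
    linarith
  · rw [hbar]
    have h0 : w ^ 6 ≤ 1 / 4 := by
      calc w ^ 6 ≤ w ^ 1 := pow_le_pow_of_le_one hw0.le (by linarith) (by norm_num)
        _ ≤ 1 / 4 := by rwa [pow_one]
    have h1 : (1 - Real.exp (-x 2)) * (gfun k b x * w ^ 6) ≤ x 2 * (gfun k b x * (1 / 4)) := by gcongr
    have h2 : 0 ≤ x 2 * gfun k b x * w := by positivity
    linarith

end Crest.Agent.R335
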