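import Crest.Agent.R335.A4_BarM

/-!
# R335/A4_Bar9 (part A4, sub-lead helper14)

The lower barrier for the component `dS`.  Aux prefix `a49_`.
-/

set_option autoImplicit false

namespace Crest.Agent.R335

open MeasureTheory Set Filter Topology
open scoped Gradient RealInnerProductSpace ENNReal ContDiff
open Crest.MathPhysics.ThreeBody

theorem a49_alg {k m e β δ t w E C0 : ℝ} (hk : 0 < k) (e0 : 0 < e) (e1 : e ≤ 1) (em : m * e ≤ 1 / 2) (w0 : 0 ≤ w)
    (t0 : 0 < t) (t1 : t ≤ 1) (hδ : δ ≤ |C0| * t)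
    (hE : E = 2 * k + 2 * |β - 2| + k * |β - 1| + |β - 2| * |β - 1| / 2 + |C0|) :
    -(1 / 2) * (2 + 2 * (2 * w) * ((β - 2) * t - k) * t +
      (e + w) * (k ^ 2 - 2 * k * (β - 1) * t + (β - 2) * (β - 1) * t ^ 2)) + (k ^ 2 / 2 + m + δ) * (e + w) ≤
      -(1 / 2) + m * w + E * (1 + w) * t := by
  have tt : t ^ 2 ≤ t := by nlinarith
  have p1 := abs_nonneg (β - 1)
  have p2 := abs_nonneg (β - 2)
  have p3 := abs_nonneg C0
  have H0 : 0 < e + w := by linarith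
  have H1 : e + w ≤ 1 + w := by linarith
  have a1 : -(β - 2) * t ^ 2 ≤ |β - 2| * t :=
    (mul_le_mul_of_nonneg_right (neg_le_abs _) (sq_nonneg t)).trans (mul_le_mul_of_nonneg_left tt p2)
  have a2 : k * (β - 1) * t ≤ k * |β - 1| * t := by
    have := le_abs_self (β - 1)
    gcongr
  have a3 : -((β - 2) * (β - 1)) * t ^ 2 ≤ |β - 2| * |β - 1| * t := by
    have h1 : -((β - 2) * (β - 1)) ≤ |β - 2| * |β - 1| := by
      rw [← abs_mul]
      exact neg_le_abs _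
    exact (mul_le_mul_of_nonneg_right h1 (sq_nonneg t)).trans (mul_le_mul_of_nonneg_left tt (by positivity))
  obtain ⟨F, hF⟩ : ∃ F, F = (k * |β - 1| + |β - 2| * |β - 1| / 2 + |C0|) * t := ⟨_, rfl⟩
  have F0 : 0 ≤ F := by rw [hF]; positivity
  have a4 : k * (β - 1) * t - (β - 2) * (β - 1) * t ^ 2 / 2 + δ ≤ F := by rw [hF]; nlinarith
  have a5 : (e + w) * (k * (β - 1) * t - (β - 2) * (β - 1) * t ^ 2 / 2 + δ) ≤ (1 + w) * F :=
    (mul_le_mul_of_nonneg_left a4 H0.le).trans (mul_le_mul_of_nonneg_right H1 F0)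
  have a6 := mul_le_mul_of_nonneg_left a1 w0
  have a7 : 0 ≤ (2 * k + 2 * |β - 2|) * t := by positivity
  have e2 : E * (1 + w) * t = (2 * k + 2 * |β - 2|) * t + w * (2 * k * t) + 2 * (w * (|β - 2| * t)) + (1 + w) * F := by
    rw [hE, hF]; ring
  rw [e2]
  nlinarith

theorem a49_cd (e : ℝ) : ContDiff ℝ 2 fun z : ℝ => e + z ^ 2 := by fun_prop

theorem a49_d1 (e : ℝ) : deriv (fun z : ℝ => e + z ^ 2) = fun z => 2 * z := by
  ext z
  simp

theorem a49_d2 (z : ℝ) : deriv (fun z : ℝ => 2 * z) z = 2 := by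
  simp

/-- `h = ε₀ + z²`, `ε₀ = 1 / (2 (m + 1))`, `c₂ = c₁ ε₀`.  By `lap_hg`,
`(-lap/2 + V) hg h k β ≤ gfun k β * (-1/2 + m z² + E (1 + z²) / r)`, and `(c₂ / 2) (1 + z²) ≥ (|C1| + c₂ E) (1 + z²) / r` for large `r`. -/
theorem bar_low {k m c₁ : ℝ} (hk : 0 < k) (hm : 0 < m) (hc : 0 < c₁) (β C0 C1 : ℝ) : ∃ L1 : ℝ, 1 ≤ L1 ∧
    ∀ (V : ℝ) (x : E3), L1 < ‖x‖ → |V - (k ^ 2 / 2 + m)| ≤ C0 / ‖x‖ →
      c₁ / (2 * (m + 1)) * (-(1 / 2) * lap (hg (fun z => 1 / (2 * (m + 1)) + z ^ 2) k β) x +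
          V * hg (fun z => 1 / (2 * (m + 1)) + z ^ 2) k β x) ≤
        (c₁ * x 2 ^ 2 - C1 * (1 + x 2 ^ 2) / ‖x‖) * gfun k β x := by
  obtain ⟨e, he⟩ : ∃ e, e = 1 / (2 * (m + 1)) := ⟨_, rfl⟩
  have e0 : 0 < e := by rw [he]; positivity
  have e2 : e * (2 * (m + 1)) = 1 := by rw [he]; field_simp
  have e1 : e ≤ 1 := by nlinarith
  have em : m * e ≤ 1 / 2 := by nlinarith
  obtain ⟨E, hE⟩ : ∃ E, E = 2 * k + 2 * |β - 2| + k * |β - 1| + |β - 2| * |β - 1| / 2 + |C0| := ⟨_, rfl⟩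
  have E0 : 0 ≤ E := by rw [hE]; positivity
  obtain ⟨c₂, hc₂⟩ : ∃ c₂, c₂ = c₁ * e := ⟨_, rfl⟩
  have c0 : 0 < c₂ := by rw [hc₂]; positivity
  have L0 : 0 ≤ 2 * (|C1| + c₂ * E) / c₂ := by positivity
  refine ⟨1 + 2 * (|C1| + c₂ * E) / c₂, by linarith, fun V x hx hV => ?_⟩
  have ce : c₁ / (2 * (m + 1)) = c₂ := by rw [hc₂, he]; ring
  rw [ce, ← he]
  have r1 : 1 < ‖x‖ := by linarith
  have r0 : 0 < ‖x‖ := by linarith
  have hx0 : x ≠ 0 := norm_pos_iff.1 r0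
  have t0 : 0 < ‖x‖⁻¹ := inv_pos.2 r0
  have t1 : ‖x‖⁻¹ ≤ 1 := inv_le_one_of_one_le₀ r1.le
  have hEt : (|C1| + c₂ * E) * ‖x‖⁻¹ ≤ c₂ / 2 := by
    rw [← div_eq_mul_inv, div_le_iff₀ r0]
    have h1 : 2 * (|C1| + c₂ * E) / c₂ ≤ ‖x‖ := by linarith
    rw [div_le_iff₀ c0] at h1
    linarith
  have hδ : V - (k ^ 2 / 2 + m) ≤ |C0| * ‖x‖⁻¹ := by
    refine (le_abs_self _).trans (hV.trans ?_)
    rw [div_eq_mul_inv]
    exact mul_le_mul_of_nonneg_right (le_abs_self _) t0.le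
  have w0 := sq_nonneg (x 2)
  have h1 := a49_alg (β := β) hk e0 e1 em w0 t0 t1 hδ hE
  have h2 : c₂ * (-(1 / 2) + m * x 2 ^ 2 + E * (1 + x 2 ^ 2) * ‖x‖⁻¹) ≤ c₁ * x 2 ^ 2 - C1 * (1 + x 2 ^ 2) * ‖x‖⁻¹ := by
    have b1 : c₁ = c₂ * (2 * (m + 1)) := by rw [hc₂, mul_assoc, e2, mul_one]
    have b2 := mul_le_mul_of_nonneg_right hEt (show 0 ≤ 1 + x 2 ^ 2 by linarith)
    have b3 : C1 * ((1 + x 2 ^ 2) * ‖x‖⁻¹) ≤ |C1| * ((1 + x 2 ^ 2) * ‖x‖⁻¹) :=
      mul_le_mul_of_nonneg_right (le_abs_self _) (by positivity)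
    have b4 : 0 ≤ c₂ * (m + 3 / 2) * x 2 ^ 2 := by positivity
    rw [b1]
    nlinarith
  have h3 := mul_le_mul_of_nonneg_right ((mul_le_mul_of_nonneg_left h1 c0.le).trans h2) (gfun_nonneg k β x)
  rw [lap_hg (a49_cd e) k β hx0, hg, a49_d1, a49_d2]
  simp only [div_eq_mul_inv, ← inv_pow] at h3 ⊢
  linarith

/-- `cmp_sub` on `far L` with `B = -c₂ * hg (ε₀ + z²) k β + K * hg 1 k' 2`, `k' = √(k² + m)`.  The second term is a supersolution by `bar_mass`
(mass `2 m / 3`, `prof_one`); `K` is fixed on the shell by `gfun_shell` (or continuity); `max (w - B) 0 ≤ |w| + c₂ (1 + r²) gfun k β`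
is in `L²` (`memLp_gfun` for `β` and `β + 1 + 1`).  Finally `gfun_small`: `c = c₂ ε₀ / 2`. -/
theorem cmp_low {k m c₁ L0 : ℝ} (hk : 0 < k) (hm : 0 < m) (hc : 0 < c₁) (hL0 : 1 ≤ L0) {β C0 C1 M : ℝ}
    {V f w : E3 → ℝ} {G : E3 → E3} (hw : H1 w G) (hV : LB (far L0) V) (hf : LB (far L0) f)
    (h : SubS (far L0) V f w G) (hVa : ∀ x : E3, L0 < ‖x‖ → |V x - (k ^ 2 / 2 + m)| ≤ C0 / ‖x‖)
    (hfa : ∀ᵐ x, L0 < ‖x‖ → f x ≤ -((c₁ * x 2 ^ 2 - C1 * (1 + x 2 ^ 2) / ‖x‖) * gfun k β x))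
    (hM : ∀ᵐ x, L0 < ‖x‖ → w x ≤ M) :
    ∃ L c : ℝ, L0 ≤ L ∧ 0 < c ∧ ∀ᵐ x, L < ‖x‖ → w x ≤ -(c * gfun k β x) := by
  obtain ⟨L1, hL1, hb1⟩ := bar_low hk hm hc β C0 C1
  obtain ⟨k', hk'⟩ : ∃ k', k' = √(k ^ 2 + m) := ⟨_, rfl⟩
  have k2 : k' ^ 2 = k ^ 2 + m := by rw [hk']; exact Real.sq_sqrt (by positivity)
  have k0 : 0 ≤ k' := by rw [hk']; exact Real.sqrt_nonneg _
  have kk : k < k' := lt_of_pow_lt_pow_left₀ 2 k0 (by linarith)
  have hm' : 0 < 2 * m / 3 := by positivity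
  obtain ⟨L2, hL2, hb2⟩ := bar_mass k' 2 C0 hm'
  obtain ⟨e, he⟩ : ∃ e, e = 1 / (2 * (m + 1)) := ⟨_, rfl⟩
  have e0 : 0 < e := by rw [he]; positivity
  have e1 : e ≤ 1 := by
    rw [he, div_le_one (by positivity)]
    linarith
  obtain ⟨c₂, hc₂⟩ : ∃ c₂, c₂ = c₁ / (2 * (m + 1)) := ⟨_, rfl⟩
  have c0 : 0 < c₂ := by rw [hc₂]; positivity
  rw [← he, ← hc₂] at hb1
  obtain ⟨L, hL⟩ : ∃ L, L = max L0 (max L1 L2) := ⟨_, rfl⟩
  have l0 : L0 ≤ L := by rw [hL]; exact le_max_left _ _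
  have l1 : L1 ≤ L := by rw [hL]; exact (le_max_left _ _).trans (le_max_right _ _)
  have l2 : L2 ≤ L := by rw [hL]; exact (le_max_right _ _).trans (le_max_right _ _)
  have Lp : 0 < L := by linarith
  obtain ⟨a, A, a0, A0, hsh⟩ := gfun_shell k' (|β| + 2) (L + 1)
  obtain ⟨K, hK⟩ : ∃ K, K = (|M| + c₂ * ((1 + (L + 1) ^ 2) * A)) / a := ⟨_, rfl⟩
  have K0 : 0 < K := by rw [hK]; positivity
  have Ka : K * a = |M| + c₂ * ((1 + (L + 1) ^ 2) * A) := by rw [hK]; field_simp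
  have hne : ∀ x ∈ far L, x ≠ 0 := fun x hx => far_ne_zero Lp.le hx
  have P1 := prof_one hm'
  have cd1 : ∀ x ∈ far L, ContDiffAt ℝ 2 (hg (fun z => e + z ^ 2) k β) x := fun x hx => cd_hg (a49_cd e) k β (hne x hx)
  have cd2 : ∀ x ∈ far L, ContDiffAt ℝ 2 (hg (fun _ => 1) k' 2) x := fun x hx => cd_hg P1.cd k' 2 (hne x hx)
  have hbar : ∀ x ∈ far L, 2 * m / 3 / 2 ≤ V x ∧ 2 * m / 3 / 4 * hg (fun _ => 1) k' 2 x ≤
      -(1 / 2) * lap (hg (fun _ => 1) k' 2) x + V x * hg (fun _ => 1) k' 2 x := fun x hx =>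
    hb2 k' 2 (V x) _ x k0 le_rfl (by norm_num) P1 (l2.trans_lt hx) (by
      have := (abs_le.1 (hVa x (l0.trans_lt hx))).1
      linarith)
  have key : ∀ᵐ x, x ∈ far L → w x ≤ -c₂ * hg (fun z => e + z ^ 2) k β x + K * hg (fun _ => 1) k' 2 x := by
    refine cmp_sub (isOpen_far L) (hw.loc _) (hV.mono (far_mono l0)) (hf.mono (far_mono l0)) (h.mono (far_mono l0))
      (fun x hx => ((contDiffAt_const.mul (cd1 x hx)).add (contDiffAt_const.mul (cd2 x hx))).contDiffWithinAt)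
      (half_pos hm') (Eventually.of_forall fun x hx => (hbar x hx).1) ?_ (isClosed_out (L + 1))
      (fun x hx => show L < ‖x‖ from by linarith [show L + 1 ≤ ‖x‖ from hx]) ?_ ?_
    · filter_upwards [hfa] with x hx hx'
      rw [a4_lap_add (contDiffAt_const.mul (cd1 x hx')) (contDiffAt_const.mul (cd2 x hx')),
        a4_lap_cmul _ (cd1 x hx'), a4_lap_cmul _ (cd2 x hx')]
      have h1 := hx (l0.trans_lt hx')
      have h2 := hb1 (V x) x (l1.trans_lt hx') (hVa x (l0.trans_lt hx'))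
      have h3 := mul_le_mul_of_nonneg_left (hbar x hx').2 K0.le
      have h4 : 0 ≤ K * (2 * m / 3 / 4 * hg (fun _ => 1) k' 2 x) := by
        have := gfun_nonneg k' 2 x
        simp only [hg]
        positivity
      nlinarith
    · filter_upwards [hM] with x hx hx' hA
      have r1 : L < ‖x‖ := hx'
      have r2 : ‖x‖ < L + 1 := not_le.1 hA
      have h1 := (hsh k β x hk.le kk.le (by linarith) (by linarith) r2.le).2
      have h2 := (hsh k' 2 x k0 le_rfl (by have := abs_nonneg β; rw [abs_two]; linarith) (by linarith) r2.le).1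
      have h3 : x 2 ^ 2 ≤ (L + 1) ^ 2 := by
        rw [← sq_abs]
        exact pow_le_pow_left₀ (abs_nonneg _) ((abs_z_le_norm x).trans r2.le) 2
      have h4 : (e + x 2 ^ 2) * gfun k β x ≤ (1 + (L + 1) ^ 2) * A :=
        mul_le_mul (by linarith) h1 (gfun_nonneg k β x) (by positivity)
      have h5 := mul_le_mul_of_nonneg_left h4 c0.le
      have h6 := mul_le_mul_of_nonneg_left h2 K0.le
      have h7 := (hx (l0.trans_lt hx')).trans (le_abs_self M)
      simp only [hg]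
      linarith
    · have m1 := memLp_gfun hk β Lp
      have m2 := memLp_gfun hk (β + 1 + 1) Lp
      have m3 := hw.mf.norm.add ((m1.add m2).const_mul c₂)
      have mz : Measurable fun x : E3 => x 2 := by fun_prop
      have mB : Measurable fun x : E3 => -c₂ * hg (fun z => e + z ^ 2) k β x + K * hg (fun _ => 1) k' 2 x := by
        simp only [hg]
        exact (((measurable_const.add (mz.pow_const 2)).mul (measurable_gfun k β)).const_mul _).add
          ((measurable_const.mul (measurable_gfun k' 2)).const_mul _)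
      refine m3.of_le (AEStronglyMeasurable.indicator ?_ (isClosed_out (L + 1)).measurableSet)
        (Eventually.of_forall fun x => ?_)
      · exact (hw.mf.1.sub mB.aestronglyMeasurable).sup aestronglyMeasurable_const
      · by_cases hA : x ∈ {x : E3 | L + 1 ≤ ‖x‖}
        · have hx' : x ∈ far L := show L < ‖x‖ from by linarith [show L + 1 ≤ ‖x‖ from hA]
          rw [indicator_of_mem hA]
          simp only [Pi.add_apply, indicator_of_mem hx', Real.norm_eq_abs, hg]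
          rw [gfun_add_one k (β + 1) (hne x hx'), gfun_add_one k β (hne x hx'), abs_of_nonneg (le_max_right _ _)]
          refine le_trans ?_ (le_abs_self _)
          have g0 := gfun_nonneg k β x
          have g1 := gfun_nonneg k' 2 x
          have h3 : x 2 ^ 2 ≤ ‖x‖ ^ 2 := by
            rw [← sq_abs]
            exact pow_le_pow_left₀ (abs_nonneg _) (abs_z_le_norm x) 2
          have h4 : (e + x 2 ^ 2) * gfun k β x ≤ (1 + ‖x‖ ^ 2) * gfun k β x :=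
            mul_le_mul_of_nonneg_right (by linarith) g0
          have h5 := mul_le_mul_of_nonneg_left h4 c0.le
          have h6 := mul_nonneg K0.le g1
          have h7 := le_abs_self (w x)
          have h8 := abs_nonneg (w x)
          refine max_le (by nlinarith) (by positivity)
        · rw [indicator_of_notMem hA, norm_zero]
          exact norm_nonneg _
  obtain ⟨L3, hL3, hs⟩ := gfun_small kk β 2 (show 0 < c₂ * e / (2 * K) by positivity)
  refine ⟨max L L3, c₂ * e / 2, l0.trans (le_max_left _ _), by positivity, ?_⟩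
  filter_upwards [key] with x hx hx'
  have h1 := hx ((le_max_left _ _).trans_lt hx')
  have h2 := mul_le_mul_of_nonneg_left (hs x ((le_max_right _ _).trans_lt hx')) K0.le
  have h3 : K * (c₂ * e / (2 * K) * gfun k β x) = c₂ * e / 2 * gfun k β x := by field_simp
  have h4 : 0 ≤ c₂ * (x 2 ^ 2 * gfun k β x) := by
    have := gfun_nonneg k β x
    positivity
  simp only [hg] at h1
  nlinarith

end Crest.Agent.R335
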