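import Crest.Agent.R335.A4_Lap
import Crest.Agent.R335.A4_Gf
import Crest.Agent.R335.A4_Bas

/-!
# R335/A4_BarM (part A4, sub-lead helper14)

Massive barriers.  Aux prefix `a4m_`.
-/

set_option autoImplicit false

namespace Crest.Agent.R335

open MeasureTheory Set Filter Topology
open scoped Gradient RealInnerProductSpace ENNReal ContDiff
open Crest.MathPhysics.ThreeBody

theorem a4m_alg {m k β V H p q t C0 P K C : ℝ} (hH : 0 < H) (p0 : 0 ≤ p) (p1 : p ≤ 2 * H) (hq : q ≤ m / 2 * H)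
    (t0 : 0 < t) (t1 : t ≤ 1) (k0 : 0 ≤ k) (k1 : k ≤ K) (b1 : |β - 1| ≤ P) (b2 : |β - 2| ≤ P) (c1 : C0 ≤ C)
    (hE : (C + K * P + 2 * P + P ^ 2 / 2) * t ≤ m / 4) (hV : k ^ 2 / 2 + 3 * m / 4 - C0 * t ≤ V) :
    m / 4 * H ≤ -(1 / 2) * (q + 2 * p * ((β - 2) * t - k) * t +
      H * (k ^ 2 - 2 * k * (β - 1) * t + (β - 2) * (β - 1) * t ^ 2)) + V * H := by
  have P0 : 0 ≤ P := (abs_nonneg _).trans b1
  have tt : t ^ 2 ≤ t := by nlinarith
  have a1 : p * (β - 2) * t ^ 2 ≤ 2 * H * P * t := by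
    have h1 : p * (β - 2) ≤ 2 * H * P :=
      (mul_le_mul_of_nonneg_left (le_of_abs_le b2) p0).trans (mul_le_mul_of_nonneg_right p1 P0)
    exact (mul_le_mul_of_nonneg_right h1 (sq_nonneg t)).trans (mul_le_mul_of_nonneg_left tt (by positivity))
  have a2 : 0 ≤ p * k * t := by positivity
  have a3 : -(K * P) ≤ k * (β - 1) := by
    have h1 := mul_le_mul_of_nonneg_left (abs_le.1 b1).1 k0
    have h2 := mul_le_mul_of_nonneg_right k1 P0
    linarith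
  have a4 : (β - 2) * (β - 1) * t ^ 2 ≤ P ^ 2 * t := by
    have h1 : (β - 2) * (β - 1) ≤ P ^ 2 := by
      refine (le_abs_self _).trans ?_
      rw [abs_mul, sq]
      exact mul_le_mul b2 b1 (abs_nonneg _) P0
    exact (mul_le_mul_of_nonneg_right h1 (sq_nonneg t)).trans (mul_le_mul_of_nonneg_left tt (by positivity))
  have a5 := mul_le_mul_of_nonneg_left (mul_le_mul_of_nonneg_right a3 t0.le) hH.le
  have a6 := mul_le_mul_of_nonneg_left a4 hH.le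
  have a7 := mul_le_mul_of_nonneg_left hE hH.le
  have a8 := mul_le_mul_of_nonneg_left hV hH.le
  have a9 := mul_le_mul_of_nonneg_left (mul_le_mul_of_nonneg_right c1 t0.le) hH.le
  nlinarith

/-- By `lap_hg` the right side divided by `gfun` is at least
`h (3 m / 4 - m / 4 - (C0 + k |β - 1|) / r - (2 |β - 2| + |β - 2| |β - 1| / 2) / r²)` (the term `k h' z / r` is `≥ 0`).
Put `t = 1 / r ≤ 1` and take `L1 = 1 + 4 E / m`, `E` the sum of the bounds of the coefficients (use `|C0|`, `|k2|`, `|B2|`). -/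
theorem bar_mass (k2 B2 C0 : ℝ) {m : ℝ} (hm : 0 < m) : ∃ L1 : ℝ, 1 ≤ L1 ∧ ∀ (k β V : ℝ) (h : ℝ → ℝ) (x : E3),
    0 ≤ k → k ≤ k2 → |β| ≤ B2 → Prof m h → L1 < ‖x‖ → k ^ 2 / 2 + 3 * m / 4 - C0 / ‖x‖ ≤ V →
    m / 2 ≤ V ∧ m / 4 * hg h k β x ≤ -(1 / 2) * lap (hg h k β) x + V * hg h k β x := by
  obtain ⟨P, hP⟩ : ∃ P, P = |B2| + 2 := ⟨_, rfl⟩
  have P0 : 0 ≤ P := by rw [hP]; positivity
  obtain ⟨E, hE⟩ : ∃ E, E = |C0| + |k2| * P + 2 * P + P ^ 2 / 2 := ⟨_, rfl⟩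
  have E0 : 0 ≤ E := by rw [hE]; positivity
  have E1 : 0 ≤ 4 * E / m := by positivity
  refine ⟨1 + 4 * E / m, by linarith, fun k β V h x k0 k1 hβ hh hx hV => ?_⟩
  have r1 : 1 < ‖x‖ := by linarith
  have r0 : 0 < ‖x‖ := by linarith
  have hx0 : x ≠ 0 := norm_pos_iff.1 r0
  have t0 : 0 < ‖x‖⁻¹ := inv_pos.2 r0
  have t1 : ‖x‖⁻¹ ≤ 1 := inv_le_one_of_one_le₀ r1.le
  have hEt : E * ‖x‖⁻¹ ≤ m / 4 := by
    rw [← div_eq_mul_inv, div_le_iff₀ r0]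
    have h1 : 4 * E / m ≤ ‖x‖ := by linarith
    rw [div_le_iff₀ hm] at h1
    linarith
  have hβ' := abs_le.1 (hβ.trans (le_abs_self B2))
  rw [div_eq_mul_inv C0] at hV
  constructor
  · have h1 : C0 * ‖x‖⁻¹ ≤ E * ‖x‖⁻¹ := by
      refine mul_le_mul_of_nonneg_right ?_ t0.le
      have h2 : 0 ≤ |k2| * P + 2 * P + P ^ 2 / 2 := by positivity
      linarith [le_abs_self C0]
    nlinarith [sq_nonneg k]
  · have h1 := a4m_alg (β := β) (P := P) (hh.pos (x 2)) (hh.d0 _) (hh.d1 _) (hh.d2 _) t0 t1 k0 (k1.trans (le_abs_self _))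
      (abs_le.2 ⟨by linarith, by linarith⟩) (abs_le.2 ⟨by linarith, by linarith⟩) (le_abs_self C0) (hE ▸ hEt) hV
    have h2 := mul_le_mul_of_nonneg_left h1 (gfun_nonneg k β x)
    rw [lap_hg hh.cd k β hx0, hg]
    simp only [div_eq_mul_inv, ← inv_pow] at h2 ⊢
    linarith

/-- `KI.cmp` with `B = K * hg`, `K = (1 + 4 / m) N`, `κ' = κ - m / 4`, `κ₀ = m / 2`, `A = {L + 1 ≤ r}`:
`N ≤ K m / 4` and `N² ≤ (m / 4) K²`. -/
theorem cmp_mass (k2 B2 C0 : ℝ) {m : ℝ} (hm : 0 < m) : ∃ L1 : ℝ, 1 ≤ L1 ∧ ∀ (L k β N : ℝ) (h : ℝ → ℝ)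
    (y κ s t : E3 → ℝ) (G : E3 → E3), L1 ≤ L → 0 ≤ k → k ≤ k2 → |β| ≤ B2 → Prof m h → 0 < N →
    KI (far L) y G κ s t → Mass k m C0 L κ →
    (∀ᵐ x, L < ‖x‖ → |s x| ≤ N * hg h k β x ∧ |t x| ≤ N * hg h k β x ∧ (‖x‖ < L + 1 → y x ≤ N * hg h k β x)) →
    ∀ᵐ x, L < ‖x‖ → y x ≤ (1 + 4 / m) * N * hg h k β x := by
  obtain ⟨L1, hL1, hb⟩ := bar_mass k2 B2 C0 hm
  refine ⟨L1, hL1, fun L k β N h y κ s t G hL k0 k1 hβ hh hN hK hM hd => ?_⟩
  have L0 : 0 ≤ L := by linarith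
  have hne : ∀ x ∈ far L, x ≠ 0 := fun x hx => far_ne_zero L0 hx
  have hcd : ContDiffOn ℝ 2 (hg h k β) (far L) := fun x hx => (cd_hg hh.cd k β (hne x hx)).contDiffWithinAt
  have hpos : ∀ x ∈ far L, 0 < hg h k β x := fun x hx => mul_pos (hh.pos _) (gfun_pos k β (hne x hx))
  have hc : ContinuousOn (fun x => N * hg h k β x) (far L) := continuousOn_const.mul hcd.continuousOn
  obtain ⟨K, hKd⟩ : ∃ K, K = (1 + 4 / m) * N := ⟨_, rfl⟩
  have m4 : 0 < 4 / m := by positivity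
  have K1 : N ≤ K := by rw [hKd]; nlinarith
  have K2 : N ≤ K * (m / 4) := by
    have e : K * (m / 4) = N + m / 4 * N := by rw [hKd]; field_simp; ring
    have : 0 < m / 4 * N := by positivity
    linarith
  have K0 : 0 < K := hN.trans_le K1
  rw [← hKd]
  have hbar : ∀ x ∈ far L, m / 2 ≤ κ x - m / 4 ∧ m / 4 * hg h k β x ≤
      -(1 / 2) * lap (hg h k β) x + (κ x - m / 4) * hg h k β x := fun x hx =>
    hb k β _ h x k0 k1 hβ hh (hL.trans_lt hx) (by linarith [hM x hx])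
  refine KI.cmp (B := fun x => K * hg h k β x) (isOpen_far L) hK
    (Bl.of_le hc (hd.mono fun x hx hx' => (hx hx').1)) (Bl.of_le hc (hd.mono fun x hx hx' => (hx hx').2.1))
    (contDiffOn_const.mul hcd) (fun x hx => mul_pos K0 (hpos x hx)) (hK.bκ.sub_const (m / 4)) (half_pos hm) ?_ ?_
    (isClosed_out (L + 1)) (fun x hx => show L < ‖x‖ from by linarith [show L + 1 ≤ ‖x‖ from hx]) ?_
  · filter_upwards [hd] with x hx hx'
    refine ⟨(hbar x hx').1, by linarith, ?_⟩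
    have h1 : t x ^ 2 ≤ (N * hg h k β x) ^ 2 := sq_le_sq' (abs_le.1 (hx hx').2.1).1 (abs_le.1 (hx hx').2.1).2
    have h2 : N ^ 2 ≤ m / 4 * K ^ 2 := by nlinarith [mul_le_mul K1 K2 hN.le K0.le]
    have h3 := mul_le_mul_of_nonneg_right h2 (sq_nonneg (hg h k β x))
    nlinarith
  · filter_upwards [hd] with x hx hx'
    rw [a4_lap_cmul K (cd_hg hh.cd k β (hne x hx'))]
    have h1 := (abs_le.1 (hx hx').1).2
    have h2 := mul_le_mul_of_nonneg_left (hbar x hx').2 K0.le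
    have h3 := mul_le_mul_of_nonneg_right K2 (hpos x hx').le
    nlinarith
  · filter_upwards [hd] with x hx hx' hA
    exact ((hx hx').2.2 (not_le.1 hA)).trans (mul_le_mul_of_nonneg_right K1 (hpos x hx').le)

end Crest.Agent.R335
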