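import Crest.Agent.R335.A4_Bar4
import Crest.Agent.R335.A4_Bar1

/-!
# R335/A4_Cmp4 (part A4, sub-lead helper14)

Comparison for odd functions.  Aux prefix `a4c_`.
-/

set_option autoImplicit false

namespace Crest.Agent.R335

open MeasureTheory Set Filter Topology
open scoped Gradient RealInnerProductSpace ENNReal ContDiff
open Crest.MathPhysics.ThreeBody

/-- `cmp_sub_odd` with `B = K * bar4 σ k b`, `κ₀ = k1² / 4` (first part of `bar_rad`), `A = {L + 1 ≤ r}`.  On `z > 0`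
`max (w - B) 0 ≤ |w| + 2 K * gfun k (b + 1)` (`|z| ≤ r`, `gfun_add_one`, `memLp_gfun`). -/
theorem cmp_odd {k1 : ℝ} (hk1 : 0 < k1) (k2 C0 : ℝ) : ∃ L1 : ℝ, 1 ≤ L1 ∧ ∀ (L σ k b K : ℝ)
    (V f w : E3 → ℝ) (G : E3 → E3), L1 ≤ L → |σ| ≤ 1 → k1 ≤ k → k ≤ k2 → |b| ≤ k2 → 0 ≤ K →
    H1 w G → (∀ᵐ x, w (refl x) = -w x) → LB (far L) V → AEStronglyMeasurable f volume → SubS (far L) V f w G →
    Crit k b C0 L V →
    (∀ᵐ x, L < ‖x‖ → |f x| ≤ K / 2 * gfun k (b - 3) x ∧
      (‖x‖ < L + 1 → 0 < x 2 → w x ≤ K * (σ - 1 / 4) * x 2 * gfun k b x)) →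
    ∀ᵐ x, L < ‖x‖ → 0 < x 2 → w x ≤ K * (σ + 1 / 4) * x 2 * gfun k b x := by
  obtain ⟨L1, hL1, h1⟩ := bar_odd hk1 k2 C0
  obtain ⟨L2, -, h2⟩ := bar_rad hk1 k2 C0
  refine ⟨max L1 L2, hL1.trans (le_max_left _ _), ?_⟩
  intro L σ k b K V f w G hL hσ hk hk2 hb hK hw hodd hV hf hsub hcr hst
  have hLa : L1 ≤ L := (le_max_left _ _).trans hL
  have hLb : L2 ≤ L := (le_max_right _ _).trans hL
  have hL0 : 0 < L := by linarith
  have hne : ∀ x ∈ far L, x ≠ 0 := fun x hx => far_ne_zero hL0.le hx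
  have hb4 := fun (x : E3) (hx : L < ‖x‖) (hz : 0 ≤ x 2) =>
    h1 σ k b (V x) x hσ hk hk2 hb (hLa.trans_lt hx) hz (hcr x hx)
  have hcd : ContDiffOn ℝ 2 (fun x => K * bar4 σ k b x) (far L) := fun x hx =>
    (contDiffAt_const.mul (cd_bar4 σ k b (hne x hx))).contDiffWithinAt
  have hA : {x : E3 | L + 1 ≤ ‖x‖} ⊆ far L := fun x hx => lt_of_lt_of_le (lt_add_one L) hx
  have hAm : MeasurableSet {x : E3 | L + 1 ≤ ‖x‖} := (isClosed_out (L + 1)).measurableSet
  have hH : MeasurableSet {x : E3 | 0 < x 2} := measurableSet_lt measurable_const (by fun_prop)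
  have key := cmp_sub_odd (isOpen_far L) (fun x hx => by
      have hx' : L < ‖x‖ := hx
      show L < ‖refl x‖
      rwa [norm_refl]) (hw.loc _) hV
    (LB.of_le hf (B := fun x => K / 2 * gfun k (b - 3) x)
      (continuousOn_const.mul ((continuousOn_gfun k (b - 3)).mono hne)) (hst.mono fun x hx hx' => (hx hx').1))
    hsub (B := fun x => K * bar4 σ k b x) (hcd.of_le (by norm_num)) (hcd.mono inter_subset_left)
    (hodd.mono fun x hx _ => hx)
    (fun x hx hz => mul_nonneg hK (by simpa [hz] using (hb4 x hx hz.ge).2.1))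
    (κ₀ := k1 ^ 2 / 4) (by positivity)
    (Eventually.of_forall fun x hx => (h2 k b (V x) x hk hk2 hb (hLb.trans_lt hx) (hcr x hx)).1)
    (hst.mono fun x hx hx' hz => by
      have h3 := mul_le_mul_of_nonneg_left (hb4 x hx' hz.le).1 hK
      have h4 := (le_abs_self _).trans (hx hx').1
      rw [a4_lap_cmul K (cd_bar4 σ k b (hne x hx'))]
      linarith)
    (isClosed_out (L + 1)) hA
    (hst.mono fun x hx hx' hz hxA => by
      have h3 := mul_le_mul_of_nonneg_left (hb4 x hx' hz.le).2.1 hK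
      have h4 := (hx hx').2 (not_le.1 hxA) hz
      linarith) ?_
  · filter_upwards [key] with x hx hx' hz
    have h3 := mul_le_mul_of_nonneg_left (hb4 x hx' hz.le).2.2 hK
    have h4 := hx hx' hz
    linarith
  · have m1 : MemLp (fun x => |w x| + 2 * K * (far L).indicator (gfun k (b + 1)) x) 2 volume :=
      hw.mf.abs.add ((memLp_gfun (hk1.trans_le hk) (b + 1) hL0).const_mul _)
    have m2 : AEStronglyMeasurable
        ({x : E3 | L + 1 ≤ ‖x‖}.indicator fun x => max (w x - K * bar4 σ k b x) 0) volume :=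
      (aestronglyMeasurable_indicator_iff hAm).2
        ((hw.mf.1.restrict.sub ((hcd.continuousOn.mono hA).aestronglyMeasurable hAm)).aemeasurable.max
          aemeasurable_const).aestronglyMeasurable
    refine (m1.restrict _).mono' m2.restrict ((ae_restrict_iff' hH).2 (Eventually.of_forall fun x hz => ?_))
    have hz' : 0 < x 2 := hz
    have g0 := gfun_nonneg k b x
    have g1 : 0 ≤ (far L).indicator (gfun k (b + 1)) x := indicator_nonneg (fun y _ => gfun_nonneg _ _ y) x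
    by_cases hxA : x ∈ {x : E3 | L + 1 ≤ ‖x‖}
    · rw [indicator_of_mem hxA, Real.norm_of_nonneg (le_max_right _ _)]
      refine max_le ?_ (by positivity)
      rw [indicator_of_mem (hA hxA), gfun_add_one k b (hne x (hA hxA))]
      have h3 := mul_le_mul_of_nonneg_left (hb4 x (hA hxA) hz'.le).2.1 hK
      have h4 : x 2 ≤ ‖x‖ := (le_abs_self _).trans (PiLp.norm_apply_le x 2)
      have h5 : -2 * ‖x‖ ≤ (σ - 1 / 4) * x 2 := by nlinarith [(abs_le.1 hσ).1]
      have h6 := mul_le_mul_of_nonneg_left (mul_le_mul_of_nonneg_right h5 g0) hK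
      linarith [le_abs_self (w x)]
    · rw [indicator_of_notMem hxA, norm_zero]
      positivity

end Crest.Agent.R335
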