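import Crest.Agent.R335.Lib
import Crest.Agent.R83.Inf

/-!
# R335/A4_Defs (part A4, sub-lead helper14)

Definitions for the barrier arguments (no proofs to fill).  `r = ‖x‖`, `z = x 2`, `gfun k β x = r ^ (β - 2) * exp (-k r)`.
All comparisons are made on `Ω = far L` with `A = {x | L + 1 ≤ ‖x‖}`; the starting values are given for `L < r < L + 1`.
-/

set_option autoImplicit false

namespace Crest.Agent.R335

open MeasureTheory Set Filter Topology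
open scoped Gradient RealInnerProductSpace ENNReal ContDiff
open Crest.MathPhysics.ThreeBody

/-- `h(z) r^(β-2) e^(-k r)` -/
noncomputable def hg (h : ℝ → ℝ) (k β : ℝ) (x : E3) : ℝ := h (x 2) * gfun k β x

/-- profiles for the mass `m` -/
structure Prof (m : ℝ) (h : ℝ → ℝ) : Prop where
  cd : ContDiff ℝ 2 h
  pos : ∀ z, 0 < h z
  d0 : ∀ z, 0 ≤ deriv h z * z
  d1 : ∀ z, deriv h z * z ≤ 2 * h z
  d2 : ∀ z, deriv (deriv h) z ≤ m / 2 * h z

/-- critical potentials -/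
def Crit (k b C0 L : ℝ) (V : E3 → ℝ) : Prop :=
  ∀ x : E3, L < ‖x‖ → |2 * V x - (k ^ 2 - 2 * k * b / ‖x‖)| ≤ C0 / ‖x‖ ^ 2

/-- massive potentials -/
def Mass (k m C0 L : ℝ) (V : E3 → ℝ) : Prop := ∀ x : E3, L < ‖x‖ → k ^ 2 / 2 + m - C0 / ‖x‖ ≤ V x

theorem Crit.mono {k b C0 L L' : ℝ} {V : E3 → ℝ} (h : Crit k b C0 L V) (hL : L ≤ L') : Crit k b C0 L' V :=
  fun x hx => h x (hL.trans_lt hx)

theorem Mass.mono {k m C0 L L' : ℝ} {V : E3 → ℝ} (h : Mass k m C0 L V) (hL : L ≤ L') : Mass k m C0 L' V :=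
  fun x hx => h x (hL.trans_lt hx)

/-- radial barrier `f (1 - r^(-1/2))` -/
noncomputable def bar1 (k b : ℝ) (x : E3) : ℝ := gfun k (b + 1) x - gfun k (b + 1 / 2) x

/-- barrier `z g (σ - r^(-1/2)) + (1 - e^(-z)) r^(-3) g` for the upper half space -/
noncomputable def bar4 (σ k b : ℝ) (x : E3) : ℝ :=
  σ * hg (fun z => z) k b x - hg (fun z => z) k (b - 1 / 2) x + hg (fun z => 1 - Real.exp (-z)) k (b - 3) x

/-- the data which depend on `Z` -/
structure Dt where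
  (Z I γS C' μ : ℝ)
  (R d q yw yo ye dS W S σ : E3 → ℝ)
  (GR Gd Gq Gw Go GS : E3 → E3)

/-- the hypothesis -/
abbrev Dt.Ok (X : Dt) (D eu γ a C η : ℝ) (u : E3 → ℝ) : Prop :=
  Scal D X.Z eu γ a C η u X.R X.I X.γS X.C' X.μ X.GR X.d X.Gd X.q X.Gq X.yw X.Gw X.yo X.Go X.ye X.dS X.GS X.W X.S X.σ

noncomputable def Dt.k (X : Dt) : ℝ := √(2 * X.I)

noncomputable def Dt.b (X : Dt) : ℝ := (2 - 2 / X.Z) / X.k

noncomputable def Dt.V0 (X : Dt) (D : ℝ) (x : E3) : ℝ := X.I + V1 D x + X.W x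

/-- uniform bounds for `k`, `b` -/
noncomputable def kLo (eu : ℝ) : ℝ := √(-eu)

noncomputable def kHi (eu : ℝ) : ℝ := max √(-3 * eu) (2 / √(-eu))

/-- hypotheses on the constants -/
structure Frame (D eu γ a C η : ℝ) : Prop where
  hD : 1 ≤ D
  heu : eu < 0
  hγ : 0 < γ
  ha : 0 < a
  hC : 1 ≤ C
  η0 : 0 < η
  η1 : η ≤ 1
  η2 : η ≤ -eu / 2

end Crest.Agent.R335
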