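import Crest.Agent.R335.A4_Defs

/-!
# R335/A4_Lap (part A4, sub-lead helper14)

Calculus.  Use `R83.lap_mul`, `R83.lap_comp`, `R83.grad_comp`, `R83.grad_coord`, `R83.grad_norm_sq`, `R83.dvg_add`, `R83.dvg_congr`
(file `R83/Inf.lean`, `R83/Tst.lean`; `lap` is an abbreviation of `R83.lap`, `E3` is the same type).  Aux prefix `a4l_`.
-/

set_option autoImplicit false

namespace Crest.Agent.R335

open MeasureTheory Set Filter Topology
open scoped Gradient RealInnerProductSpace ENNReal ContDiff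
open Crest.MathPhysics.ThreeBody

variable {k β : ℝ} {x : E3} {h : ℝ → ℝ} {A B : E3 → ℝ}

theorem a4_lap_add (hA : ContDiffAt ℝ 2 A x) (hB : ContDiffAt ℝ 2 B x) :
    lap (fun y => A y + B y) x = lap A x + lap B x := by
  have h : ∇ (fun y => A y + B y) =ᶠ[𝓝 x] fun y => ∇ A y + ∇ B y := by
    filter_upwards [R83.inf_ev hA, R83.inf_ev hB] with y h1 h2 using R83.grad_add h1 h2
  exact (R83.dvg_congr h).trans (R83.dvg_add (R83.inf_diff_grad hA) (R83.inf_diff_grad hB))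

theorem a4_lap_cmul (c : ℝ) (hA : ContDiffAt ℝ 2 A x) : lap (fun y => c * A y) x = c * lap A x := by
  have h := R83.lap_mul (a := fun _ => c) (b := A) (x := x) contDiffAt_const hA
  rw [R83.lap_const, gradient_fun_const] at h
  simpa using h

theorem a4_lap_sub (hA : ContDiffAt ℝ 2 A x) (hB : ContDiffAt ℝ 2 B x) :
    lap (fun y => A y - B y) x = lap A x - lap B x := by
  have h := a4_lap_add hA ((contDiffAt_const (c := (-1 : ℝ))).mul hB)
  rw [a4_lap_cmul _ hB] at h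
  simpa [sub_eq_add_neg] using h

theorem cd_gfun (k β : ℝ) (hx : x ≠ 0) : ContDiffAt ℝ 2 (gfun k β) x := by
  have h0 : ‖x‖ ≠ 0 := norm_ne_zero_iff.2 hx
  have h1 : ContDiffAt ℝ 2 (fun y : E3 => ‖y‖) x := contDiffAt_norm ℝ hx
  exact (h1.rpow_const_of_ne h0).mul (contDiffAt_const.mul h1).exp

theorem cd_hg (hh : ContDiff ℝ 2 h) (k β : ℝ) (hx : x ≠ 0) : ContDiffAt ℝ 2 (hg h k β) x := by
  have h1 : ContDiff ℝ 2 fun y : E3 => h (y 2) := hh.comp (by fun_prop)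
  exact h1.contDiffAt.mul (cd_gfun k β hx)

theorem a4l_grad (k β : ℝ) (hx : x ≠ 0) :
    ∇ (gfun k β) x = (gfun k β x * ((β - 2) / ‖x‖ - k) / ‖x‖) • x := by
  have h0 : 0 < ‖x‖ := norm_pos_iff.2 hx
  have h1 : HasDerivAt (fun t : ℝ => t ^ (β - 2) * Real.exp (-k * t))
      (gfun k β x * ((β - 2) / ‖x‖ - k)) ‖x‖ := by
    have h2 := (Real.hasDerivAt_rpow_const (p := β - 2) (Or.inl h0.ne')).mul
      ((hasDerivAt_id' ‖x‖).const_mul (-k)).exp
    refine h2.congr_deriv ?_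
    rw [gfun, Real.rpow_sub_one h0.ne']
    field_simp
    ring
  have h3 := R83.grad_comp (f := fun y : E3 => ‖y‖) h1 (differentiableAt_id.norm ℝ hx)
  rw [R83.pb_grad_norm hx, smul_smul, ← div_eq_mul_inv] at h3
  exact h3

theorem a4l_dvg (x : E3) : R83.dvg (fun y => y) x = 3 := by
  simp [R83.dvg]

theorem a4l_lap_z (x : E3) : lap (fun y : E3 => y 2) x = 0 := by
  have h : ∇ (fun y : E3 => y 2) = fun _ => R83.e 2 := funext (R83.grad_coord 2)
  simp [lap, R83.lap, R83.dvg, h]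

/-- `∇ ‖·‖ = x / r`, `lap ‖·‖ = 2 / r` (write `‖y‖ = √(‖y‖ ^ 2)`, `lap ‖·‖² = 6`); `F t = t ^ (β - 2) * exp (-k t)` has
`F' = F ((β - 2) / t - k)` for `t > 0`. -/
theorem lap_gfun (k β : ℝ) (hx : x ≠ 0) :
    ∇ (gfun k β) x = (gfun k β x * ((β - 2) / ‖x‖ - k) / ‖x‖) • x ∧
    lap (gfun k β) x = gfun k β x * (k ^ 2 - 2 * k * (β - 1) / ‖x‖ + (β - 2) * (β - 1) / ‖x‖ ^ 2) := by
  refine ⟨a4l_grad k β hx, ?_⟩
  have h0 : 0 < ‖x‖ := norm_pos_iff.2 hx
  have h : ∇ (gfun k β) =ᶠ[𝓝 x] fun y => (gfun k β y * (((β - 2) / ‖y‖ - k) / ‖y‖)) • y := by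
    filter_upwards [isOpen_ne.mem_nhds hx] with y hy
    rw [a4l_grad k β hy, mul_div_assoc]
  have hn : DifferentiableAt ℝ (fun y : E3 => ‖y‖) x := differentiableAt_id.norm ℝ hx
  have h1 : HasDerivAt (fun t : ℝ => ((β - 2) / t - k) / t) (-2 * (β - 2) / ‖x‖ ^ 3 + k / ‖x‖ ^ 2) ‖x‖ := by
    have h2 := (((hasDerivAt_const ‖x‖ (β - 2)).fun_div (hasDerivAt_id' ‖x‖) h0.ne').sub_const k).fun_div
      (hasDerivAt_id' ‖x‖) h0.ne'
    refine h2.congr_deriv ?_
    field_simp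
    ring
  have h2 : DifferentiableAt ℝ (fun y : E3 => ((β - 2) / ‖y‖ - k) / ‖y‖) x := h1.differentiableAt.comp x hn
  have h3 := (cd_gfun k β hx).differentiableAt (by simp)
  rw [lap, R83.lap, R83.dvg_congr h, R83.dvg_smul (h3.fun_mul h2) differentiableAt_fun_id, a4l_dvg,
    R83.grad_mul h3 h2, R83.grad_comp (f := fun y : E3 => ‖y‖) h1 hn, R83.pb_grad_norm hx, a4l_grad k β hx]
  simp only [inner_add_left, real_inner_smul_left, real_inner_self_eq_norm_sq]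
  field_simp
  ring

theorem lap_hg (hh : ContDiff ℝ 2 h) (k β : ℝ) (hx : x ≠ 0) :
    lap (hg h k β) x = gfun k β x * (deriv (deriv h) (x 2) +
      2 * (deriv h (x 2) * x 2) * ((β - 2) / ‖x‖ - k) / ‖x‖ +
      h (x 2) * (k ^ 2 - 2 * k * (β - 1) / ‖x‖ + (β - 2) * (β - 1) / ‖x‖ ^ 2)) := by
  have hz : ContDiffAt ℝ 2 (fun y : E3 => y 2) x := by fun_prop
  have h1 : ContDiff ℝ 2 fun y : E3 => h (y 2) := hh.comp (by fun_prop)
  have h2 := R83.lap_mul h1.contDiffAt (cd_gfun k β hx)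
  have h3 := R83.lap_comp hz hh.contDiffAt
  have h4 := R83.grad_comp (f := fun y : E3 => y 2) (hh.differentiable (by simp) (x 2)).hasDerivAt
    (hz.differentiableAt (by simp))
  have h5 := a4l_lap_z x
  obtain ⟨h6, h7⟩ := lap_gfun k β hx
  rw [lap] at h5 h7
  rw [h3, h4, h5, h6, h7, R83.grad_coord] at h2
  refine h2.trans ?_
  simp [real_inner_smul_left, real_inner_smul_right, EuclideanSpace.inner_single_left]
  ring

end Crest.Agent.R335
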