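import Crest.Agent.R335.A4_Bas

/-!
# R335/A4_Par (part A4, sub-lead helper14)

Consequences of `Scal` for the parameters and the potentials (`V1_expand`, `Scal.Wa`, `Scal.ion`, `Scal.Zge`).  Aux prefix `a4p_`.
-/

set_option autoImplicit false

namespace Crest.Agent.R335

open MeasureTheory Set Filter Topology
open scoped Gradient RealInnerProductSpace ENNReal ContDiff
open Crest.MathPhysics.ThreeBody

variable {D eu γ a C η : ℝ} {u : E3 → ℝ} {X : Dt}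

theorem kLo_pos (h : eu < 0) : 0 < kLo eu := by
  exact Real.sqrt_pos.2 (by linarith)

theorem par_Z (F : Frame D eu γ a C η) (H : X.Ok D eu γ a C η u) : 1 ≤ X.Z ∧ X.Z⁻¹ ≤ η := by
  refine ⟨le_trans ?_ H.Zge, inv_le_of_inv_le₀ F.η0 H.Zge⟩
  exact (one_le_inv₀ F.η0).2 F.η1

theorem par_k (F : Frame D eu γ a C η) (H : X.Ok D eu γ a C η u) :
    kLo eu ≤ X.k ∧ X.k ≤ kHi eu ∧ |X.b| ≤ kHi eu ∧ X.k ^ 2 = 2 * X.I ∧ X.k * X.b = 2 - 2 / X.Z ∧ 0 < X.k ∧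
      |X.I| ≤ -2 * eu := by
  have hI := abs_le.1 H.ion
  have h2 := F.η2
  have he := F.heu
  have hZ := (par_Z F H).1
  have hlo : kLo eu ≤ X.k := Real.sqrt_le_sqrt (by linarith)
  have hl := kLo_pos he
  have hk : 0 < X.k := hl.trans_le hlo
  have z1 : 2 / X.Z ≤ 2 := div_le_self zero_le_two hZ
  have z2 : 0 ≤ 2 / X.Z := by positivity
  refine ⟨hlo, le_trans (Real.sqrt_le_sqrt (by linarith)) (le_max_left _ _), ?_, Real.sq_sqrt (by linarith),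
    mul_div_cancel₀ _ hk.ne', hk, abs_le.2 ⟨by linarith, by linarith⟩⟩
  refine le_trans ?_ (le_max_right _ _)
  have hb : 0 ≤ X.b := div_nonneg (by linarith) hk.le
  rw [abs_of_nonneg hb]
  exact div_le_div₀ zero_le_two (by linarith) hl hlo

theorem a4p_one (F : Frame D eu γ a C η) {x : E3} (hx : D + 1 < ‖x‖) : 1 < ‖x‖ := by
  linarith [F.hD]

theorem a4p_sq {c r : ℝ} (hc : 0 ≤ c) (hr : 1 < r) : c / r ^ 2 ≤ c / r :=
  div_le_div_of_nonneg_left hc (by linarith) (by nlinarith)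

theorem a4p_Z {c r Z : ℝ} (hc : 0 ≤ c) (hr : 0 < r) (hZ : 1 ≤ Z) : c / (Z * r) ≤ c / r :=
  div_le_div_of_nonneg_left hc hr (by nlinarith)

theorem a4p_eta {c r Z η : ℝ} (hc : 0 ≤ c) (hr : 0 < r) (hZ : Z⁻¹ ≤ η) : c / (Z * r) ≤ c * η / r := by
  rw [div_mul_eq_div_div, div_eq_mul_inv c Z]
  gcongr

theorem a4p_lb {Ω : Set E3} {f : E3 → ℝ} (hf : Measurable f) {M : ℝ} (h : ∀ x ∈ Ω, |f x| ≤ M) : LB Ω f :=
  ⟨hf.aestronglyMeasurable, fun _ _ hs => ⟨M, Eventually.of_forall fun x hx => h x (hs hx)⟩⟩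

theorem par_W (F : Frame D eu γ a C η) (H : X.Ok D eu γ a C η u) {x : E3} (hx : D + 1 < ‖x‖) :
    |X.W x| ≤ (2 + C) * η / ‖x‖ := by
  have hr := a4p_one F hx
  have hC : 0 ≤ C := by linarith [F.hC]
  have hZ := par_Z F H
  have hZ0 : 0 < X.Z := by linarith [hZ.1]
  have h1 := (abs_le.1 (H.Wa x hx)).2
  have h2 : C / (X.Z * ‖x‖ ^ 2) ≤ C / (X.Z * ‖x‖) :=
    div_le_div_of_nonneg_left hC (by positivity) (mul_le_mul_of_nonneg_left (by nlinarith) hZ0.le)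
  have h3 := a4p_eta (c := 2 + C) (r := ‖x‖) (by linarith) (by linarith) hZ.2
  rw [abs_of_nonneg (H.W0 x)]
  rw [add_div] at h3
  linarith

theorem par_crit (F : Frame D eu γ a C η) (H : X.Ok D eu γ a C η u) :
    Crit X.k X.b (4 * D * (D + 1) + 2 * C) (D + 1) (X.V0 D) := by
  intro x hx
  have hr := a4p_one F hx
  have hC : 0 ≤ C := by linarith [F.hC]
  have hZ := par_Z F H
  obtain ⟨-, -, -, k2, kb, -, -⟩ := par_k F H
  have h1 := abs_le.1 (H.Wa x hx)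
  have h2 := abs_le.1 (V1_expand (by linarith [F.hD]) hx.le).1
  have h3 := a4p_Z (r := ‖x‖ ^ 2) hC (by positivity) hZ.1
  have e : 2 * X.V0 D x - (X.k ^ 2 - 2 * X.k * X.b / ‖x‖) =
      2 * (V1 D x + 2 / ‖x‖) + 2 * (X.W x - 2 / (X.Z * ‖x‖)) := by
    rw [k2, mul_assoc, kb, Dt.V0, div_mul_eq_div_div]
    ring
  have e2 : (4 * D * (D + 1) + 2 * C) / ‖x‖ ^ 2 = 2 * (2 * D * (D + 1) / ‖x‖ ^ 2) + 2 * (C / ‖x‖ ^ 2) := by ring
  rw [e, e2]
  exact abs_le.2 ⟨by linarith, by linarith⟩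

theorem par_crit' (F : Frame D eu γ a C η) (H : X.Ok D eu γ a C η u) :
    Crit X.k X.b (4 * D * (D + 1) + 4 * C) (D + 1) fun x => X.I + V1 D x + X.W x - C / ‖x‖ ^ 4 := by
  intro x hx
  have hr := a4p_one F hx
  have hC : 0 ≤ C := by linarith [F.hC]
  have h1 := abs_le.1 (par_crit F H x hx)
  have h2 : C / ‖x‖ ^ 4 ≤ C / ‖x‖ ^ 2 :=
    div_le_div_of_nonneg_left hC (by positivity) (pow_le_pow_right₀ hr.le (by norm_num))
  have h3 : 0 ≤ C / ‖x‖ ^ 4 := by positivity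
  have e2 : (4 * D * (D + 1) + 4 * C) / ‖x‖ ^ 2 = (4 * D * (D + 1) + 2 * C) / ‖x‖ ^ 2 + 2 * (C / ‖x‖ ^ 2) := by ring
  rw [Dt.V0] at h1
  rw [e2]
  exact abs_le.2 ⟨by linarith, by linarith⟩

theorem par_mass (F : Frame D eu γ a C η) (H : X.Ok D eu γ a C η u) (m : ℝ) :
    Mass X.k m (2 + 2 * D * (D + 1)) (D + 1) fun x => X.I + V1 D x + m := by
  intro x hx
  have hr := a4p_one F hx
  have hD := F.hD
  obtain ⟨-, -, -, k2, -, -, -⟩ := par_k F H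
  have h2 := abs_le.1 (V1_expand (by linarith) hx.le).1
  have h3 := a4p_sq (c := 2 * D * (D + 1)) (by positivity) hr
  rw [k2, add_div]
  linarith

theorem par_V0 (F : Frame D eu γ a C η) (H : X.Ok D eu γ a C η u) :
    Measurable (X.V0 D) ∧ (∀ x : E3, D + 1 < ‖x‖ → |X.V0 D x| ≤ -2 * eu + 4 + C) ∧ LB (far (D + 1)) (X.V0 D) := by
  have hm : Measurable (X.V0 D) := (measurable_const.add (measurable_V1 D)).add H.mW
  have hb : ∀ x : E3, D + 1 < ‖x‖ → |X.V0 D x| ≤ -2 * eu + 4 + C := by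
    intro x hx
    have hr := a4p_one F hx
    have hC : 0 ≤ C := by linarith [F.hC]
    have h1 := abs_le.1 (par_k F H).2.2.2.2.2.2
    have h2 := abs_le.1 (V1_expand (by linarith [F.hD]) hx.le).2
    have h3 := abs_le.1 (par_W F H hx)
    have h4 : (2 + C) * η / ‖x‖ ≤ 2 + C :=
      (div_le_self (mul_nonneg (by linarith) F.η0.le) hr.le).trans (mul_le_of_le_one_right (by linarith) F.η1)
    rw [Dt.V0]
    exact abs_le.2 ⟨by linarith, by linarith⟩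
  exact ⟨hm, hb, a4p_lb hm hb⟩

theorem par_VS (F : Frame D eu γ a C η) (H : X.Ok D eu γ a C η u) :
    LB (far (D + 1)) (fun x => X.I + X.γS + V1 D x + 2 / (X.Z * ‖x‖)) ∧ ∀ x : E3, D + 1 < ‖x‖ →
      |X.I + X.γS + V1 D x + 2 / (X.Z * ‖x‖) - (X.k ^ 2 / 2 + X.γS)| ≤ (4 + 2 * D * (D + 1)) / ‖x‖ := by
  have hD := F.hD
  have hb : ∀ x : E3, D + 1 < ‖x‖ →
      |X.I + X.γS + V1 D x + 2 / (X.Z * ‖x‖) - (X.k ^ 2 / 2 + X.γS)| ≤ (4 + 2 * D * (D + 1)) / ‖x‖ := by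
    intro x hx
    have hr := a4p_one F hx
    have hZ := par_Z F H
    have hZ0 : 0 < X.Z := by linarith [hZ.1]
    obtain ⟨-, -, -, k2, -, -, -⟩ := par_k F H
    have h2 := abs_le.1 (V1_expand (by linarith) hx.le).1
    have h3 := a4p_sq (c := 2 * D * (D + 1)) (by positivity) hr
    have h4 := a4p_Z (c := 2) (r := ‖x‖) zero_le_two (by linarith) hZ.1
    have h5 : 0 ≤ 2 / (X.Z * ‖x‖) := by positivity
    have h6 : 0 ≤ 2 / ‖x‖ := by positivity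
    have e : (4 + 2 * D * (D + 1)) / ‖x‖ = 2 * (2 / ‖x‖) + 2 * D * (D + 1) / ‖x‖ := by ring
    rw [k2, e]
    exact abs_le.2 ⟨by linarith, by linarith⟩
  refine ⟨a4p_lb (M := |X.k ^ 2 / 2 + X.γS| + (4 + 2 * D * (D + 1)))
    ((measurable_const.add (measurable_V1 D)).add (measurable_const.div (measurable_norm.const_mul _))) ?_, hb⟩
  intro x hx
  have h1 := abs_le.1 (hb x hx)
  have h2 : (4 + 2 * D * (D + 1)) / ‖x‖ ≤ 4 + 2 * D * (D + 1) := div_le_self (by positivity) (a4p_one F hx).le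
  have h3 := le_abs_self (X.k ^ 2 / 2 + X.γS)
  have h4 := neg_abs_le (X.k ^ 2 / 2 + X.γS)
  exact abs_le.2 ⟨by linarith, by linarith⟩

theorem par_le (H : X.Ok D eu γ a C η u) : ∀ᵐ x, |X.d x| ≤ X.R x ∧ X.q x ≤ X.R x ∧ X.yo x ≤ X.R x := by
  filter_upwards [H.pyth, H.pyth'] with x h1 h2
  have h0 := H.kR0.nn x
  refine ⟨abs_le_of_sq_le_sq' ?_ h0 |> abs_le.2, (abs_le_of_sq_le_sq' ?_ h0).2, (abs_le_of_sq_le_sq' ?_ h0).2⟩
  · nlinarith [sq_nonneg (X.q x)]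
  · nlinarith [sq_nonneg (X.d x)]
  · nlinarith [sq_nonneg (X.ye x)]

theorem par_S (F : Frame D eu γ a C η) (H : X.Ok D eu γ a C η u) :
    ∀ᵐ x, D + 1 < ‖x‖ → |X.S x| ≤ C * η * X.q x / ‖x‖ ^ 2 := by
  filter_upwards [H.Sle] with x h hx
  have hr := a4p_one F hx
  have hC : 0 ≤ C := by linarith [F.hC]
  refine (h hx).trans ?_
  have h1 := a4p_eta (r := ‖x‖ ^ 2) hC (by positivity) (par_Z F H).2
  calc _ ≤ C * η / ‖x‖ ^ 2 * X.q x := mul_le_mul_of_nonneg_right h1 (H.kq.nn x)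
    _ = _ := by ring

theorem par_kR (F : Frame D eu γ a C η) (H : X.Ok D eu γ a C η u) {L : ℝ} (h1 : D + 1 ≤ L) (h2 : 2 * (2 + C) / γ ≤ L) :
    KI (far L) X.R X.GR (fun x => X.I + V1 D x + X.W x - C / ‖x‖ ^ 4) 0 0 := by
  refine H.kR L h1 fun x hx => ?_
  have hx' : D + 1 < ‖x‖ := h1.trans_lt hx
  have hr := a4p_one F hx'
  have hC : 0 ≤ C := by linarith [F.hC]
  have hγ := F.hγ
  refine (le_abs_self _).trans ((par_W F H hx').trans ?_)
  have h3 : 2 * (2 + C) ≤ ‖x‖ * γ := (div_le_iff₀ hγ).1 (h2.trans hx.le)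
  have h4 : (2 + C) * η ≤ 2 + C := mul_le_of_le_one_right (by linarith) F.η1
  rw [div_le_iff₀ (by linarith)]
  linarith

/-- `KI.mono`, `KI.subS` -/
theorem par_sub (F : Frame D eu γ a C η) (H : X.Ok D eu γ a C η u) {L C₁ : ℝ} (h1 : D + 1 ≤ L)
    (h2 : 2 * (2 + C) / γ ≤ L) (h3 : C ≤ C₁) : SubS (far L) (fun x => X.V0 D x - C₁ / ‖x‖ ^ 4) 0 X.R X.GR := by
  obtain ⟨hm, hb, -⟩ := par_V0 F H
  have hC : 0 ≤ C := by linarith [F.hC]
  have hlb : LB (far L) fun x => X.V0 D x - C₁ / ‖x‖ ^ 4 := by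
    refine a4p_lb (M := -2 * eu + 4 + C + C₁) (hm.sub (measurable_const.div (measurable_norm.pow_const 4))) ?_
    intro x hx
    have hx' : D + 1 < ‖x‖ := h1.trans_lt hx
    have hr := a4p_one F hx'
    have a1 := abs_le.1 (hb x hx')
    have a2 : C₁ / ‖x‖ ^ 4 ≤ C₁ := div_le_self (by linarith) (one_le_pow₀ hr.le)
    have a3 : 0 ≤ C₁ / ‖x‖ ^ 4 := div_nonneg (by linarith) (by positivity)
    exact abs_le.2 ⟨by linarith, by linarith⟩
  have hk := par_kR F H h1 h2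
  have h := (hk.mono (isOpen_far L).measurableSet subset_rfl hlb hk.ms hk.mt (Eventually.of_forall fun x _ =>
    ⟨sub_le_sub_left (div_le_div_of_nonneg_right h3 (by positivity)) _, le_rfl, le_rfl⟩)).subS (isOpen_far L)
  have e : (fun x : E3 => max ((0 : E3 → ℝ) x) 0) = 0 := by
    funext x
    simp
  rwa [e] at h

/-- `kR0`, `KI.bl`; the nuclei lie on the axis -/
theorem par_bdd (H : X.Ok D eu γ a C η u) : LB offA X.R := by
  have ho : IsOpen {x : E3 | x ≠ EuclideanSpace.single 2 D ∧ x ≠ EuclideanSpace.single 2 (-D)} :=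
    isOpen_ne.inter isOpen_ne
  have hb := H.kR0.bl ho (fun _ _ _ => ⟨0, Eventually.of_forall fun x _ => by simp⟩)
  have hs : ∀ c : ℝ, ∀ x ∈ offA, x ≠ EuclideanSpace.single 2 c := by
    rintro c x hx rfl
    exact geoa_ne hx (by simp)
  exact ⟨H.kR0.h1.mf.1, fun K hK hK' => hb K hK fun x hx => ⟨hs _ x (hK' hx), hs _ x (hK' hx)⟩⟩

end Crest.Agent.R335
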