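import Crest.Agent.R335.A4_St3
import Crest.Agent.R335.A4_Bar1
import Crest.Agent.R335.A4_BarM

/-!
# R335/A4_St1 (part A4, sub-lead helper14)

Steps 1 and 2, uniform in `Z`.  Aux prefix `a4s1_`.
-/

set_option autoImplicit false

namespace Crest.Agent.R335

open MeasureTheory Set Filter Topology
open scoped Gradient RealInnerProductSpace ENNReal ContDiff
open Crest.MathPhysics.ThreeBody

variable {D eu γ a C η : ℝ} {u : E3 → ℝ} {X : Dt}

/-- `cmp_rad` with `par_kR`, `par_crit'`; starting values from `R_bdd` and `gfun_shell` -/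
theorem step1 (D eu γ a C : ℝ) : ∃ L1 C1 : ℝ, D + 5 ≤ L1 ∧ 0 < C1 ∧ ∀ (η : ℝ) (u : E3 → ℝ) (X : Dt),
    Frame D eu γ a C η → X.Ok D eu γ a C η u → ∀ᵐ x, L1 < ‖x‖ → X.R x ≤ C1 * gfun X.k (X.b + 1) x := by
  by_cases heu : eu < 0
  swap
  · exact ⟨D + 5, 1, le_rfl, one_pos, fun _ _ _ F => absurd F.heu heu⟩
  obtain ⟨CR, hCR, HR⟩ := R_bdd D eu γ a C
  obtain ⟨L1, hL1, H1⟩ := cmp_rad (kLo_pos heu) (kHi eu) (4 * D * (D + 1) + 4 * C)
  set L := max (max L1 (D + 5)) (2 * (2 + C) / γ) with hL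
  have l1 : L1 ≤ L := (le_max_left _ _).trans (le_max_left _ _)
  have l2 : D + 5 ≤ L := (le_max_right _ _).trans (le_max_left _ _)
  have l3 : 2 * (2 + C) / γ ≤ L := le_max_right _ _
  obtain ⟨m, M, hm, -, Hm⟩ := gfun_shell (kHi eu) (kHi eu + 1) (L + 1)
  refine ⟨L, 2 * (CR / m), l2, by positivity, fun η u X F H => ?_⟩
  obtain ⟨k1, k2, k3, -, -, k4, -⟩ := par_k F H
  refine H1 L X.k X.b (CR / m) _ _ _ l1 k1 k2 k3 (by positivity) (par_kR F H (by linarith) l3)
    ((par_crit' F H).mono (by linarith)) ?_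
  filter_upwards [HR η u X F H] with x h1 hx hx'
  have b1 := (Hm X.k (X.b + 1) x k4.le k2 ((abs_add_le _ _).trans (by rw [abs_one]; linarith)) (by linarith) hx'.le).1
  calc X.R x ≤ CR := h1 (by linarith)
    _ = CR / m * m := by field_simp
    _ ≤ _ := mul_le_mul_of_nonneg_left b1 (by positivity)

/-- `cmp_mass` for `kq` (`KI.sub`, `par_mass`) with `h = 1`, `β = b - 1`, `m = γ`: the source is at most
`C C1 gfun k (b + 1) / r² = C C1 gfun k (b - 1)`, and `q ≤ R ≤ C1 (L + 1)² gfun k (b - 1)` on the shell.  (If `γ ≤ 0` or `eu ≥ 0`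
there is no `Frame`.) -/
theorem step2 (D eu γ a C : ℝ) : ∃ L2 C2 : ℝ, D + 5 ≤ L2 ∧ 0 < C2 ∧ ∀ (η : ℝ) (u : E3 → ℝ) (X : Dt),
    Frame D eu γ a C η → X.Ok D eu γ a C η u → ∀ᵐ x, L2 < ‖x‖ →
      X.q x ≤ C2 * gfun X.k (X.b - 1) x ∧ |X.S x| ≤ C2 * η * gfun X.k (X.b - 3) x := by
  by_cases hγ : 0 < γ
  swap
  · exact ⟨D + 5, 1, le_rfl, one_pos, fun _ _ _ F => absurd F.hγ hγ⟩
  obtain ⟨L0, C1, hL0, hC1, H0⟩ := step1 D eu γ a C
  obtain ⟨L1, hL1, H1⟩ := cmp_mass (kHi eu) (kHi eu + 1) (2 + 2 * D * (D + 1)) hγ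
  set L := max L1 L0 with hL
  have l1 : L1 ≤ L := le_max_left _ _
  have l2 : L0 ≤ L := le_max_right _ _
  have l3 : 0 < L + 1 := by linarith
  set N := |C| * C1 + C1 * (L + 1) ^ 2 with hN
  have N0 : 0 < N := by positivity
  refine ⟨L, (1 + |C|) * ((1 + 4 / γ) * N), by linarith, by positivity, fun η u X F H => ?_⟩
  obtain ⟨-, k2, k3, -, -, k4, -⟩ := par_k F H
  have hC := F.hC
  have hC' : |C| = C := abs_of_pos (by linarith)
  have hZ := (par_Z F H).1
  have g1 : ∀ x : E3, x ≠ 0 → gfun X.k (X.b - 1) x = gfun X.k (X.b + 1) x / ‖x‖ ^ 2 := fun x hx => by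
    rw [← gfun_sub_nat _ _ 2 hx]
    congr 1
    push_cast
    ring
  have g2 : ∀ x : E3, x ≠ 0 → gfun X.k (X.b - 3) x = gfun X.k (X.b - 1) x / ‖x‖ ^ 2 := fun x hx => by
    rw [← gfun_sub_nat _ _ 2 hx]
    congr 1
    push_cast
    ring
  have key := H1 L X.k (X.b - 1) N (fun _ => 1) _ _ _ _ _ l1 k4.le k2
    ((abs_sub _ _).trans (by rw [abs_one]; linarith)) (prof_one hγ) N0
    (H.kq.sub (isOpen_far _).measurableSet (far_mono (by linarith))) ((par_mass F H γ).mono (by linarith)) ?_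
  · filter_upwards [key, par_S F H] with x h1 h2 hx
    have hx0 : x ≠ 0 := far_ne_zero (by linarith) hx
    have b1 := h1 hx
    simp only [hg, one_mul] at b1
    have g0 := gfun_nonneg X.k (X.b - 1) x
    have η0 := F.η0
    constructor
    · refine b1.trans (mul_le_mul_of_nonneg_right ?_ g0)
      exact le_mul_of_one_le_left (by positivity) (by linarith [abs_nonneg C])
    · refine (h2 (by linarith)).trans ?_
      rw [g2 x hx0]
      calc C * η * X.q x / ‖x‖ ^ 2 ≤ (1 + |C|) * η * ((1 + 4 / γ) * N * gfun X.k (X.b - 1) x) / ‖x‖ ^ 2 := by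
            have := H.kq.nn x
            gcongr
            linarith
        _ = _ := by ring
  · filter_upwards [H0 η u X F H, par_le H] with x h1 h2 hx
    have hx0 : x ≠ 0 := far_ne_zero (by linarith) hx
    have r0 : 0 < ‖x‖ := norm_pos_iff.2 hx0
    have b1 := h1 (by linarith)
    have g0 := gfun_nonneg X.k (X.b - 1) x
    have g3 : gfun X.k (X.b + 1) x = ‖x‖ ^ 2 * gfun X.k (X.b - 1) x := by
      rw [g1 x hx0]
      field_simp
    simp only [hg, one_mul, Pi.zero_apply, abs_zero]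
    refine ⟨?_, by positivity, fun hx' => ?_⟩
    · rw [abs_of_nonneg (by positivity)]
      calc C / (X.Z * ‖x‖ ^ 2) * |X.d x| ≤ C / ‖x‖ ^ 2 * (C1 * gfun X.k (X.b + 1) x) :=
            mul_le_mul (div_le_div_of_nonneg_left (by linarith) (by positivity)
              (le_mul_of_one_le_left (by positivity) hZ)) (h2.1.trans b1) (abs_nonneg _) (by positivity)
        _ = |C| * C1 * gfun X.k (X.b - 1) x := by
            rw [g3, hC']
            field_simp
        _ ≤ _ := mul_le_mul_of_nonneg_right (le_add_of_nonneg_right (by positivity)) g0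
    · calc X.q x ≤ C1 * gfun X.k (X.b + 1) x := h2.2.1.trans b1
        _ = C1 * ‖x‖ ^ 2 * gfun X.k (X.b - 1) x := by rw [g3]; ring
        _ ≤ C1 * (L + 1) ^ 2 * gfun X.k (X.b - 1) x := by gcongr
        _ ≤ _ := mul_le_mul_of_nonneg_right (le_add_of_nonneg_left (by positivity)) g0

end Crest.Agent.R335
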