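import Crest.Agent.R335.A4_Par

/-!
# R335/A4_St3 (part A4, sub-lead helper14)

Bounds near the core which are uniform in `Z`.  Aux prefix `a43_`.
-/

set_option autoImplicit false

namespace Crest.Agent.R335

open MeasureTheory Set Filter Topology
open scoped Gradient RealInnerProductSpace ENNReal ContDiff
open Crest.MathPhysics.ThreeBody

variable {D eu γ a C η : ℝ} {u : E3 → ℝ} {X : Dt}

/-- `kR0` restricted to `far (D + 1)` (`KI.sub`), `KI.subS`, `sup_far` with `M = -2 eu + 2`, `N = 2` -/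
theorem R_bdd (D eu γ a C : ℝ) : ∃ CR : ℝ, 0 < CR ∧ ∀ (η : ℝ) (u : E3 → ℝ) (X : Dt), Frame D eu γ a C η →
    X.Ok D eu γ a C η u → ∀ᵐ x, D + 2 < ‖x‖ → X.R x ≤ CR := by
  obtain ⟨Cs, hCs, hs⟩ := sup_far (-2 * eu + 2)
  refine ⟨Cs * 2 + 1, by positivity, fun η u X F H => ?_⟩
  have hD := F.hD
  have hsub : far (D + 1) ⊆ {x : E3 | x ≠ EuclideanSpace.single 2 D ∧ x ≠ EuclideanSpace.single 2 (-D)} := by
    intro x hx
    have hx' : D + 1 < ‖x‖ := hx
    constructor
    · rintro rfl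
      rw [PiLp.norm_single, Real.norm_eq_abs, abs_of_pos (by linarith)] at hx'
      linarith
    · rintro rfl
      rw [PiLp.norm_single, Real.norm_eq_abs, abs_neg, abs_of_pos (by linarith)] at hx'
      linarith
  have k1 := (H.kR0.sub (isOpen_far _).measurableSet hsub).subS (isOpen_far _)
  have e0 : (fun x : E3 => max ((0 : E3 → ℝ) x) 0) = fun _ => (0 : ℝ) := by
    funext x
    simp
  rw [e0] at k1
  have key := hs (D + 1) _ _ _ _ 2 H.kR0.h1 ((measurable_V1 D).const_add X.I).aestronglyMeasurable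
    (Eventually.of_forall fun x hx => ?_) (MemLp.zero) k1 (by rw [H.nR]; norm_num) (by simp) (by norm_num)
  · filter_upwards [key] with x hx h2
    linarith [hx (by linarith)]
  · exact (abs_add_le _ _).trans (add_le_add (par_k F H).2.2.2.2.2.2 (V1_expand (by linarith) hx.le).2)

/-- `lip_far` for `d`: `|V0|` is bounded by `par_V0`, `|d| ≤ R ≤ CR`, `|S| ≤ C CR` -/
theorem d_lip (F : Frame D eu γ a C η) (H : X.Ok D eu γ a C η u) :
    ∃ K : ℝ, 0 < K ∧ ∀ᵐ x, D + 5 < ‖x‖ → |X.d x| ≤ K * |x 2| := by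
  obtain ⟨CR, hCR, hR⟩ := R_bdd D eu γ a C
  obtain ⟨Cl, hCl, hl⟩ := lip_far (-2 * eu + 4 + C)
  have hC := F.hC
  have key := hl (D + 2) (X.V0 D) (fun x => -X.S x) X.d X.Gd (C * CR) H.hd (par_V0 F H).1.aestronglyMeasurable
    H.mS.neg.aestronglyMeasurable ?_ (H.eqd.mono (far_mono (by linarith)))
  · refine ⟨Cl * (C * CR) + 1, by positivity, ?_⟩
    filter_upwards [key] with x hx h5
    refine (hx (by linarith)).trans ?_
    nlinarith [abs_nonneg (x 2)]
  · filter_upwards [hR η u X F H, par_le H, par_S F H, H.oddd] with x a1 a2 a3 a4 hx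
    have b1 := a1 hx
    have b3 := a3 (by linarith)
    refine ⟨(par_V0 F H).2.1 x (by linarith), a2.1.trans (b1.trans (by nlinarith)), ?_, a4⟩
    rw [abs_neg]
    refine b3.trans ?_
    have q0 := H.kq.nn x
    have := F.η0
    have r1 : 1 ≤ ‖x‖ ^ 2 := one_le_pow₀ (by linarith [F.hD])
    refine (div_le_self (by positivity) r1).trans ?_
    calc C * η * X.q x ≤ C * 1 * CR := by
          gcongr
          · exact F.η1
          · exact a2.2.1.trans b1
      _ = C * CR := by ring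

theorem a43_int {Ω : Set E3} {h ξ : E3 → ℝ} {K : E3 → E3} (hξ : TH Ω ξ K)
    (hh : ∀ C, IsCompact C → C ⊆ Ω → MemLp h 2 (volume.restrict C)) : Integrable fun x => h x * ξ x := by
  obtain ⟨C, c1, c2, c3⟩ := hξ.cpt
  have h1 : IntegrableOn (fun x => h x * ξ x) C := (hh C c1 c2).integrable_mul (hξ.h1.mf.restrict C)
  refine ((integrable_indicator_iff c1.measurableSet).2 h1).congr ?_
  filter_upwards [c3] with x hx
  by_cases hxC : x ∈ C
  · rw [indicator_of_mem hxC]
  · rw [indicator_of_notMem hxC, (hx hxC).1, mul_zero]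

theorem a43_V (F : Frame D eu γ a C η) {x : E3} (hx : D + 1 < ‖x‖) : |V1 D x - eu| ≤ 2 - eu := by
  have h1 := (V1_expand (by linarith [F.hD]) hx.le).2
  have h2 := F.heu
  rw [abs_le] at h1 ⊢
  constructor <;> linarith [h1.1, h1.2]

theorem a43_S (F : Frame D eu γ a C η) (H : X.Ok D eu γ a C η u) :
    ∀ᵐ x, D + 1 < ‖x‖ → |X.S x| ≤ C * η * X.q x := by
  filter_upwards [par_S F H] with x hx h1
  refine (hx h1).trans ?_
  have q0 := H.kq.nn x
  have := F.hC
  have := F.η0
  have r1 : 1 ≤ ‖x‖ ^ 2 := one_le_pow₀ (by linarith [F.hD])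
  exact div_le_self (by positivity) r1

/-- the equation of `e = d - u`: subtract `Eig.eqS` (`FB.of_sumClass (sumClass_V1 D)`) from `Scal.eqd`; all terms are products of
`L²` functions (the test function vanishes a.e. outside a compact subset of `far (D + 1)`, where the potentials are bounded and
`|S| ≤ C R`) -/
theorem e_eq {Gu : E3 → E3} (hu : Eig (V1 D) eu u Gu) (F : Frame D eu γ a C η) (H : X.Ok D eu γ a C η u) :
    EqS (far (D + 1)) (fun x => V1 D x - eu) (fun x => -X.S x - (X.I + eu + X.W x) * X.d x)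
      (fun x => X.d x - u x) fun x => X.Gd x - Gu x := by
  intro ξ K hξ
  have h1 := H.eqd ξ K hξ
  have h2 := hu.eqS (FB.of_sumClass (sumClass_V1 D)) (far (D + 1)) ξ K hξ
  have i1 : Integrable fun x => ⟪X.Gd x, K x⟫ := H.hd.int_inner hξ.h1
  have i2 : Integrable fun x => ⟪Gu x, K x⟫ := hu.h1.int_inner hξ.h1
  have lS : ∀ C', IsCompact C' → C' ⊆ far (D + 1) → MemLp X.S 2 (volume.restrict C') := fun C' c1 c2 => by
    refine ((H.kq.h1.mf.restrict C').const_mul (C * η)).of_le H.mS.aestronglyMeasurable ?_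
    rw [ae_restrict_iff' c1.measurableSet]
    filter_upwards [a43_S F H] with x hx hxC
    exact (hx (c2 hxC)).trans (le_abs_self _)
  have lV : LB (far (D + 1)) fun x => V1 D x - eu :=
    LB.of_le ((measurable_V1 D).sub_const eu).aestronglyMeasurable (continuousOn_const (c := 2 - eu))
      (Eventually.of_forall fun x hx => a43_V F hx)
  have i3 : Integrable fun x => ((X.I + V1 D x + X.W x) * X.d x - -X.S x) * ξ x :=
    a43_int hξ fun C' c1 c2 => (p5a_bdd (par_V0 F H).2.2 H.hd.mf c1 c2).sub (lS C' c1 c2).neg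
  have i4 : Integrable fun x => ((V1 D x - eu) * u x - (0 : E3 → ℝ) x) * ξ x :=
    a43_int hξ fun C' c1 c2 => (p5a_bdd lV hu.h1.mf c1 c2).sub (MemLp.zero)
  have e1 : ∫ x, ⟪X.Gd x - Gu x, K x⟫ = (∫ x, ⟪X.Gd x, K x⟫) - ∫ x, ⟪Gu x, K x⟫ := by
    simp only [inner_sub_left]
    exact integral_sub i1 i2
  have e2 : ∫ x, ((V1 D x - eu) * (X.d x - u x) - (-X.S x - (X.I + eu + X.W x) * X.d x)) * ξ x =
      (∫ x, ((X.I + V1 D x + X.W x) * X.d x - -X.S x) * ξ x) - ∫ x, ((V1 D x - eu) * u x - (0 : E3 → ℝ) x) * ξ x := by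
    rw [← integral_sub i3 i4]
    refine integral_congr_ae (Eventually.of_forall fun x => ?_)
    simp only [Pi.zero_apply]
    ring
  simp only at h1 h2 ⊢
  rw [e1, e2]
  linarith

theorem a43_f (F : Frame D eu γ a C η) (H : X.Ok D eu γ a C η u) :
    ∀ᵐ x, D + 1 < ‖x‖ → |-X.S x - (X.I + eu + X.W x) * X.d x| ≤ (2 * C + 3) * η * X.R x := by
  filter_upwards [a43_S F H, par_le H] with x h1 h2 hx
  have a1 := h1 hx
  have a2 := par_W F H hx
  have a3 := H.ion
  have hC := F.hC
  have hη := F.η0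
  have r1 : 1 ≤ ‖x‖ := by linarith [F.hD]
  have a4 : |X.W x| ≤ (2 + C) * η := a2.trans (div_le_self (by positivity) r1)
  have a5 : |X.I + eu + X.W x| ≤ η + (2 + C) * η := (abs_add_le _ _).trans (add_le_add a3 a4)
  have a6 : C * η * X.q x ≤ C * η * X.R x := by gcongr; exact h2.2.1
  calc |-X.S x - (X.I + eu + X.W x) * X.d x| ≤ |-X.S x| + |(X.I + eu + X.W x) * X.d x| := abs_sub _ _
    _ ≤ C * η * X.R x + (η + (2 + C) * η) * X.R x := by
      rw [abs_neg, abs_mul]
      refine add_le_add (a1.trans a6) ?_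
      gcongr
      exact h2.1
    _ = (2 * C + 3) * η * X.R x := by ring

/-- The source is at most `η (2 C + 3) R`, `nsq R = 3`, `nsq e ≤ C η`.  `sup_far` for `± e` (`EqS.neg`, `EqS.subS`) with
`N = 2 (2 C + 3) √η` bounds `|e|` on `r > D + 2`; then `lip_far` on `far (D + 2)` (`η ≤ √η`, `R_bdd`; `u` is odd by `OneB.symuM`,
`exists_refl_z`). -/
theorem e_small {eg e3 : ℝ} {g : E3 → ℝ} {Gg Gu : E3 → E3} (h : OneB D eg eu e3 g Gg u Gu) (γ a C : ℝ) :
    ∃ C4 : ℝ, 0 < C4 ∧ ∀ (η : ℝ) (X : Dt), Frame D eu γ a C η → X.Ok D eu γ a C η u →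
      ∀ᵐ x, D + 5 < ‖x‖ → |X.d x - u x| ≤ C4 * √η * |x 2| := by
  by_cases hC : 1 ≤ C
  swap
  · exact ⟨1, one_pos, fun η X F => absurd F.hC hC⟩
  obtain ⟨CR, hCR, hR⟩ := R_bdd D eu γ a C
  obtain ⟨Cs, hCs, hs⟩ := sup_far (2 - eu)
  obtain ⟨Cl, hCl, hl⟩ := lip_far (2 - eu)
  refine ⟨(Cl + 1) * ((2 * C + 3) * (2 * Cs + CR)), by positivity, fun η X F H => ?_⟩
  have hη := F.η0
  have sq0 : 0 < √η := Real.sqrt_pos.2 hη
  have sq1 : √η ^ 2 = η := Real.sq_sqrt hη.le
  have sq2 : η ≤ √η := by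
    have : √η ≤ 1 := Real.sqrt_le_one.2 F.η1
    nlinarith
  have he := e_eq h.eu_ F H
  have h1 : H1 (fun x => X.d x - u x) fun x => X.Gd x - Gu x := H.hd.sub h.eu_.h1
  have mV : AEStronglyMeasurable (fun x => V1 D x - eu) volume := ((measurable_V1 D).sub_const eu).aestronglyMeasurable
  have bV : ∀ᵐ x : E3, D + 1 < ‖x‖ → |V1 D x - eu| ≤ 2 - eu := Eventually.of_forall fun x hx => a43_V F hx
  have mf : AEStronglyMeasurable (fun x => -X.S x - (X.I + eu + X.W x) * X.d x) volume :=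
    H.mS.neg.aestronglyMeasurable.sub ((H.mW.const_add _).aestronglyMeasurable.mul H.hd.mf.1)
  have hf := a43_f F H
  have mfar : MeasurableSet (far (D + 1)) := (isOpen_far _).measurableSet
  have lf : MemLp (fun x => -X.S x - (X.I + eu + X.W x) * X.d x) 2 (volume.restrict (far (D + 1))) := by
    refine ((H.kR0.h1.mf.restrict _).const_mul ((2 * C + 3) * η)).of_le mf.restrict ?_
    rw [ae_restrict_iff' mfar]
    filter_upwards [hf] with x hx hxC
    exact (hx hxC).trans (le_abs_self _)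
  have n1 : nsq (fun x => X.d x - u x) ≤ (2 * (2 * C + 3) * √η) ^ 2 := by
    refine H.cld.trans ?_
    rw [mul_pow, sq1]
    gcongr
    nlinarith
  have n2 : ∫ x in far (D + 1), (-X.S x - (X.I + eu + X.W x) * X.d x) ^ 2 ≤ (2 * (2 * C + 3) * √η) ^ 2 := by
    have iR : Integrable fun x => X.R x ^ 2 := H.kR0.h1.mf.integrable_sq
    calc ∫ x in far (D + 1), (-X.S x - (X.I + eu + X.W x) * X.d x) ^ 2
        ≤ ∫ x in far (D + 1), ((2 * C + 3) * η) ^ 2 * X.R x ^ 2 := by
          refine integral_mono_ae lf.integrable_sq (iR.const_mul _).integrableOn ?_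
          rw [EventuallyLE, ae_restrict_iff' mfar]
          filter_upwards [hf] with x hx hxC
          rw [← mul_pow, ← sq_abs]
          exact pow_le_pow_left₀ (abs_nonneg _) (hx hxC) 2
      _ ≤ ∫ x, ((2 * C + 3) * η) ^ 2 * X.R x ^ 2 :=
          setIntegral_le_integral (iR.const_mul _) (Eventually.of_forall fun x => by positivity)
      _ = ((2 * C + 3) * η) ^ 2 * 3 := by
          rw [integral_const_mul]
          congr 1
          exact H.nR
      _ ≤ (2 * (2 * C + 3) * √η) ^ 2 := by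
          rw [mul_pow (2 * (2 * C + 3)), sq1]
          have : η ^ 2 ≤ η := by nlinarith [F.η1]
          have : 0 ≤ (2 * C + 3) ^ 2 := by positivity
          nlinarith
  have s1 := hs (D + 1) _ _ _ _ _ h1 mV bV lf he.subS n1 n2 (by positivity)
  have s2 := hs (D + 1) _ _ _ _ (2 * (2 * C + 3) * √η) h1.neg mV bV lf.neg he.neg.subS
    (by simpa only [nsq, neg_sq] using n1) (by simpa only [Pi.neg_apply, neg_sq] using n2) (by positivity)
  obtain ⟨T, hT, hT1, -⟩ := exists_refl_z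
  have key := hl (D + 2) (fun x => V1 D x - eu) _ _ _ ((2 * C + 3) * (2 * Cs + CR) * √η) h1 mV mf ?_
    (he.mono (far_mono (by linarith)))
  · filter_upwards [key] with x hx hx5
    refine (hx (by linarith)).trans ?_
    have : 0 ≤ (2 * C + 3) * (2 * Cs + CR) * √η * |x 2| := by positivity
    nlinarith
  · filter_upwards [s1, s2, hf, hR η u X F H, H.oddd, h.symuM T hT] with x a1 a2 a3 a4 a5 a6 hx
    have b1 := a1 (by linarith)
    have b2 := a2 (by linarith)
    have b3 := a3 (by linarith)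
    have b4 := a4 hx
    have p1 : 0 ≤ (2 * C + 3) * CR * √η := by positivity
    have p2 : 0 ≤ (2 * C + 3) * Cs * √η := by positivity
    refine ⟨a43_V F (by linarith), ?_, ?_, ?_⟩
    · rw [abs_le]
      constructor <;> nlinarith
    · refine b3.trans ?_
      calc (2 * C + 3) * η * X.R x ≤ (2 * C + 3) * √η * CR := by
            have := H.kR0.nn x
            gcongr
        _ ≤ _ := by nlinarith
    · rw [hT1] at a6
      simp only [a5, a6]
      ring

end Crest.Agent.R335
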