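import Crest.Agent.R335.A4_St6

/-!
# R335/A4_St5 (part A4, sub-lead helper14)

Steps 5, 7, 8.  Aux prefix `a4s5_`.
-/

set_option autoImplicit false

namespace Crest.Agent.R335

open MeasureTheory Set Filter Topology
open scoped Gradient RealInnerProductSpace ENNReal ContDiff
open Crest.MathPhysics.ThreeBody

variable {D eu γ a C η : ℝ} {u : E3 → ℝ} {X : Dt}

theorem a4s5_gen (F : Frame D eu γ a C η) (H : X.Ok D eu γ a C η u) {m h0 β L0 N : ℝ} (hm : 0 < m) {h : ℝ → ℝ}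
    (hh : Prof m h) (hh0 : 0 < h0) (hl : ∀ z, h0 ≤ h z) (hN : 0 < N) {y s t : E3 → ℝ} {G : E3 → E3}
    (hK : KI (far (D + 1)) y G (fun x => X.I + V1 D x + m) s t)
    (hd : ∀ᵐ x, L0 < ‖x‖ → |s x| ≤ N * hg h X.k β x ∧ |t x| ≤ N * hg h X.k β x) :
    ∃ L K : ℝ, 1 ≤ L ∧ 0 < K ∧ ∀ᵐ x, L < ‖x‖ → y x ≤ K * hg h X.k β x := by
  obtain ⟨L1, hL1, h1⟩ := cmp_mass X.k |β| (2 + 2 * D * (D + 1)) hm
  have hD := F.hD
  have k0 : 0 < X.k := (par_k F H).2.2.2.2.2.1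
  obtain ⟨L2, hL2⟩ : ∃ L2, L2 = max L0 (D + 1) := ⟨_, rfl⟩
  have a1 : L0 ≤ L2 := hL2 ▸ le_max_left _ _
  have a2 : D + 1 ≤ L2 := hL2 ▸ le_max_right _ _
  obtain ⟨L, hL⟩ : ∃ L, L = max L1 (L2 + 1) := ⟨_, rfl⟩
  have a3 : L1 ≤ L := hL ▸ le_max_left _ _
  have a4 : L2 + 1 ≤ L := hL ▸ le_max_right _ _
  have hne : ∀ x ∈ far L2, x ≠ 0 := fun x hx => far_ne_zero (by linarith) hx
  have hc : ContinuousOn (fun x => N * hg h X.k β x) (far L2) :=
    continuousOn_const.mul fun x hx => (cd_hg hh.cd X.k β (hne x hx)).continuousAt.continuousWithinAt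
  have hb : Bl (far L2) y :=
    KI.bl (isOpen_far L2) (hK.sub (isOpen_far L2).measurableSet (far_mono a2))
      (Bl.of_le hc (hd.mono fun x hx hx' => (hx (a1.trans_lt hx')).2))
  obtain ⟨M, hM, h2⟩ := hb.shell (L' := L) (by linarith)
  obtain ⟨m1, M1, hm1, -, h3⟩ := gfun_shell X.k |β| (L + 1)
  have q0 : 0 < M / (h0 * m1) := by positivity
  refine ⟨L, (1 + 4 / m) * (N + M / (h0 * m1)), by linarith, by positivity,
    h1 L X.k β _ h y _ s t G a3 k0.le le_rfl le_rfl hh (by positivity)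
      (hK.sub (isOpen_far L).measurableSet (far_mono (by linarith))) ((par_mass F H m).mono (by linarith)) ?_⟩
  filter_upwards [hd, h2] with x b1 b2 hx
  have p0 : 0 ≤ hg h X.k β x := mul_nonneg (hh.pos _).le (gfun_nonneg _ _ _)
  have p1 : N * hg h X.k β x ≤ (N + M / (h0 * m1)) * hg h X.k β x := mul_le_mul_of_nonneg_right (by linarith) p0
  refine ⟨(b1 (by linarith)).1.trans p1, (b1 (by linarith)).2.trans p1, fun b3 => ?_⟩
  have p2 : h0 * m1 ≤ hg h X.k β x :=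
    mul_le_mul (hl _) (h3 X.k β x k0.le le_rfl le_rfl (by linarith) b3.le).1 hm1.le (hh.pos _).le
  calc y x ≤ M := (le_abs_self _).trans (b2 hx.le b3.le)
    _ = M / (h0 * m1) * (h0 * m1) := by field_simp
    _ ≤ (N + M / (h0 * m1)) * hg h X.k β x := mul_le_mul (by linarith) p2 (by positivity) (by positivity)

theorem a4s5_g2 (k β : ℝ) {x : E3} (hx : x ≠ 0) : gfun k (β - 2) x = gfun k β x / ‖x‖ ^ 2 := by
  have h := gfun_sub_nat k β 2 hx
  rwa [Nat.cast_ofNat] at h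

theorem a4s5_g3 (k β : ℝ) {x : E3} (hx : x ≠ 0) : gfun k (β - 3) x = gfun k β x / ‖x‖ ^ 3 := by
  have h := gfun_sub_nat k β 3 hx
  rwa [Nat.cast_ofNat] at h

/-- `cmp_mass` for `kq` with `prof_sqrt`, `β = b - 2`, `m = γ`; source by `step4`, starting values by `R_bdd`, `gfun_shell`, `prof_cmp` -/
theorem step5 (F : Frame D eu γ a C η) (H : X.Ok D eu γ a C η u) :
    ∃ L K : ℝ, 0 < K ∧ ∀ᵐ x, L < ‖x‖ → X.q x ≤ K * (1 + |x 2|) / ‖x‖ ^ 2 * gfun X.k X.b x := by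
  obtain ⟨L4, K4, hK4, h4⟩ := step4 F H
  obtain ⟨N, hN, hp⟩ := prof_cmp F.hγ
  have hγ := F.hγ
  have hC := F.hC
  have hZ := (par_Z F H).1
  have key0 := a4s5_gen F H (β := X.b - 2) (L0 := max L4 1) (N := C * K4 * N) hγ (prof_sqrt hγ)
    (Real.sqrt_pos.2 (show 0 < 2 / γ by positivity))
    (fun z => Real.sqrt_le_sqrt (by linarith [sq_nonneg z])) (by positivity) H.kq ?_
  · obtain ⟨L, K, hL, hK, h⟩ := key0
    refine ⟨L, K * N, by positivity, h.mono fun x hx hx' => (hx hx').trans ?_⟩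
    have hx0 : x ≠ 0 := far_ne_zero (by linarith) hx'
    have g0 := gfun_nonneg X.k X.b x
    rw [hg, a4s5_g2 _ _ hx0]
    calc K * (√(2 / γ + x 2 ^ 2) * (gfun X.k X.b x / ‖x‖ ^ 2))
        ≤ K * (N * (1 + |x 2|) * (gfun X.k X.b x / ‖x‖ ^ 2)) := by
          gcongr
          exact (hp _).2.1
      _ = _ := by ring
  · filter_upwards [h4] with x hx hx'
    have r1 : 1 < ‖x‖ := (le_max_right _ _).trans_lt hx'
    have hx0 : x ≠ 0 := far_ne_zero zero_le_one r1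
    have g0 := gfun_nonneg X.k X.b x
    have b1 := hx ((le_max_left _ _).trans_lt hx')
    rw [hg, a4s5_g2 _ _ hx0]
    refine ⟨?_, by rw [Pi.zero_apply, abs_zero]; positivity⟩
    rw [abs_of_nonneg (by positivity)]
    have b2 : |x 2| ≤ N * √(2 / γ + x 2 ^ 2) := by linarith [(hp (x 2)).1]
    calc C / (X.Z * ‖x‖ ^ 2) * |X.d x| ≤ C / (1 * ‖x‖ ^ 2) * (K4 * (N * √(2 / γ + x 2 ^ 2)) * gfun X.k X.b x) := by
          gcongr
          exact b1.trans (by gcongr)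
      _ = _ := by ring

/-- `cmp_mass` for `kw` with `prof_one`, `β = b + 1`, `m = γ / 2`; `|t| ≤ |C'| C1 gfun k (b + 1)` by `step1`; starting values by `KI.bl`
(on `far (D + 2)`, where `R` is bounded) and `Bl.shell` -/
theorem step7 (F : Frame D eu γ a C η) (H : X.Ok D eu γ a C η u) :
    ∃ L K : ℝ, 0 < K ∧ ∀ᵐ x, L < ‖x‖ → X.yw x ≤ K * gfun X.k (X.b + 1) x := by
  obtain ⟨L1, C1, -, hC1, h1⟩ := step1 D eu γ a C
  have hγ : 0 < γ / 2 := half_pos F.hγ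
  have key0 := a4s5_gen F H (β := X.b + 1) (L0 := L1) (N := (|X.C'| + 1) * C1) hγ (prof_one hγ)
    one_pos (fun _ => le_rfl) (by positivity) H.kw ?_
  · obtain ⟨L, K, hL, hK, h⟩ := key0
    refine ⟨L, K, hK, h.mono fun x hx hx' => (hx hx').trans_eq ?_⟩
    rw [hg, one_mul]
  · filter_upwards [h1 η u X F H] with x hx hx'
    have g0 := gfun_nonneg X.k (X.b + 1) x
    rw [hg, one_mul]
    refine ⟨by rw [Pi.zero_apply, abs_zero]; positivity, ?_⟩
    rw [abs_mul, abs_of_nonneg (H.kR0.nn x), mul_assoc]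
    exact mul_le_mul (by linarith) (hx hx') (H.kR0.nn x) (by positivity)

/-- `cmp_mass` for `ko` with `prof_sq`, `β = b - 3`, `m = γ / 2`; `(1 + |z|) |z| ≤ 2 (1 + z²)`, `1 + |z| ≤ 2 (1 + z²)`;
`exp_mul_gfun` and `gfun_small` for `t`; starting values `yo ≤ R ≤ CR` -/
theorem step8 (F : Frame D eu γ a C η) (H : X.Ok D eu γ a C η u) :
    ∃ L K : ℝ, 0 < K ∧ ∀ᵐ x, L < ‖x‖ → X.yo x ≤ K * (1 + x 2 ^ 2) / ‖x‖ ^ 3 * gfun X.k X.b x := by
  obtain ⟨L4, K4, hK4, h4⟩ := step4 F H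
  obtain ⟨L5, K5, hK5, h5⟩ := step5 F H
  obtain ⟨L7, K7, hK7, h7⟩ := step7 F H
  have hγ : 0 < γ / 2 := half_pos F.hγ
  have ha := F.ha
  obtain ⟨N, hN, hp⟩ := prof_cmp hγ
  obtain ⟨L6, hL6, h6⟩ := gfun_small (k := X.k) (k' := X.k + a / 4) (by linarith) (X.b - 3) (X.b + 1) one_pos
  have key0 := a4s5_gen F H (β := X.b - 3) (L0 := max (max L4 L5) (max L6 L7))
    (N := (|X.C'| + 1) * (2 * K4 + 2 * K5 + K7) * N) hγ (prof_sq hγ)
    (show 0 < 4 / (γ / 2) by positivity) (fun z => by linarith [sq_nonneg z]) (by positivity) H.ko ?_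
  · obtain ⟨L, K, hL, hK, h⟩ := key0
    refine ⟨L, K * N, by positivity, h.mono fun x hx hx' => (hx hx').trans ?_⟩
    have hx0 : x ≠ 0 := far_ne_zero (by linarith) hx'
    have g0 := gfun_nonneg X.k X.b x
    rw [hg, a4s5_g3 _ _ hx0]
    calc K * ((4 / (γ / 2) + x 2 ^ 2) * (gfun X.k X.b x / ‖x‖ ^ 3))
        ≤ K * (N * (1 + x 2 ^ 2) * (gfun X.k X.b x / ‖x‖ ^ 3)) := by
          gcongr
          exact (hp _).2.2.2
      _ = _ := by ring
  · filter_upwards [h4, h5, h7] with x a4 a5 a7 hx'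
    simp only [max_lt_iff] at hx'
    obtain ⟨⟨c4, c5⟩, c6, c7⟩ := hx'
    have r1 : 1 < ‖x‖ := hL6.trans_lt c6
    have hx0 : x ≠ 0 := far_ne_zero zero_le_one r1
    have g0 := gfun_nonneg X.k X.b x
    have g3 := gfun_nonneg X.k (X.b - 3) x
    have q0 := H.kq.nn x
    have w0 := H.kw.nn x
    have z0 := abs_nonneg (x 2)
    have z1 : |x 2| ^ 2 = x 2 ^ 2 := sq_abs _
    have z2 : (1 + |x 2|) * |x 2| ≤ 2 * (1 + x 2 ^ 2) := by nlinarith [sq_nonneg (|x 2| - 1)]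
    have z3 : 1 + |x 2| ≤ 2 * (1 + x 2 ^ 2) := by nlinarith [sq_nonneg (|x 2| - 1)]
    have key : ∀ w : ℝ, 0 ≤ w → w ≤ (2 * K4 + 2 * K5 + K7) * (1 + x 2 ^ 2) * gfun X.k (X.b - 3) x →
        |X.C' * w| ≤ (|X.C'| + 1) * (2 * K4 + 2 * K5 + K7) * N *
          hg (fun z => 4 / (γ / 2) + z ^ 2) X.k (X.b - 3) x := by
      intro w w0 w1
      rw [abs_mul, abs_of_nonneg w0, hg]
      calc |X.C'| * w ≤ (|X.C'| + 1) * ((2 * K4 + 2 * K5 + K7) * (N * (4 / (γ / 2) + x 2 ^ 2)) *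
            gfun X.k (X.b - 3) x) := by
            refine mul_le_mul (by linarith) (w1.trans ?_) w0 (by positivity)
            gcongr
            exact (hp _).2.2.1
        _ = _ := by ring
    refine ⟨key _ (by positivity) ?_, key _ (by positivity) ?_⟩
    · have e1 : (1 + |x 2|) / ‖x‖ ^ 3 * |X.d x| ≤ K4 * ((1 + |x 2|) * |x 2|) * gfun X.k (X.b - 3) x := by
        rw [a4s5_g3 _ _ hx0]
        calc (1 + |x 2|) / ‖x‖ ^ 3 * |X.d x| ≤ (1 + |x 2|) / ‖x‖ ^ 3 * (K4 * |x 2| * gfun X.k X.b x) := by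
              gcongr
              exact a4 c4
          _ = _ := by ring
      have e2 : X.q x / ‖x‖ ≤ K5 * (1 + |x 2|) * gfun X.k (X.b - 3) x := by
        rw [a4s5_g3 _ _ hx0]
        calc X.q x / ‖x‖ ≤ K5 * (1 + |x 2|) / ‖x‖ ^ 2 * gfun X.k X.b x / ‖x‖ := by
              gcongr
              exact a5 c5
          _ = _ := by field_simp
      have e3 : K4 * ((1 + |x 2|) * |x 2|) * gfun X.k (X.b - 3) x ≤
          K4 * (2 * (1 + x 2 ^ 2)) * gfun X.k (X.b - 3) x := by gcongr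
      have e4 : K5 * (1 + |x 2|) * gfun X.k (X.b - 3) x ≤ K5 * (2 * (1 + x 2 ^ 2)) * gfun X.k (X.b - 3) x := by gcongr
      have e5 : 0 ≤ K7 * (1 + x 2 ^ 2) * gfun X.k (X.b - 3) x := by positivity
      nlinarith
    · have e1 : Real.exp (-a * ‖x‖ / 4) * X.yw x ≤ K7 * gfun X.k (X.b - 3) x := by
        have e0 : -a * ‖x‖ / 4 = -(a / 4) * ‖x‖ := by ring
        calc Real.exp (-a * ‖x‖ / 4) * X.yw x ≤ Real.exp (-(a / 4) * ‖x‖) * (K7 * gfun X.k (X.b + 1) x) := by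
              rw [e0]
              gcongr
              exact a7 c7
          _ = K7 * gfun (X.k + a / 4) (X.b + 1) x := by rw [← exp_mul_gfun]; ring
          _ ≤ K7 * (1 * gfun X.k (X.b - 3) x) := by
              gcongr
              exact h6 x c6
          _ = _ := by ring
      refine e1.trans (mul_le_mul_of_nonneg_right ?_ g3)
      nlinarith [sq_nonneg (x 2)]

end Crest.Agent.R335
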