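import Crest.Agent.R335.A4_St1
import Crest.Agent.R335.A4_Cmp4

/-!
# R335/A4_St6 (part A4, sub-lead helper14)

Steps 4 and 6: two sided bounds for `d`.  Aux prefix `a4s6_`.
-/

set_option autoImplicit false

namespace Crest.Agent.R335

open MeasureTheory Set Filter Topology
open scoped Gradient RealInnerProductSpace ENNReal ContDiff
open Crest.MathPhysics.ThreeBody

variable {D eu γ a C η : ℝ} {u : E3 → ℝ} {X : Dt}

theorem a4s6_eq (H : X.Ok D eu γ a C η u) {L : ℝ} (hL : D + 1 ≤ L) :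
    SubS (far L) (X.V0 D) (fun x => -X.S x) X.d X.Gd ∧
      SubS (far L) (X.V0 D) (fun x => - -X.S x) (fun x => -X.d x) fun x => -X.Gd x :=
  ⟨(H.eqd.mono (far_mono hL)).subS, (H.eqd.mono (far_mono hL)).neg.subS⟩

theorem a4s6_odd (H : X.Ok D eu γ a C η u) : ∀ᵐ x, -X.d (refl x) = - -X.d x :=
  H.oddd.mono fun x hx => by rw [hx]

/-- `cmp_odd` with `σ = 1` for `d` and for `-d` (`EqS.neg`, `EqS.subS`, `EqS.mono`); `K` large: `K / 2 ≥ C2`, and on the shell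
`|d| ≤ K₀ |z| ≤ (3/4) K |z| g` (`d_lip`, `gfun_shell`).  The lower half space by `ae_refl`, the plane is a null set (`ae_coord_ne`). -/
theorem step4 (F : Frame D eu γ a C η) (H : X.Ok D eu γ a C η u) :
    ∃ L K : ℝ, 0 < K ∧ ∀ᵐ x, L < ‖x‖ → |X.d x| ≤ K * |x 2| * gfun X.k X.b x := by
  obtain ⟨L1, -, h1⟩ := cmp_odd (kLo_pos F.heu) (kHi eu) (4 * D * (D + 1) + 2 * C)
  obtain ⟨L2, C2, hL2, hC2, h2⟩ := step2 D eu γ a C
  obtain ⟨K0, hK0, h3⟩ := d_lip F H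
  obtain ⟨m, M, hm, -, h4⟩ := gfun_shell (kHi eu) (kHi eu) (max L1 L2 + 1)
  obtain ⟨p1, p2, p3, -, -, p6, -⟩ := par_k F H
  have hD := F.hD
  have hL : D + 5 ≤ max L1 L2 := hL2.trans (le_max_right _ _)
  have hL' : D + 1 ≤ max L1 L2 := by linarith
  obtain ⟨K, hK⟩ : ∃ K, K = 2 * C2 + 2 * (K0 / m) := ⟨_, rfl⟩
  have q0 : 0 < K0 / m := div_pos hK0 hm
  have hK' : 0 < K := by rw [hK]; positivity
  have hs : ∀ᵐ x, max L1 L2 < ‖x‖ → |X.S x| ≤ K / 2 * gfun X.k (X.b - 3) x ∧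
      (‖x‖ < max L1 L2 + 1 → 0 < x 2 → |X.d x| ≤ K * (1 - 1 / 4) * x 2 * gfun X.k X.b x) := by
    filter_upwards [h2 η u X F H, h3] with x a1 a2 hx
    refine ⟨(a1 ((le_max_right _ _).trans_lt hx)).2.trans
      (mul_le_mul_of_nonneg_right ?_ (gfun_nonneg _ _ _)), fun b1 b2 => ?_⟩
    · nlinarith [F.η1, F.η0]
    · have b3 := a2 (hL.trans_lt hx)
      rw [abs_of_pos b2] at b3
      have b4 := (h4 X.k X.b x p6.le p2 p3 (by linarith) b1.le).1
      have b5 : K0 ≤ K * (1 - 1 / 4) * gfun X.k X.b x := by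
        have b6 : K0 / m ≤ K * (1 - 1 / 4) := by linarith
        calc K0 = K0 / m * m := by field_simp
          _ ≤ _ := mul_le_mul b6 b4 hm.le (by positivity)
      have b7 := mul_le_mul_of_nonneg_right b5 b2.le
      linarith
  have hV := (par_V0 F H).2.2.mono (far_mono hL')
  have hc := (par_crit F H).mono hL'
  have r1 := h1 _ 1 X.k X.b K _ _ _ _ (le_max_left L1 L2) (by simp) p1 p2 p3 hK'.le H.hd H.oddd hV
    H.mS.neg.aestronglyMeasurable (a4s6_eq H hL').1 hc (hs.mono fun x hx hx' =>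
      ⟨by simpa only [Pi.neg_apply, abs_neg] using (hx hx').1, fun b1 b2 => (abs_le.1 ((hx hx').2 b1 b2)).2⟩)
  have r2 := h1 _ 1 X.k X.b K _ _ _ _ (le_max_left L1 L2) (by simp) p1 p2 p3 hK'.le H.hd.neg (a4s6_odd H) hV
    H.mS.neg.neg.aestronglyMeasurable (a4s6_eq H hL').2 hc (hs.mono fun x hx hx' =>
      ⟨by simpa only [Pi.neg_apply, abs_neg] using (hx hx').1, fun b1 b2 => neg_le.1 (abs_le.1 ((hx hx').2 b1 b2)).1⟩)
  have r3 : ∀ᵐ x, max L1 L2 < ‖x‖ → 0 < x 2 → |X.d x| ≤ K * (1 + 1 / 4) * x 2 * gfun X.k X.b x := by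
    filter_upwards [r1, r2] with x a1 a2 b1 b2
    exact abs_le.2 ⟨neg_le.1 (a2 b1 b2), a1 b1 b2⟩
  refine ⟨max L1 L2, K * (1 + 1 / 4), by positivity, ?_⟩
  filter_upwards [r3, ae_refl r3, H.oddd, ae_coord_ne 2 0] with x a1 a2 a3 a4 hx
  rcases lt_or_gt_of_ne a4 with b | b
  · rw [norm_refl, refl_2, gfun_refl, a3, abs_neg] at a2
    rw [abs_of_neg b]
    exact a2 hx (neg_pos.2 b)
  · rw [abs_of_pos b]
    exact a1 hx b

/-- Fix `L ≥ L2` and `≥ L1` of `cmp_odd`, `c` from `OneB.hopf`, `M` from `gfun_shell`, `K = (2/5) c / M`.  For `C4 √η ≤ c / 2` one has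
`d ≥ (c/2) z ≥ (5/4) K z g` on the shell, `z > 0` (`e_small`), and `C2 η ≤ K / 2`.  `cmp_odd` with `σ = -1` for `-d` (source `S`) gives
`d ≥ (3/4) K z g`; the lower half space by `ae_refl`. -/
theorem step6 {eg e3 : ℝ} {g : E3 → ℝ} {Gg Gu : E3 → E3} (h : OneB D eg eu e3 g Gg u Gu) (γ a C : ℝ) :
    ∃ η0 : ℝ, 0 < η0 ∧ ∀ (η : ℝ) (X : Dt), η ≤ η0 → Frame D eu γ a C η → X.Ok D eu γ a C η u →
      ∃ L c : ℝ, 0 < c ∧ ∀ᵐ x, L < ‖x‖ → c * x 2 ^ 2 * gfun X.k X.b x ≤ x 2 * X.d x := by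
  obtain ⟨L1, -, h1⟩ := cmp_odd (kLo_pos h.neg) (kHi eu) (4 * D * (D + 1) + 2 * C)
  obtain ⟨L2, C2, hL2, hC2, h2⟩ := step2 D eu γ a C
  obtain ⟨C4, hC4, h3⟩ := e_small h γ a C
  obtain ⟨m, M, -, hM, h4⟩ := gfun_shell (kHi eu) (kHi eu) (max L1 L2 + 1)
  have hD := h.Dpos
  have hL : D + 5 ≤ max L1 L2 := hL2.trans (le_max_right _ _)
  have hL' : D + 1 ≤ max L1 L2 := by linarith
  obtain ⟨c, hc, h5⟩ := h.hopf (max L1 L2) (by linarith)
  obtain ⟨K, hK⟩ : ∃ K, K = 2 / 5 * (c / M) := ⟨_, rfl⟩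
  have hK' : 0 < K := by rw [hK]; positivity
  refine ⟨min ((c / (2 * C4)) ^ 2) (K / (2 * C2)), by positivity, fun η X hη F H => ?_⟩
  obtain ⟨p1, p2, p3, -, -, p6, -⟩ := par_k F H
  have e1 : C4 * √η ≤ c / 2 := by
    have a1 : √η ≤ c / (2 * C4) := Real.sqrt_le_iff.2 ⟨by positivity, hη.trans (min_le_left _ _)⟩
    calc C4 * √η ≤ C4 * (c / (2 * C4)) := mul_le_mul_of_nonneg_left a1 hC4.le
      _ = c / 2 := by field_simp
  have e2 : C2 * η ≤ K / 2 := by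
    calc C2 * η ≤ C2 * (K / (2 * C2)) := mul_le_mul_of_nonneg_left (hη.trans (min_le_right _ _)) hC2.le
      _ = K / 2 := by field_simp
  have hs : ∀ᵐ x, max L1 L2 < ‖x‖ → |- -X.S x| ≤ K / 2 * gfun X.k (X.b - 3) x ∧
      (‖x‖ < max L1 L2 + 1 → 0 < x 2 → -X.d x ≤ K * (-1 - 1 / 4) * x 2 * gfun X.k X.b x) := by
    filter_upwards [h2 η u X F H, h3 η X F H, h5] with x a1 a2 a3 hx
    refine ⟨?_, fun b1 b2 => ?_⟩
    · rw [neg_neg]
      exact (a1 ((le_max_right _ _).trans_lt hx)).2.trans (mul_le_mul_of_nonneg_right e2 (gfun_nonneg _ _ _))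
    · have b3 := (abs_le.1 (a2 (hL.trans_lt hx))).1
      rw [abs_of_pos b2] at b3
      have b4 := (h4 X.k X.b x p6.le p2 p3 (by linarith) b1.le).2
      have b5 : c * x 2 ≤ u x := by
        refine le_of_mul_le_mul_left ?_ b2
        have := a3 hx.le (by linarith)
        linarith
      have b6 : 5 / 4 * K * gfun X.k X.b x ≤ c / 2 := by
        calc 5 / 4 * K * gfun X.k X.b x ≤ 5 / 4 * K * M := mul_le_mul_of_nonneg_left b4 (by positivity)
          _ = c / 2 := by rw [hK]; field_simp; ring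
      have b7 := mul_le_mul_of_nonneg_right b6 b2.le
      have b8 := mul_le_mul_of_nonneg_right e1 b2.le
      linarith
  have r2 := h1 _ (-1) X.k X.b K _ _ _ _ (le_max_left L1 L2) (by simp) p1 p2 p3 hK'.le H.hd.neg (a4s6_odd H)
    ((par_V0 F H).2.2.mono (far_mono hL')) H.mS.neg.neg.aestronglyMeasurable (a4s6_eq H hL').2
    ((par_crit F H).mono hL') hs
  have r3 : ∀ᵐ x, max L1 L2 < ‖x‖ → 0 < x 2 → 3 / 4 * K * x 2 ^ 2 * gfun X.k X.b x ≤ x 2 * X.d x := by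
    filter_upwards [r2] with x a1 b1 b2
    have := mul_le_mul_of_nonneg_left (a1 b1 b2) b2.le
    linarith
  refine ⟨max L1 L2, 3 / 4 * K, by positivity, ?_⟩
  filter_upwards [r3, ae_refl r3, H.oddd, ae_coord_ne 2 0] with x a1 a2 a3 a4 hx
  rcases lt_or_gt_of_ne a4 with b | b
  · rw [norm_refl, refl_2, gfun_refl, a3] at a2
    have := a2 hx (neg_pos.2 b)
    linarith
  · exact a1 hx b

end Crest.Agent.R335
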