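import Crest.Agent.R335.A4_St5
import Crest.Agent.R335.A4_Bar9

/-!
# R335/A4_St9 (part A4, sub-lead helper14)

Step 9.  Aux prefix `a4s9_`.
-/

set_option autoImplicit false

namespace Crest.Agent.R335

open MeasureTheory Set Filter Topology
open scoped Gradient RealInnerProductSpace ENNReal ContDiff
open Crest.MathPhysics.ThreeBody

variable {D eu γ a C η : ℝ} {u : E3 → ℝ} {X : Dt}

theorem a4s9_src {μ c0 C' K4 K5 r z g d q σ : ℝ} (hμ : 0 < μ) (hK4 : 0 < K4) (hK5 : 0 < K5) (hr : 0 < r) (hg : 0 ≤ g)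
    (hq : 0 ≤ q) (h1 : c0 * z ^ 2 * g ≤ z * d) (h2 : |d| ≤ K4 * |z| * g) (h3 : q ≤ K5 * (1 + |z|) / r ^ 2 * g)
    (h4 : |σ - μ * z / r ^ 3 * d| ≤ C' * ((1 + |z|) / r ^ 4 * |d| + q / r ^ 2)) :
    -σ ≤ -((μ * c0 * z ^ 2 - 2 * |C'| * (K4 + K5) * (1 + z ^ 2) / r) * (g / r ^ 3)) := by
  have z0 := abs_nonneg z
  have z1 : |z| ^ 2 = z ^ 2 := sq_abs z
  have a1 : (1 + |z|) * |z| ≤ 2 * (1 + z ^ 2) := by nlinarith [sq_nonneg (|z| - 1)]
  have a2 : 1 + |z| ≤ 2 * (1 + z ^ 2) := by nlinarith [sq_nonneg (|z| - 1)]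
  have b1 : (1 + |z|) / r ^ 4 * |d| ≤ 2 * K4 * (1 + z ^ 2) / r * (g / r ^ 3) := by
    calc (1 + |z|) / r ^ 4 * |d| ≤ (1 + |z|) / r ^ 4 * (K4 * |z| * g) := by gcongr
      _ = K4 * ((1 + |z|) * |z|) / r * (g / r ^ 3) := by field_simp
      _ ≤ K4 * (2 * (1 + z ^ 2)) / r * (g / r ^ 3) := by gcongr
      _ = _ := by ring
  have b2 : q / r ^ 2 ≤ 2 * K5 * (1 + z ^ 2) / r * (g / r ^ 3) := by
    calc q / r ^ 2 ≤ K5 * (1 + |z|) / r ^ 2 * g / r ^ 2 := by gcongr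
      _ = K5 * (1 + |z|) / r * (g / r ^ 3) := by field_simp
      _ ≤ K5 * (2 * (1 + z ^ 2)) / r * (g / r ^ 3) := by gcongr
      _ = _ := by ring
  have b3 : C' * ((1 + |z|) / r ^ 4 * |d| + q / r ^ 2) ≤
      |C'| * (2 * K4 * (1 + z ^ 2) / r * (g / r ^ 3) + 2 * K5 * (1 + z ^ 2) / r * (g / r ^ 3)) := by
    refine (mul_le_mul_of_nonneg_right (le_abs_self C') (by positivity)).trans ?_
    gcongr
  have b4 : μ * c0 * z ^ 2 * (g / r ^ 3) ≤ μ * z / r ^ 3 * d := by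
    calc μ * c0 * z ^ 2 * (g / r ^ 3) = μ / r ^ 3 * (c0 * z ^ 2 * g) := by ring
      _ ≤ μ / r ^ 3 * (z * d) := by gcongr
      _ = _ := by ring
  have b5 := (abs_le.1 (h4.trans b3)).1
  have e : (μ * c0 * z ^ 2 - 2 * |C'| * (K4 + K5) * (1 + z ^ 2) / r) * (g / r ^ 3) = μ * c0 * z ^ 2 * (g / r ^ 3) -
      |C'| * (2 * K4 * (1 + z ^ 2) / r * (g / r ^ 3) + 2 * K5 * (1 + z ^ 2) / r * (g / r ^ 3)) := by ring
  rw [e]
  linarith

theorem a4s9_bd {μ C' M r z d q σ : ℝ} (hμ : 0 < μ) (hr : 1 ≤ r) (hz : |z| ≤ r) (hq : 0 ≤ q) (h2 : |d| ≤ M) (h3 : q ≤ M)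
    (h4 : |σ - μ * z / r ^ 3 * d| ≤ C' * ((1 + |z|) / r ^ 4 * |d| + q / r ^ 2)) : |-σ| ≤ μ * M + |C'| * (3 * M) := by
  have z0 := abs_nonneg z
  have M0 : 0 ≤ M := hq.trans h3
  have r3 : r ≤ r ^ 3 := le_self_pow₀ hr (by norm_num)
  have r4 : r ≤ r ^ 4 := le_self_pow₀ hr (by norm_num)
  have r2 : 1 ≤ r ^ 2 := one_le_pow₀ hr
  have a1 : (1 + |z|) / r ^ 4 ≤ 2 := by
    rw [div_le_iff₀ (by positivity)]
    linarith
  have a2 : q / r ^ 2 ≤ M := (div_le_self hq r2).trans h3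
  have a3 : |μ * z / r ^ 3 * d| ≤ μ * M := by
    rw [abs_mul, abs_div, abs_mul, abs_of_pos hμ, abs_of_pos (by positivity : 0 < r ^ 3)]
    have : μ * |z| / r ^ 3 ≤ μ := by
      rw [div_le_iff₀ (by positivity)]
      gcongr
      linarith
    gcongr
  have a4 : C' * ((1 + |z|) / r ^ 4 * |d| + q / r ^ 2) ≤ |C'| * (2 * M + M) := by
    refine (mul_le_mul_of_nonneg_right (le_abs_self C') (by positivity)).trans ?_
    gcongr
  have a5 := abs_le.1 (h4.trans a4)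
  have a6 := abs_le.1 a3
  rw [abs_le]
  constructor <;> linarith [a5.1, a5.2, a6.1, a6.2]

/-- `cmp_low` for `w = -dS`, `f = -σ`, `β = b - 3`, `m = γS`, `c₁ = μ c` (`eqS`, `par_VS`, `σa`, `step4`, `step5`); `σ` is locally bounded
because `|d|, q ≤ R ≤ CR`; `-dS ≤ R ≤ CR`; at the end `dS ≤ R`. -/
theorem step9 (F : Frame D eu γ a C η) (H : X.Ok D eu γ a C η u) {L0 c0 : ℝ} (hc : 0 < c0)
    (h6 : ∀ᵐ x, L0 < ‖x‖ → c0 * x 2 ^ 2 * gfun X.k X.b x ≤ x 2 * X.d x) :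
    ∃ L c : ℝ, 0 < c ∧ ∀ᵐ x, L < ‖x‖ → c / ‖x‖ ^ 3 * gfun X.k X.b x ≤ X.R x := by
  obtain ⟨CR, hCR, hR⟩ := R_bdd D eu γ a C
  obtain ⟨L4, K4, hK4, h4⟩ := step4 F H
  obtain ⟨L5, K5, hK5, h5⟩ := step5 F H
  obtain ⟨L, hL1, hL0, hL4, hL5⟩ : ∃ L : ℝ, D + 2 ≤ L ∧ L0 ≤ L ∧ L4 ≤ L ∧ L5 ≤ L := by
    refine ⟨max (D + 2) (max L0 (max L4 L5)), ?_⟩
    simp only [le_max_iff, le_refl, true_or, or_true, and_self]
  have hD := F.hD
  have hsub : far L ⊆ far (D + 1) := far_mono (by linarith)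
  have hf : LB (far L) fun x => -X.σ x := by
    refine LB.of_le H.mσ.neg.aestronglyMeasurable (continuousOn_const (c := X.μ * CR + |X.C'| * (3 * CR))) ?_
    filter_upwards [hR η u X F H, par_le H, H.σa] with x a1 a2 a3 hx
    have hx' : L < ‖x‖ := hx
    have b1 := a1 (by linarith)
    exact a4s9_bd H.μpos (by linarith) (by simpa using PiLp.norm_apply_le x 2) (H.kq.nn x) (a2.1.trans b1)
      (a2.2.1.trans b1) (a3 (by linarith))
  have main := cmp_low (k := X.k) (m := X.γS) (c₁ := X.μ * c0) (L0 := L) (par_k F H).2.2.2.2.2.1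
    (F.hγ.trans_le H.gapS) (mul_pos H.μpos hc) (by linarith) (β := X.b - (3 : ℕ)) (C0 := 4 + 2 * D * (D + 1))
    (C1 := 2 * |X.C'| * (K4 + K5)) (M := CR) H.hS.neg ((par_VS F H).1.mono hsub) hf (H.eqS.neg.mono hsub).subS
    (fun x hx => (par_VS F H).2 x (by linarith)) ?_ ?_
  · obtain ⟨L', c, hL', hc', key⟩ := main
    refine ⟨L', c, hc', ?_⟩
    filter_upwards [key, H.dSle] with x a1 a2 hx
    have b1 := a1 hx
    rw [gfun_sub_nat _ _ _ (far_ne_zero (by linarith) hx)] at b1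
    have e : c / ‖x‖ ^ 3 * gfun X.k X.b x = c * (gfun X.k X.b x / ‖x‖ ^ 3) := by ring
    rw [e]
    linarith [le_abs_self (X.dS x)]
  · filter_upwards [h6, h4, h5, H.σa] with x a1 a2 a3 a4 hx
    rw [gfun_sub_nat _ _ _ (far_ne_zero (by linarith) hx)]
    exact a4s9_src H.μpos hK4 hK5 (by linarith) (gfun_nonneg _ _ _) (H.kq.nn x) (a1 (by linarith)) (a2 (by linarith))
      (a3 (by linarith)) (a4 (by linarith))
  · filter_upwards [hR η u X F H, H.dSle] with x a1 a2 hx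
    linarith [neg_abs_le (X.dS x), a1 (by linarith)]

end Crest.Agent.R335
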