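import Crest.Agent.R335.S5

/-!
# R335/S11: splittings, slices, tensor products
-/

set_option autoImplicit false
set_option linter.unusedSectionVars false

namespace Crest.Agent.R335

open MeasureTheory Set Filter Topology
open scoped Gradient RealInnerProductSpace ENNReal ContDiff
open Crest.MathPhysics.ThreeBody

variable {A B E : Type} [NormedAddCommGroup A] [InnerProductSpace ℝ A] [FiniteDimensional ℝ A]
  [MeasurableSpace A] [BorelSpace A] [NormedAddCommGroup B] [InnerProductSpace ℝ B] [FiniteDimensional ℝ B]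
  [MeasurableSpace B] [BorelSpace B] [NormedAddCommGroup E] [InnerProductSpace ℝ E] [FiniteDimensional ℝ E]
  [MeasurableSpace E] [BorelSpace E] (s : Spl A B E)


/-- the same splitting with the factors exchanged -/
def Spl.swap : Spl B A E where
  i1 := s.i2
  i2 := s.i1
  p1 := s.p2
  p2 := s.p1
  p1_i1 := s.p2_i2
  p1_i2 := s.p2_i1
  p2_i1 := s.p1_i2
  p2_i2 := s.p1_i1
  sum x := by rw [add_comm]; exact s.sum x
  inn x y := by rw [add_comm]; exact s.inn x y

theorem Spl.p1_j (a : A) (b : B) : s.p1 (s.j a b) = a := by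
  simp [Spl.j, s.p1_i1, s.p1_i2]

theorem Spl.p2_j (a : A) (b : B) : s.p2 (s.j a b) = b := by
  simp [Spl.j, s.p2_i1, s.p2_i2]

theorem Spl.j_p (x : E) : s.j (s.p1 x) (s.p2 x) = x := by
  exact s.sum x

theorem Spl.swap_j (a : A) (b : B) : s.swap.j b a = s.j a b := by
  exact add_comm _ _

theorem Spl.norm_sq (x : E) : ‖x‖ ^ 2 = ‖s.p1 x‖ ^ 2 + ‖s.p2 x‖ ^ 2 := by
  simp only [← real_inner_self_eq_norm_sq]
  exact s.inn x x

theorem Spl.continuous_j : Continuous fun p : A × B => s.j p.1 p.2 := by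
  unfold Spl.j
  fun_prop

/-- the splitting as a linear isometry -/
noncomputable def s11a_iso : WithLp 2 (A × B) ≃ₗᵢ[ℝ] E :=
  LinearEquiv.isometryOfInner
    { toFun := fun p => s.j p.ofLp.1 p.ofLp.2
      invFun := fun x => WithLp.toLp 2 (s.p1 x, s.p2 x)
      map_add' := fun p q => by simp [Spl.j]; abel
      map_smul' := fun c p => by simp [Spl.j]
      left_inv := fun p => by simp only [s.p1_j, s.p2_j]
      right_inv := fun x => s.j_p x }
    fun p q => by
      rw [s.inn, WithLp.prod_inner_apply]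
      simp [s.p1_j, s.p2_j]

/-- the splitting as a homeomorphism -/
noncomputable def s11a_homeo : A × B ≃ₜ E where
  toFun p := s.j p.1 p.2
  invFun x := (s.p1 x, s.p2 x)
  left_inv p := by simp [s.p1_j, s.p2_j]
  right_inv x := s.j_p x
  continuous_toFun := s.continuous_j
  continuous_invFun := by fun_prop

theorem s11a_emb : MeasurableEmbedding fun p : A × B => s.j p.1 p.2 :=
  (s11a_homeo s).measurableEmbedding

/-- `WithLp 2 (A × B) ≃ₗᵢ E`, `LinearIsometryEquiv.measurePreserving`, `WithLp.volume_preserving_toLp` -/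
theorem Spl.mp : MeasurePreserving (fun p : A × B => s.j p.1 p.2) (volume.prod volume) volume := by
  exact (s11a_iso s).measurePreserving.comp (WithLp.volume_preserving_toLp A B)

theorem Spl.integral_eq {f : E → ℝ} (hf : Integrable f) : ∫ x, f x = ∫ a, ∫ b, f (s.j a b) := by
  have h := (s.mp.integrable_comp hf.aestronglyMeasurable).2 hf
  have e := integral_prod _ h
  rw [← s.mp.map_eq, integral_map s.mp.measurable.aemeasurable (by rw [s.mp.map_eq]; exact hf.aestronglyMeasurable)]
  exact e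

theorem Spl.lintegral_eq {f : E → ℝ≥0∞} (hf : AEMeasurable f) : ∫⁻ x, f x = ∫⁻ a, ∫⁻ b, f (s.j a b) := by
  have h := hf.comp_quasiMeasurePreserving s.mp.quasiMeasurePreserving
  have e := lintegral_prod _ h
  rw [← s.mp.lintegral_comp_emb (s11a_emb s) f]
  exact e

theorem Spl.integrable_fibre {f : E → ℝ} (hf : Integrable f) :
    (∀ᵐ a, Integrable fun b => f (s.j a b)) ∧ Integrable fun a => ∫ b, f (s.j a b) := by
  have h := (s.mp.integrable_comp hf.aestronglyMeasurable).2 hf
  exact ⟨h.prod_right_ae, h.integral_prod_left⟩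

theorem Spl.ae_ae {p : E → Prop} (h : ∀ᵐ x, p x) : ∀ᵐ a, ∀ᵐ b, p (s.j a b) := by
  exact Measure.ae_ae_of_ae_prod (s.mp.quasiMeasurePreserving.ae h)

theorem Spl.ae_p1 {p : A → Prop} (h : ∀ᵐ a, p a) : ∀ᵐ x, p (s.p1 x) := by
  rw [← s.mp.map_eq, (s11a_emb s).ae_map_iff]
  simp only [s.p1_j]
  exact Measure.quasiMeasurePreserving_fst.ae h

theorem Spl.ae_p2 {p : B → Prop} (h : ∀ᵐ b, p b) : ∀ᵐ x, p (s.p2 x) := by
  rw [← s.mp.map_eq, (s11a_emb s).ae_map_iff]
  simp only [s.p2_j]
  exact Measure.quasiMeasurePreserving_snd.ae h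

end Crest.Agent.R335
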