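import Crest.Agent.R335.B_a
import Crest.Agent.R335.S11a

/-!
# R335/B_b: the density of `bΨ F`, scaling
-/

set_option autoImplicit false

namespace Crest.Agent.R335

open MeasureTheory Set Filter Topology
open scoped Gradient RealInnerProductSpace ENNReal ContDiff
open Crest.MathPhysics.ThreeBody

theorem b_enorm (r : ℝ) : ‖(r : ℂ)‖ₑ ^ 2 = ENNReal.ofReal (r ^ 2) := by
  rw [← ofReal_norm, Complex.norm_real, ← ENNReal.ofReal_pow (norm_nonneg _), Real.norm_eq_abs, sq_abs]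

theorem b_dens1 {F : E9 → ℝ} (hF : ∀ X, F (sw3 X) = -F X) (A : Set E3) : densityOn (bΨ F) A =
    ∫⁻ x, (∑ i : Fin 3, A.indicator (fun _ => (1 : ℝ≥0∞)) (elPos i x)) * ENNReal.ofReal (F x ^ 2) := by
  rw [densityOn, b_sum _ (ENNReal.ofReal (1 / 3) *
    ∫⁻ x, (∑ i : Fin 3, A.indicator (fun _ => (1 : ℝ≥0∞)) (elPos i x)) * ENNReal.ofReal (F x ^ 2))]
  · rw [nsmul_eq_mul, ← mul_assoc, ← ENNReal.ofReal_natCast, ← ENNReal.ofReal_mul (by positivity)]
    norm_num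
  · intro s hs
    simp [bΨ, bR_zero F hs]
  · intro s σ hσ
    obtain ⟨T, hT⟩ := exists_perm3 σ
    rw [← T.measurePreserving.lintegral_comp_emb T.toHomeomorph.measurableEmbedding fun x =>
      (∑ i : Fin 3, A.indicator (fun _ => (1 : ℝ≥0∞)) (elPos i x)) * ENNReal.ofReal (F x ^ 2),
      ← lintegral_const_mul' _ _ ENNReal.ofReal_ne_top]
    refine lintegral_congr fun x => ?_
    rw [bΨ, b_enorm, bR_orb hF hσ, mul_pow, b_sq, ENNReal.ofReal_mul (by norm_num), hT, mul_left_comm]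
    simp only [b_elPos_perm]
    rw [Equiv.sum_comp σ fun i => A.indicator (fun _ => (1 : ℝ≥0∞)) (elPos i x)]

theorem b_slot_meas (s : Spl E3 E6 E9) {F : E9 → ℝ} (hF : MemLp F 2 volume) {A : Set E3} (hA : MeasurableSet A) :
    AEMeasurable (fun x => A.indicator (fun _ => (1 : ℝ≥0∞)) (s.p1 x) * ENNReal.ofReal (F x ^ 2)) volume :=
  ((measurable_const.indicator hA).comp s.p1.continuous.measurable).aemeasurable.mul
    (hF.1.aemeasurable.pow_const 2).ennreal_ofReal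

theorem b_slot (s : Spl E3 E6 E9) {F : E9 → ℝ} (hF : MemLp F 2 volume) {A : Set E3} (hA : MeasurableSet A) :
    ∫⁻ x, A.indicator (fun _ => (1 : ℝ≥0∞)) (s.p1 x) * ENNReal.ofReal (F x ^ 2) =
      ∫⁻ a in A, ENNReal.ofReal (∫ y, F (s.j a y) ^ 2) := by
  rw [s.lintegral_eq (b_slot_meas s hF hA), ← lintegral_indicator hA]
  refine lintegral_congr_ae ?_
  filter_upwards [(s.integrable_fibre hF.integrable_sq).1] with a ha
  simp only [s.p1_j]
  by_cases h : a ∈ A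
  · simp only [indicator_of_mem h, one_mul]
    rw [ofReal_integral_eq_lintegral_ofReal ha (Eventually.of_forall fun y => sq_nonneg _)]
  · simp [indicator_of_notMem h]

theorem b_dens {F : E9 → ℝ} (hm : MemLp F 2 volume) (hF : ∀ X, F (sw3 X) = -F X) {A : Set E3}
    (hA : MeasurableSet A) : densityOn (bΨ F) A = ∫⁻ x in A, ENNReal.ofReal (Rof F x ^ 2) := by
  obtain ⟨s0, p0, -, j0, -, -⟩ := exists_spl3 0
  obtain ⟨s1, p1, -, -, j1, -⟩ := exists_spl3 1
  obtain ⟨s2, p2, -, -, -, j2⟩ := exists_spl3 2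
  have m0 := b_slot_meas s0 hm hA
  have m1 := b_slot_meas s1 hm hA
  have e0 := b_slot s0 hm hA
  have e1 := b_slot s1 hm hA
  have e2 := b_slot s2 hm hA
  have i0 := (s0.integrable_fibre hm.integrable_sq).2
  have hsw : ∀ a y, F (mk3 (pos2 0 y) a (pos2 1 y)) ^ 2 = F (at0 a y) ^ 2 := fun a y => by
    rw [← neg_sq (F (at0 a y)), ← hF]
    rfl
  simp only [p0, p1, p2, j0 rfl, j1 rfl, j2 rfl, hsw] at m0 m1 e0 e1 e2 i0
  rw [b_dens1 hF]
  simp only [Fin.sum_univ_three, add_mul]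
  have m2 : AEMeasurable (fun a => ENNReal.ofReal (∫ y, F (at0 a y) ^ 2)) (volume.restrict A) :=
    i0.1.aemeasurable.ennreal_ofReal.restrict
  rw [lintegral_add_left' (m0.fun_add m1), lintegral_add_left' m0, e0, e1, e2, ← lintegral_add_left' m2,
    ← lintegral_add_left' (m2.fun_add m2)]
  refine lintegral_congr fun a => ?_
  have h0 : 0 ≤ ∫ y, F (at0 a y) ^ 2 := integral_nonneg fun y => sq_nonneg _
  have h2 : 0 ≤ ∫ y, F (at2 a y) ^ 2 := integral_nonneg fun y => sq_nonneg _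
  rw [Rof, Real.sq_sqrt (by positivity), ← ENNReal.ofReal_add h0 h0, ← ENNReal.ofReal_add (by positivity) h2, two_mul]

theorem b_int9 {c : ℝ} (hc : 0 < c) (f : E9 → ℝ) : ∫ x, f (c • x) = (c ^ 9)⁻¹ * ∫ x, f x := by
  rw [Measure.integral_comp_smul volume f c, smul_eq_mul, abs_of_nonneg (by positivity)]
  simp

theorem b_int6 {c : ℝ} (hc : 0 < c) (f : E6 → ℝ) : ∫ x, f (c • x) = (c ^ 6)⁻¹ * ∫ x, f x := by
  rw [Measure.integral_comp_smul volume f c, smul_eq_mul, abs_of_nonneg (by positivity)]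
  simp

theorem b_nsq_scale {c : ℝ} (hc : 0 < c) (a : ℝ) (f : E9 → ℝ) :
    nsq (fun x => a * f (c • x)) = a ^ 2 * (c ^ 9)⁻¹ * nsq f := by
  simp only [nsq, mul_pow]
  rw [integral_const_mul, b_int9 hc fun x => f x ^ 2, mul_assoc]

theorem b_qf_scale {c : ℝ} (hc : 0 < c) {W V : E9 → ℝ} (h : ∀ X, W X = c ^ 2 * V (c • X)) (a : ℝ) (f : E9 → ℝ)
    (G : E9 → E9) : qf W (fun x => a * f (c • x)) (fun x => a • c • G (c • x)) =
      a ^ 2 * c ^ 2 * (c ^ 9)⁻¹ * qf V f G := by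
  simp only [qf, mul_pow, norm_smul, Real.norm_eq_abs, sq_abs]
  have h' : ∀ x, W x * (a ^ 2 * f (c • x) ^ 2) = a ^ 2 * c ^ 2 * (V (c • x) * f (c • x) ^ 2) := fun x => by
    rw [h]
    ring
  simp only [h']
  rw [integral_const_mul, integral_const_mul, integral_const_mul, b_int9 hc fun x => ‖G x‖ ^ 2,
    b_int9 hc fun x => V x * f x ^ 2]
  ring

theorem b_sw3_smul (c : ℝ) (X : E9) : sw3 (c • X) = c • sw3 X := geoc_ext3 rfl rfl rfl

theorem b_Rof_scale {c : ℝ} (hc : 0 < c) (F : E9 → ℝ) (x : E3) :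
    Rof (fun X => √(c ^ 9) * F (c • X)) x ^ 2 = c ^ 3 * Rof F (c • x) ^ 2 := by
  have e0 : ∀ y, c • at0 x y = at0 (c • x) (c • y) := fun y => geoc_ext3 rfl rfl rfl
  have e2 : ∀ y, c • at2 x y = at2 (c • x) (c • y) := fun y => geoc_ext3 rfl rfl rfl
  have n0 : ∀ (F : E9 → ℝ) (x : E3), 0 ≤ 2 * (∫ y, F (at0 x y) ^ 2) + ∫ y, F (at2 x y) ^ 2 := fun F x =>
    add_nonneg (mul_nonneg zero_le_two (integral_nonneg fun _ => sq_nonneg _)) (integral_nonneg fun _ => sq_nonneg _)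
  rw [Rof, Rof, Real.sq_sqrt (n0 (fun X => √(c ^ 9) * F (c • X)) x), Real.sq_sqrt (n0 F _)]
  simp only [mul_pow, e0, e2, Real.sq_sqrt (pow_pos hc 9).le]
  rw [integral_const_mul, integral_const_mul, b_int6 hc fun y => F (at0 (c • x) y) ^ 2,
    b_int6 hc fun y => F (at2 (c • x) y) ^ 2]
  field_simp

theorem b_pair (r : Fin 3 → Fin 3 → ℝ) (hr : ∀ i j, r i j = r j i) (σ : Equiv.Perm (Fin 3)) :
    r (σ 0) (σ 1) + r (σ 0) (σ 2) + r (σ 1) (σ 2) = r 0 1 + r 0 2 + r 1 2 := by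
  have h1 : ∑ i, ∑ j, r (σ i) (σ j) = ∑ i, ∑ j, r i j := by
    rw [← Equiv.sum_comp σ fun i => ∑ j, r i j]
    exact Finset.sum_congr rfl fun i _ => Equiv.sum_comp σ fun j => r (σ i) j
  have h2 : ∑ i, r (σ i) (σ i) = ∑ i, r i i := Equiv.sum_comp σ fun i => r i i
  simp only [Fin.sum_univ_three] at h1 h2
  linarith [hr 0 1, hr 0 2, hr 1 2, hr (σ 0) (σ 1), hr (σ 0) (σ 2), hr (σ 1) (σ 2)]

theorem b_V3_perm (D Z : ℝ) (σ : Equiv.Perm (Fin 3)) (X : E9) : V3 D Z (permConfig σ X) = V3 D Z X := by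
  have h1 := b_pair (fun i j => 1 / ‖elPos i X - elPos j X‖) (fun i j => by rw [norm_sub_rev]) σ
  have h2 := Equiv.sum_comp σ fun i => V1 D (elPos i X)
  simp only [Fin.sum_univ_three] at h2
  simp only [V3, b_elPos_perm]
  rw [h1, h2]

theorem b_coulomb (D : ℝ) {Z : ℕ} (hZ : 0 < Z) (X : E9) :
    coulombPotential Z (EuclideanSpace.single 2 D) (EuclideanSpace.single 2 (-D)) X = Z * V3 D Z X := by
  have hZ' : (Z : ℝ) ≠ 0 := by positivity
  have h01 : (0 : Fin 3) < 1 := by decide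
  have h02 : (0 : Fin 3) < 2 := by decide
  have h12 : (1 : Fin 3) < 2 := by decide
  simp only [coulombPotential, V3, V1, Fin.sum_univ_three, lt_irrefl, if_false, h01, h02, h12, if_true,
    h01.not_gt, h02.not_gt, h12.not_gt]
  rw [mul_add, mul_inv_cancel_left₀ hZ']
  ring

theorem b_V1_scale (D : ℝ) {Z : ℝ} (hZ : 0 < Z) (x : E3) : V1 (D / Z) x = Z * V1 D (Z • x) := by
  have h : ∀ t : ℝ, ‖Z • x - EuclideanSpace.single 2 t‖ = Z * ‖x - EuclideanSpace.single 2 (t / Z)‖ := fun t => by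
    have : (EuclideanSpace.single 2 t : E3) = Z • EuclideanSpace.single 2 (t / Z) := by
      ext i
      by_cases hi : i = 2
      · subst hi
        simp [mul_div_cancel₀ _ hZ.ne']
      · simp [hi]
    rw [this, ← smul_sub, norm_smul, Real.norm_of_nonneg hZ.le]
  simp only [V1, h, neg_div, one_div, mul_inv]
  rw [mul_sub, mul_neg, mul_inv_cancel_left₀ hZ.ne', mul_inv_cancel_left₀ hZ.ne']

theorem b_V3_scale (D : ℝ) {Z : ℝ} (hZ : 0 < Z) (X : E9) : Z * V3 (D / Z) Z X = Z ^ 2 * V3 D Z (Z • X) := by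
  simp only [V3, b_V1_scale D hZ, geoc_elPos_smul, ← smul_sub, norm_smul, Real.norm_of_nonneg hZ.le, one_div, mul_inv]
  have := hZ.ne'
  generalize ‖elPos 0 X - elPos 1 X‖⁻¹ = a
  generalize ‖elPos 0 X - elPos 2 X‖⁻¹ = b
  generalize ‖elPos 1 X - elPos 2 X‖⁻¹ = c
  field_simp

end Crest.Agent.R335
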