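import Crest.Agent.R335.Lib
import Crest.Agent.R335.B_b

/-!
# R335/B: from the real minimiser to a ground state of the statement (SUB-LEAD part, together with `C`)

Put `F_Z X = Z^(9/2) F (Z • X)`; it minimises the unscaled form (`H1.comp_smul`; energy `Z²` times).  Define `Ψ s` = `0` if all spins are equal, and
otherwise, with `m` the unique minority index of `s`: `Ψ s = 0` unless the minority spin is `1` (two `0`, one `1`), in which case
`Ψ s X = ± F_Z (x_i, x_j, x_m)/√3`, `i < j` the other two indices, sign = sign of the permutation `(i, j, m)`.  `IsFermionic` is a finite check with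
`Min3.anti` (pointwise).  Energy: `kinetic_of_h1`, invariance of the potential under permutations (`exists_perm3`).  Minimality: for an admissible
`Φ` every component `Φ s` has two indices with the same spin, so after a permutation its real and imaginary parts are `H¹` (`h1_of_kinetic`) and
antisymmetric in `0, 1`; apply `Min3.min` to the 16 functions and sum.  Density: `Spl.lintegral_eq` for the three slots.
-/

set_option autoImplicit false

namespace Crest.Agent.R335

open MeasureTheory Set Filter Topology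
open scoped Gradient RealInnerProductSpace ENNReal ContDiff
open Crest.MathPhysics.ThreeBody

theorem bridge {D : ℝ} {Z : ℕ} (hZ : 0 < Z) {F : E9 → ℝ} {G : E9 → E9} (h : Min3 D Z F G) :
    ∃ Ψ : Wave3, IsGroundState (coulombPotential Z (EuclideanSpace.single 2 (D / Z))
        (EuclideanSpace.single 2 (-(D / Z)))) Ψ ∧
      ∀ A : Set E3, MeasurableSet A →
        densityOn Ψ A = ∫⁻ x in A, ENNReal.ofReal ((Z : ℝ) ^ 3 * Rof F ((Z : ℝ) • x) ^ 2) := by
  have hZ' : (0 : ℝ) < Z := by exact_mod_cast hZ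
  obtain ⟨W, hWdef⟩ : ∃ W, W = coulombPotential Z (EuclideanSpace.single 2 (D / Z))
    (EuclideanSpace.single 2 (-(D / Z))) := ⟨_, rfl⟩
  have hW1 : ∀ X, W X = Z * V3 (D / Z) Z X := fun X => hWdef ▸ b_coulomb _ hZ X
  have hW2 : ∀ X, W X = (Z : ℝ) ^ 2 * V3 D Z ((Z : ℝ) • X) := fun X => by rw [hW1, b_V3_scale D hZ']
  have hW3 : ∀ X, V3 D Z X = (Z : ℝ)⁻¹ ^ 2 * W ((Z : ℝ)⁻¹ • X) := fun X => by
    rw [hW2, smul_inv_smul₀ hZ'.ne']
    field_simp
  have hFB : FB W := by
    rw [show W = fun X => Z * V3 (D / Z) Z X from funext hW1]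
    exact (fb_V3 _ _).const_mul _
  have hsq : √((Z : ℝ) ^ 9) ^ 2 = (Z : ℝ) ^ 9 := Real.sq_sqrt (by positivity)
  have h1 := (h.h1.comp_smul hZ'.ne').const_mul √((Z : ℝ) ^ 9)
  have ha : ∀ X, √((Z : ℝ) ^ 9) * F ((Z : ℝ) • sw3 X) = -(√((Z : ℝ) ^ 9) * F ((Z : ℝ) • X)) := fun X => by
    rw [← b_sw3_smul, h.anti, mul_neg]
  rw [← hWdef]
  refine ⟨bΨ fun X => √((Z : ℝ) ^ 9) * F ((Z : ℝ) • X), b_ground hFB (fun σ X => by rw [hW1, hW1, b_V3_perm])
    h1 ha ?_ fun F' G' hF' ha' => ?_, fun A hA => ?_⟩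
  · rw [b_nsq_scale hZ', h.nrm, hsq]
    field_simp
  · have hi : (0 : ℝ) < (Z : ℝ)⁻¹ := inv_pos.2 hZ'
    have h2 := h.min _ _ ((hF'.comp_smul hi.ne').const_mul 1) (by
      filter_upwards [(Measure.quasiMeasurePreserving_smul volume hi.ne').ae ha'] with X hX
      rw [← b_sw3_smul, hX, mul_neg])
    rw [b_nsq_scale hi, b_qf_scale hi hW3] at h2
    rw [b_qf_scale hZ' hW2, hsq]
    have h3 := mul_le_mul_of_nonneg_left h2 (show (0 : ℝ) ≤ (Z : ℝ) ^ 2 * ((Z : ℝ) ^ 9)⁻¹ by positivity)
    refine le_of_eq_of_le ?_ (h3.trans_eq ?_)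
    · field_simp
    · field_simp
  · rw [b_dens h1.mf ha hA]
    simp only [b_Rof_scale hZ']

end Crest.Agent.R335
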