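import Crest.Agent.R335.S10
import Crest.Agent.R335.S15

/-!
# R335/B_a: the spin `↑↑↓` state built from a real function; energies of spinful states
-/

set_option autoImplicit false

namespace Crest.Agent.R335

open MeasureTheory Set Filter Topology
open scoped Gradient RealInnerProductSpace ENNReal ContDiff
open Crest.MathPhysics.ThreeBody

theorem b_perm_mul (σ τ : Equiv.Perm (Fin 3)) (X : E9) : permConfig σ (permConfig τ X) = permConfig (τ * σ) X := rfl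

theorem b_perm_one (X : E9) : permConfig 1 X = X := rfl

theorem b_elPos_perm (σ : Equiv.Perm (Fin 3)) (X : E9) (i : Fin 3) : elPos i (permConfig σ X) = elPos (σ i) X := rfl

theorem b_perm_swap (X : E9) : permConfig (Equiv.swap 0 1) X = sw3 X := geoc_ext3 rfl rfl rfl

theorem b_sign_sq (σ : Equiv.Perm (Fin 3)) : (((Equiv.Perm.sign σ : ℤ) : ℝ)) ^ 2 = 1 := by
  rcases Int.units_eq_one_or (Equiv.Perm.sign σ) with h | h <;> simp [h]

/-- the spin configuration `↑↑↓` -/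
def bS : Spin3 := ![0, 0, 1]

/-- real amplitudes of the fermionic state with spatial part `F` -/
noncomputable def bR (F : E9 → ℝ) (s : Spin3) (X : E9) : ℝ :=
  (2 * √3)⁻¹ * ∑ σ : Equiv.Perm (Fin 3),
    if (fun i => s (σ i)) = bS then ((Equiv.Perm.sign σ : ℤ) : ℝ) * F (permConfig σ X) else 0

/-- the fermionic state with spatial part `F` -/
noncomputable def bΨ (F : E9 → ℝ) : Wave3 := fun s X => (bR F s X : ℂ)

theorem bR_perm (F : E9 → ℝ) (τ : Equiv.Perm (Fin 3)) (s : Spin3) (X : E9) :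
    bR F (fun i => s (τ i)) (permConfig τ X) = ((Equiv.Perm.sign τ : ℤ) : ℝ) * bR F s X := by
  rw [bR, bR, mul_left_comm, Finset.mul_sum (a := ((Equiv.Perm.sign τ : ℤ) : ℝ))]
  congr 1
  refine Fintype.sum_equiv (Equiv.mulLeft τ) _ _ fun σ => ?_
  show (if (fun i => s (τ (σ i))) = bS then _ * F (permConfig (τ * σ) X) else 0) =
    _ * if (fun i => s (τ (σ i))) = bS then ((Equiv.Perm.sign (τ * σ) : ℤ) : ℝ) * F (permConfig (τ * σ) X) else 0
  split_ifs
  · have h := b_sign_sq τ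
    rw [Equiv.Perm.sign_mul, Units.val_mul, Int.cast_mul]
    linear_combination (-(((Equiv.Perm.sign σ : ℤ) : ℝ)) * F (permConfig (τ * σ) X)) * h
  · rw [mul_zero]

theorem bR_base {F : E9 → ℝ} (hF : ∀ X, F (sw3 X) = -F X) (X : E9) : bR F bS X = (√3)⁻¹ * F X := by
  have h : ∀ σ : Equiv.Perm (Fin 3), (fun i => bS (σ i)) = bS ↔ σ ∈ ({1, Equiv.swap 0 1} : Finset _) := by decide
  rw [bR]
  simp only [h]
  rw [Finset.sum_ite_mem, Finset.univ_inter, Finset.sum_pair (by decide), b_perm_one, b_perm_swap, hF,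
    Equiv.Perm.sign_swap (by decide), Equiv.Perm.sign_one]
  have : √3 ≠ 0 := by positivity
  simp only [Units.val_one, Int.cast_one, Units.val_neg, Int.cast_neg]
  field_simp
  ring

theorem bR_zero (F : E9 → ℝ) {s : Spin3} (hs : ∀ σ : Equiv.Perm (Fin 3), (fun i => s (σ i)) ≠ bS) (X : E9) :
    bR F s X = 0 := by
  rw [bR, Finset.sum_eq_zero fun σ _ => if_neg (hs σ), mul_zero]

theorem bR_orb {F : E9 → ℝ} (hF : ∀ X, F (sw3 X) = -F X) {s : Spin3} {σ : Equiv.Perm (Fin 3)}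
    (hs : (fun i => s (σ i)) = bS) (X : E9) :
    bR F s X = (((Equiv.Perm.sign σ : ℤ) : ℝ) * (√3)⁻¹) * F (permConfig σ X) := by
  have h := bR_perm F σ s X
  rw [hs, bR_base hF] at h
  have h2 := b_sign_sq σ
  linear_combination (-((Equiv.Perm.sign σ : ℤ) : ℝ)) * h - bR F s X * h2

/-- a quantity which is `0` off the orbit and constant on it -/
theorem b_sum {M : Type} [AddCommMonoid M] (q : Spin3 → M) (c : M)
    (h0 : ∀ s : Spin3, (∀ σ : Equiv.Perm (Fin 3), (fun i => s (σ i)) ≠ bS) → q s = 0)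
    (h1 : ∀ (s : Spin3) (σ : Equiv.Perm (Fin 3)), (fun i => s (σ i)) = bS → q s = c) : ∑ s, q s = 3 • c := by
  have hc : (Finset.univ.filter fun s : Spin3 => ∃ σ : Equiv.Perm (Fin 3), (fun i => s (σ i)) = bS).card = 3 := by
    decide
  have hc' := Finset.sum_const (s := Finset.univ.filter fun s : Spin3 =>
    ∃ σ : Equiv.Perm (Fin 3), (fun i => s (σ i)) = bS) c
  rw [hc] at hc'
  rw [← hc', Finset.sum_filter]
  refine Finset.sum_congr rfl fun s _ => ?_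
  split_ifs with h
  · obtain ⟨σ, hσ⟩ := h
    exact h1 s σ hσ
  · exact h0 s fun σ hσ => h ⟨σ, hσ⟩

theorem b_sq (σ : Equiv.Perm (Fin 3)) : (((Equiv.Perm.sign σ : ℤ) : ℝ) * (√3)⁻¹) ^ 2 = 1 / 3 := by
  rw [mul_pow, b_sign_sq, inv_pow, Real.sq_sqrt (by norm_num)]
  norm_num

theorem b_nsq_iso (T : E9 ≃ₗᵢ[ℝ] E9) (a : ℝ) (f : E9 → ℝ) : nsq (fun x => a * f (T x)) = a ^ 2 * nsq f := by
  simp only [nsq, mul_pow]
  rw [integral_const_mul, s1_int_iso T fun x => f x ^ 2]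

theorem b_qf_iso (T : E9 ≃ₗᵢ[ℝ] E9) {W : E9 → ℝ} (hW : ∀ X, W (T X) = W X) (a : ℝ) (f : E9 → ℝ) (G : E9 → E9) :
    qf W (fun x => a * f (T x)) (fun x => a • T.symm (G (T x))) = a ^ 2 * qf W f G := by
  simp only [qf, mul_pow, norm_smul, LinearIsometryEquiv.norm_map, Real.norm_eq_abs, sq_abs]
  have h : ∀ x, W x * (a ^ 2 * f (T x) ^ 2) = a ^ 2 * (W (T x) * f (T x) ^ 2) := fun x => by
    rw [hW]
    ring
  simp only [h]
  rw [integral_const_mul, integral_const_mul, s1_int_iso T fun x => ‖G x‖ ^ 2,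
    s1_int_iso T fun x => W x * f x ^ 2]
  ring

/-- the components of `bΨ F` are in `H¹` -/
theorem bR_h1 {W F : E9 → ℝ} {G : E9 → E9} (hW : ∀ σ X, W (permConfig σ X) = W X) (h : H1 F G)
    (hF : ∀ X, F (sw3 X) = -F X) : ∃ K : Spin3 → E9 → E9, (∀ s, H1 (bR F s) (K s)) ∧
      ∑ s, nsq (bR F s) = nsq F ∧ ∑ s, qf W (bR F s) (K s) = qf W F G := by
  have key : ∀ s : Spin3, ∃ K : E9 → E9, H1 (bR F s) K ∧
      ((∀ σ : Equiv.Perm (Fin 3), (fun i => s (σ i)) ≠ bS) → nsq (bR F s) = 0 ∧ qf W (bR F s) K = 0) ∧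
      ∀ σ : Equiv.Perm (Fin 3), (fun i => s (σ i)) = bS →
        nsq (bR F s) = 1 / 3 * nsq F ∧ qf W (bR F s) K = 1 / 3 * qf W F G := by
    intro s
    by_cases hs : ∀ σ : Equiv.Perm (Fin 3), (fun i => s (σ i)) ≠ bS
    · have e : bR F s = fun _ => 0 := funext (bR_zero F hs)
      refine ⟨fun _ => 0, e ▸ H1.zero, fun _ => ?_, fun σ hσ => absurd hσ (hs σ)⟩
      simp [e, nsq, qf]
    · push Not at hs
      obtain ⟨σ, hσ⟩ := hs
      obtain ⟨T, hT⟩ := exists_perm3 σ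
      have e : bR F s = fun X => (((Equiv.Perm.sign σ : ℤ) : ℝ) * (√3)⁻¹) * F (T X) :=
        funext fun X => by rw [bR_orb hF hσ, hT]
      refine ⟨fun X => (((Equiv.Perm.sign σ : ℤ) : ℝ) * (√3)⁻¹) • T.symm (G (T X)),
        e ▸ (h.comp_iso T).const_mul _, fun h' => absurd hσ (h' σ), fun _ _ => ?_⟩
      rw [e, b_nsq_iso, b_qf_iso T (fun X => by rw [hT, hW]), b_sq]
      exact ⟨rfl, rfl⟩
  choose K h1 h2 h3 using key
  refine ⟨K, h1, ?_, ?_⟩
  · rw [b_sum _ _ (fun s hs => (h2 s hs).1) fun s σ hσ => (h3 s σ hσ).1, nsmul_eq_mul]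
    push_cast
    ring
  · rw [b_sum _ _ (fun s hs => (h2 s hs).2) fun s σ hσ => (h3 s σ hσ).2, nsmul_eq_mul]
    push_cast
    ring

theorem b_norm_sq (z : ℂ) : ‖z‖ ^ 2 = z.re ^ 2 + z.im ^ 2 := by
  rw [Complex.sq_norm, Complex.normSq_apply]
  ring

section comp

variable {W : E9 → ℝ} {Φ : Wave3} {G K : Spin3 → E9 → E9}

theorem b_normSq (h1 : ∀ s, H1 (fun x => (Φ s x).re) (G s)) (h2 : ∀ s, H1 (fun x => (Φ s x).im) (K s)) :
    normSq Φ = ENNReal.ofReal (∑ s, (nsq (fun x => (Φ s x).re) + nsq fun x => (Φ s x).im)) := by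
  rw [normSq, ENNReal.ofReal_sum_of_nonneg fun s _ => add_nonneg nsq_nonneg nsq_nonneg]
  refine Finset.sum_congr rfl fun s _ => ?_
  have hm : MemLp (Φ s) 2 volume := by
    have := s10a_memLp (h1 s).mf (h2 s).mf
    simpa only [Complex.re_add_im] using this
  rw [s10a_lint hm, nsq, nsq, ← integral_add (h1 s).int_sq (h2 s).int_sq]
  simp only [b_norm_sq]

theorem b_kinetic (h1 : ∀ s, H1 (fun x => (Φ s x).re) (G s)) (h2 : ∀ s, H1 (fun x => (Φ s x).im) (K s)) :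
    kinetic Φ = ENNReal.ofReal (∑ s, (1 / 2) * ((∫ x, ‖G s x‖ ^ 2) + ∫ x, ‖K s x‖ ^ 2)) := by
  rw [kinetic, ENNReal.ofReal_sum_of_nonneg fun s _ =>
    mul_nonneg (by norm_num) (add_nonneg (s1_kin_nonneg _) (s1_kin_nonneg _))]
  exact Finset.sum_congr rfl fun s _ => kinetic_of_h1 (h1 s) (h2 s)

theorem b_pot_int (hW : FB W) (h1 : ∀ s, H1 (fun x => (Φ s x).re) (G s))
    (h2 : ∀ s, H1 (fun x => (Φ s x).im) (K s)) (s : Spin3) : Integrable fun x => W x * ‖Φ s x‖ ^ 2 := by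
  simp only [b_norm_sq, mul_add]
  exact (hW.int _ _ (h1 s)).add (hW.int _ _ (h2 s))

theorem b_energy (hW : FB W) (h1 : ∀ s, H1 (fun x => (Φ s x).re) (G s))
    (h2 : ∀ s, H1 (fun x => (Φ s x).im) (K s)) :
    energy W Φ = ∑ s, (qf W (fun x => (Φ s x).re) (G s) + qf W (fun x => (Φ s x).im) (K s)) := by
  rw [energy, b_kinetic h1 h2, ENNReal.toReal_ofReal (Finset.sum_nonneg fun s _ =>
    mul_nonneg (by norm_num) (add_nonneg (s1_kin_nonneg _) (s1_kin_nonneg _))), potentialEnergy,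
    ← Finset.sum_add_distrib]
  refine Finset.sum_congr rfl fun s _ => ?_
  simp only [b_norm_sq, mul_add, qf]
  rw [integral_add (hW.int _ _ (h1 s)) (hW.int _ _ (h2 s))]
  ring

/-- the components of a state of finite kinetic energy -/
theorem b_comp (h : kinetic Φ < ⊤) : ∃ G K : Spin3 → E9 → E9, (∀ s, H1 (fun x => (Φ s x).re) (G s)) ∧
    ∀ s, H1 (fun x => (Φ s x).im) (K s) := by
  have : ∀ s, kineticOne (Φ s) < ⊤ := fun s =>
    lt_of_le_of_lt (Finset.single_le_sum (f := fun s => kineticOne (Φ s)) (fun _ _ => zero_le)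
      (Finset.mem_univ s)) h
  choose G K h1 h2 using fun s => h1_of_kinetic (this s)
  exact ⟨G, K, h1, h2⟩

end comp

/-- the trial state built from a real antisymmetric function -/
theorem bΨ_spec {W F : E9 → ℝ} {G : E9 → E9} (hW : FB W) (hp : ∀ σ X, W (permConfig σ X) = W X) (h : H1 F G)
    (hF : ∀ X, F (sw3 X) = -F X) :
    IsAdmissible W (bΨ F) ∧ normSq (bΨ F) = ENNReal.ofReal (nsq F) ∧ energy W (bΨ F) = qf W F G := by
  obtain ⟨K, hK, hn, hq⟩ := bR_h1 hp h hF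
  have h1 : ∀ s, H1 (fun x => (bΨ F s x).re) (K s) := fun s => by simpa only [bΨ, Complex.ofReal_re] using hK s
  have h2 : ∀ s, H1 (fun x => (bΨ F s x).im) ((fun _ _ => 0 : Spin3 → E9 → E9) s) := fun s => by
    simpa only [bΨ, Complex.ofReal_im] using H1.zero
  refine ⟨⟨⟨fun s => (hK s).mf.ofReal, fun σ s x => ?_⟩, ?_, b_pot_int hW h1 h2⟩, ?_, ?_⟩
  · rw [bΨ, bΨ, bR_perm]
    push_cast
    rfl
  · rw [b_kinetic h1 h2]
    exact ENNReal.ofReal_lt_top
  · rw [b_normSq h1 h2, ← hn]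
    simp [bΨ, nsq]
  · rw [b_energy hW h1 h2, ← hq]
    simp [bΨ, qf]

/-- the components of a fermionic state are antisymmetric in two variables -/
theorem b_anti {Φ : Wave3} (hΦ : IsFermionic Φ) (s : Spin3) : ∃ (σ : Equiv.Perm (Fin 3)) (T : E9 ≃ₗᵢ[ℝ] E9),
    (∀ X, T X = permConfig σ X) ∧ ∀ X, Φ s (T (sw3 X)) = -Φ s (T X) := by
  obtain ⟨σ, hσ⟩ : ∃ σ : Equiv.Perm (Fin 3), (fun i => s ((σ⁻¹ * Equiv.swap 0 1 * σ : Equiv.Perm (Fin 3)) i)) = s := by
    revert s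
    decide
  obtain ⟨T, hT⟩ := exists_perm3 σ
  refine ⟨σ, T, hT, fun X => ?_⟩
  have h := hΦ.2 (σ⁻¹ * Equiv.swap 0 1 * σ) s (permConfig σ X)
  rw [hσ, b_perm_mul] at h
  rw [hT, hT, ← b_perm_swap, b_perm_mul]
  have e : σ * (σ⁻¹ * Equiv.swap 0 1 * σ) = Equiv.swap 0 1 * σ := by group
  rw [e] at h
  rw [h]
  simp [Equiv.Perm.sign_swap (show (0 : Fin 3) ≠ 1 by decide)]

/-- a lower bound for real antisymmetric functions is a lower bound for all admissible states -/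
theorem b_lower {W : E9 → ℝ} (hW : FB W) (hp : ∀ σ X, W (permConfig σ X) = W X) {e : ℝ}
    (he : ∀ F' G', H1 F' G' → (∀ᵐ X, F' (sw3 X) = -F' X) → e * nsq F' ≤ qf W F' G') {Φ : Wave3}
    (hΦ : IsAdmissible W Φ) (hn : normSq Φ = 1) : e ≤ energy W Φ := by
  obtain ⟨G, K, h1, h2⟩ := b_comp hΦ.2.1
  have key : ∀ (f : E9 → ℝ) (L : E9 → E9) (σ : Equiv.Perm (Fin 3)) (T : E9 ≃ₗᵢ[ℝ] E9), H1 f L →
      (∀ X, T X = permConfig σ X) → (∀ X, f (T (sw3 X)) = -f (T X)) → e * nsq f ≤ qf W f L := by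
    intro f L σ T hf hT ha
    have h := he _ _ ((hf.comp_iso T).const_mul 1) (Eventually.of_forall fun X => by rw [ha, mul_neg])
    rw [b_nsq_iso, b_qf_iso T (fun X => by rw [hT, hp])] at h
    simpa using h
  rw [b_normSq h1 h2, ENNReal.ofReal_eq_one] at hn
  rw [b_energy hW h1 h2, ← mul_one e, ← hn, Finset.mul_sum]
  refine Finset.sum_le_sum fun s _ => ?_
  obtain ⟨σ, T, hT, ha⟩ := b_anti hΦ.1 s
  rw [mul_add]
  exact add_le_add (key _ _ σ T (h1 s) hT fun X => by rw [ha, Complex.neg_re])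
    (key _ _ σ T (h2 s) hT fun X => by rw [ha, Complex.neg_im])

theorem b_ground {W F : E9 → ℝ} {G : E9 → E9} (hW : FB W) (hp : ∀ σ X, W (permConfig σ X) = W X) (h : H1 F G)
    (hF : ∀ X, F (sw3 X) = -F X) (hn : nsq F = 1)
    (hmin : ∀ F' G', H1 F' G' → (∀ᵐ X, F' (sw3 X) = -F' X) → qf W F G * nsq F' ≤ qf W F' G') :
    IsGroundState W (bΨ F) := by
  obtain ⟨h1, h2, h3⟩ := bΨ_spec hW hp h hF
  refine ⟨h1, by rw [h2, hn, ENNReal.ofReal_one], fun Φ hΦ hΦn => ?_⟩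
  rw [h3]
  exact b_lower hW hp hmin hΦ hΦn

end Crest.Agent.R335
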