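import Crest.Agent.R335.C_b

/-!
# R335/C_f: density of the Slater determinant (part of `C`, sub-lead helper10)
-/

set_option autoImplicit false

namespace Crest.Agent.R335

open MeasureTheory Set Filter Topology
open scoped Gradient RealInnerProductSpace ENNReal ContDiff
open Crest.MathPhysics.ThreeBody

/-- `exists_spl3 0`, `exists_spl3 2`, `exists_spl2 0`: `Spl.ae_ae` gives for a.e. `x` the a.e. form of `F (at0 x y)`,
`F (at2 x y)`; with `t = exists_spl2 0`: `∫ y, F (at0 x y)² = nsq ((φ x • χ - χ x • φ) ⊗ φ) = φ x² nsq χ + χ x²`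
(`c_nsq_tt`, `nsq_lin`), `∫ y, F (at2 x y)² = φ x² nsq (φ ⊗ χ - χ ⊗ φ) = 2 φ x² nsq χ` (`nsq_lin`, `c_ip_tt`,
`Spl.memLp_tensor`); `nsq F = nsq φ * nsq (φ ⊗ χ - χ ⊗ φ)` (`c_nsq_tt` for `exists_spl3 2`) -/
theorem c_dens {φ χ : E3 → ℝ} {F : E9 → ℝ} (hφ : MemLp φ 2 volume) (hχ : MemLp χ 2 volume) (hn : nsq φ = 1)
    (h0 : ip φ χ = 0)
    (hF : ∀ᵐ X, F X = (φ (elPos 0 X) * χ (elPos 1 X) - χ (elPos 0 X) * φ (elPos 1 X)) * φ (elPos 2 X)) :
    nsq F = 2 * nsq χ ∧ ∀ᵐ x, Rof F x ^ 2 = 4 * nsq χ * φ x ^ 2 + 2 * χ x ^ 2 := by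
  obtain ⟨s0, -, -, j0, -, -⟩ := exists_spl3 0
  obtain ⟨s2, a1, a2, -, -, j2⟩ := exists_spl3 2
  obtain ⟨t, t1, t2, -⟩ := exists_spl2 0
  have t2' : ∀ y, t.p2 y = pos2 1 y := t2
  have h0' : ip χ φ = 0 := by rw [ip_comm, h0]
  have hA : nsq (fun y : E6 => φ (pos2 0 y) * χ (pos2 1 y) - χ (pos2 0 y) * φ (pos2 1 y)) = 2 * nsq χ := by
    have h := nsq_lin (t.memLp_tensor hφ hχ) (t.memLp_tensor hχ hφ) 1 (-1)
    rw [c_nsq_tt, c_nsq_tt, c_ip_tt, hn, h0] at h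
    simp only [t1, t2', one_mul, neg_mul, ← sub_eq_add_neg] at h
    rw [h]
    ring
  refine ⟨?_, ?_⟩
  · have h := c_nsq_tt s2 φ fun y : E6 => φ (pos2 0 y) * χ (pos2 1 y) - χ (pos2 0 y) * φ (pos2 1 y)
    rw [hA, hn, one_mul] at h
    rw [← h]
    refine integral_congr_ae ?_
    filter_upwards [hF] with X hX
    rw [hX, a1, a2, mul_comm]
    rfl
  · filter_upwards [s0.ae_ae hF, s2.ae_ae hF] with x h1 h2
    simp only [j0 rfl, j2 rfl] at h1 h2
    have e1 : ∫ y, F (at0 x y) ^ 2 = φ x ^ 2 * nsq χ + χ x ^ 2 := by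
      have h := c_nsq_tt t (fun a => φ x * χ a + -χ x * φ a) φ
      rw [nsq_lin hχ hφ, hn, h0'] at h
      refine Eq.trans ?_ (h.trans (by ring))
      refine integral_congr_ae ?_
      filter_upwards [h1] with y hy
      rw [hy, t1, t2']
      simp only [at0, elPos_mk3_0, elPos_mk3_1, elPos_mk3_2]
      ring
    have e2 : ∫ y, F (at2 x y) ^ 2 = φ x ^ 2 * (2 * nsq χ) := by
      rw [← hA, nsq, ← integral_const_mul]
      refine integral_congr_ae ?_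
      filter_upwards [h2] with y hy
      rw [hy]
      simp only [at2, elPos_mk3_0, elPos_mk3_1, elPos_mk3_2]
      ring
    have hχ0 : 0 ≤ nsq χ := nsq_nonneg
    rw [Rof, e1, e2, Real.sq_sqrt (by positivity)]
    ring

end Crest.Agent.R335
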