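import Crest.Agent.R335.Lib

/-!
# R335/C_g: mixtures (part of `C`, sub-lead helper10)
-/

set_option autoImplicit false

namespace Crest.Agent.R335

open MeasureTheory Set Filter Topology
open scoped Gradient RealInnerProductSpace ENNReal ContDiff
open Crest.MathPhysics.ThreeBody

theorem cg_nsq_nonneg (f : E3 → ℝ) : 0 ≤ nsq f := integral_nonneg fun _ => sq_nonneg _

theorem cg_meas_sq {f : E3 → ℝ} (hf : AEStronglyMeasurable f volume) (c : ℝ) :
    AEMeasurable (fun x => ENNReal.ofReal (c * f x ^ 2)) volume :=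
  ((hf.aemeasurable.pow_const 2).const_mul c).ennreal_ofReal

theorem cg_meas_sq' {f : E3 → ℝ} (hf : AEStronglyMeasurable f volume) :
    AEMeasurable (fun x => ENNReal.ofReal (f x ^ 2)) volume :=
  (hf.aemeasurable.pow_const 2).ennreal_ofReal

theorem cg_tsum_prod {ι : Type} [Fintype ι] (a : ℕ → ι → ℝ≥0∞) :
    ∑' j : ℕ × ι, a j.1 j.2 = ∑' k, ∑ m, a k m := by
  rw [ENNReal.tsum_prod]
  exact tsum_congr fun k => tsum_fintype _

theorem cg_split {φ ψ : E3 → ℝ} (hφ : AEStronglyMeasurable φ volume) (A : Set E3) {n : ℝ} (hn : 0 ≤ n) :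
    ∫⁻ x in A, ENNReal.ofReal (2 * n * φ x ^ 2 + ψ x ^ 2) =
      ENNReal.ofReal n * (∫⁻ x in A, ENNReal.ofReal (2 * φ x ^ 2)) + ∫⁻ x in A, ENNReal.ofReal (ψ x ^ 2) := by
  rw [← lintegral_const_mul' _ _ ENNReal.ofReal_ne_top,
    ← lintegral_add_left' (((cg_meas_sq hφ 2).const_mul _).restrict)]
  refine lintegral_congr fun x => ?_
  rw [ENNReal.ofReal_add (by positivity) (sq_nonneg _), ← ENNReal.ofReal_mul hn]
  congr 2
  ring

/-- `ι` is nonempty (`hp`, `hn`), so there is `e : ℕ ≃ ℕ × ι` (`nonempty_denumerable`, `Denumerable.eqv`); put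
`ψ' j = √((p k).toReal) * ψ k m`, `(k, m) = e j` (`Eig.lin`/`Eig.congr`, or directly from the definition).
The right side of `hd` is `∫⁻ x in A, (ofReal (2 φ x²) + ∑' j, ofReal (ψ' j x²))` (`lintegral_tsum`, `lintegral_finsetSum'`,
`lintegral_const_mul'`, `ENNReal.tsum_prod'`), so (`ae_eq_of_forall_setLIntegral_eq_of_sigmaFinite₀`) the integrands
agree a.e.; `ENNReal.hasSum_toReal`, `ENNReal.ofReal_tsum_of_nonneg`.  Same computation for `nsq`. -/
theorem c_mix {ι : Type} [Fintype ι] {v φ R : E3 → ℝ} {e2 : ℝ} (hv : FB v) {p : ℕ → ℝ≥0∞} (hp : ∑' k, p k = 1)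
    {ψ : ℕ → ι → E3 → ℝ} {K : ℕ → ι → E3 → E3} (hψ : ∀ k m, Eig v e2 (ψ k m) (K k m))
    (hn : ∀ k, ∑ m, nsq (ψ k m) = 1) (hφ : MemLp φ 2 volume) (hR : AEStronglyMeasurable R volume)
    (hd : ∀ A : Set E3, MeasurableSet A → ∫⁻ x in A, ENNReal.ofReal (R x ^ 2) =
      ∑' k, p k * ∑ m, ∫⁻ x in A, ENNReal.ofReal (2 * nsq (ψ k m) * φ x ^ 2 + ψ k m x ^ 2)) :
    ∃ (ψ' : ℕ → E3 → ℝ) (K' : ℕ → E3 → E3), (∀ j, Eig v e2 (ψ' j) (K' j)) ∧ HasSum (fun j => nsq (ψ' j)) 1 ∧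
      ∀ᵐ x, HasSum (fun j => ψ' j x ^ 2) (R x ^ 2 - 2 * φ x ^ 2) := by
  classical
  have hpt : ∀ k, p k ≠ ⊤ := fun k => ne_top_of_le_ne_top ENNReal.one_ne_top (hp ▸ ENNReal.le_tsum k)
  have hne : Nonempty ι := by
    by_contra h
    rw [not_nonempty_iff] at h
    have := hn 0
    simp at this
  have hone : ∀ k, ∑ m, ENNReal.ofReal (nsq (ψ k m)) = 1 := fun k => by
    rw [← ENNReal.ofReal_sum_of_nonneg fun m _ => cg_nsq_nonneg _, hn k, ENNReal.ofReal_one]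
  obtain ⟨inst⟩ : Nonempty (Denumerable (ℕ × ι)) := nonempty_denumerable _
  let e : ℕ ≃ ℕ × ι := (Denumerable.eqv (ℕ × ι)).symm
  let f : ℕ × ι → E3 → ℝ := fun j x => √(p j.1).toReal * ψ j.1 j.2 x
  let G : ℕ × ι → E3 → E3 := fun j x => √(p j.1).toReal • K j.1 j.2 x
  have hsq : ∀ j x, f j x ^ 2 = (p j.1).toReal * ψ j.1 j.2 x ^ 2 := fun j x => by
    simp only [f]
    rw [mul_pow, Real.sq_sqrt ENNReal.toReal_nonneg]
  have hof : ∀ j x, ENNReal.ofReal (f j x ^ 2) = p j.1 * ENNReal.ofReal (ψ j.1 j.2 x ^ 2) := fun j x => by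
    rw [hsq, ENNReal.ofReal_mul ENNReal.toReal_nonneg, ENNReal.ofReal_toReal (hpt _)]
  have heig : ∀ j, Eig v e2 (f j) (G j) := fun j => by
    refine ((hψ j.1 j.2).lin hv (hψ j.1 j.2) (√(p j.1).toReal) 0).congr (Eventually.of_forall fun x => ?_)
      (Eventually.of_forall fun x => ?_)
    · simp [f]
    · simp [G]
  have hnsq : ∀ j, nsq (f j) = (p j.1).toReal * nsq (ψ j.1 j.2) := fun j => by
    unfold nsq
    rw [← integral_const_mul]
    exact integral_congr_ae (Eventually.of_forall fun x => hsq j x)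
  have hs1 : HasSum (fun j => nsq (f j)) 1 := by
    have h1 : ∑' j : ℕ × ι, p j.1 * ENNReal.ofReal (nsq (ψ j.1 j.2)) = 1 := by
      rw [cg_tsum_prod fun k m => p k * ENNReal.ofReal (nsq (ψ k m)), ← hp]
      refine tsum_congr fun k => ?_
      rw [← Finset.mul_sum, hone k, mul_one]
    have h2 := ENNReal.hasSum_toReal (f := fun j : ℕ × ι => p j.1 * ENNReal.ofReal (nsq (ψ j.1 j.2)))
      (by rw [h1]; exact ENNReal.one_ne_top)
    rw [← ENNReal.tsum_toReal_eq fun j => ENNReal.mul_ne_top (hpt _) ENNReal.ofReal_ne_top, h1,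
      ENNReal.toReal_one] at h2
    refine h2.congr_fun ?_
    intro j
    rw [hnsq, ENNReal.toReal_mul, ENNReal.toReal_ofReal (cg_nsq_nonneg _)]
  have hfm : ∀ j, AEMeasurable (fun x => ENNReal.ofReal (f j x ^ 2)) volume := fun j =>
    cg_meas_sq' (heig j).h1.mf.1
  have hae : (fun x => ENNReal.ofReal (R x ^ 2)) =ᵐ[volume]
      fun x => ENNReal.ofReal (2 * φ x ^ 2) + ∑' j : ℕ × ι, ENNReal.ofReal (f j x ^ 2) := by
    refine ae_eq_of_forall_setLIntegral_eq_of_sigmaFinite₀ (cg_meas_sq' hR)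
      ((cg_meas_sq hφ.1 2).add (AEMeasurable.ennreal_tsum hfm)) fun A hA _ => ?_
    rw [hd A hA, lintegral_add_left' (cg_meas_sq hφ.1 2).restrict, lintegral_tsum fun j => (hfm j).restrict]
    have h1 : ∀ j : ℕ × ι, ∫⁻ x in A, ENNReal.ofReal (f j x ^ 2) =
        p j.1 * ∫⁻ x in A, ENNReal.ofReal (ψ j.1 j.2 x ^ 2) := fun j => by
      rw [← lintegral_const_mul' _ _ (hpt _)]
      exact lintegral_congr fun x => hof j x
    rw [tsum_congr h1, cg_tsum_prod fun k m => p k * ∫⁻ x in A, ENNReal.ofReal (ψ k m x ^ 2)]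
    have h2 : ∀ k, p k * ∑ m, ∫⁻ x in A, ENNReal.ofReal (2 * nsq (ψ k m) * φ x ^ 2 + ψ k m x ^ 2) =
        p k * (∫⁻ x in A, ENNReal.ofReal (2 * φ x ^ 2)) +
          ∑ m, p k * ∫⁻ x in A, ENNReal.ofReal (ψ k m x ^ 2) := fun k => by
      rw [Finset.sum_congr rfl fun m _ => cg_split hφ.1 A (cg_nsq_nonneg (ψ k m)), Finset.sum_add_distrib,
        ← Finset.sum_mul, hone k, one_mul, mul_add, Finset.mul_sum]
    rw [tsum_congr h2, ENNReal.tsum_add, ENNReal.tsum_mul_right, hp, one_mul]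
  refine ⟨fun j => f (e j), fun j => G (e j), fun j => heig _, (e.hasSum_iff (f := fun j => nsq (f j))).2 hs1, ?_⟩
  filter_upwards [hae] with x hx
  have h1 : ∑' j : ℕ × ι, ENNReal.ofReal (f j x ^ 2) ≠ ⊤ := by
    intro h
    rw [h, add_top] at hx
    exact ENNReal.ofReal_ne_top hx
  have h2 := ENNReal.hasSum_toReal h1
  rw [← ENNReal.tsum_toReal_eq fun j => ENNReal.ofReal_ne_top] at h2
  have h3 := congrArg ENNReal.toReal hx
  rw [ENNReal.toReal_add ENNReal.ofReal_ne_top h1, ENNReal.toReal_ofReal (sq_nonneg _),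
    ENNReal.toReal_ofReal (by positivity)] at h3
  have h4 : (∑' j : ℕ × ι, ENNReal.ofReal (f j x ^ 2)).toReal = R x ^ 2 - 2 * φ x ^ 2 := by linarith
  rw [h4] at h2
  refine (e.hasSum_iff (f := fun j => f j x ^ 2)).2 (h2.congr_fun ?_)
  intro j
  rw [ENNReal.toReal_ofReal (sq_nonneg _)]

end Crest.Agent.R335
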