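import Crest.Agent.R335.Lib

/-!
# R335/C_h: scaling (part of `C`, sub-lead helper10)
-/

set_option autoImplicit false

namespace Crest.Agent.R335

open MeasureTheory Set Filter Topology
open scoped Gradient RealInnerProductSpace ENNReal ContDiff
open Crest.MathPhysics.ThreeBody

variable {v f g φ R : E3 → ℝ} {G K Gφ : E3 → E3} {c e e1 e2 : ℝ}

theorem ch_int (F : E3 → ℝ) (hc : 0 < c) : ∫ x, c ^ 3 * F (c • x) = ∫ x, F x := by
  rw [integral_const_mul, Measure.integral_comp_smul_of_nonneg volume F c (hR := hc.le)]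
  have h3 : Module.finrank ℝ E3 = 3 := by simp
  rw [h3, smul_eq_mul, ← mul_assoc, mul_inv_cancel₀ (pow_pos hc 3).ne', one_mul]

theorem ch_sq (hc : 0 < c) : √(c ^ 3) * √(c ^ 3) = c ^ 3 := Real.mul_self_sqrt (pow_pos hc 3).le

theorem ch_ae {p : E3 → Prop} (h : ∀ᵐ x, p x) (hc : 0 < c) : ∀ᵐ x, p (c • x) :=
  (Measure.quasiMeasurePreserving_smul (μ := (volume : Measure E3)) hc.ne').ae h

/-- `H1.comp_smul`, `H1.const_mul` -/
theorem c_sc_h1 (hf : H1 f G) (hc : 0 < c) :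
    H1 (fun x => √(c ^ 3) * f (c • x)) fun x => (√(c ^ 3) * c) • G (c • x) := by
  have h := (hf.comp_smul hc.ne').const_mul √(c ^ 3)
  simpa only [smul_smul] using h

/-- `Measure.integral_comp_smul_of_nonneg` (`finrank = 3`) -/
theorem c_sc_ip (f g : E3 → ℝ) (hc : 0 < c) :
    ip (fun x => √(c ^ 3) * f (c • x)) (fun x => √(c ^ 3) * g (c • x)) = ip f g := by
  unfold ip
  rw [← ch_int (fun x => f x * g x) hc]
  refine integral_congr_ae (Eventually.of_forall fun x => ?_)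
  have := ch_sq hc
  simp only
  linear_combination (f (c • x) * g (c • x)) * this

theorem c_sc_bf (v f g : E3 → ℝ) (G K : E3 → E3) (hc : 0 < c) :
    bf (fun x => c ^ 2 * v (c • x)) (fun x => √(c ^ 3) * f (c • x)) (fun x => (√(c ^ 3) * c) • G (c • x))
      (fun x => √(c ^ 3) * g (c • x)) (fun x => (√(c ^ 3) * c) • K (c • x)) = c ^ 2 * bf v f G g K := by
  unfold bf
  rw [← ch_int (fun x => ⟪G x, K x⟫) hc, ← ch_int (fun x => v x * (f x * g x)) hc, mul_add, mul_left_comm,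
    ← integral_const_mul (c ^ 2), ← integral_const_mul (c ^ 2)]
  have := ch_sq hc
  congr 2
  · refine integral_congr_ae (Eventually.of_forall fun x => ?_)
    simp only [real_inner_smul_left, real_inner_smul_right]
    linear_combination (c ^ 2 * ⟪G (c • x), K (c • x)⟫) * this
  · funext x
    linear_combination (c ^ 2 * v (c • x) * f (c • x) * g (c • x)) * this

/-- every `H¹` pair is the scaled version of an `H¹` pair (`c_sc_h1` with `c⁻¹`) -/
theorem c_sc_surj (hf : H1 f G) (hc : 0 < c) : ∃ g K, H1 g K ∧ f = (fun x => √(c ^ 3) * g (c • x)) ∧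
    G = fun x => (√(c ^ 3) * c) • K (c • x) := by
  have h1 : √(c ^ 3) * √(c⁻¹ ^ 3) = 1 := by
    rw [← Real.sqrt_mul (pow_pos hc 3).le, ← mul_pow, mul_inv_cancel₀ hc.ne', one_pow, Real.sqrt_one]
  refine ⟨_, _, c_sc_h1 hf (inv_pos.2 hc), ?_, ?_⟩
  · funext x
    rw [inv_smul_smul₀ hc.ne', ← mul_assoc, h1, one_mul]
  · funext x
    rw [inv_smul_smul₀ hc.ne', smul_smul]
    have h2 : √(c ^ 3) * c * (√(c⁻¹ ^ 3) * c⁻¹) = 1 := by
      rw [mul_mul_mul_comm, h1, mul_inv_cancel₀ hc.ne', one_mul]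
    rw [h2, one_smul]

theorem c_sc_eig (hf : Eig v e f G) (hc : 0 < c) : Eig (fun x => c ^ 2 * v (c • x)) (c ^ 2 * e)
    (fun x => √(c ^ 3) * f (c • x)) fun x => (√(c ^ 3) * c) • G (c • x) := by
  refine ⟨c_sc_h1 hf.h1 hc, fun ξ X hξ => ?_⟩
  obtain ⟨g, K, hg, rfl, rfl⟩ := c_sc_surj hξ hc
  rw [c_sc_bf v f g G K hc, c_sc_ip f g hc, hf.eq g K hg, mul_assoc]

/-- `v' = c² v(c ·)`, `e' = c² e`; `sumClass_scale`, `ip_self`, `bf_self`; a.e. statements are transported by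
`Measure.quasiMeasurePreserving_smul` (`x ↦ c • x`); `HasSum.mul_left` -/
theorem KS.scale {ψ : ℕ → E3 → ℝ} {Gψ : ℕ → E3 → E3} (h : KS v e1 e2 φ Gφ ψ Gψ R) (hc : 0 < c) :
    ∃ (v' : E3 → ℝ) (e1' e2' : ℝ) (φ' : E3 → ℝ) (Gφ' : E3 → E3) (ψ' : ℕ → E3 → ℝ) (Gψ' : ℕ → E3 → E3),
      KS v' e1' e2' φ' Gφ' ψ' Gψ' fun x => √(c ^ 3) * R (c • x) := by
  have hn : ∀ f : E3 → ℝ, nsq (fun x => √(c ^ 3) * f (c • x)) = nsq f := fun f => by
    rw [← ip_self, c_sc_ip f f hc, ip_self]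
  have hp : 0 < √(c ^ 3) := Real.sqrt_pos.2 (pow_pos hc 3)
  refine ⟨fun x => c ^ 2 * v (c • x), c ^ 2 * e1, c ^ 2 * e2, fun x => √(c ^ 3) * φ (c • x),
    fun x => (√(c ^ 3) * c) • Gφ (c • x), fun j x => √(c ^ 3) * ψ j (c • x),
    fun j x => (√(c ^ 3) * c) • Gψ j (c • x),
    ⟨sumClass_scale h.ob.cls _ hc.ne', mul_lt_mul_of_pos_left h.ob.lt (pow_pos hc 2), c_sc_eig h.ob.eig hc,
      by rw [hn, h.ob.nφ], (ch_ae h.ob.pos hc).mono fun x hx => mul_pos hp hx, fun f G hf => ?_⟩,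
    fun j => c_sc_eig (h.eig j) hc, by simpa only [hn] using h.sum, ?_⟩
  · obtain ⟨g, K, hg, rfl, rfl⟩ := c_sc_surj hf hc
    rw [← bf_self, c_sc_bf v g g K K hc, bf_self, hn, c_sc_ip φ g hc]
    have := mul_le_mul_of_nonneg_left (h.ob.low g K hg) (pow_pos hc 2).le
    linarith
  · filter_upwards [ch_ae h.dens hc] with x hx
    have h1 := hx.mul_left (√(c ^ 3) ^ 2)
    have e : √(c ^ 3) ^ 2 * (R (c • x) ^ 2 - 2 * φ (c • x) ^ 2) =
        √(c ^ 3) ^ 2 * R (c • x) ^ 2 - 2 * (√(c ^ 3) ^ 2 * φ (c • x) ^ 2) := by ring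
    rw [e] at h1
    simpa only [mul_pow] using h1

end Crest.Agent.R335
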