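import Crest.Agent.R335.B_b
import Crest.Agent.R335.C_c

/-!
# R335/C_w: ground states in real terms (part of `C`, sub-lead helper10)
-/

set_option autoImplicit false

namespace Crest.Agent.R335

open MeasureTheory Set Filter Topology
open scoped Gradient RealInnerProductSpace ENNReal ContDiff
open Crest.MathPhysics.ThreeBody

variable {W : E9 → ℝ} {Φ : Wave3}

theorem cw_low (hW : FB W) (hp : ∀ σ X, W (permConfig σ X) = W X) (h : IsGroundState W Φ) :
    ∀ F G, H1 F G → (∀ X, F (sw3 X) = -F X) → energy W Φ * nsq F ≤ qf W F G := by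
  intro F G hF anti
  rcases (nsq_nonneg (f := F)).eq_or_lt with h0 | h0
  · have h1 : F =ᵐ[volume] fun _ => 0 := nsq_eq_zero hF.mf h0.symm
    have h2 := hF.unique H1.zero h1
    rw [qf_congr h1 h2, ← h0]
    simp [qf]
  · obtain ⟨c, -, h1, h2, h3⟩ := c_normalise hF h0
    obtain ⟨a1, a2, a3⟩ := bΨ_spec hW hp (hF.const_mul c) (fun X => by rw [anti, mul_neg])
    have h4 := h.2.2 _ a1 (by rw [a2, h2, ENNReal.ofReal_one])
    rw [a3, h3] at h4
    calc energy W Φ * nsq F ≤ c ^ 2 * qf W F G * nsq F := mul_le_mul_of_nonneg_right h4 h0.le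
      _ = c ^ 2 * nsq F * qf W F G := by ring
      _ = qf W F G := by rw [h1, one_mul]

theorem cw_enorm (z : ℂ) : ‖z‖ₑ ^ 2 = ENNReal.ofReal (z.re ^ 2) + ENNReal.ofReal (z.im ^ 2) := by
  rw [← ofReal_norm, ← ENNReal.ofReal_pow (norm_nonneg _), b_norm_sq, ENNReal.ofReal_add (sq_nonneg _) (sq_nonneg _)]

theorem cw_comp (hW : FB W) (hp : ∀ σ X, W (permConfig σ X) = W X) (h : IsGroundState W Φ) :
    ∃ (f : Spin3 ⊕ Spin3 → E9 → ℝ) (G : Spin3 ⊕ Spin3 → E9 → E9),
      (∀ m, H1 (f m) (G m) ∧ (∀ X, f m (sw3 X) = -f m X) ∧ qf W (f m) (G m) ≤ energy W Φ * nsq (f m)) ∧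
      ∑ m, nsq (f m) = 1 ∧
      ∀ A : Set E3, MeasurableSet A → densityOn Φ A = ∑ m, ∫⁻ x in A, ENNReal.ofReal (Rof (f m) x ^ 2) := by
  obtain ⟨G, K, h1, h2⟩ := b_comp h.1.2.1
  choose σ T hT ha using b_anti h.1.1
  let f : Spin3 ⊕ Spin3 → E9 → ℝ := Sum.elim (fun s X => (Φ s (T s X)).re) fun s X => (Φ s (T s X)).im
  let J : Spin3 ⊕ Spin3 → E9 → E9 :=
    Sum.elim (fun s X => (T s).symm (G s (T s X))) fun s X => (T s).symm (K s (T s X))
  have hH : ∀ m, H1 (f m) (J m) := by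
    rintro (s | s)
    · exact (h1 s).comp_iso (T s)
    · exact (h2 s).comp_iso (T s)
  have han : ∀ m X, f m (sw3 X) = -f m X := by
    rintro (s | s) X
    · show (Φ s (T s (sw3 X))).re = -(Φ s (T s X)).re
      rw [ha, Complex.neg_re]
    · show (Φ s (T s (sw3 X))).im = -(Φ s (T s X)).im
      rw [ha, Complex.neg_im]
  have en : ∀ (s : Spin3) (g : E9 → ℝ), nsq (fun X => g (T s X)) = nsq g := fun s g => by
    simpa using b_nsq_iso (T s) 1 g
  have eq : ∀ (s : Spin3) (g : E9 → ℝ) (L : E9 → E9),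
      qf W (fun X => g (T s X)) (fun X => (T s).symm (L (T s X))) = qf W g L := fun s g L => by
    simpa using b_qf_iso (T s) (W := W) (fun X => by rw [hT, hp]) 1 g L
  have hn : ∑ m, nsq (f m) = 1 := by
    have := h.2.1
    rw [b_normSq h1 h2, ENNReal.ofReal_eq_one, Finset.sum_add_distrib] at this
    rw [Fintype.sum_sum_type, ← this]
    congr 1
    · exact Finset.sum_congr rfl fun s _ => en s fun x => (Φ s x).re
    · exact Finset.sum_congr rfl fun s _ => en s fun x => (Φ s x).im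
  have he : ∑ m, qf W (f m) (J m) = energy W Φ := by
    rw [b_energy hW h1 h2, Finset.sum_add_distrib, Fintype.sum_sum_type]
    congr 1
    · exact Finset.sum_congr rfl fun s _ => eq s (fun x => (Φ s x).re) (G s)
    · exact Finset.sum_congr rfl fun s _ => eq s (fun x => (Φ s x).im) (K s)
  have hz : ∑ m, (qf W (f m) (J m) - energy W Φ * nsq (f m)) = 0 := by
    rw [Finset.sum_sub_distrib, ← Finset.mul_sum, hn, he, mul_one, sub_self]
  rw [Finset.sum_eq_zero_iff_of_nonneg fun m _ => sub_nonneg.2 (cw_low hW hp h _ _ (hH m) (han m))] at hz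
  refine ⟨f, J, fun m => ⟨hH m, han m, (sub_eq_zero.1 (hz m (Finset.mem_univ _))).le⟩, hn, fun A hA => ?_⟩
  have hd : ∀ m, ∫⁻ x in A, ENNReal.ofReal (Rof (f m) x ^ 2) =
      ∫⁻ x, (∑ i : Fin 3, A.indicator (fun _ => (1 : ℝ≥0∞)) (elPos i x)) * ENNReal.ofReal (f m x ^ 2) :=
    fun m => by rw [← b_dens (hH m).mf (han m) hA, b_dens1 (han m)]
  simp only [hd]
  rw [Fintype.sum_sum_type, ← Finset.sum_add_distrib, densityOn]
  refine Finset.sum_congr rfl fun s _ => ?_
  have hm : AEMeasurable (fun x => (∑ i : Fin 3, A.indicator (fun _ => (1 : ℝ≥0∞)) (elPos i x)) *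
      ENNReal.ofReal (f (Sum.inl s) x ^ 2)) volume := by
    refine AEMeasurable.mul (Finset.aemeasurable_fun_sum _ fun i _ => ?_)
      ((hH _).mf.1.aemeasurable.pow_const 2).ennreal_ofReal
    exact ((measurable_const.indicator hA).comp (geo_measurable_elPos i)).aemeasurable
  rw [← lintegral_add_left' hm, ← (T s).measurePreserving.lintegral_comp_emb (T s).toHomeomorph.measurableEmbedding]
  refine lintegral_congr fun x => ?_
  rw [cw_enorm, ← mul_add]
  congr 1
  rw [hT]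
  simp only [b_elPos_perm]
  rw [Equiv.sum_comp (σ s) fun i => A.indicator (fun _ => (1 : ℝ≥0∞)) (elPos i x)]

end Crest.Agent.R335
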