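import Crest.Agent.R335.C_e
import Crest.Agent.R335.C_f
import Crest.Agent.R335.C_g
import Crest.Agent.R335.C_h
import Crest.Agent.R335.C_w

/-!
# R335/C: structure of noninteracting ground state ensembles (SUB-LEAD part, together with `B`)

`e1 = inf qf v / nsq` (finite by `FB`), `E₃` = energy of the ground states `Φ k`.  Trial states: for orthonormal `a, b, c ∈ H¹` and spins, Slater
determinants are admissible (build them as in `B` from the function `(a⊗b - b⊗a)⊗c/√2`, antisymmetric in `0, 1`; `c = a` is allowed): prove once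
`E₃ ≤ qf a + qf b + qf c` for `a ⊥ b` normalised, `c` normalised.
1. `e1` is attained.  Otherwise a minimising sequence tends weakly to `0` (`H1.exists_weak`, lower semicontinuity of `qf - e1 nsq ≥ 0`), so there are
   almost orthogonal almost minimisers, `E₃ ≤ 3 e1`; slices of `Φ` (`H1.slice`) then attain `e1`.  `φ = |minimiser|`, `pos_or_zero`, simple.
2. `e2 = inf` over `f ⊥ φ` (the set is nonempty).  `low` by expanding `f = α φ + f'`.  `E₃ ≤ 2 e1 + e2`.
3. Let `P_i` be the projection on `φ` in the variable `i`, `f` the real or imaginary part of a component `Φ s`.  Slices give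
   `qf f ≥ 3 e2 nsq f - δ ∑ ‖P_i f‖²`, and `P_0 P_1 P_2 f = 0` (antisymmetry in two variables), so `∑ ‖P_i f‖² ≤ 2 nsq f`.  Summing, equality holds
   everywhere.  If `δ = 0` all slices are minimisers, i.e. multiples of `φ`, so `f = P_0 P_1 P_2 f = 0`: contradiction.  If `δ > 0`:
   `f = φ⊗φ⊗χ₂ + φ⊗χ₁⊗φ + χ₀⊗φ⊗φ` with `χ_i ⊥ φ` in `H¹` (`H1.fibre_ip`), and `qf χ_i = e2 nsq χ_i` (`euler_rank_one`).  Density of `f` at `x`:
   `2 nsq f φ² + ∑ χ_i²` (the cross terms vanish after integration over the other variables).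
4. Mixture: index the functions `√(p k) χ` by `ℕ` (`Denumerable (ℕ × Fin 48)` or `Nat.pair`-type equivalence, or pad with zero functions);
   equality of the measures gives the a.e. identity (`ae_eq_of_forall_setLIntegral_eq_of_sigmaFinite`, `lintegral_tsum`).
5. Scaling: `φ(x) ↦ Z^(-3/2) φ(x/Z)`, `v ↦ Z⁻² v(x/Z)`, `e ↦ Z⁻² e` (`sumClass_scale`).
-/

set_option autoImplicit false

namespace Crest.Agent.R335

open MeasureTheory Set Filter Topology
open scoped Gradient RealInnerProductSpace ENNReal ContDiff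
open Crest.MathPhysics.ThreeBody

theorem ks_of_rep {Ψ : Wave3} (h : HasEnsembleRep Ψ) {Z : ℝ} (hZ : 0 < Z) {R : E3 → ℝ}
    (hR : AEStronglyMeasurable R volume)
    (hd : ∀ A : Set E3, MeasurableSet A → densityOn Ψ A = ∫⁻ x in A, ENNReal.ofReal (Z ^ 3 * R (Z • x) ^ 2)) :
    ∃ (v : E3 → ℝ) (e1 e2 : ℝ) (φ : E3 → ℝ) (Gφ : E3 → E3) (ψ : ℕ → E3 → ℝ) (Gψ : ℕ → E3 → E3),
      KS v e1 e2 φ Gφ ψ Gψ R := by
  obtain ⟨v, hv, p, Φ, hp, hg, hdens⟩ := h
  have hV : FB v := FB.of_sumClass hv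
  have hW := ce_fb hV
  have hperm : ∀ σ X, oneBodyPotential v (permConfig σ X) = oneBodyPotential v X := by
    intro σ X
    simp only [oneBodyPotential, b_elPos_perm]
    exact Equiv.sum_comp σ fun i => v (elPos i X)
  have hE : ∀ k, energy (oneBodyPotential v) (Φ k) = energy (oneBodyPotential v) (Φ 0) := fun k =>
    le_antisymm ((hg k).2.2 _ (hg 0).1 (hg 0).2.1) ((hg 0).2.2 _ (hg k).1 (hg k).2.1)
  choose f G hf hn hD using fun k => cw_comp hW hperm (hg k)
  obtain ⟨m₀, hm₀⟩ : ∃ m, 0 < nsq (f 0 m) := by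
    by_contra hc
    push Not at hc
    have := Finset.sum_nonpos fun m (_ : m ∈ Finset.univ) => hc m
    rw [hn 0] at this
    linarith
  obtain ⟨e1, e2, φ, Gφ, hob, hs⟩ := c_three hv (cw_low hW hperm (hg 0)) (hf 0 m₀).1 (hf 0 m₀).2.1 hm₀ (hf 0 m₀).2.2
  choose χ K hχ horth hae using fun k m => hs _ _ (hf k m).1 (hf k m).2.1 (hE k ▸ (hf k m).2.2)
  have hden := fun k m => c_dens hob.eig.h1.mf (hχ k m).h1.mf hob.nφ (horth k m) (hae k m)
  have h2 : √2 ^ 2 = (2 : ℝ) := Real.sq_sqrt zero_le_two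
  have hψ : ∀ k m, Eig v e2 (fun x => √2 * χ k m x) fun x => √2 • K k m x := fun k m =>
    (Eig.lin hV (hχ k m) (hχ k m) √2 0).congr (.of_forall fun x => by simp) (.of_forall fun x => by simp)
  have hnψ : ∀ k m, nsq (fun x => √2 * χ k m x) = 2 * nsq (χ k m) := fun k m => by
    simp only [nsq, mul_pow, h2]
    rw [integral_const_mul]
  have hq : Measure.QuasiMeasurePreserving (fun x : E3 => Z • x) volume volume :=
    Measure.quasiMeasurePreserving_smul volume hZ.ne'
  have h3 : √(Z ^ 3) ^ 2 = Z ^ 3 := Real.sq_sqrt (by positivity)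
  obtain ⟨ψ, Gψ, a1, a2, a3⟩ := c_mix (R := fun x => √(Z ^ 3) * R (Z • x)) hV hp hψ
    (fun k => by
      rw [← hn k]
      exact Finset.sum_congr rfl fun m _ => by rw [hnψ, (hden k m).1])
    hob.eig.h1.mf ((hR.comp_quasiMeasurePreserving hq).const_mul _)
    (fun A hA => by
      simp only [mul_pow, h3, h2, hnψ]
      rw [← hd A hA, hdens A hA]
      refine tsum_congr fun k => ?_
      rw [hD k A hA]
      congr 1
      refine Finset.sum_congr rfl fun m _ => lintegral_congr_ae (ae_restrict_of_ae ?_)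
      filter_upwards [(hden k m).2] with x hx
      rw [hx]
      congr 1
      ring)
  have hk : KS v e1 e2 φ Gφ ψ Gψ fun x => √(Z ^ 3) * R (Z • x) := ⟨hob, a1, a2, a3⟩
  obtain ⟨v', e1', e2', φ', Gφ', ψ', Gψ', hk'⟩ := hk.scale (inv_pos.2 hZ)
  refine ⟨v', e1', e2', φ', Gφ', ψ', Gψ', ?_⟩
  have e : (fun x : E3 => √(Z⁻¹ ^ 3) * (√(Z ^ 3) * R (Z • Z⁻¹ • x))) = R := by
    funext x
    rw [smul_inv_smul₀ hZ.ne', ← mul_assoc, ← Real.sqrt_mul (by positivity), ← mul_pow, inv_mul_cancel₀ hZ.ne']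
    simp
  rw [← e]
  exact hk'

end Crest.Agent.R335
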