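import Crest.Agent.R335.Lib

/-!
# R335/C_a: slices of quadratic forms (part of `C`, sub-lead helper10)
-/

set_option autoImplicit false

namespace Crest.Agent.R335

open MeasureTheory Set Filter Topology
open scoped Gradient RealInnerProductSpace ENNReal ContDiff
open Crest.MathPhysics.ThreeBody

variable {A B E : Type} [NormedAddCommGroup A] [InnerProductSpace ℝ A] [FiniteDimensional ℝ A]
  [MeasurableSpace A] [BorelSpace A] [NormedAddCommGroup B] [InnerProductSpace ℝ B] [FiniteDimensional ℝ B]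
  [MeasurableSpace B] [BorelSpace B] [NormedAddCommGroup E] [InnerProductSpace ℝ E] [FiniteDimensional ℝ E]
  [MeasurableSpace E] [BorelSpace E] (s : Spl A B E)

variable {V : A → ℝ} {U : B → ℝ} {F : E → ℝ} {G : E → E}

/-- `Spl.integrable_fibre`, `Spl.integral_eq` for `F²` -/
theorem c_nsq_slice (hF : MemLp F 2 volume) :
    Integrable (fun a => nsq fun b => F (s.j a b)) ∧ nsq F = ∫ a, nsq fun b => F (s.j a b) := by
  exact ⟨(s.integrable_fibre hF.integrable_sq).2, s.integral_eq hF.integrable_sq⟩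

/-- the same for the other factor (use `s.swap`, `Spl.swap_j`) -/
theorem c_nsq_slice' (hF : MemLp F 2 volume) :
    Integrable (fun b => nsq fun a => F (s.j a b)) ∧ nsq F = ∫ b, nsq fun a => F (s.j a b) := by
  simpa only [Spl.swap_j] using c_nsq_slice s.swap hF

/-- `‖s.p2 (G x)‖²` is integrable (`Spl.norm_sq` or `ContinuousLinearMap.comp_memLp'`), `U (s.p2 x) F x²` too
(`FB.comp_p2`); `Spl.integrable_fibre`, `Spl.integral_eq`, `integral_add`, `Spl.p2_j` -/
theorem c_qf_slice (hU : FB U) (hF : H1 F G) :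
    Integrable (fun a => qf U (fun b => F (s.j a b)) fun b => s.p2 (G (s.j a b))) ∧
      (1 / 2) * (∫ x, ‖s.p2 (G x)‖ ^ 2) + ∫ x, U (s.p2 x) * F x ^ 2 =
        ∫ a, qf U (fun b => F (s.j a b)) fun b => s.p2 (G (s.j a b)) := by
  have m1 : MemLp (fun x => s.p2 (G x)) 2 volume := s.p2.comp_memLp' hF.mG
  have i1 : Integrable fun x => ‖s.p2 (G x)‖ ^ 2 := (memLp_two_iff_integrable_sq_norm m1.1).1 m1
  have i2 : Integrable fun x => U (s.p2 x) * F x ^ 2 := (hU.comp_p2 s).int F G hF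
  have j1 := s.integrable_fibre i1
  have j2 := s.integrable_fibre i2
  have e1 := s.integral_eq i1
  have e2 := s.integral_eq i2
  simp only [s.p2_j] at j2 e2
  refine ⟨(j1.2.const_mul (1 / 2)).add j2.2, ?_⟩
  simp only [qf]
  rw [integral_add (j1.2.const_mul (1 / 2)) j2.2, integral_const_mul, e1, e2]

/-- the same for the other factor (use `s.swap`) -/
theorem c_qf_slice' (hV : FB V) (hF : H1 F G) :
    Integrable (fun b => qf V (fun a => F (s.j a b)) fun a => s.p1 (G (s.j a b))) ∧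
      (1 / 2) * (∫ x, ‖s.p1 (G x)‖ ^ 2) + ∫ x, V (s.p1 x) * F x ^ 2 =
        ∫ b, qf V (fun a => F (s.j a b)) fun a => s.p1 (G (s.j a b)) := by
  have h := c_qf_slice s.swap hV hF
  simp only [Spl.swap_j] at h
  exact h

/-- `Spl.norm_sq`, the two lemmas above -/
theorem c_qf_split (hV : FB V) (hU : FB U) (hF : H1 F G) :
    qf (fun x => V (s.p1 x) + U (s.p2 x)) F G =
      (∫ b, qf V (fun a => F (s.j a b)) fun a => s.p1 (G (s.j a b))) +
        ∫ a, qf U (fun b => F (s.j a b)) fun b => s.p2 (G (s.j a b)) := by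
  have m1 : MemLp (fun x => s.p1 (G x)) 2 volume := s.p1.comp_memLp' hF.mG
  have m2 : MemLp (fun x => s.p2 (G x)) 2 volume := s.p2.comp_memLp' hF.mG
  have i1 : Integrable fun x => ‖s.p1 (G x)‖ ^ 2 := (memLp_two_iff_integrable_sq_norm m1.1).1 m1
  have i2 : Integrable fun x => ‖s.p2 (G x)‖ ^ 2 := (memLp_two_iff_integrable_sq_norm m2.1).1 m2
  have i3 : Integrable fun x => V (s.p1 x) * F x ^ 2 := (hV.comp_p1 s).int F G hF
  have i4 : Integrable fun x => U (s.p2 x) * F x ^ 2 := (hU.comp_p2 s).int F G hF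
  rw [← (c_qf_slice s hU hF).2, ← (c_qf_slice' s hV hF).2]
  simp only [qf, add_mul]
  rw [integral_add i3 i4]
  have e : ∫ x, ‖G x‖ ^ 2 = (∫ x, ‖s.p1 (G x)‖ ^ 2) + ∫ x, ‖s.p2 (G x)‖ ^ 2 := by
    rw [← integral_add i1 i2]
    exact integral_congr_ae (Eventually.of_forall fun x => s.norm_sq (G x))
  rw [e]
  ring

/-- `H1.slice` for `s.swap` -/
theorem c_slice' (hF : H1 F G) : ∀ᵐ b, H1 (fun a => F (s.j a b)) fun a => s.p1 (G (s.j a b)) := by
  have h := H1.slice s.swap hF
  simp only [Spl.swap_j] at h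
  exact h

/-- equality in the sum of the slice inequalities: `b ↦ qf (slice b) - e nsq (slice b)` is a.e. nonnegative,
integrable, with integral `≤ 0` (`integral_mono_ae` for the other factor; `integral_eq_zero_iff_of_nonneg_ae`) -/
theorem c_slice_min (hV : FB V) (hU : FB U) (hF : H1 F G) {e e' : ℝ}
    (h1 : ∀ f K, H1 f K → e * nsq f ≤ qf V f K)
    (h2 : ∀ᵐ a, e' * nsq (fun b => F (s.j a b)) ≤ qf U (fun b => F (s.j a b)) fun b => s.p2 (G (s.j a b)))
    (h3 : qf (fun x => V (s.p1 x) + U (s.p2 x)) F G ≤ (e + e') * nsq F) :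
    ∀ᵐ b, H1 (fun a => F (s.j a b)) (fun a => s.p1 (G (s.j a b))) ∧
      qf V (fun a => F (s.j a b)) (fun a => s.p1 (G (s.j a b))) ≤ e * nsq fun a => F (s.j a b) := by
  obtain ⟨n1, n1e⟩ := c_nsq_slice s hF.mf
  obtain ⟨n2, n2e⟩ := c_nsq_slice' s hF.mf
  obtain ⟨q1, -⟩ := c_qf_slice s hU hF
  obtain ⟨q2, -⟩ := c_qf_slice' s hV hF
  have hs := c_slice' s hF
  have k1 : e' * nsq F ≤ ∫ a, qf U (fun b => F (s.j a b)) fun b => s.p2 (G (s.j a b)) := by
    rw [n1e, ← integral_const_mul]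
    exact integral_mono_ae (n1.const_mul e') q1 h2
  have k0 : 0 ≤ᵐ[volume] fun b => qf V (fun a => F (s.j a b)) (fun a => s.p1 (G (s.j a b))) -
      e * nsq fun a => F (s.j a b) := by
    filter_upwards [hs] with b hb
    exact sub_nonneg.2 (h1 _ _ hb)
  have ki : Integrable fun b => qf V (fun a => F (s.j a b)) (fun a => s.p1 (G (s.j a b))) -
      e * nsq fun a => F (s.j a b) := q2.sub (n2.const_mul e)
  have k2 : ∫ b, (qf V (fun a => F (s.j a b)) (fun a => s.p1 (G (s.j a b))) -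
      e * nsq fun a => F (s.j a b)) = 0 := by
    refine le_antisymm ?_ (integral_nonneg_of_ae k0)
    rw [integral_sub q2 (n2.const_mul e), integral_const_mul, ← n2e]
    rw [c_qf_split s hV hU hF] at h3
    linarith
  filter_upwards [hs, (integral_eq_zero_iff_of_nonneg_ae k0 ki).1 k2] with b hb hb2
  exact ⟨hb, (sub_eq_zero.1 hb2).le⟩

/-- otherwise a.e. slice has `nsq = 0` (`nsq_nonneg`), so `nsq F = 0` by `c_nsq_slice'` -/
theorem c_slice_pos (hF : MemLp F 2 volume) (h : 0 < nsq F) {p : B → Prop} (hp : ∀ᵐ b, p b) :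
    ∃ b, p b ∧ 0 < nsq fun a => F (s.j a b) := by
  by_contra hc
  push Not at hc
  have h0 : ∀ᵐ b, (nsq fun a => F (s.j a b)) = 0 := by
    filter_upwards [hp] with b hb
    exact le_antisymm (hc b hb) nsq_nonneg
  rw [(c_nsq_slice' s hF).2, integral_congr_ae h0, integral_zero] at h
  exact lt_irrefl _ h

/-- `H1.fibre_ip` for `s.swap` -/
theorem c_fib_h1 (hF : H1 F G) {φ : A → ℝ} (hφ : MemLp φ 2 volume) :
    ∃ K, H1 (fun b => ip φ fun a => F (s.j a b)) K := by
  refine ⟨fun b => ∫ a, φ a • s.p2 (G (s.j a b)), ?_⟩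
  have h := H1.fibre_ip s.swap hF hφ
  simp only [Spl.swap_j] at h
  exact h

/-- `nsq (F - φ ⊗ Θ) = ∫ b, nsq (slice) = 0` (`c_nsq_slice'`, `Spl.memLp_tensor`, `c_fib_h1`, `nsq_eq_zero`) -/
theorem c_ae_tensor (hF : H1 F G) {φ : A → ℝ} (hφ : MemLp φ 2 volume)
    (h : ∀ᵐ b, ∀ᵐ a, F (s.j a b) = ip φ (fun a' => F (s.j a' b)) * φ a) :
    ∀ᵐ x, F x = φ (s.p1 x) * ip φ fun a => F (s.j a (s.p2 x)) := by
  obtain ⟨K, hK⟩ := c_fib_h1 s hF hφ
  have hm : MemLp (fun x => F x - φ (s.p1 x) * ip φ fun a => F (s.j a (s.p2 x))) 2 volume :=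
    hF.mf.sub (s.memLp_tensor hφ hK.mf)
  have h0 : nsq (fun x => F x - φ (s.p1 x) * ip φ fun a => F (s.j a (s.p2 x))) = 0 := by
    rw [(c_nsq_slice' s hm).2]
    refine integral_eq_zero_of_ae ?_
    filter_upwards [h] with b hb
    refine integral_eq_zero_of_ae ?_
    filter_upwards [hb] with a ha
    simp only [s.p1_j, s.p2_j, Pi.zero_apply]
    rw [ha]
    ring
  filter_upwards [nsq_eq_zero hm h0] with x hx
  exact sub_eq_zero.1 hx

/-- Fubini (`Spl.integral_eq` for `s.swap`, `Spl.memLp_tensor`, `MemLp.integrable_mul`, `integral_mul_const`) -/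
theorem c_ip_fib (hF : MemLp F 2 volume) {φ : A → ℝ} (hφ : MemLp φ 2 volume) {g : B → ℝ} (hg : MemLp g 2 volume) :
    ip F (fun x => φ (s.p1 x) * g (s.p2 x)) = ip (fun b => ip φ fun a => F (s.j a b)) g := by
  have hi : Integrable fun x => F x * (φ (s.p1 x) * g (s.p2 x)) :=
    hF.integrable_mul (s.memLp_tensor hφ hg)
  have e := s.swap.integral_eq hi
  simp only [Spl.swap_j, s.p1_j, s.p2_j] at e
  simp only [ip]
  rw [e]
  refine integral_congr_ae (Eventually.of_forall fun b => ?_)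
  simp only [← integral_mul_const]
  exact integral_congr_ae (Eventually.of_forall fun a => by ring)

/-- the same for the other factor -/
theorem c_ip_fib' (hF : MemLp F 2 volume) {φ : B → ℝ} (hφ : MemLp φ 2 volume) {g : A → ℝ} (hg : MemLp g 2 volume) :
    ip F (fun x => g (s.p1 x) * φ (s.p2 x)) = ip (fun a => ip φ fun b => F (s.j a b)) g := by
  have e := c_ip_fib s.swap hF hφ hg
  simp only [Spl.swap_j] at e
  rw [← e]
  simp only [ip]
  exact integral_congr_ae (Eventually.of_forall fun x => by simp only [Spl.swap, mul_comm])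

end Crest.Agent.R335
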