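import Crest.Agent.R335.C_a
import Crest.Agent.R335.C_b

/-!
# R335/C_d: two noninteracting particles, antisymmetric states (part of `C`, sub-lead helper10)
-/

set_option autoImplicit false

namespace Crest.Agent.R335

open MeasureTheory Set Filter Topology
open scoped Gradient RealInnerProductSpace ENNReal ContDiff
open Crest.MathPhysics.ThreeBody

variable {A E : Type} [NormedAddCommGroup A] [InnerProductSpace ℝ A] [FiniteDimensional ℝ A]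
  [MeasurableSpace A] [BorelSpace A] [NormedAddCommGroup E] [InnerProductSpace ℝ E] [FiniteDimensional ℝ E]
  [MeasurableSpace E] [BorelSpace E] (s : Spl A A E)

variable {V φ χ : A → ℝ} {Gφ K : A → A} {Θ : E → ℝ} {J : E → E} {e1 e2 : ℝ}

theorem cd_ip_neg {f g k : A → ℝ} (h : ∀ a, f a = -g a) : ip f k = -ip g k := by
  unfold ip
  rw [← integral_neg]
  congr 1
  funext a
  rw [h a]; ring

/-- `H1.tensor`, `qf_lin`/`nsq_lin` with `a = 1`, `b = -1` (`FB.comp_p1`, `FB.comp_p2`, `FB.add`), `c_qf_tt`, `c_bf_tt`,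
`c_ip_tt`, `c_nsq_tt`; the cross terms contain the factor `ip φ χ = 0` -/
theorem c_slater (hV : FB V) (hφ : Eig V e1 φ Gφ) (hn : nsq φ = 1) (hχ : H1 χ K) (h0 : ip φ χ = 0) :
    ∃ J, H1 (fun x => φ (s.p1 x) * χ (s.p2 x) - χ (s.p1 x) * φ (s.p2 x)) J ∧
      nsq (fun x => φ (s.p1 x) * χ (s.p2 x) - χ (s.p1 x) * φ (s.p2 x)) = 2 * nsq χ ∧
      qf (fun x => V (s.p1 x) + V (s.p2 x)) (fun x => φ (s.p1 x) * χ (s.p2 x) - χ (s.p1 x) * φ (s.p2 x)) J =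
        2 * (e1 * nsq χ + qf V χ K) := by
  have hVV : FB fun x => V (s.p1 x) + V (s.p2 x) := (FB.comp_p1 s hV).add (FB.comp_p2 s hV)
  have t1 := H1.tensor s hφ.h1 hχ
  have t2 := H1.tensor s hχ hφ.h1
  have e : (fun x => φ (s.p1 x) * χ (s.p2 x) - χ (s.p1 x) * φ (s.p2 x)) =
      fun x => 1 * (φ (s.p1 x) * χ (s.p2 x)) + (-1) * (χ (s.p1 x) * φ (s.p2 x)) := by
    funext x; ring
  have h0' : ip χ φ = 0 := by rw [ip_comm]; exact h0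
  rw [e]
  refine ⟨_, (t1.const_mul 1).add (t2.const_mul (-1)), ?_, ?_⟩
  · rw [nsq_lin t1.mf t2.mf, c_nsq_tt s φ χ, c_nsq_tt s χ φ, c_ip_tt s φ χ χ φ, h0, hn]
    ring
  · rw [qf_lin hVV t1 t2, c_qf_tt s hV hV hφ.h1 hχ, c_qf_tt s hV hV hχ hφ.h1,
      c_bf_tt s hV hV hφ.h1 hχ hχ hφ.h1, h0, h0', hφ.qf_eq, hn]
    ring

/-- test with `c_slater` (`Spl.p1_j`, `Spl.p2_j`) -/
theorem c_two_orth (hV : FB V) (hφ : Eig V e1 φ Gφ) (hn : nsq φ = 1) {E2 : ℝ}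
    (h : ∀ Θ J, H1 Θ J → (∀ a b, Θ (s.j a b) = -Θ (s.j b a)) →
      E2 * nsq Θ ≤ qf (fun x => V (s.p1 x) + V (s.p2 x)) Θ J) :
    ∀ χ K, H1 χ K → ip φ χ = 0 → (E2 - e1) * nsq χ ≤ qf V χ K := by
  intro χ K hχ h0
  obtain ⟨J, hJ, h1, h2⟩ := c_slater s hV hφ hn hχ h0
  have h3 := h _ J hJ (fun a b => by simp only [Spl.p1_j, Spl.p2_j]; ring)
  rw [h1, h2] at h3
  linarith

/-- let `χ b = ip φ (Θ (s.j · b))`; by antisymmetry `ip φ (Θ (s.j a ·)) = -χ a`.  Compute `ip Θ (φ ⊗ φ)` by `c_ip_fib`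
and by `c_ip_fib'`: `ip χ φ = -ip χ φ`. -/
theorem c_fib_orth (hφ : MemLp φ 2 volume) (hΘ : MemLp Θ 2 volume) (anti : ∀ a b, Θ (s.j a b) = -Θ (s.j b a)) :
    (∀ a, (ip φ fun b => Θ (s.j a b)) = -ip φ fun b => Θ (s.j b a)) ∧
      ip φ (fun b => ip φ fun a => Θ (s.j a b)) = 0 := by
  have h1 : ∀ a, (ip φ fun b => Θ (s.j a b)) = -ip φ fun b => Θ (s.j b a) := by
    intro a
    rw [ip_comm, cd_ip_neg (g := fun b => Θ (s.j b a)) (fun b => anti a b), ip_comm]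
  refine ⟨h1, ?_⟩
  have h2 := c_ip_fib s hΘ hφ hφ
  have h3 := c_ip_fib' s hΘ hφ hφ
  have h4 : (ip (fun a => ip φ fun b => Θ (s.j a b)) φ) = -ip (fun b => ip φ fun a => Θ (s.j a b)) φ :=
    cd_ip_neg h1
  rw [ip_comm]
  linarith

/-- Pauli principle.  Otherwise (`c_slice_min` with `U = V`, `e = e' = e1`, `H1.slice`) a.e. slice is a minimiser, so
`Θ = φ ⊗ χ` a.e. (`c_ae_tensor`); then `nsq Θ = ip Θ (φ ⊗ χ) = nsq χ` and
`-nsq χ = ip Θ (χ ⊗ φ) = ip (φ ⊗ χ) (χ ⊗ φ) = 0` (`c_ip_fib'`, `c_fib_orth`, `c_ip_tt`) -/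
theorem c_two_lt (hV : FB V) (hφ : MemLp φ 2 volume) (hn : nsq φ = 1)
    (hlow : ∀ g K, H1 g K → e1 * nsq g ≤ qf V g K)
    (hs : ∀ g K, H1 g K → qf V g K ≤ e1 * nsq g → ∀ᵐ x, g x = ip φ g * φ x)
    (hΘ : H1 Θ J) (anti : ∀ a b, Θ (s.j a b) = -Θ (s.j b a)) (h0 : 0 < nsq Θ) :
    (e1 + e1) * nsq Θ < qf (fun x => V (s.p1 x) + V (s.p2 x)) Θ J := by
  by_contra hc
  push Not at hc
  have h2 : ∀ᵐ a, e1 * nsq (fun b => Θ (s.j a b)) ≤ qf V (fun b => Θ (s.j a b)) fun b => s.p2 (J (s.j a b)) := by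
    filter_upwards [H1.slice s hΘ] with a ha
    exact hlow _ _ ha
  have h3 := c_slice_min s hV hV hΘ hlow h2 hc
  have h4 : ∀ᵐ b, ∀ᵐ a, Θ (s.j a b) = ip φ (fun a' => Θ (s.j a' b)) * φ a := by
    filter_upwards [h3] with b hb
    exact hs _ _ hb.1 hb.2
  have h5 := c_ae_tensor s hΘ hφ h4
  obtain ⟨K, hK⟩ := c_fib_h1 s hΘ hφ
  obtain ⟨o1, o2⟩ := c_fib_orth s hφ hΘ.mf anti
  set χ : A → ℝ := fun b => ip φ fun a => Θ (s.j a b) with hχ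
  have h6 : nsq Θ = nsq χ := by
    have : nsq Θ = nsq fun x => φ (s.p1 x) * χ (s.p2 x) := by
      unfold nsq
      refine integral_congr_ae ?_
      filter_upwards [h5] with x hx
      rw [hx]
    rw [this, c_nsq_tt s φ χ, hn, one_mul]
  have h7 : ip Θ (fun x => χ (s.p1 x) * φ (s.p2 x)) = -nsq χ := by
    rw [c_ip_fib' s hΘ.mf hφ hK.mf, ← ip_self]
    exact cd_ip_neg o1
  have h8 : ip Θ (fun x => χ (s.p1 x) * φ (s.p2 x)) = 0 := by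
    have : ip Θ (fun x => χ (s.p1 x) * φ (s.p2 x)) =
        ip (fun x => φ (s.p1 x) * χ (s.p2 x)) (fun x => χ (s.p1 x) * φ (s.p2 x)) := by
      unfold ip
      refine integral_congr_ae ?_
      filter_upwards [h5] with x hx
      rw [hx]
    rw [this, c_ip_tt s φ χ χ φ, o2, zero_mul]
  linarith

/-- Let `χ b = ip φ (Θ (s.j · b))` (`c_fib_h1`, `c_fib_orth`), `S = φ ⊗ χ - χ ⊗ φ` (`c_slater`).  `c_qf_split`, `low` on
all slices (`H1.slice`, `c_slice'`, `c_nsq_slice`, `c_nsq_slice'`): `qf Θ ≥ 2 e2 nsq Θ - 2 (e2 - e1) nsq χ`, so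
`nsq Θ ≤ 2 nsq χ`.  `ip Θ S = 2 nsq χ = nsq S` (`c_ip_fib`, `c_ip_fib'`), so `nsq (Θ - S) = nsq Θ - 2 nsq χ ≤ 0` and
`Θ = S` a.e.  Then (`H1.unique`, `qf_congr`) `2 (e1 nsq χ + qf χ) ≤ (e1 + e2) 2 nsq χ`, and `euler_rank_one`. -/
theorem c_two_struct (hV : FB V) (hφ : Eig V e1 φ Gφ) (hn : nsq φ = 1) (hlt : e1 < e2)
    (low : ∀ f G, H1 f G → e2 * nsq f - (e2 - e1) * ip φ f ^ 2 ≤ qf V f G)
    (hΘ : H1 Θ J) (anti : ∀ a b, Θ (s.j a b) = -Θ (s.j b a))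
    (he : qf (fun x => V (s.p1 x) + V (s.p2 x)) Θ J ≤ (e1 + e2) * nsq Θ) :
    ∃ χ K, Eig V e2 χ K ∧ ip φ χ = 0 ∧ ∀ᵐ x, Θ x = φ (s.p1 x) * χ (s.p2 x) - χ (s.p1 x) * φ (s.p2 x) := by
  obtain ⟨K, hK⟩ := c_fib_h1 s hΘ hφ.h1.mf
  obtain ⟨o1, o2⟩ := c_fib_orth s hφ.h1.mf hΘ.mf anti
  set χ : A → ℝ := fun b => ip φ fun a => Θ (s.j a b) with hχ
  obtain ⟨J', hJ', s1, s2⟩ := c_slater s hV hφ hn hK o2
  have hsp := c_qf_split s hV hV hΘ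
  have iχ : Integrable fun b => χ b ^ 2 := hK.int_sq
  obtain ⟨n1, n2⟩ := c_nsq_slice s hΘ.mf
  obtain ⟨n1', n2'⟩ := c_nsq_slice' s hΘ.mf
  have q1 : e2 * nsq Θ - (e2 - e1) * nsq χ ≤
      ∫ b, qf V (fun a => Θ (s.j a b)) fun a => s.p1 (J (s.j a b)) := by
    have : e2 * nsq Θ - (e2 - e1) * nsq χ = ∫ b, (e2 * nsq (fun a => Θ (s.j a b)) - (e2 - e1) * χ b ^ 2) := by
      rw [integral_sub (n1'.const_mul _) (iχ.const_mul _), integral_const_mul, integral_const_mul, ← n2']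
      rfl
    rw [this]
    refine integral_mono_ae ((n1'.const_mul _).sub (iχ.const_mul _)) (c_qf_slice' s hV hΘ).1 ?_
    filter_upwards [c_slice' s hΘ] with b hb
    exact low _ _ hb
  have q2 : e2 * nsq Θ - (e2 - e1) * nsq χ ≤
      ∫ a, qf V (fun b => Θ (s.j a b)) fun b => s.p2 (J (s.j a b)) := by
    have : e2 * nsq Θ - (e2 - e1) * nsq χ = ∫ a, (e2 * nsq (fun b => Θ (s.j a b)) - (e2 - e1) * χ a ^ 2) := by
      rw [integral_sub (n1.const_mul _) (iχ.const_mul _), integral_const_mul, integral_const_mul, ← n2]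
      rfl
    rw [this]
    refine integral_mono_ae ((n1.const_mul _).sub (iχ.const_mul _)) (c_qf_slice s hV hΘ).1 ?_
    filter_upwards [H1.slice s hΘ] with a ha
    have h1 := low _ _ ha
    rw [o1 a, neg_sq] at h1
    exact h1
  have q3 : nsq Θ ≤ 2 * nsq χ := by
    have : (e2 - e1) * nsq Θ ≤ (e2 - e1) * (2 * nsq χ) := by linarith
    exact le_of_mul_le_mul_left this (by linarith)
  have t1 := Spl.memLp_tensor s hφ.h1.mf hK.mf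
  have t2 := Spl.memLp_tensor s hK.mf hφ.h1.mf
  have i1 : ip Θ (fun x => φ (s.p1 x) * χ (s.p2 x)) = nsq χ := by
    rw [c_ip_fib s hΘ.mf hφ.h1.mf hK.mf, ← ip_self]
  have i2 : ip Θ (fun x => χ (s.p1 x) * φ (s.p2 x)) = -nsq χ := by
    rw [c_ip_fib' s hΘ.mf hφ.h1.mf hK.mf, ← ip_self]
    exact cd_ip_neg o1
  have i3 : ip Θ (fun x => φ (s.p1 x) * χ (s.p2 x) - χ (s.p1 x) * φ (s.p2 x)) = 2 * nsq χ := by
    have e : (fun x => φ (s.p1 x) * χ (s.p2 x) - χ (s.p1 x) * φ (s.p2 x)) =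
        fun x => 1 * (φ (s.p1 x) * χ (s.p2 x)) + (-1) * (χ (s.p1 x) * φ (s.p2 x)) := by
      funext x; ring
    rw [e, s13a_ip_lin hΘ.mf t1 t2, i1, i2]
    ring
  have z := nsq_lin hΘ.mf hJ'.mf 1 (-1)
  rw [i3, s1] at z
  have z0 : nsq (fun x => 1 * Θ x + (-1) * (φ (s.p1 x) * χ (s.p2 x) - χ (s.p1 x) * φ (s.p2 x))) = 0 :=
    le_antisymm (by rw [z]; linarith) nsq_nonneg
  have z1 := nsq_eq_zero ((hΘ.mf.const_mul 1).add (hJ'.mf.const_mul (-1))) z0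
  have z2 : ∀ᵐ x, Θ x = φ (s.p1 x) * χ (s.p2 x) - χ (s.p1 x) * φ (s.p2 x) := by
    filter_upwards [z1] with x hx
    simp only [Pi.add_apply] at hx
    linarith
  have z3 := qf_congr (V := fun x => V (s.p1 x) + V (s.p2 x)) z2 (H1.unique hΘ hJ' z2)
  have z4 : nsq Θ = 2 * nsq χ := by linarith
  rw [z3, s2, z4] at he
  exact ⟨χ, K, euler_rank_one hV hφ.h1.mf low hK o2 (by linarith), o2, z2⟩

end Crest.Agent.R335
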