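import Crest.Agent.R335.C_c
import Crest.Agent.R335.C_d

/-!
# R335/C_e: three noninteracting particles (part of `C`, sub-lead helper10)
-/

set_option autoImplicit false

namespace Crest.Agent.R335

open MeasureTheory Set Filter Topology
open scoped Gradient RealInnerProductSpace ENNReal ContDiff
open Crest.MathPhysics.ThreeBody

theorem ce_fb {v : E3 → ℝ} (hv : FB v) : FB (oneBodyPotential v) := by
  have h := ((fb_elPos hv 0).add (fb_elPos hv 1)).add (fb_elPos hv 2)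
  have e : oneBodyPotential v = fun X : E9 => v (elPos 0 X) + v (elPos 1 X) + v (elPos 2 X) := by
    funext X
    simp only [oneBodyPotential, Fin.sum_univ_three]
  rw [e]
  exact h

theorem c_three {v : E3 → ℝ} (hv : IsSumClassPotential v) {E : ℝ}
    (hlow : ∀ F G, H1 F G → (∀ X, F (sw3 X) = -F X) → E * nsq F ≤ qf (oneBodyPotential v) F G)
    {F₀ : E9 → ℝ} {G₀ : E9 → E9} (hF₀ : H1 F₀ G₀) (anti₀ : ∀ X, F₀ (sw3 X) = -F₀ X) (h0 : 0 < nsq F₀)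
    (he₀ : qf (oneBodyPotential v) F₀ G₀ ≤ E * nsq F₀) :
    ∃ (e1 e2 : ℝ) (φ : E3 → ℝ) (Gφ : E3 → E3), OB v e1 e2 φ Gφ ∧
      ∀ F G, H1 F G → (∀ X, F (sw3 X) = -F X) → qf (oneBodyPotential v) F G ≤ E * nsq F →
        ∃ χ K, Eig v e2 χ K ∧ ip φ χ = 0 ∧
          ∀ᵐ X, F X = (φ (elPos 0 X) * χ (elPos 1 X) - χ (elPos 0 X) * φ (elPos 1 X)) * φ (elPos 2 X) := by
  have hV : FB v := FB.of_sumClass hv
  obtain ⟨s, sp1, sp2, -, -, sj⟩ := exists_spl3 2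
  replace sj := sj rfl
  have sp2' : ∀ X, s.p2 X = mk2 (elPos 0 X) (elPos 1 X) := sp2
  obtain ⟨t, tp1, tp2, tj⟩ := exists_spl2 0
  have tp2' : ∀ y, t.p2 y = pos2 1 y := tp2
  have tj' : ∀ a b, t.j a b = mk2 a b := fun a b => by rw [tj, if_pos rfl]
  set U : E6 → ℝ := fun y => v (t.p1 y) + v (t.p2 y) with hUdef
  have hU : FB U := (FB.comp_p1 t hV).add (FB.comp_p2 t hV)
  have hW : oneBodyPotential v = fun X => v (s.p1 X) + U (s.p2 X) := by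
    funext X
    simp only [oneBodyPotential, Fin.sum_univ_three, hUdef, sp1, sp2', tp1, tp2', pos2_mk2_0, pos2_mk2_1]
    ring
  rw [hW] at hlow he₀ ⊢
  -- antisymmetry of the slices
  have hsl : ∀ {F : E9 → ℝ}, (∀ X, F (sw3 X) = -F X) → ∀ x a b, F (s.j x (t.j a b)) = -F (s.j x (t.j b a)) := by
    intro F hF x a b
    rw [← hF, sj, sj, tj', tj']
    simp only [at2, sw3, pos2_mk2_0, pos2_mk2_1, elPos_mk3_0, elPos_mk3_1, elPos_mk3_2]
  have hsw : ∀ {Θ : E6 → ℝ}, (∀ a b, Θ (t.j a b) = -Θ (t.j b a)) → ∀ X, Θ (s.p2 (sw3 X)) = -Θ (s.p2 X) := by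
    intro Θ hΘ X
    rw [sp2', sp2', ← tj', ← tj', hΘ]
    simp only [sw3, elPos_mk3_0, elPos_mk3_1]
  have hp1 : ∀ X, s.p1 (sw3 X) = s.p1 X := by
    intro X
    rw [sp1, sp1]
    simp only [sw3, elPos_mk3_2]
  -- the one body infimum
  obtain ⟨y₀, hy₀, hy₀'⟩ := c_slice_pos s hF₀.mf h0 (c_slice' s hF₀)
  obtain ⟨e1, hlow1, happ⟩ := c_inf hV hy₀ hy₀'
  -- the two body lower bound
  have hlow2 : ∀ Θ J, H1 Θ J → (∀ a b, Θ (t.j a b) = -Θ (t.j b a)) → (E - e1) * nsq Θ ≤ qf U Θ J := by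
    intro Θ J hΘ anti
    refine le_of_forall_pos_le_add fun ε hε => ?_
    have hn : 0 ≤ nsq Θ := nsq_nonneg
    obtain ⟨g, K, hg, hg1, hg2⟩ := happ (ε / (nsq Θ + 1)) (by positivity)
    have h1 := hlow _ _ (H1.tensor s hg hΘ) (fun X => by rw [hsw anti, hp1]; ring)
    rw [c_qf_tt s hV hU hg hΘ, c_nsq_tt, hg1] at h1
    have h2 : qf v g K * nsq Θ ≤ (e1 + ε / (nsq Θ + 1)) * nsq Θ := mul_le_mul_of_nonneg_right hg2.le hn
    have h3 : ε / (nsq Θ + 1) * nsq Θ ≤ ε := by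
      rw [div_mul_eq_mul_div, div_le_iff₀ (by positivity)]
      nlinarith
    nlinarith
  have hmin : ∀ F G, H1 F G → (∀ X, F (sw3 X) = -F X) →
      qf (fun X => v (s.p1 X) + U (s.p2 X)) F G ≤ E * nsq F →
      ∀ᵐ y, H1 (fun a => F (s.j a y)) (fun a => s.p1 (G (s.j a y))) ∧
        qf v (fun a => F (s.j a y)) (fun a => s.p1 (G (s.j a y))) ≤ e1 * nsq fun a => F (s.j a y) := by
    intro F G hF anti he
    refine c_slice_min s hV hU hF hlow1 (e' := E - e1) ?_ (by rwa [add_sub_cancel])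
    filter_upwards [H1.slice s hF] with x hx
    exact hlow2 _ _ hx (hsl anti x)
  obtain ⟨y₁, ⟨hy₁, hy₁'⟩, hy₁''⟩ := c_slice_pos s hF₀.mf h0 (hmin _ _ hF₀ anti₀ he₀)
  obtain ⟨φ, Gφ, hφ, hn, hpos, hsimple⟩ := c_ground hV hlow1 hy₁ hy₁'' hy₁'
  -- reduction to two particles
  have hred : ∀ F G, H1 F G → (∀ X, F (sw3 X) = -F X) →
      qf (fun X => v (s.p1 X) + U (s.p2 X)) F G ≤ E * nsq F →
      ∃ Θ J, H1 Θ J ∧ (∀ a b, Θ (t.j a b) = -Θ (t.j b a)) ∧ (∀ᵐ X, F X = φ (s.p1 X) * Θ (s.p2 X)) ∧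
        nsq F = nsq Θ ∧ qf U Θ J ≤ (E - e1) * nsq Θ := by
    intro F G hF anti he
    obtain ⟨J, hJ⟩ := c_fib_h1 s hF hφ.h1.mf
    have h1 := c_ae_tensor s hF hφ.h1.mf (by
      filter_upwards [hmin F G hF anti he] with y hy
      exact hsimple _ _ hy.1 hy.2)
    obtain ⟨h2, h3⟩ := c_qf_ae s hV hU hφ.h1 hJ hF h1
    rw [hn, one_mul] at h2 h3
    rw [hφ.qf_eq, hn, mul_one] at h2
    refine ⟨_, J, hJ, fun a b => ?_, h1, h3, ?_⟩
    · simp only [ip]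
      rw [← integral_neg]
      refine integral_congr_ae (.of_forall fun x => ?_)
      simp only
      rw [hsl anti x a b]
      ring
    · rw [h2, h3] at he
      linarith
  obtain ⟨Θ₀, J₀, hΘ₀, a₀, -, n₀, q₀⟩ := hred _ _ hF₀ anti₀ he₀
  have hlt : e1 < E - e1 - e1 := by
    have h1 := c_two_lt t hV hφ.h1.mf hn hlow1 hsimple hΘ₀ a₀ (n₀ ▸ h0)
    have h2 : (e1 + e1) * nsq Θ₀ < (E - e1) * nsq Θ₀ := h1.trans_le q₀
    have h3 := lt_of_mul_lt_mul_right h2 nsq_nonneg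
    linarith
  have low := c_low hV hφ hn (c_two_orth t hV hφ hn hlow2)
  refine ⟨e1, E - e1 - e1, φ, Gφ, ⟨hv, hlt, hφ, hn, hpos, low⟩, fun F G hF anti he => ?_⟩
  obtain ⟨Θ, J, hΘ, a, h1, -, q⟩ := hred _ _ hF anti he
  obtain ⟨χ, K, hχ, h2, h3⟩ := c_two_struct t hV hφ hn hlt low hΘ a
    (by rw [show e1 + (E - e1 - e1) = E - e1 by ring]; exact q)
  refine ⟨χ, K, hχ, h2, ?_⟩
  filter_upwards [h1, s.ae_p2 h3] with X hX hX'
  rw [hX, hX', sp1, sp2', tp1, tp2', pos2_mk2_0, pos2_mk2_1]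
  ring

end Crest.Agent.R335
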