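import Crest.Agent.R335.Defs

/-!
# R335/Cross: two paths in a closed half plane must cross

If the paths `γ` (from `(a,0)` to `(c,0)`) and `δ` (from `(b,0)` to `q`) are disjoint, `F (s,t) = γ s - δ t ∈ ℂ ∖ {0}` has a continuous logarithm on the
square (`Complex.isCoveringMap_exp`, `IsCoveringMap.existsUnique_continuousMap_lifts` or homotopy lifting), normalised by `arg = π` at `(0,0)`.  Along `t = 0`
`F` stays in the closed upper half plane, so `arg ∈ [0, π]` and `arg = 0` at `(1,0)`.  Along `s = 1` and `s = 0` `F` stays in the closed lower half plane, so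
`arg (1,1) ∈ (-π, 0)` and `arg (0,1) ∈ (π, 2π)`.  Along `t = 1` `F` is in the open lower half plane: contradiction with the intermediate value theorem.
-/

set_option autoImplicit false

namespace Crest.Agent.R335

open MeasureTheory Set Filter Topology
open scoped Gradient RealInnerProductSpace ENNReal ContDiff
open Crest.MathPhysics.ThreeBody

/-- an angle with nonnegative sine cannot leave `[0, π]` -/
theorem cross_stay {θ : ℝ → ℝ} (hθ : Continuous θ) (hs : ∀ t, 0 ≤ Real.sin (θ t))
    (h0 : 0 ≤ θ 0 ∧ θ 0 ≤ Real.pi) (t : ℝ) : 0 ≤ θ t ∧ θ t ≤ Real.pi := by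
  have hπ := Real.pi_pos
  constructor
  · by_contra hc
    have hc' := not_le.1 hc
    have hy : max (θ t) (-(Real.pi / 2)) ∈ Icc (θ t) (θ 0) :=
      ⟨le_max_left _ _, max_le (by linarith [h0.1]) (by linarith [h0.1])⟩
    obtain ⟨u, hu⟩ := intermediate_value_univ t 0 hθ hy
    have h1 := hs u
    rw [hu] at h1
    have h2 := Real.sin_neg_of_neg_of_neg_pi_lt (x := max (θ t) (-(Real.pi / 2)))
      (max_lt hc' (by linarith)) (lt_of_lt_of_le (by linarith) (le_max_right _ _))
    linarith
  · by_contra hc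
    have hc' := not_le.1 hc
    have hy : min (θ t) (3 * Real.pi / 2) ∈ Icc (θ 0) (θ t) :=
      ⟨le_min (by linarith [h0.2]) (by linarith [h0.2]), min_le_left _ _⟩
    obtain ⟨u, hu⟩ := intermediate_value_univ 0 t hθ hy
    have h1 := hs u
    rw [hu] at h1
    have a1 : Real.pi < min (θ t) (3 * Real.pi / 2) := lt_min hc' (by linarith)
    have a2 : min (θ t) (3 * Real.pi / 2) ≤ 3 * Real.pi / 2 := min_le_right _ _
    have h2 := Real.sin_pos_of_pos_of_lt_pi (x := min (θ t) (3 * Real.pi / 2) - Real.pi)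
      (by linarith) (by linarith)
    rw [Real.sin_sub_pi] at h2
    linarith

/-- continuous polar coordinates of a nonvanishing map on the plane -/
theorem cross_polar {X Y : ℝ × ℝ → ℝ} (hX : Continuous X) (hY : Continuous Y)
    (h0 : ∀ p, ¬(X p = 0 ∧ Y p = 0)) :
    ∃ r θ : ℝ × ℝ → ℝ, Continuous θ ∧ ∀ p, 0 < r p ∧ X p = r p * Real.cos (θ p) ∧
      Y p = r p * Real.sin (θ p) := by
  have hsc : IsSimplyConnected (univ : Set (ℝ × ℝ)) := by
    have : ContractibleSpace (univ : Set (ℝ × ℝ)) := convex_univ.contractibleSpace univ_nonempty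
    exact SimplyConnectedSpace.ofContractible _
  have hg : Continuous fun p => (X p : ℂ) + (Y p : ℂ) * Complex.I := by fun_prop
  obtain ⟨L, hL, hE⟩ := Complex.exists_continuousOn_eqOn_exp_comp hsc isOpen_univ hg.continuousOn (by
    rintro ⟨p, -, hp⟩
    have h1 := congrArg Complex.re hp
    have h2 := congrArg Complex.im hp
    simp at h1 h2
    exact h0 p ⟨h1, h2⟩)
  have hL' : Continuous L := continuousOn_univ.1 hL
  refine ⟨fun p => Real.exp (L p).re, fun p => (L p).im, Complex.continuous_im.comp hL', fun p => ?_⟩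
  have hp : Complex.exp (L p) = (X p : ℂ) + (Y p : ℂ) * Complex.I := hE (mem_univ p)
  have h1 := congrArg Complex.re hp
  have h2 := congrArg Complex.im hp
  rw [Complex.exp_re] at h1
  rw [Complex.exp_im] at h2
  simp at h1 h2
  exact ⟨Real.exp_pos _, h1.symm, h2.symm⟩

theorem cross {A B : Set (ℝ × ℝ)} {a b c H : ℝ} {q : ℝ × ℝ} (hab : a < b) (hbc : b < c)
    (hA : ∀ p ∈ A, 0 ≤ p.2 ∧ p.2 < H) (hB : ∀ p ∈ B, 0 ≤ p.2) (h1 : JoinedIn A (a, 0) (c, 0))
    (h2 : JoinedIn B (b, 0) q) (hq : H ≤ q.2) : ¬Disjoint A B := by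
  intro hd
  have hπ := Real.pi_pos
  obtain ⟨γ, hγ⟩ := h1
  obtain ⟨δ, hδ⟩ := h2
  have hγ' : ∀ s, γ.extend s ∈ A := fun s => by
    obtain ⟨t, ht⟩ : γ.extend s ∈ range γ := by
      rw [← γ.extend_range]
      exact mem_range_self s
    rw [← ht]
    exact hγ t
  have hδ' : ∀ s, δ.extend s ∈ B := fun s => by
    obtain ⟨t, ht⟩ : δ.extend s ∈ range δ := by
      rw [← δ.extend_range]
      exact mem_range_self s
    rw [← ht]
    exact hδ t
  have cγ := γ.continuous_extend
  have cδ := δ.continuous_extend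
  obtain ⟨r, θ0, hθ0, hp0⟩ := cross_polar
    (X := fun p => (γ.extend p.1).1 - (δ.extend p.2).1)
    (Y := fun p => (γ.extend p.1).2 - (δ.extend p.2).2)
    ((cγ.comp continuous_fst).fst.sub (cδ.comp continuous_snd).fst)
    ((cγ.comp continuous_fst).snd.sub (cδ.comp continuous_snd).snd)
    (fun p hp => by
      have e : γ.extend p.1 = δ.extend p.2 := Prod.ext (sub_eq_zero.1 hp.1) (sub_eq_zero.1 hp.2)
      exact Set.disjoint_left.1 hd (hγ' p.1) (e ▸ hδ' p.2))
  have hc0 : Real.cos (θ0 (0, 0)) = -1 := by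
    obtain ⟨h1, h2, h3⟩ := hp0 (0, 0)
    simp only [Path.extend_zero, sub_self] at h2 h3
    have hs : Real.sin (θ0 (0, 0)) = 0 := by
      rcases mul_eq_zero.1 h3.symm with h | h
      · exact absurd h h1.ne'
      · exact h
    rcases Real.sin_eq_zero_iff_cos_eq.1 hs with h | h
    · rw [h] at h2
      linarith
    · exact h
  obtain ⟨k, hk⟩ := Real.cos_eq_neg_one_iff.1 hc0
  set θ : ℝ × ℝ → ℝ := fun p => θ0 p - k * (2 * Real.pi) with hθdef
  have hθ : Continuous θ := hθ0.sub continuous_const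
  have hp : ∀ p : ℝ × ℝ, 0 < r p ∧ (γ.extend p.1).1 - (δ.extend p.2).1 = r p * Real.cos (θ p) ∧
      (γ.extend p.1).2 - (δ.extend p.2).2 = r p * Real.sin (θ p) := fun p => by
    simp only [hθdef, Real.cos_sub_int_mul_two_pi, Real.sin_sub_int_mul_two_pi]
    exact hp0 p
  have h00 : θ (0, 0) = Real.pi := by
    simp only [hθdef]
    linarith
  -- bottom edge
  have hbot := cross_stay (θ := fun s => θ (s, 0)) (hθ.comp (by fun_prop)) (fun s => by
    obtain ⟨h1, -, h3⟩ := hp (s, 0)
    simp only [Path.extend_zero, sub_zero] at h3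
    have := (hA _ (hγ' s)).1
    rw [h3] at this
    exact (mul_nonneg_iff_of_pos_left h1).1 this) (by simp only [h00]; exact ⟨hπ.le, le_rfl⟩) 1
  have h10 : θ (1, 0) = 0 := by
    obtain ⟨h1, h2, h3⟩ := hp (1, 0)
    simp only [Path.extend_zero, Path.extend_one, sub_self] at h2 h3
    have hs : Real.sin (θ (1, 0)) = 0 := by
      rcases mul_eq_zero.1 h3.symm with h | h
      · exact absurd h h1.ne'
      · exact h
    rcases Real.sin_eq_zero_iff_cos_eq.1 hs with h | h
    · exact (Real.cos_eq_one_iff_of_lt_of_lt (by linarith [hbot.1]) (by linarith [hbot.2])).1 h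
    · rw [h] at h2
      linarith
  -- right edge
  have hright := cross_stay (θ := fun t => -θ (1, t)) (hθ.comp (by fun_prop)).neg (fun t => by
    obtain ⟨h1, -, h3⟩ := hp (1, t)
    simp only [Path.extend_one, zero_sub] at h3
    have := hB _ (hδ' t)
    rw [Real.sin_neg]
    refine (mul_nonneg_iff_of_pos_left h1).1 ?_
    linarith) (by simp only [h10, neg_zero]; exact ⟨le_rfl, hπ.le⟩) 1
  -- left edge
  have hleft := cross_stay (θ := fun t => θ (0, t) - Real.pi)
    ((hθ.comp (by fun_prop)).sub continuous_const) (fun t => by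
    obtain ⟨h1, -, h3⟩ := hp (0, t)
    simp only [Path.extend_zero, zero_sub] at h3
    have := hB _ (hδ' t)
    rw [Real.sin_sub_pi]
    refine (mul_nonneg_iff_of_pos_left h1).1 ?_
    linarith) (by simp only [h00, sub_self]; exact ⟨le_rfl, hπ.le⟩) 1
  -- top edge
  have hy : Real.pi / 2 ∈ Icc ((fun s => θ (s, 1)) 1) ((fun s => θ (s, 1)) 0) :=
    ⟨by simp only; linarith [hright.1], by simp only; linarith [hleft.1]⟩
  obtain ⟨s, hs⟩ := intermediate_value_univ (f := fun s => θ (s, 1)) 1 0 (hθ.comp (by fun_prop)) hy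
  obtain ⟨h1, -, h3⟩ := hp (s, 1)
  simp only at hs
  simp only [Path.extend_one] at h3
  rw [hs, Real.sin_pi_div_two] at h3
  have := (hA _ (hγ' s)).2
  linarith

end Crest.Agent.R335
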