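import Mathlib
import Crest.Prelude.Def_ThreeElectron
import Crest.Agent.R83.Defs

/-!
# R335 (S0521): definitions.  DO NOT CHANGE (owner helper56).  The paper proof is in `R335/Read.lean`.

All functions are real valued.  A Sobolev function is a pair `(f, G)` (function, weak gradient).
-/

set_option autoImplicit false

namespace Crest.Agent.R335

open MeasureTheory Set Filter Topology
open scoped Gradient RealInnerProductSpace ENNReal ContDiff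
open Crest.MathPhysics.ThreeBody

/-! ## Sobolev calculus on a finite dimensional inner product space -/

section General

variable {E : Type} [NormedAddCommGroup E] [InnerProductSpace ℝ E] [FiniteDimensional ℝ E]
  [MeasurableSpace E] [BorelSpace E]

/-- smooth functions with compact support in `Ω` -/
structure Tst (Ω : Set E) (φ : E → ℝ) : Prop where
  sm : ContDiff ℝ ∞ φ
  cpt : HasCompactSupport φ
  sub : tsupport φ ⊆ Ω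

/-- `f ∈ H¹(E)` with weak gradient `G` -/
structure H1 (f : E → ℝ) (G : E → E) : Prop where
  mf : MemLp f 2 volume
  mG : MemLp G 2 volume
  wg : ∀ φ, Tst univ φ → ∀ a : E, ∫ x, f x * fderiv ℝ φ x a = -∫ x, ⟪G x, a⟫ * φ x

/-- `f ∈ H¹_loc(Ω)` with weak gradient `G` (meant for open `Ω`) -/
def H1loc (Ω : Set E) (f : E → ℝ) (G : E → E) : Prop :=
  ∀ φ, Tst Ω φ → H1 (fun x => φ x * f x) fun x => φ x • G x + f x • ∇ φ x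

/-- `H¹` functions which vanish a.e. outside a compact subset of `Ω` -/
structure TH (Ω : Set E) (ξ : E → ℝ) (K : E → E) : Prop where
  h1 : H1 ξ K
  cpt : ∃ C, IsCompact C ∧ C ⊆ Ω ∧ ∀ᵐ x, x ∉ C → ξ x = 0 ∧ K x = 0

/-- the bilinear form of `-Δ/2 + V` -/
noncomputable def bf (V f : E → ℝ) (G : E → E) (g : E → ℝ) (K : E → E) : ℝ :=
  (1 / 2) * (∫ x, ⟪G x, K x⟫) + ∫ x, V x * (f x * g x)

/-- the quadratic form of `-Δ/2 + V` -/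
noncomputable def qf (V f : E → ℝ) (G : E → E) : ℝ :=
  (1 / 2) * (∫ x, ‖G x‖ ^ 2) + ∫ x, V x * f x ^ 2

/-- squared `L²` norm -/
noncomputable def nsq (f : E → ℝ) : ℝ := ∫ x, f x ^ 2

/-- `L²` scalar product -/
noncomputable def ip (f g : E → ℝ) : ℝ := ∫ x, f x * g x

/-- infinitesimally form bounded potentials -/
structure FB (V : E → ℝ) : Prop where
  meas : AEStronglyMeasurable V volume
  int : ∀ f G, H1 f G → Integrable fun x => V x * f x ^ 2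
  small : ∀ ε : ℝ, 0 < ε → ∃ C : ℝ, 0 ≤ C ∧ ∀ f G, H1 f G →
    ∫ x, |V x| * f x ^ 2 ≤ ε * (∫ x, ‖G x‖ ^ 2) + C * nsq f

/-- weak eigenfunction of `-Δ/2 + V` on the whole space (all `H¹` test functions) -/
structure Eig (V : E → ℝ) (e : ℝ) (f : E → ℝ) (G : E → E) : Prop where
  h1 : H1 f G
  eq : ∀ ξ K, H1 ξ K → bf V f G ξ K = e * ip f ξ

/-- a.e. bounded on compact subsets of `Ω` -/
def LB (Ω : Set E) (f : E → ℝ) : Prop :=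
  AEStronglyMeasurable f volume ∧ ∀ K, IsCompact K → K ⊆ Ω → ∃ M : ℝ, ∀ᵐ x, x ∈ K → |f x| ≤ M

/-- Kato type inequality on `Ω` for the length `y` of a vector valued function: formally
`y (-Δ y / 2) + κ y² ≤ s y + t²` -/
structure KI (Ω : Set E) (y : E → ℝ) (G : E → E) (κ s t : E → ℝ) : Prop where
  h1 : H1 y G
  nn : ∀ x, 0 ≤ y x
  bκ : LB Ω κ
  ms : MemLp (Ω.indicator s) 2 volume
  mt : MemLp (Ω.indicator t) 2 volume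
  le : ∀ ε : ℝ, 0 < ε → ∀ ξ, Tst Ω ξ → (∀ x, 0 ≤ ξ x) →
    (1 / 2) * (∫ x, y x / √(y x ^ 2 + ε ^ 2) * ⟪G x, ∇ ξ x⟫) +
      ∫ x, ξ x * ((κ x * y x ^ 2 - s x * y x - t x ^ 2) / √(y x ^ 2 + ε ^ 2)) ≤ 0

/-- weak form of `-Δ w / 2 + V w ≤ f` on `Ω` (all integrals are meant to converge) -/
def SubS (Ω : Set E) (V f w : E → ℝ) (G : E → E) : Prop :=
  ∀ ξ K, TH Ω ξ K → (∀ᵐ x, 0 ≤ ξ x) →
    (1 / 2) * (∫ x, ⟪G x, K x⟫) + ∫ x, (V x * w x - f x) * ξ x ≤ 0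

/-- weak form of `-Δ w / 2 + V w = f` on `Ω` -/
def EqS (Ω : Set E) (V f w : E → ℝ) (G : E → E) : Prop :=
  ∀ ξ K, TH Ω ξ K → (1 / 2) * (∫ x, ⟪G x, K x⟫) + ∫ x, (V x * w x - f x) * ξ x = 0

end General

/-- orthogonal splitting `E = A ⊕ B` -/
structure Spl (A B E : Type) [NormedAddCommGroup A] [InnerProductSpace ℝ A] [NormedAddCommGroup B]
    [InnerProductSpace ℝ B] [NormedAddCommGroup E] [InnerProductSpace ℝ E] where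
  i1 : A →L[ℝ] E
  i2 : B →L[ℝ] E
  p1 : E →L[ℝ] A
  p2 : E →L[ℝ] B
  p1_i1 : ∀ a, p1 (i1 a) = a
  p1_i2 : ∀ b, p1 (i2 b) = 0
  p2_i1 : ∀ a, p2 (i1 a) = 0
  p2_i2 : ∀ b, p2 (i2 b) = b
  sum : ∀ x, i1 (p1 x) + i2 (p2 x) = x
  inn : ∀ x y, ⟪x, y⟫ = ⟪p1 x, p1 y⟫ + ⟪p2 x, p2 y⟫

/-- the point with components `a`, `b` -/
def Spl.j {A B E : Type} [NormedAddCommGroup A] [InnerProductSpace ℝ A] [NormedAddCommGroup B]
    [InnerProductSpace ℝ B] [NormedAddCommGroup E] [InnerProductSpace ℝ E] (s : Spl A B E) (a : A) (b : B) : E :=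
  s.i1 a + s.i2 b

/-! ## geometry of `ℝ³`, `ℝ⁶`, `ℝ⁹` -/

abbrev E2 : Type := EuclideanSpace ℝ (Fin 2)
abbrev E3 : Type := EuclideanSpace ℝ (Fin 3)
abbrev E6 : Type := EuclideanSpace ℝ (Fin 2 × Fin 3)
abbrev E9 : Type := EuclideanSpace ℝ (Fin 3 × Fin 3)

/-- the Laplacian on `ℝ³` (calculus lemmas: `R83.Tst`, `R83.Newt`, `R83.L1b`, `R83.Sym`) -/
noncomputable abbrev lap (f : E3 → ℝ) (x : E3) : ℝ := Crest.Agent.R83.lap f x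

/-- position of electron `i` of the ion -/
def pos2 (i : Fin 2) (y : E6) : E3 := WithLp.toLp 2 fun c => y (i, c)

/-- the configuration `(a, b)` -/
def mk2 (a b : E3) : E6 := WithLp.toLp 2 fun ic => ![a, b] ic.1 ic.2

/-- the configuration `(a, b, c)` -/
def mk3 (a b c : E3) : E9 := WithLp.toLp 2 fun ic => ![a, b, c] ic.1 ic.2

/-- electron `0` at `x`, electrons `1, 2` at `y` -/
def at0 (x : E3) (y : E6) : E9 := mk3 x (pos2 0 y) (pos2 1 y)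

/-- electron `2` at `x`, electrons `0, 1` at `y` -/
def at2 (x : E3) (y : E6) : E9 := mk3 (pos2 0 y) (pos2 1 y) x

/-- exchange of the two electrons of the ion -/
def sw2 (y : E6) : E6 := mk2 (pos2 1 y) (pos2 0 y)

/-- exchange of the electrons `0` and `1` -/
def sw3 (X : E9) : E9 := mk3 (elPos 1 X) (elPos 0 X) (elPos 2 X)

/-- diagonal action of a map of `ℝ³` -/
def dg2 (T : E3 → E3) (y : E6) : E6 := mk2 (T (pos2 0 y)) (T (pos2 1 y))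

/-- diagonal action of a map of `ℝ³` -/
def dg3 (T : E3 → E3) (X : E9) : E9 := mk3 (T (elPos 0 X)) (T (elPos 1 X)) (T (elPos 2 X))

/-- distance from the axis -/
noncomputable def cyl (x : E3) : ℝ := √(x 0 ^ 2 + x 1 ^ 2)

/-- the point `(ρ, 0, z)` -/
noncomputable def pt (ρ z : ℝ) : E3 := !₂[ρ, 0, z]

/-- the complement of the axis -/
def offA : Set E3 := {x | 0 < cyl x}

/-- the exterior of a ball -/
def far (L : ℝ) : Set E3 := {x | L < ‖x‖}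

/-- isometries which fix the coordinate `z` -/
def SymP (T : E3 ≃ₗᵢ[ℝ] E3) : Prop := ∀ x, T x 2 = x 2

/-- isometries which reverse the coordinate `z` -/
def SymM (T : E3 ≃ₗᵢ[ℝ] E3) : Prop := ∀ x, T x 2 = -x 2

/-- the symmetry group `O(2) × ℤ₂` -/
def Sym (T : E3 ≃ₗᵢ[ℝ] E3) : Prop := SymP T ∨ SymM T

/-- the reflection `z ↦ -z` -/
noncomputable def refl (x : E3) : E3 := !₂[x 0, x 1, -x 2]

/-- `g = r^(b-2) e^(-k r)` -/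
noncomputable def gfun (k b : ℝ) (x : E3) : ℝ := ‖x‖ ^ (b - 2) * Real.exp (-k * ‖x‖)

/-- thickness of the layer -/
noncomputable def lam (ρ : ℝ) : ℝ := ρ ^ (-(3 / 5) : ℝ)

/-! ## the interacting system, scaled by `x ↦ x / Z` -/

/-- two unit charges at `(0, 0, ± D)` -/
noncomputable def V1 (D : ℝ) (x : E3) : ℝ :=
  -1 / ‖x - EuclideanSpace.single 2 D‖ - 1 / ‖x - EuclideanSpace.single 2 (-D)‖

/-- potential of the two electron ion -/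
noncomputable def V2 (D Z : ℝ) (y : E6) : ℝ :=
  V1 D (pos2 0 y) + V1 D (pos2 1 y) + Z⁻¹ * (1 / ‖pos2 0 y - pos2 1 y‖)

/-- repulsion between an electron at `x` and the two electrons of the ion -/
noncomputable def Wx (Z : ℝ) (x : E3) (y : E6) : ℝ := Z⁻¹ * (1 / ‖x - pos2 0 y‖ + 1 / ‖x - pos2 1 y‖)

/-- potential of the three electron system -/
noncomputable def V3 (D Z : ℝ) (X : E9) : ℝ :=
  V1 D (elPos 0 X) + V1 D (elPos 1 X) + V1 D (elPos 2 X) +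
    Z⁻¹ * (1 / ‖elPos 0 X - elPos 1 X‖ + 1 / ‖elPos 0 X - elPos 2 X‖ + 1 / ‖elPos 1 X - elPos 2 X‖)

/-- square root of the density of the state with spins `↑↑↓` and spatial part `F` -/
noncomputable def Rof (F : E9 → ℝ) (x : E3) : ℝ := √(2 * (∫ y, F (at0 x y) ^ 2) + ∫ y, F (at2 x y) ^ 2)

/-- normalised minimiser among the functions antisymmetric in the electrons `0, 1` -/
structure Min3 (D Z : ℝ) (F : E9 → ℝ) (G : E9 → E9) : Prop where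
  h1 : H1 F G
  anti : ∀ X, F (sw3 X) = -F X
  nrm : nsq F = 1
  min : ∀ F' G', H1 F' G' → (∀ᵐ X, F' (sw3 X) = -F' X) → qf (V3 D Z) F G * nsq F' ≤ qf (V3 D Z) F' G'

/-- the two lowest states of the one electron problem -/
structure OneB (D eg eu e3 : ℝ) (g : E3 → ℝ) (Gg : E3 → E3) (u : E3 → ℝ) (Gu : E3 → E3) : Prop where
  Dpos : 1 ≤ D
  eg_ : Eig (V1 D) eg g Gg
  eu_ : Eig (V1 D) eu u Gu
  ng : nsq g = 1
  nu : nsq u = 1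
  orth : ip g u = 0
  lt1 : eg < eu
  lt2 : eu < e3
  neg : eu < 0
  low : ∀ f G, H1 f G → e3 * nsq f - (e3 - eg) * ip g f ^ 2 - (e3 - eu) * ip u f ^ 2 ≤ qf (V1 D) f G
  symg : ∀ T, Sym T → ∀ᵐ x, g (T x) = g x
  symuP : ∀ T, SymP T → ∀ᵐ x, u (T x) = u x
  symuM : ∀ T, SymM T → ∀ᵐ x, u (T x) = -u x
  posg : ∀ᵐ x, 0 < g x
  posu : ∀ᵐ x, 0 < x 2 * u x
  hopf : ∀ L, D + 2 ≤ L → ∃ c : ℝ, 0 < c ∧ ∀ᵐ x, L ≤ ‖x‖ → ‖x‖ ≤ L + 4 → c * x 2 ^ 2 ≤ x 2 * u x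

/-- the aufbau state -/
noncomputable def auf (g u : E3 → ℝ) (X : E9) : ℝ :=
  (√2)⁻¹ * ((u (elPos 0 X) * g (elPos 1 X) - g (elPos 0 X) * u (elPos 1 X)) * g (elPos 2 X))

/-- spectral data of the ion and of the three electron system; `γ, a, C` are uniform in `Z`, `η` is small -/
structure Spec (D Z eu γ a C η : ℝ) (g u : E3 → ℝ) (E0 ES E : ℝ) (Φ : E6 → ℝ) (GΦ : E6 → E6)
    (Θ : E6 → ℝ) (GΘ : E6 → E6) (F : E9 → ℝ) (GF : E9 → E9) : Prop where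
  Zge : η⁻¹ ≤ Z
  eΦ : Eig (V2 D Z) E0 Φ GΦ
  eΘ : Eig (V2 D Z) ES Θ GΘ
  eF : Eig (V3 D Z) E F GF
  nΦ : nsq Φ = 1
  nΘ : nsq Θ = 1
  min : Min3 D Z F GF
  gap : ∀ f G, H1 f G → (E0 + γ) * nsq f - γ * ip Φ f ^ 2 ≤ qf (V2 D Z) f G
  E0le : E0 ≤ 0
  ion : |E0 - E + eu| ≤ η
  swΦ : ∀ᵐ y, Φ (sw2 y) = Φ y
  symΦ : ∀ T, Sym T → ∀ᵐ y, Φ (dg2 T y) = Φ y
  oddΘ : ∀ᵐ y, Θ (dg2 refl y) = -Θ y
  symFP : ∀ T, SymP T → ∀ᵐ X, F (dg3 T X) = F X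
  symFM : ∀ T, SymM T → ∀ᵐ X, F (dg3 T X) = -F X
  decΦ : Integrable (fun y => Real.exp (2 * a * ‖y‖) * (Φ y ^ 2 + ‖GΦ y‖ ^ 2)) ∧
    ∫ y, Real.exp (2 * a * ‖y‖) * (Φ y ^ 2 + ‖GΦ y‖ ^ 2) ≤ C
  decΘ : Integrable fun y => Real.exp (2 * a * ‖y‖) * (Θ y ^ 2 + ‖GΘ y‖ ^ 2)
  decF : Integrable fun X => Real.exp (2 * a * ‖X‖) * (F X ^ 2 + ‖GF X‖ ^ 2)
  clΦ : nsq (fun y => Φ y - g (pos2 0 y) * g (pos2 1 y)) ≤ η
  clF : nsq (fun X => F X - auf g u X) ≤ η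
  dip : ∫ y, Θ y * ((pos2 0 y 2 + pos2 1 y 2) * Φ y) < 0

/-- scalar inequalities for the components of the three electron ground state.  `I` is the ionisation energy;
`γ, a, C` are uniform in `Z`, `C', μ` depend on `Z`. -/
structure Scal (D Z eu γ a C η : ℝ) (u R : E3 → ℝ) (I γS C' μ : ℝ) (GR : E3 → E3) (d : E3 → ℝ) (Gd : E3 → E3)
    (q : E3 → ℝ) (Gq : E3 → E3) (yw : E3 → ℝ) (Gw : E3 → E3) (yo : E3 → ℝ) (Go : E3 → E3) (ye : E3 → ℝ)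
    (dS : E3 → ℝ) (GS : E3 → E3) (W S σ : E3 → ℝ) : Prop where
  Zge : η⁻¹ ≤ Z
  ion : |I + eu| ≤ η
  gapS : γ ≤ γS
  μpos : 0 < μ
  nR : nsq R = 3
  symR : ∀ T, Sym T → ∀ᵐ x, R (T x) = R x
  /-- valid on the complement of the nuclei -/
  kR0 : KI {x | x ≠ EuclideanSpace.single 2 D ∧ x ≠ EuclideanSpace.single 2 (-D)} R GR
    (fun x => I + V1 D x) 0 0
  mW : Measurable W
  W0 : ∀ x, 0 ≤ W x
  Wa : ∀ x, D + 1 < ‖x‖ → |W x - 2 / (Z * ‖x‖)| ≤ C / (Z * ‖x‖ ^ 2)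
  /-- Hoffmann-Ostenhof inequality with the mean repulsion; `W ≤ γ / 2` holds far out -/
  kR : ∀ L, D + 1 ≤ L → (∀ x, L < ‖x‖ → W x ≤ γ / 2) →
    KI (far L) R GR (fun x => I + V1 D x + W x - C / ‖x‖ ^ 4) 0 0
  hd : H1 d Gd
  oddd : ∀ᵐ x, d (refl x) = -d x
  cld : nsq (fun x => d x - u x) ≤ C * η
  mS : Measurable S
  eqd : EqS (far (D + 1)) (fun x => I + V1 D x + W x) (fun x => -S x) d Gd
  Sle : ∀ᵐ x, D + 1 < ‖x‖ → |S x| ≤ C / (Z * ‖x‖ ^ 2) * q x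
  pyth : ∀ᵐ x, R x ^ 2 = d x ^ 2 + q x ^ 2
  kq : KI (far (D + 1)) q Gq (fun x => I + V1 D x + γ) (fun x => C / (Z * ‖x‖ ^ 2) * |d x|) 0
  kw : KI (far (D + 1)) yw Gw (fun x => I + V1 D x + γ / 2) 0 fun x => C' * R x
  pyth' : ∀ᵐ x, R x ^ 2 = yo x ^ 2 + ye x ^ 2
  ko : KI (far (D + 1)) yo Go (fun x => I + V1 D x + γ / 2)
    (fun x => C' * ((1 + |x 2|) / ‖x‖ ^ 3 * |d x| + q x / ‖x‖)) fun x => C' * (Real.exp (-a * ‖x‖ / 4) * yw x)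
  thin : ∃ M : ℝ, ∀ ε : ℝ, 0 < ε → ∫ x in {x : E3 | |x 2| < ε}, ye x ^ 2 ≤ M * ε ^ 2
  mye : MemLp ye 2 volume
  hS : H1 dS GS
  dSle : ∀ᵐ x, |dS x| ≤ R x
  mσ : Measurable σ
  eqS : EqS (far (D + 1)) (fun x => I + γS + V1 D x + 2 / (Z * ‖x‖)) σ dS GS
  σa : ∀ᵐ x, D + 1 < ‖x‖ →
    |σ x - μ * x 2 / ‖x‖ ^ 3 * d x| ≤ C' * ((1 + |x 2|) / ‖x‖ ^ 4 * |d x| + q x / ‖x‖ ^ 2)

/-- everything the Kohn-Sham side has to know about the square root `R` of the density -/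
structure Tail (k b L C c : ℝ) (R : E3 → ℝ) (GR : E3 → E3) (d : E3 → ℝ) (Gd : E3 → E3) (V0 S : E3 → ℝ) :
    Prop where
  kpos : 0 < k
  Lge : 1 ≤ L
  Cge : 1 ≤ C
  cpos : 0 < c
  hR : H1 R GR
  R0 : ∀ x, 0 ≤ R x
  hd : H1 d Gd
  sym : ∀ T, Sym T → ∀ᵐ x, R (T x) = R x
  bdd : LB offA R
  mV : Measurable V0
  mS : Measurable S
  V0a : ∀ x, L < ‖x‖ → |2 * V0 x - (k ^ 2 - 2 * k * b / ‖x‖)| ≤ C / ‖x‖ ^ 2
  sub : SubS (far L) (fun x => V0 x - C / ‖x‖ ^ 4) 0 R GR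
  eqd : EqS (far L) V0 S d Gd
  Sle : ∀ᵐ x, L < ‖x‖ → |S x| ≤ C * (1 + |x 2|) / ‖x‖ ^ 4 * gfun k b x
  dle : ∀ᵐ x, |d x| ≤ R x
  dlow : ∀ᵐ x, L < ‖x‖ → c * x 2 ^ 2 * gfun k b x ≤ x 2 * d x
  dup : ∀ᵐ x, L < ‖x‖ → |d x| ≤ C * |x 2| * gfun k b x
  qup : ∀ᵐ x, L < ‖x‖ → R x ^ 2 ≤ d x ^ 2 + (C * (1 + |x 2|) / ‖x‖ ^ 2 * gfun k b x) ^ 2
  low : ∀ᵐ x, L < ‖x‖ → c / ‖x‖ ^ 3 * gfun k b x ≤ R x
  plane : ∃ (Ro Re : E3 → ℝ) (M : ℝ), MemLp Re 2 volume ∧ (∀ᵐ x, R x ^ 2 = Ro x ^ 2 + Re x ^ 2) ∧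
    (∀ᵐ x, L < ‖x‖ → |Ro x| ≤ C * (1 + x 2 ^ 2) / ‖x‖ ^ 3 * gfun k b x) ∧
    ∀ ε : ℝ, 0 < ε → ∫ x in {x : E3 | |x 2| < ε}, Re x ^ 2 ≤ M * ε ^ 2

/-! ## the Kohn-Sham side -/

/-- ground state and second level of `-Δ/2 + v` -/
structure OB (v : E3 → ℝ) (e1 e2 : ℝ) (φ : E3 → ℝ) (Gφ : E3 → E3) : Prop where
  cls : IsSumClassPotential v
  lt : e1 < e2
  eig : Eig v e1 φ Gφ
  nφ : nsq φ = 1
  pos : ∀ᵐ x, 0 < φ x
  low : ∀ f G, H1 f G → e2 * nsq f - (e2 - e1) * ip φ f ^ 2 ≤ qf v f G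

/-- ensemble representation of the density `R²` -/
structure KS (v : E3 → ℝ) (e1 e2 : ℝ) (φ : E3 → ℝ) (Gφ : E3 → E3) (ψ : ℕ → E3 → ℝ) (Gψ : ℕ → E3 → E3)
    (R : E3 → ℝ) : Prop where
  ob : OB v e1 e2 φ Gφ
  eig : ∀ j, Eig v e2 (ψ j) (Gψ j)
  sum : HasSum (fun j => nsq (ψ j)) 1
  dens : ∀ᵐ x, HasSum (fun j => ψ j x ^ 2) (R x ^ 2 - 2 * φ x ^ 2)

/-- rotation and reflection invariant potentials -/
def SymV (v : E3 → ℝ) : Prop := ∀ T, Sym T → ∀ᵐ x, v (T x) = v x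

/-- eigenfunctions which are continuous off the axis and dominated by a multiple of `R` -/
structure Orb (v : E3 → ℝ) (e : ℝ) (R f : E3 → ℝ) (G : E3 → E3) : Prop where
  eig : Eig v e f G
  cont : ContinuousOn f offA
  dom : ∃ M : ℝ, ∀ᵐ x, |f x| ≤ M * R x

/-- invariant under the whole group, pointwise off the axis -/
def Even3 (f : E3 → ℝ) : Prop := ∀ T, Sym T → ∀ x ∈ offA, f (T x) = f x

/-- the odd orbital -/
structure OddU (v : E3 → ℝ) (e2 : ℝ) (R u : E3 → ℝ) (Gu : E3 → E3) : Prop where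
  orb : Orb v e2 R u Gu
  symP : ∀ T, SymP T → ∀ x ∈ offA, u (T x) = u x
  symM : ∀ T, SymM T → ∀ x ∈ offA, u (T x) = -u x
  pos : ∀ x ∈ offA, 0 < x 2 → 0 < u x

/-- after the symmetry reduction: one odd orbital and countably many invariant ones -/
structure KS2 (v : E3 → ℝ) (e1 e2 : ℝ) (R φ : E3 → ℝ) (Gφ : E3 → E3) (u : E3 → ℝ) (Gu : E3 → E3)
    (ψ : ℕ → E3 → ℝ) (Gψ : ℕ → E3 → E3) : Prop where
  ob : OB v e1 e2 φ Gφ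
  sv : SymV v
  oφ : Orb v e1 R φ Gφ
  evφ : Even3 φ
  posφ : ∀ x ∈ offA, 0 < φ x
  ou : OddU v e2 R u Gu
  oψ : ∀ j, Orb v e2 R (ψ j) (Gψ j)
  evψ : ∀ j, Even3 (ψ j)
  sum : Summable fun j => nsq (ψ j)
  dens : ∀ᵐ x, HasSum (fun j => ψ j x ^ 2) (R x ^ 2 - 2 * φ x ^ 2 - u x ^ 2)
  kato : ∀ GR, H1 R GR → SubS univ (fun x => v x - e2) 0 R GR

/-- the reduced situation: three orbitals, ordered signs on the plane (`ψ = 0` is allowed) -/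
structure Red (k b L C c : ℝ) (R : E3 → ℝ) (GR : E3 → E3) (d : E3 → ℝ) (Gd : E3 → E3) (V0 S v : E3 → ℝ)
    (e1 e2 : ℝ) (φ : E3 → ℝ) (Gφ : E3 → E3) (u : E3 → ℝ) (Gu : E3 → E3) (ψ : E3 → ℝ) (Gψ : E3 → E3) : Prop where
  tail : Tail k b L C c R GR d Gd V0 S
  cls : IsSumClassPotential v
  sv : SymV v
  lt : e1 < e2
  oφ : Orb v e1 R φ Gφ
  evφ : Even3 φ
  posφ : ∀ x ∈ offA, 0 < φ x
  ou : OddU v e2 R u Gu
  oψ : Orb v e2 R ψ Gψ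
  evψ : Even3 ψ
  dens : ∀ᵐ x, R x ^ 2 = 2 * φ x ^ 2 + u x ^ 2 + ψ x ^ 2
  kato : SubS univ (fun x => v x - e2) 0 R GR
  ulow : ∀ x, L ≤ cyl x → lam (cyl x) / 16 ≤ x 2 → x 2 ≤ cyl x / 2 → c * x 2 * gfun k b x ≤ u x
  ord : ∀ r r', 0 < r → 0 < r' → ψ (pt r 0) < 0 → 0 < ψ (pt r' 0) → r < r'
  farp : ∀ r, L ≤ r → 0 ≤ ψ (pt r 0)

/-- the ratio `τ = ψ / u` in cylindrical coordinates -/
noncomputable def tau (u ψ : E3 → ℝ) (ρ z : ℝ) : ℝ := ψ (pt ρ z) / u (pt ρ z)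

/-- `|τ| ≤ A` on the strip around the height `lam ρ₀` -/
def StripB (u ψ : E3 → ℝ) (ρ₀ A : ℝ) : Prop :=
  ∀ ρ z, ρ₀ / 2 ≤ ρ → ρ ≤ 2 * ρ₀ → lam ρ₀ / 4 ≤ z → z ≤ 4 * lam ρ₀ → |tau u ψ ρ z| ≤ A

/-- `φ ≤ ρ^(-m) z g` on the sector above the layer -/
def PhiB (k b : ℝ) (φ : E3 → ℝ) (m : ℝ) : Prop :=
  ∃ L' : ℝ, ∀ x, L' ≤ cyl x → lam (cyl x) / 8 ≤ x 2 → x 2 ≤ cyl x / 5 → φ x ≤ cyl x ^ (-m) * x 2 * gfun k b x

/-- `ψ ≥ c' ρ^(-3) g` on the plane, `φ` is negligible near the plane -/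
def Post (k b : ℝ) (φ ψ : E3 → ℝ) : Prop :=
  ∃ L' c' : ℝ, 0 < c' ∧ (∀ r, L' ≤ r → c' / r ^ 3 * gfun k b (pt r 0) ≤ ψ (pt r 0)) ∧
    ∀ x, L' ≤ cyl x → |x 2| ≤ 1 → φ x ≤ cyl x ^ (-12 : ℝ) * gfun k b x

end Crest.Agent.R335
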