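import Crest.Agent.R335.Ga

/-!
# R335/Gd: comparison of `gfun`, `Gz` on blocks (`norm_sub_cyl`, `rpow_cmp`, `norm_le_cyl_add`), the region `Om`
-/

set_option autoImplicit false

namespace Crest.Agent.R335

open MeasureTheory Set Filter Topology
open scoped Gradient RealInnerProductSpace ENNReal ContDiff
open Crest.MathPhysics.ThreeBody

variable {k b L C c e1 e2 : ℝ} {R d V0 S v φ u ψ : E3 → ℝ} {GR Gd Gφ Gu Gψ : E3 → E3}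

theorem Gz_pos (k b : ℝ) {ρ : ℝ} (h : 0 < ρ) : 0 < Gz k b ρ := by
  unfold Gz
  positivity

theorem measurable_Gz (k b : ℝ) : Measurable (Gz k b) := by
  unfold Gz
  fun_prop

theorem continuousOn_Gz (k b : ℝ) : ContinuousOn (Gz k b) (Ioi 0) := by
  unfold Gz
  exact (by fun_prop : Continuous fun ρ : ℝ => Real.exp (k * ρ)).continuousOn.mul
    (continuousOn_id.rpow_const fun x hx => Or.inl (ne_of_gt hx))

theorem Gz_cmp (k b : ℝ) : ∃ M : ℝ, 1 ≤ M ∧ ∀ ρ₀ ρ : ℝ, 0 < ρ₀ → ρ₀ / 2 ≤ ρ → ρ ≤ 2 * ρ₀ →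
    Gz k b ρ ≤ M * (ρ₀ ^ (-(b + 1 / 2)) * Real.exp (k * ρ)) ∧ ρ₀ ^ (-(b + 1 / 2)) * Real.exp (k * ρ) ≤ M * Gz k b ρ := by
  obtain ⟨M, hM, h⟩ := rpow_cmp (-(b + 1 / 2))
  refine ⟨M, hM, fun ρ₀ ρ h0 h1 h2 => ?_⟩
  obtain ⟨a1, a2⟩ := h ρ₀ ρ h0 (by linarith) (by linarith)
  have e := (Real.exp_pos (k * ρ)).le
  unfold Gz
  exact ⟨by nlinarith [mul_le_mul_of_nonneg_left a1 e], by nlinarith [mul_le_mul_of_nonneg_left a2 e]⟩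

/-- `‖x‖ ≤ 3/2 ρ₀` -/
theorem gfun_up (hk : 0 < k) (b : ℝ) : ∃ M : ℝ, 1 ≤ M ∧ ∀ (ρ₀ : ℝ) (x : E3), 0 < ρ₀ → ρ₀ / 2 ≤ cyl x → cyl x ≤ 7 / 5 * ρ₀ →
    |x 2| ≤ ρ₀ / 10 → gfun k b x ≤ M * ρ₀ ^ (b - 2) * (Real.exp (-(k * cyl x)) * Real.exp (-(k * x 2 ^ 2 / (3 * ρ₀)))) := by
  obtain ⟨M, hM, h⟩ := rpow_cmp (b - 2)
  refine ⟨M, hM, fun ρ₀ x h0 h1 h2 h3 => ?_⟩
  have n1 := cyl_le_norm x
  have n2 := norm_le_cyl_add x
  have hc : 0 < cyl x := by linarith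
  have hx : 0 < ‖x‖ := by linarith
  have a1 := (h ρ₀ ‖x‖ h0 (by linarith) (by linarith)).1
  have a2 : x 2 ^ 2 / (3 * ρ₀) ≤ ‖x‖ - cyl x :=
    (div_le_div_of_nonneg_left (sq_nonneg _) (by positivity) (by linarith)).trans (norm_sub_cyl x hc).1
  unfold gfun
  refine mul_le_mul a1 ?_ (Real.exp_pos _).le (by positivity)
  rw [← Real.exp_add, Real.exp_le_exp, mul_div_assoc]
  nlinarith [mul_le_mul_of_nonneg_left a2 hk.le]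

theorem gfun_low (hk : 0 < k) (b : ℝ) : ∃ M : ℝ, 1 ≤ M ∧ ∀ (ρ₀ : ℝ) (x : E3), 0 < ρ₀ → ρ₀ ≤ cyl x → cyl x ≤ 2 * ρ₀ →
    |x 2| ≤ ρ₀ → ρ₀ ^ (b - 2) * (Real.exp (-(k * cyl x)) * Real.exp (-(k * x 2 ^ 2 / (2 * ρ₀)))) ≤ M * gfun k b x := by
  obtain ⟨M, hM, h⟩ := rpow_cmp (b - 2)
  refine ⟨M, hM, fun ρ₀ x h0 h1 h2 h3 => ?_⟩
  have n1 := cyl_le_norm x
  have n2 := norm_le_cyl_add x
  have hc : 0 < cyl x := by linarith
  have hx : 0 < ‖x‖ := by linarith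
  have a1 := (h ρ₀ ‖x‖ h0 (by linarith) (by linarith)).2
  have a2 : ‖x‖ - cyl x ≤ x 2 ^ 2 / (2 * ρ₀) :=
    (norm_sub_cyl x hc).2.trans (div_le_div_of_nonneg_left (sq_nonneg _) (by positivity) (by linarith))
  unfold gfun
  rw [← mul_assoc M]
  refine mul_le_mul a1 ?_ (by positivity) (by positivity)
  rw [← Real.exp_add, Real.exp_le_exp, mul_div_assoc]
  nlinarith [mul_le_mul_of_nonneg_left a2 hk.le]

/-- without the Gaussian factor -/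
theorem gfun_exp (k b : ℝ) : ∃ M : ℝ, 1 ≤ M ∧ ∀ (ρ₀ : ℝ) (x : E3), 0 < ρ₀ → ρ₀ / 2 ≤ cyl x → cyl x ≤ 2 * ρ₀ →
    |x 2| ≤ ρ₀ → gfun k b x * Real.exp (k * (‖x‖ - cyl x)) ≤ M * ρ₀ ^ (b - 2) * Real.exp (-(k * cyl x)) := by
  obtain ⟨M, hM, h⟩ := rpow_cmp (b - 2)
  refine ⟨M, hM, fun ρ₀ x h0 h1 h2 h3 => ?_⟩
  have n1 := cyl_le_norm x
  have n2 := norm_le_cyl_add x
  have a1 := (h ρ₀ ‖x‖ h0 (by linarith) (by linarith)).1
  unfold gfun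
  rw [mul_assoc, ← Real.exp_add, show -k * ‖x‖ + k * (‖x‖ - cyl x) = -(k * cyl x) by ring]
  exact mul_le_mul_of_nonneg_right a1 (Real.exp_pos _).le

theorem gfun_pt (k b : ℝ) (x : E3) : gfun k b (pt (cyl x) |x 2|) = gfun k b x ∧ ‖pt (cyl x) |x 2|‖ = ‖x‖ := by
  have h : ‖pt (cyl x) |x 2|‖ = ‖x‖ := by
    refine (pow_left_inj₀ (norm_nonneg _) (norm_nonneg _) two_ne_zero).1 ?_
    rw [norm_sq_cyl, norm_sq_cyl x, cyl_pt (cyl_nonneg x), pt_2, sq_abs]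
  exact ⟨by rw [gfun, gfun, h], h⟩

theorem measurableSet_Om (k : ℝ) : MeasurableSet (Om k) := by
  have h1 := continuous_cyl.measurable
  have h2 : Measurable fun x : E3 => x 2 := (EuclideanSpace.proj 2 : E3 →L[ℝ] ℝ).continuous.measurable
  have h3 : Measurable fun x : E3 => lam (cyl x) := measurable_lam.comp h1
  have h4 : MeasurableSet {x : E3 | 2 * lam (cyl x) ≤ x 2} := measurableSet_le (by fun_prop) h2
  have h5 : MeasurableSet {x : E3 | x 2 ^ 2 ≤ 1000 / k * cyl x * Real.log (cyl x)} :=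
    measurableSet_le (by fun_prop) (by fun_prop)
  exact h4.inter h5

theorem Om_small (hk : 0 < k) : ∃ L' : ℝ, 3 ≤ L' ∧ ∀ x ∈ Om k, L' ≤ cyl x → 0 < x 2 ∧ x 2 < cyl x / 100 := by
  obtain ⟨L', hL⟩ := eventually_atTop.1 (ev_log (a := 1) (a' := 2) (by norm_num) (20000 * (1000 / k)) 1)
  refine ⟨max 3 L', le_max_left _ _, fun x hx h => ?_⟩
  have h3 : 3 ≤ cyl x := (le_max_left _ _).trans h
  have h4 := hL (cyl x) ((le_max_right _ _).trans h)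
  rw [Real.rpow_one, Real.rpow_two, pow_one] at h4
  have h5 : 0 < x 2 := lt_of_lt_of_le (mul_pos two_pos (lam_pos (by linarith))) hx.1
  refine ⟨h5, lt_of_pow_lt_pow_left₀ 2 (by linarith) ?_⟩
  have h6 := hx.2
  nlinarith

theorem Ew_nonneg (k : ℝ) {ρ₀ : ℝ} (h : 0 < ρ₀) (ρ : ℝ) : (ρ₀ ^ 2)⁻¹ ≤ Ew k ρ₀ ρ ∧ Ew k ρ₀ ρ ≤ (ρ₀ ^ 2)⁻¹ + 2 * ρ₀⁻¹ := by
  have a : ∀ A : Set ℝ, 0 ≤ A.indicator (1 : ℝ → ℝ) ρ ∧ A.indicator (1 : ℝ → ℝ) ρ ≤ 1 := fun A => by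
    by_cases h : ρ ∈ A <;> simp [h]
  have h1 := a (Icc ρ₀ (ρ₀ + Real.log ρ₀ / k))
  have h2 := a (Icc (6 / 5 * ρ₀) (6 / 5 * ρ₀ + Real.log ρ₀ / k))
  have h3 := inv_pos.2 h
  unfold Ew
  constructor <;> nlinarith [h1.1, h1.2, h2.1, h2.2]

theorem measurable_Ew (k ρ₀ : ℝ) : Measurable (Ew k ρ₀) := by
  unfold Ew
  exact measurable_const.add (measurable_const.mul
    ((measurable_one.indicator measurableSet_Icc).add (measurable_one.indicator measurableSet_Icc)))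

theorem isOpen_upA : IsOpen upA := by
  exact (isOpen_lt continuous_const continuous_cyl).inter
    (isOpen_lt continuous_const (EuclideanSpace.proj 2 : E3 →L[ℝ] ℝ).continuous)

end Crest.Agent.R335
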