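import Crest.Agent.R335.Gh1
import Crest.Agent.R335.Gd

/-!
# R335/Gh2: the window.  `H ρ = Gz k b ρ * Z ρ`, `Z ρ = (ζ (ρ - ρ₀) - ζ (ρ - 6/5 ρ₀)) (1 - σ ρ)`, `σ` a step from `5/4 ρ₀` to `13/10 ρ₀`; `H` is `C²` since `Z = 0` for `ρ ≤ ρ₀`.
With `β = b + 1/2`: `Gz' = (k - β/ρ) Gz`, `Gz'' = ((k - β/ρ)² + β/ρ²) Gz`, so
`H'' + H'/ρ - (k² - 2 k b/ρ) H = Gz (Z'' + 2 k Z' - 2 b Z'/ρ + β² Z/ρ²)` and `H' - k H = Gz (Z' - β Z/ρ)`.  `exp (-2 k t) ≤ ρ₀⁻²` for `t ≥ log ρ₀/k`.  On the support of `σ'` everything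
carries the factor `exp (-k ρ₀/10) ≤ ρ₀⁻²`; the supports of `θ (· - ρ₀)`, `θ (· - 6/5 ρ₀)` lie in `{σ = 0}`.  First prove the bounds for `Z` in a separate lemma.
-/

set_option autoImplicit false

namespace Crest.Agent.R335

open MeasureTheory Set Filter Topology
open scoped Gradient RealInnerProductSpace ENNReal ContDiff
open Crest.MathPhysics.ThreeBody

variable {k b L C c e1 e2 : ℝ} {R d V0 S v φ u ψ : E3 → ℝ} {GR Gd Gφ Gu Gψ : E3 → E3}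

theorem gh2_Gz_deriv (k b : ℝ) {ρ : ℝ} (h : 0 < ρ) :
    HasDerivAt (Gz k b) ((k - (b + 1 / 2) / ρ) * Gz k b ρ) ρ := by
  have h1 := ((hasDerivAt_id' ρ).const_mul k).exp
  have h2 := Real.hasDerivAt_rpow_const (x := ρ) (p := -(b + 1 / 2)) (Or.inl h.ne')
  refine (h1.fun_mul h2).congr_deriv ?_
  unfold Gz
  rw [Real.rpow_sub_one h.ne']
  field_simp
  ring

theorem gh2_d {Z : ℝ → ℝ} (hZ : ContDiff ℝ 2 Z) (r : ℝ) :
    HasDerivAt Z (deriv Z r) r ∧ HasDerivAt (deriv Z) (deriv (deriv Z) r) r :=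
  ⟨(hZ.differentiable two_ne_zero r).hasDerivAt, ((hZ.deriv' (n := 1)).differentiable one_ne_zero r).hasDerivAt⟩

theorem gh2_H (k b : ℝ) {Z : ℝ → ℝ} (hZ : ContDiff ℝ 2 Z) {ρ : ℝ} (h : 0 < ρ) :
    deriv (fun r => Gz k b r * Z r) ρ = Gz k b ρ * ((k - (b + 1 / 2) / ρ) * Z ρ + deriv Z ρ) ∧
    deriv (deriv fun r => Gz k b r * Z r) ρ = Gz k b ρ * (((k - (b + 1 / 2) / ρ) ^ 2 + (b + 1 / 2) / ρ ^ 2) * Z ρ +
      2 * (k - (b + 1 / 2) / ρ) * deriv Z ρ + deriv (deriv Z) ρ) := by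
  have e1 : ∀ r, 0 < r → deriv (fun r => Gz k b r * Z r) r =
      Gz k b r * ((k - (b + 1 / 2) / r) * Z r + deriv Z r) := fun r hr => by
    rw [((gh2_Gz_deriv k b hr).fun_mul (gh2_d hZ r).1).deriv]
    ring
  refine ⟨e1 ρ h, ?_⟩
  have e2 : deriv (fun r => Gz k b r * Z r) =ᶠ[𝓝 ρ] fun r => Gz k b r * ((k - (b + 1 / 2) / r) * Z r + deriv Z r) := by
    filter_upwards [Ioi_mem_nhds h] with r hr using e1 r hr
  have hp : HasDerivAt (fun r : ℝ => k - (b + 1 / 2) / r) ((b + 1 / 2) / ρ ^ 2) ρ := by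
    refine (((hasDerivAt_const ρ (b + 1 / 2)).fun_div (hasDerivAt_id' ρ) h.ne').const_sub k).congr_deriv ?_
    ring
  rw [e2.deriv_eq, ((gh2_Gz_deriv k b h).fun_mul ((hp.fun_mul (gh2_d hZ ρ).1).fun_add (gh2_d hZ ρ).2)).deriv]
  ring

theorem gh2_smooth (k b : ℝ) {Z : ℝ → ℝ} (hZ : ContDiff ℝ 2 Z) {ρ₀ : ℝ} (h : 0 < ρ₀) (h0 : ∀ ρ, ρ ≤ ρ₀ → Z ρ = 0) :
    ContDiff ℝ 2 fun r => Gz k b r * Z r := by
  refine contDiff_iff_contDiffAt.2 fun ρ => ?_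
  rcases lt_or_ge ρ ρ₀ with h1 | h1
  · refine (contDiffAt_const (c := 0)).congr_of_eventuallyEq ?_
    filter_upwards [Iio_mem_nhds h1] with r hr
    rw [h0 r (le_of_lt hr), mul_zero]
  · refine ContDiffAt.mul ?_ hZ.contDiffAt
    exact (by fun_prop : ContDiffAt ℝ 2 (fun r : ℝ => Real.exp (k * r)) ρ).mul
      (contDiffAt_id.rpow_const_of_ne (by simp only [id]; linarith))

theorem gh2_mul {x y a b : ℝ} (hx : |x| ≤ a) (hy : |y| ≤ b) : |x * y| ≤ a * b := by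
  rw [abs_mul]
  exact mul_le_mul hx hy (abs_nonneg _) ((abs_nonneg _).trans hx)

/-- the bounds for `Z` -/
structure gh2_ZB (k A c ρ₀ : ℝ) (θ Z : ℝ → ℝ) : Prop where
  sm : ContDiff ℝ 2 Z
  zero : ∀ ρ, ρ ≤ ρ₀ ∨ 13 / 10 * ρ₀ ≤ ρ → Z ρ = 0
  nn : ∀ ρ, 0 ≤ Z ρ
  le : ∀ ρ, |Z ρ| ≤ A ∧ |deriv Z ρ| ≤ A ∧ |deriv (deriv Z) ρ| ≤ A
  low : ∀ ρ, ρ₀ + 3 ≤ ρ → ρ ≤ 6 / 5 * ρ₀ → c ≤ Z ρ
  eq : ∀ ρ, |deriv (deriv Z) ρ + 2 * k * deriv Z ρ - (θ (ρ - ρ₀) - θ (ρ - 6 / 5 * ρ₀))| ≤ A * (ρ₀ ^ 2)⁻¹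
  eq' : ∀ ρ, |deriv Z ρ| ≤ A * (ρ₀ * Ew k ρ₀ ρ)

theorem gh2_Z (hk : 0 < k) : ∃ (θ : ℝ → ℝ) (A c L' : ℝ), 1 ≤ A ∧ 0 < c ∧ 1 ≤ L' ∧ Continuous θ ∧ (∀ t, 0 ≤ θ t ∧ θ t ≤ 1) ∧
    (∀ t, t ≤ 0 ∨ 3 ≤ t → θ t = 0) ∧ (∀ t, 1 ≤ t → t ≤ 2 → θ t = 1) ∧ ∀ ρ₀, L' ≤ ρ₀ → ∃ Z, gh2_ZB k A c ρ₀ θ Z := by
  obtain ⟨θ, ζ, M, hM, hθc, hθ, hθ0, hθ1, hζ, hζ0, hmono, hζ3, hζM, hζ', hode, hdec⟩ := exists_zeta hk
  obtain ⟨N, hN, hstep⟩ := exists_step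
  obtain ⟨L₁, hL₁⟩ := eventually_atTop.1 (ev_exp (κ := k / 10) (by positivity) 1 0 (-2))
  have hMN : 1 ≤ M * N := one_le_mul_of_one_le_of_one_le hM hN
  have hkMN : k * M ≤ k * (M * N) := mul_le_mul_of_nonneg_left (le_mul_of_one_le_right (by linarith) hN) hk.le
  have hM' : M ≤ M * N := le_mul_of_one_le_right (by linarith) hN
  have hk' : 0 ≤ k * M := by positivity
  refine ⟨θ, 5 * (M * N) + 4 * (k * (M * N)), ζ 3, max L₁ 60, by linarith, hζ3, le_max_of_le_right (by norm_num), hθc,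
    hθ, hθ0, hθ1, fun ρ₀ hρ => ?_⟩
  have h60 : 60 ≤ ρ₀ := (le_max_right _ _).trans hρ
  have hρ0 : 0 < ρ₀ := by linarith
  have hE : Real.exp (-(k / 10) * ρ₀) ≤ (ρ₀ ^ 2)⁻¹ := by
    have := hL₁ ρ₀ ((le_max_left _ _).trans hρ)
    rwa [Real.rpow_zero, one_mul, one_mul, Real.rpow_neg hρ0.le, Real.rpow_two] at this
  obtain ⟨σ, hσ, hσ01, hσ0, hσ1, hσd, hσz⟩ := hstep (5 / 4 * ρ₀) (13 / 10 * ρ₀) (by linarith)
  have hσN : ∀ t, |deriv σ t| ≤ N ∧ |deriv (deriv σ) t| ≤ N := fun t =>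
    ⟨(hσd t).1.trans (div_le_self (by linarith) (by linarith)),
      (hσd t).2.trans (div_le_self (by linarith) (one_le_pow₀ (by linarith)))⟩
  have hζnn : ∀ t, 0 ≤ ζ t := fun t => by
    rcases le_total t 0 with h | h
    · exact (hζ0 t h).ge
    · exact (hζ0 0 le_rfl).ge.trans (hmono h)
  obtain ⟨Y, hY⟩ : ∃ Y : ℝ → ℝ, Y = fun r => ζ (r - ρ₀) - ζ (r - 6 / 5 * ρ₀) := ⟨_, rfl⟩
  obtain ⟨Y1, hY1⟩ : ∃ Y : ℝ → ℝ, Y = fun r => deriv ζ (r - ρ₀) - deriv ζ (r - 6 / 5 * ρ₀) := ⟨_, rfl⟩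
  obtain ⟨Y2, hY2⟩ : ∃ Y : ℝ → ℝ, Y = fun r => deriv (deriv ζ) (r - ρ₀) - deriv (deriv ζ) (r - 6 / 5 * ρ₀) := ⟨_, rfl⟩
  have dY : ∀ r, HasDerivAt Y (Y1 r) r := fun r => by
    rw [hY, hY1]
    exact ((gh2_d hζ _).1.comp_sub_const r ρ₀).fun_sub ((gh2_d hζ _).1.comp_sub_const r (6 / 5 * ρ₀))
  have dY1 : ∀ r, HasDerivAt Y1 (Y2 r) r := fun r => by
    rw [hY1, hY2]
    exact ((gh2_d hζ _).2.comp_sub_const r ρ₀).fun_sub ((gh2_d hζ _).2.comp_sub_const r (6 / 5 * ρ₀))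
  have e1 : deriv (fun r => Y r * (1 - σ r)) = fun r => Y1 r * (1 - σ r) - Y r * deriv σ r := funext fun r => by
    rw [((dY r).fun_mul ((gh2_d hσ r).1.const_sub 1)).deriv]
    ring
  have e2 : ∀ r, deriv (deriv fun r => Y r * (1 - σ r)) r =
      Y2 r * (1 - σ r) - 2 * (Y1 r * deriv σ r) - Y r * deriv (deriv σ) r := fun r => by
    rw [e1, (((dY1 r).fun_mul ((gh2_d hσ r).1.const_sub 1)).fun_sub ((dY r).fun_mul (gh2_d hσ r).2)).deriv]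
    ring
  have bs : ∀ r, |1 - σ r| ≤ 1 := fun r => abs_le.2 ⟨by linarith [(hσ01 r).2], by linarith [(hσ01 r).1]⟩
  have bY0 : ∀ r, 0 ≤ Y r := fun r => by
    rw [hY]
    exact sub_nonneg.2 (hmono (by linarith))
  have bY : ∀ r, |Y r| ≤ M := fun r => by
    rw [abs_of_nonneg (bY0 r), hY]
    linarith [hζM (r - ρ₀), hζnn (r - 6 / 5 * ρ₀)]
  have bY1 : ∀ r, |Y1 r| ≤ M := fun r => by
    rw [hY1]
    exact abs_le.2 ⟨by linarith [(hζ' (r - ρ₀)).1, (hζ' (r - 6 / 5 * ρ₀)).2.1],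
      by linarith [(hζ' (r - ρ₀)).2.1, (hζ' (r - 6 / 5 * ρ₀)).1]⟩
  have eY : ∀ r, Y2 r + 2 * k * Y1 r = θ (r - ρ₀) - θ (r - 6 / 5 * ρ₀) := fun r => by
    rw [hY1, hY2, ← hode, ← hode]
    ring
  have bY2 : ∀ r, |Y2 r| ≤ 1 + 2 * (k * M) := fun r => by
    have h1 := abs_le.1 (gh2_mul (le_of_eq (abs_of_pos hk)) (bY1 r))
    have h2 := eY r
    exact abs_le.2 ⟨by linarith [h1.2, (hθ (r - ρ₀)).1, (hθ (r - 6 / 5 * ρ₀)).2],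
      by linarith [h1.1, (hθ (r - ρ₀)).2, (hθ (r - 6 / 5 * ρ₀)).1]⟩
  have far : ∀ r, 5 / 4 * ρ₀ ≤ r → |Y r| ≤ M * (ρ₀ ^ 2)⁻¹ ∧ |Y1 r| ≤ M * (ρ₀ ^ 2)⁻¹ := fun r hr => by
    have h1 : ∀ t, ρ₀ / 20 ≤ t → M * Real.exp (-(2 * k * t)) ≤ M * (ρ₀ ^ 2)⁻¹ := fun t ht =>
      mul_le_mul_of_nonneg_left ((Real.exp_le_exp.2 (by nlinarith)).trans hE) (by linarith)
    have h2 := h1 (r - ρ₀) (by linarith)
    have h3 := h1 (r - 6 / 5 * ρ₀) (by linarith)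
    constructor
    · rw [abs_of_nonneg (bY0 r), hY]
      exact (hdec _ _ (by linarith)).trans h3
    · rw [hY1]
      exact abs_le.2 ⟨by linarith [(hζ' (r - ρ₀)).1, (hζ' (r - 6 / 5 * ρ₀)).2.2],
        by linarith [(hζ' (r - ρ₀)).2.2, (hζ' (r - 6 / 5 * ρ₀)).1]⟩
  have hi : 0 < (ρ₀ ^ 2)⁻¹ := by positivity
  have small : ∀ r, |Y r * deriv σ r| ≤ M * N * (ρ₀ ^ 2)⁻¹ ∧ |Y1 r * deriv σ r| ≤ M * N * (ρ₀ ^ 2)⁻¹ ∧
      |Y r * deriv (deriv σ) r| ≤ M * N * (ρ₀ ^ 2)⁻¹ := fun r => by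
    rcases le_total r (5 / 4 * ρ₀) with h | h
    · rw [(hσz r (Or.inl h)).1, (hσz r (Or.inl h)).2]
      simp only [mul_zero, abs_zero]
      exact ⟨by positivity, by positivity, by positivity⟩
    · exact ⟨(gh2_mul (far r h).1 (hσN r).1).trans_eq (by ring), (gh2_mul (far r h).2 (hσN r).1).trans_eq (by ring),
        (gh2_mul (far r h).1 (hσN r).2).trans_eq (by ring)⟩
  have win : ∀ a r, deriv ζ (r - a) ≤ M * ((ρ₀ ^ 2)⁻¹ + (Icc a (a + Real.log ρ₀ / k)).indicator 1 r) := fun a r => by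
    by_cases h : r ∈ Icc a (a + Real.log ρ₀ / k)
    · rw [indicator_of_mem h, Pi.one_apply]
      exact (hζ' _).2.1.trans (le_mul_of_one_le_right (by linarith) (by linarith))
    · rw [indicator_of_notMem h, add_zero]
      rcases le_total r a with h1 | h1
      · rw [(deriv_zero_of_le hζ hζ0 _ (sub_nonpos.2 h1)).1]
        positivity
      · have h2 : Real.log ρ₀ / k ≤ r - a := by
          by_contra h2
          exact h ⟨h1, by linarith⟩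
        rw [div_le_iff₀ hk] at h2
        refine (hζ' _).2.2.trans (mul_le_mul_of_nonneg_left ?_ (by linarith))
        rw [← Real.exp_log hi, Real.exp_le_exp, Real.log_inv, Real.log_pow, Nat.cast_ofNat]
        linarith
  refine ⟨fun r => Y r * (1 - σ r), ?_, fun ρ h => ?_, fun ρ => mul_nonneg (bY0 ρ) (sub_nonneg.2 (hσ01 ρ).2),
    fun ρ => ⟨?_, ?_, ?_⟩, fun ρ h1 h2 => ?_, fun ρ => ?_, fun ρ => ?_⟩
  · rw [hY]
    exact ((hζ.comp (contDiff_id.sub contDiff_const)).sub (hζ.comp (contDiff_id.sub contDiff_const))).mul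
      (contDiff_const.sub hσ)
  · rcases h with h | h
    · simp only [hY, hζ0 (ρ - ρ₀) (by linarith), hζ0 (ρ - 6 / 5 * ρ₀) (by linarith), sub_self, zero_mul]
    · simp only [hσ1 ρ h, sub_self, mul_zero]
  · linarith [gh2_mul (bY ρ) (bs ρ)]
  · rw [e1]
    linarith [abs_sub (Y1 ρ * (1 - σ ρ)) (Y ρ * deriv σ ρ), gh2_mul (bY1 ρ) (bs ρ), gh2_mul (bY ρ) (hσN ρ).1]
  · rw [e2]
    have h1 := abs_le.1 (gh2_mul (bY2 ρ) (bs ρ))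
    have h2 := abs_le.1 (gh2_mul (bY1 ρ) (hσN ρ).1)
    have h3 := abs_le.1 (gh2_mul (bY ρ) (hσN ρ).2)
    exact abs_le.2 ⟨by linarith [h1.1, h2.2, h3.2], by linarith [h1.2, h2.1, h3.1]⟩
  · simp only [hY, hσ0 ρ (by linarith), hζ0 (ρ - 6 / 5 * ρ₀) (by linarith), sub_zero, mul_one]
    exact hmono (by linarith)
  · have h0 : (θ (ρ - ρ₀) - θ (ρ - 6 / 5 * ρ₀)) * σ ρ = 0 := by
      rcases le_total ρ (5 / 4 * ρ₀) with h | h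
      · rw [hσ0 ρ h, mul_zero]
      · rw [hθ0 (ρ - ρ₀) (Or.inr (by linarith)), hθ0 (ρ - 6 / 5 * ρ₀) (Or.inr (by linarith)), sub_self, zero_mul]
    have e : Y2 ρ * (1 - σ ρ) - 2 * (Y1 ρ * deriv σ ρ) - Y ρ * deriv (deriv σ) ρ +
        2 * k * (Y1 ρ * (1 - σ ρ) - Y ρ * deriv σ ρ) - (θ (ρ - ρ₀) - θ (ρ - 6 / 5 * ρ₀)) =
        -(2 * (Y1 ρ * deriv σ ρ)) - Y ρ * deriv (deriv σ) ρ - 2 * (k * (Y ρ * deriv σ ρ)) := by
      rw [← eY] at h0 ⊢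
      linear_combination -h0
    rw [e2, e1, e]
    obtain ⟨s1, s2, s3⟩ := small ρ
    have h1 := abs_le.1 (gh2_mul (le_of_eq (abs_of_pos hk)) s1)
    have h2 := abs_le.1 s2
    have h3 := abs_le.1 s3
    have h4 : 0 ≤ M * N * (ρ₀ ^ 2)⁻¹ := by positivity
    have h5 : 0 ≤ k * (M * N * (ρ₀ ^ 2)⁻¹) := by positivity
    exact abs_le.2 ⟨by linarith [h1.2, h2.2, h3.2], by linarith [h1.1, h2.1, h3.1]⟩
  · rw [e1]
    have h1 := gh2_mul (le_refl |Y1 ρ|) (bs ρ)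
    have h2 := (small ρ).1
    have h3 := abs_sub (Y1 ρ * (1 - σ ρ)) (Y ρ * deriv σ ρ)
    have h4 : |Y1 ρ| ≤ deriv ζ (ρ - ρ₀) + deriv ζ (ρ - 6 / 5 * ρ₀) := by
      rw [hY1]
      exact abs_le.2 ⟨by linarith [(hζ' (ρ - ρ₀)).1], by linarith [(hζ' (ρ - 6 / 5 * ρ₀)).1]⟩
    have h5 := win ρ₀ ρ
    have h6 := win (6 / 5 * ρ₀) ρ
    have i1 : 0 ≤ (Icc ρ₀ (ρ₀ + Real.log ρ₀ / k)).indicator (1 : ℝ → ℝ) ρ := indicator_nonneg (fun _ _ => zero_le_one) _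
    have i2 : 0 ≤ (Icc (6 / 5 * ρ₀) (6 / 5 * ρ₀ + Real.log ρ₀ / k)).indicator (1 : ℝ → ℝ) ρ :=
      indicator_nonneg (fun _ _ => zero_le_one) _
    unfold Ew
    generalize (Icc ρ₀ (ρ₀ + Real.log ρ₀ / k)).indicator (1 : ℝ → ℝ) ρ = j1 at h5 i1 ⊢
    generalize (Icc (6 / 5 * ρ₀) (6 / 5 * ρ₀ + Real.log ρ₀ / k)).indicator (1 : ℝ → ℝ) ρ = j2 at h6 i2 ⊢
    have e : ρ₀ * ((ρ₀ ^ 2)⁻¹ + ρ₀⁻¹ * (j1 + j2)) = ρ₀ * (ρ₀ ^ 2)⁻¹ + (j1 + j2) := by field_simp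
    have h7 : (ρ₀ ^ 2)⁻¹ ≤ ρ₀ * (ρ₀ ^ 2)⁻¹ := le_mul_of_one_le_left hi.le (by linarith)
    have h8 : 3 * (M * N) * ((ρ₀ ^ 2)⁻¹ + (j1 + j2)) ≤
        (5 * (M * N) + 4 * (k * (M * N))) * (ρ₀ * (ρ₀ ^ 2)⁻¹ + (j1 + j2)) :=
      mul_le_mul (by linarith) (by linarith) (by positivity) (by linarith)
    have h9 := mul_le_mul_of_nonneg_right hM' (show 0 ≤ 2 * (ρ₀ ^ 2)⁻¹ + (j1 + j2) by positivity)
    have h10 : 0 ≤ M * N * (j1 + j2) := by positivity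
    rw [e]
    linarith

theorem exists_win (hk : 0 < k) (b : ℝ) : ∃ θ, Win k b θ := by
  obtain ⟨θ, A, c, L', hA, hc, hL, hθc, hθ, hθ0, hθ1, hZ⟩ := gh2_Z hk
  obtain ⟨Mg, hMg, hG⟩ := Gz_cmp k b
  obtain ⟨β, hβ⟩ : ∃ β : ℝ, β = b + 1 / 2 := ⟨_, rfl⟩
  obtain ⟨P, hP0, hP⟩ : ∃ P : ℝ, 0 ≤ P ∧ P = k + |β| := ⟨_, by positivity, rfl⟩
  obtain ⟨B, hB⟩ : ∃ B : ℝ, B = (P + 1) ^ 2 + |β| + 2 * |b| + β ^ 2 := ⟨_, rfl⟩
  have n1 := abs_nonneg β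
  have n2 := abs_nonneg b
  have n3 := sq_nonneg β
  have n4 := sq_nonneg P
  have hB1 : 1 ≤ B := by nlinarith
  have hA0 : 0 ≤ A := by linarith
  have hAB : 1 ≤ A * B := one_le_mul_of_one_le_of_one_le hA hB1
  have hC : A * B ≤ Mg * (A * B) := le_mul_of_one_le_left (by linarith) hMg
  refine ⟨θ, hθc, fun t => (hθ t).1, fun t => (hθ t).2, hθ0, hθ1, Mg * (A * B), c, L', by linarith, hc,
    fun ρ₀ hρ => ?_⟩
  obtain ⟨Z, z⟩ := hZ ρ₀ hρ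
  have hρ0 : 0 < ρ₀ := by linarith
  have hsm := gh2_smooth k b z.sm hρ0 fun ρ h => z.zero ρ (Or.inl h)
  have hzero : ∀ ρ, ρ ≤ ρ₀ ∨ 13 / 10 * ρ₀ ≤ ρ → Gz k b ρ * Z ρ = 0 := fun ρ h => by rw [z.zero ρ h, mul_zero]
  have hdiv : ∀ x ρ : ℝ, ρ₀ ≤ ρ → |x / ρ| ≤ |x| * ρ₀⁻¹ ∧ |x / ρ ^ 2| ≤ |x| * (ρ₀ ^ 2)⁻¹ := fun x ρ h => by
    rw [abs_div, abs_div, abs_of_pos (hρ0.trans_le h), abs_of_pos (pow_pos (hρ0.trans_le h) 2), div_eq_mul_inv,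
      div_eq_mul_inv]
    exact ⟨mul_le_mul_of_nonneg_left (inv_anti₀ hρ0 h) (abs_nonneg _),
      mul_le_mul_of_nonneg_left (inv_anti₀ (by positivity) (pow_le_pow_left₀ hρ0.le h 2)) (abs_nonneg _)⟩
  have hi1 : ρ₀⁻¹ ≤ 1 := inv_le_one_of_one_le₀ (by linarith)
  have hi2 : (ρ₀ ^ 2)⁻¹ ≤ 1 := inv_le_one_of_one_le₀ (one_le_pow₀ (by linarith))
  refine ⟨fun r => Gz k b r * Z r, ⟨hsm, by positivity, hzero, fun ρ => ?_⟩, fun ρ => ?_, fun ρ h => ?_,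
    fun ρ h1 h2 => ?_, fun ρ h1 h2 => ?_, fun ρ h1 h2 => ?_⟩
  · by_cases h : ρ ≤ ρ₀ ∨ 13 / 10 * ρ₀ ≤ ρ
    · have h1 : deriv (fun r => Gz k b r * Z r) ρ = 0 ∧ deriv (deriv fun r => Gz k b r * Z r) ρ = 0 := by
        rcases h with h | h
        · exact deriv_zero_of_le hsm (fun r hr => hzero r (Or.inl hr)) ρ h
        · exact deriv_zero_of_ge hsm (fun r hr => hzero r (Or.inr hr)) ρ h
      rw [h1.1, h1.2, hzero ρ h, abs_zero]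
      exact ⟨by positivity, by positivity, by positivity⟩
    · push Not at h
      have hρ' : 0 < ρ := hρ0.trans h.1
      obtain ⟨e1, e2⟩ := gh2_H k b z.sm hρ'
      obtain ⟨z0, z1, z2⟩ := z.le ρ
      have key : ∀ x : ℝ, |x| ≤ A * B →
          |Gz k b ρ * x| ≤ Mg * (A * B) * ρ₀ ^ (-(b + 1 / 2)) * Real.exp (k * ρ) := fun x hx =>
        (gh2_mul ((abs_of_pos (Gz_pos k b hρ')).trans_le (hG ρ₀ ρ hρ0 (by linarith) (by linarith)).1) hx).trans_eq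
          (by ring)
      have hp : |k - β / ρ| ≤ P := by
        have h1 := (hdiv β ρ h.1.le).1.trans (mul_le_of_le_one_right n1 hi1)
        have h2 := abs_sub k (β / ρ)
        rw [abs_of_pos hk] at h2
        linarith
      have hq : |(k - β / ρ) ^ 2 + β / ρ ^ 2| ≤ P ^ 2 + |β| := by
        refine (abs_add_le _ _).trans (add_le_add ?_ ((hdiv β ρ h.1.le).2.trans (mul_le_of_le_one_right n1 hi2)))
        rw [abs_pow]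
        exact pow_le_pow_left₀ (abs_nonneg _) hp 2
      rw [e1, e2, ← hβ]
      rw [← hβ] at key
      refine ⟨key _ (z0.trans (le_mul_of_one_le_right hA0 hB1)), key _ ?_, key _ ?_⟩
      · have h1 := gh2_mul hp z0
        have h2 := mul_le_mul_of_nonneg_left (show P + 1 ≤ B by nlinarith) hA0
        linarith [abs_add_le ((k - β / ρ) * Z ρ) (deriv Z ρ)]
      · have h1 := abs_le.1 (gh2_mul hq z0)
        have h2 := abs_le.1 (gh2_mul hp z1)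
        have h3 := mul_le_mul_of_nonneg_left (show P ^ 2 + |β| + 2 * P + 1 ≤ B by nlinarith) hA0
        have h4 := abs_le.1 z2
        exact abs_le.2 ⟨by linarith [h1.1, h2.1, h4.1], by linarith [h1.2, h2.2, h4.2]⟩
  · rcases le_total ρ ρ₀ with h | h
    · exact (hzero ρ (Or.inl h)).ge
    · exact mul_nonneg (Gz_pos k b (hρ0.trans_le h)).le (z.nn ρ)
  · rw [mul_comm]
    refine mul_le_mul_of_nonneg_right ?_ (Gz_pos k b (hρ0.trans_le h)).le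
    linarith [le_abs_self (Z ρ), (z.le ρ).1, le_mul_of_one_le_right hA0 hB1]
  · rw [mul_comm]
    exact mul_le_mul_of_nonneg_left (z.low ρ h1 h2) (Gz_pos k b (by linarith)).le
  · have hρ' : 0 < ρ := hρ0.trans_le h1
    have hg := Gz_pos k b hρ'
    obtain ⟨e1, e2⟩ := gh2_H k b z.sm hρ'
    have hw := (Ew_nonneg k hρ0 ρ).1
    have hw0 : 0 ≤ Ew k ρ₀ ρ := le_trans (by positivity) hw
    have e : deriv (deriv fun r => Gz k b r * Z r) ρ + deriv (fun r => Gz k b r * Z r) ρ / ρ -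
        (k ^ 2 - 2 * k * b / ρ) * (Gz k b ρ * Z ρ) - Gz k b ρ * (θ (ρ - ρ₀) - θ (ρ - 6 / 5 * ρ₀)) =
        Gz k b ρ * ((deriv (deriv Z) ρ + 2 * k * deriv Z ρ - (θ (ρ - ρ₀) - θ (ρ - 6 / 5 * ρ₀))) -
          2 * (b / ρ * deriv Z ρ) + β ^ 2 / ρ ^ 2 * Z ρ) := by
      rw [e1, e2, hβ]
      field_simp
      ring
    have a1 := abs_le.1 ((z.eq ρ).trans (mul_le_mul_of_nonneg_left hw hA0))
    have a2 := abs_le.1 ((gh2_mul (hdiv b ρ h1).1 (z.eq' ρ)).trans_eq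
      (show _ = |b| * (A * Ew k ρ₀ ρ) by field_simp))
    have a3 : |β ^ 2 / ρ ^ 2 * Z ρ| ≤ β ^ 2 * (A * Ew k ρ₀ ρ) := by
      have := gh2_mul (hdiv (β ^ 2) ρ h1).2 (z.le ρ).1
      rw [abs_of_nonneg n3] at this
      refine this.trans ?_
      rw [mul_assoc, mul_comm _ A]
      exact mul_le_mul_of_nonneg_left (mul_le_mul_of_nonneg_left hw hA0) n3
    have a4 := abs_le.1 a3
    have a5 := mul_le_mul_of_nonneg_right (show 1 + 2 * |b| + β ^ 2 ≤ B by nlinarith) (mul_nonneg hA0 hw0)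
    have a6 := mul_le_mul_of_nonneg_right hC hw0
    rw [e, abs_mul, abs_of_pos hg, mul_left_comm (Mg * (A * B))]
    refine mul_le_mul_of_nonneg_left ?_ hg.le
    exact abs_le.2 ⟨by linarith [a1.1, a2.2, a4.1], by linarith [a1.2, a2.1, a4.2]⟩
  · have hρ' : 0 < ρ := hρ0.trans_le h1
    have hg := Gz_pos k b hρ'
    obtain ⟨e1, -⟩ := gh2_H k b z.sm hρ'
    have hw := (Ew_nonneg k hρ0 ρ).1
    have hw0 : 0 ≤ Ew k ρ₀ ρ := le_trans (by positivity) hw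
    have e : deriv (fun r => Gz k b r * Z r) ρ - k * (Gz k b ρ * Z ρ) = Gz k b ρ * (deriv Z ρ - β / ρ * Z ρ) := by
      rw [e1, hβ]
      ring
    have a1 := z.eq' ρ
    have a2 : |β / ρ * Z ρ| ≤ |β| * (A * (ρ₀ * Ew k ρ₀ ρ)) := by
      refine (gh2_mul (hdiv β ρ h1).1 (z.le ρ).1).trans ?_
      rw [mul_assoc, mul_comm _ A]
      refine mul_le_mul_of_nonneg_left (mul_le_mul_of_nonneg_left ?_ hA0) n1
      exact (show ρ₀⁻¹ = ρ₀ * (ρ₀ ^ 2)⁻¹ by field_simp).trans_le (mul_le_mul_of_nonneg_left hw hρ0.le)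
    have a5 := mul_le_mul_of_nonneg_right (show 1 + |β| ≤ B by nlinarith) (mul_nonneg hA0 (mul_nonneg hρ0.le hw0))
    have a6 := mul_le_mul_of_nonneg_right hC (mul_nonneg hρ0.le hw0)
    rw [e, abs_mul, abs_of_pos hg, mul_left_comm]
    refine mul_le_mul_of_nonneg_left ?_ hg.le
    linarith [abs_sub (deriv Z ρ) (β / ρ * Z ρ)]

end Crest.Agent.R335
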