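import Crest.Agent.R335.Gg3a

/-!
# R335/Gg3: the three vertical kernels.  Multiply `1`, `k z²`, `√(z² + ε²)` (`ε = ρ₀⁻²`) by an even plateau function `χ`, `χ = 1` on `|z| ≤ ρ₀/40`, `χ = 0` on `|z| ≥ ρ₀/20`
(e.g. `χ z = (1 - σ z)(1 - σ (-z))`; prove its existence first, with `|χ'|, |χ''| ≤ M/ρ₀`).  `t ≤ exp t`.
-/

set_option autoImplicit false

namespace Crest.Agent.R335

open MeasureTheory Set Filter Topology
open scoped Gradient RealInnerProductSpace ENNReal ContDiff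
open Crest.MathPhysics.ThreeBody

variable {k b L C c e1 e2 : ℝ} {R d V0 S v φ u ψ : E3 → ℝ} {GR Gd Gφ Gu Gψ : E3 → E3}

theorem gg3_chi : ∃ M : ℝ, 1 ≤ M ∧ ∀ ρ₀ : ℝ, 80 ≤ ρ₀ → ∃ χ : ℝ → ℝ, ContDiff ℝ 2 χ ∧ (∀ z, χ (-z) = χ z) ∧
    (∀ z, |χ z| ≤ 1) ∧ (∀ z, ρ₀ / 20 ≤ |z| → χ z = 0) ∧
    (∀ z, |z| < ρ₀ / 40 → χ z = 1 ∧ deriv χ z = 0 ∧ deriv (deriv χ) z = 0) ∧
    ∀ z, |deriv χ z| ≤ M ∧ |deriv (deriv χ) z| ≤ M := by
  obtain ⟨M, hM, h⟩ := exists_step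
  refine ⟨4 * M ^ 2, by nlinarith, fun ρ₀ hρ => ?_⟩
  obtain ⟨σ, hs, h01, hz, ho, hd, hd0⟩ := h (ρ₀ / 40) (ρ₀ / 20) (by linarith)
  have hw : 1 ≤ ρ₀ / 20 - ρ₀ / 40 := by linarith
  have hb : ∀ t, |deriv σ t| ≤ M ∧ |deriv (deriv σ) t| ≤ M := fun t =>
    ⟨(hd t).1.trans (div_le_self (by linarith) hw),
      (hd t).2.trans (div_le_self (by linarith) (one_le_pow₀ hw))⟩
  have hτ : ContDiff ℝ 2 fun z => 1 - σ z := contDiff_const.sub hs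
  have hτ' : ContDiff ℝ 2 fun z => 1 - σ (-z) := contDiff_const.sub (hs.comp contDiff_neg)
  have e1 : deriv (fun z => 1 - σ z) = fun z => -deriv σ z := by
    funext z
    exact deriv_const_sub 1
  have e2 : deriv (deriv fun z => 1 - σ z) = fun z => -deriv (deriv σ) z := by
    rw [e1]
    funext z
    exact deriv.fun_neg
  have e3 : deriv (fun z => 1 - σ (-z)) = fun z => deriv σ (-z) := by
    funext z
    rw [deriv_const_sub (f := fun z => σ (-z)), deriv_comp_neg, neg_neg]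
  have e4 : deriv (deriv fun z => 1 - σ (-z)) = fun z => -deriv (deriv σ) (-z) := by
    rw [e3]
    funext z
    exact deriv_comp_neg _ _
  have ha : ∀ t, |1 - σ t| ≤ 1 := fun t => abs_le.2 ⟨by linarith [(h01 t).2], by linarith [(h01 t).1]⟩
  refine ⟨fun z => (1 - σ z) * (1 - σ (-z)), hτ.mul hτ', fun z => by simp only [neg_neg]; ring,
    fun z => ?_, fun z hz' => ?_, fun z hz' => ?_, fun z => ?_⟩
  · rw [abs_mul]
    exact mul_le_one₀ (ha z) (abs_nonneg _) (ha _)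
  · rcases le_abs'.1 hz' with h1 | h1
    · simp only
      rw [ho (-z) (by linarith)]
      ring
    · simp only
      rw [ho z h1]
      ring
  · obtain ⟨h1, h2⟩ := abs_lt.1 hz'
    obtain ⟨d1, d2⟩ := deriv2_mul hτ hτ' z
    have a1 := hd0 z (Or.inl h2.le)
    have a2 := hd0 (-z) (Or.inl (by linarith))
    rw [d1, d2, e2, e4, e1, e3]
    simp only
    rw [hz z h2.le, hz (-z) (by linarith), a1.1, a1.2, a2.1, a2.2]
    simp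
  · obtain ⟨d1, d2⟩ := deriv2_mul hτ hτ' z
    rw [d1, d2, e2, e4, e1, e3]
    simp only
    have b1 := hb z
    have b2 := hb (-z)
    have m1 : ∀ a t : ℝ, |a| ≤ M → |t| ≤ 1 → |a * t| ≤ M := fun a t ha ht => by
      rw [abs_mul]
      exact (mul_le_of_le_one_right (abs_nonneg _) ht).trans ha
    have c1 := m1 (-deriv σ z) _ (by rw [abs_neg]; exact b1.1) (ha (-z))
    have c2 := m1 (deriv σ (-z)) _ b2.1 (ha z)
    have c3 := m1 (-deriv (deriv σ) z) _ (by rw [abs_neg]; exact b1.2) (ha (-z))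
    have c4 := m1 (-deriv (deriv σ) (-z)) _ (by rw [abs_neg]; exact b2.2) (ha z)
    have c5 : |-deriv σ z * deriv σ (-z)| ≤ M * M := by
      rw [abs_mul, abs_neg]
      exact mul_le_mul b1.1 b2.1 (abs_nonneg _) (by linarith)
    rw [mul_comm] at c2 c4
    have hMM : M ≤ M * M := by nlinarith
    obtain ⟨c1a, c1b⟩ := abs_le.1 c1
    obtain ⟨c2a, c2b⟩ := abs_le.1 c2
    obtain ⟨c3a, c3b⟩ := abs_le.1 c3
    obtain ⟨c4a, c4b⟩ := abs_le.1 c4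
    obtain ⟨c5a, c5b⟩ := abs_le.1 c5
    constructor
    · exact abs_le.2 ⟨by nlinarith, by nlinarith⟩
    · exact abs_le.2 ⟨by nlinarith, by nlinarith⟩

theorem gg3_f {ε : ℝ} (hε : 0 < ε) : ContDiff ℝ 2 (fun z : ℝ => √(z ^ 2 + ε ^ 2)) ∧
    (deriv (fun z : ℝ => √(z ^ 2 + ε ^ 2)) = fun z => z / √(z ^ 2 + ε ^ 2)) ∧
    ∀ z, deriv (deriv fun z : ℝ => √(z ^ 2 + ε ^ 2)) z = ε ^ 2 / √(z ^ 2 + ε ^ 2) ^ 3 := by
  have hp : ∀ z : ℝ, 0 < z ^ 2 + ε ^ 2 := fun z => by positivity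
  have hs : ∀ z : ℝ, 0 < √(z ^ 2 + ε ^ 2) := fun z => Real.sqrt_pos.2 (hp z)
  have h1 : ∀ z : ℝ, HasDerivAt (fun z : ℝ => √(z ^ 2 + ε ^ 2)) (z / √(z ^ 2 + ε ^ 2)) z := fun z => by
    have a : HasDerivAt (fun z : ℝ => z ^ 2 + ε ^ 2) (2 * z) z := by
      simpa using (hasDerivAt_pow 2 z).add_const (ε ^ 2)
    refine (a.sqrt (hp z).ne').congr_deriv ?_
    have := hs z
    field_simp
  have e1 : deriv (fun z : ℝ => √(z ^ 2 + ε ^ 2)) = fun z => z / √(z ^ 2 + ε ^ 2) :=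
    funext fun z => (h1 z).deriv
  refine ⟨ContDiff.sqrt (by fun_prop) fun z => (hp z).ne', e1, fun z => ?_⟩
  rw [e1]
  have a := ((hasDerivAt_id' z).fun_div (h1 z) (hs z).ne').deriv
  rw [a]
  have h2 := Real.sq_sqrt (hp z).le
  have h3 := hs z
  generalize √(z ^ 2 + ε ^ 2) = s at h2 h3
  field_simp
  linarith

theorem gg3_exp (hk : 0 < k) {ρ₀ : ℝ} (hρ : 1 ≤ ρ₀) (z : ℝ) :
    |z| + 1 ≤ (2 + 20 / k) * √ρ₀ * Real.exp (k * z ^ 2 / (20 * ρ₀)) := by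
  have h0 : 0 < ρ₀ := by linarith
  have hs : 1 ≤ √ρ₀ := Real.one_le_sqrt.2 hρ
  have hs2 : √ρ₀ ^ 2 = ρ₀ := Real.sq_sqrt h0.le
  obtain ⟨s, hsd⟩ : ∃ s, s = |z| / √ρ₀ := ⟨_, rfl⟩
  have hz : |z| = s * √ρ₀ := by
    rw [hsd]
    field_simp
  have hs0 : 0 ≤ s := by
    rw [hsd]
    positivity
  have e : k * z ^ 2 / (20 * ρ₀) = k * s ^ 2 / 20 := by
    rw [← sq_abs z, hz, mul_pow, hs2]
    field_simp
  have h1 : 1 + k * s ^ 2 / 20 ≤ Real.exp (k * s ^ 2 / 20) := by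
    linarith [Real.add_one_le_exp (k * s ^ 2 / 20)]
  have h2 : s + 1 ≤ (2 + 20 / k) * (1 + k * s ^ 2 / 20) := by
    have e2 : (2 + 20 / k) * (1 + k * s ^ 2 / 20) = 2 + 20 / k + k * s ^ 2 / 10 + s ^ 2 := by
      field_simp
      ring
    have p1 : 0 ≤ 20 / k := by positivity
    have p2 : 0 ≤ k * s ^ 2 / 10 := by positivity
    rw [e2]
    nlinarith [sq_nonneg (s - 1)]
  have hA : 0 ≤ 2 + 20 / k := by positivity
  rw [e, hz]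
  calc s * √ρ₀ + 1 ≤ (s + 1) * √ρ₀ := by nlinarith
    _ ≤ (2 + 20 / k) * Real.exp (k * s ^ 2 / 20) * √ρ₀ :=
      mul_le_mul_of_nonneg_right (h2.trans (mul_le_mul_of_nonneg_left h1 hA)) (by linarith)
    _ = _ := by ring

theorem gg3_lam {ρ₀ : ℝ} (hρ : 1 ≤ ρ₀) : lam ρ₀ ≤ 1 ∧ (ρ₀ ^ 2)⁻¹ ≤ lam ρ₀ ^ 3 := by
  have h0 : 0 < ρ₀ := by linarith
  constructor
  · exact Real.rpow_le_one_of_one_le_of_nonpos hρ (by norm_num)
  · have e1 : lam ρ₀ ^ 3 = ρ₀ ^ (-(9 / 5) : ℝ) := by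
      rw [lam, ← Real.rpow_natCast, ← Real.rpow_mul h0.le]
      norm_num
    have e2 : (ρ₀ ^ 2)⁻¹ = ρ₀ ^ (-2 : ℝ) := by
      rw [Real.rpow_neg h0.le, Real.rpow_two]
    rw [e1, e2]
    exact Real.rpow_le_rpow_of_exponent_le hρ (by norm_num)

/-- `Q'' = ε²/(z² + ε²)^(3/2)`, `∫_0^λ Q'' = λ/√(λ² + ε²)` -/
theorem exists_Q1 (hk : 0 < k) : ∃ M : ℝ, 1 ≤ M ∧ ∀ ρ₀, 80 ≤ ρ₀ → ∃ Q, QB k ρ₀ (M * √ρ₀) Q ∧
    (∀ z, |z| < ρ₀ / 40 → |Q z| ≤ |z| + 1 ∧ 0 ≤ deriv (deriv Q) z) ∧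
    (∀ z, lam ρ₀ ≤ z → z < ρ₀ / 40 → deriv (deriv Q) z ≤ (ρ₀ ^ 2)⁻¹) ∧
    1 / 2 ≤ ∫ z in Ioo 0 (lam ρ₀), deriv (deriv Q) z := by
  obtain ⟨M, hM, h⟩ := gg3_chi
  have hA : 2 ≤ 2 + 20 / k := by
    have : 0 ≤ 20 / k := by positivity
    linarith
  refine ⟨(1 + 3 * M) * (2 + 20 / k), by nlinarith, fun ρ₀ hρ => ?_⟩
  obtain ⟨χ, hχ, hev, h1, hz, ho, hd⟩ := h ρ₀ hρ
  have hρ1 : 1 ≤ ρ₀ := by linarith
  have h0 : 0 < ρ₀ := by linarith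
  obtain ⟨ε, hεd⟩ : ∃ ε : ℝ, ε = (ρ₀ ^ 2)⁻¹ := ⟨_, rfl⟩
  have hε : 0 < ε := by
    rw [hεd]
    positivity
  have hε1 : ε ≤ 1 := by
    rw [hεd]
    exact inv_le_one_of_one_le₀ (one_le_pow₀ hρ1)
  obtain ⟨hl1, hl3⟩ := gg3_lam hρ1
  rw [← hεd] at hl3 ⊢
  have hl0 : 0 < lam ρ₀ := Real.rpow_pos_of_pos h0 _
  have hεl : ε ≤ lam ρ₀ := hl3.trans (pow_le_of_le_one hl0.le hl1 (by norm_num))
  obtain ⟨hf, f1, f2⟩ := gg3_f hε
  have hs : ∀ z : ℝ, 0 < √(z ^ 2 + ε ^ 2) := fun z => Real.sqrt_pos.2 (by positivity)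
  have hlow : ∀ z : ℝ, |z| ≤ √(z ^ 2 + ε ^ 2) := fun z => Real.abs_le_sqrt (by nlinarith [sq_nonneg ε])
  have hup : ∀ z : ℝ, √(z ^ 2 + ε ^ 2) ≤ |z| + ε := fun z => by
    refine Real.sqrt_le_iff.2 ⟨by positivity, ?_⟩
    have := mul_nonneg (abs_nonneg z) hε.le
    nlinarith [sq_abs z]
  have b0 : ∀ z : ℝ, |√(z ^ 2 + ε ^ 2)| ≤ |z| + 1 := fun z => by
    rw [abs_of_pos (hs z)]
    linarith [hup z]
  have b1 : ∀ z : ℝ, |z / √(z ^ 2 + ε ^ 2)| ≤ 1 := fun z => by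
    rw [abs_div, abs_of_pos (hs z)]
    exact (div_le_one (hs z)).2 (hlow z)
  have b2 : ∀ z : ℝ, lam ρ₀ ≤ |z| → ε ^ 2 / √(z ^ 2 + ε ^ 2) ^ 3 ≤ ε := fun z hz => by
    have a : ε ≤ √(z ^ 2 + ε ^ 2) ^ 3 := hl3.trans (pow_le_pow_left₀ hl0.le (hz.trans (hlow z)) 3)
    rw [div_le_iff₀ (pow_pos (hs z) 3)]
    nlinarith
  have b3 : ∀ z : ℝ, 0 ≤ ε ^ 2 / √(z ^ 2 + ε ^ 2) ^ 3 := fun z => by
    have := hs z
    positivity
  have d1 : ∀ z, deriv (fun z : ℝ => √(z ^ 2 + ε ^ 2) * χ z) z =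
      z / √(z ^ 2 + ε ^ 2) * χ z + √(z ^ 2 + ε ^ 2) * deriv χ z := fun z => by
    rw [(deriv2_mul hf hχ z).1, f1]
  have d2 : ∀ z, deriv (deriv fun z : ℝ => √(z ^ 2 + ε ^ 2) * χ z) z =
      ε ^ 2 / √(z ^ 2 + ε ^ 2) ^ 3 * χ z + 2 * (z / √(z ^ 2 + ε ^ 2) * deriv χ z) +
        √(z ^ 2 + ε ^ 2) * deriv (deriv χ) z := fun z => by
    rw [(deriv2_mul hf hχ z).2, f2, f1]
  have fin : ∀ z t : ℝ, t ≤ (1 + 3 * M) * (|z| + 1) →
      t ≤ (1 + 3 * M) * (2 + 20 / k) * √ρ₀ * Real.exp (k * z ^ 2 / (20 * ρ₀)) := fun z t ht => by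
    have := mul_le_mul_of_nonneg_left (gg3_exp hk hρ1 z) (show 0 ≤ 1 + 3 * M by linarith)
    refine ht.trans (this.trans_eq ?_)
    ring
  have mm : ∀ a t A T : ℝ, |a| ≤ A → |t| ≤ T → |a * t| ≤ A * T := fun a t A T ha ht => by
    rw [abs_mul]
    exact mul_le_mul ha ht (abs_nonneg _) ((abs_nonneg _).trans ha)
  have hQ : ContDiff ℝ 2 fun z : ℝ => √(z ^ 2 + ε ^ 2) * χ z := hf.mul hχ
  refine ⟨fun z : ℝ => √(z ^ 2 + ε ^ 2) * χ z, ⟨hQ, by positivity, fun z => ?_, fun z hz' => ?_,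
    fun z => ⟨fin z _ ?_, fin z _ ?_⟩, fun z hz' => fin z _ ?_⟩, fun z hz' => ⟨?_, ?_⟩, fun z hz1 hz2 => ?_, ?_⟩
  · simp only [hev, neg_sq]
  · simp only [hz z hz', mul_zero]
  · have := mm _ _ _ _ (b0 z) (h1 z)
    have a := abs_nonneg z
    nlinarith
  · rw [d1]
    have c1 := mm _ _ _ _ (b1 z) (h1 z)
    have c2 := mm _ _ _ _ (b0 z) (hd z).1
    have a := abs_nonneg z
    refine (abs_add_le _ _).trans ?_
    nlinarith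
  · rw [d2]
    have c0 : |ε ^ 2 / √(z ^ 2 + ε ^ 2) ^ 3| ≤ 1 := by
      rw [abs_of_nonneg (b3 z)]
      exact (b2 z hz').trans hε1
    have c1 := mm _ _ _ _ c0 (h1 z)
    have c2 := mm _ _ _ _ (b1 z) (hd z).1
    have c3 := mm _ _ _ _ (b0 z) (hd z).2
    have a := abs_nonneg z
    refine (abs_add_three _ _ _).trans ?_
    rw [abs_mul 2, abs_two]
    nlinarith
  · simpa using mm _ _ _ _ (b0 z) (h1 z)
  · obtain ⟨o1, o2, o3⟩ := ho z hz'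
    rw [d2, o1, o2, o3]
    simpa using b3 z
  · have hz0 : 0 ≤ z := by linarith
    obtain ⟨o1, o2, o3⟩ := ho z (by rwa [abs_of_nonneg hz0])
    rw [d2, o1, o2, o3]
    simpa using b2 z (by rwa [abs_of_nonneg hz0])
  · have hQ1 : ContDiff ℝ 1 (deriv fun z : ℝ => √(z ^ 2 + ε ^ 2) * χ z) := hQ.deriv'
    have hint := intervalIntegral.integral_deriv_eq_sub (a := 0) (b := lam ρ₀)
      (fun x _ => hQ1.differentiable (by norm_num) x)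
      ((hQ1.continuous_deriv le_rfl).intervalIntegrable _ _)
    rw [intervalIntegral.integral_of_le hl0.le, integral_Ioc_eq_integral_Ioo] at hint
    obtain ⟨o1, o2, -⟩ := ho (lam ρ₀) (by rw [abs_of_pos hl0]; linarith)
    obtain ⟨o3, o4, -⟩ := ho 0 (by rw [abs_zero]; linarith)
    rw [hint, d1, d1, o1, o2, o3, o4]
    have a := hup (lam ρ₀)
    rw [abs_of_pos hl0] at a
    have : 1 / 2 ≤ lam ρ₀ / √(lam ρ₀ ^ 2 + ε ^ 2) := by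
      rw [le_div_iff₀ (hs _)]
      linarith
    simpa using this

end Crest.Agent.R335
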