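import Crest.Agent.R335.Gk2
import Crest.Agent.R335.Gg3

/-!
# R335/Gk3: the moment of order zero.  `CoreB` with `H` from `Win.ex`, `Q` from `exists_Q0` (`Q'' = 0` on `0 < z < λ₀`; on `Om ∩ shell`, `z < ρ₀/40` by `Om_small`), `Tail.model`, `blk_gen` with `p = 1`,
`ev_log`; then `tel`, `mom_le`.
-/

set_option autoImplicit false

namespace Crest.Agent.R335

open MeasureTheory Set Filter Topology
open scoped Gradient RealInnerProductSpace ENNReal ContDiff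
open Crest.MathPhysics.ThreeBody

variable {k b L C c e1 e2 : ℝ} {R d V0 S v φ u ψ : E3 → ℝ} {GR Gd Gφ Gu Gψ : E3 → E3}

theorem blk0 (h : Red k b L C c R GR d Gd V0 S v e1 e2 φ Gφ u Gu ψ Gψ) {ν s : ℝ} (hν : -1 / 2 ≤ ν) (hN : NB k b u ψ ν) {θ : ℝ → ℝ} (hθ : Win k b θ) (hc : CoreB k b V0 u ψ s)
    (hs : s ≤ ν + 9 / 10) :
    MomB (fun ρ => mom k b u ψ θ (fun _ => 1) ρ - mom k b u ψ θ (fun _ => 1) (6 / 5 * ρ)) (-1 / 2 - s) := by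
  have hk := h.tail.kpos
  obtain ⟨C₁, c₁, L₁, hC₁, -, hex⟩ := hθ.ex
  obtain ⟨Cm, Lm, hCm, hm⟩ := h.tail.model C₁
  obtain ⟨M, hM, hQ⟩ := exists_Q0 hk
  obtain ⟨Cc, Lc, hCc, hcc⟩ := hc
  obtain ⟨Cb, Lb, hCb, hb⟩ := blk_gen h hν hN hθ
  obtain ⟨Ls, -, hsm⟩ := Om_small hk
  obtain ⟨Le, hLe⟩ := eventually_atTop.1
    (((((((ev_log (show -ν - 3 / 2 < -1 / 2 - s by linarith) (Cb * Cm) 2).and (eventually_ge_atTop L₁)).and
      (eventually_ge_atTop Lm)).and (eventually_ge_atTop Lc)).and (eventually_ge_atTop Lb)).and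
      (eventually_ge_atTop Ls)).and (eventually_ge_atTop 80))
  refine ⟨Cc * C₁ * M + 1, Le, by positivity, fun ρ₀ hρ => ?_⟩
  obtain ⟨⟨⟨⟨⟨⟨e0, e1⟩, e2⟩, e3⟩, e4⟩, e5⟩, e6⟩ := hLe ρ₀ hρ
  have hρ0 : 0 < ρ₀ := by linarith
  obtain ⟨H, hH⟩ := hex ρ₀ e1
  obtain ⟨Q, hQb, hQ1⟩ := hQ ρ₀ (by linarith)
  have hlam : lam ρ₀ ≤ 1 := Real.rpow_le_one_of_one_le_of_nonpos (by linarith) (by norm_num)
  have h1 := hcc ρ₀ _ M H Q e3 hH.hb hQb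
  have h2 : ∫ x in {x : E3 | 0 < x 2 ∧ x 2 < lam ρ₀}, ψ x * (H (cyl x) * deriv (deriv Q) (x 2)) = 0 := by
    refine setIntegral_eq_zero_of_forall_eq_zero fun x hx => ?_
    rw [(hQ1 (x 2) (by rw [abs_of_pos hx.1]; linarith [hx.2])).2, mul_zero, mul_zero]
  have h3 := (hb ρ₀ (Cm * Real.log ρ₀) (Lop V0 H Q) (fun _ => 1) e4
    (mul_nonneg hCm (Real.log_nonneg (by linarith))) (measurable_Lop h.tail.mV hH.hb.sm hQb.sm)
    continuous_const (fun x hx => hH.hb.Lop_zero Q hx) fun x hx => by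
      obtain ⟨z1, z2⟩ := hsm x hx.1 (e5.trans hx.2.1)
      obtain ⟨q1, q2⟩ := hQ1 (x 2) (by rw [abs_of_pos z1]; linarith [hx.2.2])
      unfold Lop
      rw [q1, q2, mul_one, mul_zero, add_zero, one_mul]
      exact hm ρ₀ c₁ θ H e2 hH x hx).2
  have e : Cc * (C₁ * ρ₀ ^ (-(b + 1 / 2))) * M * ρ₀ ^ (b - s) = Cc * C₁ * M * ρ₀ ^ (-1 / 2 - s) := by
    rw [show -1 / 2 - s = -(b + 1 / 2) + (b - s) by ring, Real.rpow_add hρ0]
    ring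
  rw [h2, add_zero, e] at h1
  have h4 := abs_le.1 h1
  have h5 := abs_le.1 (h3.trans ((le_of_eq (by ring)).trans e0))
  rw [add_mul, one_mul]
  exact abs_le.2 ⟨by linarith [h4.1, h5.2], by linarith [h4.2, h5.1]⟩

theorem mom0 (h : Red k b L C c R GR d Gd V0 S v e1 e2 φ Gφ u Gu ψ Gψ) {ν s : ℝ} (hν : -1 / 2 < ν) (hN : NB k b u ψ ν) {θ : ℝ → ℝ} (hθ : Win k b θ) (hc : CoreB k b V0 u ψ s)
    (hs : s ≤ ν + 9 / 10) (hs0 : 0 ≤ s) : MomB (mom k b u ψ θ fun _ => 1) (-1 / 2 - s) := by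
  refine tel (by linarith) (blk0 h hν.le hN hθ hc hs) (MomB.tendsto (e := -ν - 1 / 2) (by linarith) ?_)
  obtain ⟨L', -, hL⟩ := mom_le h hν.le hN hθ
  exact ⟨4 * 1, L', by norm_num, fun ρ hρ => hL ρ 1 _ hρ zero_le_one fun _ _ => by simp⟩

end Crest.Agent.R335
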