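import Crest.Agent.R335.Gba

/-!
# R335/Gb: calculus for the products `H(cyl x) Q(x 2)`.  Tools: `R83.lap_mul`, `R83.lap_comp`, `R83.lap_congr`, `R83.grad_mul`, `R83.grad_comp`, `grad_cyl`, `contDiffOn_cyl`.
Aux facts to prove first: `lap cyl x = 1 / cyl x`, `‖∇ cyl x‖ = 1` off the axis, `∇ (· 2) = e₂`, `lap (· 2) = 0`, `⟪∇ cyl, e₂⟫ = 0`.  Near the axis the product vanishes identically.
-/

set_option autoImplicit false

namespace Crest.Agent.R335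

open MeasureTheory Set Filter Topology
open scoped Gradient RealInnerProductSpace ENNReal ContDiff
open Crest.MathPhysics.ThreeBody

variable {k b L C c e1 e2 : ℝ} {R d V0 S v φ u ψ : E3 → ℝ} {GR Gd Gφ Gu Gψ : E3 → E3}

theorem gb_zero {ρ₀ h : ℝ} {H : ℝ → ℝ} (hH : HB k ρ₀ h H) {ρ : ℝ} (hρ : ρ ≤ ρ₀ ∨ 13 / 10 * ρ₀ ≤ ρ) :
    H ρ = 0 ∧ deriv H ρ = 0 ∧ deriv (deriv H) ρ = 0 := by
  refine ⟨hH.zero ρ hρ, ?_⟩
  rcases hρ with h1 | h1
  · exact deriv_zero_of_le hH.sm (fun r hr => hH.zero r (Or.inl hr)) ρ h1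
  · exact deriv_zero_of_ge hH.sm (fun r hr => hH.zero r (Or.inr hr)) ρ h1

theorem isCompact_box (α β z₁ z₂ : ℝ) : IsCompact (box α β z₁ z₂) := by
  have h2 : Continuous fun x : E3 => x 2 := by fun_prop
  refine Metric.isCompact_of_isClosed_isBounded
    ((isClosed_le continuous_const continuous_cyl).inter ((isClosed_le continuous_cyl continuous_const).inter
      ((isClosed_le continuous_const h2).inter (isClosed_le h2 continuous_const)))) ?_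
  refine (Metric.isBounded_closedBall (x := (0 : E3)) (r := β + (|z₁| + |z₂|))).subset fun x hx => ?_
  obtain ⟨-, a1, a2, a3⟩ := hx
  have a4 : |x 2| ≤ |z₁| + |z₂| := abs_le.2
    ⟨by linarith [neg_abs_le z₁, abs_nonneg z₂], by linarith [le_abs_self z₂, abs_nonneg z₁]⟩
  exact mem_closedBall_zero_iff.2 (by linarith [norm_le_cyl_add x])

theorem cylp_supp {H Q : ℝ → ℝ} {α β z₁ z₂ : ℝ} (hH : ∀ ρ, ρ ≤ α ∨ β ≤ ρ → H ρ = 0) (hQ : ∀ z, z ≤ z₁ ∨ z₂ ≤ z → Q z = 0) :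
    HasCompactSupport (fun x : E3 => H (cyl x) * Q (x 2)) ∧
      tsupport (fun x : E3 => H (cyl x) * Q (x 2)) ⊆ box α β z₁ z₂ := by
  have h1 : tsupport (fun x : E3 => H (cyl x) * Q (x 2)) ⊆ box α β z₁ z₂ := by
    refine closure_minimal (fun x hx => ?_) (isCompact_box α β z₁ z₂).isClosed
    obtain ⟨a1, a2⟩ := mul_ne_zero_iff.1 hx
    exact ⟨le_of_not_ge fun h => a1 (hH _ (Or.inl h)), le_of_not_ge fun h => a1 (hH _ (Or.inr h)),
      le_of_not_ge fun h => a2 (hQ _ (Or.inl h)), le_of_not_ge fun h => a2 (hQ _ (Or.inr h))⟩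
  exact ⟨(isCompact_box α β z₁ z₂).of_isClosed_subset (isClosed_tsupport _) h1, h1⟩

theorem measurable_Lop (hV : Measurable V0) {H Q : ℝ → ℝ} (hH : ContDiff ℝ 2 H) (hQ : ContDiff ℝ 2 Q) :
    Measurable (Lop V0 H Q) := by
  have hc := continuous_cyl.measurable
  have h2 : Measurable fun x : E3 => x 2 := by fun_prop
  have a0 := hH.continuous.measurable.comp hc
  have a1 := (measurable_deriv H).comp hc
  have a2 := (measurable_deriv (deriv H)).comp hc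
  have b0 := hQ.continuous.measurable.comp h2
  have b2 := (measurable_deriv (deriv Q)).comp h2
  exact (((a2.add (a1.div hc)).sub ((hV.const_mul 2).mul a0)).mul b0).add (a0.mul b2)

theorem HB.Lop_zero {ρ₀ h : ℝ} {H : ℝ → ℝ} (hH : HB k ρ₀ h H) (Q : ℝ → ℝ) {x : E3}
    (hx : x ∉ shell ρ₀ (13 / 10 * ρ₀)) : Lop V0 H Q x = 0 := by
  have h1 : cyl x ≤ ρ₀ ∨ 13 / 10 * ρ₀ ≤ cyl x := by
    by_contra h
    push Not at h
    exact hx ⟨h.1.le, h.2.le⟩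
  obtain ⟨a0, a1, a2⟩ := gb_zero hH h1
  simp [Lop, a0, a1, a2]

theorem HB.mul_id {ρ₀ h : ℝ} {H : ℝ → ℝ} (hH : HB k ρ₀ h H) (h1 : 1 ≤ ρ₀) :
    HB k ρ₀ (4 * ρ₀ * h) (fun ρ => ρ * H ρ) ∧ ∀ ρ, deriv (fun ρ => ρ * H ρ) ρ = H ρ + ρ * deriv H ρ ∧
      deriv (deriv fun ρ => ρ * H ρ) ρ = 2 * deriv H ρ + ρ * deriv (deriv H) ρ := by
  have d0 : Differentiable ℝ H := hH.sm.differentiable (by norm_num)
  have d1 : Differentiable ℝ (deriv H) := hH.sm.differentiable_deriv_two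
  have e1 : deriv (fun ρ => ρ * H ρ) = fun ρ => H ρ + ρ * deriv H ρ := by
    funext ρ
    simpa using ((hasDerivAt_id' ρ).fun_mul (d0 ρ).hasDerivAt).deriv
  have e2 : ∀ ρ, deriv (deriv fun ρ => ρ * H ρ) ρ = 2 * deriv H ρ + ρ * deriv (deriv H) ρ := by
    intro ρ
    rw [e1, ((d0 ρ).hasDerivAt.fun_add ((hasDerivAt_id' ρ).fun_mul (d1 ρ).hasDerivAt)).deriv]
    ring
  have h0 := hH.h0
  refine ⟨⟨contDiff_id.mul hH.sm, by positivity, fun ρ hρ => by rw [hH.zero ρ hρ, mul_zero], fun ρ => ?_⟩,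
    fun ρ => ⟨congrFun e1 ρ, e2 ρ⟩⟩
  rw [e2, e1]
  have hp : 0 ≤ h * Real.exp (k * ρ) := by positivity
  by_cases hρ : ρ ≤ ρ₀ ∨ 13 / 10 * ρ₀ ≤ ρ
  · obtain ⟨a0, a1, a2⟩ := gb_zero hH hρ
    simp only [a0, a1, a2, mul_zero, add_zero, abs_zero, and_self]
    positivity
  · push Not at hρ
    obtain ⟨a0, a1, a2⟩ := hH.le ρ
    have hr : 0 ≤ ρ := by linarith [hρ.1]
    have b1 : ρ * (h * Real.exp (k * ρ)) ≤ 13 / 10 * ρ₀ * (h * Real.exp (k * ρ)) :=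
      mul_le_mul_of_nonneg_right hρ.2.le hp
    have b2 : 1 * (h * Real.exp (k * ρ)) ≤ ρ₀ * (h * Real.exp (k * ρ)) := mul_le_mul_of_nonneg_right h1 hp
    have c0 := mul_le_mul_of_nonneg_left a0 hr
    have c1 := mul_le_mul_of_nonneg_left a1 hr
    have c2 := mul_le_mul_of_nonneg_left a2 hr
    refine ⟨?_, (abs_add_le _ _).trans ?_, (abs_add_le _ _).trans ?_⟩ <;>
      simp only [abs_mul, abs_of_nonneg hr, abs_two] <;> linarith

end Crest.Agent.R335
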