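import Crest.Agent.R335.Ge
import Crest.Agent.R335.Gb

/-!
# R335/Gj1: Green identity in the layer.  `T = H(cyl) Q(z)`; the equation of `ψ` tested with `T` (`H1.of_c1_cpt`) and `H1.green` give `∫ ψ lap T = 2 ∫ (v - e2) ψ T`; `cylp_lap`.
On `A = box ρ₀ (1.3 ρ₀) (-2 λ₀) (2 λ₀)`: `|ψ| exp (k ρ) ≤ C ρ₀^(-μ) λ₀ ρ₀^(b-2)` (`LayB`, `lam_anti`, `lam_le_mul`, `gfun_up`); `box_vol` (`≤ 9 ρ₀^(7/5)`), `sumClass_set`.
-/

set_option autoImplicit false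

namespace Crest.Agent.R335

open MeasureTheory Set Filter Topology
open scoped Gradient RealInnerProductSpace ENNReal ContDiff
open Crest.MathPhysics.ThreeBody

variable {k b L C c e1 e2 : ℝ} {R d V0 S v φ u ψ : E3 → ℝ} {GR Gd Gφ Gu Gψ : E3 → E3}

theorem gj1_bd {A : Set E3} (hA : MeasurableSet A) {w F : E3 → ℝ} (hw : IntegrableOn w A) {D : ℝ}
    (h1 : ∀ x ∈ A, |F x| ≤ D * |w x|) (h2 : ∀ x, x ∉ A → F x = 0) :
    (AEStronglyMeasurable F volume → Integrable F) ∧ |∫ x, F x| ≤ D * ∫ x in A, |w x| := by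
  have hI : Integrable (A.indicator fun x => D * |w x|) :=
    (integrable_indicator_iff hA).2 (hw.abs.const_mul D)
  have hb : ∀ᵐ x, ‖F x‖ ≤ A.indicator (fun x => D * |w x|) x := Eventually.of_forall fun x => by
    by_cases hx : x ∈ A
    · rw [indicator_of_mem hx]
      exact h1 x hx
    · rw [indicator_of_notMem hx, h2 x hx, norm_zero]
  refine ⟨fun hm => hI.mono' hm hb, ?_⟩
  have := norm_integral_le_of_norm_le hI hb
  rwa [integral_indicator hA, integral_const_mul] at this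

theorem gj1_even {Q : ℝ → ℝ} (h : ∀ z, Q (-z) = Q z) (z : ℝ) : deriv (deriv Q) (-z) = deriv (deriv Q) z := by
  have e1 : ∀ z, deriv Q z = -deriv Q (-z) := fun z => by
    rw [← deriv_comp_neg]
    simp only [h]
  have e2 : deriv Q = fun z => -deriv Q (-z) := funext e1
  have e3 : deriv (deriv Q) z = deriv (fun z => -deriv Q (-z)) z := by rw [← e2]
  rw [e3, deriv.fun_neg, deriv_comp_neg, neg_neg]

theorem gj1_vol {ρ₀ : ℝ} (h : 1 ≤ ρ₀) :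
    volume.real (box ρ₀ (13 / 10 * ρ₀) (-(2 * lam ρ₀)) (2 * lam ρ₀)) ≤ 9 * ρ₀ ^ (7 / 5 : ℝ) := by
  have h0 : 0 < ρ₀ := by linarith
  have hl := lam_pos h0
  rw [(box_vol h0.le (by linarith) (by linarith)).2]
  have e : ρ₀ ^ (7 / 5 : ℝ) = ρ₀ ^ 2 * lam ρ₀ := by
    rw [lam, ← Real.rpow_two, ← Real.rpow_add h0]
    norm_num
  have h2 : 0 ≤ ρ₀ ^ 2 * lam ρ₀ := by positivity
  have h3 := mul_le_mul_of_nonneg_right Real.pi_lt_d2.le h2
  rw [e]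
  nlinarith

/-- the layer bound on a block -/
theorem LayB.blk (hk : 0 < k) {μ : ℝ} (hμ : 0 ≤ μ) (hl : LayB k b ψ μ) : ∃ C' L' : ℝ, 0 ≤ C' ∧ ∀ ρ₀, L' ≤ ρ₀ →
    ∀ x ∈ box ρ₀ (13 / 10 * ρ₀) (-(2 * lam ρ₀)) (2 * lam ρ₀),
      |ψ x| * Real.exp (k * cyl x) ≤ C' * ρ₀ ^ (b - 13 / 5 - μ) := by
  obtain ⟨C', L', hC, hb⟩ := hl
  obtain ⟨M, hM, hg⟩ := gfun_up hk b
  refine ⟨C' * M, max L' 20, by positivity, fun ρ₀ hρ x hx => ?_⟩
  obtain ⟨x1, x2, x3, x4⟩ := hx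
  have r1 : L' ≤ ρ₀ := (le_max_left _ _).trans hρ
  have r2 : 20 ≤ ρ₀ := (le_max_right _ _).trans hρ
  have h0 : 0 < ρ₀ := by linarith
  have hc : 0 < cyl x := by linarith
  have hz : |x 2| ≤ 2 * lam ρ₀ := abs_le.2 ⟨x3, x4⟩
  have l1 : lam ρ₀ ≤ 1 := Real.rpow_le_one_of_one_le_of_nonpos (by linarith) (by norm_num)
  have l2 : lam ρ₀ ≤ 2 * lam (cyl x) := lam_le_mul hc h0 (by norm_num) (by linarith)
  have l3 : lam (cyl x) ≤ lam ρ₀ := lam_anti h0 x1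
  have l4 := lam_pos hc
  have a1 := hb x (by linarith) (by linarith)
  have a2 := hg ρ₀ x h0 (by linarith) (by linarith) (by linarith)
  have a3 : cyl x ^ (-μ) ≤ ρ₀ ^ (-μ) := Real.rpow_le_rpow_of_nonpos h0 x1 (by linarith)
  have a4 : Real.exp (-(k * x 2 ^ 2 / (3 * ρ₀))) ≤ 1 := Real.exp_le_one_iff.2 (neg_nonpos.2 (by positivity))
  have a5 : gfun k b x ≤ M * ρ₀ ^ (b - 2) * Real.exp (-(k * cyl x)) :=
    a2.trans (mul_le_mul_of_nonneg_left (mul_le_of_le_one_right (Real.exp_pos _).le a4) (by positivity))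
  have g0 : 0 ≤ gfun k b x := by unfold gfun; positivity
  have a6 : |ψ x| ≤ C' * ρ₀ ^ (-μ) * lam ρ₀ * (M * ρ₀ ^ (b - 2) * Real.exp (-(k * cyl x))) :=
    a1.trans (mul_le_mul (mul_le_mul (mul_le_mul_of_nonneg_left a3 hC) l3 l4.le (by positivity)) a5 g0
      (mul_nonneg (by positivity) (lam_pos h0).le))
  refine (mul_le_mul_of_nonneg_right a6 (Real.exp_pos _).le).trans (le_of_eq ?_)
  have e1 : Real.exp (-(k * cyl x)) * Real.exp (k * cyl x) = 1 := by rw [← Real.exp_add]; simp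
  have e2 : ρ₀ ^ (b - 13 / 5 - μ) = ρ₀ ^ (-μ) * lam ρ₀ * ρ₀ ^ (b - 2) := by
    rw [lam, ← Real.rpow_add h0, ← Real.rpow_add h0]
    congr 1
    ring
  rw [e2]
  linear_combination (C' * ρ₀ ^ (-μ) * lam ρ₀ * M * ρ₀ ^ (b - 2)) * e1

theorem core_lay (h : Red k b L C c R GR d Gd V0 S v e1 e2 φ Gφ u Gu ψ Gψ) {μ : ℝ} (hμ : 0 ≤ μ) (hl : LayB k b ψ μ) : ∃ C' L' : ℝ, 0 ≤ C' ∧
    ∀ (ρ₀ h q : ℝ) (H Q : ℝ → ℝ), L' ≤ ρ₀ → HB k ρ₀ h H → ContDiff ℝ 2 Q → (∀ z, Q (-z) = Q z) →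
      (∀ z, 2 * lam ρ₀ ≤ |z| → Q z = 0) → (∀ z, |Q z| ≤ q) →
      |∫ x in {x : E3 | 0 < x 2}, ψ x * (H (cyl x) * deriv (deriv Q) (x 2))| ≤ C' * h * q * ρ₀ ^ (b - 6 / 5 - μ) := by
  obtain ⟨C', L', hC, hb⟩ := hl.blk h.tail.kpos hμ
  obtain ⟨M, hM, hv⟩ := sumClass_set h.cls
  refine ⟨C' * (10 * M + 9 * |e2| + 9), max L' 1, by positivity, fun ρ₀ η q H Q hρ hH hQ hev hz hq => ?_⟩
  have r1 : L' ≤ ρ₀ := (le_max_left _ _).trans hρ
  have r2 : 1 ≤ ρ₀ := (le_max_right _ _).trans hρ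
  have h0 : 0 < ρ₀ := by linarith
  have hl0 := lam_pos h0
  have q0 : 0 ≤ q := (abs_nonneg _).trans (hq 0)
  have η0 := hH.h0
  have hb' := hb ρ₀ r1
  have hV := gj1_vol r2
  have hfin := (box_vol (z₁ := -(2 * lam ρ₀)) (z₂ := 2 * lam ρ₀) h0.le
    (by linarith : ρ₀ ≤ 13 / 10 * ρ₀) (by linarith)).1
  have hAm := measurableSet_box ρ₀ (13 / 10 * ρ₀) (-(2 * lam ρ₀)) (2 * lam ρ₀)
  have hout : ∀ x : E3, x ∉ box ρ₀ (13 / 10 * ρ₀) (-(2 * lam ρ₀)) (2 * lam ρ₀) →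
      (cyl x ≤ ρ₀ ∨ 13 / 10 * ρ₀ ≤ cyl x) ∨ Q (x 2) = 0 := fun x hx => by
    by_contra hn
    push Not at hn
    have h3 : |x 2| < 2 * lam ρ₀ := by
      by_contra h4
      exact hn.2 (hz _ (not_lt.1 h4))
    exact hx ⟨hn.1.1.le, hn.1.2.le, (abs_lt.1 h3).1.le, (abs_lt.1 h3).2.le⟩
  have hin : ∀ x ∈ box ρ₀ (13 / 10 * ρ₀) (-(2 * lam ρ₀)) (2 * lam ρ₀), 1 ≤ cyl x := fun x hx => r2.trans hx.1
  have hz1 : ∀ z, z ≤ -(2 * lam ρ₀) → Q z = 0 := fun z h1 => hz z (le_abs.2 (Or.inr (by linarith)))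
  have hz2 : ∀ z, 2 * lam ρ₀ ≤ z → Q z = 0 := fun z h1 => hz z (le_abs.2 (Or.inl h1))
  have hT := cylp_contDiff hH.sm hQ h0 fun ρ hρ => hH.zero ρ (Or.inl hρ)
  have hTs := (cylp_supp (Q := Q) hH.zero fun z h1 => h1.elim (hz1 z) (hz2 z)).1
  have hlap := cylp_lap hH.sm hQ h0 fun ρ hρ => hH.zero ρ (Or.inl hρ)
  have hS := (cylp_supp (Q := deriv (deriv Q)) hH.zero fun z h1 => h1.elim
    (fun h2 => (deriv_zero_of_le hQ hz1 z h2).2) fun h2 => (deriv_zero_of_ge hQ hz2 z h2).2).1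
  obtain ⟨hvi, hvb⟩ := hv _ hAm hfin
  generalize box ρ₀ (13 / 10 * ρ₀) (-(2 * lam ρ₀)) (2 * lam ρ₀) = A at hb' hV hfin hAm hout hin hvi hvb
  set B := C' * ρ₀ ^ (b - 13 / 5 - μ) with hB
  have B0 : 0 ≤ B := by positivity
  have h1i : IntegrableOn (fun _ : E3 => (1 : ℝ)) A := integrableOn_const hfin
  have h1v : ∫ _ in A, |(1 : ℝ)| = volume.real A := by simp
  have hψ := h.oψ.eig.h1
  -- pointwise bound
  have key : ∀ x ∈ A, ∀ s t : ℝ, 0 ≤ t → |s| ≤ t * (η * Real.exp (k * cyl x)) →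
      |ψ x * (s * Q (x 2))| ≤ t * (η * q * B) := fun x hx s t ht hs => by
    have a1 := mul_le_mul hs (hq (x 2)) (abs_nonneg _) (by positivity)
    have a2 := mul_le_mul_of_nonneg_left a1 (abs_nonneg (ψ x))
    have a3 := mul_le_mul_of_nonneg_left (hb' x hx) (by positivity : 0 ≤ t * (η * q))
    rw [abs_mul, abs_mul]
    refine a2.trans ((le_of_eq ?_).trans (a3.trans (le_of_eq ?_))) <;> ring
  have kT : ∀ x ∈ A, |ψ x * (H (cyl x) * Q (x 2))| ≤ η * q * B := fun x hx => by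
    have := key x hx (H (cyl x)) 1 zero_le_one (by rw [one_mul]; exact (hH.le _).1)
    rwa [one_mul] at this
  have zT : ∀ x, x ∉ A → H (cyl x) * Q (x 2) = 0 := fun x hx => by
    rcases hout x hx with h1 | h1
    · rw [hH.zero _ h1, zero_mul]
    · rw [h1, mul_zero]
  have b1 := (gj1_bd hAm hvi (F := fun x => v x * (ψ x * (H (cyl x) * Q (x 2)))) (D := η * q * B)
    (fun x hx => by
      rw [abs_mul, mul_comm]
      exact mul_le_mul_of_nonneg_right (kT x hx) (abs_nonneg _))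
    fun x hx => by rw [zT x hx, mul_zero, mul_zero]).2
  have b2 := (gj1_bd hAm h1i (F := fun x => ψ x * (H (cyl x) * Q (x 2))) (D := η * q * B)
    (fun x hx => by rw [abs_one, mul_one]; exact kT x hx) fun x hx => by rw [zT x hx, mul_zero]).2
  have b3 := gj1_bd hAm h1i
    (F := fun x => ψ x * ((deriv (deriv H) (cyl x) + deriv H (cyl x) / cyl x) * Q (x 2))) (D := 2 * (η * q * B))
    (fun x hx => by
      rw [abs_one, mul_one]
      refine key x hx _ 2 zero_le_two ((abs_add_le _ _).trans ?_)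
      have c1 := hin x hx
      have c2 : |deriv H (cyl x) / cyl x| ≤ |deriv H (cyl x)| := by
        rw [abs_div, abs_of_pos (by linarith : 0 < cyl x)]
        exact div_le_self (abs_nonneg _) c1
      linarith [(hH.le (cyl x)).2.1, (hH.le (cyl x)).2.2])
    fun x hx => by
      rcases hout x hx with h1 | h1
      · rw [(gb_zero hH h1).2.1, (gb_zero hH h1).2.2]; simp
      · rw [h1, mul_zero, mul_zero]
  have cz : Continuous fun x : E3 => x 2 := by fun_prop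
  have i3 := b3.1 (hψ.mf.1.mul (Measurable.aestronglyMeasurable
    ((((gba_c2 hH.sm).2.comp continuous_cyl).measurable.add
      (((gba_c2 hH.sm).1.comp continuous_cyl).measurable.div continuous_cyl.measurable)).mul
      (hQ.continuous.comp cz).measurable)))
  have i4 : Integrable fun x : E3 => ψ x * (H (cyl x) * deriv (deriv Q) (x 2)) :=
    hψ.mf.integrable_mul (q := 2) (Continuous.memLp_of_hasCompactSupport
      ((hH.sm.continuous.comp continuous_cyl).mul ((gba_c2 hQ).2.comp cz)) hS)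
  have eq1 := h.oψ.eig.eq _ _ (H1.of_c1_cpt (hT.of_le (by norm_num)) hTs)
  have eq2 := hψ.green hT hTs
  simp only [hlap, mul_add] at eq2
  rw [integral_add i3 i4] at eq2
  rw [bf, ip, eq2] at eq1
  obtain ⟨T, hTM, hTr, -⟩ := exists_refl_z
  have eq3 := even_int i4 (by
    filter_upwards [ae_offA] with x hx
    rw [h.psi_refl x hx, ← hTr, Sym.cyl_eq (Or.inr hTM), hTM, gj1_even hev])
  rw [h1v] at b2 b3
  have b3' := b3.2
  have hP : 1 ≤ ρ₀ ^ (7 / 5 : ℝ) := Real.one_le_rpow r2 (by norm_num)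
  have eP : ρ₀ ^ (b - 6 / 5 - μ) = ρ₀ ^ (b - 13 / 5 - μ) * ρ₀ ^ (7 / 5 : ℝ) := by
    rw [← Real.rpow_add h0]
    congr 1
    ring
  have D0 : 0 ≤ η * q * B := by positivity
  have eR : C' * (10 * M + 9 * |e2| + 9) * η * q * ρ₀ ^ (b - 6 / 5 - μ) =
      η * q * B * (M * (10 * ρ₀ ^ (7 / 5 : ℝ))) + |e2| * (η * q * B * (9 * ρ₀ ^ (7 / 5 : ℝ))) +
        η * q * B * (9 * ρ₀ ^ (7 / 5 : ℝ)) := by
    rw [eP, hB]
    ring
  have c1 := b1.trans (mul_le_mul_of_nonneg_left (hvb.trans (mul_le_mul_of_nonneg_left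
    (by linarith : 1 + volume.real A ≤ 10 * ρ₀ ^ (7 / 5 : ℝ)) hM)) D0)
  have c2 := mul_le_mul_of_nonneg_left (b2.trans (mul_le_mul_of_nonneg_left hV D0)) (abs_nonneg e2)
  have c3 := b3'.trans (mul_le_mul_of_nonneg_left hV (mul_nonneg zero_le_two D0))
  rw [← abs_mul] at c2
  rw [eR]
  obtain ⟨c11, c12⟩ := abs_le.1 c1
  obtain ⟨c21, c22⟩ := abs_le.1 c2
  obtain ⟨c31, c32⟩ := abs_le.1 c3
  exact abs_le.2 ⟨by linarith, by linarith⟩

end Crest.Agent.R335
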