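import Crest.Agent.R335.Gk2
import Crest.Agent.R335.Gg3
import Crest.Agent.R335.Gj1

/-!
# R335/Gk4: the moment of order two.  `CoreB` for `(H, Q2)` and for `(ρ H, Q0)` (`HB.mul_id`); `F = Lop V0 H Q2 - Lop V0 (ρ H) Q0`.  On `Om ∩ shell`:
`F = ptwo (H'' + H'/ρ - 2 V0 H) - 2 (H' - k H) - H/ρ`, `|ptwo| ≤ C ρ₀ log ρ₀`, `H/ρ ≤ C ρ₀ Gz Ew`.  The integral of `ψ H 2 k` over `0 < z < λ₀` is at most `C ρ₀^(-(b+1/2)) ρ₀^(b - 13/5 - μ) ρ₀^(7/5)`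
(`LayB.blk`, `abs_integral_le_shell` or `box_vol`).  `blk_gen` with `P = C ρ₀ (log ρ₀)²`, `tel`, `mom_le` with `P = C ρ₀ log ρ₀`.
-/

set_option autoImplicit false

namespace Crest.Agent.R335

open MeasureTheory Set Filter Topology
open scoped Gradient RealInnerProductSpace ENNReal ContDiff
open Crest.MathPhysics.ThreeBody

variable {k b L C c e1 e2 : ℝ} {R d V0 S v φ u ψ : E3 → ℝ} {GR Gd Gφ Gu Gψ : E3 → E3}

theorem gk4_log {ρ₀ : ℝ} (h : 3 ≤ ρ₀) : 1 ≤ Real.log ρ₀ := by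
  rw [Real.le_log_iff_exp_le (by linarith)]
  exact Real.exp_one_lt_three.le.trans h

theorem gk4_p (hk : 0 < k) {ρ₀ : ℝ} (h3 : 3 ≤ ρ₀) {x : E3} (hx : x ∈ Om k) (h1 : ρ₀ ≤ cyl x) (h2 : cyl x ≤ 2 * ρ₀) :
    |ptwo k x| ≤ 4002 * ρ₀ * Real.log ρ₀ := by
  have l1 := gk4_log h3
  have l2 : Real.log (cyl x) ≤ 2 * Real.log ρ₀ := by
    have : Real.log (cyl x) ≤ Real.log (ρ₀ ^ 2) := Real.log_le_log (by linarith) (by nlinarith)
    rwa [Real.log_pow, Nat.cast_ofNat] at this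
  have l3 : 0 ≤ Real.log (cyl x) := Real.log_nonneg (by linarith)
  have a1 : k * x 2 ^ 2 ≤ 1000 * (cyl x * Real.log (cyl x)) := by
    have := mul_le_mul_of_nonneg_left hx.2 hk.le
    calc k * x 2 ^ 2 ≤ k * (1000 / k * cyl x * Real.log (cyl x)) := this
      _ = 1000 * (cyl x * Real.log (cyl x)) := by field_simp
  have a2 : cyl x * Real.log (cyl x) ≤ 2 * ρ₀ * (2 * Real.log ρ₀) := mul_le_mul h2 l2 l3 (by linarith)
  have a3 : 0 ≤ k * x 2 ^ 2 := by positivity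
  have a4 : ρ₀ * 1 ≤ ρ₀ * Real.log ρ₀ := mul_le_mul_of_nonneg_left l1 (by linarith)
  unfold ptwo
  rw [abs_le]
  constructor <;> nlinarith

theorem gk4_cont (k : ℝ) : Continuous (ptwo k) := by
  unfold ptwo
  exact (continuous_const.mul ((by fun_prop : Continuous fun x : E3 => x 2).pow 2)).sub continuous_cyl

theorem gk4_int (h : Red k b L C c R GR d Gd V0 S v e1 e2 φ Gφ u Gu ψ Gψ) : ∃ L' : ℝ,
    ∀ (ρ₀ h' : ℝ) (H Q : ℝ → ℝ), L' ≤ ρ₀ → HB k ρ₀ h' H → ContDiff ℝ 2 Q →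
      IntegrableOn (fun x => ang u ψ x * Rtwo u ψ x * Lop V0 H Q x) (Om k) := by
  obtain ⟨L6, h63, h6⟩ := Om_small h.tail.kpos
  obtain ⟨MV, hMV0, hMV⟩ := h.tail.V0_le
  refine ⟨max L6 (L + 1), fun ρ₀ h' H Q hρ hH hQ => ?_⟩
  have r1 : L6 ≤ ρ₀ := (le_max_left _ _).trans hρ
  have r2 : L + 1 ≤ ρ₀ := (le_max_right _ _).trans hρ
  have hz : Continuous fun x : E3 => x 2 := by fun_prop
  have cA : ContinuousOn (fun x : E3 => (deriv (deriv H) (cyl x) + deriv H (cyl x) / cyl x) * Q (x 2) +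
      H (cyl x) * deriv (deriv Q) (x 2)) (box ρ₀ (13 / 10 * ρ₀) 0 ρ₀) := by
    refine ContinuousOn.add (ContinuousOn.mul (ContinuousOn.add ?_ (ContinuousOn.div ?_ ?_ ?_)) ?_) ?_
    · exact ((gba_c2 hH.sm).2.comp continuous_cyl).continuousOn
    · exact ((gba_c2 hH.sm).1.comp continuous_cyl).continuousOn
    · exact continuous_cyl.continuousOn
    · intro x hx
      have := hx.1
      exact (show 0 < cyl x by linarith).ne'
    · exact (hQ.continuous.comp hz).continuousOn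
    · exact ((hH.sm.continuous.comp continuous_cyl).mul ((gba_c2 hQ).2.comp hz)).continuousOn
  have cB : ContinuousOn (fun x : E3 => H (cyl x) * Q (x 2)) (box ρ₀ (13 / 10 * ρ₀) 0 ρ₀) :=
    ((hH.sm.continuous.comp continuous_cyl).mul (hQ.continuous.comp hz)).continuousOn
  obtain ⟨MA, hMA⟩ := (isCompact_box _ _ _ _).exists_bound_of_continuousOn cA
  obtain ⟨MB, hMB⟩ := (isCompact_box _ _ _ _).exists_bound_of_continuousOn cB
  refine intOn_of_L2 h.memLp_U.1 (measurable_Lop h.tail.mV hH.sm hQ).aestronglyMeasurable (measurableSet_Om k)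
    (M := |MA| + 2 * (MV * |MB|)) (M' := 3 * ρ₀) (fun x hx => ?_) (fun x hx hn => ?_)
  · by_cases hs : x ∈ shell ρ₀ (13 / 10 * ρ₀)
    · obtain ⟨z1, z2⟩ := h6 x hx (r1.trans hs.1)
      have hb : x ∈ box ρ₀ (13 / 10 * ρ₀) 0 ρ₀ := ⟨hs.1, hs.2, z1.le, by linarith [hs.2]⟩
      have a1 := (hMA x hb).trans (le_abs_self _)
      have a2 := (hMB x hb).trans (le_abs_self _)
      have a3 := hMV x (by linarith [cyl_le_norm x, hs.1])
      rw [Real.norm_eq_abs] at a1 a2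
      have e : Lop V0 H Q x = ((deriv (deriv H) (cyl x) + deriv H (cyl x) / cyl x) * Q (x 2) +
          H (cyl x) * deriv (deriv Q) (x 2)) - 2 * (V0 x * (H (cyl x) * Q (x 2))) := by
        unfold Lop
        ring
      rw [e]
      refine (abs_sub _ _).trans (add_le_add a1 ?_)
      rw [abs_mul, abs_two, abs_mul]
      exact mul_le_mul_of_nonneg_left (mul_le_mul a3 a2 (abs_nonneg _) hMV0) zero_le_two
    · rw [hH.Lop_zero Q hs, abs_zero]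
      positivity
  · refine hH.Lop_zero Q fun hs => ?_
    obtain ⟨z1, z2⟩ := h6 x hx (r1.trans hs.1)
    have := norm_le_cyl_add x
    rw [abs_of_pos z1] at this
    linarith [hs.2]

theorem gk4_lay {ρ₀ h' K : ℝ} {H Q : ℝ → ℝ} (hk : 0 < k) (h1 : 41 ≤ ρ₀) (hH : HB k ρ₀ h' H)
    (hQ : ∀ z, |z| < ρ₀ / 40 → deriv (deriv Q) z = 2 * k) (hK0 : 0 ≤ K)
    (hK : ∀ x ∈ box ρ₀ (13 / 10 * ρ₀) (-(2 * lam ρ₀)) (2 * lam ρ₀), |ψ x| * Real.exp (k * cyl x) ≤ K) :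
    |∫ x in {x : E3 | 0 < x 2 ∧ x 2 < lam ρ₀}, ψ x * (H (cyl x) * deriv (deriv Q) (x 2))| ≤
      2 * k * h' * K * (3 * ρ₀ ^ 2 * lam ρ₀) := by
  have l0 : 0 < lam ρ₀ := lam_pos (by linarith)
  have l1 : lam ρ₀ ≤ 1 := lam_le_one (by linarith)
  have hz : Measurable fun x : E3 => x 2 := by fun_prop
  have hS : MeasurableSet {x : E3 | 0 < x 2 ∧ x 2 < lam ρ₀} := hz measurableSet_Ioo
  obtain ⟨v1, v2⟩ := box_vol (α := ρ₀) (β := 13 / 10 * ρ₀) (z₁ := 0) (z₂ := lam ρ₀) (by linarith) (by linarith) l0.le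
  have hsub : {x : E3 | 0 < x 2 ∧ x 2 < lam ρ₀} ∩ shell ρ₀ (13 / 10 * ρ₀) ⊆ box ρ₀ (13 / 10 * ρ₀) 0 (lam ρ₀) :=
    fun x hx => ⟨hx.2.1, hx.2.2, hx.1.1.le, hx.1.2.le⟩
  have h0 := hH.h0
  rw [setIntegral_eq_of_subset_of_forall_sdiff_eq_zero hS (inter_subset_left (t := shell ρ₀ (13 / 10 * ρ₀)))
    (fun x hx => by
      have : H (cyl x) = 0 := by
        refine hH.zero _ ?_
        by_contra hc
        rw [not_or, not_le, not_le] at hc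
        exact hx.2 ⟨hx.1, hc.1.le, hc.2.le⟩
      rw [this, zero_mul, mul_zero])]
  have hb := norm_setIntegral_le_of_norm_le_const (μ := volume)
    (f := fun x : E3 => ψ x * (H (cyl x) * deriv (deriv Q) (x 2))) (C := 2 * k * h' * K)
    ((measure_mono hsub).trans_lt v1.lt_top) (fun x hx => by
      obtain ⟨⟨z1, z2⟩, s1, s2⟩ := hx
      have a1 := hK x ⟨s1, s2, by linarith, by linarith⟩
      have a2 := (hH.le (cyl x)).1
      rw [hQ _ (by rw [abs_of_pos z1]; linarith), Real.norm_eq_abs, abs_mul, abs_mul,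
        abs_of_pos (by positivity : 0 < 2 * k)]
      calc |ψ x| * (|H (cyl x)| * (2 * k)) ≤ |ψ x| * (h' * Real.exp (k * cyl x) * (2 * k)) := by gcongr
        _ = 2 * k * h' * (|ψ x| * Real.exp (k * cyl x)) := by ring
        _ ≤ 2 * k * h' * K := by gcongr)
  refine hb.trans (mul_le_mul_of_nonneg_left ((measureReal_mono hsub v1).trans ?_) (by positivity))
  rw [v2, sub_zero]
  refine mul_le_mul_of_nonneg_right ?_ l0.le
  have := mul_le_mul_of_nonneg_right Real.pi_le_four (sq_nonneg ρ₀)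
  nlinarith [sq_nonneg ρ₀]

theorem gk4_alg {p A D T w r l C1 C5 : ℝ} (a4 : |p| ≤ 4002 * r * l) (a1 : |A| ≤ C5 * l * w) (a2 : |D| ≤ C1 * r * w)
    (a6 : |T| ≤ C1 * r * w) (hr : 0 < r) (hl : 1 ≤ l) (hw : 0 ≤ w) (hC1 : 0 ≤ C1) :
    |p * A - 2 * D - T| ≤ (4002 * C5 + 3 * C1) * r * l ^ 2 * w := by
  refine (abs_sub _ _).trans ((add_le_add (abs_sub _ _) a6).trans ?_)
  rw [abs_mul, abs_mul, abs_two]
  have b1 := mul_le_mul a4 a1 (abs_nonneg _) (by positivity)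
  have b2 : C1 * r * w * 1 ≤ C1 * r * w * l ^ 2 :=
    mul_le_mul_of_nonneg_left (one_le_pow₀ hl) (by positivity)
  linarith

set_option maxHeartbeats 800000 in
theorem blk2 (h : Red k b L C c R GR d Gd V0 S v e1 e2 φ Gφ u Gu ψ Gψ) {ν s μ : ℝ} (hν : -1 / 2 ≤ ν) (hN : NB k b u ψ ν) {θ : ℝ → ℝ} (hθ : Win k b θ) (hc : CoreB k b V0 u ψ s)
    (hs : s ≤ ν + 9 / 10) (hμ : 0 ≤ μ) (hl : LayB k b ψ μ) (h3 : s ≤ μ + 6 / 5) :
    MomB (fun ρ => mom k b u ψ θ (ptwo k) ρ - mom k b u ψ θ (ptwo k) (6 / 5 * ρ)) (1 / 2 - s) := by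
  have hk := h.tail.kpos
  obtain ⟨C1, c1, L1, hC1, -, hW⟩ := hθ.ex
  obtain ⟨C2, L2, hC2, hcore⟩ := hc
  obtain ⟨M0, hM0, hQ0⟩ := exists_Q0 hk
  obtain ⟨M2, hM2, hQ2⟩ := exists_Q2 hk
  obtain ⟨C3, L3, hC3, hlay⟩ := LayB.blk hk hμ hl
  obtain ⟨C4, L4, hC4, hgen⟩ := blk_gen h hν hN hθ
  obtain ⟨C5, L5, hC5, hmod⟩ := h.tail.model C1
  obtain ⟨L6, -, hsm⟩ := Om_small hk
  obtain ⟨L7, hint⟩ := gk4_int h
  have hev := ev_log (a := -ν - 1 / 2) (a' := 1 / 2 - s) (by linarith) (C4 * (4002 * C5 + 3 * C1)) 3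
  obtain ⟨L', hL'⟩ := eventually_atTop.1 (hev.and ((eventually_ge_atTop L1).and ((eventually_ge_atTop L2).and
    ((eventually_ge_atTop L3).and ((eventually_ge_atTop L4).and ((eventually_ge_atTop L5).and
    ((eventually_ge_atTop L6).and ((eventually_ge_atTop L7).and (eventually_ge_atTop 41)))))))))
  refine ⟨1 + C2 * C1 * M2 + 6 * k * C1 * C3 + 4 * C2 * C1 * M0, L', by positivity, fun ρ₀ hρ => ?_⟩
  obtain ⟨r0, r1, r2, r3, r4, r5, r6, r7, r8⟩ := hL' ρ₀ hρ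
  have ρ0 : 0 < ρ₀ := by linarith
  obtain ⟨H, hH⟩ := hW ρ₀ r1
  obtain ⟨Q0, q0, q0'⟩ := hQ0 ρ₀ (by linarith)
  obtain ⟨Q2, q2, q2'⟩ := hQ2 ρ₀ (by linarith)
  obtain ⟨hH', hd⟩ := hH.hb.mul_id (by linarith)
  have l1 : lam ρ₀ ≤ 1 := lam_le_one (by linarith)
  have lg := gk4_log (by linarith : 3 ≤ ρ₀)
  have hz : Measurable fun x : E3 => x 2 := by fun_prop
  have hS : MeasurableSet {x : E3 | 0 < x 2 ∧ x 2 < lam ρ₀} := hz measurableSet_Ioo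
  have k2 := hcore ρ₀ _ _ H Q2 r2 hH.hb q2
  have k0 := hcore ρ₀ _ _ _ Q0 r2 hH' q0
  have j0 : ∫ x in {x : E3 | 0 < x 2 ∧ x 2 < lam ρ₀}, ψ x * (cyl x * H (cyl x) * deriv (deriv Q0) (x 2)) = 0 :=
    setIntegral_eq_zero_of_forall_eq_zero fun x hx => by
      rw [(q0' _ (by rw [abs_of_pos hx.1]; linarith [hx.2])).2, mul_zero, mul_zero]
  rw [j0, add_zero] at k0
  have j2 := gk4_lay (ψ := ψ) hk r8 hH.hb (fun z hz => (q2' z hz).2) (by positivity) (hlay ρ₀ r3)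
  have i2 := hint ρ₀ _ H Q2 r7 hH.hb q2.sm
  have i0 := hint ρ₀ _ _ Q0 r7 hH' q0.sm
  obtain ⟨-, g⟩ := hgen ρ₀ ((4002 * C5 + 3 * C1) * ρ₀ * Real.log ρ₀ ^ 2)
    (fun x => Lop V0 H Q2 x - Lop V0 (fun ρ => ρ * H ρ) Q0 x) (ptwo k) r4 (by positivity)
    ((measurable_Lop h.tail.mV hH.hb.sm q2.sm).sub (measurable_Lop h.tail.mV hH'.sm q0.sm)) (gk4_cont k)
    (fun x hx => by rw [hH.hb.Lop_zero Q2 hx, hH'.Lop_zero Q0 hx, sub_zero])
    (fun x hx => by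
      obtain ⟨s1, s2⟩ := hx.2
      obtain ⟨z1, z2⟩ := hsm x hx.1 (r6.trans s1)
      have hz : |x 2| < ρ₀ / 40 := by rw [abs_of_pos z1]; linarith
      have c0 : 0 < cyl x := by linarith
      have a1 := hmod ρ₀ c1 θ H r5 hH x hx
      have a2 := hH.eq' _ s1 s2
      have a3 := hH.le _ s1
      have a4 := gk4_p hk (by linarith) hx.1 s1 (by linarith)
      have a5 := (Ew_nonneg k ρ0 (cyl x)).1
      have g0 := Gz_pos k b c0
      have a6 : |H (cyl x) / cyl x| ≤ C1 * ρ₀ * (Gz k b (cyl x) * Ew k ρ₀ (cyl x)) := by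
        rw [abs_of_nonneg (div_nonneg (hH.nn _) c0.le)]
        calc H (cyl x) / cyl x ≤ C1 * Gz k b (cyl x) / ρ₀ := div_le_div₀ (by positivity) a3 ρ0 s1
          _ = C1 * ρ₀ * (Gz k b (cyl x) * (ρ₀ ^ 2)⁻¹) := by field_simp
          _ ≤ C1 * ρ₀ * (Gz k b (cyl x) * Ew k ρ₀ (cyl x)) := by gcongr
      have e : Lop V0 H Q2 x - Lop V0 (fun ρ => ρ * H ρ) Q0 x -
          ptwo k x * (Gz k b (cyl x) * (θ (cyl x - ρ₀) - θ (cyl x - 6 / 5 * ρ₀))) =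
          ptwo k x * (deriv (deriv H) (cyl x) + deriv H (cyl x) / cyl x - 2 * V0 x * H (cyl x) -
            Gz k b (cyl x) * (θ (cyl x - ρ₀) - θ (cyl x - 6 / 5 * ρ₀))) -
            2 * (deriv H (cyl x) - k * H (cyl x)) - H (cyl x) / cyl x := by
        simp only [Lop, ptwo, (hd _).1, (hd _).2, (q0' _ hz).1, (q0' _ hz).2, (q2' _ hz).1, (q2' _ hz).2]
        field_simp
        ring
      have w0 : 0 ≤ Gz k b (cyl x) * Ew k ρ₀ (cyl x) := mul_nonneg g0.le (le_trans (by positivity) a5)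
      rw [e]
      exact gk4_alg a4 a1 a2 a6 ρ0 lg w0 (by linarith))
  have e1 : ∫ x in Om k, ang u ψ x * Rtwo u ψ x * (Lop V0 H Q2 x - Lop V0 (fun ρ => ρ * H ρ) Q0 x) =
      (∫ x in Om k, ang u ψ x * Rtwo u ψ x * Lop V0 H Q2 x) -
        ∫ x in Om k, ang u ψ x * Rtwo u ψ x * Lop V0 (fun ρ => ρ * H ρ) Q0 x := by
    rw [← integral_sub i2 i0]
    simp only [mul_sub]
  rw [e1] at g
  have p1 : ρ₀ ^ (-(b + 1 / 2)) * ρ₀ * ρ₀ ^ (b - s) = ρ₀ ^ (1 / 2 - s) := by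
    rw [← Real.rpow_add_one ρ0.ne', ← Real.rpow_add ρ0]
    congr 1
    ring
  have p2 : ρ₀ * ρ₀ ^ (-ν - 3 / 2) = ρ₀ ^ (-ν - 1 / 2) := by
    rw [mul_comm, ← Real.rpow_add_one ρ0.ne']
    congr 1
    ring
  have p3 : ρ₀ ^ (-(b + 1 / 2)) * ρ₀ ^ (b - 13 / 5 - μ) * (ρ₀ ^ 2 * lam ρ₀) ≤ ρ₀ ^ (1 / 2 - s) := by
    unfold lam
    rw [← Real.rpow_two, ← Real.rpow_add ρ0, ← Real.rpow_add ρ0, ← Real.rpow_add ρ0]
    exact Real.rpow_le_rpow_of_exponent_le (by linarith) (by linarith)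
  have t1 : C4 * ((4002 * C5 + 3 * C1) * ρ₀ * Real.log ρ₀ ^ 2) * Real.log ρ₀ * ρ₀ ^ (-ν - 3 / 2) ≤
      ρ₀ ^ (1 / 2 - s) := by
    refine le_trans (le_of_eq ?_) r0
    rw [← p2]
    ring
  have t2 : C2 * (C1 * ρ₀ ^ (-(b + 1 / 2))) * (M2 * ρ₀) * ρ₀ ^ (b - s) = C2 * C1 * M2 * ρ₀ ^ (1 / 2 - s) := by
    rw [← p1]
    ring
  have t3 : C2 * (4 * ρ₀ * (C1 * ρ₀ ^ (-(b + 1 / 2)))) * M0 * ρ₀ ^ (b - s) = 4 * C2 * C1 * M0 * ρ₀ ^ (1 / 2 - s) := by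
    rw [← p1]
    ring
  have t4 : 2 * k * (C1 * ρ₀ ^ (-(b + 1 / 2))) * (C3 * ρ₀ ^ (b - 13 / 5 - μ)) * (3 * ρ₀ ^ 2 * lam ρ₀) ≤
      6 * k * C1 * C3 * ρ₀ ^ (1 / 2 - s) := by
    refine le_trans (le_of_eq ?_) (mul_le_mul_of_nonneg_left p3 (by positivity))
    ring
  have u1 := abs_le.1 (g.trans t1)
  have u2 := abs_le.1 (k2.trans t2.le)
  have u3 := abs_le.1 (k0.trans t3.le)
  have u4 := abs_le.1 (j2.trans t4)
  rw [abs_le]
  constructor <;> linarith [u1.1, u1.2, u2.1, u2.2, u3.1, u3.2, u4.1, u4.2]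

theorem mom2 (h : Red k b L C c R GR d Gd V0 S v e1 e2 φ Gφ u Gu ψ Gψ) {ν s μ : ℝ} (hν : 1 / 2 < ν) (hN : NB k b u ψ ν) {θ : ℝ → ℝ} (hθ : Win k b θ) (hc : CoreB k b V0 u ψ s)
    (hs : s ≤ ν + 9 / 10) (hμ : 0 ≤ μ) (hl : LayB k b ψ μ) (h3 : s ≤ μ + 6 / 5) (hs0 : 1 / 2 < s) :
    MomB (mom k b u ψ θ (ptwo k)) (1 / 2 - s) := by
  have hk := h.tail.kpos
  refine tel (by linarith) (blk2 h (by linarith) hN hθ hc hs hμ hl h3) ?_
  obtain ⟨L1, h1, hm⟩ := mom_le h (by linarith : -1 / 2 ≤ ν) hN hθ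
  have hev := ev_log (a := 1 / 2 - ν) (a' := (1 / 2 - ν) / 2) (by linarith) 16008 1
  obtain ⟨L', hL'⟩ := eventually_atTop.1 (hev.and (eventually_ge_atTop L1))
  refine MomB.tendsto (e := (1 / 2 - ν) / 2) (by linarith) ⟨1, L', zero_le_one, fun ρ₀ hρ => ?_⟩
  obtain ⟨r0, r1⟩ := hL' ρ₀ hρ
  have ρ0 : 0 < ρ₀ := by linarith
  have lg := gk4_log (h1.trans r1)
  have := hm ρ₀ (4002 * ρ₀ * Real.log ρ₀) (ptwo k) r1 (by positivity)
    (fun x hx => gk4_p hk (h1.trans r1) hx.1 hx.2.1 (by linarith [hx.2.2]))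
  have p2 : ρ₀ * ρ₀ ^ (-ν - 1 / 2) = ρ₀ ^ (1 / 2 - ν) := by
    rw [mul_comm, ← Real.rpow_add_one ρ0.ne']
    congr 1
    ring
  rw [one_mul]
  refine this.trans (le_trans (le_of_eq ?_) r0)
  rw [← p2]
  ring

end Crest.Agent.R335
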