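import Crest.Agent.R335.Gk5a

/-!
# R335/Gk5: the kernel `√(z² + ε²)` sees the values of `ψ` on the plane.
`CoreB` for `(H, Q1)`: error `C √ρ₀ ρ₀^(-1/2-s)`.  `blk_gen` with `p x = Q (x 2)`, `P = C √ρ₀ (log ρ₀)²` (on `Om ∩ shell`: `λ₀ ≤ z < ρ₀/40`, `|Q| ≤ z + 1 ≤ C √ρ₀ log ρ₀`,
`H Q'' ≤ C Gz ρ₀⁻² ≤ C Gz Ew`), `mom_le` at `ρ₀` and `6/5 ρ₀` with `P = C √ρ₀ log ρ₀`.  `src_low`: the integrand is `≥ 0`, and `≥ c ρ₀^(-11/2) Q''(z)` on `box (ρ₀ + 3) (6/5 ρ₀) 0 λ₀`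
(`HW.low`, `Gz_cmp`, `gfun_low`, `rpow_cmp`); `shell_int` for `f = 1_(0,λ₀) Q''`.
-/

set_option autoImplicit false

namespace Crest.Agent.R335

open MeasureTheory Set Filter Topology
open scoped Gradient RealInnerProductSpace ENNReal ContDiff
open Crest.MathPhysics.ThreeBody

variable {k b L C c e1 e2 : ℝ} {R d V0 S v φ u ψ : E3 → ℝ} {GR Gd Gφ Gu Gψ : E3 → E3}

/-- geometry of `Om ∩ shell` -/
theorem gk5_geo (hk : 0 < k) : ∃ D L' : ℝ, 0 ≤ D ∧ ∀ ρ₀, L' ≤ ρ₀ → ∀ x ∈ Om k ∩ shell ρ₀ (13 / 10 * ρ₀),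
    0 < x 2 ∧ lam ρ₀ ≤ x 2 ∧ x 2 < ρ₀ / 40 ∧ x 2 + 1 ≤ D * (Real.log ρ₀ * √ρ₀) := by
  obtain ⟨L', h3, hL⟩ := Om_small hk
  refine ⟨2 * √(1000 / k) + 1, L', by positivity, fun ρ₀ h0 x hx => ?_⟩
  obtain ⟨hO, h1, h2⟩ := hx
  have hρ : 0 < ρ₀ := by linarith
  obtain ⟨a1, a2⟩ := hL x hO (h0.trans h1)
  have hlog : 1 ≤ Real.log ρ₀ := by
    rw [Real.le_log_iff_exp_le hρ]
    have := Real.exp_one_lt_d9
    linarith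
  have hsq : 1 ≤ √ρ₀ := Real.one_le_sqrt.2 (by linarith)
  refine ⟨a1, (lam_le_mul (by linarith) hρ (by norm_num : (1 : ℝ) ≤ 2) (by linarith)).trans hO.1, by linarith, ?_⟩
  have hl2 : Real.log (cyl x) ≤ 2 * Real.log ρ₀ := by
    have : Real.log (cyl x) ≤ Real.log (ρ₀ ^ 2) := Real.log_le_log (by linarith) (by nlinarith)
    rw [Real.log_pow] at this
    exact_mod_cast this
  have hl0 : 0 ≤ Real.log (cyl x) := Real.log_nonneg (by linarith)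
  have hk' : 0 ≤ 1000 / k := by positivity
  have hz : x 2 ^ 2 ≤ (2 * √(1000 / k) * (Real.log ρ₀ * √ρ₀)) ^ 2 := by
    have e : (2 * √(1000 / k) * (Real.log ρ₀ * √ρ₀)) ^ 2 = 1000 / k * (2 * ρ₀) * (2 * Real.log ρ₀ ^ 2) := by
      rw [mul_pow, mul_pow, mul_pow, Real.sq_sqrt hk', Real.sq_sqrt hρ.le]
      ring
    rw [e]
    refine hO.2.trans (mul_le_mul (mul_le_mul_of_nonneg_left (by linarith) hk') (by nlinarith) hl0 (by positivity))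
  have hz' : x 2 ≤ 2 * √(1000 / k) * (Real.log ρ₀ * √ρ₀) :=
    (abs_le_of_sq_le_sq' hz (by positivity)).2
  have : 1 ≤ Real.log ρ₀ * √ρ₀ := by nlinarith
  linarith

/-- the pointwise model error -/
theorem gk5_err {a g E q q2 H Cm l ρ C₁ : ℝ} (hg : 0 < g) (hρ : 0 < ρ) (hE : (ρ ^ 2)⁻¹ ≤ E) (ha : |a| ≤ Cm * l * (g * E))
    (hq : |q| ≤ ρ) (h0 : 0 ≤ H) (h1 : H ≤ C₁ * g) (h2 : 0 ≤ q2) (h3 : q2 ≤ (ρ ^ 2)⁻¹) :
    |a * q + H * q2| ≤ (Cm * l * ρ + C₁) * (g * E) := by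
  have b1 : |a * q| ≤ Cm * l * (g * E) * ρ := by
    rw [abs_mul]
    exact mul_le_mul ha hq (abs_nonneg _) ((abs_nonneg _).trans ha)
  have b2 : |H * q2| ≤ C₁ * g * E := by
    rw [abs_of_nonneg (mul_nonneg h0 h2)]
    exact mul_le_mul h1 (h3.trans hE) h2 (h0.trans h1)
  calc |a * q + H * q2| ≤ |a * q| + |H * q2| := abs_add_le _ _
    _ ≤ Cm * l * (g * E) * ρ + C₁ * g * E := add_le_add b1 b2
    _ = (Cm * l * ρ + C₁) * (g * E) := by ring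

theorem gk5_fin {c₂ w A B m1 m2 t1 t2 t3 t4 : ℝ} (hc : 0 < c₂) (hw : 0 < w) (h0 : c₂ * w ≤ B) (h1 : |A + B| ≤ t1)
    (h2 : |A - (m1 - m2)| ≤ t2 + t3) (h3 : |m1| ≤ t4) (h4 : |m2| ≤ t4) (e1 : 8 / c₂ * t1 ≤ w) (e2 : 8 / c₂ * t2 ≤ w)
    (e3 : 8 / c₂ * t3 ≤ w) (e4 : 8 / c₂ * t4 ≤ w) : False := by
  have key : ∀ t, 8 / c₂ * t ≤ w → 8 * t ≤ c₂ * w := by
    intro t ht
    have := mul_le_mul_of_nonneg_left ht hc.le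
    rwa [← mul_assoc, mul_div_cancel₀ _ hc.ne'] at this
  have := key _ e1
  have := key _ e2
  have := key _ e3
  have := key _ e4
  have := mul_pos hc hw
  have := abs_le.1 h1
  have := abs_le.1 h2
  have := abs_le.1 h3
  have := abs_le.1 h4
  linarith [this.1]

theorem blk1 (h : Red k b L C c R GR d Gd V0 S v e1 e2 φ Gφ u Gu ψ Gψ) {ν s : ℝ} (hν : 7 / 2 < ν) (hN : NB k b u ψ ν) {θ : ℝ → ℝ} (hθ : Win k b θ) (hc : CoreB k b V0 u ψ s)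
    (hs : 7 / 2 < s) (hlow : ∃ c' L₁ : ℝ, 0 < c' ∧
      ∀ x, L₁ ≤ cyl x → |x 2| ≤ 8 * lam (cyl x) → c' / cyl x ^ 3 * gfun k b x ≤ ψ x) : False := by
  have hk := h.tail.kpos
  have hν' : -1 / 2 ≤ ν := by linarith
  obtain ⟨c', L₁, hc', hlow⟩ := hlow
  obtain ⟨C₁, c₁, L1, hC₁, hc₁, hW⟩ := hθ.ex
  obtain ⟨Cc, L2, hCc, hcore⟩ := hc
  obtain ⟨M, hM, hQ⟩ := exists_Q1 hk
  obtain ⟨Cm, L3, hCm, hmod⟩ := h.tail.model C₁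
  obtain ⟨Cg, L4, hCg, hgen⟩ := blk_gen h hν' hN hθ
  obtain ⟨L5, -, hmom⟩ := mom_le h hν' hN hθ
  obtain ⟨c₂, L6, hc₂, hsrc⟩ := src_low h hc' hlow C₁ hc₁
  obtain ⟨D, L7, hD, hgeo⟩ := gk5_geo hk
  obtain ⟨ρ, h1, h2, h3, h4, h5, h6, h7, h80, e1', e2', e3', e4'⟩ : ∃ ρ : ℝ, L1 ≤ ρ ∧ L2 ≤ ρ ∧ L3 ≤ ρ ∧ L4 ≤ ρ ∧ L5 ≤ ρ ∧
      L6 ≤ ρ ∧ L7 ≤ ρ ∧ 80 ≤ ρ ∧ 8 / c₂ * (Cc * C₁ * M) * ρ ^ (-s) ≤ ρ ^ (-7 / 2 : ℝ) ∧
      8 / c₂ * (Cg * Cm) * Real.log ρ ^ 2 * ρ ^ (-ν - 1 / 2) ≤ ρ ^ (-7 / 2 : ℝ) ∧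
      8 / c₂ * (Cg * C₁) * Real.log ρ ^ 1 * ρ ^ (-ν - 3 / 2) ≤ ρ ^ (-7 / 2 : ℝ) ∧
      8 / c₂ * (4 * D) * Real.log ρ ^ 1 * ρ ^ (-ν) ≤ ρ ^ (-7 / 2 : ℝ) := by
    refine Eventually.exists (f := atTop) ?_
    filter_upwards [eventually_ge_atTop L1, eventually_ge_atTop L2, eventually_ge_atTop L3, eventually_ge_atTop L4,
      eventually_ge_atTop L5, eventually_ge_atTop L6, eventually_ge_atTop L7, eventually_ge_atTop 80,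
      ev_pow (show -s < -7 / 2 by linarith) (8 / c₂ * (Cc * C₁ * M)),
      ev_log (show -ν - 1 / 2 < -7 / 2 by linarith) (8 / c₂ * (Cg * Cm)) 2,
      ev_log (show -ν - 3 / 2 < -7 / 2 by linarith) (8 / c₂ * (Cg * C₁)) 1,
      ev_log (show -ν < -7 / 2 by linarith) (8 / c₂ * (4 * D)) 1] with ρ a1 a2 a3 a4 a5 a6 a7 a8 a9 a10 a11 a12
    exact ⟨a1, a2, a3, a4, a5, a6, a7, a8, a9, a10, a11, a12⟩
  have hρ : 0 < ρ := by linarith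
  have hlog : 0 ≤ Real.log ρ := Real.log_nonneg (by linarith)
  obtain ⟨H, hH⟩ := hW ρ h1
  obtain ⟨Q, hQB, hQ1, hQ2, hQ3⟩ := hQ ρ h80
  have hlam : lam ρ ≤ 1 := lam_le_one (by linarith)
  have b0 := hsrc ρ θ H Q h6 hH hQB.sm
    (fun z a1 a2 => (hQ1 z (by rw [abs_of_pos a1]; linarith)).2) hQ3
  have b1 := hcore ρ _ _ H Q h2 hH.hb hQB
  have hp : Continuous fun x : E3 => Q (x 2) := hQB.sm.continuous.comp (by fun_prop)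
  have b2 := (hgen ρ (Cm * Real.log ρ * ρ + C₁) (Lop V0 H Q) (fun x => Q (x 2)) h4 (by positivity)
    (measurable_Lop h.tail.mV hH.hb.sm hQB.sm) hp (fun x hx => hH.hb.Lop_zero Q hx) (by
      intro x hx
      obtain ⟨a1, a2, a3, -⟩ := hgeo ρ h7 x hx
      have a4 := hQ1 (x 2) (by rw [abs_of_pos a1]; exact a3)
      have a5 := gk5_err (Gz_pos k b (hρ.trans_le hx.2.1)) hρ (Ew_nonneg k hρ (cyl x)).1 (hmod ρ c₁ θ H h3 hH x hx)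
        (q := Q (x 2)) (a4.1.trans (by rw [abs_of_pos a1]; linarith)) (hH.nn _) (hH.le _ hx.2.1) a4.2 (hQ2 _ a2 a3)
      convert a5 using 2
      unfold Lop
      ring)).2
  have hP : ∀ x ∈ Om k ∩ shell ρ (13 / 10 * ρ), |Q (x 2)| ≤ D * (Real.log ρ * √ρ) := by
    intro x hx
    obtain ⟨a1, a2, a3, a4⟩ := hgeo ρ h7 x hx
    have a5 := (hQ1 (x 2) (by rw [abs_of_pos a1]; exact a3)).1
    rw [abs_of_pos a1] at a5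
    exact a5.trans a4
  have hP0 : 0 ≤ D * (Real.log ρ * √ρ) := by positivity
  have b3 := hmom ρ _ (fun x => Q (x 2)) h5 hP0 fun x hx => hP x ⟨hx.1, hx.2.1, hx.2.2.trans (by linarith)⟩
  have b4 := hmom (6 / 5 * ρ) _ (fun x => Q (x 2)) (by linarith) hP0 fun x hx =>
    hP x ⟨hx.1, le_trans (by linarith) hx.2.1, hx.2.2.trans (by linarith)⟩
  have b5 : (6 / 5 * ρ) ^ (-ν - 1 / 2) ≤ ρ ^ (-ν - 1 / 2) :=
    Real.rpow_le_rpow_of_nonpos hρ (by linarith) (by linarith)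
  have r1 : ρ ^ (-(b + 1 / 2)) * √ρ * ρ ^ (b - s) = ρ ^ (-s) := by
    rw [Real.sqrt_eq_rpow, ← Real.rpow_add hρ, ← Real.rpow_add hρ]
    congr 1
    ring
  have r2 : ρ * ρ ^ (-ν - 3 / 2) = ρ ^ (-ν - 1 / 2) := by
    rw [← Real.rpow_one_add' hρ.le (by linarith)]
    congr 1
    ring
  have r3 : √ρ * ρ ^ (-ν - 1 / 2) = ρ ^ (-ν) := by
    rw [Real.sqrt_eq_rpow, ← Real.rpow_add hρ]
    congr 1
    ring
  refine gk5_fin (t1 := Cc * C₁ * M * ρ ^ (-s)) (t2 := Cg * Cm * Real.log ρ ^ 2 * ρ ^ (-ν - 1 / 2))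
    (t3 := Cg * C₁ * Real.log ρ ^ 1 * ρ ^ (-ν - 3 / 2)) (t4 := 4 * D * Real.log ρ ^ 1 * ρ ^ (-ν)) hc₂
    (Real.rpow_pos_of_pos hρ _) b0 (b1.trans_eq ?_) (b2.trans_eq ?_) (b3.trans_eq ?_)
    ((b4.trans (mul_le_mul_of_nonneg_left b5 (by positivity))).trans_eq ?_) (by linarith) (by linarith) (by linarith)
    (by linarith)
  · rw [← r1]; ring
  · rw [← r2]; ring
  · rw [← r3]; ring
  · rw [← r3]; ring

end Crest.Agent.R335
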