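import Crest.Agent.R335.Gl3b

/-!
# R335/Gl3: between pointwise bounds and means
-/

set_option autoImplicit false

namespace Crest.Agent.R335

open MeasureTheory Set Filter Topology
open scoped Gradient RealInnerProductSpace ENNReal ContDiff
open Crest.MathPhysics.ThreeBody

variable {k b L C c e1 e2 : ℝ} {R d V0 S v φ u ψ : E3 → ℝ} {GR Gd Gφ Gu Gψ : E3 → E3}

theorem gl3_ang (h : Red k b L C c R GR d Gd V0 S v e1 e2 φ Gφ u Gu ψ Gψ) {μ : ℝ} (hS : StripP u ψ μ)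
    (h0 : 0 ≤ μ) (h1 : μ ≤ 12) : ∃ C' L' : ℝ, 0 ≤ C' ∧ 1 ≤ L' ∧ ∀ ρ₀, L' ≤ ρ₀ → ∀ x ∈ Om k, ρ₀ ≤ cyl x →
      ang u ψ x ≤ C' * ρ₀ ^ (-μ) := by
  obtain ⟨C', L1, hC, hS⟩ := hS
  obtain ⟨L2, hM⟩ := mon_up h (1000 / k)
  refine ⟨C' + 1, max 1 (max L1 L2), by linarith, le_max_left _ _, fun ρ₀ hρ x hx hc => ?_⟩
  have a1 : 1 ≤ ρ₀ := (le_max_left _ _).trans hρ
  have a2 : L1 ≤ ρ₀ := ((le_max_left _ _).trans (le_max_right _ _)).trans hρ
  have a3 : L2 ≤ ρ₀ := ((le_max_right _ _).trans (le_max_right _ _)).trans hρ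
  have hl : 0 < lam (cyl x) := lam_pos (by linarith)
  have hz := hx.1
  have t1 := hM (cyl x) _ (x 2) (a3.trans hc) (hS _ (a2.trans hc)) (by linarith) hx.2
  have t2 : cyl x ^ (-12 : ℝ) ≤ cyl x ^ (-μ) := Real.rpow_le_rpow_of_exponent_le (a1.trans hc) (by linarith)
  have t3 : cyl x ^ (-μ) ≤ ρ₀ ^ (-μ) := Real.rpow_le_rpow_of_nonpos (by linarith) hc (by linarith)
  have t4 : 0 ≤ ρ₀ ^ (-μ) := Real.rpow_nonneg (by linarith) _
  have t5 := arctan_le_add (s := tau u ψ (cyl x) (x 2)) (t := 0) (e := (C' + 1) * ρ₀ ^ (-μ)) (by positivity)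
    (by nlinarith [mul_le_mul_of_nonneg_left t3 hC])
  rw [ang, h.tau_eq (x := x) ⟨by linarith, by linarith⟩]
  simpa using t5

/-- `|a| = 2 a₊ - a`, `a ≤ C ρ^(-μ)` on `Om` by `mon_up` with `Y = 1000/k`; `Nw (ρ₀ + 1) ≤ ∫ |a| R₂ Gz θ(cyl - ρ₀) ≤ C ρ₀^(-μ) mass + |mom|` (`mass_up`, `int_window`) -/
theorem nb_of_mom (h : Red k b L C c R GR d Gd V0 S v e1 e2 φ Gφ u Gu ψ Gψ) {μ μ' : ℝ} (hS : StripP u ψ μ) {θ : ℝ → ℝ} (hθ : Win k b θ)
    (hm : MomB (mom k b u ψ θ fun _ => 1) (-1 / 2 - μ)) (h0 : 0 ≤ μ) (h1 : μ ≤ 12) (h2 : μ' < μ) : NB k b u ψ μ' := by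
  obtain ⟨C1, L1, hC1, hL1, hA⟩ := gl3_ang h hS h0 h1
  obtain ⟨C2, L2, hC2, hm⟩ := hm
  obtain ⟨M, L3, hM, hL3, hmass⟩ := mass_up h
  obtain ⟨L4, hL4, hint⟩ := int_window h.tail.kpos b
  obtain ⟨M', hM', hcmp⟩ := rpow_cmp (-1 / 2 - μ)
  obtain ⟨L5, h5⟩ := eventually_atTop.1 (ev_pow (a := -1 / 2 - μ) (a' := -μ' - 1 / 2) (by linarith)
    ((2 * C1 * M + C2) * M'))
  refine ⟨max L5 (max (max L1 L2) (max L3 L4) + 1), fun ρ hρ => ?_⟩
  have b5 : L5 ≤ ρ := (le_max_left _ _).trans hρ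
  have b0 : max (max L1 L2) (max L3 L4) ≤ ρ - 1 := by linarith [(le_max_right _ _).trans hρ]
  obtain ⟨ρ₀, rfl⟩ : ∃ ρ₀, ρ = ρ₀ + 1 := ⟨ρ - 1, by ring⟩
  rw [add_sub_cancel_right] at b0
  have b1 : L1 ≤ ρ₀ := ((le_max_left _ _).trans (le_max_left _ _)).trans b0
  have b2 : L2 ≤ ρ₀ := ((le_max_right _ _).trans (le_max_left _ _)).trans b0
  have b3 : L3 ≤ ρ₀ := ((le_max_left _ _).trans (le_max_right _ _)).trans b0
  have b4 : L4 ≤ ρ₀ := ((le_max_right _ _).trans (le_max_right _ _)).trans b0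
  have hρ0 : 0 < ρ₀ := by linarith
  set A := C1 * ρ₀ ^ (-μ) with hAdef
  have hA0 : 0 ≤ A := mul_nonneg hC1 (Real.rpow_nonneg hρ0.le _)
  have mO := measurableSet_Om k
  have m1 := mO.inter (measurableSet_shell ρ₀ (ρ₀ + 3))
  have m2 := mO.inter (measurableSet_shell (ρ₀ + 1) (ρ₀ + 1 + 1))
  have hθ0 : ∀ x : E3, x ∉ shell ρ₀ (ρ₀ + 3) → θ (cyl x - ρ₀) = 0 := fun x hx => by
    refine hθ.zero _ ?_
    by_contra hn
    push Not at hn
    exact hx ⟨by linarith [hn.1], by linarith [hn.2]⟩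
  have i1 : IntegrableOn (fun x => 2 * A * (Rtwo u ψ x * Gz k b (cyl x))) (Om k ∩ shell ρ₀ (ρ₀ + 3)) := by
    have := hint (Rtwo u ψ) (fun _ => 1) _ ρ₀ (ρ₀ + 3) 1 b4 h.memLp_Rtwo aestronglyMeasurable_const m1
      inter_subset_left (fun _ _ _ => by simp) fun x hx hx' => absurd hx.2 hx'
    simp only [one_mul] at this
    exact this.const_mul _
  have i2 : IntegrableOn (fun x => ang u ψ x * Rtwo u ψ x * (1 * (Gz k b (cyl x) * θ (cyl x - ρ₀)))) (Om k) := by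
    have := hint _ (fun x => θ (cyl x - ρ₀)) _ ρ₀ (ρ₀ + 3) 1 b4 h.memLp_U.1
      (hθ.cont.comp (continuous_cyl.sub continuous_const)).aestronglyMeasurable mO Subset.rfl
      (fun x _ _ => by rw [abs_of_nonneg (hθ.nn _)]; exact hθ.le _) fun x _ hx' => hθ0 x hx'
    refine this.congr_fun (fun x _ => ?_) mO
    ring
  have hR : ∀ x, 0 ≤ Rtwo u ψ x := fun x => Real.sqrt_nonneg _
  have key : Nw k b u ψ (ρ₀ + 1) ≤ 2 * A * (∫ x in Om k ∩ shell ρ₀ (ρ₀ + 3), Rtwo u ψ x * Gz k b (cyl x)) -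
      mom k b u ψ θ (fun _ => 1) ρ₀ := by
    rw [Nw, mom, ← integral_const_mul, ← integral_indicator m1, ← integral_indicator m2, ← integral_indicator mO,
      ← integral_sub ((integrable_indicator_iff m1).2 i1) ((integrable_indicator_iff mO).2 i2)]
    refine integral_mono_of_nonneg (Eventually.of_forall fun x => ?_)
      (((integrable_indicator_iff m1).2 i1).sub ((integrable_indicator_iff mO).2 i2))
      (Eventually.of_forall fun x => ?_)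
    · refine indicator_nonneg (fun y hy => ?_) x
      exact mul_nonneg (mul_nonneg (abs_nonneg _) (hR y)) (Gz_pos k b (by linarith [hy.2.1])).le
    · by_cases hx : x ∈ Om k
      · by_cases hx1 : x ∈ shell ρ₀ (ρ₀ + 3)
        · have hG : 0 ≤ Rtwo u ψ x * Gz k b (cyl x) := mul_nonneg (hR x) (Gz_pos k b (by linarith [hx1.1])).le
          have ha : ang u ψ x ≤ A := hA ρ₀ b1 x hx hx1.1
          simp only [indicator_of_mem hx, indicator_of_mem (mem_inter hx hx1)]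
          by_cases hx2 : x ∈ shell (ρ₀ + 1) (ρ₀ + 1 + 1)
          · rw [indicator_of_mem (mem_inter hx hx2), hθ.one _ (by linarith [hx2.1]) (by linarith [hx2.2])]
            have : |ang u ψ x| ≤ 2 * A - ang u ψ x := abs_le.2 ⟨by linarith, by linarith⟩
            nlinarith [mul_le_mul_of_nonneg_right this hG]
          · rw [indicator_of_notMem fun hh => hx2 hh.2]
            have t1 := hθ.nn (cyl x - ρ₀)
            have t2 := hθ.le (cyl x - ρ₀)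
            have : ang u ψ x * θ (cyl x - ρ₀) ≤ 2 * A := by nlinarith
            nlinarith [mul_le_mul_of_nonneg_right this hG]
        · have hx2 : x ∉ shell (ρ₀ + 1) (ρ₀ + 1 + 1) := fun hh => hx1 ⟨by linarith [hh.1], by linarith [hh.2]⟩
          simp only [indicator_of_mem hx, indicator_of_notMem fun hh : x ∈ Om k ∩ shell ρ₀ (ρ₀ + 3) => hx1 hh.2,
            indicator_of_notMem fun hh : x ∈ Om k ∩ shell (ρ₀ + 1) (ρ₀ + 1 + 1) => hx2 hh.2, hθ0 x hx1]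
          simp
      · simp only [indicator_of_notMem hx, indicator_of_notMem fun hh : x ∈ Om k ∩ shell ρ₀ (ρ₀ + 3) => hx hh.1,
          indicator_of_notMem fun hh : x ∈ Om k ∩ shell (ρ₀ + 1) (ρ₀ + 1 + 1) => hx hh.1]
        simp
  have k1 := mul_le_mul_of_nonneg_left (hmass ρ₀ b3).1 (mul_nonneg zero_le_two hA0)
  have k2 := (abs_le.1 (hm ρ₀ b2)).1
  have k3 : 2 * A * (M * ρ₀ ^ (-1 / 2 : ℝ)) = 2 * C1 * M * ρ₀ ^ (-1 / 2 - μ) := by
    rw [hAdef, sub_eq_add_neg, Real.rpow_add hρ0]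
    ring
  have k4 := (hcmp ρ₀ (ρ₀ + 1) hρ0 (by linarith) (by linarith)).2
  have k5 := mul_le_mul_of_nonneg_left k4 (by positivity : 0 ≤ 2 * C1 * M + C2)
  have k6 := h5 _ b5
  nlinarith

theorem tau_of_pb (h : Red k b L C c R GR d Gd V0 S v e1 e2 φ Gφ u Gu ψ Gψ) (hP : PB k b ψ (11 / 5)) :
    ∃ L' : ℝ, ∀ ρ z, L' ≤ ρ → lam ρ / 4 ≤ z → z ≤ Real.log ρ ^ 2 → |tau u ψ ρ z| ≤ ρ⁻¹ := by
  obtain ⟨L1, hP⟩ := hP
  have hk := h.tail.kpos
  have hc := h.tail.cpos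
  obtain ⟨L2, h2⟩ := eventually_atTop.1 ((ev_pow (a := -(11 / 5)) (a' := -1) (by norm_num) (15 / c)).and
    ((ev_log (a := 0) (a' := 1) one_pos 2 2).and (ev_log (a := 0) (a' := 1) one_pos k 4)))
  refine ⟨max (max L1 L2) (max L 1), fun ρ z hρ hz1 hz2 => ?_⟩
  have b1 : L1 ≤ ρ := ((le_max_left _ _).trans (le_max_left _ _)).trans hρ
  have b2 : L2 ≤ ρ := ((le_max_right _ _).trans (le_max_left _ _)).trans hρ
  have b3 : L ≤ ρ := ((le_max_left _ _).trans (le_max_right _ _)).trans hρ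
  have b4 : 1 ≤ ρ := ((le_max_right _ _).trans (le_max_right _ _)).trans hρ
  have hρ0 : 0 < ρ := by linarith
  obtain ⟨c1, c2, c3⟩ := h2 ρ b2
  rw [Real.rpow_zero, Real.rpow_one, mul_one] at c2 c3
  rw [Real.rpow_neg_one] at c1
  have hl : 0 < lam ρ := lam_pos hρ0
  have hz : 0 < z := by linarith
  have hcy : cyl (pt ρ z) = ρ := cyl_pt hρ0.le z
  have hg : 0 < gfun k b (pt ρ z) := gfun_pos k b fun h0 => by
    have : pt ρ z 0 = 0 := by rw [h0]; rfl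
    rw [pt_0] at this
    linarith
  have p1 := hP (pt ρ z) (by rw [hcy]; exact b1)
  have p2 := h.ulow (pt ρ z) (by rw [hcy]; exact b3) (by rw [hcy, pt_2]; linarith) (by rw [hcy, pt_2]; linarith)
  have p3 := (norm_sub_cyl (pt ρ z) (by rw [hcy]; exact hρ0)).2
  rw [hcy, pt_2] at p1 p3
  rw [pt_2] at p2
  rw [abs_of_pos hz] at p1
  have p4 : k * (‖pt ρ z‖ - ρ) ≤ 1 := by
    refine (mul_le_mul_of_nonneg_left p3 hk.le).trans ?_
    rw [← mul_div_assoc, div_le_one (by positivity)]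
    have : z ^ 2 ≤ (Real.log ρ ^ 2) ^ 2 := pow_le_pow_left₀ hz.le hz2 2
    nlinarith [mul_le_mul_of_nonneg_left this hk.le]
  have p5 : Real.exp (k * (‖pt ρ z‖ - ρ)) ≤ 3 :=
    (Real.exp_le_exp.2 p4).trans (by linarith [Real.exp_one_lt_d9])
  have hu : 0 < u (pt ρ z) := lt_of_lt_of_le (by positivity) p2
  have hr : 0 ≤ ρ ^ (-(11 / 5) : ℝ) := Real.rpow_nonneg hρ0.le _
  rw [tau, abs_div, abs_of_pos hu, div_le_iff₀ hu]
  have p6 : ρ ^ (-(11 / 5) : ℝ) * (z + lam ρ) * (gfun k b (pt ρ z) * Real.exp (k * (‖pt ρ z‖ - ρ))) ≤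
      ρ ^ (-(11 / 5) : ℝ) * (5 * z) * (gfun k b (pt ρ z) * 3) :=
    mul_le_mul (mul_le_mul_of_nonneg_left (by linarith) hr) (mul_le_mul_of_nonneg_left p5 hg.le) (by positivity)
      (by positivity)
  calc |ψ (pt ρ z)| ≤ _ := p1.trans p6
    _ = 15 / c * ρ ^ (-(11 / 5) : ℝ) * (c * z * gfun k b (pt ρ z)) := by field_simp; ring
    _ ≤ ρ⁻¹ * u (pt ρ z) := mul_le_mul c1 p2 (by positivity) (by positivity)

end Crest.Agent.R335
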