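import Crest.Agent.R335.Gl4a

/-!
# R335/Gl4: from means to pointwise bounds.
`tau_low`: `mon_down` with `Y = 10/k`, `W = 2`; if `τ₀ ≤ -A - e` then `|τ| ≥ -τ₀ - e` on the box `[ρ', ρ' + 1] × [z₁ + η, z₁ + 2 η]`, `ρ' = ρ₀ - Cd ℓ - 1`, `z₁ = z₀ + Ch ℓ`, `η = ρ₀^(23/50)`; `nw_low`
gives `c (-τ₀ - e) ρ'^(-3/2) η² exp (-k (z₁ + 2η)²/(2 ρ')) ≤ ρ'^(-μ' - 1/2)`, and `k (z₁ + 2η)²/(2 ρ') ≤ k (‖pt ρ₀ z₀‖ - ρ₀) + 1` for large `ρ₀` (`norm_sub_cyl`; all corrections are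
`O(ρ₀^(-1/25) log)`).  `pb_of_nb`: `|z| ≤ 8 lam`: `LayB`; `z² ≥ (10/k) ρ log ρ`: `Red.crude` and `k (‖x‖ - ρ) ≥ (7/2) log ρ`; otherwise `mon_up`, `tau_low`, `Red.tau_eq` at `pt ρ |z|`, `|ψ| = |τ| u`.
-/

set_option autoImplicit false

namespace Crest.Agent.R335

open MeasureTheory Set Filter Topology
open scoped Gradient RealInnerProductSpace ENNReal ContDiff
open Crest.MathPhysics.ThreeBody

variable {k b L C c e1 e2 : ℝ} {R d V0 S v φ u ψ : E3 → ℝ} {GR Gd Gφ Gu Gψ : E3 → E3}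

theorem gl4_far (hk : 0 < k) : ∀ᶠ ρ : ℝ in atTop, ∀ x : E3, cyl x = ρ → 10 / k * ρ * Real.log ρ ≤ x 2 ^ 2 →
    ρ ^ (7 / 2 : ℝ) ≤ Real.exp (k * (‖x‖ - ρ)) := by
  filter_upwards [eventually_ge_atTop 1, ev_log (zero_lt_one' ℝ) (10 / k) 1] with ρ h1 h2 x hx hz
  have h0 : 0 < ρ := by linarith
  rw [Real.rpow_zero, Real.rpow_one, pow_one, mul_one] at h2
  rw [Real.rpow_def_of_pos h0, Real.exp_le_exp]
  have hl : 0 ≤ Real.log ρ := Real.log_nonneg h1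
  have hn := norm_sq_cyl x
  rw [hx] at hn
  set t := Real.log ρ / k with ht
  have ht0 : 0 ≤ t := by positivity
  have e1 : Real.log ρ = k * t := by rw [ht]; field_simp
  have e2 : 10 / k * ρ * Real.log ρ = 10 * ρ * t := by rw [ht]; ring
  have e3 : 10 / k * Real.log ρ = 10 * t := by rw [ht]; ring
  rw [e2] at hz
  rw [e3] at h2
  have : ρ + 7 / 2 * t ≤ ‖x‖ := by
    refine abs_le_of_sq_le_sq' ?_ (norm_nonneg x) |>.2
    nlinarith [mul_le_mul_of_nonneg_right h2 ht0]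
  rw [e1]
  nlinarith [mul_le_mul_of_nonneg_left this hk.le]

theorem pb_of_nb (h : Red k b L C c R GR d Gd V0 S v e1 e2 φ Gφ u Gu ψ Gψ) {μ μ' ν : ℝ} (hl : LayB k b ψ μ) (hN : NB k b u ψ μ') (h0 : 0 ≤ μ') (h1 : μ' ≤ μ) (h2 : μ ≤ 3)
    (h3 : ν + 1 / 10 ≤ μ') : PB k b ψ ν := by
  have hk := h.tail.kpos
  obtain ⟨M, L₁, hM, hL₁, H1, -⟩ := h.crude
  have hS := strip_of_lay h hl
  obtain ⟨L₂, H2⟩ := tau_low h hS hN h0 h1 h2
  obtain ⟨C₃, L₃, hC₃, H3⟩ := hS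
  obtain ⟨L₄, H4⟩ := mon_up h (10 / k)
  obtain ⟨C₅, L₅, hC₅, H5⟩ := hl
  have ev : ∀ᶠ ρ : ℝ in atTop, ∀ x : E3, cyl x = ρ → |ψ x| ≤ ρ ^ (-ν) * (|x 2| + lam ρ) *
      (gfun k b x * Real.exp (k * (‖x‖ - ρ))) := by
    filter_upwards [eventually_ge_atTop 1, eventually_ge_atTop L₁, eventually_ge_atTop L₂, eventually_ge_atTop L₃,
      eventually_ge_atTop L₄, eventually_ge_atTop L₅, gl4_far hk,
      ev_pow (by linarith : -μ < -ν) C₅, ev_pow (by linarith : -7 / 2 < -ν) M,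
      ev_pow (by linarith : 9 / 100 - μ' < -ν) M, ev_pow (by linarith : -μ < -ν) (M * (C₃ + 1))]
      with ρ g1 g2 g3 g4 g5 g6 g7 g8 g9 g10 g11 x hx
    have hρ : 0 < ρ := by linarith
    have hlam := lam_pos hρ
    have hg : 0 ≤ gfun k b x := by unfold gfun; positivity
    have hE : 1 ≤ Real.exp (k * (‖x‖ - ρ)) :=
      Real.one_le_exp (mul_nonneg hk.le (by linarith [cyl_le_norm x]))
    have hz := abs_nonneg (x 2)
    have hp : 0 ≤ ρ ^ (-ν) := by positivity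
    -- reduction to a bound of the form `|ψ| ≤ A (|z| + lam) g`
    have red : ∀ A : ℝ, |ψ x| ≤ A * ((|x 2| + lam ρ) * gfun k b x) → A ≤ ρ ^ (-ν) * Real.exp (k * (‖x‖ - ρ)) →
        |ψ x| ≤ ρ ^ (-ν) * (|x 2| + lam ρ) * (gfun k b x * Real.exp (k * (‖x‖ - ρ))) := fun A a1 a2 =>
      a1.trans ((mul_le_mul_of_nonneg_right a2 (by positivity)).trans_eq (by ring))
    by_cases c1 : |x 2| ≤ 8 * lam ρ
    · refine red (C₅ * ρ ^ (-μ)) ?_ (g8.trans (le_mul_of_one_le_right hp hE))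
      have := H5 x (hx ▸ g6) (hx ▸ c1)
      rw [hx] at this
      refine this.trans ?_
      rw [mul_assoc]
      gcongr
      linarith
    by_cases c2 : 10 / k * ρ * Real.log ρ ≤ x 2 ^ 2
    · refine red M ?_ ?_
      · have := (H1 x (hx ▸ g2)).2.1
        rw [hx] at this
        exact this.trans_eq (by ring)
      · have e : M = M * ρ ^ (-7 / 2 : ℝ) * ρ ^ (7 / 2 : ℝ) := by
          rw [mul_assoc, ← Real.rpow_add hρ]; norm_num
        rw [e]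
        exact mul_le_mul g9 (g7 x hx c2) (by positivity) hp
    push Not at c1 c2
    have d1 : lam ρ ≤ |x 2| := by linarith
    have d2 : |x 2| ^ 2 ≤ 10 / k * ρ * Real.log ρ := by rw [sq_abs]; exact c2.le
    have hxA : x ∈ offA := by show 0 < cyl x; rw [hx]; exact hρ
    have hy : cyl (pt ρ |x 2|) = ρ := cyl_pt hρ.le _
    obtain ⟨q1, q2⟩ := gfun_pt k b x
    rw [hx] at q1 q2
    have hu0 : 0 < u (pt ρ |x 2|) := (h.u_posG ⟨by rw [hy]; exact hρ, by rw [pt_2]; linarith⟩).1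
    have hu : u (pt ρ |x 2|) ≤ M * ((|x 2| + lam ρ) * gfun k b x) := by
      have := (H1 (pt ρ |x 2|) (by rw [hy]; exact g2)).1
      rw [hy, pt_2, abs_abs, q1] at this
      exact (le_abs_self _).trans (this.trans_eq (by ring))
    have hψ : |ψ x| = |tau u ψ ρ (|x 2|)| * u (pt ρ |x 2|) := by
      rw [h.evψ.eq_pt hxA, hx, tau, abs_div, abs_of_pos hu0, div_mul_cancel₀ _ hu0.ne']
    refine red (M * |tau u ψ ρ (|x 2|)|) ?_ ?_
    · rw [hψ]
      exact (mul_le_mul_of_nonneg_left hu (abs_nonneg _)).trans_eq (by ring)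
    · have u1 := H4 ρ _ _ g5 (H3 ρ g4) d1 d2
      have u2 := H2 ρ _ g3 d1 d2
      rw [q2] at u2
      have u3 : ρ ^ (-12 : ℝ) ≤ ρ ^ (-μ) := Real.rpow_le_rpow_of_exponent_le g1 (by linarith)
      rcases abs_cases (tau u ψ ρ |x 2|) with ⟨a, -⟩ | ⟨a, -⟩ <;> rw [a]
      · refine le_trans ?_ (g11.trans (le_mul_of_one_le_right hp hE))
        rw [mul_assoc]
        exact mul_le_mul_of_nonneg_left (by linarith) (by linarith)
      · refine (mul_le_mul_of_nonneg_left u2 (by linarith)).trans ?_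
        rw [← mul_assoc]
        exact mul_le_mul_of_nonneg_right g10 (by positivity)
  obtain ⟨L', H⟩ := eventually_atTop.1 ev
  exact ⟨L', fun x hx => H _ hx x rfl⟩

end Crest.Agent.R335
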