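import Crest.Agent.R335.Gm3a

/-!
# R335/Gm3: the improvement step.
`cheb_abs` for `μ = volume.restrict (Om k)`, `w = R₂ Gz θ(cyl - ρ₀)`, `a = ang`, `p = ptwo - (k z₀² - ρ₀) = k (z² - z₀²) - (cyl - ρ₀)`, `Z = {|z - z₀| ≤ η}`, `η = ρ₀^(23/50)`,
`a₀ = arctan (τ(ρ*, z₀))`, `ρ* = ρ₀ + 4 + Cd log ρ₀`, `e = ρ*^(-12)`, `P₀ = k c₁ √ρ₀ η/2`, `P₁ = C √ρ₀ η`, `B = C ρ₀^(-ν)` (`pt_bound` with `c₁/2`, `2 C₁`).  `cheb_mono` is the hypothesis `h1`
(`mon_post` with `Y = 1000/k`, `W = 1`: `ρ* - (Cd + 1) log ρ* ≤ ρ₀`, `ρ₀ + 3 ≤ ρ* - Cd log ρ*`, `Ch log ρ* ≤ η`; `arctan_le_add`, `Red.tau_eq`).  `∫_Z w ≤ C ρ₀^(-3/2) √ρ₀ η`, `∫ |p| w ≤ C ρ₀^(1/2)`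
(`mass_up`), `∫ a p w = mom ptwo - (k z₀² - ρ₀) mom 1`.  Result `Nw (ρ₀ + 1) ≤ C ρ₀^(-1/2 - ν - 1/25)`.
-/

set_option autoImplicit false

namespace Crest.Agent.R335

open MeasureTheory Set Filter Topology
open scoped Gradient RealInnerProductSpace ENNReal ContDiff
open Crest.MathPhysics.ThreeBody

variable {k b L C c e1 e2 : ℝ} {R d V0 S v φ u ψ : E3 → ℝ} {GR Gd Gφ Gu Gψ : E3 → E3}

theorem gm3_le {A T : Set E3} (hA : MeasurableSet A) (hT : MeasurableSet T) {F G : E3 → ℝ}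
    (hG : IntegrableOn G (A ∩ T)) (h0 : ∀ x ∈ A, x ∈ T → 0 ≤ F x ∧ F x ≤ G x) (h1 : ∀ x ∈ A, x ∉ T → F x = 0) :
    ∫ x in A, F x ≤ ∫ x in A ∩ T, G x := by
  rw [setIntegral_eq_of_subset_of_forall_sdiff_eq_zero hA inter_subset_left
    fun x hx => h1 x hx.1 fun h => hx.2 ⟨hx.1, h⟩]
  exact integral_mono_of_nonneg
    ((ae_restrict_iff' (hA.inter hT)).2 (Eventually.of_forall fun x hx => (h0 x hx.1 hx.2).1)) hG
    ((ae_restrict_iff' (hA.inter hT)).2 (Eventually.of_forall fun x hx => (h0 x hx.1 hx.2).2))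

theorem gm3_pow {ρ ν : ℝ} (hρ : 1 ≤ ρ) (h1 : ν ≤ 4) :
    ρ ^ (-1 / 2 - (ν + 2 / 25)) ≤ ρ ^ (-27 / 50 - ν) ∧
    ρ ^ (1 / 2 - (ν + 2 / 25)) = ρ ^ (-27 / 50 - ν) * ρ ^ (24 / 25 : ℝ) ∧
    ρ * ρ ^ (-1 / 2 - (ν + 2 / 25)) = ρ ^ (-27 / 50 - ν) * ρ ^ (24 / 25 : ℝ) ∧
    √ρ * ρ ^ (23 / 50 : ℝ) = ρ ^ (24 / 25 : ℝ) ∧
    ρ ^ (-ν) * (ρ ^ (-3 / 2 : ℝ) * ρ ^ (24 / 25 : ℝ)) = ρ ^ (-27 / 50 - ν) ∧
    ρ ^ (-12 : ℝ) * ρ ^ (1 / 2 : ℝ) ≤ ρ ^ (-27 / 50 - ν) * ρ ^ (24 / 25 : ℝ) ∧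
    ρ * ρ ^ (-1 / 2 : ℝ) = ρ ^ (1 / 2 : ℝ) ∧ 1 ≤ ρ ^ (24 / 25 : ℝ) := by
  have h0 : 0 < ρ := by linarith
  have e : ∀ a : ℝ, ρ * ρ ^ a = ρ ^ (1 + a) := fun a => by rw [Real.rpow_add h0, Real.rpow_one]
  refine ⟨Real.rpow_le_rpow_of_exponent_le hρ (by linarith), ?_, ?_, ?_, ?_, ?_, ?_,
    Real.one_le_rpow hρ (by norm_num)⟩
  · rw [← Real.rpow_add h0]; congr 1; ring
  · rw [e, ← Real.rpow_add h0]; congr 1; ring
  · rw [Real.sqrt_eq_rpow, ← Real.rpow_add h0]; norm_num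
  · rw [← Real.rpow_add h0, ← Real.rpow_add h0]; congr 1; ring
  · rw [← Real.rpow_add h0, ← Real.rpow_add h0]
    exact Real.rpow_le_rpow_of_exponent_le hρ (by linarith)
  · rw [e]; norm_num

set_option maxHeartbeats 800000 in
theorem gm3_key (h : Red k b L C c R GR d Gd V0 S v e1 e2 φ Gφ u Gu ψ Gψ) (hp : Post k b φ ψ) {θ : ℝ → ℝ}
    (hθ : Win k b θ) {ν : ℝ} (hN : NB k b u ψ ν) (h0 : 0 ≤ ν) (h1 : ν ≤ 4)
    (hm0 : MomB (mom k b u ψ θ fun _ => 1) (-1 / 2 - (ν + 2 / 25)))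
    (hm2 : MomB (mom k b u ψ θ (ptwo k)) (1 / 2 - (ν + 2 / 25))) :
    ∃ K : ℝ, 0 ≤ K ∧ ∀ᶠ ρ : ℝ in atTop, Nw k b u ψ (ρ + 1) ≤ K * ρ ^ (-27 / 50 - ν) := by
  have hk := h.tail.kpos
  obtain ⟨c₁, C₁, L1, hc₁, hC₁, HJ⟩ := cheb_J h hθ
  obtain ⟨Cd, L2, hCd, HM⟩ := cheb_mono h hp (C₁ := C₁) hc₁
  obtain ⟨C', L3, hC', HP⟩ := pt_bound h hp (c₁ := c₁ / 4) (C₁ := 2 * C₁) hN h0 (by linarith) (by positivity)
  obtain ⟨M, L4, hM, -, HU⟩ := mass_up h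
  obtain ⟨L5, hL5, HI⟩ := int_window hk b
  obtain ⟨L6, -, HS⟩ := Om_small hk
  obtain ⟨C0, L7, hC0, H0⟩ := hm0
  obtain ⟨C2, L8, hC2, H2⟩ := hm2
  have hC₁' : 0 < C₁ := hc₁.trans_le hC₁
  refine ⟨C0 + 2 * ((C2 + (k * C₁ ^ 2 + 1) * C0 + (3 * k * C₁ + 3) * (8 * C' * M * C₁) +
    2 * ((k + k * C₁ ^ 2 + 3) * M)) / (k * c₁ / 2) + 8 * C' * M * C₁), by positivity, ?_⟩
  filter_upwards [eventually_ge_atTop L1, eventually_ge_atTop L2, eventually_ge_atTop L3, eventually_ge_atTop L4,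
    eventually_ge_atTop L5, eventually_ge_atTop L6, eventually_ge_atTop L7, eventually_ge_atTop L8,
    ev_pow (a := 23 / 50) (a' := 1 / 2) (by norm_num) (2 / c₁), ev_log (a := 0) (a' := 1) one_pos Cd 1]
    with ρ a1 a2 a3 a4 a5 a6 a7 a8 a9 a10
  have ρ3 : 3 ≤ ρ := hL5.trans a5
  have ρ0 : 0 < ρ := by linarith
  obtain ⟨z₀, z1, z2, hJ⟩ := HJ ρ a1
  obtain ⟨r1, r2, r3, r4, r5, r6, r7, r8⟩ := gm3_pow (ν := ν) (by linarith : 1 ≤ ρ) h1
  obtain ⟨m1, m2, m3⟩ := HU ρ a4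
  have HM' := HM ρ z₀ a2 z1 z2
  have b0 := H0 ρ a7
  have b2 := H2 ρ a8
  simp only [pow_one, Real.rpow_zero, mul_one, Real.rpow_one] at a10
  rw [← Real.sqrt_eq_rpow, div_mul_eq_mul_div, div_le_iff₀ hc₁] at a9
  have hlog : 0 ≤ Cd * Real.log ρ := mul_nonneg (by linarith) (Real.log_nonneg (by linarith))
  have hq : √ρ * √ρ = ρ := Real.mul_self_sqrt ρ0.le
  have hq0 : 0 < √ρ := Real.sqrt_pos.2 ρ0
  have hη : 0 < ρ ^ (23 / 50 : ℝ) := by positivity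
  have hX : 0 < ρ ^ (-27 / 50 - ν) := by positivity
  have hn : 0 < ρ ^ (-ν) := by positivity
  have h32 : 0 < ρ ^ (-3 / 2 : ℝ) := by positivity
  have h12 : 0 < ρ ^ (-12 : ℝ) := by positivity
  have hmh : 0 < ρ ^ (-1 / 2 : ℝ) := by positivity
  have hτ : ∀ r z, ρ ≤ r → r ≤ 4 * ρ → c₁ * √ρ / 2 ≤ z → z ≤ 2 * C₁ * √ρ → |tau u ψ r z| ≤ C' * ρ ^ (-ν) :=
    fun r z c1 c2 c3 c4 => by
      have c5 : √r ≤ 2 * √ρ := Real.sqrt_le_iff.2 ⟨by positivity, by rw [mul_pow, sq √ρ, hq]; linarith⟩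
      have c6 : √ρ ≤ √r := Real.sqrt_le_sqrt c1
      refine (HP r z (a3.trans c1) (by linarith [mul_le_mul_of_nonneg_left c5 hc₁.le]) (c4.trans (by gcongr))).trans ?_
      exact mul_le_mul_of_nonneg_left (Real.rpow_le_rpow_of_nonpos ρ0 c1 (by linarith)) hC'
  generalize ρ ^ (23 / 50 : ℝ) = η at *
  generalize ρ ^ (-27 / 50 - ν) = X at *
  generalize ρ ^ (24 / 25 : ℝ) = Y at *
  have z0 : 0 < z₀ := lt_of_lt_of_le (by positivity) z1
  clear HJ HM HU H0 H2 HP a1 a2 a3 a4 a7 a8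
  have z5 : c₁ * √ρ ≤ C₁ * √ρ := z1.trans z2
  have z6 : 0 < c₁ * √ρ := by positivity
  have z3 : η ≤ C₁ * √ρ := by linarith
  have z4 : z₀ ^ 2 ≤ C₁ ^ 2 * ρ := (pow_le_pow_left₀ z0.le z2 2).trans_eq (by rw [mul_pow, sq √ρ, hq])
  have hO := measurableSet_Om k
  have hθ0 : ∀ x, x ∉ shell ρ (ρ + 3) → θ (cyl x - ρ) = 0 := fun x hx => hθ.zero _ (by
    by_contra hn
    push Not at hn
    exact hx ⟨by linarith [hn.1], by linarith [hn.2]⟩)
  have hG : ∀ x ∈ shell ρ (ρ + 3), 0 < Gz k b (cyl x) := fun x hx => Gz_pos k b (ρ0.trans_le hx.1)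
  have hR : ∀ x, 0 ≤ Rtwo u ψ x := fun x => Real.sqrt_nonneg _
  have hz : ∀ x ∈ Om k, x ∈ shell ρ (ρ + 3) → 0 < x 2 ∧ x 2 ≤ ρ := fun x hx hs =>
    ⟨(HS x hx (a6.trans hs.1)).1, by linarith [(HS x hx (a6.trans hs.1)).2, hs.2]⟩
  have cθ : Continuous fun x : E3 => θ (cyl x - ρ) := hθ.cont.comp (continuous_cyl.sub continuous_const)
  have cz : Continuous fun x : E3 => x 2 := by fun_prop
  have cp : Continuous (ptwo k) := (continuous_const.mul (cz.pow 2)).sub continuous_cyl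
  have cp' : Continuous fun x => ptwo k x - (k * z₀ ^ 2 - ρ) := cp.sub continuous_const
  have I : ∀ W f : E3 → ℝ, MemLp W 2 volume → Continuous f →
      IntegrableOn (fun x => W x * (f x * (Gz k b (cyl x) * θ (cyl x - ρ)))) (Om k) := fun W f hW hf => by
    obtain ⟨N, hN⟩ := (isCompact_closedBall (0 : E3) (ρ + 3 + ρ)).exists_bound_of_continuousOn
      (hf.mul cθ).continuousOn
    refine (HI W (fun x => f x * θ (cyl x - ρ)) (Om k) ρ (ρ + 3) N a5 hW (hf.mul cθ).aestronglyMeasurable hO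
      subset_rfl (fun x hx hs => hN x ?_) fun x _ hs => by rw [hθ0 x hs, mul_zero]).congr_fun (fun x _ => ?_) hO
    · have c1 := norm_le_cyl_add x
      rw [abs_of_pos (hz x hx hs).1] at c1
      exact mem_closedBall_zero_iff.2 (by linarith [(hz x hx hs).2, hs.2])
    · simp only
      ring
  have J : ∀ (T : Set E3) (f : E3 → ℝ), MeasurableSet T → T ⊆ shell ρ (ρ + 3) → Continuous f →
      IntegrableOn (fun x => Rtwo u ψ x * (f x * Gz k b (cyl x))) (Om k ∩ T) := fun T f hT hTs hf => by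
    obtain ⟨N, hN⟩ := (isCompact_closedBall (0 : E3) (ρ + 3 + ρ)).exists_bound_of_continuousOn hf.continuousOn
    refine HI _ f (Om k ∩ T) ρ (ρ + 3) N a5 h.memLp_Rtwo hf.aestronglyMeasurable (hO.inter hT)
      inter_subset_left (fun x hx hs => hN x ?_) fun x hx hs => (hs (hTs hx.2)).elim
    have c1 := norm_le_cyl_add x
    rw [abs_of_pos (hz x hx.1 hs).1] at c1
    exact mem_closedBall_zero_iff.2 (by linarith [(hz x hx.1 hs).2, hs.2])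
  have hw0 : ∀ x, 0 ≤ Rtwo u ψ x * (Gz k b (cyl x) * θ (cyl x - ρ)) := fun x => by
    by_cases hs : x ∈ shell ρ (ρ + 3)
    · exact mul_nonneg (hR x) (mul_nonneg (hG x hs).le (hθ.nn _))
    · rw [hθ0 x hs, mul_zero, mul_zero]
  have hw1 : ∀ x ∈ shell ρ (ρ + 3), Rtwo u ψ x * (Gz k b (cyl x) * θ (cyl x - ρ)) ≤ Rtwo u ψ x * Gz k b (cyl x) :=
    fun x hs => mul_le_mul_of_nonneg_left (mul_le_of_le_one_right (hG x hs).le (hθ.le _)) (hR x)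
  have hws : ∀ x, Rtwo u ψ x * (Gz k b (cyl x) * θ (cyl x - ρ)) ≠ 0 → x ∈ shell ρ (ρ + 3) := fun x hx =>
    by_contra fun hs => hx (by rw [hθ0 x hs, mul_zero, mul_zero])
  have hZ : MeasurableSet {x : E3 | |x 2 - z₀| ≤ η} :=
    (isClosed_le (cz.sub continuous_const).abs continuous_const).measurableSet
  have i0 := I _ (fun _ => 1) h.memLp_U.1 continuous_const
  have i2 := I _ _ h.memLp_U.1 cp
  have key := cheb_abs (μ := volume.restrict (Om k))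
    (w := fun x => Rtwo u ψ x * (Gz k b (cyl x) * θ (cyl x - ρ))) (a := ang u ψ)
    (p := fun x => ptwo k x - (k * z₀ ^ 2 - ρ)) hZ
    (a₀ := Real.arctan (tau u ψ (ρ + 4 + Cd * Real.log ρ) z₀)) (e := ρ ^ (-12 : ℝ)) (P₀ := k * c₁ / 2 * Y)
    (P₁ := (3 * k * C₁ + 3) * Y) (B := 2 * C' * ρ ^ (-ν)) h12.le (by positivity) (Eventually.of_forall hw0)
    ((I _ (fun _ => 1) h.memLp_Rtwo continuous_const).congr_fun (fun x _ => by simp only [one_mul]) hO)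
    (i0.congr_fun (fun x _ => by simp only; ring) hO)
    ((I _ _ h.memLp_Rtwo cp').congr_fun (fun x _ => by simp only; ring) hO)
    ((I _ _ h.memLp_U.1 cp').congr_fun (fun x _ => by simp only; ring) hO)
    hJ ((ae_restrict_iff' hO).2 (Eventually.of_forall fun x hx c1 c2 => HM' x ⟨hx, hws x c1⟩ (not_le.1 c2)))
    ((ae_restrict_iff' hO).2 (Eventually.of_forall fun x hx c1 c2 => by
      have hs := hws x c1
      obtain ⟨c3, c4⟩ := abs_le.1 (show |x 2 - z₀| ≤ η from c2)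
      have c5 := (hz x hx hs).1
      constructor
      · have d1 := hτ (cyl x) (x 2) hs.1 (by linarith [hs.2]) (by linarith) (by linarith)
        have d2 := hτ (ρ + 4 + Cd * Real.log ρ) z₀ (by linarith) (by linarith) (by linarith) (by linarith)
        rw [ang, h.tau_eq ⟨ρ0.trans_le hs.1, c5⟩]
        linarith [abs_sub (Real.arctan (tau u ψ (cyl x) (x 2)))
          (Real.arctan (tau u ψ (ρ + 4 + Cd * Real.log ρ) z₀)), abs_arctan_le (tau u ψ (cyl x) (x 2)),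
          abs_arctan_le (tau u ψ (ρ + 4 + Cd * Real.log ρ) z₀)]
      · have d1 : |x 2 ^ 2 - z₀ ^ 2| ≤ 3 * C₁ * Y := by
          rw [sq_sub_sq, abs_mul, abs_of_pos (by linarith : 0 < x 2 + z₀), ← r4]
          calc (x 2 + z₀) * |x 2 - z₀| ≤ (3 * (C₁ * √ρ)) * η :=
                mul_le_mul (by linarith) c2 (abs_nonneg _) (by positivity)
            _ = _ := by ring
        obtain ⟨d2, d3⟩ := abs_le.1 d1
        have d4 := mul_le_mul_of_nonneg_left d2 hk.le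
        have d5 := mul_le_mul_of_nonneg_left d3 hk.le
        rw [ptwo, abs_le]
        constructor <;> linarith [hs.1, hs.2]))
  have e0 : ∫ x in Om k, ang u ψ x * (Rtwo u ψ x * (Gz k b (cyl x) * θ (cyl x - ρ))) =
      mom k b u ψ θ (fun _ => 1) ρ := by
    simp only [mom, one_mul, mul_assoc]
  have e1 : ∫ x in Om k, ang u ψ x * ((ptwo k x - (k * z₀ ^ 2 - ρ)) *
      (Rtwo u ψ x * (Gz k b (cyl x) * θ (cyl x - ρ)))) =
      mom k b u ψ θ (ptwo k) ρ - (k * z₀ ^ 2 - ρ) * mom k b u ψ θ (fun _ => 1) ρ := by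
    rw [mom, mom, ← integral_const_mul, ← integral_sub i2 (i0.const_mul _)]
    congr 1
    funext x
    ring
  have t1 : |mom k b u ψ θ (ptwo k) ρ - (k * z₀ ^ 2 - ρ) * mom k b u ψ θ (fun _ => 1) ρ| ≤
      (C2 + (k * C₁ ^ 2 + 1) * C0) * (X * Y) := by
    have c1 : |k * z₀ ^ 2 - ρ| ≤ (k * C₁ ^ 2 + 1) * ρ := by
      have := mul_le_mul_of_nonneg_left z4 hk.le
      have : 0 ≤ k * z₀ ^ 2 := by positivity
      rw [abs_le]
      constructor <;> linarith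
    have c2 := mul_le_mul c1 b0 (abs_nonneg _) (by positivity)
    have c3 : (k * C₁ ^ 2 + 1) * ρ * (C0 * ρ ^ (-1 / 2 - (ν + 2 / 25))) = (k * C₁ ^ 2 + 1) * C0 * (X * Y) := by
      rw [← r3]; ring
    rw [r2] at b2
    refine (abs_sub _ _).trans ?_
    rw [abs_mul]
    linarith
  have t2 : ∫ x in {x : E3 | |x 2 - z₀| ≤ η}, Rtwo u ψ x * (Gz k b (cyl x) * θ (cyl x - ρ)) ∂volume.restrict (Om k) ≤
      4 * M * C₁ * (ρ ^ (-3 / 2 : ℝ) * Y) := by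
    rw [← integral_indicator hZ]
    have hb : box ρ (ρ + 3) (z₀ - η) (z₀ + η) ⊆ shell ρ (ρ + 3) := fun x hx => ⟨hx.1, hx.2.1⟩
    refine (gm3_le hO (measurableSet_box ρ (ρ + 3) (z₀ - η) (z₀ + η)) (G := fun x => Rtwo u ψ x * Gz k b (cyl x))
      (by simpa only [one_mul] using J _ (fun _ => 1) (measurableSet_box _ _ _ _) hb continuous_const)
      (fun x _ hx => ⟨indicator_nonneg (fun y _ => hw0 y) x,
        (indicator_le_self' (fun y _ => hw0 y) x).trans (hw1 x (hb hx))⟩) fun x _ hx => ?_).trans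
      ((m3 _ _ (by linarith) (by linarith)).trans ?_)
    · by_cases c1 : x ∈ {x : E3 | |x 2 - z₀| ≤ η}
      · obtain ⟨c3, c4⟩ := abs_le.1 (show |x 2 - z₀| ≤ η from c1)
        rw [indicator_of_mem c1, hθ0 x fun hs => hx ⟨hs.1, hs.2, by linarith, by linarith⟩, mul_zero, mul_zero]
      · exact indicator_of_notMem c1 _
    · calc M * ρ ^ (-3 / 2 : ℝ) * ((z₀ + η) * (z₀ + η - (z₀ - η)))
          ≤ M * ρ ^ (-3 / 2 : ℝ) * ((2 * (C₁ * √ρ)) * (z₀ + η - (z₀ - η))) := by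
            gcongr
            · linarith
            · linarith
        _ = _ := by rw [← r4]; ring
  have t3 : ∫ x in Om k, |ptwo k x - (k * z₀ ^ 2 - ρ)| * (Rtwo u ψ x * (Gz k b (cyl x) * θ (cyl x - ρ))) ≤
      (k + k * C₁ ^ 2 + 3) * M * ρ ^ (1 / 2 : ℝ) := by
    have j1 : IntegrableOn (fun x => Rtwo u ψ x * Gz k b (cyl x)) (Om k ∩ shell ρ (ρ + 3)) := by
      simpa only [one_mul] using J _ (fun _ => 1) (measurableSet_shell _ _) subset_rfl continuous_const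
    have j2 := J _ (fun x => x 2 ^ 2) (measurableSet_shell ρ (ρ + 3)) subset_rfl (cz.pow 2)
    refine (gm3_le hO (measurableSet_shell ρ (ρ + 3)) ((j2.const_mul k).add (j1.const_mul ((k * C₁ ^ 2 + 3) * ρ)))
      (fun x _ hx => ⟨mul_nonneg (abs_nonneg _) (hw0 x), ?_⟩) fun x _ hx => ?_).trans ?_
    · have c1 : |ptwo k x - (k * z₀ ^ 2 - ρ)| ≤ k * x 2 ^ 2 + (k * C₁ ^ 2 + 3) * ρ := by
        have := mul_le_mul_of_nonneg_left z4 hk.le
        have : 0 ≤ k * z₀ ^ 2 := by positivity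
        have : 0 ≤ k * x 2 ^ 2 := by positivity
        rw [ptwo, abs_le]
        constructor <;> linarith [hx.1, hx.2]
      refine (mul_le_mul c1 (hw1 x hx) (hw0 x) (by positivity)).trans_eq ?_
      simp only [Pi.add_apply]
      ring
    · rw [hθ0 x hx, mul_zero, mul_zero, mul_zero]
    · simp only [Pi.add_apply]
      rw [integral_add (j2.const_mul k) (j1.const_mul _), integral_const_mul, integral_const_mul]
      have c1 := mul_le_mul_of_nonneg_left m2 hk.le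
      have c2 := mul_le_mul_of_nonneg_left m1 (by positivity : 0 ≤ (k * C₁ ^ 2 + 3) * ρ)
      have c3 : (k * C₁ ^ 2 + 3) * ρ * (M * ρ ^ (-1 / 2 : ℝ)) = (k * C₁ ^ 2 + 3) * M * ρ ^ (1 / 2 : ℝ) := by
        rw [← r7]; ring
      linarith
  have t4 : Nw k b u ψ (ρ + 1) ≤ ∫ x in Om k, |ang u ψ x| * (Rtwo u ψ x * (Gz k b (cyl x) * θ (cyl x - ρ))) := by
    have c1 : Nw k b u ψ (ρ + 1) = ∫ x in Om k ∩ shell (ρ + 1) (ρ + 1 + 1),
        |ang u ψ x| * (Rtwo u ψ x * (Gz k b (cyl x) * θ (cyl x - ρ))) := by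
      refine setIntegral_congr_fun (hO.inter (measurableSet_shell _ _)) fun x hx => ?_
      rw [hθ.one _ (by linarith [hx.2.1]) (by linarith [hx.2.2])]
      ring
    rw [c1]
    exact setIntegral_mono_set ((I _ (fun _ => 1) h.memLp_U.2 continuous_const).congr_fun
      (fun x _ => by simp only; ring) hO) (Eventually.of_forall fun x => mul_nonneg (abs_nonneg _) (hw0 x))
      inter_subset_left.eventuallyLE
  rw [e0, e1] at key
  have s1 := (mul_le_mul_of_nonneg_left t2 (by positivity : 0 ≤ 2 * C' * ρ ^ (-ν))).trans_eq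
    (show _ = 8 * C' * M * C₁ * X by rw [← r5]; ring)
  have s2 := mul_le_mul_of_nonneg_left s1 (by positivity : 0 ≤ (3 * k * C₁ + 3) * Y)
  have s3 := mul_le_mul_of_nonneg_left t3 h12.le
  have s4 := mul_le_mul_of_nonneg_left r6 (by positivity : 0 ≤ (k + k * C₁ ^ 2 + 3) * M)
  have s5 := b0.trans (mul_le_mul_of_nonneg_left r1 hC0)
  refine t4.trans (key.trans ?_)
  rw [add_mul C0, mul_assoc 2 _ X, add_mul _ _ X]
  gcongr ?_ + 2 * (?_ + ?_)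
  rw [div_le_iff₀ (by positivity)]
  refine le_trans ?_ (le_of_eq (show (C2 + (k * C₁ ^ 2 + 1) * C0 + (3 * k * C₁ + 3) * (8 * C' * M * C₁) +
    2 * ((k + k * C₁ ^ 2 + 3) * M)) * (X * Y) = _ by field_simp))
  linarith

theorem cheb (h : Red k b L C c R GR d Gd V0 S v e1 e2 φ Gφ u Gu ψ Gψ) (hp : Post k b φ ψ) {θ : ℝ → ℝ} (hθ : Win k b θ) {ν : ℝ} (hN : NB k b u ψ ν) (h0 : 0 ≤ ν) (h1 : ν ≤ 4)
    (hm0 : MomB (mom k b u ψ θ fun _ => 1) (-1 / 2 - (ν + 2 / 25))) (hm2 : MomB (mom k b u ψ θ (ptwo k)) (1 / 2 - (ν + 2 / 25))) :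
    NB k b u ψ (ν + 1 / 50) := by
  obtain ⟨K, hK, H⟩ := gm3_key h hp hθ hN h0 h1 hm0 hm2
  obtain ⟨M, hM, HM⟩ := rpow_cmp (-27 / 50 - ν)
  have H2 := (tendsto_atTop_add_const_right atTop (-1 : ℝ) tendsto_id).eventually H
  obtain ⟨L', hL⟩ := eventually_atTop.1 ((H2.and (eventually_ge_atTop (2 : ℝ))).and
    (ev_pow (a := -27 / 50 - ν) (a' := -(ν + 1 / 50) - 1 / 2) (by linarith) (K * M)))
  refine ⟨L', fun ρ hρ => ?_⟩
  obtain ⟨⟨a1, a2⟩, a3⟩ := hL ρ hρ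
  simp only [id, neg_add_cancel_right] at a1
  have a4 := (HM ρ (ρ + -1) (by linarith) (by linarith) (by linarith)).1
  have a5 := mul_le_mul_of_nonneg_left a4 hK
  linarith

end Crest.Agent.R335
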