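import Crest.Agent.R335.Gj3
import Crest.Agent.R335.Gh2
import Crest.Agent.R335.Gk3
import Crest.Agent.R335.Gk4
import Crest.Agent.R335.Gk5
import Crest.Agent.R335.Gl3
import Crest.Agent.R335.Gl4
import Crest.Agent.R335.Gm3

/-!
# R335/G: Green identities (owner helper56; the files `G*`)
-/

set_option autoImplicit false

namespace Crest.Agent.R335

open MeasureTheory Set Filter Topology
open scoped Gradient RealInnerProductSpace ENNReal ContDiff
open Crest.MathPhysics.ThreeBody

variable {k b L C c e1 e2 : ℝ} {R d V0 S v φ u ψ : E3 → ℝ} {GR Gd Gφ Gu Gψ : E3 → E3}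

theorem pb_step (h : Red k b L C c R GR d Gd V0 S v e1 e2 φ Gφ u Gu ψ Gψ) (hφ : PhiB k b φ (23 / 10)) {ν : ℝ} (hP : PB k b ψ ν) (h0 : -1 / 10 ≤ ν) (h1 : ν ≤ 21 / 10) :
    PB k b ψ (ν + 1 / 10) := by
  obtain ⟨θ, hθ⟩ := exists_win h.tail.kpos b
  have hl : LayB k b ψ (ν + 3 / 10) := lay_of_pb h hP (by linarith) le_rfl
  have hN : NB k b u ψ (ν - 1 / 20) := nb_of_pb h hP (by linarith)
  have hc : CoreB k b V0 u ψ (ν + 3 / 10) :=
    core h (by linarith) le_rfl (by norm_num) hl (maj_zero h) hφ (by linarith) (by linarith) (by linarith) (by linarith)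
      (by linarith)
  have hm := mom0 h (by linarith) hN hθ hc (by linarith) (by linarith)
  have hN' : NB k b u ψ (ν + 1 / 4) :=
    nb_of_mom h (strip_of_lay h hl) hθ hm (by linarith) (by linarith) (by linarith)
  exact pb_of_nb h hl hN' (by linarith) (by linarith) (by linarith) (by linarith)

theorem pb_final (h : Red k b L C c R GR d Gd V0 S v e1 e2 φ Gφ u Gu ψ Gψ) (hφ : PhiB k b φ (23 / 10)) : PB k b ψ (11 / 5) := by
  have H : ∀ n : ℕ, n ≤ 23 → PB k b ψ (-1 / 10 + n / 10) := by
    intro n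
    induction n with
    | zero => intro _; simpa using pb_init h
    | succ n ih =>
      intro hn
      have h1 : (n : ℝ) ≤ 22 := by exact_mod_cast (by omega : n ≤ 22)
      have h2 : (0 : ℝ) ≤ n := Nat.cast_nonneg n
      have := pb_step h hφ (ih (by omega)) (by linarith) (by linarith)
      convert this using 1
      push_cast
      ring
  have := H 23 le_rfl
  norm_num at this
  exact this

theorem tau_small (h : Red k b L C c R GR d Gd V0 S v e1 e2 φ Gφ u Gu ψ Gψ) (hφ : PhiB k b φ (23 / 10)) :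
    ∃ L' : ℝ, ∀ ρ z, L' ≤ ρ → lam ρ / 4 ≤ z → z ≤ Real.log ρ ^ 2 → |tau u ψ ρ z| ≤ ρ⁻¹ :=
  tau_of_pb h (pb_final h hφ)

theorem PhiB.mono {m m' : ℝ} (hφ : PhiB k b φ m) (hm : m' ≤ m) : PhiB k b φ m' := by
  obtain ⟨L', H⟩ := hφ
  refine ⟨max L' 1, fun x h1 h2 h3 => (H x (le_of_max_le_left h1) h2 h3).trans ?_⟩
  have h4 : 1 ≤ cyl x := le_of_max_le_right h1
  have h5 : 0 < lam (cyl x) := lam_pos (by linarith)
  have h6 : 0 ≤ gfun k b x := by unfold gfun; positivity
  have h7 : 0 ≤ x 2 := by linarith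
  gcongr

theorem final (h : Red k b L C c R GR d Gd V0 S v e1 e2 φ Gφ u Gu ψ Gψ) (hφ : PhiB k b φ 11) (hp : Post k b φ ψ) :
    False := by
  obtain ⟨θ, hθ⟩ := exists_win h.tail.kpos b
  have hP := pb_final h (hφ.mono (by norm_num))
  have hl : LayB k b ψ (12 / 5) := lay_of_pb h hP le_rfl (by norm_num)
  have hc : ∀ s, s ≤ 18 / 5 → CoreB k b V0 u ψ s := fun s hs =>
    core h (by norm_num) zero_le_one (by norm_num) hl (maj_one h hP) hφ (by linarith) (by linarith) (by linarith)
      (by linarith) (by linarith)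
  have H : ∀ n : ℕ, n ≤ 71 → NB k b u ψ (21 / 10 + n / 50) := by
    intro n
    induction n with
    | zero => intro _; simpa using nb_of_pb h hP (by norm_num : (21 / 10 : ℝ) < 11 / 5)
    | succ n ih =>
      intro hn
      have h1 : (n : ℝ) ≤ 70 := by exact_mod_cast (by omega : n ≤ 70)
      have h2 : (0 : ℝ) ≤ n := Nat.cast_nonneg n
      have hN := ih (by omega)
      have hc' := hc (21 / 10 + n / 50 + 2 / 25) (by linarith)
      have := cheb h hp hθ hN (by linarith) (by linarith)
        (mom0 h (by linarith) hN hθ hc' (by linarith) (by linarith))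
        (mom2 h (by linarith) hN hθ hc' (by linarith) (by norm_num) hl (by linarith) (by linarith))
      convert this using 1
      push_cast
      ring
  exact blk1 h (by norm_num) (H 71 le_rfl) hθ (hc _ le_rfl) (by norm_num) (lay_low h hP hp)

end Crest.Agent.R335
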