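import Crest.Agent.R335.Lib
import Crest.Agent.R83.Inf

/-!
# R335/GD: definitions for part G (owner helper56).  DO NOT CHANGE.

Overview.  `a = ang u ψ = arctan (ψ/u)`, `R₂ = Rtwo u ψ`, `U = a R₂`.  `div (R₂² ∇a) = 0`, so `ΔU = a ΔR₂ ≈ 2 V0 U` on `{z > 0}`; in the layer `|z| ≤ 2 lam ρ₀` one uses `ψ` instead of `U`.
Test functions are products `H(cyl x) Q(x 2)` on a block `ρ₀ ≤ cyl ≤ 1.3 ρ₀` (`CoreB`).  Kernels `Q = 1`, `k z² - ρ`, `√(z² + ε²)` times `Gz`.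
-/

set_option autoImplicit false

namespace Crest.Agent.R335

open MeasureTheory Set Filter Topology
open scoped Gradient RealInnerProductSpace ENNReal ContDiff
open Crest.MathPhysics.ThreeBody

variable {k b L C c e1 e2 : ℝ} {R d V0 S v φ u ψ : E3 → ℝ} {GR Gd Gφ Gu Gψ : E3 → E3}

/-- the upper half space without the axis -/
def upA : Set E3 := {x | 0 < cyl x ∧ 0 < x 2}

/-- the angle `arctan (ψ/u)` -/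
noncomputable def ang (u ψ : E3 → ℝ) (x : E3) : ℝ := Real.arctan (ψ x / u x)

/-- `√(u² + ψ²)` -/
noncomputable def Rtwo (u ψ : E3 → ℝ) (x : E3) : ℝ := √(u x ^ 2 + ψ x ^ 2)

/-- the gradient of the angle -/
noncomputable def Gang (u ψ : E3 → ℝ) (Gu Gψ : E3 → E3) (x : E3) : E3 :=
  (u x ^ 2 + ψ x ^ 2)⁻¹ • (u x • Gψ x - ψ x • Gu x)

/-- the growing kernel -/
noncomputable def Gz (k b ρ : ℝ) : ℝ := Real.exp (k * ρ) * ρ ^ (-(b + 1 / 2))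

/-- `α ≤ cyl ≤ β` -/
def shell (α β : ℝ) : Set E3 := {x | α ≤ cyl x ∧ cyl x ≤ β}

/-- `α ≤ cyl ≤ β`, `z₁ ≤ z ≤ z₂` -/
def box (α β z₁ z₂ : ℝ) : Set E3 := {x | α ≤ cyl x ∧ cyl x ≤ β ∧ z₁ ≤ x 2 ∧ x 2 ≤ z₂}

/-- the parabolic region above the layer -/
def Om (k : ℝ) : Set E3 := {x | 2 * lam (cyl x) ≤ x 2 ∧ x 2 ^ 2 ≤ 1000 / k * cyl x * Real.log (cyl x)}

/-- weighted mean of `|a|` on a unit window -/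
noncomputable def Nw (k b : ℝ) (u ψ : E3 → ℝ) (ρ : ℝ) : ℝ :=
  ∫ x in Om k ∩ shell ρ (ρ + 1), |ang u ψ x| * Rtwo u ψ x * Gz k b (cyl x)

/-- the mean of `|a|` is at most `ρ^(-ν)` -/
def NB (k b : ℝ) (u ψ : E3 → ℝ) (ν : ℝ) : Prop := ∃ L' : ℝ, ∀ ρ, L' ≤ ρ → Nw k b u ψ ρ ≤ ρ ^ (-ν - 1 / 2)

/-- pointwise bound -/
def PB (k b : ℝ) (ψ : E3 → ℝ) (ν : ℝ) : Prop := ∃ L' : ℝ, ∀ x, L' ≤ cyl x →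
  |ψ x| ≤ cyl x ^ (-ν) * (|x 2| + lam (cyl x)) * (gfun k b x * Real.exp (k * (‖x‖ - cyl x)))

/-- bound in the layer -/
def LayB (k b : ℝ) (ψ : E3 → ℝ) (μ : ℝ) : Prop := ∃ C' L' : ℝ, 0 ≤ C' ∧ ∀ x, L' ≤ cyl x → |x 2| ≤ 8 * lam (cyl x) →
  |ψ x| ≤ C' * cyl x ^ (-μ) * lam (cyl x) * gfun k b x

/-- bound on the strips -/
def StripP (u ψ : E3 → ℝ) (μ : ℝ) : Prop := ∃ C' L' : ℝ, 0 ≤ C' ∧ ∀ ρ₀, L' ≤ ρ₀ → StripB u ψ ρ₀ (C' * ρ₀ ^ (-μ))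

/-- majorant of the angle -/
def Maj (k : ℝ) (u ψ : E3 → ℝ) (σ : ℝ) : Prop := ∃ L' : ℝ, ∀ x, L' ≤ cyl x → lam (cyl x) / 4 ≤ x 2 → x 2 ≤ cyl x / 10 →
  |ang u ψ x| ≤ 2 * cyl x ^ (-σ) * Real.exp (k * x 2 ^ 2 / (4 * cyl x))

/-- `|f ρ| ≤ C ρ^e` for large `ρ` -/
def MomB (f : ℝ → ℝ) (e : ℝ) : Prop := ∃ C' L' : ℝ, 0 ≤ C' ∧ ∀ ρ, L' ≤ ρ → |f ρ| ≤ C' * ρ ^ e

/-- radial factors of the test functions -/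
structure HB (k ρ₀ h : ℝ) (H : ℝ → ℝ) : Prop where
  sm : ContDiff ℝ 2 H
  h0 : 0 ≤ h
  zero : ∀ ρ, ρ ≤ ρ₀ ∨ 13 / 10 * ρ₀ ≤ ρ → H ρ = 0
  le : ∀ ρ, |H ρ| ≤ h * Real.exp (k * ρ) ∧ |deriv H ρ| ≤ h * Real.exp (k * ρ) ∧
    |deriv (deriv H) ρ| ≤ h * Real.exp (k * ρ)

/-- even vertical factors -/
structure QB (k ρ₀ q : ℝ) (Q : ℝ → ℝ) : Prop where
  sm : ContDiff ℝ 2 Q
  q0 : 0 ≤ q
  even : ∀ z, Q (-z) = Q z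
  zero : ∀ z, ρ₀ / 20 ≤ |z| → Q z = 0
  le : ∀ z, |Q z| ≤ q * Real.exp (k * z ^ 2 / (20 * ρ₀)) ∧ |deriv Q z| ≤ q * Real.exp (k * z ^ 2 / (20 * ρ₀))
  le2 : ∀ z, lam ρ₀ ≤ |z| → |deriv (deriv Q) z| ≤ q * Real.exp (k * z ^ 2 / (20 * ρ₀))

/-- vertical factors supported above the layer -/
structure QU (k ρ₀ q : ℝ) (Q : ℝ → ℝ) : Prop where
  sm : ContDiff ℝ 2 Q
  q0 : 0 ≤ q
  zero : ∀ z, z ≤ lam ρ₀ ∨ ρ₀ / 20 ≤ z → Q z = 0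
  le : ∀ z, |Q z| ≤ q * Real.exp (k * z ^ 2 / (20 * ρ₀)) ∧ |deriv Q z| ≤ q / lam ρ₀ * Real.exp (k * z ^ 2 / (20 * ρ₀))

/-- `(Δ - 2 V0) (H(cyl) Q(z))` -/
noncomputable def Lop (V0 : E3 → ℝ) (H Q : ℝ → ℝ) (x : E3) : ℝ :=
  (deriv (deriv H) (cyl x) + deriv H (cyl x) / cyl x - 2 * V0 x * H (cyl x)) * Q (x 2) +
    H (cyl x) * deriv (deriv Q) (x 2)

/-- the Green identity on a block, with error exponent `s` -/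
def CoreB (k b : ℝ) (V0 u ψ : E3 → ℝ) (s : ℝ) : Prop :=
  ∃ C' L' : ℝ, 0 ≤ C' ∧ ∀ (ρ₀ h q : ℝ) (H Q : ℝ → ℝ), L' ≤ ρ₀ → HB k ρ₀ h H → QB k ρ₀ q Q →
    |(∫ x in Om k, ang u ψ x * Rtwo u ψ x * Lop V0 H Q x) +
      ∫ x in {x : E3 | 0 < x 2 ∧ x 2 < lam ρ₀}, ψ x * (H (cyl x) * deriv (deriv Q) (x 2))| ≤ C' * h * q * ρ₀ ^ (b - s)

/-- size of the majorant -/
noncomputable def em (k ρ₀ : ℝ) (x : E3) : ℝ := Real.exp (k * cyl x) * Real.exp (3 * k * x 2 ^ 2 / (10 * ρ₀))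

/-- the majorant (also the weight of the Caccioppoli inequality) -/
structure Mj (k ρ₀ C : ℝ) (m : E3 → ℝ) : Prop where
  sm : ContDiff ℝ 2 m
  cpt : HasCompactSupport m
  sub : tsupport m ⊆ box (9 / 10 * ρ₀) (7 / 5 * ρ₀) (lam ρ₀ / 2) (ρ₀ / 10)
  nn : ∀ x, 0 ≤ m x
  le : ∀ x, m x ≤ em k ρ₀ x
  eq : ∀ x ∈ box ρ₀ (13 / 10 * ρ₀) (lam ρ₀) (ρ₀ / 20), m x = em k ρ₀ x
  grad : ∀ x, ‖∇ m x‖ ≤ C * (1 + if x 2 ≤ lam ρ₀ then (lam ρ₀)⁻¹ else 0) * em k ρ₀ x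
  lapl : ∀ x, |lap m x| ≤ C * (1 + if x 2 ≤ lam ρ₀ then (lam ρ₀)⁻¹ ^ 2 else 0) * em k ρ₀ x

/-- error caused by the defect of the Kato inequality -/
noncomputable def Ethree (C : ℝ) (R d V0 S m : E3 → ℝ) (x : E3) : ℝ :=
  |R x - d x| * |lap m x - 2 * V0 x * m x| + 2 * |S x| * m x + 4 * C * (R x * m x / ‖x‖ ^ 4)

/-- error caused by the ground state orbital -/
noncomputable def Efour (V0 φ u : E3 → ℝ) (Gφ Gu Gψ : E3 → E3) (T : E3 → ℝ) (x : E3) : ℝ :=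
  8 * |V0 x| * (φ x ^ 2 / u x) * |T x| +
    (2 * (φ x / u x) * ‖Gφ x‖ + 2 * (φ x / u x) ^ 2 * (‖Gu x‖ + ‖Gψ x‖)) *
      (2 * ‖∇ T x‖ + |T x| * (‖Gu x‖ + ‖Gψ x‖) / u x)

/-- size of the model error -/
noncomputable def Ew (k ρ₀ ρ : ℝ) : ℝ := (ρ₀ ^ 2)⁻¹ + ρ₀⁻¹ *
  ((Icc ρ₀ (ρ₀ + Real.log ρ₀ / k)).indicator 1 ρ + (Icc (6 / 5 * ρ₀) (6 / 5 * ρ₀ + Real.log ρ₀ / k)).indicator 1 ρ)

/-- the radial factor which compares the windows at `ρ₀` and `6/5 ρ₀` -/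
structure HW (k b C c ρ₀ : ℝ) (θ H : ℝ → ℝ) : Prop where
  hb : HB k ρ₀ (C * ρ₀ ^ (-(b + 1 / 2))) H
  nn : ∀ ρ, 0 ≤ H ρ
  le : ∀ ρ, ρ₀ ≤ ρ → H ρ ≤ C * Gz k b ρ
  low : ∀ ρ, ρ₀ + 3 ≤ ρ → ρ ≤ 6 / 5 * ρ₀ → c * Gz k b ρ ≤ H ρ
  eq : ∀ ρ, ρ₀ ≤ ρ → ρ ≤ 13 / 10 * ρ₀ → |deriv (deriv H) ρ + deriv H ρ / ρ - (k ^ 2 - 2 * k * b / ρ) * H ρ -
    Gz k b ρ * (θ (ρ - ρ₀) - θ (ρ - 6 / 5 * ρ₀))| ≤ C * (Gz k b ρ * Ew k ρ₀ ρ)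
  eq' : ∀ ρ, ρ₀ ≤ ρ → ρ ≤ 13 / 10 * ρ₀ → |deriv H ρ - k * H ρ| ≤ C * ρ₀ * (Gz k b ρ * Ew k ρ₀ ρ)

/-- the window -/
structure Win (k b : ℝ) (θ : ℝ → ℝ) : Prop where
  cont : Continuous θ
  nn : ∀ t, 0 ≤ θ t
  le : ∀ t, θ t ≤ 1
  zero : ∀ t, t ≤ 0 ∨ 3 ≤ t → θ t = 0
  one : ∀ t, 1 ≤ t → t ≤ 2 → θ t = 1
  ex : ∃ C c L' : ℝ, 1 ≤ C ∧ 0 < c ∧ ∀ ρ₀, L' ≤ ρ₀ → ∃ H, HW k b C c ρ₀ θ H

/-- moments of the angle on the window at `ρ₀` -/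
noncomputable def mom (k b : ℝ) (u ψ : E3 → ℝ) (θ : ℝ → ℝ) (p : E3 → ℝ) (ρ₀ : ℝ) : ℝ :=
  ∫ x in Om k, ang u ψ x * Rtwo u ψ x * (p x * (Gz k b (cyl x) * θ (cyl x - ρ₀)))

/-- the second caloric polynomial -/
noncomputable def ptwo (k : ℝ) (x : E3) : ℝ := k * x 2 ^ 2 - cyl x

end Crest.Agent.R335
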