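import Crest.Agent.R335.Gaa

/-!
# R335/Ga: elementary asymptotics, the layer thickness, `arctan`
-/

set_option autoImplicit false

namespace Crest.Agent.R335

open MeasureTheory Set Filter Topology
open scoped Gradient RealInnerProductSpace ENNReal ContDiff
open Crest.MathPhysics.ThreeBody

variable {k b L C c e1 e2 : ℝ} {R d V0 S v φ u ψ : E3 → ℝ} {GR Gd Gφ Gu Gψ : E3 → E3}

theorem ga_lip (s t : ℝ) : |Real.arctan s - Real.arctan t| ≤ |s - t| := by
  have h := Convex.norm_image_sub_le_of_norm_hasDerivWithin_le (f := Real.arctan)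
    (f' := fun x => 1 / (1 + x ^ 2)) (C := 1) (s := Set.univ) (x := t) (y := s)
    (fun x _ => (Real.hasDerivAt_arctan x).hasDerivWithinAt)
    (fun x _ => by
      rw [Real.norm_eq_abs, abs_of_nonneg (by positivity), div_le_one (by positivity)]
      nlinarith [sq_nonneg x]) convex_univ (Set.mem_univ _) (Set.mem_univ _)
  simpa [Real.norm_eq_abs] using h

theorem ga_abs_le_pi (t : ℝ) : |Real.arctan t| ≤ Real.pi / 2 :=
  abs_le.2 ⟨(Real.neg_pi_div_two_lt_arctan t).le, (Real.arctan_lt_pi_div_two t).le⟩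

theorem abs_arctan_le_two (t : ℝ) : |Real.arctan t| ≤ 2 := by
  have := ga_abs_le_pi t
  linarith [Real.pi_le_four]

theorem abs_arctan_le (t : ℝ) : |Real.arctan t| ≤ |t| := by
  simpa using ga_lip t 0

theorem arctan_le_add {s t e : ℝ} (he : 0 ≤ e) (h : s ≤ t + e) : Real.arctan s ≤ Real.arctan t + e := by
  have h1 := Real.arctan_mono h
  have h2 := ga_lip (t + e) t
  rw [add_sub_cancel_left, abs_of_nonneg he] at h2
  linarith [le_abs_self (Real.arctan (t + e) - Real.arctan t)]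

theorem le_abs_arctan {t M : ℝ} (h : |t| ≤ M) : |t| ≤ (1 + M ^ 2) * |Real.arctan t| := by
  have hs : 0 < √(1 + t ^ 2) := Real.sqrt_pos.2 (by positivity)
  have h1 : |t| = √(1 + t ^ 2) * |Real.sin (Real.arctan t)| := by
    rw [Real.sin_arctan, abs_div, abs_of_pos hs]; field_simp
  have h2 : √(1 + t ^ 2) ≤ 1 + M ^ 2 := by
    have ht : t ^ 2 ≤ M ^ 2 := by
      rw [← sq_abs t]; exact pow_le_pow_left₀ (abs_nonneg _) h 2
    rw [Real.sqrt_le_left (by positivity)]
    nlinarith [sq_nonneg M, sq_nonneg (M ^ 2)]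
  calc |t| = √(1 + t ^ 2) * |Real.sin (Real.arctan t)| := h1
    _ ≤ (1 + M ^ 2) * |Real.arctan t| :=
      mul_le_mul h2 Real.abs_sin_le_abs (abs_nonneg _) (by positivity)

theorem ga_sqrt_sin {w p : ℝ} (hw : 0 < w) : Real.sin (Real.arctan (p / w)) * √(w ^ 2 + p ^ 2) = p := by
  have h1 : √(w ^ 2 + p ^ 2) = w * √(1 + (p / w) ^ 2) := by
    rw [show w ^ 2 + p ^ 2 = w ^ 2 * (1 + (p / w) ^ 2) by field_simp, Real.sqrt_mul (by positivity),
      Real.sqrt_sq hw.le]
  have hs : 0 < √(1 + (p / w) ^ 2) := Real.sqrt_pos.2 (by positivity)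
  rw [h1, Real.sin_arctan]
  field_simp

/-- `√(u² + p²) sin a = p` for `a = arctan (p/u)` (`Real.sin_arctan`), `Real.mul_le_sin`, `Real.sin_gt_sub_cube` -/
theorem arctan_mul_sqrt {w p : ℝ} (hw : 0 < w) :
    |Real.arctan (p / w)| * √(w ^ 2 + p ^ 2) ≤ 2 * |p| ∧
      |p - Real.arctan (p / w) * √(w ^ 2 + p ^ 2)| ≤ |p / w| ^ 3 * √(w ^ 2 + p ^ 2) := by
  have hS := ga_sqrt_sin (p := p) hw
  set a := Real.arctan (p / w) with ha
  set N := √(w ^ 2 + p ^ 2) with hN
  have hN0 : 0 ≤ N := Real.sqrt_nonneg _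
  constructor
  · have h1 := Real.mul_abs_le_abs_sin (ga_abs_le_pi (p / w))
    have h2 : |a| ≤ 2 * |Real.sin a| := by
      have hpi := Real.pi_pos
      have h3 : 1 / 2 * |a| ≤ 2 / Real.pi * |a| := by
        apply mul_le_mul_of_nonneg_right _ (abs_nonneg _)
        rw [div_le_div_iff₀ (by norm_num) hpi]
        linarith [Real.pi_le_four]
      linarith
    have h4 : |p| = |Real.sin a| * N := by
      rw [← hS, abs_mul, abs_of_nonneg hN0]
    rw [h4]
    nlinarith [mul_le_mul_of_nonneg_right h2 hN0]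
  · have h1 := Real.abs_sub_sin_le a
    have h2 : |a| ^ 3 ≤ |p / w| ^ 3 := pow_le_pow_left₀ (abs_nonneg _) (abs_arctan_le _) 3
    have h3 : p - a * N = -((a - Real.sin a) * N) := by rw [sub_mul, hS]; ring
    rw [h3, abs_neg, abs_mul, abs_of_nonneg hN0]
    apply mul_le_mul_of_nonneg_right _ hN0
    have : 0 ≤ |a| ^ 3 := by positivity
    linarith

/-- telescoping along `(6/5)^n ρ` -/
theorem tel {f : ℝ → ℝ} {e : ℝ} (he : e < 0) (h : MomB (fun ρ => f ρ - f (6 / 5 * ρ)) e) (h0 : Tendsto f atTop (𝓝 0)) :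
    MomB f e := by
  obtain ⟨C', L', hC, hb⟩ := h
  set q : ℝ := (6 / 5 : ℝ) ^ e with hq
  have hq0 : 0 < q := Real.rpow_pos_of_pos (by norm_num) e
  have hq1 : q < 1 := Real.rpow_lt_one_of_one_lt_of_neg (by norm_num) he
  have hD : 0 ≤ C' / (1 - q) := div_nonneg hC (by linarith)
  refine ⟨C' / (1 - q), max L' 1, hD, fun ρ hρ => ?_⟩
  have hρL : L' ≤ ρ := (le_max_left _ _).trans hρ
  have hρ1 : 1 ≤ ρ := (le_max_right _ _).trans hρ
  have hρ0 : 0 < ρ := by linarith
  have hρe : 0 ≤ ρ ^ e := Real.rpow_nonneg hρ0.le e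
  have key : ∀ n : ℕ, |f ρ - f ((6 / 5) ^ n * ρ)| ≤ C' / (1 - q) * ρ ^ e * (1 - q ^ n) := by
    intro n
    induction n with
    | zero => simp
    | succ n ih =>
      have h65 : (1 : ℝ) ≤ (6 / 5) ^ n := one_le_pow₀ (by norm_num)
      have h1 := hb ((6 / 5) ^ n * ρ) (by nlinarith)
      have h2 : ((6 / 5 : ℝ) ^ n * ρ) ^ e = q ^ n * ρ ^ e := by
        rw [Real.mul_rpow (by positivity) hρ0.le, hq, ← Real.rpow_natCast, ← Real.rpow_natCast,
          ← Real.rpow_mul (by norm_num), ← Real.rpow_mul (by norm_num), mul_comm e]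
      have h3 : (6 / 5 : ℝ) * ((6 / 5) ^ n * ρ) = (6 / 5) ^ (n + 1) * ρ := by ring
      simp only [h2, h3] at h1
      have h4 : C' / (1 - q) * ρ ^ e * (1 - q ^ (n + 1))
          = C' / (1 - q) * ρ ^ e * (1 - q ^ n) + C' * (q ^ n * ρ ^ e) := by
        have : 1 - q ≠ 0 := by linarith
        field_simp
        ring
      rw [h4]
      calc |f ρ - f ((6 / 5) ^ (n + 1) * ρ)|
          ≤ |f ρ - f ((6 / 5) ^ n * ρ)| + |f ((6 / 5) ^ n * ρ) - f ((6 / 5) ^ (n + 1) * ρ)| := abs_sub_le _ _ _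
        _ ≤ _ := add_le_add ih h1
  have hlim : Tendsto (fun n : ℕ => |f ρ - f ((6 / 5) ^ n * ρ)|) atTop (𝓝 |f ρ - 0|) := by
    refine (tendsto_const_nhds.sub (h0.comp ?_)).abs
    exact (tendsto_pow_atTop_atTop_of_one_lt (by norm_num)).atTop_mul_const hρ0
  rw [sub_zero] at hlim
  refine le_of_tendsto' hlim fun n => (key n).trans ?_
  have : 0 ≤ q ^ n := by positivity
  have h5 : 0 ≤ C' / (1 - q) * ρ ^ e := mul_nonneg hD hρe
  nlinarith

theorem MomB.tendsto {f : ℝ → ℝ} {e : ℝ} (he : e < 0) (h : MomB f e) : Tendsto f atTop (𝓝 0) := by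
  obtain ⟨C', L', hC, hb⟩ := h
  have h1 : Tendsto (fun ρ : ℝ => C' * ρ ^ e) atTop (𝓝 0) := by
    have := (tendsto_rpow_neg_atTop (y := -e) (by linarith)).const_mul C'
    simpa using this
  refine squeeze_zero_norm' ?_ h1
  filter_upwards [eventually_ge_atTop L'] with ρ hρ using hb ρ hρ

end Crest.Agent.R335
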