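import Crest.Agent.R335.Lib

/-!
# R335/M_Defs: definitions and basic facts for the part `M` (owner helper31).  DO NOT CHANGE.
-/

set_option autoImplicit false

namespace Crest.Agent.R335

open MeasureTheory Set Filter Topology
open scoped Gradient RealInnerProductSpace ENNReal ContDiff
open Crest.MathPhysics.ThreeBody

variable {k b L C c e1 e2 : ℝ} {R d V0 S v φ u ψ : E3 → ℝ} {GR Gd Gφ Gu Gψ : E3 → E3}

/-- cylindrical coordinates -/
noncomputable def cz (x : E3) : ℝ × ℝ := (cyl x, x 2)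

/-- the level function `s (ψ - α u)` -/
noncomputable def lv (u ψ : E3 → ℝ) (s α : ℝ) (x : E3) : ℝ := s * (ψ x - α * u x)

/-- its weak gradient -/
noncomputable def lvG (Gu Gψ : E3 → E3) (s α : ℝ) (x : E3) : E3 := s • (Gψ x - α • Gu x)

/-- the positivity set in the closed quadrant without the axis -/
def posS (f : E3 → ℝ) : Set (ℝ × ℝ) := {p | 0 < p.1 ∧ 0 ≤ p.2 ∧ 0 < f (pt p.1 p.2)}

/-- near `x` the set `A` is everything or nothing -/
def AoN (A : Set E3) (x : E3) : Prop := (∀ᶠ y in 𝓝 x, y ∈ A) ∨ ∀ᶠ y in 𝓝 x, y ∉ A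

/-- polynomial in `ρ₀` times the exponential -/
noncomputable def pe (k N ρ₀ ρ : ℝ) : ℝ := ρ₀ ^ N * Real.exp (-k * ρ)

/-- rotation invariant off the axis -/
def RotI (f : E3 → ℝ) : Prop := ∀ x ∈ offA, f x = f (pt (cyl x) (x 2))

/-- `u ∇ (ψ / u)` -/
noncomputable def uD (u ψ : E3 → ℝ) (Gu Gψ : E3 → E3) (x : E3) : E3 := Gψ x - (ψ x / u x) • Gu x

/-- the closed coordinate box -/
def bx (a b : E3) : Set E3 := {x : E3 | ∀ i, a i ≤ x i ∧ x i ≤ b i}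

theorem continuous_cz : Continuous cz := continuous_cyl.prodMk (by fun_prop)

theorem pt_two (ρ z : ℝ) : pt ρ z 2 = z := by simp [pt]

theorem pt_zero (ρ z : ℝ) : pt ρ z 0 = ρ := by simp [pt]

theorem pt_one (ρ z : ℝ) : pt ρ z 1 = 0 := by simp [pt]

theorem pt_mem_offA {ρ : ℝ} (h : 0 < ρ) (z : ℝ) : pt ρ z ∈ offA := by
  show 0 < cyl (pt ρ z)
  rwa [cyl_pt h.le]

theorem cz_pt {ρ : ℝ} (h : 0 ≤ ρ) (z : ℝ) : cz (pt ρ z) = (ρ, z) := by
  simp only [cz, cyl_pt h, pt_two]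

theorem pe_pos (k N : ℝ) {ρ₀ : ℝ} (h : 0 < ρ₀) (ρ : ℝ) : 0 < pe k N ρ₀ ρ :=
  mul_pos (Real.rpow_pos_of_pos h _) (Real.exp_pos _)

theorem lam_pos {ρ : ℝ} (h : 0 < ρ) : 0 < lam ρ := Real.rpow_pos_of_pos h _

theorem lam_le_one {ρ : ℝ} (h : 1 ≤ ρ) : lam ρ ≤ 1 :=
  Real.rpow_le_one_of_one_le_of_nonpos h (by norm_num)

theorem lam_anti {ρ σ : ℝ} (h : 0 < ρ) (h2 : ρ ≤ σ) : lam σ ≤ lam ρ :=
  Real.rpow_le_rpow_of_nonpos h h2 (by norm_num)

theorem lam_half {ρ : ℝ} (h : 0 < ρ) : lam (ρ / 2) ≤ 2 * lam ρ := by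
  unfold lam
  rw [Real.div_rpow h.le (by norm_num), div_le_iff₀ (by positivity)]
  have h1 : (1 : ℝ) ≤ 2 * 2 ^ (-(3 / 5) : ℝ) := by
    have : (2 : ℝ) ^ (-1 : ℝ) ≤ 2 ^ (-(3 / 5) : ℝ) :=
      Real.rpow_le_rpow_of_exponent_le (by norm_num) (by norm_num)
    rw [Real.rpow_neg_one] at this
    linarith
  have h2 : 0 < ρ ^ (-(3 / 5) : ℝ) := Real.rpow_pos_of_pos h _
  nlinarith

theorem RotI.of_symP {f : E3 → ℝ} (h : ∀ T, SymP T → ∀ x ∈ offA, f (T x) = f x) : RotI f := by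
  intro x hx
  obtain ⟨T, hT, e⟩ := exists_rot_pt x
  have := h T hT _ (pt_mem_offA hx (x 2))
  rwa [e] at this

theorem RotI.contOn {f : E3 → ℝ} (hc : ContinuousOn f offA) :
    ContinuousOn (fun p : ℝ × ℝ => f (pt p.1 p.2)) {p | 0 < p.1} :=
  hc.comp continuous_pt.continuousOn fun p hp => pt_mem_offA hp p.2

section
variable (h : Red k b L C c R GR d Gd V0 S v e1 e2 φ Gφ u Gu ψ Gψ)
include h

theorem Red.fb : FB v := FB.of_sumClass h.cls

theorem Red.u_rot : RotI u := RotI.of_symP h.ou.symP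

theorem Red.psi_rot : RotI ψ := RotI.of_symP fun T hT => h.evψ T (Or.inl hT)

theorem Red.lv_rot (s α : ℝ) : RotI (lv u ψ s α) := fun x hx => by
  unfold lv
  rw [h.u_rot x hx, h.psi_rot x hx]

theorem Red.lv_eig (s α : ℝ) : Eig v e2 (lv u ψ s α) (lvG Gu Gψ s α) := by
  have := Eig.lin h.fb h.oψ.eig h.ou.orb.eig s (-(s * α))
  refine this.congr (Eventually.of_forall fun x => ?_) (Eventually.of_forall fun x => ?_)
  · simp only [lv]; ring
  · simp only [lvG]; module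

theorem Red.lv_cont (s α : ℝ) : ContinuousOn (lv u ψ s α) offA :=
  continuousOn_const.mul (h.oψ.cont.sub (continuousOn_const.mul h.ou.orb.cont))

theorem Red.u_plane {x : E3} (hx : x ∈ offA) (h0 : x 2 = 0) : u x = 0 := by
  obtain ⟨T, hT, e, -⟩ := exists_refl_z
  have h1 := h.ou.symM T hT x hx
  have h2 : T x = x := by
    rw [e]; ext i; fin_cases i <;> simp [refl, h0]
  rw [h2] at h1
  linarith

theorem Red.u_pos {x : E3} (hx : x ∈ offA) (h0 : 0 < x 2) : 0 < u x := h.ou.pos x hx h0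

theorem Red.u_nonneg {x : E3} (hx : x ∈ offA) (h0 : 0 ≤ x 2) : 0 ≤ u x := by
  rcases h0.eq_or_lt with e | e
  · rw [h.u_plane hx e.symm]
  · exact (h.u_pos hx e).le

theorem Red.abs_u_le : ∀ᵐ x, |u x| ≤ R x := by
  filter_upwards [h.dens] with x hx
  exact abs_le_of_sq_le_sq (by nlinarith [sq_nonneg (φ x), sq_nonneg (ψ x)]) (h.tail.R0 x)

theorem Red.abs_psi_le : ∀ᵐ x, |ψ x| ≤ R x := by
  filter_upwards [h.dens] with x hx
  exact abs_le_of_sq_le_sq (by nlinarith [sq_nonneg (φ x), sq_nonneg (u x)]) (h.tail.R0 x)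

theorem Red.abs_lv_le {s : ℝ} (hs : s = 1 ∨ s = -1) (α : ℝ) : ∀ᵐ x, |lv u ψ s α x| ≤ (1 + |α|) * R x := by
  filter_upwards [h.abs_u_le, h.abs_psi_le] with x h1 h2
  have h3 : |s| = 1 := by rcases hs with rfl | rfl <;> simp
  unfold lv
  rw [abs_mul, h3, one_mul]
  calc |ψ x - α * u x| ≤ |ψ x| + |α * u x| := abs_sub _ _
    _ = |ψ x| + |α| * |u x| := by rw [abs_mul]
    _ ≤ R x + |α| * R x := add_le_add h2 (mul_le_mul_of_nonneg_left h1 (abs_nonneg _))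
    _ = (1 + |α|) * R x := by ring

theorem Red.lv_tau (s α : ℝ) {ρ z : ℝ} (hρ : 0 < ρ) (hz : 0 < z) :
    lv u ψ s α (pt ρ z) = s * (tau u ψ ρ z - α) * u (pt ρ z) := by
  have := (h.u_pos (pt_mem_offA hρ z) (by rwa [pt_two])).ne'
  unfold lv tau
  field_simp

theorem Red.lv_plane (s α : ℝ) {r : ℝ} (hr : 0 < r) : lv u ψ s α (pt r 0) = s * ψ (pt r 0) := by
  unfold lv
  rw [h.u_plane (pt_mem_offA hr 0) (pt_two _ _), mul_zero, sub_zero]

end

end Crest.Agent.R335
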