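import Crest.Agent.R335.GD
import Crest.Agent.R335.M_Defs

/-!
# R335/Ga: elementary asymptotics, the layer thickness, `arctan`
-/

set_option autoImplicit false

namespace Crest.Agent.R335

open MeasureTheory Set Filter Topology
open scoped Gradient RealInnerProductSpace ENNReal ContDiff
open Crest.MathPhysics.ThreeBody

variable {k b L C c e1 e2 : ℝ} {R d V0 S v φ u ψ : E3 → ℝ} {GR Gd Gφ Gu Gψ : E3 → E3}

theorem ev_pow {a a' : ℝ} (h : a < a') (M : ℝ) : ∀ᶠ ρ : ℝ in atTop, M * ρ ^ a ≤ ρ ^ a' := by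
  filter_upwards [(tendsto_rpow_atTop (sub_pos.2 h)).eventually_ge_atTop M, eventually_gt_atTop 0] with ρ h1 h2
  calc M * ρ ^ a ≤ ρ ^ (a' - a) * ρ ^ a := mul_le_mul_of_nonneg_right h1 (Real.rpow_nonneg h2.le _)
    _ = ρ ^ a' := by rw [← Real.rpow_add h2, sub_add_cancel]

/-- `isLittleO_pow_log_id_atTop`, `isLittleO_log_rpow_rpow_atTop` -/
theorem ev_log {a a' : ℝ} (h : a < a') (M : ℝ) (n : ℕ) : ∀ᶠ ρ : ℝ in atTop, M * Real.log ρ ^ n * ρ ^ a ≤ ρ ^ a' := by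
  have h1 := (isLittleO_log_rpow_rpow_atTop (n : ℝ) (sub_pos.2 h)).const_mul_left M
  filter_upwards [h1.bound one_pos, eventually_gt_atTop 0] with ρ h1 h2
  rw [one_mul, Real.rpow_natCast, Real.norm_of_nonneg (Real.rpow_nonneg h2.le _)] at h1
  calc M * Real.log ρ ^ n * ρ ^ a ≤ ρ ^ (a' - a) * ρ ^ a :=
        mul_le_mul_of_nonneg_right ((le_abs_self _).trans h1) (Real.rpow_nonneg h2.le _)
    _ = ρ ^ a' := by rw [← Real.rpow_add h2, sub_add_cancel]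

theorem ev_exp {κ : ℝ} (hκ : 0 < κ) (M a a' : ℝ) : ∀ᶠ ρ : ℝ in atTop, M * ρ ^ a * Real.exp (-κ * ρ) ≤ ρ ^ a' := by
  have h1 := (tendsto_rpow_mul_exp_neg_mul_atTop_nhds_zero (a - a') κ hκ).const_mul M
  rw [mul_zero] at h1
  filter_upwards [h1.eventually_le_const one_pos, eventually_gt_atTop 0] with ρ h1 h2
  calc M * ρ ^ a * Real.exp (-κ * ρ) = M * (ρ ^ (a - a') * Real.exp (-κ * ρ)) * ρ ^ a' := by
        rw [Real.rpow_sub h2]
        have := (Real.rpow_pos_of_pos h2 a').ne'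
        field_simp
    _ ≤ 1 * ρ ^ a' := mul_le_mul_of_nonneg_right h1 (Real.rpow_nonneg h2.le _)
    _ = ρ ^ a' := one_mul _

theorem lam_le_mul {ρ ρ' t : ℝ} (h : 0 < ρ) (h' : 0 < ρ') (ht : 1 ≤ t) (hle : ρ ≤ t * ρ') : lam ρ' ≤ t * lam ρ := by
  have ht0 : 0 < t := by linarith
  have h1 : lam (t * ρ') ≤ lam ρ := lam_anti h hle
  have h2 : lam (t * ρ') = lam t * lam ρ' := Real.mul_rpow ht0.le h'.le
  have h3 : 1 ≤ t * lam t := by
    have : t * lam t = t ^ (2 / 5 : ℝ) := by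
      rw [lam, show (2 / 5 : ℝ) = 1 + -(3 / 5) by norm_num, Real.rpow_add ht0, Real.rpow_one]
    rw [this]
    exact Real.one_le_rpow ht (by norm_num)
  have h4 := lam_pos h'
  calc lam ρ' ≤ t * lam t * lam ρ' := le_mul_of_one_le_left h4.le h3
    _ = t * lam (t * ρ') := by rw [h2, mul_assoc]
    _ ≤ t * lam ρ := mul_le_mul_of_nonneg_left h1 ht0.le

theorem inv_le_lam {ρ : ℝ} (h : 1 ≤ ρ) : ρ⁻¹ ≤ lam ρ := by
  rw [← Real.rpow_neg_one]
  exact Real.rpow_le_rpow_of_exponent_le h (by norm_num)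

theorem measurable_lam : Measurable lam := by
  exact measurable_id.pow_const _

/-- comparison of powers on a block -/
theorem rpow_cmp (a : ℝ) : ∃ M : ℝ, 1 ≤ M ∧ ∀ ρ₀ ρ : ℝ, 0 < ρ₀ → ρ₀ / 4 ≤ ρ → ρ ≤ 4 * ρ₀ →
    ρ ^ a ≤ M * ρ₀ ^ a ∧ ρ₀ ^ a ≤ M * ρ ^ a := by
  have key : ∀ x y : ℝ, 0 < x → 0 < y → y ≤ 4 * x → x ≤ 4 * y → x ^ a ≤ 4 ^ |a| * y ^ a := by
    intro x y hx hy h1 h2
    rcases le_total 0 a with ha | ha
    · rw [abs_of_nonneg ha, ← Real.mul_rpow (by norm_num) hy.le]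
      exact Real.rpow_le_rpow hx.le h2 ha
    · have h3 : x ^ a ≤ (y / 4) ^ a := Real.rpow_le_rpow_of_nonpos (by positivity) (by linarith) ha
      rw [Real.div_rpow hy.le (by norm_num)] at h3
      rw [abs_of_nonpos ha, Real.rpow_neg (by norm_num), mul_comm, ← div_eq_mul_inv]
      exact h3
  refine ⟨4 ^ |a|, Real.one_le_rpow (by norm_num) (abs_nonneg a), fun ρ₀ ρ h0 h1 h2 => ?_⟩
  have h3 : 0 < ρ := by linarith
  exact ⟨key _ _ h3 h0 (by linarith) h2, key _ _ h0 h3 h2 (by linarith)⟩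

end Crest.Agent.R335
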