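import Crest.Agent.R335.GD

/-!
# R335/Gb: calculus for the products `H(cyl x) Q(x 2)`.  Tools: `R83.lap_mul`, `R83.lap_comp`, `R83.lap_congr`, `R83.grad_mul`, `R83.grad_comp`, `grad_cyl`, `contDiffOn_cyl`.
Aux facts to prove first: `lap cyl x = 1 / cyl x`, `‖∇ cyl x‖ = 1` off the axis, `∇ (· 2) = e₂`, `lap (· 2) = 0`, `⟪∇ cyl, e₂⟫ = 0`.  Near the axis the product vanishes identically.
-/

set_option autoImplicit false

namespace Crest.Agent.R335

open MeasureTheory Set Filter Topology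
open scoped Gradient RealInnerProductSpace ENNReal ContDiff
open Crest.MathPhysics.ThreeBody

variable {k b L C c e1 e2 : ℝ} {R d V0 S v φ u ψ : E3 → ℝ} {GR Gd Gφ Gu Gψ : E3 → E3}

theorem gba_cd {x : E3} (h : x ∈ offA) : ContDiffAt ℝ 2 cyl x :=
  (contDiffOn_cyl.contDiffAt (isOpen_offA.mem_nhds h)).of_le (WithTop.coe_le_coe.2 (le_top : (2 : ℕ∞) ≤ ⊤))

theorem gba_cz (x : E3) : ContDiffAt ℝ 2 (fun y : E3 => y 2) x := by fun_prop

theorem gba_norm {x : E3} (h : x ∈ offA) : ‖∇ cyl x‖ = 1 := by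
  have hc : cyl x ≠ 0 := ne_of_gt h
  have e : ‖∇ cyl x‖ ^ 2 = 1 := by
    rw [grad_cyl h, EuclideanSpace.real_norm_sq_eq, Fin.sum_univ_three]
    have := cyl_sq x
    simp
    field_simp
    linarith
  exact (pow_eq_one_iff_of_nonneg (norm_nonneg _) two_ne_zero).1 e

theorem gba_inner {x : E3} (h : x ∈ offA) : ⟪∇ cyl x, R83.e 2⟫ = 0 := by
  rw [grad_cyl h]
  simp [PiLp.inner_apply, Fin.sum_univ_three]

theorem gba_lap_z (x : E3) : lap (fun y : E3 => y 2) x = 0 := by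
  have : ∇ (fun y : E3 => y 2) = fun _ => R83.e 2 := funext fun y => R83.grad_coord 2 y
  simp [lap, R83.lap, R83.dvg, this]

theorem gba_lap_cyl {x : E3} (h : x ∈ offA) : lap cyl x = 1 / cyl x := by
  let P : E3 →L[ℝ] E3 := (EuclideanSpace.proj (𝕜 := ℝ) (0 : Fin 3)).smulRight (R83.e 0) +
    (EuclideanSpace.proj (𝕜 := ℝ) (1 : Fin 3)).smulRight (R83.e 1)
  have hP : ∀ y : E3, (!₂[y 0, y 1, 0] : E3) = P y := by
    intro y; ext i; fin_cases i <;> simp [P]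
  have hd : R83.dvg P x = 2 := by
    rw [R83.dvg, P.fderiv, Fin.sum_univ_three]
    simp [P]
    norm_num
  have hc : cyl x ≠ 0 := ne_of_gt h
  have h1 : DifferentiableAt ℝ cyl x := (gba_cd h).differentiableAt (by simp)
  have h2 : ∇ cyl =ᶠ[𝓝 x] fun y => (cyl y)⁻¹ • P y := by
    filter_upwards [isOpen_offA.mem_nhds h] with y hy
    rw [grad_cyl hy, hP]
  have h3 : ∇ (fun y => (cyl y)⁻¹) x = (-(cyl x ^ 2)⁻¹) • ∇ cyl x := R83.grad_comp (hasDerivAt_inv hc) h1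
  have h4 : ⟪∇ cyl x, P x⟫ = cyl x := by
    rw [grad_cyl h, ← hP]
    have := cyl_sq x
    simp [PiLp.inner_apply, Fin.sum_univ_three]
    field_simp
    linarith
  rw [lap, R83.lap, R83.dvg_congr h2, R83.dvg_smul (a := fun y => (cyl y)⁻¹) (h1.inv hc) P.differentiableAt, hd, h3,
    real_inner_smul_left, h4]
  field_simp
  ring

theorem gba_zero {H Q : ℝ → ℝ} {α : ℝ} (h0 : ∀ ρ, ρ ≤ α → H ρ = 0) {x : E3} (hx : cyl x < α) :
    (fun x : E3 => H (cyl x) * Q (x 2)) =ᶠ[𝓝 x] fun _ => 0 := by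
  filter_upwards [(isOpen_lt continuous_cyl continuous_const).mem_nhds hx] with y hy
  rw [h0 _ (le_of_lt hy), zero_mul]

theorem gba_le {H : ℝ → ℝ} (hH : Continuous (deriv H)) {α : ℝ} (h0 : ∀ ρ, ρ ≤ α → H ρ = 0) :
    ∀ ρ, ρ ≤ α → deriv H ρ = 0 := by
  have h1 : EqOn (deriv H) (fun _ => 0) (Iio α) := by
    intro ρ hρ
    have : H =ᶠ[𝓝 ρ] fun _ => 0 := by
      filter_upwards [Iio_mem_nhds hρ] with t ht using h0 t (le_of_lt ht)
    rw [this.deriv_eq, deriv_const]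
  intro ρ hρ
  refine h1.closure hH continuous_const ?_
  rwa [closure_Iio]

theorem gba_ge {H : ℝ → ℝ} (hH : Continuous (deriv H)) {α : ℝ} (h0 : ∀ ρ, α ≤ ρ → H ρ = 0) :
    ∀ ρ, α ≤ ρ → deriv H ρ = 0 := by
  have h1 : EqOn (deriv H) (fun _ => 0) (Ioi α) := by
    intro ρ hρ
    have : H =ᶠ[𝓝 ρ] fun _ => 0 := by
      filter_upwards [Ioi_mem_nhds hρ] with t ht using h0 t (le_of_lt ht)
    rw [this.deriv_eq, deriv_const]
  intro ρ hρ
  refine h1.closure hH continuous_const ?_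
  rwa [closure_Ioi]

theorem gba_c2 {H : ℝ → ℝ} (hH : ContDiff ℝ 2 H) : Continuous (deriv H) ∧ Continuous (deriv (deriv H)) :=
  ⟨hH.continuous_deriv (by norm_num), (hH.deriv' (n := 1)).continuous_deriv le_rfl⟩

theorem deriv_zero_of_le {H : ℝ → ℝ} (hH : ContDiff ℝ 2 H) {α : ℝ} (h0 : ∀ ρ, ρ ≤ α → H ρ = 0) :
    ∀ ρ, ρ ≤ α → deriv H ρ = 0 ∧ deriv (deriv H) ρ = 0 := by
  have h1 := gba_le (gba_c2 hH).1 h0
  exact fun ρ hρ => ⟨h1 ρ hρ, gba_le (gba_c2 hH).2 h1 ρ hρ⟩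

theorem deriv_zero_of_ge {H : ℝ → ℝ} (hH : ContDiff ℝ 2 H) {α : ℝ} (h0 : ∀ ρ, α ≤ ρ → H ρ = 0) :
    ∀ ρ, α ≤ ρ → deriv H ρ = 0 ∧ deriv (deriv H) ρ = 0 := by
  have h1 := gba_ge (gba_c2 hH).1 h0
  exact fun ρ hρ => ⟨h1 ρ hρ, gba_ge (gba_c2 hH).2 h1 ρ hρ⟩

theorem cylp_contDiff {H Q : ℝ → ℝ} (hH : ContDiff ℝ 2 H) (hQ : ContDiff ℝ 2 Q) {α : ℝ} (hα : 0 < α)
    (h0 : ∀ ρ, ρ ≤ α → H ρ = 0) : ContDiff ℝ 2 fun x : E3 => H (cyl x) * Q (x 2) := by
  refine contDiff_iff_contDiffAt.2 fun x => ?_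
  rcases lt_or_ge (cyl x) α with hx | hx
  · exact contDiffAt_const.congr_of_eventuallyEq (gba_zero h0 hx)
  · exact (hH.contDiffAt.comp x (gba_cd (hα.trans_le hx))).mul (hQ.contDiffAt.comp x (gba_cz x))

theorem cylp_grad {H Q : ℝ → ℝ} (hH : ContDiff ℝ 2 H) (hQ : ContDiff ℝ 2 Q) {α : ℝ} (hα : 0 < α)
    (h0 : ∀ ρ, ρ ≤ α → H ρ = 0) (x : E3) : ‖∇ (fun x : E3 => H (cyl x) * Q (x 2)) x‖ ≤
      |deriv H (cyl x)| * |Q (x 2)| + |H (cyl x)| * |deriv Q (x 2)| := by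
  rcases lt_or_ge (cyl x) α with hx | hx
  · rw [(gba_zero h0 hx).gradient_eq, gradient_fun_const, norm_zero]
    positivity
  · have hA : x ∈ offA := hα.trans_le hx
    have h1 : DifferentiableAt ℝ cyl x := (gba_cd hA).differentiableAt (by simp)
    have h2 : DifferentiableAt ℝ (fun y : E3 => y 2) x := (gba_cz x).differentiableAt (by simp)
    have h3 := (hH.differentiable (by simp) (cyl x)).hasDerivAt
    have h4 := (hQ.differentiable (by simp) (x 2)).hasDerivAt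
    rw [R83.grad_mul (f := fun y => H (cyl y)) (g := fun y => Q (y 2)) (h3.differentiableAt.comp x h1)
      (h4.differentiableAt.comp x h2), R83.grad_comp h3 h1, R83.grad_comp (f := fun y : E3 => y 2) h4 h2,
      R83.grad_coord]
    refine (norm_add_le _ _).trans (le_of_eq ?_)
    simp only [norm_smul, gba_norm hA, Real.norm_eq_abs, EuclideanSpace.norm_single, norm_one]
    ring

theorem cylp_lap {H Q : ℝ → ℝ} (hH : ContDiff ℝ 2 H) (hQ : ContDiff ℝ 2 Q) {α : ℝ} (hα : 0 < α)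
    (h0 : ∀ ρ, ρ ≤ α → H ρ = 0) (x : E3) : lap (fun x : E3 => H (cyl x) * Q (x 2)) x =
      (deriv (deriv H) (cyl x) + deriv H (cyl x) / cyl x) * Q (x 2) + H (cyl x) * deriv (deriv Q) (x 2) := by
  rcases lt_or_ge (cyl x) α with hx | hx
  · obtain ⟨e1, e2⟩ := deriv_zero_of_le hH h0 _ hx.le
    rw [lap, R83.lap_congr (gba_zero h0 hx), R83.lap_const, e1, e2, h0 _ hx.le]
    simp
  · have hA : x ∈ offA := hα.trans_le hx
    have h1 : DifferentiableAt ℝ cyl x := (gba_cd hA).differentiableAt (by simp)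
    have h2 : DifferentiableAt ℝ (fun y : E3 => y 2) x := (gba_cz x).differentiableAt (by simp)
    have h3 := (hH.differentiable (by simp) (cyl x)).hasDerivAt
    have h4 := (hQ.differentiable (by simp) (x 2)).hasDerivAt
    have l1 := gba_lap_cyl hA
    have l2 := gba_lap_z x
    rw [lap] at l1 l2
    rw [lap, R83.lap_mul (a := fun y => H (cyl y)) (b := fun y => Q (y 2)) (hH.contDiffAt.comp x (gba_cd hA))
      (hQ.contDiffAt.comp x (gba_cz x)), R83.lap_comp (gba_cd hA) hH.contDiffAt,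
      R83.lap_comp (a := fun y : E3 => y 2) (gba_cz x) hQ.contDiffAt, R83.grad_comp h3 h1,
      R83.grad_comp (f := fun y : E3 => y 2) h4 h2, R83.grad_coord, real_inner_smul_left, real_inner_smul_right,
      gba_inner hA, gba_norm hA, l1, l2, EuclideanSpace.norm_single, norm_one]
    ring

end Crest.Agent.R335
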