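import Crest.Agent.R335.Gca

/-!
# R335/Gc: integrals over shells.  Split `ℝ³ = ℝ² × ℝ` (see `S9`, `S7a`, `P2a` for the measure preserving maps already used; `MeasureTheory.integral_prod_mul`,
`EuclideanSpace.volume_closedBall`/`Complex.volume_closedBall` for the area of a disc).
-/

set_option autoImplicit false

namespace Crest.Agent.R335

open MeasureTheory Set Filter Topology
open scoped Gradient RealInnerProductSpace ENNReal ContDiff
open Crest.MathPhysics.ThreeBody

variable {k b L C c e1 e2 : ℝ} {R d V0 S v φ u ψ : E3 → ℝ} {GR Gd Gφ Gu Gψ : E3 → E3}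

/-- scale `z = √ρ₀ t` (`MeasureTheory.Measure.integral_comp_mul_left`, `integrable_rpow_mul_exp_neg_mul_sq`) -/
theorem gauss_mom {κ : ℝ} (hκ : 0 < κ) (j : ℕ) : ∃ M : ℝ, 0 ≤ M ∧ ∀ ρ₀ : ℝ, 0 < ρ₀ →
    Integrable (fun z : ℝ => |z| ^ j * Real.exp (-(κ * z ^ 2 / ρ₀))) ∧
      ∫ z : ℝ, |z| ^ j * Real.exp (-(κ * z ^ 2 / ρ₀)) ≤ M * ρ₀ ^ (((j : ℝ) + 1) / 2) := by
  have hg : Integrable fun t : ℝ => |t| ^ j * Real.exp (-(κ * t ^ 2)) := by
    have h := (integrable_rpow_mul_exp_neg_mul_sq hκ (s := j) (by have := Nat.cast_nonneg (α := ℝ) j; linarith)).abs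
    refine h.congr (Eventually.of_forall fun t => ?_)
    simp only [abs_mul, Real.rpow_natCast, abs_pow, Real.abs_exp, neg_mul]
  refine ⟨∫ t : ℝ, |t| ^ j * Real.exp (-(κ * t ^ 2)), integral_nonneg fun t => by positivity, fun ρ₀ hρ => ?_⟩
  have hs : 0 < √ρ₀ := Real.sqrt_pos.2 hρ
  have he : (fun z : ℝ => |z| ^ j * Real.exp (-(κ * z ^ 2 / ρ₀))) =
      fun z => √ρ₀ ^ j * (|z / √ρ₀| ^ j * Real.exp (-(κ * (z / √ρ₀) ^ 2))) := by
    funext z
    rw [div_pow z, Real.sq_sqrt hρ.le, abs_div, abs_of_pos hs, div_pow, mul_div_assoc κ]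
    field_simp
  rw [he]
  refine ⟨(hg.comp_div hs.ne').const_mul _, le_of_eq ?_⟩
  rw [integral_const_mul, Measure.integral_comp_div (fun t : ℝ => |t| ^ j * Real.exp (-(κ * t ^ 2))), abs_of_pos hs,
    smul_eq_mul, ← mul_assoc, ← pow_succ, mul_comm, Real.sqrt_eq_rpow, ← Real.rpow_natCast, ← Real.rpow_mul hρ.le]
  congr 2
  push_cast
  ring

/-- `exists_refl_z` -/
theorem even_int {F : E3 → ℝ} (hF : Integrable F) (he : ∀ᵐ x, F (refl x) = F x) :
    ∫ x, F x = 2 * ∫ x in {x : E3 | 0 < x 2}, F x := by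
  obtain ⟨T, hT, hr, -⟩ := exists_refl_z
  have hm : ∀ s : ℝ, MeasurableSet {x : E3 | 0 < s * x 2} := fun s =>
    (isOpen_lt continuous_const (by fun_prop)).measurableSet
  have hp : MeasurableSet {x : E3 | 0 < x 2} := by simpa using hm 1
  have hn : MeasurableSet {x : E3 | x 2 < 0} := by simpa using hm (-1)
  have h1 : ∫ x, F x = (∫ x, {x : E3 | 0 < x 2}.indicator F x) + ∫ x, {x : E3 | x 2 < 0}.indicator F x := by
    rw [← integral_add (hF.indicator hp) (hF.indicator hn)]
    refine integral_congr_ae ?_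
    filter_upwards [ae_coord_ne 2 0] with x hx
    rcases lt_or_gt_of_ne hx with h | h
    · rw [indicator_of_notMem (by simpa using h.le), indicator_of_mem (by simpa using h), zero_add]
    · rw [indicator_of_mem (by simpa using h), indicator_of_notMem (by simpa using h.le), add_zero]
  have h2 : ∫ x, {x : E3 | x 2 < 0}.indicator F x = ∫ x, {x : E3 | 0 < x 2}.indicator F x := by
    rw [← s1_int_iso T]
    refine integral_congr_ae ?_
    filter_upwards [he] with x hx
    by_cases h : 0 < x 2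
    · rw [indicator_of_mem (by simpa [hT x] using h), indicator_of_mem (by simpa using h), hr, hx]
    · rw [indicator_of_notMem (by simpa [hT x] using h), indicator_of_notMem (by simpa using h)]
  rw [h1, h2, integral_indicator hp, two_mul]

/-- `sumClass_split`, `t ≤ 1 + t^(3/2)` -/
theorem sumClass_set (hv : IsSumClassPotential v) : ∃ M : ℝ, 0 ≤ M ∧ ∀ A : Set E3, MeasurableSet A → volume A ≠ ⊤ →
    IntegrableOn v A ∧ ∫ x in A, |v x| ≤ M * (1 + volume.real A) := by
  obtain ⟨v1, v2, rfl, h1, h2⟩ := hv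
  have hI : Integrable (fun x => ‖v1 x‖ ^ (3 / 2 : ℝ)) := by
    have := (integrable_norm_rpow_iff h1.1 s8b_ne_zero s8b_ne_top).2 h1
    rwa [s8b_toReal] at this
  obtain ⟨B, hB⟩ : ∃ B, B = ∫ x, ‖v1 x‖ ^ (3 / 2 : ℝ) := ⟨_, rfl⟩
  have hB0 : 0 ≤ B := hB ▸ integral_nonneg fun x => by positivity
  obtain ⟨M, hM0, hM⟩ := s8a_top h2
  refine ⟨B + (1 + M), by positivity, fun A hA hfin => ?_⟩
  have : IsFiniteMeasure (volume.restrict A) := isFiniteMeasure_restrict.2 hfin
  have hint : IntegrableOn (v1 + v2) A :=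
    ((h1.restrict _).integrable s8b_one_le).add ((h2.restrict _).integrable le_top)
  refine ⟨hint, ?_⟩
  have h3 : ∫ x in A, |(v1 + v2) x| ≤ ∫ x in A, (‖v1 x‖ ^ (3 / 2 : ℝ) + (1 + M)) := by
    refine integral_mono_ae hint.abs (hI.integrableOn.add (integrable_const _)) ?_
    filter_upwards [ae_restrict_of_ae hM] with x hx
    have h4 := s8b_young one_pos (v1 x)
    have := abs_add_le (v1 x) (v2 x)
    rw [one_mul, one_pow, inv_one] at h4
    simp only [Pi.add_apply]
    linarith
  rw [integral_add hI.integrableOn (integrable_const _), integral_const, measureReal_restrict_apply_univ,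
    smul_eq_mul] at h3
  have h4 : ∫ x in A, ‖v1 x‖ ^ (3 / 2 : ℝ) ≤ B :=
    hB ▸ setIntegral_le_integral hI (Eventually.of_forall fun x => by positivity)
  have h5 : 0 ≤ volume.real A := measureReal_nonneg
  nlinarith [mul_nonneg hB0 h5]

theorem int_of_L2 {w f : E3 → ℝ} (hw : MemLp w 2 volume) (hf : AEStronglyMeasurable f volume) {M M' : ℝ}
    (h1 : ∀ x, |f x| ≤ M) (h2 : ∀ x, M' < ‖x‖ → f x = 0) : Integrable fun x => w x * f x := by
  refine hw.integrable_mul (q := 2) ?_
  have hb : MemLp ((Metric.closedBall (0 : E3) M').indicator fun _ => M) 2 volume :=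
    memLp_indicator_const 2 Metric.isClosed_closedBall.measurableSet M (Or.inr measure_closedBall_lt_top.ne)
  refine hb.of_le hf (Eventually.of_forall fun x => ?_)
  by_cases h : M' < ‖x‖
  · rw [h2 x h, norm_zero]; exact norm_nonneg _
  · rw [indicator_of_mem (by simpa using h)]
    exact (h1 x).trans (le_abs_self M)

theorem intOn_of_L2 {w f : E3 → ℝ} (hw : MemLp w 2 volume) (hf : AEStronglyMeasurable f volume) {A : Set E3}
    (hA : MeasurableSet A) {M M' : ℝ} (h1 : ∀ x ∈ A, |f x| ≤ M) (h2 : ∀ x ∈ A, M' < ‖x‖ → f x = 0) :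
    IntegrableOn (fun x => w x * f x) A := by
  have h := int_of_L2 hw (hf.indicator hA) (M := |M|) (M' := M') (fun x => ?_) fun x hx => ?_
  · rw [← integrable_indicator_iff hA]
    refine h.congr (Eventually.of_forall fun x => ?_)
    by_cases hx : x ∈ A <;> simp [hx]
  · by_cases hx : x ∈ A
    · rw [indicator_of_mem hx]; exact (h1 x hx).trans (le_abs_self M)
    · rw [indicator_of_notMem hx, abs_zero]; exact abs_nonneg _
  · by_cases hxA : x ∈ A
    · rw [indicator_of_mem hxA]; exact h2 x hxA hx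
    · exact indicator_of_notMem hxA _

end Crest.Agent.R335
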