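import Crest.Agent.R335.GD

/-!
# R335/Gc: integrals over shells.  Split `ℝ³ = ℝ² × ℝ` (see `S9`, `S7a`, `P2a` for the measure preserving maps already used; `MeasureTheory.integral_prod_mul`,
`EuclideanSpace.volume_closedBall`/`Complex.volume_closedBall` for the area of a disc).
-/

set_option autoImplicit false

namespace Crest.Agent.R335

open MeasureTheory Set Filter Topology
open scoped Gradient RealInnerProductSpace ENNReal ContDiff
open Crest.MathPhysics.ThreeBody

variable {k b L C c e1 e2 : ℝ} {R d V0 S v φ u ψ : E3 → ℝ} {GR Gd Gφ Gu Gψ : E3 → E3}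

theorem measurableSet_shell (α β : ℝ) : MeasurableSet (shell α β) :=
  ((isClosed_le continuous_const continuous_cyl).inter
    (isClosed_le continuous_cyl continuous_const)).measurableSet

theorem measurableSet_box (α β z₁ z₂ : ℝ) : MeasurableSet (box α β z₁ z₂) := by
  have h2 : Continuous fun x : E3 => x 2 := by fun_prop
  exact ((isClosed_le continuous_const continuous_cyl).inter
    ((isClosed_le continuous_cyl continuous_const).inter
      ((isClosed_le continuous_const h2).inter (isClosed_le h2 continuous_const)))).measurableSet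

/-- the planar annulus -/
def gca_ann (α β : ℝ) : Set (Fin 2 → ℝ) := {y | α ≤ √(y 0 ^ 2 + y 1 ^ 2) ∧ √(y 0 ^ 2 + y 1 ^ 2) ≤ β}

theorem gca_ann_meas (α β : ℝ) : MeasurableSet (gca_ann α β) := by
  have h : Continuous fun y : Fin 2 → ℝ => √(y 0 ^ 2 + y 1 ^ 2) := by fun_prop
  exact ((isClosed_le continuous_const h).inter (isClosed_le h continuous_const)).measurableSet

theorem gca_ann_pre (α β : ℝ) :
    (WithLp.ofLp : E2 → (Fin 2 → ℝ)) ⁻¹' gca_ann α β = Metric.closedBall 0 β \ Metric.ball 0 α := by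
  ext y
  have e : √(y 0 ^ 2 + y 1 ^ 2) = ‖y‖ := by
    rw [EuclideanSpace.norm_eq, Fin.sum_univ_two, Real.norm_eq_abs, Real.norm_eq_abs, sq_abs, sq_abs]
  simp only [gca_ann, mem_preimage, mem_ofPred_eq, Set.mem_sdiff, mem_closedBall_zero_iff, mem_ball_zero_iff, not_lt]
  change (α ≤ √(y 0 ^ 2 + y 1 ^ 2) ∧ √(y 0 ^ 2 + y 1 ^ 2) ≤ β) ↔ _
  rw [e, and_comm]

theorem gca_ann_fin (α β : ℝ) : volume (gca_ann α β) ≠ ⊤ := by
  rw [← (PiLp.volume_preserving_ofLp (Fin 2)).measure_preimage (gca_ann_meas α β).nullMeasurableSet,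
    gca_ann_pre]
  exact ((measure_mono sdiff_subset).trans_lt measure_closedBall_lt_top).ne

theorem gca_ann_vol {α β : ℝ} (hα : 0 ≤ α) (hβ : α ≤ β) :
    volume.real (gca_ann α β) = Real.pi * (β ^ 2 - α ^ 2) := by
  rw [← (PiLp.volume_preserving_ofLp (Fin 2)).measureReal_preimage (gca_ann_meas α β).nullMeasurableSet,
    gca_ann_pre, measureReal_sdiff (Metric.ball_subset_closedBall.trans (Metric.closedBall_subset_closedBall hβ))
      measurableSet_ball measure_closedBall_lt_top.ne]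
  simp only [measureReal_def, EuclideanSpace.volume_closedBall_fin_two, EuclideanSpace.volume_ball_fin_two,
    ENNReal.toReal_mul, ENNReal.toReal_pow, ENNReal.toReal_ofReal hα, ENNReal.toReal_ofReal (hα.trans hβ),
    ENNReal.toReal_ofReal Real.pi_pos.le]
  ring

theorem gca_pre_shell (α β : ℝ) : s9e ⁻¹' shell α β = univ ×ˢ gca_ann α β := by
  ext ⟨z, y⟩
  simp only [mem_preimage, s9e_apply, shell, cyl, gca_ann, mem_ofPred_eq, mem_prod, mem_univ, true_and]
  simp

theorem gca_pre_box (α β z₁ z₂ : ℝ) : s9e ⁻¹' box α β z₁ z₂ = Icc z₁ z₂ ×ˢ gca_ann α β := by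
  ext ⟨z, y⟩
  simp only [mem_preimage, s9e_apply, box, cyl, gca_ann, mem_ofPred_eq, mem_prod, mem_Icc]
  simp
  tauto

theorem gca_two (p : ℝ × (Fin 2 → ℝ)) : s9e p 2 = p.1 := by
  obtain ⟨z, y⟩ := p
  rw [s9e_apply]
  simp

theorem shell_int {α β : ℝ} (hα : 0 ≤ α) (hβ : α ≤ β) (f : ℝ → ℝ) :
    ∫ x in shell α β, f (x 2) = Real.pi * (β ^ 2 - α ^ 2) * ∫ z, f z := by
  rw [← s9e_mp.setIntegral_preimage_emb s9e.measurableEmbedding, gca_pre_shell]
  simp only [gca_two]
  have h := setIntegral_prod_mul (μ := (volume : Measure ℝ)) (ν := (volume : Measure (Fin 2 → ℝ))) f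
    (fun _ => (1 : ℝ)) univ (gca_ann α β)
  simp only [mul_one, Measure.restrict_univ, setIntegral_const, smul_eq_mul] at h
  rw [Measure.volume_eq_prod, h, gca_ann_vol hα hβ, mul_comm]

theorem shell_integrable (α β : ℝ) {f : ℝ → ℝ} (hf : Integrable f) : IntegrableOn (fun x : E3 => f (x 2)) (shell α β) := by
  rw [← s9e_mp.integrableOn_comp_preimage s9e.measurableEmbedding, gca_pre_shell]
  have e : ((fun x : E3 => f (x 2)) ∘ s9e) = fun p => f p.1 * (1 : ℝ) := by
    funext p
    simp [gca_two]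
  rw [e, IntegrableOn, Measure.volume_eq_prod, ← Measure.prod_restrict, Measure.restrict_univ]
  have : IsFiniteMeasure ((volume : Measure (Fin 2 → ℝ)).restrict (gca_ann α β)) :=
    isFiniteMeasure_restrict.2 (gca_ann_fin α β)
  exact hf.mul_prod (integrable_const (1 : ℝ))

theorem box_vol {α β z₁ z₂ : ℝ} (hα : 0 ≤ α) (hβ : α ≤ β) (hz : z₁ ≤ z₂) :
    volume (box α β z₁ z₂) ≠ ⊤ ∧ volume.real (box α β z₁ z₂) = Real.pi * (β ^ 2 - α ^ 2) * (z₂ - z₁) := by
  have h : volume (box α β z₁ z₂) = ENNReal.ofReal (z₂ - z₁) * volume (gca_ann α β) := by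
    rw [← s9e_mp.measure_preimage (measurableSet_box α β z₁ z₂).nullMeasurableSet, gca_pre_box,
      Measure.volume_eq_prod, Measure.prod_prod, Real.volume_Icc]
  refine ⟨?_, ?_⟩
  · rw [h]
    exact ENNReal.mul_ne_top ENNReal.ofReal_ne_top (gca_ann_fin α β)
  · rw [measureReal_def, h, ENNReal.toReal_mul, ENNReal.toReal_ofReal (sub_nonneg.2 hz), ← measureReal_def,
      gca_ann_vol hα hβ, mul_comm]

/-- the standard way to bound an integral (`norm_integral_le_of_norm_le`; no measurability of `F` is needed) -/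
theorem abs_integral_le_shell {α β : ℝ} (hα : 0 ≤ α) (hβ : α ≤ β) {F : E3 → ℝ} {f : ℝ → ℝ} (hf : Integrable f)
    (h1 : ∀ᵐ x, x ∈ shell α β → |F x| ≤ f (x 2)) (h2 : ∀ᵐ x, x ∉ shell α β → F x = 0) :
    |∫ x, F x| ≤ Real.pi * (β ^ 2 - α ^ 2) * ∫ z, f z := by
  rw [← shell_int hα hβ, ← integral_indicator (measurableSet_shell α β), ← Real.norm_eq_abs]
  refine norm_integral_le_of_norm_le
    ((integrable_indicator_iff (measurableSet_shell α β)).2 (shell_integrable α β hf)) ?_
  filter_upwards [h1, h2] with x hx1 hx2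
  by_cases hx : x ∈ shell α β
  · rw [indicator_of_mem hx, Real.norm_eq_abs]
    exact hx1 hx
  · rw [indicator_of_notMem hx, hx2 hx, norm_zero]

theorem abs_setIntegral_le_shell {α β : ℝ} (hα : 0 ≤ α) (hβ : α ≤ β) {A : Set E3} (hA : MeasurableSet A)
    (hs : A ⊆ shell α β) {F : E3 → ℝ} {f : ℝ → ℝ} (hf : Integrable f) (h0 : ∀ z, 0 ≤ f z)
    (h1 : ∀ᵐ x, x ∈ A → |F x| ≤ f (x 2)) : |∫ x in A, F x| ≤ Real.pi * (β ^ 2 - α ^ 2) * ∫ z, f z := by
  rw [← integral_indicator hA]
  refine abs_integral_le_shell hα hβ hf ?_ (Eventually.of_forall fun x hx => ?_)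
  · filter_upwards [h1] with x hx _
    by_cases hxA : x ∈ A
    · rw [indicator_of_mem hxA]
      exact hx hxA
    · rw [indicator_of_notMem hxA, abs_zero]
      exact h0 _
  · exact indicator_of_notMem (fun h => hx (hs h)) _

end Crest.Agent.R335
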