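import Crest.Agent.R335.Gea

/-!
# R335/Ge: crude bounds in the reduced situation
-/

set_option autoImplicit false

namespace Crest.Agent.R335

open MeasureTheory Set Filter Topology
open scoped Gradient RealInnerProductSpace ENNReal ContDiff
open Crest.MathPhysics.ThreeBody

variable {k b L C c e1 e2 : ℝ} {R d V0 S v φ u ψ : E3 → ℝ} {GR Gd Gφ Gu Gψ : E3 → E3}

theorem ge_abs_Rtwo (u ψ : E3 → ℝ) (x : E3) : |Rtwo u ψ x| ≤ |u x| + |ψ x| := by
  rw [Rtwo, abs_of_nonneg (Real.sqrt_nonneg _)]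
  refine Real.sqrt_le_iff.2 ⟨by positivity, ?_⟩
  nlinarith [sq_abs (u x), sq_abs (ψ x), mul_nonneg (abs_nonneg (u x)) (abs_nonneg (ψ x))]

theorem Red.memLp_Rtwo (h : Red k b L C c R GR d Gd V0 S v e1 e2 φ Gφ u Gu ψ Gψ) : MemLp (Rtwo u ψ) 2 volume := by
  have hu := h.ou.orb.eig.h1.mf
  have hψ := h.oψ.eig.h1.mf
  refine (hu.abs.add hψ.abs).of_le ?_ (Eventually.of_forall fun x => ?_)
  · exact Real.continuous_sqrt.comp_aestronglyMeasurable ((hu.1.pow 2).add (hψ.1.pow 2))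
  · exact (ge_abs_Rtwo u ψ x).trans (le_abs_self _)

theorem Red.aesm_ang (h : Red k b L C c R GR d Gd V0 S v e1 e2 φ Gφ u Gu ψ Gψ) : AEStronglyMeasurable (ang u ψ) volume := by
  exact Real.continuous_arctan.comp_aestronglyMeasurable
    (h.oψ.eig.h1.mf.1.aemeasurable.div h.ou.orb.eig.h1.mf.1.aemeasurable).aestronglyMeasurable

theorem Red.memLp_U (h : Red k b L C c R GR d Gd V0 S v e1 e2 φ Gφ u Gu ψ Gψ) : MemLp (fun x => ang u ψ x * Rtwo u ψ x) 2 volume ∧
    MemLp (fun x => |ang u ψ x| * Rtwo u ψ x) 2 volume := by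
  have h1 : MemLp (fun x => ang u ψ x * Rtwo u ψ x) 2 volume := by
    refine h.memLp_Rtwo.of_le_mul (c := 2) (h.aesm_ang.mul h.memLp_Rtwo.1) (Eventually.of_forall fun x => ?_)
    rw [norm_mul]
    exact mul_le_mul_of_nonneg_right (abs_arctan_le_two _) (norm_nonneg _)
  refine ⟨h1, h1.of_le (h.aesm_ang.norm.mul h.memLp_Rtwo.1) (Eventually.of_forall fun x => ?_)⟩
  simp only [norm_mul, Real.norm_eq_abs, abs_abs, le_refl]

theorem Red.cont_ang (h : Red k b L C c R GR d Gd V0 S v e1 e2 φ Gφ u Gu ψ Gψ) : ContinuousOn (ang u ψ) upA ∧ ContinuousOn (Rtwo u ψ) upA := by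
  have hu : ContinuousOn u upA := h.ou.orb.cont.mono fun x hx => hx.1
  have hψ : ContinuousOn ψ upA := h.oψ.cont.mono fun x hx => hx.1
  exact ⟨Real.continuous_arctan.comp_continuousOn (hψ.div hu fun x hx => (h.ou.pos x hx.1 hx.2).ne'),
    Real.continuous_sqrt.comp_continuousOn ((hu.pow 2).add (hψ.pow 2))⟩

/-- integrability of all weighted integrals over windows: `intOn_of_L2`, `Om_small`, `continuousOn_Gz` -/
theorem int_window (hk : 0 < k) (b : ℝ) : ∃ L' : ℝ, 3 ≤ L' ∧ ∀ (w f : E3 → ℝ) (A : Set E3) (α β M : ℝ), L' ≤ α → MemLp w 2 volume →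
    AEStronglyMeasurable f volume → MeasurableSet A → A ⊆ Om k → (∀ x ∈ A, x ∈ shell α β → |f x| ≤ M) →
    (∀ x ∈ A, x ∉ shell α β → f x = 0) → IntegrableOn (fun x => w x * (f x * Gz k b (cyl x))) A := by
  obtain ⟨L', hL, hO⟩ := Om_small hk
  refine ⟨L', hL, fun w f A α β M hα hw hf hA hAO h1 h2 => ?_⟩
  obtain ⟨B, hB⟩ := (isCompact_Icc (a := α) (b := β)).exists_bound_of_continuousOn
    ((continuousOn_Gz k b).mono fun ρ hρ => (by linarith [hρ.1] : (0 : ℝ) < ρ))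
  refine intOn_of_L2 (f := fun x => f x * Gz k b (cyl x)) hw
    (hf.mul ((measurable_Gz k b).comp continuous_cyl.measurable).aestronglyMeasurable) hA
    (M := |M| * |B|) (M' := 2 * β) (fun x hx => ?_) fun x hx hn => ?_
  · by_cases hs : x ∈ shell α β
    · rw [abs_mul]
      exact mul_le_mul ((h1 x hx hs).trans (le_abs_self M)) ((hB _ hs).trans (le_abs_self B)) (abs_nonneg _)
        (abs_nonneg _)
    · rw [h2 x hx hs, zero_mul, abs_zero]; positivity
  · rw [h2 x hx fun hs => ?_, zero_mul]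
    obtain ⟨h3, h4⟩ := hO x (hAO hx) (hα.trans hs.1)
    have h5 := norm_le_cyl_add x
    rw [abs_of_pos h3] at h5
    linarith [hs.2, cyl_nonneg x]

end Crest.Agent.R335
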