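import Crest.Agent.R335.Gd
import Crest.Agent.R335.Gc

/-!
# R335/Ge: crude bounds in the reduced situation
-/

set_option autoImplicit false

namespace Crest.Agent.R335

open MeasureTheory Set Filter Topology
open scoped Gradient RealInnerProductSpace ENNReal ContDiff
open Crest.MathPhysics.ThreeBody

variable {k b L C c e1 e2 : ℝ} {R d V0 S v φ u ψ : E3 → ℝ} {GR Gd Gφ Gu Gψ : E3 → E3}

theorem gea_lam {x : E3} (hx : 1 ≤ cyl x) :
    0 < lam (cyl x) ∧ |x 2| + (1 + |x 2|) / ‖x‖ ^ 2 ≤ 2 * (|x 2| + lam (cyl x)) := by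
  have h0 : 0 < lam (cyl x) := Real.rpow_pos_of_pos (by linarith) _
  refine ⟨h0, ?_⟩
  have h1 := cyl_le_norm x
  have h2 : 1 / ‖x‖ ^ 2 ≤ lam (cyl x) := by
    have e1 : cyl x ^ (-2 : ℝ) ≤ lam (cyl x) := Real.rpow_le_rpow_of_exponent_le hx (by norm_num)
    refine le_trans ?_ e1
    rw [Real.rpow_neg (by linarith), Real.rpow_two, one_div]
    exact inv_anti₀ (by positivity) (pow_le_pow_left₀ (by linarith) h1 2)
  have h3 : |x 2| / ‖x‖ ^ 2 ≤ |x 2| := div_le_self (abs_nonneg _) (one_le_pow₀ (by linarith))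
  rw [add_div]
  linarith

theorem gea_Rtwo (u ψ : E3 → ℝ) (x : E3) : Rtwo u ψ x ≤ |u x| + |ψ x| := by
  refine Real.sqrt_le_iff.2 ⟨by positivity, ?_⟩
  have := mul_nonneg (abs_nonneg (u x)) (abs_nonneg (ψ x))
  nlinarith [sq_abs (u x), sq_abs (ψ x)]

theorem Tail.V0_le (h : Tail k b L C c R GR d Gd V0 S) : ∃ M : ℝ, 0 ≤ M ∧ ∀ x, L < ‖x‖ → |V0 x| ≤ M := by
  have hk := h.kpos
  have hC := h.Cge
  have hL := h.Lge
  refine ⟨C + k ^ 2 + 2 * k * |b|, by positivity, fun x hx => ?_⟩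
  have h1 : 1 ≤ ‖x‖ := by linarith
  have e1 := abs_le.1 (h.V0a x hx)
  have e2 : C / ‖x‖ ^ 2 ≤ C := div_le_self (by linarith) (one_le_pow₀ h1)
  have e3 : |2 * k * b / ‖x‖| ≤ 2 * k * |b| := by
    rw [abs_div, abs_mul, abs_of_pos (show 0 < 2 * k by linarith), abs_norm]
    exact div_le_self (by positivity) h1
  have e4 := abs_le.1 e3
  have e5 : 0 ≤ 2 * k * |b| := by positivity
  rw [abs_le]
  constructor <;> nlinarith [e1.1, e1.2, e4.1, e4.2, sq_nonneg k]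

/-- `Red.dens` gives `|u|, |ψ|, |φ| ≤ R` a.e.; `Tail.cont_le`, `Tail.R_le`, `(1 + |z|)/‖x‖² ≤ |z| + lam`, `Red.ulow` -/
theorem Red.crude (h : Red k b L C c R GR d Gd V0 S v e1 e2 φ Gφ u Gu ψ Gψ) : ∃ M L' : ℝ, 1 ≤ M ∧ L + 3 ≤ L' ∧
    (∀ x, L' ≤ cyl x → |u x| ≤ M * (|x 2| + lam (cyl x)) * gfun k b x ∧ |ψ x| ≤ M * (|x 2| + lam (cyl x)) * gfun k b x ∧
      Rtwo u ψ x ≤ M * (|x 2| + lam (cyl x)) * gfun k b x ∧
      (lam (cyl x) / 16 ≤ x 2 → x 2 ≤ cyl x / 2 → |ψ x / u x| ≤ M ∧ Rtwo u ψ x ≤ M * x 2 * gfun k b x)) ∧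
    ∀ᵐ x, L' ≤ cyl x → R x ≤ M * (|x 2| + lam (cyl x)) * gfun k b x := by
  have hC := h.tail.Cge
  have hL := h.tail.Lge
  have hc := h.tail.cpos
  have hu : ∀ᵐ x, |u x| ≤ 1 * R x := by
    filter_upwards [h.dens] with x hx
    rw [one_mul]
    exact abs_le_of_sq_le_sq' (by nlinarith [sq_nonneg (φ x), sq_nonneg (ψ x)]) (h.tail.R0 x) |> abs_le.2
  have hψ : ∀ᵐ x, |ψ x| ≤ 1 * R x := by
    filter_upwards [h.dens] with x hx
    rw [one_mul]
    exact abs_le_of_sq_le_sq' (by nlinarith [sq_nonneg (φ x), sq_nonneg (u x)]) (h.tail.R0 x) |> abs_le.2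
  have bu := h.tail.cont_le h.ou.orb.cont zero_le_one hu
  have bψ := h.tail.cont_le h.oψ.cont zero_le_one hψ
  have hCc : 0 ≤ 34 * C / c := by positivity
  have key : ∀ x : E3, L + 3 ≤ cyl x → ∀ t K : ℝ, 2 * C ≤ K →
      t ≤ C * (|x 2| + (1 + |x 2|) / ‖x‖ ^ 2) * gfun k b x → t ≤ K * (|x 2| + lam (cyl x)) * gfun k b x := by
    intro x hx t K hK ht
    obtain ⟨l0, l1⟩ := gea_lam (x := x) (by linarith)
    refine ht.trans (mul_le_mul_of_nonneg_right ?_ (p7a_g k b x))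
    calc _ ≤ C * (2 * (|x 2| + lam (cyl x))) := mul_le_mul_of_nonneg_left l1 (by linarith)
      _ = 2 * C * (|x 2| + lam (cyl x)) := by ring
      _ ≤ _ := mul_le_mul_of_nonneg_right hK (by positivity)
  refine ⟨68 * C + 34 * C / c, L + 3, by linarith, le_rfl, fun x hx => ?_, ?_⟩
  · have hA : x ∈ offA := show 0 < cyl x by linarith
    have hn : L < ‖x‖ := by linarith [cyl_le_norm x]
    have b1 := bu x hA hn
    have b2 := bψ x hA hn
    rw [one_mul] at b1 b2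
    obtain ⟨l0, -⟩ := gea_lam (x := x) (by linarith)
    have g0 : 0 < gfun k b x := gfun_pos k b (norm_pos_iff.1 (by linarith))
    have c1 := key x hx _ _ le_rfl b1
    have c2 := key x hx _ _ le_rfl b2
    have c3 : Rtwo u ψ x ≤ 4 * C * (|x 2| + lam (cyl x)) * gfun k b x := by linarith [gea_Rtwo u ψ x]
    refine ⟨key x hx _ _ (by linarith) b1, key x hx _ _ (by linarith) b2, c3.trans ?_, fun z1 z2 => ?_⟩
    · gcongr
      linarith
    · have z0 : 0 < x 2 := by linarith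
      have z3 : |x 2| + lam (cyl x) ≤ 17 * x 2 := by rw [abs_of_pos z0]; linarith
      have u1 := h.ulow x (by linarith) z1 z2
      have u0 : 0 < c * x 2 * gfun k b x := by positivity
      have c4 : |ψ x| ≤ 34 * C * x 2 * gfun k b x := by
        calc _ ≤ 2 * C * (17 * x 2) * gfun k b x := c2.trans (by gcongr)
          _ = _ := by ring
      constructor
      · rw [abs_div, abs_of_pos (show 0 < u x by linarith)]
        calc _ ≤ 34 * C * x 2 * gfun k b x / (c * x 2 * gfun k b x) := div_le_div₀ (by positivity) c4 u0 u1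
          _ = 34 * C / c := by field_simp
          _ ≤ _ := by linarith
      · calc _ ≤ 4 * C * (17 * x 2) * gfun k b x := c3.trans (by gcongr)
          _ = 68 * C * x 2 * gfun k b x := by ring
          _ ≤ _ := by gcongr; linarith
  · filter_upwards [h.tail.R_le] with x h1 hx
    exact key x hx _ _ (by linarith) (h1 (by linarith [cyl_le_norm x]))

theorem Red.u_posG (h : Red k b L C c R GR d Gd V0 S v e1 e2 φ Gφ u Gu ψ Gψ) {x : E3} (hx : x ∈ upA) : 0 < u x ∧ u x ≤ Rtwo u ψ x ∧ |ψ x| ≤ Rtwo u ψ x := by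
  refine ⟨h.ou.pos x hx.1 hx.2, (le_abs_self _).trans (Real.abs_le_sqrt ?_), Real.abs_le_sqrt ?_⟩
  · linarith [sq_nonneg (ψ x)]
  · linarith [sq_nonneg (u x)]

/-- `Even3.eq_pt`, `exists_rot_pt`, `OddU.symP` -/
theorem Red.tau_eq (h : Red k b L C c R GR d Gd V0 S v e1 e2 φ Gφ u Gu ψ Gψ) {x : E3} (hx : x ∈ upA) : ψ x / u x = tau u ψ (cyl x) (x 2) := by
  obtain ⟨T, hT, e⟩ := exists_rot_pt x
  have hp : pt (cyl x) (x 2) ∈ offA := by
    show 0 < cyl _
    rw [cyl_pt (cyl_nonneg x)]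
    exact hx.1
  have e1 := h.ou.symP T hT _ hp
  have e2 := h.evψ T (Or.inl hT) _ hp
  rw [e] at e1 e2
  rw [tau, e1, e2]

theorem Red.psi_refl (h : Red k b L C c R GR d Gd V0 S v e1 e2 φ Gφ u Gu ψ Gψ) : ∀ x ∈ offA, ψ (refl x) = ψ x := by
  intro x hx
  obtain ⟨T, hT, e, -⟩ := exists_refl_z
  rw [← e]
  exact h.evψ T (Or.inr hT) x hx

end Crest.Agent.R335
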