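import Crest.Agent.R335.Defs

/-!
# R335/Geo: elementary geometry of `ℝ³`, concrete splittings of `ℝ⁶` and `ℝ⁹`
-/

set_option autoImplicit false

namespace Crest.Agent.R335

open MeasureTheory Set Filter Topology
open scoped Gradient RealInnerProductSpace ENNReal ContDiff
open Crest.MathPhysics.ThreeBody

theorem continuous_cyl : Continuous cyl := by
  unfold cyl
  fun_prop

theorem cyl_nonneg (x : E3) : 0 ≤ cyl x := by
  exact Real.sqrt_nonneg _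

theorem cyl_sq (x : E3) : cyl x ^ 2 = x 0 ^ 2 + x 1 ^ 2 := by
  exact Real.sq_sqrt (by positivity)

theorem norm_sq_cyl (x : E3) : ‖x‖ ^ 2 = cyl x ^ 2 + x 2 ^ 2 := by
  rw [cyl_sq, EuclideanSpace.real_norm_sq_eq, Fin.sum_univ_three]

theorem cyl_le_norm (x : E3) : cyl x ≤ ‖x‖ := by
  refine (pow_le_pow_iff_left₀ (cyl_nonneg x) (norm_nonneg x) two_ne_zero).1 ?_
  rw [norm_sq_cyl]
  nlinarith [sq_nonneg (x 2)]

theorem abs_z_le_norm (x : E3) : |x 2| ≤ ‖x‖ := by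
  refine (pow_le_pow_iff_left₀ (abs_nonneg _) (norm_nonneg x) two_ne_zero).1 ?_
  rw [norm_sq_cyl, sq_abs]
  nlinarith [sq_nonneg (cyl x)]

theorem norm_le_cyl_add (x : E3) : ‖x‖ ≤ cyl x + |x 2| := by
  refine (pow_le_pow_iff_left₀ (norm_nonneg x) (add_nonneg (cyl_nonneg x) (abs_nonneg _)) two_ne_zero).1 ?_
  rw [norm_sq_cyl, add_sq, sq_abs]
  nlinarith [mul_nonneg (cyl_nonneg x) (abs_nonneg (x 2))]

theorem geoa_norm (x : E3) : ‖(!₂[x 0, x 1, 0] : E3)‖ = cyl x := by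
  refine (pow_left_inj₀ (norm_nonneg _) (cyl_nonneg x) two_ne_zero).1 ?_
  rw [cyl_sq, EuclideanSpace.real_norm_sq_eq, Fin.sum_univ_three]
  simp

theorem abs_cyl_sub_le (x y : E3) : |cyl x - cyl y| ≤ ‖x - y‖ := by
  have h : (!₂[x 0, x 1, 0] : E3) - !₂[y 0, y 1, 0] = !₂[(x - y) 0, (x - y) 1, 0] := by
    ext i
    fin_cases i <;> simp
  rw [← geoa_norm x, ← geoa_norm y]
  refine (abs_norm_sub_norm_le _ _).trans ?_
  rw [h, geoa_norm]
  exact cyl_le_norm _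

/-- `r - ρ ≤ z² / (2 ρ)` and `r - ρ ≥ z² / (2 r)` -/
theorem norm_sub_cyl (x : E3) (h : 0 < cyl x) :
    x 2 ^ 2 / (2 * ‖x‖) ≤ ‖x‖ - cyl x ∧ ‖x‖ - cyl x ≤ x 2 ^ 2 / (2 * cyl x) := by
  have h1 := cyl_le_norm x
  have h2 := norm_sq_cyl x
  have h3 : 0 < ‖x‖ := h.trans_le h1
  constructor
  · rw [div_le_iff₀ (by positivity)]
    nlinarith [sq_nonneg (‖x‖ - cyl x)]
  · rw [le_div_iff₀ (by positivity)]
    nlinarith [sq_nonneg (‖x‖ - cyl x)]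

theorem geoa_ne {x : E3} (h : x ∈ offA) : x 0 ^ 2 + x 1 ^ 2 ≠ 0 := by
  rw [← cyl_sq]
  exact pow_ne_zero 2 (ne_of_gt h)

theorem contDiffOn_cyl : ContDiffOn ℝ ∞ cyl offA := by
  unfold cyl
  exact ContDiffOn.sqrt (by fun_prop) fun x hx => geoa_ne hx

theorem grad_cyl {x : E3} (h : x ∈ offA) : ∇ cyl x = (cyl x)⁻¹ • (!₂[x 0, x 1, 0] : E3) := by
  have h0 : HasFDerivAt (fun y : E3 => y 0) (EuclideanSpace.proj 0 : E3 →L[ℝ] ℝ) x :=
    (EuclideanSpace.proj 0 : E3 →L[ℝ] ℝ).hasFDerivAt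
  have h1 : HasFDerivAt (fun y : E3 => y 1) (EuclideanSpace.proj 1 : E3 →L[ℝ] ℝ) x :=
    (EuclideanSpace.proj 1 : E3 →L[ℝ] ℝ).hasFDerivAt
  have h2 := ((h0.pow 2).add (h1.pow 2)).sqrt (geoa_ne h)
  have hc : cyl x ≠ 0 := ne_of_gt h
  refine HasGradientAt.gradient ?_
  rw [hasGradientAt_iff_hasFDerivAt]
  refine HasFDerivAt.congr_fderiv (f := cyl) h2 ?_
  ext v
  have e : √(x 0 ^ 2 + x 1 ^ 2) = cyl x := rfl
  simp [e, PiLp.inner_apply, Fin.sum_univ_three]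
  field_simp

theorem isOpen_offA : IsOpen offA := by
  exact isOpen_lt continuous_const continuous_cyl

theorem isOpen_far (L : ℝ) : IsOpen (far L) := by
  exact isOpen_lt continuous_const continuous_norm

theorem geoa_coord_ne (i : Fin 3) (c : ℝ) : ∀ᵐ x : E3, x i ≠ c :=
  (PiLp.volume_preserving_ofLp (Fin 3)).quasiMeasurePreserving.ae
    (Measure.ae_eval_ne (fun _ : Fin 3 => (volume : Measure ℝ)) i c)

theorem ae_offA : ∀ᵐ x : E3, x ∈ offA := by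
  filter_upwards [geoa_coord_ne 0 0] with x hx
  exact Real.sqrt_pos.2 (by positivity)

theorem ae_coord_ne (i : Fin 3) (c : ℝ) : ∀ᵐ x : E3, x i ≠ c := by
  exact geoa_coord_ne i c

@[simp] theorem pt_0 (ρ z : ℝ) : pt ρ z 0 = ρ := rfl
@[simp] theorem pt_1 (ρ z : ℝ) : pt ρ z 1 = 0 := rfl
@[simp] theorem pt_2 (ρ z : ℝ) : pt ρ z 2 = z := rfl

theorem cyl_pt {ρ : ℝ} (h : 0 ≤ ρ) (z : ℝ) : cyl (pt ρ z) = ρ := by
  unfold cyl
  rw [pt_0, pt_1, zero_pow two_ne_zero, add_zero, Real.sqrt_sq h]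

theorem continuous_pt : Continuous fun p : ℝ × ℝ => pt p.1 p.2 := by
  unfold pt
  fun_prop

theorem norm_pt_sub (ρ z ρ' z' : ℝ) : ‖pt ρ z - pt ρ' z'‖ ≤ |ρ - ρ'| + |z - z'| := by
  refine (pow_le_pow_iff_left₀ (norm_nonneg _) (by positivity) two_ne_zero).1 ?_
  rw [EuclideanSpace.real_norm_sq_eq, Fin.sum_univ_three, add_sq, sq_abs, sq_abs]
  simp only [PiLp.sub_apply, pt_0, pt_1, pt_2]
  nlinarith [mul_nonneg (abs_nonneg (ρ - ρ')) (abs_nonneg (z - z'))]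

theorem Sym.cyl_eq {T : E3 ≃ₗᵢ[ℝ] E3} (h : Sym T) (x : E3) : cyl (T x) = cyl x := by
  refine (pow_left_inj₀ (cyl_nonneg _) (cyl_nonneg x) two_ne_zero).1 ?_
  have h1 := norm_sq_cyl x
  have h2 := norm_sq_cyl (T x)
  rw [T.norm_map] at h2
  rcases h with h | h <;> rw [h x] at h2 <;> nlinarith

theorem Sym.abs_z {T : E3 ≃ₗᵢ[ℝ] E3} (h : Sym T) (x : E3) : |T x 2| = |x 2| := by
  rcases h with h | h
  · rw [h x]
  · rw [h x, abs_neg]

theorem geoa_symP {T : E3 ≃ₗᵢ[ℝ] E3} (h : SymP T) : SymP T.symm := fun x => by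
  rw [← h (T.symm x), T.apply_symm_apply]

theorem geoa_symM {T : E3 ≃ₗᵢ[ℝ] E3} (h : SymM T) : SymM T.symm := fun x => by
  have := h (T.symm x)
  rw [T.apply_symm_apply] at this
  rw [this, neg_neg]

theorem Sym.symm {T : E3 ≃ₗᵢ[ℝ] E3} (h : Sym T) : Sym T.symm := by
  exact h.imp geoa_symP geoa_symM

theorem SymP.symm {T : E3 ≃ₗᵢ[ℝ] E3} (h : SymP T) : SymP T.symm := by
  exact geoa_symP h

theorem SymM.symm {T : E3 ≃ₗᵢ[ℝ] E3} (h : SymM T) : SymM T.symm := by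
  exact geoa_symM h

theorem Sym.trans {T T' : E3 ≃ₗᵢ[ℝ] E3} (h : Sym T) (h' : Sym T') : Sym (T.trans T') := by
  rcases h with h | h <;> rcases h' with h' | h'
  · exact Or.inl fun x => (h' (T x)).trans (h x)
  · exact Or.inr fun x => (h' (T x)).trans (by rw [h x])
  · exact Or.inr fun x => (h' (T x)).trans (h x)
  · exact Or.inl fun x => (h' (T x)).trans (by rw [h x, neg_neg])

end Crest.Agent.R335
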