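import Crest.Agent.R335.Geoa

/-!
# R335/Geo: elementary geometry of `ℝ³`, concrete splittings of `ℝ⁶` and `ℝ⁹`
-/

set_option autoImplicit false

namespace Crest.Agent.R335

open MeasureTheory Set Filter Topology
open scoped Gradient RealInnerProductSpace ENNReal ContDiff
open Crest.MathPhysics.ThreeBody

theorem geob_norm_sq (x : E3) : ‖x‖ ^ 2 = x 0 ^ 2 + x 1 ^ 2 + x 2 ^ 2 := by
  rw [EuclideanSpace.real_norm_sq_eq, Fin.sum_univ_three]

theorem geob_iso (f : E3 → E3) (h1 : ∀ x y, f (x + y) = f x + f y) (h2 : ∀ (c : ℝ) x, f (c • x) = c • f x)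
    (h3 : ∀ x, ‖f x‖ ^ 2 = ‖x‖ ^ 2) : ∃ T : E3 ≃ₗᵢ[ℝ] E3, ∀ x, T x = f x := by
  let L : E3 →ₗᵢ[ℝ] E3 :=
    { toFun := f, map_add' := h1, map_smul' := h2
      norm_map' := fun x => (pow_left_inj₀ (norm_nonneg _) (norm_nonneg _) two_ne_zero).1 (h3 x) }
  exact ⟨L.toLinearIsometryEquiv rfl, fun x => rfl⟩

theorem geob_le {k p a c t : ℝ} (hk : 0 ≤ k) (ha : 0 < a) (hc : 0 < c) (h1 : a ≤ 2 * c) (h2 : c ≤ 2 * a)
    (h3 : c - a ≤ t) : a ^ p * Real.exp (-k * a) ≤
      Real.exp (Real.log 2 * |p|) * Real.exp (k * t) * (c ^ p * Real.exp (-k * c)) := by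
  rw [Real.rpow_def_of_pos ha, Real.rpow_def_of_pos hc, ← Real.exp_add, ← Real.exp_add, ← Real.exp_add,
    ← Real.exp_add, Real.exp_le_exp]
  have l1 : Real.log a ≤ Real.log 2 + Real.log c := by
    rw [← Real.log_mul two_ne_zero hc.ne']; exact Real.log_le_log ha h1
  have l2 : Real.log c ≤ Real.log 2 + Real.log a := by
    rw [← Real.log_mul two_ne_zero ha.ne']; exact Real.log_le_log hc h2
  have l3 : |Real.log a - Real.log c| ≤ Real.log 2 := abs_le.2 ⟨by linarith, by linarith⟩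
  have l4 : (Real.log a - Real.log c) * p ≤ Real.log 2 * |p| :=
    (le_abs_self _).trans (by rw [abs_mul]; exact mul_le_mul_of_nonneg_right l3 (abs_nonneg _))
  have l5 := mul_le_mul_of_nonneg_left h3 hk
  linarith

/-- rotations about the axis -/
theorem exists_rot (α : ℝ) : ∃ T : E3 ≃ₗᵢ[ℝ] E3, SymP T ∧ ∀ x, T x =
    !₂[Real.cos α * x 0 - Real.sin α * x 1, Real.sin α * x 0 + Real.cos α * x 1, x 2] := by
  obtain ⟨T, hT⟩ := geob_iso
    (fun x => !₂[Real.cos α * x 0 - Real.sin α * x 1, Real.sin α * x 0 + Real.cos α * x 1, x 2])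
    (fun x y => by ext j; fin_cases j <;> simp <;> ring) (fun c x => by ext j; fin_cases j <;> simp <;> ring)
    (fun x => by
      simp only [geob_norm_sq]
      simp
      linear_combination (x 0 ^ 2 + x 1 ^ 2) * Real.cos_sq_add_sin_sq α)
  exact ⟨T, fun x => by rw [hT]; simp, hT⟩

/-- every point is the image of `(ρ, 0, z)` under a rotation -/
theorem exists_rot_pt (x : E3) : ∃ T : E3 ≃ₗᵢ[ℝ] E3, SymP T ∧ T (pt (cyl x) (x 2)) = x := by
  obtain ⟨T, h1, h2⟩ := exists_rot (Complex.arg ⟨x 0, x 1⟩)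
  refine ⟨T, h1, ?_⟩
  have hn : ‖(⟨x 0, x 1⟩ : ℂ)‖ = cyl x := by rw [Complex.norm_eq_sqrt_sq_add_sq]; rfl
  have a1 := Complex.norm_mul_cos_arg ⟨x 0, x 1⟩
  have a2 := Complex.norm_mul_sin_arg ⟨x 0, x 1⟩
  rw [hn] at a1 a2
  rw [h2]
  ext j
  fin_cases j
  · simpa [mul_comm] using a1
  · simpa [mul_comm] using a2
  · simp

/-- the reflection in the coordinate plane `x i = 0` -/
theorem exists_refl (i : Fin 3) : ∃ T : E3 ≃ₗᵢ[ℝ] E3, Sym T ∧ (i ≠ 2 → SymP T) ∧ (i = 2 → SymM T) ∧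
    (∀ x, T (T x) = x) ∧ ∀ x j, T x j = if j = i then -x j else x j := by
  obtain ⟨T, hT⟩ := geob_iso (fun x => WithLp.toLp 2 fun j => if j = i then -x j else x j)
    (fun x y => by ext j; by_cases h : j = i <;> simp [h, add_comm])
    (fun c x => by ext j; by_cases h : j = i <;> simp [h])
    (fun x => by
      simp only [geob_norm_sq]
      split_ifs <;> ring)
  have h5 : ∀ x j, T x j = if j = i then -x j else x j := fun x j => by rw [hT]
  have h2 : i ≠ 2 → SymP T := fun h x => by rw [h5, if_neg (Ne.symm h)]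
  have h3 : i = 2 → SymM T := fun h x => by rw [h5, if_pos h.symm]
  refine ⟨T, ?_, h2, h3, fun x => ?_, h5⟩
  · by_cases h : i = 2
    · exact Or.inr (h3 h)
    · exact Or.inl (h2 h)
  · ext j
    rw [h5, h5]
    split_ifs <;> simp

theorem exists_refl_z : ∃ T : E3 ≃ₗᵢ[ℝ] E3, SymM T ∧ (∀ x, T x = refl x) ∧ ∀ x, T.symm x = refl x := by
  obtain ⟨T, -, -, h3, h4, h5⟩ := exists_refl 2
  have h : ∀ x, T x = refl x := fun x => by
    ext j
    rw [h5]
    fin_cases j <;> simp [refl]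
  refine ⟨T, h3 rfl, h, fun x => ?_⟩
  rw [← h, LinearIsometryEquiv.symm_apply_eq, h4]

theorem Even3.eq_pt {f : E3 → ℝ} (h : Even3 f) {x : E3} (hx : x ∈ offA) : f x = f (pt (cyl x) |x 2|) := by
  obtain ⟨T, h1, h2⟩ := exists_rot_pt x
  have hm : ∀ z, pt (cyl x) z ∈ offA := fun z => by
    change 0 < cyl (pt (cyl x) z)
    rw [cyl_pt (cyl_nonneg x)]
    exact hx
  have h3 : f x = f (pt (cyl x) (x 2)) := by
    have := h T (Or.inl h1) _ (hm (x 2))
    rwa [h2] at this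
  rw [h3]
  rcases abs_cases (x 2) with h4 | h4
  · rw [h4.1]
  · obtain ⟨S, s1, s2, -⟩ := exists_refl_z
    rw [h4.1, ← h S (Or.inr s1) _ (hm (x 2)), s2]
    congr 1

theorem gfun_pos (k b : ℝ) {x : E3} (h : x ≠ 0) : 0 < gfun k b x :=
  mul_pos (Real.rpow_pos_of_pos (norm_pos_iff.2 h) _) (Real.exp_pos _)

theorem continuousOn_gfun (k b : ℝ) : ContinuousOn (gfun k b) {x | x ≠ 0} := by
  refine ContinuousOn.mul (continuous_norm.continuousOn.rpow_const fun x hx => Or.inl (norm_ne_zero_iff.2 hx)) ?_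
  exact (Real.continuous_exp.comp (continuous_const.mul continuous_norm)).continuousOn

theorem measurable_gfun (k b : ℝ) : Measurable (gfun k b) := by
  unfold gfun
  exact (measurable_norm.pow_const _).mul (Real.measurable_exp.comp (measurable_norm.const_mul _))

/-- `g` is comparable at nearby points -/
theorem gfun_le (k b : ℝ) (hk : 0 ≤ k) : ∃ C : ℝ, 1 ≤ C ∧ ∀ x y : E3, 0 < ‖x‖ → ‖x - y‖ ≤ ‖x‖ / 2 →
    gfun k b y ≤ C * Real.exp (k * ‖x - y‖) * gfun k b x ∧ gfun k b x ≤ C * Real.exp (k * ‖x - y‖) * gfun k b y := by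
  refine ⟨Real.exp (Real.log 2 * |b - 2|),
    Real.one_le_exp (mul_nonneg (Real.log_nonneg one_le_two) (abs_nonneg _)), fun x y hx h => ?_⟩
  have h1 : ‖x‖ - ‖y‖ ≤ ‖x - y‖ := norm_sub_norm_le x y
  have h2 : ‖y‖ - ‖x‖ ≤ ‖x - y‖ := by rw [norm_sub_rev]; exact norm_sub_norm_le y x
  have hy : 0 < ‖y‖ := by linarith
  exact ⟨geob_le hk hy hx (by linarith) (by linarith) h1, geob_le hk hx hy (by linarith) (by linarith) h2⟩

end Crest.Agent.R335
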