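import Crest.Agent.R335.Geob

/-!
# R335/Geo: elementary geometry of `ℝ³`, concrete splittings of `ℝ⁶` and `ℝ⁹`
-/

set_option autoImplicit false

namespace Crest.Agent.R335

open MeasureTheory Set Filter Topology
open scoped Gradient RealInnerProductSpace ENNReal ContDiff
open Crest.MathPhysics.ThreeBody

@[simp] theorem pos2_mk2_0 (a b : E3) : pos2 0 (mk2 a b) = a := rfl
@[simp] theorem pos2_mk2_1 (a b : E3) : pos2 1 (mk2 a b) = b := rfl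
@[simp] theorem elPos_mk3_0 (a b c : E3) : elPos 0 (mk3 a b c) = a := rfl
@[simp] theorem elPos_mk3_1 (a b c : E3) : elPos 1 (mk3 a b c) = b := rfl
@[simp] theorem elPos_mk3_2 (a b c : E3) : elPos 2 (mk3 a b c) = c := rfl

theorem mk2_pos2 (y : E6) : mk2 (pos2 0 y) (pos2 1 y) = y := by
  ext ⟨i, c⟩
  fin_cases i <;> rfl

theorem mk3_elPos (X : E9) : mk3 (elPos 0 X) (elPos 1 X) (elPos 2 X) = X := by
  ext ⟨i, c⟩
  fin_cases i <;> rfl

theorem geoc_ext2 {y y' : E6} (h0 : pos2 0 y = pos2 0 y') (h1 : pos2 1 y = pos2 1 y') : y = y' := by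
  rw [← mk2_pos2 y, h0, h1, mk2_pos2]

theorem geoc_ext3 {X X' : E9} (h0 : elPos 0 X = elPos 0 X') (h1 : elPos 1 X = elPos 1 X')
    (h2 : elPos 2 X = elPos 2 X') : X = X' := by
  rw [← mk3_elPos X, h0, h1, h2, mk3_elPos]

theorem geoc_pos2_add (i : Fin 2) (y y' : E6) : pos2 i (y + y') = pos2 i y + pos2 i y' := rfl
theorem geoc_pos2_smul (i : Fin 2) (c : ℝ) (y : E6) : pos2 i (c • y) = c • pos2 i y := rfl
theorem geoc_pos2_zero (i : Fin 2) : pos2 i 0 = 0 := rfl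
theorem geoc_elPos_add (i : Fin 3) (X X' : E9) : elPos i (X + X') = elPos i X + elPos i X' := rfl
theorem geoc_elPos_smul (i : Fin 3) (c : ℝ) (X : E9) : elPos i (c • X) = c • elPos i X := rfl
theorem geoc_elPos_zero (i : Fin 3) : elPos i 0 = 0 := rfl

theorem geoc_mk2_add (a b a' b' : E3) : mk2 (a + a') (b + b') = mk2 a b + mk2 a' b' :=
  geoc_ext2 rfl rfl

theorem geoc_mk2_smul (c : ℝ) (a b : E3) : mk2 (c • a) (c • b) = c • mk2 a b :=
  geoc_ext2 rfl rfl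

theorem geoc_mk3_add (a b d a' b' d' : E3) : mk3 (a + a') (b + b') (d + d') = mk3 a b d + mk3 a' b' d' :=
  geoc_ext3 rfl rfl rfl

theorem geoc_mk3_smul (c : ℝ) (a b d : E3) : mk3 (c • a) (c • b) (c • d) = c • mk3 a b d :=
  geoc_ext3 rfl rfl rfl

theorem geoc_mk2_zero : mk2 0 0 = 0 := geoc_ext2 rfl rfl

theorem geoc_inner2 (x y : E6) : ⟪x, y⟫ = ⟪pos2 0 x, pos2 0 y⟫ + ⟪pos2 1 x, pos2 1 y⟫ := by
  simp only [PiLp.inner_apply, Fintype.sum_prod_type, Fin.sum_univ_two]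
  rfl

theorem geoc_inner3 (x y : E9) :
    ⟪x, y⟫ = ⟪elPos 0 x, elPos 0 y⟫ + ⟪elPos 1 x, elPos 1 y⟫ + ⟪elPos 2 x, elPos 2 y⟫ := by
  simp only [PiLp.inner_apply, Fintype.sum_prod_type]
  rw [Fin.sum_univ_three]
  rfl

theorem geoc_norm2 (y : E6) : ‖y‖ ^ 2 = ‖pos2 0 y‖ ^ 2 + ‖pos2 1 y‖ ^ 2 := by
  simp only [← real_inner_self_eq_norm_sq]
  exact geoc_inner2 y y

theorem geoc_norm3 (X : E9) : ‖X‖ ^ 2 = ‖elPos 0 X‖ ^ 2 + ‖elPos 1 X‖ ^ 2 + ‖elPos 2 X‖ ^ 2 := by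
  simp only [← real_inner_self_eq_norm_sq]
  exact geoc_inner3 X X

/-- a continuous linear map from an additive, homogeneous function -/
noncomputable def geoc_clm {A B : Type} [NormedAddCommGroup A] [InnerProductSpace ℝ A] [FiniteDimensional ℝ A]
    [NormedAddCommGroup B] [InnerProductSpace ℝ B] (f : A → B) (ha : ∀ x y, f (x + y) = f x + f y)
    (hs : ∀ (c : ℝ) x, f (c • x) = c • f x) : A →L[ℝ] B :=
  LinearMap.toContinuousLinearMap { toFun := f, map_add' := ha, map_smul' := hs }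

@[simp] theorem geoc_clm_apply {A B : Type} [NormedAddCommGroup A] [InnerProductSpace ℝ A] [FiniteDimensional ℝ A]
    [NormedAddCommGroup B] [InnerProductSpace ℝ B] (f : A → B) (ha : ∀ x y, f (x + y) = f x + f y)
    (hs : ∀ (c : ℝ) x, f (c • x) = c • f x) (x : A) : geoc_clm f ha hs x = f x := rfl

theorem geoc_iso {A : Type} [NormedAddCommGroup A] [InnerProductSpace ℝ A] (f g : A → A)
    (ha : ∀ x y, f (x + y) = f x + f y) (hs : ∀ (c : ℝ) x, f (c • x) = c • f x)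
    (h1 : ∀ x, g (f x) = x) (h2 : ∀ x, f (g x) = x) (hn : ∀ x, ‖f x‖ ^ 2 = ‖x‖ ^ 2) :
    ∃ T : A ≃ₗᵢ[ℝ] A, (∀ x, T x = f x) ∧ ∀ x, T.symm x = g x :=
  ⟨{ toFun := f, map_add' := ha, map_smul' := hs, invFun := g, left_inv := h1, right_inv := h2,
     norm_map' := fun x => (pow_left_inj₀ (norm_nonneg _) (norm_nonneg _) two_ne_zero).1 (hn x) },
    fun _ => rfl, fun _ => rfl⟩

/-- a splitting from plain functions -/
theorem geoc_spl {A B E : Type} [NormedAddCommGroup A] [InnerProductSpace ℝ A] [FiniteDimensional ℝ A]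
    [NormedAddCommGroup B] [InnerProductSpace ℝ B] [FiniteDimensional ℝ B]
    [NormedAddCommGroup E] [InnerProductSpace ℝ E] [FiniteDimensional ℝ E]
    (j : A → B → E) (p1 : E → A) (p2 : E → B)
    (ja : ∀ a b a' b', j (a + a') (b + b') = j a b + j a' b') (js : ∀ (c : ℝ) a b, j (c • a) (c • b) = c • j a b)
    (p1a : ∀ x y, p1 (x + y) = p1 x + p1 y) (p1s : ∀ (c : ℝ) x, p1 (c • x) = c • p1 x)
    (p2a : ∀ x y, p2 (x + y) = p2 x + p2 y) (p2s : ∀ (c : ℝ) x, p2 (c • x) = c • p2 x)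
    (h1 : ∀ a b, p1 (j a b) = a) (h2 : ∀ a b, p2 (j a b) = b) (h3 : ∀ x, j (p1 x) (p2 x) = x)
    (inn : ∀ x y, ⟪x, y⟫ = ⟪p1 x, p1 y⟫ + ⟪p2 x, p2 y⟫) :
    ∃ s : Spl A B E, (∀ x, s.p1 x = p1 x) ∧ (∀ x, s.p2 x = p2 x) ∧ ∀ a b, s.j a b = j a b := by
  have hj : ∀ a b, j a 0 + j 0 b = j a b := fun a b => by rw [← ja, add_zero, zero_add]
  refine ⟨{ i1 := geoc_clm (fun a => j a 0) (fun a a' => by rw [← ja, add_zero])
              (fun c a => by rw [← js, smul_zero])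
            i2 := geoc_clm (fun b => j 0 b) (fun b b' => by rw [← ja, add_zero])
              (fun c b => by rw [← js, smul_zero])
            p1 := geoc_clm p1 p1a p1s
            p2 := geoc_clm p2 p2a p2s
            p1_i1 := fun a => h1 a 0
            p1_i2 := fun b => h1 0 b
            p2_i1 := fun a => h2 a 0
            p2_i2 := fun b => h2 0 b
            sum := fun x => (hj _ _).trans (h3 x)
            inn := inn }, fun _ => rfl, fun _ => rfl, fun a b => hj a b⟩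

theorem norm_sq_mk2 (a b : E3) : ‖mk2 a b‖ ^ 2 = ‖a‖ ^ 2 + ‖b‖ ^ 2 := by
  exact geoc_norm2 (mk2 a b)

theorem norm_sq_mk3 (a b c : E3) : ‖mk3 a b c‖ ^ 2 = ‖a‖ ^ 2 + ‖b‖ ^ 2 + ‖c‖ ^ 2 := by
  exact geoc_norm3 (mk3 a b c)

/-- `ℝ⁶ = ℝ³ ⊕ ℝ³`, electron `i` first -/
theorem exists_spl2 (i : Fin 2) : ∃ s : Spl E3 E3 E6, (∀ y, s.p1 y = pos2 i y) ∧ (∀ y, s.p2 y = pos2 (i + 1) y) ∧
    ∀ a b, s.j a b = if i = 0 then mk2 a b else mk2 b a := by
  fin_cases i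
  · obtain ⟨s, h1, h2, h3⟩ := geoc_spl mk2 (pos2 0) (pos2 1) geoc_mk2_add geoc_mk2_smul (geoc_pos2_add 0)
      (geoc_pos2_smul 0) (geoc_pos2_add 1) (geoc_pos2_smul 1) (fun _ _ => rfl) (fun _ _ => rfl) mk2_pos2 geoc_inner2
    exact ⟨s, h1, h2, fun a b => h3 a b⟩
  · obtain ⟨s, h1, h2, h3⟩ := geoc_spl (fun a b => mk2 b a) (pos2 1) (pos2 0)
      (fun _ _ _ _ => geoc_mk2_add _ _ _ _) (fun _ _ _ => geoc_mk2_smul _ _ _) (geoc_pos2_add 1)
      (geoc_pos2_smul 1) (geoc_pos2_add 0) (geoc_pos2_smul 0) (fun _ _ => rfl) (fun _ _ => rfl) mk2_pos2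
      (fun x y => (geoc_inner2 x y).trans (add_comm _ _))
    exact ⟨s, h1, h2, fun a b => h3 a b⟩

/-- `ℝ⁹ = ℝ³ ⊕ ℝ⁶`, electron `i` first, the other two in their order -/
theorem exists_spl3 (i : Fin 3) : ∃ s : Spl E3 E6 E9, (∀ X, s.p1 X = elPos i X) ∧
    (∀ X, s.p2 X = mk2 (elPos (i.succAbove 0) X) (elPos (i.succAbove 1) X)) ∧
    (i = 0 → ∀ a y, s.j a y = at0 a y) ∧ (i = 1 → ∀ a y, s.j a y = mk3 (pos2 0 y) a (pos2 1 y)) ∧
    (i = 2 → ∀ a y, s.j a y = at2 a y) := by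
  fin_cases i
  · obtain ⟨s, h1, h2, h3⟩ := geoc_spl at0 (elPos 0) (fun X => mk2 (elPos 1 X) (elPos 2 X))
      (fun _ _ _ _ => geoc_ext3 rfl rfl rfl) (fun _ _ _ => geoc_ext3 rfl rfl rfl) (geoc_elPos_add 0)
      (geoc_elPos_smul 0) (fun _ _ => geoc_ext2 rfl rfl) (fun _ _ => geoc_ext2 rfl rfl) (fun _ _ => rfl)
      (fun _ y => mk2_pos2 y) mk3_elPos
      (fun x y => by rw [geoc_inner3, geoc_inner2, add_assoc]; rfl)
    exact ⟨s, h1, h2, fun _ => h3, fun h => absurd h (by decide), fun h => absurd h (by decide)⟩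
  · obtain ⟨s, h1, h2, h3⟩ := geoc_spl (fun a y => mk3 (pos2 0 y) a (pos2 1 y)) (elPos 1)
      (fun X => mk2 (elPos 0 X) (elPos 2 X))
      (fun _ _ _ _ => geoc_ext3 rfl rfl rfl) (fun _ _ _ => geoc_ext3 rfl rfl rfl) (geoc_elPos_add 1)
      (geoc_elPos_smul 1) (fun _ _ => geoc_ext2 rfl rfl) (fun _ _ => geoc_ext2 rfl rfl) (fun _ _ => rfl)
      (fun _ y => mk2_pos2 y) mk3_elPos
      (fun x y => by rw [geoc_inner3, geoc_inner2, ← add_assoc, add_comm ⟪elPos 0 x, elPos 0 y⟫]; rfl)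
    exact ⟨s, h1, h2, fun h => absurd h (by decide), fun _ => h3, fun h => absurd h (by decide)⟩
  · obtain ⟨s, h1, h2, h3⟩ := geoc_spl at2 (elPos 2) (fun X => mk2 (elPos 0 X) (elPos 1 X))
      (fun _ _ _ _ => geoc_ext3 rfl rfl rfl) (fun _ _ _ => geoc_ext3 rfl rfl rfl) (geoc_elPos_add 2)
      (geoc_elPos_smul 2) (fun _ _ => geoc_ext2 rfl rfl) (fun _ _ => geoc_ext2 rfl rfl) (fun _ _ => rfl)
      (fun _ y => mk2_pos2 y) mk3_elPos
      (fun x y => by rw [geoc_inner3, geoc_inner2, add_comm]; rfl)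
    exact ⟨s, h1, h2, fun h => absurd h (by decide), fun h => absurd h (by decide), fun _ => h3⟩

theorem exists_sw2 : ∃ T : E6 ≃ₗᵢ[ℝ] E6, (∀ y, T y = sw2 y) ∧ ∀ y, T.symm y = sw2 y := by
  refine geoc_iso sw2 sw2 (fun _ _ => geoc_ext2 rfl rfl) (fun _ _ => geoc_ext2 rfl rfl) mk2_pos2 mk2_pos2
    fun y => ?_
  rw [geoc_norm2 y, sw2, norm_sq_mk2, add_comm]

theorem exists_sw3 : ∃ T : E9 ≃ₗᵢ[ℝ] E9, (∀ X, T X = sw3 X) ∧ ∀ X, T.symm X = sw3 X := by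
  refine geoc_iso sw3 sw3 (fun _ _ => geoc_ext3 rfl rfl rfl) (fun _ _ => geoc_ext3 rfl rfl rfl) mk3_elPos mk3_elPos
    fun X => ?_
  rw [geoc_norm3 X, sw3, norm_sq_mk3, add_comm (‖elPos 1 X‖ ^ 2)]

theorem exists_perm3 (σ : Equiv.Perm (Fin 3)) : ∃ T : E9 ≃ₗᵢ[ℝ] E9, ∀ X, T X = permConfig σ X := by
  obtain ⟨T, h, -⟩ := geoc_iso (A := E9) (permConfig σ) (permConfig σ⁻¹) (fun _ _ => rfl) (fun _ _ => rfl)
    (fun X => by ext ⟨i, c⟩; simp [permConfig]) (fun X => by ext ⟨i, c⟩; simp [permConfig]) (fun X => by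
      simp only [EuclideanSpace.real_norm_sq_eq, Fintype.sum_prod_type]
      exact Equiv.sum_comp σ fun i => ∑ c, X (i, c) ^ 2)
  exact ⟨T, h⟩

theorem exists_dg2 (T : E3 ≃ₗᵢ[ℝ] E3) : ∃ T' : E6 ≃ₗᵢ[ℝ] E6, (∀ y, T' y = dg2 T y) ∧ ∀ y, T'.symm y = dg2 T.symm y := by
  refine geoc_iso (dg2 T) (dg2 T.symm)
    (fun x y => geoc_ext2 (T.map_add (pos2 0 x) (pos2 0 y)) (T.map_add (pos2 1 x) (pos2 1 y)))
    (fun c y => geoc_ext2 (T.map_smul c (pos2 0 y)) (T.map_smul c (pos2 1 y)))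
    (fun _ => geoc_ext2 (T.symm_apply_apply _) (T.symm_apply_apply _))
    (fun _ => geoc_ext2 (T.apply_symm_apply _) (T.apply_symm_apply _)) fun y => ?_
  rw [geoc_norm2 y, dg2, norm_sq_mk2, T.norm_map, T.norm_map]

theorem exists_dg3 (T : E3 ≃ₗᵢ[ℝ] E3) : ∃ T' : E9 ≃ₗᵢ[ℝ] E9, (∀ X, T' X = dg3 T X) ∧ ∀ X, T'.symm X = dg3 T.symm X := by
  refine geoc_iso (dg3 T) (dg3 T.symm)
    (fun X Y => geoc_ext3 (T.map_add (elPos 0 X) (elPos 0 Y)) (T.map_add (elPos 1 X) (elPos 1 Y))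
      (T.map_add (elPos 2 X) (elPos 2 Y)))
    (fun c X => geoc_ext3 (T.map_smul c (elPos 0 X)) (T.map_smul c (elPos 1 X)) (T.map_smul c (elPos 2 X)))
    (fun _ => geoc_ext3 (T.symm_apply_apply _) (T.symm_apply_apply _) (T.symm_apply_apply _))
    (fun _ => geoc_ext3 (T.apply_symm_apply _) (T.apply_symm_apply _) (T.apply_symm_apply _)) fun X => ?_
  rw [geoc_norm3 X, dg3, norm_sq_mk3, T.norm_map, T.norm_map, T.norm_map]

end Crest.Agent.R335
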