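import Crest.Agent.R335.Gf1a

/-!
# R335/Gf1: the angle is in `H¹_loc`, the Wronskian field is divergence free
-/

set_option autoImplicit false

namespace Crest.Agent.R335

open MeasureTheory Set Filter Topology
open scoped Gradient RealInnerProductSpace ENNReal ContDiff
open Crest.MathPhysics.ThreeBody

variable {k b L C c e1 e2 : ℝ} {R d V0 S v φ u ψ : E3 → ℝ} {GR Gd Gφ Gu Gψ : E3 → E3}

/-- `H1.norm_sum` for the family `![u, ψ]` -/
theorem Red.exists_G2 (h : Red k b L C c R GR d Gd V0 S v e1 e2 φ Gφ u Gu ψ Gψ) : ∃ G2 : E3 → E3, H1 (Rtwo u ψ) G2 ∧ ∀ᵐ x, Rtwo u ψ x • G2 x = u x • Gu x + ψ x • Gψ x := by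
  exact ⟨_, s4_two h.ou.orb.eig.h1 h.oψ.eig.h1, Eventually.of_forall fun x => s4_two_smul _ _ _ _⟩

/-- `H1.norm_sum` for `![√2 φ, u, ψ]`, `Red.dens`, `Tail.R0`, `H1.unique` -/
theorem Red.grad_R (h : Red k b L C c R GR d Gd V0 S v e1 e2 φ Gφ u Gu ψ Gψ) : ∀ᵐ x, R x • GR x = (2 * φ x) • Gφ x + u x • Gu x + ψ x • Gψ x := by
  obtain ⟨G2, h1, h2⟩ := h.exists_G2
  have h3 := s4_two (h.oφ.eig.h1.const_mul √2) h1
  have e2 : √2 * √2 = 2 := Real.mul_self_sqrt (by norm_num)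
  have e : ∀ᵐ x, R x = √((√2 * φ x) ^ 2 + Rtwo u ψ x ^ 2) := by
    filter_upwards [h.dens] with x hx
    rw [Rtwo, Real.sq_sqrt (by positivity), mul_pow, sq √2, e2, ← add_assoc, ← hx,
      Real.sqrt_sq (h.tail.R0 x)]
  filter_upwards [e, h2, h.tail.hR.unique h3 e] with x a1 a2 a3
  rw [a3, a1, s4_two_smul, a2, smul_smul, add_assoc]
  congr 2
  rw [mul_right_comm, e2]

end Crest.Agent.R335
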