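import Crest.Agent.R335.Ge

/-!
# R335/Gf1: the angle is in `H¹_loc`, the Wronskian field is divergence free
-/

set_option autoImplicit false

namespace Crest.Agent.R335

open MeasureTheory Set Filter Topology
open scoped Gradient RealInnerProductSpace ENNReal ContDiff
open Crest.MathPhysics.ThreeBody

variable {k b L C c e1 e2 : ℝ} {R d V0 S v φ u ψ : E3 → ℝ} {GR Gd Gφ Gu Gψ : E3 → E3}

theorem gf1a_sub : upA ⊆ offA := fun _ hx => hx.1

/-- `H1loc.div` (`Orb.bl`, `u` is continuous and positive on `upA`), `H1loc.comp_lip` with `arctan`, `H1loc.congr` -/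
theorem Red.ang_loc (h : Red k b L C c R GR d Gd V0 S v e1 e2 φ Gφ u Gu ψ Gψ) : H1loc upA (ang u ψ) (Gang u ψ Gu Gψ) := by
  have hu : ContinuousOn u upA := h.ou.orb.cont.mono gf1a_sub
  have hψ : ContinuousOn ψ upA := h.oψ.cont.mono gf1a_sub
  have h1 := H1loc.div isOpen_upA (h.oψ.eig.h1.loc upA) (h.ou.orb.eig.h1.loc upA) (Bl.of_continuousOn hψ)
    (Bl.of_continuousOn hu) fun K hK hs => by
      rcases K.eq_empty_or_nonempty with rfl | hne
      · exact ⟨1, one_pos, Eventually.of_forall fun x hx => hx.elim⟩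
      · obtain ⟨x₀, hx₀, hm⟩ := hK.exists_isMinOn hne (hu.mono hs)
        exact ⟨u x₀, (h.u_posG (hs hx₀)).1, Eventually.of_forall fun x hx => hm hx⟩
  have h2 := h1.comp_lip isOpen_upA (h := Real.arctan) Real.contDiff_arctan (L := 1) fun t => by
    rw [Real.deriv_arctan, abs_of_pos (by positivity), div_le_one (by positivity)]
    nlinarith [sq_nonneg t]
  refine h2.congr (Eventually.of_forall fun x hx => ⟨rfl, ?_⟩)
  have hp := (h.u_posG hx).1
  have hq : 0 < u x ^ 2 + ψ x ^ 2 := by positivity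
  simp only [Real.deriv_arctan, Gang, smul_sub, smul_smul]
  congr 2
  · field_simp
  · field_simp

/-- test the equation of `ψ` with `ξ u` and the equation of `u` with `ξ ψ` (`TH.mul_loc`), subtract -/
theorem Red.wronsk (h : Red k b L C c R GR d Gd V0 S v e1 e2 φ Gφ u Gu ψ Gψ) {ξ : E3 → ℝ} {K : E3 → E3} (hξ : TH upA ξ K) (hb : Bl upA ξ) :
    ∫ x, ⟪u x • Gψ x - ψ x • Gu x, K x⟫ = 0 := by
  have hu : ContinuousOn u upA := h.ou.orb.cont.mono gf1a_sub
  have hψ : ContinuousOn ψ upA := h.oψ.cont.mono gf1a_sub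
  have A := hξ.mul_loc isOpen_upA (h.ou.orb.eig.h1.loc upA) hb (Bl.of_continuousOn hu)
  have B := hξ.mul_loc isOpen_upA (h.oψ.eig.h1.loc upA) hb (Bl.of_continuousOn hψ)
  have a1 := h.oψ.eig.eq _ _ A.h1
  have a2 := h.ou.orb.eig.eq _ _ B.h1
  unfold bf ip at a1 a2
  have e1 : ∀ x, u x * (ξ x * ψ x) = ψ x * (ξ x * u x) := fun x => by ring
  simp only [e1] at a2
  have e2 : (∫ x, ⟪Gψ x, ξ x • Gu x + u x • K x⟫) - ∫ x, ⟪Gu x, ξ x • Gψ x + ψ x • K x⟫ = 0 := by linarith
  rw [← integral_sub (h.oψ.eig.h1.int_inner A.h1) (h.ou.orb.eig.h1.int_inner B.h1)] at e2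
  rw [← e2]
  congr 1
  funext x
  simp only [inner_add_right, inner_sub_left, real_inner_smul_left, real_inner_smul_right]
  rw [real_inner_comm (Gu x) (Gψ x)]
  ring

end Crest.Agent.R335
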