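import Crest.Agent.R335.Gf1

/-!
# R335/Gf2: `Δ(a R₂) = a ΔR₂` weakly.
`U = a R₂ ∈ H¹_loc(upA)` with gradient `a G2 + R₂ Ga` (`H1loc.mul`), `H1loc.green`.  `Red.wronsk` with `ξ = T / R₂` (`H1loc.div` of `1` by `R₂`, or `H1loc.comp` with `t⁻¹`;
`H1loc.th_mul`), gradient `∇T / R₂ - T G2 / R₂²`; since `u Gψ - ψ Gu = R₂² Ga` on `upA` this gives `∫ R₂ ⟪Ga, ∇T⟫ = ∫ T ⟪Ga, G2⟫`.
-/

set_option autoImplicit false

namespace Crest.Agent.R335

open MeasureTheory Set Filter Topology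
open scoped Gradient RealInnerProductSpace ENNReal ContDiff
open Crest.MathPhysics.ThreeBody

variable {k b L C c e1 e2 : ℝ} {R d V0 S v φ u ψ : E3 → ℝ} {GR Gd Gφ Gu Gψ : E3 → E3}

theorem gf2_open : IsOpen upA :=
  (isOpen_lt continuous_const continuous_cyl).inter
    (isOpen_lt continuous_const (by fun_prop : Continuous fun x : E3 => x 2))

theorem gf2_pt {r a t : ℝ} (hr : r ≠ 0) (A B D : E3) :
    ⟪a • B + r • A, D⟫ - ⟪B, t • A + a • D⟫ =
      ⟪r ^ 2 • A, t • (r⁻¹ • (0 : E3) - (1 / r ^ 2) • B) + (1 / r) • D⟫ := by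
  simp only [inner_add_left, inner_add_right, inner_sub_right, real_inner_smul_left, real_inner_smul_right,
    smul_zero, inner_zero_right, real_inner_comm A B]
  field_simp
  ring

theorem Red.ang_id (h : Red k b L C c R GR d Gd V0 S v e1 e2 φ Gφ u Gu ψ Gψ) {G2 : E3 → E3} (h2 : H1 (Rtwo u ψ) G2) {T : E3 → ℝ} (hT : ContDiff ℝ 2 T)
    (hc : HasCompactSupport T) (hs : tsupport T ⊆ upA) :
    TH upA (fun x => T x * ang u ψ x) (fun x => T x • Gang u ψ Gu Gψ x + ang u ψ x • ∇ T x) ∧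
      ∫ x, ang u ψ x * Rtwo u ψ x * lap T x = -∫ x, ⟪G2 x, T x • Gang u ψ Gu Gψ x + ang u ψ x • ∇ T x⟫ := by
  have hT1 : ContDiff ℝ 1 T := hT.of_le (by norm_num)
  have ha := h.ang_loc
  have hR := h2.loc upA
  obtain ⟨ca, cR⟩ := h.cont_ang
  have hpos : ∀ x ∈ upA, 0 < Rtwo u ψ x := fun x hx => (h.u_posG hx).1.trans_le (h.u_posG hx).2.1
  have h1 := ha.th_mul gf2_open hT1 hc hs
  refine ⟨h1, ?_⟩
  have hU := ha.mul gf2_open hR (Bl.of_continuousOn ca) (Bl.of_continuousOn cR)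
  have hg := hU.green gf2_open hT hc hs
  have hi := (H1loc.const (Ω := upA) 1).div gf2_open hR (Bl.of_continuousOn continuousOn_const)
    (Bl.of_continuousOn cR) fun C hC hCs => by
      obtain ⟨m, hm, hm'⟩ := hC.exists_forall_le' (cR.mono hCs) fun x hx => hpos x (hCs hx)
      exact ⟨m, hm, Eventually.of_forall hm'⟩
  have hw := h.wronsk (hi.th_mul gf2_open hT1 hc hs) (Bl.of_continuousOn
    (hT.continuous.continuousOn.mul (continuousOn_const.div cR fun x hx => (hpos x hx).ne')))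
  have iA := h2.int_inner h1.h1
  obtain ⟨f', G', W, hTH, -, hW, -, heq, -⟩ := hU.exists_h1 gf2_open hc.isCompact hs
  have iL : Integrable fun x => ⟪ang u ψ x • G2 x + Rtwo u ψ x • Gang u ψ Gu Gψ x, ∇ T x⟫ := by
    refine (hTH.h1.int_inner (H1.of_c1_cpt hT1 hc)).congr (Eventually.of_forall fun x => ?_)
    by_cases hx : x ∈ tsupport T
    · simp only [(heq x (hW hx)).2]
    · simp only [(s6a_out hx).2, inner_zero_right]
  have e : ∫ x, (⟪ang u ψ x • G2 x + Rtwo u ψ x • Gang u ψ Gu Gψ x, ∇ T x⟫ -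
      ⟪G2 x, T x • Gang u ψ Gu Gψ x + ang u ψ x • ∇ T x⟫) = 0 := by
    rw [← hw]
    refine integral_congr_ae (Eventually.of_forall fun x => ?_)
    by_cases hx : x ∈ tsupport T
    · have h3 := hpos x (hs hx)
      have h4 : Rtwo u ψ x ^ 2 = u x ^ 2 + ψ x ^ 2 := Real.sq_sqrt (by positivity)
      have h5 : u x • Gψ x - ψ x • Gu x = Rtwo u ψ x ^ 2 • Gang u ψ Gu Gψ x := by
        rw [Gang, ← h4, smul_inv_smul₀ (by positivity)]
      simp only [h5]
      exact gf2_pt h3.ne' _ _ _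
    · simp only [(s6a_out hx).1, (s6a_out hx).2, inner_zero_right, zero_smul, smul_zero, add_zero, sub_zero]
  rw [integral_sub iL iA] at e
  linarith

end Crest.Agent.R335
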