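import Crest.Agent.R335.Ge

/-!
# R335/Gf3: the defect of the Kato inequality.
`ν(ξ) = -∫ ⟪GR, K⟫ - 2 ∫ (V0 - C/r⁴) R ξ ≥ 0` for `ξ ≥ 0` (`Tail.sub`); apply it to `m ± ξ` (`TH.of_c1`, `TH.add`, `TH.const_mul`): `|ν(ξ)| ≤ ν(m)`.  `H1.green` for `R` and `d`, `Tail.eqd`:
`ν(m) = ∫ (R - d)(lap m - 2 V0 m) - 2 ∫ S m + 2 C ∫ R m/r⁴`.  Integrability: `V0`, `r⁻⁴` are bounded on `far L` (`Tail.V0_le`), `S` is bounded on compact subsets of `far L` (`Tail.Sle`).
-/

set_option autoImplicit false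

namespace Crest.Agent.R335

open MeasureTheory Set Filter Topology
open scoped Gradient RealInnerProductSpace ENNReal ContDiff
open Crest.MathPhysics.ThreeBody

variable {k b L C c e1 e2 : ℝ} {R d V0 S v φ u ψ : E3 → ℝ} {GR Gd Gφ Gu Gψ : E3 → E3}

theorem gf3_int {V f η : E3 → ℝ} {M : ℝ} (hV : Measurable V) (hM : ∀ x, L < ‖x‖ → |V x| ≤ M)
    (hf : MemLp f 2 volume) (hη : MemLp η 2 volume) (hz : ∀ x, x ∉ far L → η x = 0) :
    Integrable fun x => V x * (f x * η x) := by
  have h1 : Integrable fun x => f x * η x := hf.integrable_mul hη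
  refine (h1.norm.const_mul M).mono' (hV.aestronglyMeasurable.mul h1.1) (Eventually.of_forall fun x => ?_)
  by_cases hx : x ∈ far L
  · rw [norm_mul]
    exact mul_le_mul_of_nonneg_right (hM x hx) (norm_nonneg _)
  · simp [hz x hx]

theorem gf3_S (h : Tail k b L C c R GR d Gd V0 S) {m : E3 → ℝ} (hm : Continuous m)
    (hc : HasCompactSupport m) (hs : tsupport m ⊆ far L) : Integrable fun x => S x * m x := by
  have h0 : ∀ x ∈ tsupport m, x ≠ 0 := fun x hx h1 => by
    have h2 : L < ‖x‖ := hs hx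
    rw [h1, norm_zero] at h2
    linarith [h.Lge]
  have hco : ContinuousOn (fun x : E3 => C * (1 + |x 2|) / ‖x‖ ^ 4 * gfun k b x) (tsupport m) := by
    refine ContinuousOn.mul (ContinuousOn.div (by fun_prop) (by fun_prop) fun x hx => ?_)
      ((continuousOn_gfun k b).mono h0)
    exact pow_ne_zero _ (norm_ne_zero_iff.2 (h0 x hx))
  obtain ⟨M, hM⟩ := hc.isCompact.exists_bound_of_continuousOn hco
  have h1 : Integrable m := hm.integrable_of_hasCompactSupport hc
  refine (h1.norm.const_mul M).mono' (h.mS.aestronglyMeasurable.mul h1.1) ?_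
  filter_upwards [h.Sle] with x hx
  by_cases hx' : x ∈ tsupport m
  · rw [norm_mul]
    exact mul_le_mul_of_nonneg_right ((hx (hs hx')).trans ((le_abs_self _).trans (hM x hx')))
      (norm_nonneg _)
  · simp [image_eq_zero_of_notMem_tsupport hx']

theorem Tail.nu_le (h : Tail k b L C c R GR d Gd V0 S) {ξ m : E3 → ℝ} {K : E3 → E3} (hξ : TH (far L) ξ K)
    (hm : ContDiff ℝ 2 m) (hc : HasCompactSupport m) (hs : tsupport m ⊆ far L) (hle : ∀ x, |ξ x| ≤ m x) :
    Integrable (Ethree C R d V0 S m) ∧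
      |(∫ x, ⟪GR x, K x⟫) + ∫ x, 2 * V0 x * (R x * ξ x)| ≤ ∫ x, Ethree C R d V0 S m x := by
  obtain ⟨M, hM0, hM⟩ := h.V0_le
  have hC0 : 0 ≤ C := zero_le_one.trans h.Cge
  have hm1 : ContDiff ℝ 1 m := hm.of_le (by norm_num)
  have hmT : TH (far L) m (∇ m) := TH.of_c1 hm1 hc hs
  have hm0 : ∀ x, 0 ≤ m x := fun x => (abs_nonneg _).trans (hle x)
  have hmz : ∀ x, x ∉ far L → m x = 0 := fun x hx =>
    image_eq_zero_of_notMem_tsupport fun h' => hx (hs h')
  have hξz : ∀ x, x ∉ far L → ξ x = 0 := fun x hx => by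
    have := hle x
    rw [hmz x hx] at this
    exact abs_nonpos_iff.1 this
  have hlz : ∀ x, x ∉ tsupport m → lap m x = 0 := fun x hx => by
    rw [s7_lap_congr (notMem_tsupport_iff_eventuallyEq.1 hx)]
    exact s7_lap_zero x
  have hlap : MemLp (lap m) 2 volume :=
    (Crest.Agent.R83.continuous_lap hm).memLp_of_hasCompactSupport
      (HasCompactSupport.intro hc hlz)
  have hWm : Measurable fun x : E3 => C / ‖x‖ ^ 4 := by fun_prop
  have hW0 : ∀ x : E3, 0 ≤ C / ‖x‖ ^ 4 := fun x => by positivity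
  have hW : ∀ x : E3, L < ‖x‖ → |C / ‖x‖ ^ 4| ≤ C := fun x hx => by
    rw [abs_of_nonneg (hW0 x)]
    exact div_le_self hC0 (one_le_pow₀ (h.Lge.trans hx.le))
  have aRm := gf3_int h.mV hM h.hR.mf hmT.h1.mf hmz
  have aRξ := gf3_int h.mV hM h.hR.mf hξ.h1.mf hξz
  have adm := gf3_int h.mV hM h.hd.mf hmT.h1.mf hmz
  have wRm := gf3_int hWm hW h.hR.mf hmT.h1.mf hmz
  have wRξ := gf3_int hWm hW h.hR.mf hξ.h1.mf hξz
  have lR : Integrable fun x => R x * lap m x := h.hR.mf.integrable_mul hlap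
  have ld : Integrable fun x => d x * lap m x := h.hd.mf.integrable_mul hlap
  have iS : Integrable fun x => S x * m x := gf3_S h hm.continuous hc hs
  have gR := h.hR.int_inner hmT.h1
  have gξ := h.hR.int_inner hξ.h1
  -- the three pieces of `Ethree`
  have i1 : Integrable fun x => (R x - d x) * (lap m x - 2 * V0 x * m x) := by
    refine ((lR.sub ld).sub ((aRm.sub adm).const_mul 2)).congr (Eventually.of_forall fun x => ?_)
    simp only [Pi.sub_apply]
    ring
  have i1' : Integrable fun x => |R x - d x| * |lap m x - 2 * V0 x * m x| := by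
    refine i1.abs.congr (Eventually.of_forall fun x => ?_)
    simp only [abs_mul]
  have i2' : Integrable fun x => 2 * |S x| * m x := by
    refine (iS.abs.const_mul 2).congr (Eventually.of_forall fun x => ?_)
    simp only [abs_mul, abs_of_nonneg (hm0 x)]
    ring
  have i3' : Integrable fun x => 4 * C * (R x * m x / ‖x‖ ^ 4) := by
    refine (wRm.const_mul 4).congr (Eventually.of_forall fun x => ?_)
    simp only
    ring
  have i12 : Integrable fun x => |R x - d x| * |lap m x - 2 * V0 x * m x| + 2 * |S x| * m x :=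
    i1'.add i2'
  refine ⟨i12.add i3', ?_⟩
  have eE : ∫ x, Ethree C R d V0 S m x = (∫ x, |R x - d x| * |lap m x - 2 * V0 x * m x|)
      + (∫ x, 2 * |S x| * m x) + 4 * ∫ x, C / ‖x‖ ^ 4 * (R x * m x) := by
    unfold Ethree
    rw [integral_add i12 i3', integral_add i1' i2', ← integral_const_mul]
    congr 1
    exact integral_congr_ae (Eventually.of_forall fun x => by simp only; ring)
  -- the Kato inequality for `m ± ξ`
  have kato : ∀ s : ℝ, |s| = 1 →
      (1 / 2) * ((∫ x, ⟪GR x, ∇ m x⟫) + s * ∫ x, ⟪GR x, K x⟫) +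
        (((∫ x, V0 x * (R x * m x)) - ∫ x, C / ‖x‖ ^ 4 * (R x * m x)) +
          s * ((∫ x, V0 x * (R x * ξ x)) - ∫ x, C / ‖x‖ ^ 4 * (R x * ξ x))) ≤ 0 := by
    intro s hs1
    have key := h.sub _ _ (hmT.add (hξ.const_mul s)) (Eventually.of_forall fun x => by
      have h1 : |s * ξ x| ≤ m x := by rw [abs_mul, hs1, one_mul]; exact hle x
      have h2 := neg_abs_le (s * ξ x)
      show 0 ≤ m x + s * ξ x
      linarith)
    have e1 : ∫ x, ⟪GR x, ∇ m x + s • K x⟫ = (∫ x, ⟪GR x, ∇ m x⟫) + s * ∫ x, ⟪GR x, K x⟫ := by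
      simp only [inner_add_right, real_inner_smul_right]
      rw [integral_add gR (gξ.const_mul s), integral_const_mul]
    have j1 : Integrable fun x => V0 x * (R x * m x) - C / ‖x‖ ^ 4 * (R x * m x) := aRm.sub wRm
    have j2 : Integrable fun x => V0 x * (R x * ξ x) - C / ‖x‖ ^ 4 * (R x * ξ x) := aRξ.sub wRξ
    have e2 : ∫ x, ((V0 x - C / ‖x‖ ^ 4) * R x - (0 : E3 → ℝ) x) * (m x + s * ξ x) =
        ((∫ x, V0 x * (R x * m x)) - ∫ x, C / ‖x‖ ^ 4 * (R x * m x)) +
          s * ((∫ x, V0 x * (R x * ξ x)) - ∫ x, C / ‖x‖ ^ 4 * (R x * ξ x)) := by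
      rw [← integral_sub aRm wRm, ← integral_sub aRξ wRξ, ← integral_const_mul,
        ← integral_add j1 (j2.const_mul s)]
      exact integral_congr_ae (Eventually.of_forall fun x => by simp only [Pi.zero_apply]; ring)
    rw [e1, e2] at key
    exact key
  have hw : |∫ x, C / ‖x‖ ^ 4 * (R x * ξ x)| ≤ ∫ x, C / ‖x‖ ^ 4 * (R x * m x) := by
    refine abs_integral_le_integral_abs.trans (integral_mono wRξ.abs wRm fun x => ?_)
    simp only [abs_mul, abs_of_nonneg (hW0 x), abs_of_nonneg (h.R0 x)]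
    exact mul_le_mul_of_nonneg_left (mul_le_mul_of_nonneg_left (hle x) (h.R0 x)) (hW0 x)
  have gr1 := h.hR.green hm hc
  have gr2 := h.hd.green hm hc
  have eq2 := h.eqd _ _ hmT
  have e3 : ∫ x, (V0 x * d x - S x) * m x = (∫ x, V0 x * (d x * m x)) - ∫ x, S x * m x := by
    rw [← integral_sub adm iS]
    exact integral_congr_ae (Eventually.of_forall fun x => by simp only; ring)
  rw [e3, gr2] at eq2
  have e4 : ∫ x, (R x - d x) * (lap m x - 2 * V0 x * m x) =
      ((∫ x, R x * lap m x) - ∫ x, d x * lap m x) -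
        2 * ((∫ x, V0 x * (R x * m x)) - ∫ x, V0 x * (d x * m x)) := by
    have j1 : Integrable fun x => R x * lap m x - d x * lap m x := lR.sub ld
    have j2 : Integrable fun x => V0 x * (R x * m x) - V0 x * (d x * m x) := aRm.sub adm
    rw [← integral_sub lR ld, ← integral_sub aRm adm, ← integral_const_mul,
      ← integral_sub j1 (j2.const_mul 2)]
    exact integral_congr_ae (Eventually.of_forall fun x => by simp only; ring)
  have b1 : ∫ x, (R x - d x) * (lap m x - 2 * V0 x * m x) ≤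
      ∫ x, |R x - d x| * |lap m x - 2 * V0 x * m x| :=
    integral_mono i1 i1' fun x => by
      simp only [← abs_mul]
      exact le_abs_self _
  have b2 : -(2 * ∫ x, S x * m x) ≤ ∫ x, 2 * |S x| * m x := by
    rw [← integral_const_mul, ← integral_neg]
    refine integral_mono (iS.const_mul 2).neg i2' fun x => ?_
    have h1 := neg_abs_le (S x)
    have h2 := hm0 x
    simp only
    nlinarith
  have e5 : ∫ x, 2 * V0 x * (R x * ξ x) = 2 * ∫ x, V0 x * (R x * ξ x) := by
    rw [← integral_const_mul]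
    exact integral_congr_ae (Eventually.of_forall fun x => by simp only; ring)
  have k1 := kato 1 abs_one
  have k2 := kato (-1) (by simp)
  rw [gr1] at k1 k2
  have hw' := abs_le.1 hw
  rw [eE, e5, abs_le]
  constructor <;> linarith [hw'.1, hw'.2]

end Crest.Agent.R335
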