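import Crest.Agent.R335.Gf2
import Crest.Agent.R335.Gf3

/-!
# R335/Gf4: the abstract Green inequality above the layer.
With `ξ = T a`, `K` its gradient (`Red.ang_id`), `GD = GR - G2`, `D = R - R₂`:
`∫ U (lap T - 2 V0 T) = -(∫ ⟪GR, K⟫ + ∫ 2 V0 R ξ) + ∫ ⟪GD, K⟫ + ∫ 2 V0 D ξ`.  On `upA` (`0 < u ≤ R₂ ≤ R`): `0 ≤ D = 2 φ²/(R + R₂) ≤ 2 φ²/u`,
`R GD = 2 φ Gφ - D G2` (`Red.grad_R`, `Red.exists_G2`), `‖G2‖ ≤ ‖Gu‖ + ‖Gψ‖`, `‖Gang‖ ≤ (‖Gu‖ + ‖Gψ‖)/u`, `|a| ≤ 2`.  `Tail.nu_le` with `ξ/t` if `t > 0` (if `t = 0`, then `ξ = 0`, so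
`K = 0` a.e. by `H1.unique`, or apply the case `t + ε`).  `Efour` vanishes off `tsupport T` and is integrable (`φ/u`, `1/u`, `V0` are bounded on the compact set `tsupport T`).
-/

set_option autoImplicit false

namespace Crest.Agent.R335

open MeasureTheory Set Filter Topology
open scoped Gradient RealInnerProductSpace ENNReal ContDiff
open Crest.MathPhysics.ThreeBody

variable {k b L C c e1 e2 : ℝ} {R d V0 S v φ u ψ : E3 → ℝ} {GR Gd Gφ Gu Gψ : E3 → E3}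

/-- pointwise bound of the error -/
theorem gf4_pt {R R2 φ u ψ a T V : ℝ} {GR G2 Gφ Gu Gψ gT : E3} (hu : 0 < u) (hφ : 0 < φ) (h1 : u ≤ R2)
    (h2 : |ψ| ≤ R2) (hR2 : R2 ^ 2 = u ^ 2 + ψ ^ 2) (hR0 : 0 ≤ R) (hR : R ^ 2 = 2 * φ ^ 2 + u ^ 2 + ψ ^ 2)
    (ha : |a| ≤ 2) (e1 : R2 • G2 = u • Gu + ψ • Gψ) (e2 : R • GR = (2 * φ) • Gφ + u • Gu + ψ • Gψ) :
    |⟪GR - G2, T • ((u ^ 2 + ψ ^ 2)⁻¹ • (u • Gψ - ψ • Gu)) + a • gT⟫ + 2 * V * ((R - R2) * (T * a))| ≤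
      8 * |V| * (φ ^ 2 / u) * |T| + (2 * (φ / u) * ‖Gφ‖ + 2 * (φ / u) ^ 2 * (‖Gu‖ + ‖Gψ‖)) *
        (2 * ‖gT‖ + |T| * (‖Gu‖ + ‖Gψ‖) / u) := by
  have hp : 0 < R2 := hu.trans_le h1
  have hle : R2 ≤ R := (pow_le_pow_iff_left₀ hp.le hR0 two_ne_zero).1 (by nlinarith [sq_nonneg φ])
  have hD0 : 0 ≤ R - R2 := sub_nonneg.2 hle
  have hD : R - R2 ≤ φ ^ 2 / u := by
    rw [le_div_iff₀ hu]
    nlinarith [mul_le_mul_of_nonneg_left (show 2 * u ≤ R + R2 by linarith) hD0]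
  set N := ‖Gu‖ + ‖Gψ‖ with hN
  have n1 := norm_nonneg Gu
  have n2 := norm_nonneg Gψ
  have hN0 : 0 ≤ N := by positivity
  have hG2 : ‖G2‖ ≤ N := by
    refine le_of_mul_le_mul_left ?_ hp
    have : ‖R2 • G2‖ ≤ ‖u • Gu‖ + ‖ψ • Gψ‖ := e1 ▸ norm_add_le _ _
    rw [norm_smul, norm_smul, norm_smul, Real.norm_eq_abs, Real.norm_eq_abs, Real.norm_eq_abs, abs_of_pos hp,
      abs_of_pos hu] at this
    nlinarith [mul_le_mul_of_nonneg_right h1 n1, mul_le_mul_of_nonneg_right h2 n2]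
  have e3 : R • (GR - G2) = (2 * φ) • Gφ - (R - R2) • G2 := by
    rw [smul_sub, e2, sub_smul, e1]
    abel
  have hGD : ‖GR - G2‖ ≤ 2 * (φ / u) * ‖Gφ‖ + 2 * (φ / u) ^ 2 * N := by
    refine le_of_mul_le_mul_left ?_ hu
    have : ‖R • (GR - G2)‖ ≤ ‖(2 * φ) • Gφ‖ + ‖(R - R2) • G2‖ := e3 ▸ norm_sub_le _ _
    rw [norm_smul, norm_smul, norm_smul, Real.norm_eq_abs, Real.norm_eq_abs, Real.norm_eq_abs, abs_of_nonneg hR0,
      abs_of_pos (by positivity), abs_of_nonneg hD0] at this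
    have t1 : (R - R2) * ‖G2‖ ≤ φ ^ 2 / u * N := mul_le_mul hD hG2 (norm_nonneg _) (by positivity)
    have t2 : u * ‖GR - G2‖ ≤ R * ‖GR - G2‖ := mul_le_mul_of_nonneg_right (h1.trans hle) (norm_nonneg _)
    have t3 : u * (2 * (φ / u) * ‖Gφ‖ + 2 * (φ / u) ^ 2 * N) = 2 * φ * ‖Gφ‖ + 2 * (φ ^ 2 / u * N) := by
      field_simp
    have t4 : 0 ≤ φ ^ 2 / u * N := by positivity
    linarith
  have hGa : ‖(u ^ 2 + ψ ^ 2)⁻¹ • (u • Gψ - ψ • Gu)‖ ≤ N / u := by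
    have : ‖u • Gψ - ψ • Gu‖ ≤ R2 * N := by
      refine (norm_sub_le _ _).trans ?_
      rw [norm_smul, norm_smul, Real.norm_eq_abs, Real.norm_eq_abs, abs_of_pos hu]
      nlinarith [mul_le_mul_of_nonneg_right h1 n2, mul_le_mul_of_nonneg_right h2 n1]
    rw [norm_smul, ← hR2, Real.norm_eq_abs, abs_of_pos (by positivity)]
    calc (R2 ^ 2)⁻¹ * ‖u • Gψ - ψ • Gu‖ ≤ (R2 ^ 2)⁻¹ * (R2 * N) := by gcongr
      _ = N / R2 := by field_simp
      _ ≤ N / u := by gcongr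
  have hK : ‖T • ((u ^ 2 + ψ ^ 2)⁻¹ • (u • Gψ - ψ • Gu)) + a • gT‖ ≤ 2 * ‖gT‖ + |T| * N / u := by
    refine (norm_add_le _ _).trans ?_
    rw [norm_smul T, norm_smul a, Real.norm_eq_abs, Real.norm_eq_abs, mul_div_assoc, add_comm]
    gcongr
  refine (abs_add_le _ _).trans ?_
  rw [add_comm]
  refine add_le_add ?_ ((abs_real_inner_le_norm _ _).trans (mul_le_mul hGD hK (norm_nonneg _) (by positivity)))
  rw [abs_mul, abs_mul, abs_mul, abs_mul, abs_of_nonneg hD0, abs_two]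
  calc 2 * |V| * ((R - R2) * (|T| * |a|)) ≤ 2 * |V| * (φ ^ 2 / u * (|T| * 2)) := by gcongr
    _ ≤ 2 * |V| * (φ ^ 2 / u * (|T| * 4)) := by gcongr; norm_num
    _ = 8 * |V| * (φ ^ 2 / u) * |T| := by ring

theorem gf4_upA : upA ⊆ offA := fun _ hx => hx.1

theorem gf4_int (h : Red k b L C c R GR d Gd V0 S v e1 e2 φ Gφ u Gu ψ Gψ) {T : E3 → ℝ} (hT : ContDiff ℝ 2 T)
    (hc : HasCompactSupport T) (hs : tsupport T ⊆ upA ∩ far L) : Integrable (Efour V0 φ u Gφ Gu Gψ T) := by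
  have hsU : tsupport T ⊆ upA := hs.trans inter_subset_left
  have hsA : tsupport T ⊆ offA := hsU.trans gf4_upA
  have cφ : ContinuousOn φ (tsupport T) := h.oφ.cont.mono hsA
  have cu : ContinuousOn u (tsupport T) := h.ou.orb.cont.mono hsA
  have hu0 : ∀ x ∈ tsupport T, u x ≠ 0 := fun x hx => (h.u_posG (hsU hx)).1.ne'
  have cg : Continuous (∇ T) := s1a_grad_cont (hT.of_le (by norm_num))
  obtain ⟨M0, hM0, hV⟩ := h.tail.V0_le
  obtain ⟨M1, h1⟩ := hc.isCompact.exists_bound_of_continuousOn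
    (((cφ.pow 2).div cu hu0).mul hT.continuous.abs.continuousOn)
  obtain ⟨M2, h2⟩ := hc.isCompact.exists_bound_of_continuousOn (cφ.div cu hu0)
  obtain ⟨M3, h3⟩ := hc.isCompact.exists_bound_of_continuousOn (hT.continuous.abs.continuousOn.div cu hu0)
  obtain ⟨M4, h4⟩ := hc.isCompact.exists_bound_of_continuousOn cg.continuousOn
  set w : E3 → ℝ := fun x => (tsupport T).indicator (fun _ => (1 : ℝ)) x + (‖Gφ x‖ + (‖Gu x‖ + ‖Gψ x‖)) with hw
  have mw : MemLp w 2 volume :=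
    (memLp_indicator_const 2 (isClosed_tsupport T).measurableSet (1 : ℝ)
      (Or.inr hc.isCompact.measure_lt_top.ne)).add
      (h.oφ.eig.h1.mG.norm.add (h.ou.orb.eig.h1.mG.norm.add h.oψ.eig.h1.mG.norm))
  have mφ := h.oφ.eig.h1.mf.1.aemeasurable
  have mu := h.ou.orb.eig.h1.mf.1.aemeasurable
  have mGφ := h.oφ.eig.h1.mG.1.norm.aemeasurable
  have mGu := h.ou.orb.eig.h1.mG.1.norm.aemeasurable
  have mGψ := h.oψ.eig.h1.mG.1.norm.aemeasurable
  have mV := h.tail.mV.abs.aemeasurable (μ := volume)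
  have mT := hT.continuous.abs.measurable.aemeasurable (μ := volume)
  have mg := cg.norm.measurable.aemeasurable (μ := volume)
  refine (mw.integrable_sq.const_mul (8 * M0 * |M1| + (2 * |M2| + 2 * M2 ^ 2) * (2 * |M4| + |M3|))).mono' ?_
    (Eventually.of_forall fun x => ?_)
  · refine AEMeasurable.aestronglyMeasurable ?_
    exact (((mV.const_mul 8).mul ((mφ.pow_const 2).div mu)).mul mT).add
      (((((mφ.div mu).const_mul 2).mul mGφ).add ((((mφ.div mu).pow_const 2).const_mul 2).mul (mGu.add mGψ))).mul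
        ((mg.const_mul 2).add ((mT.mul (mGu.add mGψ)).div mu)))
  · by_cases hx : x ∈ tsupport T
    · have hu := (h.u_posG (hsU hx)).1
      have hφ := h.posφ x (hsA hx)
      have b0 := hV x (hs hx).2
      have b1 : φ x ^ 2 / u x * |T x| ≤ |M1| := ((le_abs_self _).trans (h1 x hx)).trans (le_abs_self _)
      have b2 : φ x / u x ≤ |M2| := ((le_abs_self _).trans (h2 x hx)).trans (le_abs_self _)
      have b3 : |T x| / u x ≤ |M3| := ((le_abs_self _).trans (h3 x hx)).trans (le_abs_self _)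
      have b4 : ‖∇ T x‖ ≤ |M4| := (h4 x hx).trans (le_abs_self _)
      have n1 := norm_nonneg (Gφ x)
      have n2 := norm_nonneg (Gu x)
      have n3 := norm_nonneg (Gψ x)
      have ew : w x = 1 + (‖Gφ x‖ + (‖Gu x‖ + ‖Gψ x‖)) := by simp only [hw, indicator_of_mem hx]
      have w1 : 1 ≤ w x := by linarith
      have w2 : ‖Gφ x‖ ≤ w x := by linarith
      have w3 : ‖Gu x‖ + ‖Gψ x‖ ≤ w x := by linarith
      have c1 : 8 * |V0 x| * (φ x ^ 2 / u x) * |T x| ≤ 8 * M0 * |M1| * w x ^ 2 := by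
        calc 8 * |V0 x| * (φ x ^ 2 / u x) * |T x| = 8 * |V0 x| * (φ x ^ 2 / u x * |T x|) * 1 := by ring
          _ ≤ 8 * M0 * |M1| * w x ^ 2 := by
            gcongr
            exact one_le_pow₀ w1
      have c2 : 2 * (φ x / u x) * ‖Gφ x‖ + 2 * (φ x / u x) ^ 2 * (‖Gu x‖ + ‖Gψ x‖) ≤
          (2 * |M2| + 2 * M2 ^ 2) * w x := by
        rw [← sq_abs M2, add_mul]
        gcongr
      have c3 : 2 * ‖∇ T x‖ + |T x| * (‖Gu x‖ + ‖Gψ x‖) / u x ≤ (2 * |M4| + |M3|) * w x := by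
        calc 2 * ‖∇ T x‖ + |T x| * (‖Gu x‖ + ‖Gψ x‖) / u x
            = 2 * ‖∇ T x‖ * 1 + |T x| / u x * (‖Gu x‖ + ‖Gψ x‖) := by ring
          _ ≤ 2 * |M4| * w x + |M3| * w x := by gcongr
          _ = (2 * |M4| + |M3|) * w x := by ring
      have c4 := mul_le_mul c2 c3 (by positivity) (by positivity)
      rw [Real.norm_eq_abs, abs_of_nonneg (by unfold Efour; positivity)]
      unfold Efour
      nlinarith
    · have : Efour V0 φ u Gφ Gu Gψ T x = 0 := by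
        simp [Efour, image_eq_zero_of_notMem_tsupport hx, s1a_grad_zero hx]
      rw [this, norm_zero]
      positivity

theorem Red.green_up (h : Red k b L C c R GR d Gd V0 S v e1 e2 φ Gφ u Gu ψ Gψ) {T m : E3 → ℝ} {t : ℝ} (hT : ContDiff ℝ 2 T) (hc : HasCompactSupport T)
    (hs : tsupport T ⊆ upA ∩ far L) (hm : ContDiff ℝ 2 m) (hc' : HasCompactSupport m) (hs' : tsupport m ⊆ far L)
    (ht : 0 < t) (hle : ∀ x, |T x * ang u ψ x| ≤ t * m x) :
    |∫ x, ang u ψ x * Rtwo u ψ x * (lap T x - 2 * V0 x * T x)| ≤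
      t * (∫ x, Ethree C R d V0 S m x) + ∫ x, Efour V0 φ u Gφ Gu Gψ T x := by
  have hsU : tsupport T ⊆ upA := hs.trans inter_subset_left
  obtain ⟨G2, h2, hG2⟩ := h.exists_G2
  obtain ⟨hξ, hid⟩ := h.ang_id h2 hT hc hsU
  set ξ : E3 → ℝ := fun x => T x * ang u ψ x with hξd
  set K : E3 → E3 := fun x => T x • Gang u ψ Gu Gψ x + ang u ψ x • ∇ T x with hKd
  have hout : ∀ x ∉ tsupport T, T x = 0 ∧ ∇ T x = 0 ∧ lap T x = 0 := by
    intro x hx
    have h2 : T =ᶠ[𝓝 x] fun _ => 0 := notMem_tsupport_iff_eventuallyEq.1 hx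
    exact ⟨h2.eq_of_nhds, s1a_grad_zero hx, by rw [s7_lap_congr h2, s7_lap_zero]⟩
  have hξf : TH (far L) ξ K := TH.of_h1 hξ.h1 hc.isCompact (hs.trans inter_subset_right)
    (Eventually.of_forall fun x hx => by simp [hξd, (hout x hx).1])
  have hnu := (h.tail.nu_le (hξf.const_mul t⁻¹) hm hc' hs' fun x => by
    rw [abs_mul, abs_of_pos (inv_pos.2 ht), inv_mul_le_iff₀ ht]
    exact hle x).2
  have hnu' : |(∫ x, ⟪GR x, K x⟫) + ∫ x, 2 * V0 x * (R x * ξ x)| ≤ t * ∫ x, Ethree C R d V0 S m x := by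
    have a1 : ∫ x, ⟪GR x, t⁻¹ • K x⟫ = t⁻¹ * ∫ x, ⟪GR x, K x⟫ := by
      rw [← integral_const_mul]
      simp only [real_inner_smul_right]
    have a2 : ∫ x, 2 * V0 x * (R x * (t⁻¹ * ξ x)) = t⁻¹ * ∫ x, 2 * V0 x * (R x * ξ x) := by
      rw [← integral_const_mul]
      exact integral_congr_ae (Eventually.of_forall fun x => by simp only; ring)
    rwa [a1, a2, ← mul_add, abs_mul, abs_of_pos (inv_pos.2 ht), inv_mul_le_iff₀ ht] at hnu
  obtain ⟨M0, hM0, hV⟩ := h.tail.V0_le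
  have mVξ : MemLp (fun x => V0 x * ξ x) 2 volume := by
    refine (hξ.h1.mf.const_mul M0).mono (h.tail.mV.aestronglyMeasurable.mul hξ.h1.mf.1)
      (Eventually.of_forall fun x => ?_)
    by_cases hx : x ∈ tsupport T
    · rw [norm_mul (V0 x), norm_mul M0, Real.norm_eq_abs, Real.norm_eq_abs M0, abs_of_nonneg hM0]
      exact mul_le_mul_of_nonneg_right (hV x (hs hx).2) (norm_nonneg _)
    · simp [hξd, (hout x hx).1]
  have iV : ∀ f : E3 → ℝ, MemLp f 2 volume → Integrable fun x => 2 * V0 x * (f x * ξ x) := fun f hf =>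
    ((hf.integrable_mul mVξ).const_mul 2).congr (Eventually.of_forall fun x => by simp only [Pi.mul_apply]; ring)
  have i1 := h.tail.hR.int_inner hξ.h1
  have i2 := h2.int_inner hξ.h1
  have i3 := iV R h.tail.hR.mf
  have i4 := iV _ h2.mf
  have mlap : MemLp (lap T) 2 volume := (Crest.Agent.R83.continuous_lap hT).memLp_of_hasCompactSupport
    (HasCompactSupport.intro hc.isCompact fun x hx => (hout x hx).2.2)
  have i5 : Integrable fun x => ang u ψ x * Rtwo u ψ x * lap T x := h.memLp_U.1.integrable_mul mlap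
  have e1' : ∫ x, ang u ψ x * Rtwo u ψ x * (lap T x - 2 * V0 x * T x) =
      (∫ x, ang u ψ x * Rtwo u ψ x * lap T x) - ∫ x, 2 * V0 x * (Rtwo u ψ x * ξ x) := by
    rw [← integral_sub i5 i4]
    exact integral_congr_ae (Eventually.of_forall fun x => by simp only [hξd]; ring)
  have e2' : ∫ x, (⟪GR x - G2 x, K x⟫ + 2 * V0 x * ((R x - Rtwo u ψ x) * ξ x)) =
      ((∫ x, ⟪GR x, K x⟫) - ∫ x, ⟪G2 x, K x⟫) +
        ((∫ x, 2 * V0 x * (R x * ξ x)) - ∫ x, 2 * V0 x * (Rtwo u ψ x * ξ x)) := by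
    have j1 : Integrable fun x => ⟪GR x, K x⟫ - ⟪G2 x, K x⟫ := i1.sub i2
    have j2 : Integrable fun x => 2 * V0 x * (R x * ξ x) - 2 * V0 x * (Rtwo u ψ x * ξ x) := i3.sub i4
    rw [← integral_sub i1 i2, ← integral_sub i3 i4, ← integral_add j1 j2]
    exact integral_congr_ae (Eventually.of_forall fun x => by simp only [inner_sub_left]; ring)
  have hE : |∫ x, (⟪GR x - G2 x, K x⟫ + 2 * V0 x * ((R x - Rtwo u ψ x) * ξ x))| ≤
      ∫ x, Efour V0 φ u Gφ Gu Gψ T x := by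
    rw [← Real.norm_eq_abs]
    refine norm_integral_le_of_norm_le (gf4_int h hT hc hs) ?_
    filter_upwards [hG2, h.grad_R, h.dens] with x q1 q2 q3
    by_cases hx : x ∈ tsupport T
    · obtain ⟨p1, p2, p3⟩ := h.u_posG (hsU hx)
      exact gf4_pt p1 (h.posφ x (gf4_upA (hsU hx))) p2 p3 (Real.sq_sqrt (by positivity)) (h.tail.R0 x) q3
        (abs_arctan_le_two _) q1 q2
    · simp [Efour, hξd, hKd, (hout x hx).1, (hout x hx).2.1]
  rw [e2'] at hE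
  have hid' : ∫ x, ang u ψ x * Rtwo u ψ x * lap T x = -∫ x, ⟪G2 x, K x⟫ := hid
  rw [e1', hid']
  have := abs_le.1 hnu'
  have := abs_le.1 hE
  rw [abs_le]
  constructor <;> linarith

end Crest.Agent.R335
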