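import Crest.Agent.R335.Gg1a

/-!
# R335/Gg1: cut-offs.  `Real.smoothTransition` has bounded first and second derivatives (continuous, zero off `[0,1]`).
-/

set_option autoImplicit false

namespace Crest.Agent.R335

open MeasureTheory Set Filter Topology
open scoped Gradient RealInnerProductSpace ENNReal ContDiff
open Crest.MathPhysics.ThreeBody

variable {k b L C c e1 e2 : ℝ} {R d V0 S v φ u ψ : E3 → ℝ} {GR Gd Gφ Gu Gψ : E3 → E3}

/-- `Qp = σ Q` with a step from `lam ρ₀` to `2 lam ρ₀`, `Q0 z = Q z - Qp z - Qp (-z)` -/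
theorem QB.split (hk : 0 < k) : ∃ M : ℝ, 1 ≤ M ∧ ∀ (ρ₀ q : ℝ) (Q : ℝ → ℝ), 1 ≤ ρ₀ → QB k ρ₀ q Q → ∃ Qp Q0 : ℝ → ℝ,
    QU k ρ₀ (M * q) Qp ∧ ContDiff ℝ 2 Q0 ∧ (∀ z, Q0 (-z) = Q0 z) ∧ (∀ z, 2 * lam ρ₀ ≤ |z| → Q0 z = 0) ∧
    (∀ z, |Q0 z| ≤ M * q) ∧ (∀ z, 0 < z → deriv (deriv Q0) z = deriv (deriv Q) z - deriv (deriv Qp) z) ∧
    (∀ z, 2 * lam ρ₀ ≤ z → Qp z = Q z ∧ deriv (deriv Qp) z = deriv (deriv Q) z) ∧
    ∀ z, lam ρ₀ ≤ z → z ≤ 2 * lam ρ₀ → |Qp z| ≤ M * q ∧ |deriv (deriv Q) z| ≤ M * q ∧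
      |deriv (deriv Qp) z| ≤ M * q / lam ρ₀ ^ 2 := by
  obtain ⟨M, hM, hstep⟩ := exists_step
  obtain ⟨E, hE, hE'⟩ : ∃ E : ℝ, 1 ≤ E ∧ ∀ ρ₀ z : ℝ, 1 ≤ ρ₀ → |z| ≤ 2 →
      Real.exp (k * z ^ 2 / (20 * ρ₀)) ≤ E := by
    refine ⟨Real.exp k, Real.one_le_exp hk.le, fun ρ₀ z h hz => Real.exp_le_exp.2 ?_⟩
    have : z ^ 2 ≤ 4 := by nlinarith [abs_nonneg z, sq_abs z]
    rw [div_le_iff₀ (by positivity)]
    exact mul_le_mul_of_nonneg_left (by linarith) hk.le
  have hME : 1 ≤ M * E := one_le_mul_of_one_le_of_one_le hM hE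
  have hE2 : E ≤ M * E := le_mul_of_one_le_left (by linarith) hM
  have hM2 : M ≤ M * E := le_mul_of_one_le_right (by linarith) hE
  refine ⟨4 * (M * E), by linarith, fun ρ₀ q Q h1 hQ => ?_⟩
  have l0 := lam_pos (show 0 < ρ₀ by linarith)
  have l1 := lam_le_one h1
  have q0 := hQ.q0
  have hle2 := hQ.le2
  generalize hl : lam ρ₀ = l at *
  obtain ⟨σ, sm, s01, s0, s1, sd, sz⟩ := hstep l (2 * l) (by linarith)
  rw [show 2 * l - l = l by ring] at sd
  have sa : ∀ z, |σ z| ≤ 1 := fun z => abs_le.2 ⟨by linarith [(s01 z).1], (s01 z).2⟩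
  have sp : ContDiff ℝ 2 fun z => σ z * Q z := sm.mul hQ.sm
  have dd := deriv2_mul sm hQ.sm
  have pa : ∀ z, |σ z * Q z| ≤ |Q z| := fun z => by
    rw [abs_mul]; exact mul_le_of_le_one_left (abs_nonneg _) (sa z)
  have qE : ∀ z, |z| ≤ 2 * l → q * Real.exp (k * z ^ 2 / (20 * ρ₀)) ≤ q * E := fun z hz =>
    mul_le_mul_of_nonneg_left (hE' ρ₀ z h1 (by linarith)) q0
  have qM : q * E ≤ M * E * q := by nlinarith
  have qE0 : 0 ≤ q * E := by positivity
  have ev : ∀ z, Q (-z) - σ (-z) * Q (-z) - σ (- -z) * Q (- -z) = Q z - σ z * Q z - σ (-z) * Q (-z) :=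
    fun z => by rw [neg_neg, hQ.even]; ring
  have zr : ∀ z, 2 * l ≤ |z| → Q z - σ z * Q z - σ (-z) * Q (-z) = 0 := by
    have : ∀ z, 2 * l ≤ z → Q z - σ z * Q z - σ (-z) * Q (-z) = 0 := fun z hz => by
      rw [s1 z hz, s0 (-z) (by linarith)]; ring
    intro z hz
    rcases le_abs.1 hz with hz | hz
    · exact this z hz
    · rw [← ev]; exact this _ hz
  refine ⟨fun z => σ z * Q z, fun z => Q z - σ z * Q z - σ (-z) * Q (-z), ⟨sp, by positivity, ?_, fun z => ?_⟩,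
    (hQ.sm.sub sp).sub (sp.comp contDiff_neg), ev, zr, fun z => ?_, fun z hz => ?_, fun z hz => ?_,
    fun z hz hz' => ?_⟩
  · rw [hl]
    rintro z (hz | hz)
    · rw [s0 z hz, zero_mul]
    · rw [hQ.zero z (hz.trans (le_abs_self z)), mul_zero]
  · obtain ⟨a1, a2⟩ := hQ.le z
    have e0 := Real.exp_pos (k * z ^ 2 / (20 * ρ₀))
    rw [hl, (dd z).1]
    generalize Real.exp (k * z ^ 2 / (20 * ρ₀)) = e at *
    have qe : 0 ≤ q * e := by positivity
    refine ⟨((pa z).trans a1).trans (by nlinarith), (abs_add_le _ _).trans ?_⟩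
    rw [abs_mul, abs_mul]
    have b1 := mul_le_mul (sd z).1 a1 (abs_nonneg _) (by positivity)
    have b2 := mul_le_mul (sa z) a2 (abs_nonneg _) zero_le_one
    refine (add_le_add b1 b2).trans ?_
    rw [← add_mul, show 4 * (M * E) * q / l * e = 4 * (M * E) / l * (q * e) by ring]
    refine mul_le_mul_of_nonneg_right ?_ qe
    rw [div_add' _ _ _ l0.ne']
    exact div_le_div_of_nonneg_right (by linarith) l0.le
  · beta_reduce
    rcases le_total (2 * l) |z| with hz | hz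
    · rw [zr z hz, abs_zero]; positivity
    · have a1 := (hQ.le z).1.trans (qE z hz)
      have a2 := (pa z).trans a1
      have a3 := (pa (-z)).trans (hQ.even z ▸ a1)
      refine (abs_sub _ _).trans ((add_le_add (abs_sub _ _) le_rfl).trans ?_)
      linarith
  · have e : (fun z => Q z - σ z * Q z - σ (-z) * Q (-z)) =ᶠ[𝓝 z] fun z => Q z - σ z * Q z := by
      filter_upwards [Ioi_mem_nhds hz] with y hy
      rw [s0 (-y) (by linarith [mem_Ioi.1 hy]), zero_mul, sub_zero]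
    have d1 : ∀ {f : ℝ → ℝ}, ContDiff ℝ 2 f → Differentiable ℝ f := fun h => h.differentiable (by simp)
    have d2 : ∀ {f : ℝ → ℝ}, ContDiff ℝ 2 f → Differentiable ℝ (deriv f) := fun h =>
      h.differentiable_deriv_two
    have e' : (deriv fun z => Q z - σ z * Q z) = _ := funext fun y => deriv_fun_sub (d1 hQ.sm y) (d1 sp y)
    rw [e.deriv.deriv_eq, e', deriv_fun_sub (d2 hQ.sm z) (d2 sp z)]
  · rw [(dd z).2, (sz z (.inr hz)).1, (sz z (.inr hz)).2]
    simp [s1 z hz]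
  · have hz0 : |z| = z := abs_of_nonneg (by linarith)
    have b := qE z (hz0.trans_le hz')
    have a1 := (hQ.le z).1.trans b
    have a2 := (hQ.le z).2.trans b
    have a3 := (hle2 z (hz.trans_eq hz0.symm)).trans b
    refine ⟨by linarith [pa z], by linarith, ?_⟩
    rw [(dd z).2]
    refine (abs_add_three _ _ _).trans ?_
    rw [abs_mul, abs_mul, abs_mul, abs_mul, abs_two]
    have b1 := mul_le_mul (sd z).2 a1 (abs_nonneg _) (by positivity)
    have b2 := mul_le_mul (sd z).1 a2 (abs_nonneg _) (by positivity)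
    have b3 := mul_le_mul (sa z) a3 (abs_nonneg _) zero_le_one
    have c1 : M / l ≤ M / l ^ 2 := div_le_div_of_nonneg_left (by linarith) (by positivity) (by nlinarith)
    have c2 : 1 ≤ M / l ^ 2 := (one_le_div (by positivity)).2 (by nlinarith)
    rw [show 4 * (M * E) * q / l ^ 2 = 4 * (M / l ^ 2 * (q * E)) by ring]
    nlinarith [mul_le_mul_of_nonneg_right c1 qE0, mul_le_mul_of_nonneg_right c2 qE0]

end Crest.Agent.R335
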