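import Crest.Agent.R335.Gb
import Crest.Agent.R335.Ga

/-!
# R335/Gg1: cut-offs.  `Real.smoothTransition` has bounded first and second derivatives (continuous, zero off `[0,1]`).
-/

set_option autoImplicit false

namespace Crest.Agent.R335

open MeasureTheory Set Filter Topology
open scoped Gradient RealInnerProductSpace ENNReal ContDiff
open Crest.MathPhysics.ThreeBody

variable {k b L C c e1 e2 : ℝ} {R d V0 S v φ u ψ : E3 → ℝ} {GR Gd Gφ Gu Gψ : E3 → E3}

theorem gg1a_d1 {f : ℝ → ℝ} (hf : ContDiff ℝ 2 f) : ContDiff ℝ 1 (deriv f) :=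
  (contDiff_succ_iff_deriv (n := 1)).1 (by simpa [one_add_one_eq_two] using hf) |>.2.2

theorem gg1a_zero {f : ℝ → ℝ} (hf : ContDiff ℝ 2 f) {U : Set ℝ} (hU : IsOpen U) {a : ℝ} (h : ∀ t ∈ U, f t = a) :
    ∀ t ∈ closure U, deriv f t = 0 ∧ deriv (deriv f) t = 0 := by
  have h1 : ∀ t ∈ U, deriv f t = 0 := fun t ht => by
    have : f =ᶠ[𝓝 t] fun _ => a := by filter_upwards [hU.mem_nhds ht] with y hy using h y hy
    rw [this.deriv_eq, deriv_const]
  have h2 : ∀ t ∈ U, deriv (deriv f) t = 0 := fun t ht => by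
    have : deriv f =ᶠ[𝓝 t] fun _ => 0 := by filter_upwards [hU.mem_nhds ht] with y hy using h1 y hy
    rw [this.deriv_eq, deriv_const]
  have c1 : Continuous (deriv f) := (gg1a_d1 hf).continuous
  have c2 : Continuous (deriv (deriv f)) := (gg1a_d1 hf).continuous_deriv le_rfl
  exact fun t ht => ⟨closure_minimal h1 (isClosed_eq c1 continuous_const) ht,
    closure_minimal h2 (isClosed_eq c2 continuous_const) ht⟩

theorem gg1a_out {f : ℝ → ℝ} (hf : ContDiff ℝ 2 f) {α β : ℝ} (h0 : ∀ t, t ≤ α → f t = 0) (h1 : ∀ t, β ≤ t → f t = 1) (t : ℝ)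
    (ht : t ≤ α ∨ β ≤ t) : deriv f t = 0 ∧ deriv (deriv f) t = 0 := by
  rcases ht with ht | ht
  · exact gg1a_zero hf isOpen_Iio (fun t ht => h0 t (le_of_lt ht)) t (by rwa [closure_Iio])
  · exact gg1a_zero hf isOpen_Ioi (fun t ht => h1 t (le_of_lt ht)) t (by rwa [closure_Ioi])

theorem gg1a_sc {f : ℝ → ℝ} (hf : ContDiff ℝ 2 f) (α w t : ℝ) :
    deriv (fun t => f ((t - α) / w)) t = deriv f ((t - α) / w) / w ∧
      deriv (deriv fun t => f ((t - α) / w)) t = deriv (deriv f) ((t - α) / w) / w ^ 2 := by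
  have h : ∀ g : ℝ → ℝ, Differentiable ℝ g → ∀ t, HasDerivAt (fun t => g ((t - α) / w)) (deriv g ((t - α) / w) / w) t :=
    fun g hg t => by
      have := (hg ((t - α) / w)).hasDerivAt.comp t (((hasDerivAt_id' t).sub_const α).div_const w)
      exact this.congr_deriv (by ring)
  have e : deriv (fun t => f ((t - α) / w)) = fun t => deriv f ((t - α) / w) / w :=
    funext fun t => (h f (hf.differentiable (by simp)) t).deriv
  refine ⟨congrFun e t, ?_⟩
  rw [e, ((h _ ((gg1a_d1 hf).differentiable (by simp)) t).div_const w).deriv]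
  ring

/-- smooth steps with scale invariant bounds -/
theorem exists_step : ∃ M : ℝ, 1 ≤ M ∧ ∀ α β : ℝ, α < β → ∃ σ : ℝ → ℝ, ContDiff ℝ 2 σ ∧ (∀ t, 0 ≤ σ t ∧ σ t ≤ 1) ∧
    (∀ t, t ≤ α → σ t = 0) ∧ (∀ t, β ≤ t → σ t = 1) ∧
    (∀ t, |deriv σ t| ≤ M / (β - α) ∧ |deriv (deriv σ) t| ≤ M / (β - α) ^ 2) ∧
    ∀ t, t ≤ α ∨ β ≤ t → deriv σ t = 0 ∧ deriv (deriv σ) t = 0 := by
  have hs : ContDiff ℝ 2 Real.smoothTransition := Real.smoothTransition.contDiff
  have c1 : Continuous (deriv Real.smoothTransition) := (gg1a_d1 hs).continuous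
  have c2 : Continuous (deriv (deriv Real.smoothTransition)) := (gg1a_d1 hs).continuous_deriv le_rfl
  obtain ⟨M₁, h1⟩ := (isCompact_Icc (a := (0 : ℝ)) (b := 1)).exists_bound_of_continuousOn c1.continuousOn
  obtain ⟨M₂, h2⟩ := (isCompact_Icc (a := (0 : ℝ)) (b := 1)).exists_bound_of_continuousOn c2.continuousOn
  have hM : ∀ t, |deriv Real.smoothTransition t| ≤ 1 + |M₁| + |M₂| ∧
      |deriv (deriv Real.smoothTransition) t| ≤ 1 + |M₁| + |M₂| := fun t => by
    have a1 := abs_nonneg M₁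
    have a2 := abs_nonneg M₂
    by_cases ht : t ≤ 0 ∨ 1 ≤ t
    · obtain ⟨e1, e2⟩ := gg1a_out hs (fun t => Real.smoothTransition.zero_of_nonpos)
        (fun t => Real.smoothTransition.one_of_one_le) t ht
      rw [e1, e2, abs_zero]
      constructor <;> linarith
    · push Not at ht
      have b1 := h1 t ⟨ht.1.le, ht.2.le⟩
      have b2 := h2 t ⟨ht.1.le, ht.2.le⟩
      rw [Real.norm_eq_abs] at b1 b2
      have := le_abs_self M₁
      have := le_abs_self M₂
      constructor <;> linarith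
  refine ⟨1 + |M₁| + |M₂|, by linarith [abs_nonneg M₁, abs_nonneg M₂], fun α β hαβ => ?_⟩
  have hw : 0 < β - α := sub_pos.2 hαβ
  have hσ : ContDiff ℝ 2 fun t => Real.smoothTransition ((t - α) / (β - α)) :=
    hs.comp ((contDiff_id.sub contDiff_const).div_const _)
  have h0 : ∀ t, t ≤ α → Real.smoothTransition ((t - α) / (β - α)) = 0 := fun t ht =>
    Real.smoothTransition.zero_of_nonpos (div_nonpos_of_nonpos_of_nonneg (by linarith) hw.le)
  have h1 : ∀ t, β ≤ t → Real.smoothTransition ((t - α) / (β - α)) = 1 := fun t ht =>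
    Real.smoothTransition.one_of_one_le ((one_le_div hw).2 (by linarith))
  refine ⟨_, hσ, fun t => ⟨Real.smoothTransition.nonneg _, Real.smoothTransition.le_one _⟩, h0, h1, fun t => ?_,
    gg1a_out hσ h0 h1⟩
  obtain ⟨e1, e2⟩ := gg1a_sc hs α (β - α) t
  rw [e1, e2, abs_div, abs_div, abs_of_pos hw, abs_of_pos (pow_pos hw 2)]
  exact ⟨div_le_div_of_nonneg_right (hM _).1 hw.le, div_le_div_of_nonneg_right (hM _).2 (pow_pos hw 2).le⟩

/-- plateau functions: product of `σ₁` and `1 - σ₂` -/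
theorem exists_plateau : ∃ M : ℝ, 1 ≤ M ∧ ∀ α β γ δ : ℝ, α < β → β ≤ γ → γ < δ → ∃ σ : ℝ → ℝ, ContDiff ℝ 2 σ ∧
    (∀ t, 0 ≤ σ t ∧ σ t ≤ 1) ∧ (∀ t, t ≤ α ∨ δ ≤ t → σ t = 0) ∧ (∀ t, β ≤ t → t ≤ γ → σ t = 1) ∧
    (∀ t, t ≤ β → |deriv σ t| ≤ M / (β - α) ∧ |deriv (deriv σ) t| ≤ M / (β - α) ^ 2) ∧
    ∀ t, β ≤ t → |deriv σ t| ≤ M / (δ - γ) ∧ |deriv (deriv σ) t| ≤ M / (δ - γ) ^ 2 := by
  obtain ⟨M, hM, h⟩ := exists_step
  refine ⟨M, hM, fun α β γ δ h1 h2 h3 => ?_⟩
  obtain ⟨σ, a1, a2, a3, a4, a5, a6⟩ := h α β h1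
  obtain ⟨τ, b1, b2, b3, b4, b5, b6⟩ := h γ δ h3
  have e1 : deriv (fun t => σ t - τ t) = fun t => deriv σ t - deriv τ t :=
    funext fun t => deriv_fun_sub (a1.differentiable (by simp) t) (b1.differentiable (by simp) t)
  have e2 : ∀ t, deriv (deriv fun t => σ t - τ t) t = deriv (deriv σ) t - deriv (deriv τ) t := fun t => by
    rw [e1]
    exact deriv_fun_sub ((gg1a_d1 a1).differentiable (by simp) t) ((gg1a_d1 b1).differentiable (by simp) t)
  refine ⟨fun t => σ t - τ t, a1.sub b1, fun t => ?_, fun t ht => ?_, fun t h4 h5 => ?_, fun t ht => ?_, fun t ht => ?_⟩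
  · beta_reduce
    rcases le_total t β with ht | ht
    · rw [b3 t (by linarith), sub_zero]; exact a2 t
    · rw [a4 t ht]; constructor <;> linarith [(b2 t).1, (b2 t).2]
  · beta_reduce
    rcases ht with ht | ht
    · rw [a3 t ht, b3 t (by linarith), sub_zero]
    · rw [a4 t (by linarith), b4 t ht, sub_self]
  · beta_reduce
    rw [a4 t h4, b3 t h5, sub_zero]
  · obtain ⟨c1, c2⟩ := b6 t (Or.inl (by linarith))
    rw [e2, e1]
    simpa only [c1, c2, sub_zero] using a5 t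
  · obtain ⟨c1, c2⟩ := a6 t (Or.inr ht)
    rw [e2, e1]
    simpa only [c1, c2, zero_sub, abs_neg] using b5 t

/-- first and second derivative of a product -/
theorem deriv2_mul {f g : ℝ → ℝ} (hf : ContDiff ℝ 2 f) (hg : ContDiff ℝ 2 g) (t : ℝ) :
    deriv (fun t => f t * g t) t = deriv f t * g t + f t * deriv g t ∧
      deriv (deriv fun t => f t * g t) t = deriv (deriv f) t * g t + 2 * (deriv f t * deriv g t) + f t * deriv (deriv g) t := by
  have f0 := hf.differentiable (by simp)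
  have g0 := hg.differentiable (by simp)
  have f1 := (gg1a_d1 hf).differentiable (by simp)
  have g1 := (gg1a_d1 hg).differentiable (by simp)
  have e : deriv (fun t => f t * g t) = fun t => deriv f t * g t + f t * deriv g t :=
    funext fun t => deriv_fun_mul (f0 t) (g0 t)
  refine ⟨congrFun e t, ?_⟩
  rw [e, (((f1 t).hasDerivAt.fun_mul (g0 t).hasDerivAt).fun_add ((f0 t).hasDerivAt.fun_mul (g1 t).hasDerivAt)).deriv]
  ring

end Crest.Agent.R335
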