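import Crest.Agent.R335.Gg1

/-!
# R335/Gg2: the majorant `m = H(cyl) Q(z)`, `H ρ = exp (k ρ) η₁ ρ`, `Q z = exp (3 k z²/(10 ρ₀)) η₂ z` with plateau functions `η₁` for `(0.9, 1, 1.3, 1.4) ρ₀` and `η₂` for
`(lam ρ₀/2, lam ρ₀, ρ₀/20, ρ₀/10)`.  `cylp_contDiff`, `cylp_grad`, `cylp_lap`, `cylp_supp`, `deriv2_mul`.
-/

set_option autoImplicit false

namespace Crest.Agent.R335

open MeasureTheory Set Filter Topology
open scoped Gradient RealInnerProductSpace ENNReal ContDiff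
open Crest.MathPhysics.ThreeBody

variable {k b L C c e1 e2 : ℝ} {R d V0 S v φ u ψ : E3 → ℝ} {GR Gd Gφ Gu Gψ : E3 → E3}

/-- bounds for the derivatives of a product `f η` with `|f'| ≤ a f`, `|f''| ≤ a' f` -/
theorem gg2_mul {f η : ℝ → ℝ} (hf : ContDiff ℝ 2 f) (hη : ContDiff ℝ 2 η) {t a a' c c' : ℝ} (h0 : 0 ≤ f t)
    (ha : 0 ≤ a) (ha' : 0 ≤ a') (h1 : |deriv f t| ≤ a * f t) (h2 : |deriv (deriv f) t| ≤ a' * f t)
    (g0 : 0 ≤ η t) (g0' : η t ≤ 1) (g1 : |deriv η t| ≤ c) (g2 : |deriv (deriv η) t| ≤ c') :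
    |deriv (fun t => f t * η t) t| ≤ (a + c) * f t ∧
      |deriv (deriv fun t => f t * η t) t| ≤ (a' + 2 * (a * c) + c') * f t := by
  obtain ⟨e1, e2⟩ := deriv2_mul hf hη t
  have b1 : |deriv f t * η t| ≤ a * f t * 1 := by
    rw [abs_mul, abs_of_nonneg g0]
    gcongr
  have b2 : |f t * deriv η t| ≤ f t * c := by
    rw [abs_mul, abs_of_nonneg h0]
    gcongr
  have b3 : |deriv (deriv f) t * η t| ≤ a' * f t * 1 := by
    rw [abs_mul, abs_of_nonneg g0]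
    gcongr
  have b4 : |2 * (deriv f t * deriv η t)| ≤ 2 * (a * f t * c) := by
    rw [abs_mul, abs_mul, abs_two]
    gcongr
  have b5 : |f t * deriv (deriv η) t| ≤ f t * c' := by
    rw [abs_mul, abs_of_nonneg h0]
    gcongr
  rw [e1, e2]
  refine ⟨(abs_add_le _ _).trans (by linarith), (abs_add_le _ _).trans ?_⟩
  have := abs_add_le (deriv (deriv f) t * η t) (2 * (deriv f t * deriv η t))
  linarith

theorem gg2_exp1 (k : ℝ) : deriv (fun ρ : ℝ => Real.exp (k * ρ)) = fun ρ => k * Real.exp (k * ρ) := by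
  funext ρ
  rw [(((hasDerivAt_id' ρ).const_mul k).exp).deriv]
  ring

theorem gg2_exp2 (k : ℝ) : deriv (fun ρ : ℝ => k * Real.exp (k * ρ)) = fun ρ => k ^ 2 * Real.exp (k * ρ) := by
  funext ρ
  rw [((((hasDerivAt_id' ρ).const_mul k).exp).const_mul k).deriv]
  ring

theorem gg2_gau (a z : ℝ) : HasDerivAt (fun z : ℝ => Real.exp (a * z ^ 2)) (2 * a * z * Real.exp (a * z ^ 2)) z := by
  convert ((hasDerivAt_pow 2 z).const_mul a).exp using 1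
  simp only [Nat.cast_ofNat, Nat.add_one_sub_one, pow_one]
  ring

theorem gg2_gau1 (a : ℝ) : deriv (fun z : ℝ => Real.exp (a * z ^ 2)) = fun z => 2 * a * z * Real.exp (a * z ^ 2) :=
  funext fun z => (gg2_gau a z).deriv

theorem gg2_gau2 (a : ℝ) : deriv (fun z : ℝ => 2 * a * z * Real.exp (a * z ^ 2)) =
    fun z => (2 * a + (2 * a * z) ^ 2) * Real.exp (a * z ^ 2) := by
  funext z
  rw [(((hasDerivAt_id' z).const_mul (2 * a)).fun_mul (gg2_gau a z)).deriv]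
  ring

/-- the radial factor -/
theorem gg2_H (hk : 0 < k) : ∃ A : ℝ, 1 ≤ A ∧ ∀ ρ₀ : ℝ, 10 ≤ ρ₀ → ∃ H : ℝ → ℝ, ContDiff ℝ 2 H ∧
    (∀ ρ, ρ ≤ 9 / 10 * ρ₀ ∨ 7 / 5 * ρ₀ ≤ ρ → H ρ = 0) ∧ (∀ ρ, 0 ≤ H ρ ∧ H ρ ≤ Real.exp (k * ρ)) ∧
    (∀ ρ, ρ₀ ≤ ρ → ρ ≤ 13 / 10 * ρ₀ → H ρ = Real.exp (k * ρ)) ∧
    ∀ ρ, |deriv H ρ| ≤ A * Real.exp (k * ρ) ∧ |deriv (deriv H) ρ| ≤ A * Real.exp (k * ρ) := by
  obtain ⟨M, hM, HM⟩ := exists_plateau
  have hkM : 0 ≤ k * M := by positivity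
  refine ⟨k + k ^ 2 + 2 * (k * M) + M, by nlinarith, fun ρ₀ h => ?_⟩
  obtain ⟨η, c, b0, z, o, l, r⟩ := HM (9 / 10 * ρ₀) ρ₀ (13 / 10 * ρ₀) (7 / 5 * ρ₀) (by linarith) (by linarith)
    (by linarith)
  have hf : ContDiff ℝ 2 fun ρ : ℝ => Real.exp (k * ρ) := by fun_prop
  have d1 : ∀ s : ℝ, 1 ≤ s → M / s ≤ M ∧ M / s ^ 2 ≤ M := fun s hs =>
    ⟨div_le_self (by linarith) hs, div_le_self (by linarith) (one_le_pow₀ hs)⟩
  have hη : ∀ t, |deriv η t| ≤ M ∧ |deriv (deriv η) t| ≤ M := by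
    intro t
    rcases le_total t ρ₀ with ht | ht
    · have := d1 (ρ₀ - 9 / 10 * ρ₀) (by linarith)
      exact ⟨(l t ht).1.trans this.1, (l t ht).2.trans this.2⟩
    · have := d1 (7 / 5 * ρ₀ - 13 / 10 * ρ₀) (by linarith)
      exact ⟨(r t ht).1.trans this.1, (r t ht).2.trans this.2⟩
  refine ⟨fun ρ => Real.exp (k * ρ) * η ρ, hf.mul c, fun ρ hρ => by simp only [z ρ hρ, mul_zero], fun ρ => ?_,
    fun ρ h1 h2 => by simp only [o ρ h1 h2, mul_one], fun ρ => ?_⟩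
  · exact ⟨mul_nonneg (Real.exp_pos _).le (b0 ρ).1, mul_le_of_le_one_right (Real.exp_pos _).le (b0 ρ).2⟩
  · have he := (Real.exp_pos (k * ρ)).le
    obtain ⟨u1, u2⟩ := gg2_mul hf c (t := ρ) (a := k) (a' := k ^ 2) he hk.le (sq_nonneg k)
      (by rw [gg2_exp1]; exact (abs_of_nonneg (by positivity)).le)
      (by rw [gg2_exp1, gg2_exp2]; exact (abs_of_nonneg (by positivity)).le) (b0 ρ).1 (b0 ρ).2 (hη ρ).1 (hη ρ).2
    refine ⟨u1.trans ?_, u2.trans ?_⟩ <;> refine mul_le_mul_of_nonneg_right ?_ he <;> nlinarith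

/-- the vertical factor -/
theorem gg2_Q (hk : 0 < k) : ∃ B : ℝ, 1 ≤ B ∧ ∀ ρ₀ : ℝ, 20 ≤ ρ₀ → ∃ Q : ℝ → ℝ, ContDiff ℝ 2 Q ∧
    (∀ z, z ≤ lam ρ₀ / 2 ∨ ρ₀ / 10 ≤ z → Q z = 0) ∧ (∀ z, 0 ≤ Q z ∧ Q z ≤ Real.exp (3 * k * z ^ 2 / (10 * ρ₀))) ∧
    (∀ z, lam ρ₀ ≤ z → z ≤ ρ₀ / 20 → Q z = Real.exp (3 * k * z ^ 2 / (10 * ρ₀))) ∧
    ∀ z, |deriv Q z| ≤ B * (1 + if z ≤ lam ρ₀ then (lam ρ₀)⁻¹ else 0) * Real.exp (3 * k * z ^ 2 / (10 * ρ₀)) ∧
      |deriv (deriv Q) z| ≤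
        B * (1 + if z ≤ lam ρ₀ then (lam ρ₀)⁻¹ ^ 2 else 0) * Real.exp (3 * k * z ^ 2 / (10 * ρ₀)) := by
  obtain ⟨M, hM, HM⟩ := exists_plateau
  have hkM : 0 ≤ k * M := by positivity
  refine ⟨k + k ^ 2 + 8 * (k * M) + 4 * M, by nlinarith, fun ρ₀ h => ?_⟩
  have hρ : 0 < ρ₀ := by linarith
  have hl0 : 0 < lam ρ₀ := lam_pos hρ
  have hl1 : lam ρ₀ ≤ 1 := Real.rpow_le_one_of_one_le_of_nonpos (by linarith) (by norm_num)
  obtain ⟨η, c, b0, z0, o, l, r⟩ := HM (lam ρ₀ / 2) (lam ρ₀) (ρ₀ / 20) (ρ₀ / 10) (by linarith) (by linarith)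
    (by linarith)
  set a : ℝ := 3 * k / (10 * ρ₀) with ha
  have ha0 : 0 < a := by positivity
  have hE : ∀ z : ℝ, 3 * k * z ^ 2 / (10 * ρ₀) = a * z ^ 2 := fun z => by rw [ha]; ring
  simp only [hE]
  have hf : ContDiff ℝ 2 fun z : ℝ => Real.exp (a * z ^ 2) := by fun_prop
  have hz : ∀ z, z ≤ lam ρ₀ / 2 ∨ ρ₀ / 10 ≤ z → Real.exp (a * z ^ 2) * η z = 0 := fun z hz => by
    rw [z0 z hz, mul_zero]
  refine ⟨fun z => Real.exp (a * z ^ 2) * η z, hf.mul c, hz, fun z => ?_,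
    fun z h1 h2 => by simp only [o z h1 h2, mul_one], fun z => ?_⟩
  · exact ⟨mul_nonneg (Real.exp_pos _).le (b0 z).1, mul_le_of_le_one_right (Real.exp_pos _).le (b0 z).2⟩
  have he := (Real.exp_pos (a * z ^ 2)).le
  set j : ℝ := if z ≤ lam ρ₀ then (lam ρ₀)⁻¹ else 0 with hj
  have hj2 : (if z ≤ lam ρ₀ then (lam ρ₀)⁻¹ ^ 2 else 0) = j ^ 2 := by
    rw [hj]
    split_ifs <;> simp
  have hj0 : 0 ≤ j := by
    rw [hj]
    split_ifs <;> positivity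
  rw [hj2]
  by_cases hs : z ≤ lam ρ₀ / 2 ∨ ρ₀ / 10 ≤ z
  · have : deriv (fun z => Real.exp (a * z ^ 2) * η z) z = 0 ∧
        deriv (deriv fun z => Real.exp (a * z ^ 2) * η z) z = 0 := by
      rcases hs with h1 | h1
      · exact deriv_zero_of_le (hf.mul c) (fun t ht => hz t (Or.inl ht)) z h1
      · exact deriv_zero_of_ge (hf.mul c) (fun t ht => hz t (Or.inr ht)) z h1
    rw [this.1, this.2, abs_zero]
    constructor <;> positivity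
  push Not at hs
  have hz0 : 0 < z := by linarith [hs.1]
  have hη : |deriv η z| ≤ 2 * M * (1 + j) ∧ |deriv (deriv η) z| ≤ 4 * M * (1 + j ^ 2) := by
    by_cases h1 : z ≤ lam ρ₀
    · have e : j = (lam ρ₀)⁻¹ := by rw [hj, if_pos h1]
      have e1 : M / (lam ρ₀ - lam ρ₀ / 2) = 2 * M * j := by rw [e]; field_simp; ring
      have e2 : M / (lam ρ₀ - lam ρ₀ / 2) ^ 2 = 4 * M * j ^ 2 := by rw [e]; field_simp; ring
      obtain ⟨u1, u2⟩ := l z h1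
      rw [e1] at u1
      rw [e2] at u2
      constructor <;> nlinarith
    · have e : j = 0 := by rw [hj, if_neg h1]
      have hs1 : 1 ≤ ρ₀ / 10 - ρ₀ / 20 := by linarith
      obtain ⟨u1, u2⟩ := r z (not_le.1 h1).le
      have v1 := div_le_self (by linarith : 0 ≤ M) hs1
      have v2 := div_le_self (by linarith : 0 ≤ M) (one_le_pow₀ (n := 2) hs1)
      rw [e]
      constructor <;> nlinarith
  have haρ : a * ρ₀ = 3 * k / 10 := by rw [ha]; field_simp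
  have w1 : 2 * a * z ≤ k := by nlinarith [hs.2]
  have w2 : 2 * a ≤ k := by nlinarith
  have w0 : 0 ≤ 2 * a * z := by positivity
  obtain ⟨u1, u2⟩ := gg2_mul hf c (t := z) (a := k) (a' := k + k ^ 2) he hk.le (by positivity)
    (by
      rw [gg2_gau1, abs_of_nonneg (by positivity)]
      exact mul_le_mul_of_nonneg_right w1 he)
    (by
      rw [gg2_gau1, gg2_gau2, abs_of_nonneg (by positivity)]
      exact mul_le_mul_of_nonneg_right (add_le_add w2 (pow_le_pow_left₀ w0 w1 2)) he)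
    (b0 z).1 (b0 z).2 hη.1 hη.2
  have hM0 : 0 ≤ M := by linarith
  refine ⟨u1.trans ?_, u2.trans ?_⟩ <;> refine mul_le_mul_of_nonneg_right ?_ he
  · have : 0 ≤ (k ^ 2 + 8 * (k * M) + 2 * M) * (1 + j) := by positivity
    nlinarith [mul_nonneg hk.le hj0]
  · have h1 : 1 + j ≤ 2 * (1 + j ^ 2) := by nlinarith [sq_nonneg (j - 1)]
    have h2 : k * M * (1 + j) ≤ k * M * (2 * (1 + j ^ 2)) := mul_le_mul_of_nonneg_left h1 hkM
    have h3 : 0 ≤ (k + k ^ 2) * j ^ 2 := by positivity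
    nlinarith

theorem exists_mj (hk : 0 < k) : ∃ M L' : ℝ, 1 ≤ M ∧ ∀ ρ₀, L' ≤ ρ₀ → ∃ m, Mj k ρ₀ M m := by
  obtain ⟨A, hA, HA⟩ := gg2_H hk
  obtain ⟨B, hB, HB'⟩ := gg2_Q hk
  refine ⟨2 * A + B, 20, by linarith, fun ρ₀ h => ?_⟩
  obtain ⟨H, cH, zH, bH, oH, dH⟩ := HA ρ₀ (by linarith)
  obtain ⟨Q, cQ, zQ, bQ, oQ, dQ⟩ := HB' ρ₀ h
  have hα : 0 < 9 / 10 * ρ₀ := by linarith
  have h0 : ∀ ρ, ρ ≤ 9 / 10 * ρ₀ → H ρ = 0 := fun ρ hρ => zH ρ (Or.inl hρ)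
  have hl0 : 0 < lam ρ₀ := lam_pos (by linarith)
  obtain ⟨s1, s2⟩ := cylp_supp zH zQ
  refine ⟨fun x => H (cyl x) * Q (x 2), cylp_contDiff cH cQ hα h0, s1, s2,
    fun x => mul_nonneg (bH _).1 (bQ _).1, fun x => mul_le_mul (bH _).2 (bQ _).2 (bQ _).1 (Real.exp_pos _).le,
    fun x hx => by rw [oH _ hx.1 hx.2.1, oQ _ hx.2.2.1 hx.2.2.2]; rfl, fun x => ?_, fun x => ?_⟩
  · refine (cylp_grad cH cQ hα h0 x).trans ?_
    obtain ⟨u1, -⟩ := dH (cyl x)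
    obtain ⟨v1, -⟩ := dQ (x 2)
    set j : ℝ := if x 2 ≤ lam ρ₀ then (lam ρ₀)⁻¹ else 0 with hj
    have hj0 : 0 ≤ j := by
      rw [hj]
      split_ifs <;> positivity
    unfold em
    set f := Real.exp (k * cyl x)
    set E := Real.exp (3 * k * x 2 ^ 2 / (10 * ρ₀))
    have hf : 0 ≤ f := (Real.exp_pos _).le
    have hE : 0 ≤ E := (Real.exp_pos _).le
    rw [abs_of_nonneg (bH _).1, abs_of_nonneg (bQ _).1]
    have t1 : |deriv H (cyl x)| * Q (x 2) ≤ A * f * E := mul_le_mul u1 (bQ _).2 (bQ _).1 (by positivity)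
    have t2 : H (cyl x) * |deriv Q (x 2)| ≤ f * (B * (1 + j) * E) := mul_le_mul (bH _).2 v1 (abs_nonneg _) hf
    have t3 : 0 ≤ A * (1 + 2 * j) * (f * E) := by positivity
    nlinarith
  · rw [cylp_lap cH cQ hα h0 x]
    obtain ⟨u1, u2⟩ := dH (cyl x)
    obtain ⟨-, v2⟩ := dQ (x 2)
    set j : ℝ := if x 2 ≤ lam ρ₀ then (lam ρ₀)⁻¹ ^ 2 else 0 with hj
    have hj0 : 0 ≤ j := by
      rw [hj]
      split_ifs <;> positivity
    unfold em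
    set f := Real.exp (k * cyl x)
    set E := Real.exp (3 * k * x 2 ^ 2 / (10 * ρ₀))
    have hf : 0 ≤ f := (Real.exp_pos _).le
    have hE : 0 ≤ E := (Real.exp_pos _).le
    have u3 : |deriv H (cyl x) / cyl x| ≤ A * f := by
      rcases le_total (cyl x) (9 / 10 * ρ₀) with h1 | h1
      · rw [(deriv_zero_of_le cH h0 _ h1).1, zero_div, abs_zero]
        positivity
      · rw [abs_div, abs_of_nonneg (cyl_nonneg x)]
        exact (div_le_self (abs_nonneg _) (by linarith)).trans u1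
    have u4 : |deriv (deriv H) (cyl x) + deriv H (cyl x) / cyl x| ≤ 2 * A * f := (abs_add_le _ _).trans (by linarith)
    refine (abs_add_le _ _).trans ?_
    rw [abs_mul, abs_mul, abs_of_nonneg (bH _).1, abs_of_nonneg (bQ _).1]
    have t1 := mul_le_mul u4 (bQ (x 2)).2 (bQ _).1 (by positivity)
    have t2 : H (cyl x) * |deriv (deriv Q) (x 2)| ≤ f * (B * (1 + j) * E) :=
      mul_le_mul (bH _).2 v2 (abs_nonneg _) hf
    have t3 : 0 ≤ A * j * (f * E) := by positivity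
    nlinarith

end Crest.Agent.R335
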