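import Crest.Agent.R335.Gg1

/-!
# R335/Gg3: the three vertical kernels.  Multiply `1`, `k z²`, `√(z² + ε²)` (`ε = ρ₀⁻²`) by an even plateau function `χ`, `χ = 1` on `|z| ≤ ρ₀/40`, `χ = 0` on `|z| ≥ ρ₀/20`
(e.g. `χ z = (1 - σ z)(1 - σ (-z))`; prove its existence first, with `|χ'|, |χ''| ≤ M/ρ₀`).  `t ≤ exp t`.
-/

set_option autoImplicit false

namespace Crest.Agent.R335

open MeasureTheory Set Filter Topology
open scoped Gradient RealInnerProductSpace ENNReal ContDiff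
open Crest.MathPhysics.ThreeBody

variable {k b L C c e1 e2 : ℝ} {R d V0 S v φ u ψ : E3 → ℝ} {GR Gd Gφ Gu Gψ : E3 → E3}

/-- an even plateau function -/
theorem gg3a_chi : ∃ M : ℝ, 1 ≤ M ∧ ∀ ρ₀ : ℝ, 0 < ρ₀ → ∃ χ : ℝ → ℝ, ContDiff ℝ 2 χ ∧ (∀ z, χ (-z) = χ z) ∧
    (∀ z, |χ z| ≤ 1) ∧ (∀ z, ρ₀ / 20 ≤ |z| → χ z = 0) ∧
    (∀ z, |deriv χ z| ≤ M / ρ₀ ∧ |deriv (deriv χ) z| ≤ M / ρ₀ ^ 2) ∧
    ∀ z, |z| ≤ ρ₀ / 40 → χ z = 1 ∧ deriv χ z = 0 ∧ deriv (deriv χ) z = 0 := by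
  obtain ⟨M, hM, h⟩ := exists_step
  refine ⟨3200 * M + 3200 * M ^ 2, by nlinarith, fun ρ₀ hρ => ?_⟩
  obtain ⟨σ, sm, b01, z0, z1, db, dz⟩ := h (-(ρ₀ / 20)) (-(ρ₀ / 40)) (by linarith)
  have ew : -(ρ₀ / 40) - -(ρ₀ / 20) = ρ₀ / 40 := by ring
  rw [ew] at db
  have sm' : ContDiff ℝ 2 fun z => σ (-z) := sm.comp contDiff_neg
  have d1 : deriv (fun z => σ (-z)) = fun z => -deriv σ (-z) := funext fun z => deriv_comp_neg σ z
  have d2 : ∀ z, deriv (deriv fun z => σ (-z)) z = deriv (deriv σ) (-z) := fun z => by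
    rw [d1, deriv.fun_neg, deriv_comp_neg, neg_neg]
  have ab : ∀ t, |σ t| ≤ 1 := fun t => by rw [abs_of_nonneg (b01 t).1]; exact (b01 t).2
  have e1 : M / (ρ₀ / 40) = 40 * M / ρ₀ := by field_simp
  have e2 : M / (ρ₀ / 40) ^ 2 = 1600 * M / ρ₀ ^ 2 := by field_simp; norm_num
  rw [e1, e2] at db
  have mb : ∀ {a b A B : ℝ}, |a| ≤ A → |b| ≤ B → |a * b| ≤ A * B := fun ha hb => by
    rw [abs_mul]; exact mul_le_mul ha hb (abs_nonneg _) ((abs_nonneg _).trans ha)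
  refine ⟨fun z => σ z * σ (-z), sm.mul sm', fun z => by simp [mul_comm], fun z => ?_, fun z hz => ?_,
    fun z => ?_, fun z hz => ?_⟩
  · simpa using mb (ab z) (ab (-z))
  · rcases le_abs'.1 hz with h | h
    · simp [z0 z h]
    · simp [z0 (-z) (by linarith)]
  · obtain ⟨p1, p2⟩ := deriv2_mul sm sm' z
    rw [p1, p2, d2, d1]
    constructor
    · have a1 := mb (db z).1 (ab (-z))
      have a2 := mb (ab z) ((abs_neg _).trans_le (db (-z)).1)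
      refine (abs_add_le _ _).trans ((add_le_add a1 a2).trans ?_)
      rw [mul_one, one_mul, ← add_div]
      exact div_le_div_of_nonneg_right (by nlinarith) hρ.le
    · have a1 := mb (db z).2 (ab (-z))
      have a2 := mb (db z).1 ((abs_neg _).trans_le (db (-z)).1)
      have a3 := mb (ab z) (db (-z)).2
      refine ((abs_add_le _ _).trans (add_le_add (abs_add_le _ _) a3)).trans ?_
      rw [abs_mul 2, abs_two]
      have e3 : 40 * M / ρ₀ * (40 * M / ρ₀) = 1600 * M ^ 2 / ρ₀ ^ 2 := by field_simp; norm_num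
      have e4 : (3200 * M + 3200 * M ^ 2) / ρ₀ ^ 2 =
          1600 * M / ρ₀ ^ 2 * 1 + 2 * (1600 * M ^ 2 / ρ₀ ^ 2) + 1 * (1600 * M / ρ₀ ^ 2) := by ring
      rw [e3] at a2
      rw [e4]
      linarith
  · obtain ⟨h1, h2⟩ := abs_le.1 hz
    obtain ⟨p1, p2⟩ := deriv2_mul sm sm' z
    have q1 := dz z (Or.inr h1)
    have q2 := dz (-z) (Or.inr (by linarith))
    rw [p1, p2, d2, d1]
    simp [z1 z h1, z1 (-z) (by linarith), q1.1, q1.2, q2.1, q2.2]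

theorem exists_Q0 (hk : 0 < k) : ∃ M : ℝ, 1 ≤ M ∧ ∀ ρ₀, 1 ≤ ρ₀ → ∃ Q, QB k ρ₀ M Q ∧
    ∀ z, |z| < ρ₀ / 40 → Q z = 1 ∧ deriv (deriv Q) z = 0 := by
  obtain ⟨M, hM, h⟩ := gg3a_chi
  refine ⟨M, hM, fun ρ₀ hρ => ?_⟩
  obtain ⟨χ, sm, ev, b1, z0, db, one⟩ := h ρ₀ (by linarith)
  have he : ∀ z, M ≤ M * Real.exp (k * z ^ 2 / (20 * ρ₀)) := fun z =>
    le_mul_of_one_le_right (by linarith) (Real.one_le_exp (by positivity))
  have h1 : M / ρ₀ ≤ M := div_le_self (by linarith) hρ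
  have h2 : M / ρ₀ ^ 2 ≤ M := div_le_self (by linarith) (one_le_pow₀ hρ)
  exact ⟨χ, ⟨sm, by linarith, ev, z0, fun z => ⟨(b1 z).trans (hM.trans (he z)), (db z).1.trans (h1.trans (he z))⟩,
    fun z _ => (db z).2.trans (h2.trans (he z))⟩, fun z hz => ⟨(one z hz.le).1, (one z hz.le).2.2⟩⟩

theorem exists_Q2 (hk : 0 < k) : ∃ M : ℝ, 1 ≤ M ∧ ∀ ρ₀, 1 ≤ ρ₀ → ∃ Q, QB k ρ₀ (M * ρ₀) Q ∧
    ∀ z, |z| < ρ₀ / 40 → Q z = k * z ^ 2 ∧ deriv (deriv Q) z = 2 * k := by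
  obtain ⟨M, hM, h⟩ := gg3a_chi
  have hkM : 0 ≤ k * M := by positivity
  refine ⟨6 * (k * M) + 100 * M, by linarith, fun ρ₀ hρ => ?_⟩
  have hρ0 : 0 < ρ₀ := by linarith
  obtain ⟨χ, sm, ev, b1, z0, db, one⟩ := h ρ₀ hρ0
  have sq : ContDiff ℝ 2 fun z : ℝ => k * z ^ 2 := by fun_prop
  have d1 : deriv (fun z : ℝ => k * z ^ 2) = fun z => 2 * k * z := funext fun z => by
    simp; ring
  have d2 : ∀ z, deriv (deriv fun z : ℝ => k * z ^ 2) z = 2 * k := fun z => by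
    rw [d1]; simp
  have mb : ∀ {a b A B : ℝ}, |a| ≤ A → |b| ≤ B → |a * b| ≤ A * B := fun ha hb => by
    rw [abs_mul]; exact mul_le_mul ha hb (abs_nonneg _) ((abs_nonneg _).trans ha)
  have key : ∀ z, |k * z ^ 2 * χ z| ≤ (6 * (k * M) + 100 * M) * ρ₀ * Real.exp (k * z ^ 2 / (20 * ρ₀)) ∧
      |deriv (fun z => k * z ^ 2 * χ z) z| ≤ (6 * (k * M) + 100 * M) * ρ₀ * Real.exp (k * z ^ 2 / (20 * ρ₀)) ∧
      |deriv (deriv fun z => k * z ^ 2 * χ z) z| ≤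
        (6 * (k * M) + 100 * M) * ρ₀ * Real.exp (k * z ^ 2 / (20 * ρ₀)) := by
    intro z
    set e := Real.exp (k * z ^ 2 / (20 * ρ₀)) with he
    have e1 : 1 ≤ e := Real.one_le_exp (by positivity)
    have e2 : k * z ^ 2 / (20 * ρ₀) ≤ e := by linarith [Real.add_one_le_exp (k * z ^ 2 / (20 * ρ₀))]
    have w1 : 1 ≤ ρ₀ * e := one_le_mul_of_one_le_of_one_le hρ e1
    set w := ρ₀ * e with hw
    have s0 : |k * z ^ 2| ≤ 20 * w := by
      rw [abs_of_nonneg (by positivity)]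
      rw [div_le_iff₀ (by positivity)] at e2
      linarith
    have s1 : |2 * k * z| ≤ (2 * k + 40) * w := by
      have t1 : |z| ≤ 1 + z ^ 2 := by nlinarith [sq_abs z, sq_nonneg (|z| - 1)]
      rw [abs_of_nonneg (by positivity)] at s0
      rw [abs_mul, abs_of_nonneg (by positivity)]
      nlinarith [mul_le_mul_of_nonneg_left t1 hk.le, mul_le_mul_of_nonneg_left w1 hk.le]
    have s2 : |2 * k| ≤ 2 * k * w := by
      rw [abs_of_nonneg (by positivity)]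
      exact le_mul_of_one_le_right (by positivity) w1
    have h1 : |deriv χ z| ≤ M := (db z).1.trans (div_le_self (by linarith) hρ)
    have h2 : |deriv (deriv χ) z| ≤ M := (db z).2.trans (div_le_self (by linarith) (one_le_pow₀ hρ))
    have w0 : 0 ≤ w := by linarith
    have kw : k * w ≤ k * M * w := mul_le_mul_of_nonneg_right (le_mul_of_one_le_right hk.le hM) w0
    have Mw : w ≤ M * w := le_mul_of_one_le_left w0 hM
    have kMw : 0 ≤ k * M * w := mul_nonneg hkM w0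
    obtain ⟨p1, p2⟩ := deriv2_mul sq sm z
    rw [p1, p2, d2, d1, mul_assoc _ ρ₀, ← hw]
    refine ⟨(mb s0 (b1 z)).trans (by nlinarith), ?_, ?_⟩
    · refine ((abs_add_le _ _).trans (add_le_add (mb s1 (b1 z)) (mb s0 h1))).trans ?_
      nlinarith
    · refine ((abs_add_le _ _).trans (add_le_add (abs_add_le _ _) (mb s0 h2))).trans ?_
      have a1 := mb s2 (b1 z)
      have a2 := mb s1 h1
      rw [abs_mul 2 (_ * _), abs_two]
      nlinarith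
  refine ⟨fun z => k * z ^ 2 * χ z, ⟨sq.mul sm, by positivity, fun z => by simp [ev], fun z hz => by simp [z0 z hz],
    fun z => ⟨(key z).1, (key z).2.1⟩, fun z _ => (key z).2.2⟩, fun z hz => ?_⟩
  obtain ⟨o1, o2, o3⟩ := one z hz.le
  rw [(deriv2_mul sq sm z).2, d2, o2, o3]
  simp [o1]

end Crest.Agent.R335
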