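import Crest.Agent.R335.Gg1

/-!
# R335/Gh1: the one dimensional profile.  `θ` = plateau function for `(0,1,2,3)` (take a smooth `ContDiffBump` or `exists_plateau`), `Θ t = ∫_0^t θ`, `η t = ∫_0^t exp (2 k s) θ s`,
`ζ t = (Θ t - exp (-2 k t) η t)/(2 k)`; then `ζ' = exp (-2 k t) η t`.
-/

set_option autoImplicit false

namespace Crest.Agent.R335

open MeasureTheory Set Filter Topology
open scoped Gradient RealInnerProductSpace ENNReal ContDiff
open Crest.MathPhysics.ThreeBody

variable {k b L C c e1 e2 : ℝ} {R d V0 S v φ u ψ : E3 → ℝ} {GR Gd Gφ Gu Gψ : E3 → E3}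

theorem gh1_ftc {f : ℝ → ℝ} (hf : Continuous f) (t : ℝ) :
    HasDerivAt (fun t => ∫ s in (0 : ℝ)..t, f s) (f t) t :=
  (hf.integral_hasStrictDerivAt 0 t).hasDerivAt

theorem gh1_zero {f : ℝ → ℝ} (h : ∀ s, s ≤ 0 → f s = 0) {t : ℝ} (ht : t ≤ 0) :
    ∫ s in (0 : ℝ)..t, f s = 0 := by
  rw [intervalIntegral.integral_congr (g := fun _ => (0 : ℝ))]
  · simp
  · intro s hs
    rw [uIcc_of_ge ht] at hs
    exact h s hs.2

theorem exists_zeta (hk : 0 < k) : ∃ (θ ζ : ℝ → ℝ) (M : ℝ), 1 ≤ M ∧ Continuous θ ∧ (∀ t, 0 ≤ θ t ∧ θ t ≤ 1) ∧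
    (∀ t, t ≤ 0 ∨ 3 ≤ t → θ t = 0) ∧ (∀ t, 1 ≤ t → t ≤ 2 → θ t = 1) ∧ ContDiff ℝ 2 ζ ∧ (∀ t, t ≤ 0 → ζ t = 0) ∧
    Monotone ζ ∧ 0 < ζ 3 ∧ (∀ t, ζ t ≤ M) ∧ (∀ t, 0 ≤ deriv ζ t ∧ deriv ζ t ≤ M ∧ deriv ζ t ≤ M * Real.exp (-(2 * k * t))) ∧
    (∀ t, deriv (deriv ζ) t + 2 * k * deriv ζ t = θ t) ∧
    ∀ t t', t' ≤ t → ζ t - ζ t' ≤ M * Real.exp (-(2 * k * t')) := by
  set θ : ℝ → ℝ := fun t => max 0 (min 1 (min t (3 - t))) with hθ
  have θc : Continuous θ := by rw [hθ]; fun_prop
  have θ0 : ∀ t, 0 ≤ θ t := fun t => le_max_left _ _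
  have θ1 : ∀ t, θ t ≤ 1 := fun t => max_le zero_le_one (min_le_left _ _)
  have θz : ∀ t, t ≤ 0 ∨ 3 ≤ t → θ t = 0 := fun t ht => by
    refine max_eq_left ((min_le_right _ _).trans ?_)
    rcases ht with ht | ht
    · exact (min_le_left _ _).trans ht
    · exact (min_le_right _ _).trans (by linarith)
  have θo : ∀ t, 1 ≤ t → t ≤ 2 → θ t = 1 := fun t h1 h2 => by
    have : min 1 (min t (3 - t)) = 1 := min_eq_left (le_min h1 (by linarith))
    simp only [hθ, this]
    exact max_eq_right zero_le_one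
  have θp : ∀ t, 0 < t → t < 3 → 0 < θ t := fun t h1 h2 =>
    lt_max_of_lt_right (lt_min one_pos (lt_min h1 (by linarith)))
  set f : ℝ → ℝ := fun s => Real.exp (2 * k * s) * θ s with hf
  have fc : Continuous f := by rw [hf]; fun_prop
  set η : ℝ → ℝ := fun t => ∫ s in (0 : ℝ)..t, f s with hη
  have ηd : ∀ t, HasDerivAt η (f t) t := gh1_ftc fc
  have ηz : ∀ t, t ≤ 0 → η t = 0 := fun t ht =>
    gh1_zero (fun s hs => by simp only [hf, θz s (Or.inl hs), mul_zero]) ht
  have ηm : Monotone η := monotone_of_deriv_nonneg (fun t => (ηd t).differentiableAt) fun t => by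
    rw [(ηd t).deriv]
    exact mul_nonneg (Real.exp_pos _).le (θ0 t)
  have η0 : ∀ t, 0 ≤ η t := fun t => by
    rcases le_total t 0 with h | h
    · exact (ηz t h).ge
    · exact (ηz 0 le_rfl).ge.trans (ηm h)
  have η3 : ∀ t, η t ≤ η 3 := fun t => by
    rcases le_total t 3 with h | h
    · exact ηm h
    · have h1 := intervalIntegral.integral_interval_sub_left (fc.intervalIntegrable (μ := volume) 0 t)
        (fc.intervalIntegrable 0 3)
      have h2 : ∫ s in (3 : ℝ)..t, f s = 0 := by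
        rw [intervalIntegral.integral_congr (g := fun _ => (0 : ℝ))]
        · simp
        · intro s hs
          rw [uIcc_of_le h] at hs
          simp only [hf, θz s (Or.inr hs.1), mul_zero]
      have h3 : η t - η 3 = 0 := h1.trans h2
      linarith
  have ηp : ∀ t, 0 < t → t < 3 → 0 < η t := fun t h1 h2 =>
    intervalIntegral.intervalIntegral_pos_of_pos_on (fc.intervalIntegrable 0 t)
      (fun s hs => mul_pos (Real.exp_pos _) (θp s hs.1 (hs.2.trans h2))) h1
  have ed : ∀ t, HasDerivAt (fun t => Real.exp (-(2 * k * t))) (Real.exp (-(2 * k * t)) * -(2 * k)) t :=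
    fun t => by
      have h1 : HasDerivAt (fun t : ℝ => -(2 * k * t)) (-(2 * k)) t := by
        simpa using ((hasDerivAt_id t).const_mul (2 * k)).fun_neg
      exact h1.exp
  set g : ℝ → ℝ := fun t => Real.exp (-(2 * k * t)) * η t with hg
  have gd : ∀ t, HasDerivAt g (θ t - 2 * k * g t) t := fun t => by
    have h1 := (ed t).fun_mul (ηd t)
    have h2 : Real.exp (-(2 * k * t)) * Real.exp (2 * k * t) = 1 := by
      rw [← Real.exp_add]; simp
    refine h1.congr_deriv ?_
    simp only [hg, hf]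
    rw [← mul_assoc (Real.exp (-(2 * k * t))) (Real.exp (2 * k * t)), h2]
    ring
  have gc : Continuous g := continuous_iff_continuousAt.2 fun t => (gd t).continuousAt
  have g1 : ContDiff ℝ 1 g := by
    rw [contDiff_one_iff_deriv]
    refine ⟨fun t => (gd t).differentiableAt, ?_⟩
    have : deriv g = fun t => θ t - 2 * k * g t := funext fun t => (gd t).deriv
    rw [this]
    fun_prop
  have g0 : ∀ t, 0 ≤ g t := fun t => mul_nonneg (Real.exp_pos _).le (η0 t)
  have gz : ∀ t, t ≤ 0 → g t = 0 := fun t ht => by simp only [hg, ηz t ht, mul_zero]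
  set A := η 3 with hA
  have A0 : 0 ≤ A := η0 3
  have gA : ∀ t, g t ≤ A * Real.exp (-(2 * k * t)) := fun t => by
    rw [mul_comm]
    exact mul_le_mul_of_nonneg_left (η3 t) (Real.exp_pos _).le
  set ζ : ℝ → ℝ := fun t => ∫ s in (0 : ℝ)..t, g s with hζ
  have ζd : ∀ t, HasDerivAt ζ (g t) t := gh1_ftc gc
  have ζD : deriv ζ = g := funext fun t => (ζd t).deriv
  have ζz : ∀ t, t ≤ 0 → ζ t = 0 := fun t ht => gh1_zero gz ht
  have B0 : 0 ≤ A / (2 * k) := by positivity
  have hanti : Antitone (fun t => ζ t + A / (2 * k) * Real.exp (-(2 * k * t))) := by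
    have h1 : ∀ t, HasDerivAt (fun t => ζ t + A / (2 * k) * Real.exp (-(2 * k * t)))
        (g t + A / (2 * k) * (Real.exp (-(2 * k * t)) * -(2 * k))) t :=
      fun t => (ζd t).add ((ed t).const_mul _)
    refine antitone_of_deriv_nonpos (fun t => (h1 t).differentiableAt) fun t => ?_
    rw [(h1 t).deriv]
    have h2 : A / (2 * k) * (Real.exp (-(2 * k * t)) * -(2 * k)) = -(A * Real.exp (-(2 * k * t))) := by
      field_simp
    rw [h2]
    linarith [gA t]
  have hdiff : ∀ t t', t' ≤ t → ζ t - ζ t' ≤ A / (2 * k) * Real.exp (-(2 * k * t')) := fun t t' h => by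
    have h1 : ζ t + A / (2 * k) * Real.exp (-(2 * k * t)) ≤
        ζ t' + A / (2 * k) * Real.exp (-(2 * k * t')) := hanti h
    have h2 : 0 ≤ A / (2 * k) * Real.exp (-(2 * k * t)) := by positivity
    linarith
  refine ⟨θ, ζ, 1 + A + A / (2 * k), by linarith, θc, fun t => ⟨θ0 t, θ1 t⟩, θz, θo, ?_, ζz, ?_, ?_, ?_,
    ?_, ?_, ?_⟩
  · rw [show (2 : WithTop ℕ∞) = 1 + 1 from rfl, contDiff_succ_iff_deriv, ζD]
    exact ⟨fun t => (ζd t).differentiableAt, by simp, g1⟩
  · refine monotone_of_deriv_nonneg (fun t => (ζd t).differentiableAt) fun t => ?_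
    rw [ζD]
    exact g0 t
  · exact intervalIntegral.intervalIntegral_pos_of_pos_on (gc.intervalIntegrable 0 3)
      (fun s hs => mul_pos (Real.exp_pos _) (ηp s hs.1 hs.2)) (by norm_num)
  · intro t
    rcases le_total t 0 with h | h
    · rw [ζz t h]; linarith
    · have h1 := hdiff t 0 h
      rw [ζz 0 le_rfl] at h1
      simp only [mul_zero, neg_zero, Real.exp_zero, mul_one, sub_zero] at h1
      linarith
  · intro t
    rw [ζD]
    refine ⟨g0 t, ?_, (gA t).trans (mul_le_mul_of_nonneg_right (by linarith) (Real.exp_pos _).le)⟩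
    rcases le_total t 0 with h | h
    · rw [gz t h]; linarith
    · have h1 : Real.exp (-(2 * k * t)) ≤ 1 := Real.exp_le_one_iff.2 (by nlinarith)
      have h2 := (gA t).trans (mul_le_of_le_one_right A0 h1)
      linarith
  · intro t
    rw [ζD, (gd t).deriv]
    ring
  · intro t t' h
    exact (hdiff t t' h).trans (mul_le_mul_of_nonneg_right (by linarith) (Real.exp_pos _).le)

end Crest.Agent.R335
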