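import Crest.Agent.R335.Ge

/-!
# R335/Gi1: size of the defect of the Kato inequality.
On the box of `Mj`: `Tail.R_sub_d` with `(1 + z)²/z ≤ 4/λ₀ + 2 z` (`z ≥ λ₀/2`), `gfun_up`, `em * gfun ≤ M ρ₀^(b-2) exp (-k z²/(30 ρ₀))`, `‖x‖ ≥ 0.9 ρ₀`.  So a.e.
`Ethree ≤ M' ρ₀^(b-6) ((λ₀⁻¹ + |z|) exp (-k z²/(30 ρ₀)) + λ₀⁻³ 1_{0 ≤ z ≤ λ₀})` on the shell, `0` off the support (`lap m = 0` off `tsupport m`: `R83.lap_congr`, `R83.lap_const`).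
`abs_integral_le_shell`, `gauss_mom` (`j = 0, 1`); `λ₀⁻¹ ρ₀^(1/2), ρ₀, λ₀⁻² ≤ ρ₀^(6/5)`.
-/

set_option autoImplicit false

namespace Crest.Agent.R335

open MeasureTheory Set Filter Topology
open scoped Gradient RealInnerProductSpace ENNReal ContDiff
open Crest.MathPhysics.ThreeBody

variable {k b L C c e1 e2 : ℝ} {R d V0 S v φ u ψ : E3 → ℝ} {GR Gd Gφ Gu Gψ : E3 → E3}

theorem gi1_alg {A C M W l z n g e D Lp V m S R J : ℝ} (hA : 0 ≤ A) (hC : 1 ≤ C) (hM : 0 ≤ M) (hW : 0 ≤ W)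
    (hl : 0 < l) (hl1 : l ≤ 1) (hz : l / 2 ≤ z) (hn : 1 ≤ n) (hg : 0 ≤ g)
    (hJ : J = 0 ∨ (J = 1 ∧ z ≤ l)) (hD : |D| ≤ A * ((1 + z) ^ 2 / (z * n ^ 4)) * g)
    (hL : |Lp| ≤ M * (1 + J * l⁻¹ ^ 2) * e) (hV : |V| ≤ W) (hm0 : 0 ≤ m) (hm : m ≤ e)
    (hS : |S| ≤ C * (1 + |z|) / n ^ 4 * g) (hR0 : 0 ≤ R) (hR : R ≤ C * (|z| + (1 + |z|) / n ^ 2) * g) :
    |(|D| * |Lp - 2 * V * m| + 2 * |S| * m + 4 * C * (R * m / n ^ 4))| ≤
      (5 * A * (M + 2 * W) + 2 * C + 8 * C ^ 2) * (g * e / n ^ 4) * (l⁻¹ + z + l⁻¹ ^ 3 * J) := by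
  have hz0 : 0 < z := by linarith
  have he : 0 ≤ e := hm0.trans hm
  have hJ0 : 0 ≤ J := by
    rcases hJ with h | h
    · exact h.ge
    · exact h.1 ▸ zero_le_one
  rw [abs_of_pos hz0] at hS hR
  have hu : 1 ≤ l⁻¹ := (one_le_inv₀ hl).2 hl1
  have hzu : z⁻¹ ≤ 2 * l⁻¹ := by
    rw [show 2 * l⁻¹ = (l / 2)⁻¹ by field_simp]
    exact inv_anti₀ (by positivity) hz
  generalize l⁻¹ = u at *
  have hn0 : 0 < n := by linarith
  have hC0 : 0 ≤ C := by linarith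
  have hu0 : 0 ≤ u := by linarith
  have hB : u + z ≤ u + z + u ^ 3 * J := le_add_of_nonneg_right (by positivity)
  have h1 : (1 + z) ^ 2 / (z * n ^ 4) ≤ (4 * u + z) / n ^ 4 := by
    have : (1 + z) ^ 2 / z = z⁻¹ + 2 + z := by
      field_simp
      ring
    rw [← div_div]
    exact div_le_div_of_nonneg_right (by linarith) (by positivity)
  have h2 : |Lp - 2 * V * m| ≤ (M + 2 * W + M * J * u ^ 2) * e := by
    have a1 : |2 * V * m| ≤ 2 * W * e := by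
      rw [abs_mul, abs_mul, abs_two, abs_of_nonneg hm0]
      gcongr
    have a2 := abs_sub Lp (2 * V * m)
    linarith
  have h3 : (4 * u + z) * (M + 2 * W + M * J * u ^ 2) ≤ 5 * (M + 2 * W) * (u + z + u ^ 3 * J) := by
    have a1 : 0 ≤ (M + 2 * W) * (u + 4 * z) := by positivity
    rcases hJ with h | h
    · rw [h]
      linarith
    · have a2 : 0 ≤ M * u ^ 2 * (u - z) := mul_nonneg (by positivity) (by linarith [h.2])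
      have a3 : 0 ≤ W * u ^ 3 := by positivity
      rw [h.1]
      linarith
  have hq : 0 ≤ g * e / n ^ 4 := by positivity
  have t1 : |D| * |Lp - 2 * V * m| ≤ 5 * A * (M + 2 * W) * (g * e / n ^ 4) * (u + z + u ^ 3 * J) :=
    calc |D| * |Lp - 2 * V * m| ≤ (A * ((4 * u + z) / n ^ 4) * g) * ((M + 2 * W + M * J * u ^ 2) * e) :=
          mul_le_mul (hD.trans (by gcongr)) h2 (abs_nonneg _) (by positivity)
      _ = A * (g * e / n ^ 4) * ((4 * u + z) * (M + 2 * W + M * J * u ^ 2)) := by ring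
      _ ≤ A * (g * e / n ^ 4) * (5 * (M + 2 * W) * (u + z + u ^ 3 * J)) := by gcongr
      _ = _ := by ring
  have t2 : 2 * |S| * m ≤ 2 * C * (g * e / n ^ 4) * (u + z + u ^ 3 * J) :=
    calc 2 * |S| * m ≤ 2 * (C * (1 + z) / n ^ 4 * g) * e := by gcongr
      _ = 2 * C * (g * e / n ^ 4) * (1 + z) := by ring
      _ ≤ _ := mul_le_mul_of_nonneg_left (by linarith) (by positivity)
  have t3 : 4 * C * (R * m / n ^ 4) ≤ 8 * C ^ 2 * (g * e / n ^ 4) * (u + z + u ^ 3 * J) := by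
    have a1 : (1 + z) / n ^ 2 ≤ 1 + z := div_le_self (by positivity) (one_le_pow₀ hn)
    have a2 : R ≤ C * (2 * (u + z + u ^ 3 * J)) * g :=
      hR.trans (mul_le_mul_of_nonneg_right (mul_le_mul_of_nonneg_left (by linarith) hC0) hg)
    calc 4 * C * (R * m / n ^ 4) ≤ 4 * C * (C * (2 * (u + z + u ^ 3 * J)) * g * e / n ^ 4) := by gcongr
      _ = _ := by ring
  rw [abs_of_nonneg (by positivity)]
  linarith

theorem gi1_off {m : E3 → ℝ} {x : E3} (hx : x ∉ tsupport m) : Ethree C R d V0 S m x = 0 := by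
  have h1 : m =ᶠ[𝓝 x] fun _ => 0 := notMem_tsupport_iff_eventuallyEq.1 hx
  have h2 : lap m x = 0 := (R83.lap_congr h1).trans (R83.lap_const 0 x)
  simp [Ethree, h2, h1.eq_of_nhds]

theorem gi1_pow {ρ : ℝ} (h : 1 ≤ ρ) (b : ℝ) : (lam ρ)⁻¹ * ρ ^ (1 / 2 : ℝ) ≤ ρ ^ (6 / 5 : ℝ) ∧
    ρ ^ ((1 + 1) / 2 : ℝ) ≤ ρ ^ (6 / 5 : ℝ) ∧ (lam ρ)⁻¹ ^ 3 * lam ρ = ρ ^ (6 / 5 : ℝ) ∧
      ρ ^ 2 * (ρ ^ (b - 2) / ρ ^ 4) * ρ ^ (6 / 5 : ℝ) = ρ ^ (b - 14 / 5) := by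
  have h0 : 0 < ρ := by linarith
  have e : (lam ρ)⁻¹ = ρ ^ (3 / 5 : ℝ) := by rw [lam, Real.rpow_neg h0.le, inv_inv]
  refine ⟨?_, Real.rpow_le_rpow_of_exponent_le h (by norm_num), ?_, ?_⟩
  · rw [e, ← Real.rpow_add h0]
    exact Real.rpow_le_rpow_of_exponent_le h (by norm_num)
  · rw [e, lam, ← Real.rpow_mul_natCast h0.le, ← Real.rpow_add h0]
    norm_num
  · rw [← Real.rpow_natCast ρ 2, ← Real.rpow_natCast ρ 4, ← Real.rpow_sub h0, ← Real.rpow_add h0, ← Real.rpow_add h0]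
    congr 1
    push_cast
    ring

theorem ethree_le (h : Red k b L C c R GR d Gd V0 S v e1 e2 φ Gφ u Gu ψ Gψ) {M : ℝ} (hM : 1 ≤ M) : ∃ C' L' : ℝ, 0 ≤ C' ∧ ∀ ρ₀ m, L' ≤ ρ₀ → Mj k ρ₀ M m →
    ∫ x, Ethree C R d V0 S m x ≤ C' * ρ₀ ^ (b - 14 / 5) := by
  have ht := h.tail
  have hk := ht.kpos
  have hC := ht.Cge
  have hc := ht.cpos
  have hL := ht.Lge
  obtain ⟨W, hW, hV⟩ := ht.V0_le
  obtain ⟨Mg, hMg, hg⟩ := gfun_up hk b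
  obtain ⟨M0, hM0, h0⟩ := gauss_mom (κ := k / 30) (by positivity) 0
  obtain ⟨M1, hM1, h1⟩ := gauss_mom (κ := k / 30) (by positivity) 1
  obtain ⟨K, hK⟩ : ∃ K, K = 5 * (C ^ 2 / c) * (M + 2 * W) + 2 * C + 8 * C ^ 2 := ⟨_, rfl⟩
  have hK0 : 0 ≤ K := by
    rw [hK]
    positivity
  refine ⟨10 * K * Mg * (M0 + M1 + 1), 2 * L, by positivity, fun ρ₀ m hρ hm => ?_⟩
  have hρ1 : 1 ≤ ρ₀ := by linarith
  have hρ0 : 0 < ρ₀ := by linarith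
  have hl := lam_pos hρ0
  have hl1 := lam_le_one hρ1
  obtain ⟨i0, j0⟩ := h0 ρ₀ hρ0
  obtain ⟨i1, j1⟩ := h1 ρ₀ hρ0
  simp only [pow_zero, one_mul, pow_one, Nat.cast_zero, zero_add, Nat.cast_one] at i0 j0 i1 j1
  have i2 : Integrable fun z => (Icc 0 (lam ρ₀)).indicator (1 : ℝ → ℝ) z :=
    (integrable_indicator_iff measurableSet_Icc).2 (integrableOn_const (by simp))
  have j2 : ∫ z, (Icc 0 (lam ρ₀)).indicator (1 : ℝ → ℝ) z = lam ρ₀ := by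
    rw [integral_indicator_one measurableSet_Icc]
    simp [hl.le]
  have i3 : Integrable fun z : ℝ => (lam ρ₀)⁻¹ * Real.exp (-(k / 30 * z ^ 2 / ρ₀)) +
      |z| * Real.exp (-(k / 30 * z ^ 2 / ρ₀)) := (i0.const_mul _).add i1
  have i4 : Integrable fun z : ℝ => (lam ρ₀)⁻¹ * Real.exp (-(k / 30 * z ^ 2 / ρ₀)) +
      |z| * Real.exp (-(k / 30 * z ^ 2 / ρ₀)) + (lam ρ₀)⁻¹ ^ 3 * (Icc 0 (lam ρ₀)).indicator (1 : ℝ → ℝ) z :=
    i3.add (i2.const_mul _)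
  have hP : 0 ≤ ρ₀ ^ (b - 2) / ρ₀ ^ 4 := by positivity
  have hI : ∀ z, 0 ≤ (Icc 0 (lam ρ₀)).indicator (1 : ℝ → ℝ) z := fun z =>
    indicator_nonneg (fun _ _ => zero_le_one) z
  have key := abs_integral_le_shell (α := 9 / 10 * ρ₀) (β := 7 / 5 * ρ₀) (F := Ethree C R d V0 S m)
    (by positivity) (by linarith) (i4.const_mul (2 * K * Mg * (ρ₀ ^ (b - 2) / ρ₀ ^ 4))) ?_
    (Eventually.of_forall fun x hx => gi1_off fun h => hx ⟨(hm.sub h).1, (hm.sub h).2.1⟩)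
  · obtain ⟨p1, p2, p3, p4⟩ := gi1_pow hρ1 b
    rw [integral_const_mul, integral_add i3 (i2.const_mul _), integral_add (i0.const_mul _) i1, integral_const_mul,
      integral_const_mul, j2, p3] at key
    have a1 : (lam ρ₀)⁻¹ * ∫ z : ℝ, Real.exp (-(k / 30 * z ^ 2 / ρ₀)) ≤ M0 * ρ₀ ^ (6 / 5 : ℝ) :=
      calc _ ≤ (lam ρ₀)⁻¹ * (M0 * ρ₀ ^ (1 / 2 : ℝ)) := by gcongr
        _ = M0 * ((lam ρ₀)⁻¹ * ρ₀ ^ (1 / 2 : ℝ)) := by ring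
        _ ≤ _ := by gcongr
    have a2 := j1.trans (mul_le_mul_of_nonneg_left p2 hM1)
    have a3 : Real.pi * ((7 / 5 * ρ₀) ^ 2 - (9 / 10 * ρ₀) ^ 2) ≤ 5 * ρ₀ ^ 2 := by
      nlinarith [Real.pi_le_four, sq_nonneg ρ₀]
    have a4 : 0 ≤ ∫ z : ℝ, Real.exp (-(k / 30 * z ^ 2 / ρ₀)) := integral_nonneg fun z => (Real.exp_pos _).le
    have a5 : 0 ≤ ∫ z : ℝ, |z| * Real.exp (-(k / 30 * z ^ 2 / ρ₀)) := integral_nonneg fun z => by positivity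
    refine (le_abs_self _).trans (key.trans ?_)
    calc _ ≤ 5 * ρ₀ ^ 2 * (2 * K * Mg * (ρ₀ ^ (b - 2) / ρ₀ ^ 4) * ((M0 + M1 + 1) * ρ₀ ^ (6 / 5 : ℝ))) :=
          mul_le_mul a3 (mul_le_mul_of_nonneg_left (by linarith) (by positivity)) (by positivity) (by positivity)
      _ = 10 * K * Mg * (M0 + M1 + 1) * (ρ₀ ^ 2 * (ρ₀ ^ (b - 2) / ρ₀ ^ 4) * ρ₀ ^ (6 / 5 : ℝ)) := by ring
      _ = _ := by rw [p4]
  filter_upwards [ht.R_sub_d, ht.Sle, ht.R_le] with x hD hS hR _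
  by_cases hx : x ∈ tsupport m
  swap
  · rw [gi1_off hx, abs_zero]
    have := hI (x 2)
    positivity
  obtain ⟨b1, b2, b3, b4⟩ := hm.sub hx
  have n1 := cyl_le_norm x
  have hz : 0 < x 2 := by linarith
  have hxL : L < ‖x‖ := by linarith
  have hg0 : 0 ≤ gfun k b x := (gfun_pos k b (norm_pos_iff.1 (by linarith))).le
  have hJ : (Icc 0 (lam ρ₀)).indicator (1 : ℝ → ℝ) (x 2) = if x 2 ≤ lam ρ₀ then 1 else 0 := by
    simp [indicator, hz.le]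
  have k1 := gi1_alg (A := C ^ 2 / c) (J := (Icc 0 (lam ρ₀)).indicator (1 : ℝ → ℝ) (x 2)) (D := R x - d x)
    (Lp := lap m x) (by positivity) hC (zero_le_one.trans hM) hW hl hl1 b3 (hL.trans hxL.le) hg0
    (by rw [hJ]; split_ifs with h' <;> simp [h'])
    (by rw [abs_of_nonneg (hD hxL hz).1]; exact (hD hxL hz).2)
    (by rw [hJ, ite_mul, one_mul, zero_mul]; exact hm.lapl x) (hV x hxL) (hm.nn x) (hm.le x) (hS hxL) (ht.R0 x) (hR hxL)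
  rw [← hK] at k1
  refine k1.trans ?_
  have hE : Real.exp (-(k / 30 * x 2 ^ 2 / ρ₀)) ≤ 1 := Real.exp_le_one_iff.2 (neg_nonpos.2 (by positivity))
  have k2 : gfun k b x * em k ρ₀ x ≤ Mg * ρ₀ ^ (b - 2) * Real.exp (-(k / 30 * x 2 ^ 2 / ρ₀)) := by
    have he : 0 ≤ em k ρ₀ x := by
      unfold em
      positivity
    refine (mul_le_mul_of_nonneg_right (hg ρ₀ x hρ0 (by linarith) b2 (by rwa [abs_of_pos hz])) he).trans_eq ?_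
    rw [em, mul_assoc, ← Real.exp_add, ← Real.exp_add, ← Real.exp_add]
    congr 2
    field_simp
    ring
  have k3 : ρ₀ ^ 4 / 2 ≤ ‖x‖ ^ 4 := by
    have : (9 / 10 * ρ₀) ^ 4 ≤ ‖x‖ ^ 4 := pow_le_pow_left₀ (by positivity) (by linarith) 4
    nlinarith [pow_pos hρ0 4]
  have k4 := hI (x 2)
  calc _ ≤ K * (Mg * ρ₀ ^ (b - 2) * Real.exp (-(k / 30 * x 2 ^ 2 / ρ₀)) / (ρ₀ ^ 4 / 2)) *
        ((lam ρ₀)⁻¹ + x 2 + (lam ρ₀)⁻¹ ^ 3 * (Icc 0 (lam ρ₀)).indicator (1 : ℝ → ℝ) (x 2)) := by gcongr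
    _ = 2 * K * Mg * (ρ₀ ^ (b - 2) / ρ₀ ^ 4) * ((lam ρ₀)⁻¹ * Real.exp (-(k / 30 * x 2 ^ 2 / ρ₀)) +
        x 2 * Real.exp (-(k / 30 * x 2 ^ 2 / ρ₀)) +
        (lam ρ₀)⁻¹ ^ 3 * (Icc 0 (lam ρ₀)).indicator (1 : ℝ → ℝ) (x 2) * Real.exp (-(k / 30 * x 2 ^ 2 / ρ₀))) := by
      field_simp
    _ ≤ _ := by
      rw [abs_of_pos hz]
      exact mul_le_mul_of_nonneg_left (add_le_add le_rfl (mul_le_of_le_one_right (by positivity) hE)) (by positivity)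

end Crest.Agent.R335
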