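import Crest.Agent.R335.Ge

/-!
# R335/Gi2: weighted Caccioppoli inequality.
`FB.kin_le` and `Eig.loc` (`m` is `C¹` with compact support, so `m`, `∇m` are bounded): `∫ ‖m G + w ∇m‖² ≤ C ∫ (m² + ‖∇m‖²) w²`, hence `∫ m² ‖G‖² ≤ C ∫ (m² + ‖∇m‖²) w²`.  On the box
`(m² + ‖∇m‖²) w² ≤ C W² ρ₀^(2b-4) (1 + z²) exp (-k z²/(15 ρ₀))` (`gfun_up`; `z² λ₀⁻² ≤ 1` for `z ≤ λ₀`).  `abs_integral_le_shell`, `gauss_mom` (`j = 0, 2`).
-/

set_option autoImplicit false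

namespace Crest.Agent.R335

open MeasureTheory Set Filter Topology
open scoped Gradient RealInnerProductSpace ENNReal ContDiff
open Crest.MathPhysics.ThreeBody

variable {k b L C c e1 e2 : ℝ} {R d V0 S v φ u ψ : E3 → ℝ} {GR Gd Gφ Gu Gψ : E3 → E3}

theorem gi2_int {p q : E3 → ℝ} (hp : Continuous p) {N : ℝ} (hN : ∀ x, |p x| ≤ N) (hq : Integrable q) :
    Integrable fun x => p x ^ 2 * q x :=
  hq.bdd_mul (c := N ^ 2) (hp.pow 2).aestronglyMeasurable (Eventually.of_forall fun x => by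
    rw [Real.norm_eq_abs, abs_pow]
    exact pow_le_pow_left₀ (abs_nonneg _) (hN x) 2)

/-- Caccioppoli inequality -/
theorem gi2_cacc (hv : FB v) (e : ℝ) : ∃ K : ℝ, 0 ≤ K ∧ ∀ (m w : E3 → ℝ) (G : E3 → E3), ContDiff ℝ 1 m →
    HasCompactSupport m → Eig v e w G → Integrable (fun x => m x ^ 2 * ‖G x‖ ^ 2) ∧
      ∫ x, m x ^ 2 * ‖G x‖ ^ 2 ≤ K * ∫ x, (m x ^ 2 + ‖∇ m x‖ ^ 2) * w x ^ 2 := by
  obtain ⟨C, hC, hkin⟩ := hv.kin_le
  refine ⟨2 * (4 * |e| + C) + 6, by positivity, fun m w G hm hc hw => ?_⟩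
  have hg : Continuous (∇ m) := s1a_grad_cont hm
  obtain ⟨N1, hN1⟩ := hm.continuous.bounded_above_of_compact_support hc
  obtain ⟨N2, hN2⟩ := hg.bounded_above_of_compact_support
    (HasCompactSupport.intro hc fun x hx => s1a_grad_zero hx)
  have b1 : ∀ x, |m x| ≤ max N1 N2 := fun x => (hN1 x).trans (le_max_left _ _)
  have b2 : ∀ x, ‖∇ m x‖ ≤ max N1 N2 := fun x => (hN2 x).trans (le_max_right _ _)
  have hH := hw.h1.mul_c1_cpt hm hc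
  have h1 := hkin _ _ hH
  have h2 := Eig.loc hv hw hm b1 b2
  have iG : Integrable fun x => ‖G x‖ ^ 2 := (memLp_two_iff_integrable_sq_norm hw.h1.mG.1).1 hw.h1.mG
  have iw : Integrable fun x => w x ^ 2 := hw.h1.mf.integrable_sq
  have iJ : Integrable fun x => ‖m x • G x + w x • ∇ m x‖ ^ 2 :=
    (memLp_two_iff_integrable_sq_norm hH.mG.1).1 hH.mG
  have i1 := gi2_int hm.continuous b1 iG
  have i2 := gi2_int hm.continuous b1 iw
  have i3 := gi2_int hg.norm (fun x => by rw [abs_norm]; exact b2 x) iw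
  refine ⟨i1, ?_⟩
  have e1 : nsq (fun x => m x * w x) = ∫ x, m x ^ 2 * w x ^ 2 := by
    simp only [nsq, mul_pow]
  have e2 : ∫ x, (m x ^ 2 + ‖∇ m x‖ ^ 2) * w x ^ 2 =
      (∫ x, m x ^ 2 * w x ^ 2) + ∫ x, ‖∇ m x‖ ^ 2 * w x ^ 2 := by
    rw [← integral_add i2 i3]
    simp only [add_mul]
  have h3 : ∫ x, m x ^ 2 * ‖G x‖ ^ 2 ≤
      ∫ x, (2 * ‖m x • G x + w x • ∇ m x‖ ^ 2 + 2 * (‖∇ m x‖ ^ 2 * w x ^ 2)) := by
    refine integral_mono i1 ((iJ.const_mul 2).add (i3.const_mul 2)) fun x => ?_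
    have t1 : ‖m x • G x‖ ≤ ‖m x • G x + w x • ∇ m x‖ + ‖w x • ∇ m x‖ := by
      have := norm_sub_le (m x • G x + w x • ∇ m x) (w x • ∇ m x)
      rwa [add_sub_cancel_right] at this
    have t2 : m x ^ 2 * ‖G x‖ ^ 2 = ‖m x • G x‖ ^ 2 := by
      rw [norm_smul, mul_pow, Real.norm_eq_abs, sq_abs]
    have t3 : ‖∇ m x‖ ^ 2 * w x ^ 2 = ‖w x • ∇ m x‖ ^ 2 := by
      rw [norm_smul, mul_pow, Real.norm_eq_abs, sq_abs, mul_comm]
    simp only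
    rw [t2, t3]
    have t4 := pow_le_pow_left₀ (norm_nonneg _) t1 2
    nlinarith [sq_nonneg (‖m x • G x + w x • ∇ m x‖ - ‖w x • ∇ m x‖)]
  rw [integral_add (iJ.const_mul 2) (i3.const_mul 2), integral_const_mul, integral_const_mul] at h3
  rw [e1] at h1 h2
  rw [e2]
  have nA : 0 ≤ ∫ x, m x ^ 2 * w x ^ 2 := integral_nonneg fun x => by positivity
  have nB : 0 ≤ ∫ x, ‖∇ m x‖ ^ 2 * w x ^ 2 := integral_nonneg fun x => by positivity
  have h4 := mul_le_mul_of_nonneg_right (le_abs_self e) nA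
  have h5 : 0 ≤ (4 * |e| + C) * ∫ x, ‖∇ m x‖ ^ 2 * w x ^ 2 := by positivity
  nlinarith

theorem gi2_alg {m g w W z E T γ M l : ℝ} (hM : 1 ≤ M) (hz : 0 ≤ z) (hm0 : 0 ≤ m) (hm : m ≤ E)
    (hg0 : 0 ≤ g) (hl0 : 0 ≤ l) (hl : z * l ≤ 1) (hg : g ≤ M * (1 + l) * E) (hγ : 0 ≤ γ)
    (hw : |w| ≤ W * z * γ) (hT : E * γ ≤ T) :
    (m ^ 2 + g ^ 2) * w ^ 2 ≤ 3 * M ^ 2 * W ^ 2 * T ^ 2 * (1 + z ^ 2) := by
  have hE : 0 ≤ E := hm0.trans hm
  have hT0 : 0 ≤ T := (mul_nonneg hE hγ).trans hT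
  have hw' : |w| ≤ |W| * z * γ :=
    hw.trans (mul_le_mul_of_nonneg_right (mul_le_mul_of_nonneg_right (le_abs_self W) hz) hγ)
  have hW := abs_nonneg W
  have h1 : m * |w| ≤ M * (|W| * T) * z :=
    calc m * |w| ≤ E * (|W| * z * γ) := mul_le_mul hm hw' (abs_nonneg _) hE
      _ = 1 * (|W| * (E * γ)) * z := by ring
      _ ≤ M * (|W| * T) * z := by gcongr
  have h2 : g * |w| ≤ M * (|W| * T) * (z + 1) :=
    calc g * |w| ≤ M * (1 + l) * E * (|W| * z * γ) :=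
          mul_le_mul hg hw' (abs_nonneg _) (by positivity)
      _ = M * (|W| * (E * γ)) * (z + z * l) := by ring
      _ ≤ M * (|W| * T) * (z + 1) := by gcongr
  have h3 := pow_le_pow_left₀ (by positivity) h1 2
  have h4 := pow_le_pow_left₀ (by positivity) h2 2
  simp only [mul_pow, sq_abs] at h3 h4
  obtain ⟨X, hX⟩ : ∃ X, X = M ^ 2 * (W ^ 2 * T ^ 2) := ⟨_, rfl⟩
  have hX0 : 0 ≤ X := by rw [hX]; positivity
  have e : 3 * M ^ 2 * W ^ 2 * T ^ 2 * (1 + z ^ 2) = X * (3 * (1 + z ^ 2)) := by rw [hX]; ring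
  rw [← hX] at h3 h4
  have h5 : X * (z ^ 2 + (z + 1) ^ 2) ≤ X * (3 * (1 + z ^ 2)) :=
    mul_le_mul_of_nonneg_left (by nlinarith [sq_nonneg (z - 1)]) hX0
  rw [e]
  linarith

theorem cacc_mj (hv : FB v) (hk : 0 < k) (b e : ℝ) {M : ℝ} (hM : 1 ≤ M) : ∃ C' : ℝ, 0 ≤ C' ∧
    ∀ (ρ₀ W : ℝ) (m w : E3 → ℝ) (G : E3 → E3), 1 ≤ ρ₀ → Mj k ρ₀ M m → Eig v e w G →
      (∀ x ∈ box (9 / 10 * ρ₀) (7 / 5 * ρ₀) (lam ρ₀ / 2) (ρ₀ / 10), |w x| ≤ W * x 2 * gfun k b x) →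
      Integrable (fun x => m x ^ 2 * ‖G x‖ ^ 2) ∧ ∫ x, m x ^ 2 * ‖G x‖ ^ 2 ≤ C' * W ^ 2 * ρ₀ ^ (2 * b - 1 / 2) := by
  obtain ⟨K, hK, hcac⟩ := gi2_cacc hv e
  obtain ⟨M', hM', hup⟩ := gfun_up hk b
  obtain ⟨M0, hM0, g0⟩ := gauss_mom (κ := k / 15) (by positivity) 0
  obtain ⟨M2, hM2, g2⟩ := gauss_mom (κ := k / 15) (by positivity) 2
  refine ⟨K * (5 * (3 * M ^ 2 * M' ^ 2) * (M0 + M2)), by positivity, fun ρ₀ W m w G h1 hm hw hb => ?_⟩
  have h0 : 0 < ρ₀ := one_pos.trans_le h1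
  obtain ⟨i1, i2⟩ := hcac m w G (hm.sm.of_le one_le_two) hm.cpt hw
  refine ⟨i1, i2.trans ?_⟩
  obtain ⟨a0, a1⟩ := g0 ρ₀ h0
  obtain ⟨b0, b1⟩ := g2 ρ₀ h0
  obtain ⟨Y, hY⟩ : ∃ Y, Y = 3 * M ^ 2 * W ^ 2 * (M' * ρ₀ ^ (b - 2)) ^ 2 := ⟨_, rfl⟩
  have hY0 : 0 ≤ Y := by rw [hY]; positivity
  have hoff : ∀ x, x ∉ box (9 / 10 * ρ₀) (7 / 5 * ρ₀) (lam ρ₀ / 2) (ρ₀ / 10) →
      (m x ^ 2 + ‖∇ m x‖ ^ 2) * w x ^ 2 = 0 := by
    intro x hx
    have hx' : x ∉ tsupport m := fun h => hx (hm.sub h)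
    rw [image_eq_zero_of_notMem_tsupport hx', s1a_grad_zero hx']
    simp
  have hl : 0 < lam ρ₀ := Real.rpow_pos_of_pos h0 _
  have key := abs_integral_le_shell (α := 9 / 10 * ρ₀) (β := 7 / 5 * ρ₀) (by positivity) (by linarith)
    (F := fun x => (m x ^ 2 + ‖∇ m x‖ ^ 2) * w x ^ 2) ((a0.add b0).const_mul Y)
    (Eventually.of_forall fun x _ => by
      by_cases hx : x ∈ box (9 / 10 * ρ₀) (7 / 5 * ρ₀) (lam ρ₀ / 2) (ρ₀ / 10)
      · obtain ⟨x1, x2, x3, x4⟩ := id hx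
        have hz : 0 ≤ x 2 := by linarith
        have hγ : 0 ≤ gfun k b x := by unfold gfun; positivity
        have hT : em k ρ₀ x * gfun k b x ≤
            M' * ρ₀ ^ (b - 2) * Real.exp (-(k * x 2 ^ 2 / (30 * ρ₀))) := by
          refine (mul_le_mul_of_nonneg_left (hup ρ₀ x h0 (by linarith) x2 (by rwa [abs_of_nonneg hz]))
            (by unfold em; positivity)).trans (le_of_eq ?_)
          have e : Real.exp (-(k * x 2 ^ 2 / (30 * ρ₀))) = em k ρ₀ x *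
              (Real.exp (-(k * cyl x)) * Real.exp (-(k * x 2 ^ 2 / (3 * ρ₀)))) := by
            unfold em
            rw [← Real.exp_add, ← Real.exp_add, ← Real.exp_add]
            congr 1
            field_simp
            ring
          rw [e]
          ring
        have h3 := gi2_alg (l := if x 2 ≤ lam ρ₀ then (lam ρ₀)⁻¹ else 0) hM hz (hm.nn x) (hm.le x)
          (norm_nonneg _) (by split_ifs <;> positivity) (by
            split_ifs with h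
            · rw [← div_eq_mul_inv, div_le_one hl]
              exact h
            · simp) (hm.grad x) hγ (hb x hx) hT
        rw [abs_of_nonneg (by positivity)]
        refine h3.trans (le_of_eq ?_)
        have e : Real.exp (-(k * x 2 ^ 2 / (30 * ρ₀))) ^ 2 = Real.exp (-(k / 15 * x 2 ^ 2 / ρ₀)) := by
          rw [← Real.exp_nat_mul]
          congr 1
          field_simp
          ring
        simp only [Pi.add_apply, pow_zero, sq_abs]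
        rw [mul_pow (M' * ρ₀ ^ (b - 2)), e, hY]
        ring
      · simp only [hoff x hx, abs_zero, Pi.add_apply]
        positivity)
    (Eventually.of_forall fun x hx => hoff x fun h => hx ⟨h.1, h.2.1⟩)
  rw [integral_const_mul, integral_add' a0 b0] at key
  have c1 : ρ₀ ^ ((((0 : ℕ) : ℝ) + 1) / 2) ≤ ρ₀ ^ (3 / 2 : ℝ) :=
    Real.rpow_le_rpow_of_exponent_le h1 (by norm_num)
  have c2 : ρ₀ ^ ((((2 : ℕ) : ℝ) + 1) / 2) = ρ₀ ^ (3 / 2 : ℝ) := by norm_num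
  have c3 := add_le_add (a1.trans (mul_le_mul_of_nonneg_left c1 hM0)) (b1.trans_eq (by rw [c2]))
  have c4 : Real.pi * ((7 / 5 * ρ₀) ^ 2 - (9 / 10 * ρ₀) ^ 2) ≤ 5 * ρ₀ ^ 2 := by
    have := mul_le_mul_of_nonneg_right Real.pi_le_four (sq_nonneg ρ₀)
    nlinarith
  have c5 : ρ₀ ^ (2 * b - 1 / 2) = (ρ₀ ^ (b - 2)) ^ 2 * ρ₀ ^ 2 * ρ₀ ^ (3 / 2 : ℝ) := by
    rw [← Real.rpow_natCast (ρ₀ ^ (b - 2)), ← Real.rpow_mul h0.le, ← Real.rpow_natCast ρ₀ 2,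
      ← Real.rpow_add h0, ← Real.rpow_add h0]
    congr 1
    push_cast
    ring
  have c6 := (le_abs_self _).trans (key.trans (mul_le_mul c4 (mul_le_mul_of_nonneg_left c3 hY0)
    (mul_nonneg hY0 (add_nonneg (integral_nonneg fun z => by positivity)
      (integral_nonneg fun z => by positivity))) (by positivity)))
  refine (mul_le_mul_of_nonneg_left c6 hK).trans (le_of_eq ?_)
  rw [c5, hY]
  ring

end Crest.Agent.R335
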