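import Crest.Agent.R335.Gi2
import Crest.Agent.R335.Gg2

/-!
# R335/Gi3: the error caused by `φ`.
`ω = 2^m ρ₀^(-m)`; on the box of `Mj`: `φ ≤ ω z g` (`PhiB`, `lam_le_mul`), `|u|, |ψ| ≤ M z g` (`Red.crude`).  On the inner box `B` put `E = exp (k ρ) exp (k z²/(20 ρ₀))`, `τ₀ = λ₀⁻¹ ρ₀^(2-b)`,
`Y = ‖Gu‖ + ‖Gψ‖`.  `φ/u ≤ ω/c` (`ulow`), `E/u ≤ C τ₀ em²` (`gfun_low`, `z ≥ λ₀`), `E²/em² ≤ exp (-k z²/(2 ρ₀))`.  With `x y ≤ x² + y²` and `X (E/λ₀) ≤ τ₀ em² X² + E²/(λ₀² τ₀ em²)`, `ω ≤ 2^m`: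
`Efour ≤ C t (τ₀ m² ‖Gφ‖² + ω² τ₀ m² (‖Gu‖² + ‖Gψ‖²) + ω² 1_B (λ₀⁻² τ₀⁻¹ + ρ₀^(b-2) |z|) exp (-k z²/(4 ρ₀)))`, and `Efour ≥ 0`.  `integral_mono_of_nonneg`, `cacc_mj`, `shell_int`, `gauss_mom`.
It pays to isolate the pointwise inequality as a lemma about real numbers.
-/

set_option autoImplicit false

namespace Crest.Agent.R335

open MeasureTheory Set Filter Topology
open scoped Gradient RealInnerProductSpace ENNReal ContDiff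
open Crest.MathPhysics.ThreeBody

variable {k b L C c e1 e2 : ℝ} {R d V0 S v φ u ψ : E3 → ℝ} {GR Gd Gφ Gu Gψ : E3 → E3}

/-- the pointwise inequality -/
theorem gi3_pt {V f w T g X Y t p s K E e MV A : ℝ} (ht : 0 ≤ t) (hs : 0 < s) (hw : 0 < w) (hf : 0 ≤ f)
    (hp : f / w ≤ p) (hX : 0 ≤ X) (hY : 0 ≤ Y) (hT : |T| ≤ t * E) (hg0 : 0 ≤ g) (hg : g ≤ t * e) (he : 0 ≤ e)
    (hK : E / w ≤ K * s) (hK0 : 0 ≤ K) (hV : |V| ≤ MV) (hA : f * E ≤ A) :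
    8 * |V| * (f ^ 2 / w) * |T| + (2 * (f / w) * X + 2 * (f / w) ^ 2 * Y) * (2 * g + |T| * Y / w) ≤
      t * (8 * MV * p * A + (2 + K) * (s * X ^ 2) + p ^ 2 * (3 * K + 2) * (s * Y ^ 2) + 4 * p ^ 2 * (e ^ 2 / s)) := by
  have hq : 0 ≤ f / w := div_nonneg hf hw.le
  have hp0 : 0 ≤ p := hq.trans hp
  have hMV : 0 ≤ MV := (abs_nonneg _).trans hV
  have h1 : 8 * |V| * (f ^ 2 / w) * |T| ≤ t * (8 * MV * p * A) := by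
    have h2 : f * |T| ≤ t * A := by
      calc f * |T| ≤ f * (t * E) := mul_le_mul_of_nonneg_left hT hf
        _ = t * (f * E) := by ring
        _ ≤ t * A := mul_le_mul_of_nonneg_left hA ht
    have h3 : 0 ≤ f * |T| := mul_nonneg hf (abs_nonneg _)
    calc 8 * |V| * (f ^ 2 / w) * |T| = 8 * (|V| * (f / w)) * (f * |T|) := by ring
      _ ≤ 8 * (MV * p) * (t * A) := by gcongr
      _ = _ := by ring
  have h2 : |T| * Y / w ≤ t * (K * s) * Y := by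
    have h3 : |T| / w ≤ t * (K * s) := by
      calc |T| / w ≤ t * E / w := div_le_div_of_nonneg_right hT hw.le
        _ = t * (E / w) := by ring
        _ ≤ t * (K * s) := mul_le_mul_of_nonneg_left hK ht
    calc |T| * Y / w = |T| / w * Y := by ring
      _ ≤ _ := mul_le_mul_of_nonneg_right h3 hY
  have h3 : (2 * (f / w) * X + 2 * (f / w) ^ 2 * Y) * (2 * g + |T| * Y / w) ≤
      (2 * p * X + 2 * p ^ 2 * Y) * (2 * (t * e) + t * (K * s) * Y) := by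
    have h4 : 0 ≤ |T| * Y / w := div_nonneg (mul_nonneg (abs_nonneg _) hY) hw.le
    gcongr
  have am : ∀ a c : ℝ, 2 * a * c ≤ s * a ^ 2 + c ^ 2 / s := fun a c => by
    have h5 : s * a ^ 2 + c ^ 2 / s - 2 * a * c = (s * a - c) ^ 2 / s := by
      field_simp
      ring
    have h6 : 0 ≤ (s * a - c) ^ 2 / s := by positivity
    linarith
  have h4 : (2 * p * X + 2 * p ^ 2 * Y) * (2 * e + K * s * Y) ≤
      (2 + K) * (s * X ^ 2) + p ^ 2 * (3 * K + 2) * (s * Y ^ 2) + 4 * p ^ 2 * (e ^ 2 / s) := by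
    have b1 := am X (p * e)
    have b2 := mul_le_mul_of_nonneg_left (am Y e) (sq_nonneg p)
    have b3 : 2 * X * (p * Y) ≤ X ^ 2 + (p * Y) ^ 2 := two_mul_le_add_sq _ _
    have b4 := mul_le_mul_of_nonneg_left b3 (mul_nonneg hK0 hs.le)
    have b5 : (p * e) ^ 2 / s = p ^ 2 * (e ^ 2 / s) := by ring
    rw [b5] at b1
    nlinarith
  have h5 := mul_le_mul_of_nonneg_left h4 ht
  nlinarith

theorem gi3_exp1 {r y : ℝ} (hy : 0 ≤ y) : Real.exp r * Real.exp (y / 20) ≤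
    (Real.exp r * Real.exp (3 * y / 10)) ^ 2 * (Real.exp (-r) * Real.exp (-(y / 2))) := by
  simp only [sq, ← Real.exp_add]
  exact Real.exp_le_exp.2 (by linarith)

theorem gi3_exp2 {r y : ℝ} (hy : 0 ≤ y) : (Real.exp r * Real.exp (y / 20)) ^ 2 ≤
    Real.exp (-(y / 4)) * (Real.exp r * Real.exp (3 * y / 10)) ^ 2 := by
  simp only [sq, ← Real.exp_add]
  exact Real.exp_le_exp.2 (by linarith)

theorem gi3_exp3 {r y : ℝ} (hy : 0 ≤ y) :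
    Real.exp (-r) * Real.exp (-(y / 3)) * (Real.exp r * Real.exp (y / 20)) ≤ Real.exp (-(y / 4)) := by
  simp only [← Real.exp_add]
  exact Real.exp_le_exp.2 (by linarith)

theorem gi3_pow1 {ρ : ℝ} (h : 0 < ρ) (b : ℝ) : ρ ^ (13 / 5 - b) * lam ρ * ρ ^ (b - 2) = 1 := by
  rw [lam, ← Real.rpow_add h, ← Real.rpow_add h, ← Real.rpow_zero ρ]
  congr 1
  ring

theorem gi3_pow2 {ρ : ℝ} (h : 0 < ρ) (b n : ℝ) :
    ρ ^ (13 / 5 - b) * (ρ ^ (-n)) ^ 2 * ρ ^ (2 * b - 1 / 2) = ρ ^ (b + 21 / 10 - 2 * n) := by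
  rw [sq, ← Real.rpow_add h, ← Real.rpow_add h, ← Real.rpow_add h]
  congr 1
  ring

theorem gi3_pow3 {ρ : ℝ} (h : 1 ≤ ρ) (b n : ℝ) :
    ρ ^ 2 * (ρ ^ (-n)) ^ 2 * ρ ^ (b - 2) * ρ ^ ((((1 : ℕ) : ℝ) + 1) / 2) ≤ ρ ^ (b + 21 / 10 - 2 * n) := by
  have h0 : 0 < ρ := one_pos.trans_le h
  rw [← Real.rpow_natCast ρ 2, sq, ← Real.rpow_add h0, ← Real.rpow_add h0, ← Real.rpow_add h0, ← Real.rpow_add h0]
  refine Real.rpow_le_rpow_of_exponent_le h ?_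
  push_cast
  linarith

theorem gi3_pow4 {ρ : ℝ} (h : 1 ≤ ρ) (b n : ℝ) :
    ρ ^ 2 * (ρ ^ (-n)) ^ 2 * (((lam ρ)⁻¹) ^ 2 / ρ ^ (13 / 5 - b)) * ρ ^ ((((0 : ℕ) : ℝ) + 1) / 2) ≤
      ρ ^ (b + 21 / 10 - 2 * n) := by
  have h0 : 0 < ρ := one_pos.trans_le h
  rw [lam, ← Real.rpow_neg h0.le, ← Real.rpow_natCast ρ 2, sq, sq, ← Real.rpow_add h0, ← Real.rpow_add h0,
    ← Real.rpow_add h0, ← Real.rpow_sub h0, ← Real.rpow_add h0, ← Real.rpow_add h0]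
  refine Real.rpow_le_rpow_of_exponent_le h ?_
  push_cast
  linarith

/-- bounds on the outer box -/
theorem gi3_outer (h : Red k b L C c R GR d Gd V0 S v e1 e2 φ Gφ u Gu ψ Gψ) {n : ℝ} (hφ : PhiB k b φ n) :
    ∃ M N L' : ℝ, 0 ≤ M ∧ 0 ≤ N ∧ 1 ≤ L' ∧ ∀ ρ₀, L' ≤ ρ₀ →
      ∀ x ∈ box (9 / 10 * ρ₀) (7 / 5 * ρ₀) (lam ρ₀ / 2) (ρ₀ / 10),
        L < ‖x‖ ∧ 0 < x 2 ∧ 0 < gfun k b x ∧ 0 < φ x ∧ φ x ≤ N * ρ₀ ^ (-n) * x 2 * gfun k b x ∧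
        c * x 2 * gfun k b x ≤ u x ∧ |u x| ≤ M * x 2 * gfun k b x ∧ |ψ x| ≤ M * x 2 * gfun k b x := by
  obtain ⟨M, L1, hM, hL1, hcr, -⟩ := h.crude
  obtain ⟨L2, hL2⟩ := hφ
  obtain ⟨N, hN, hcmp⟩ := rpow_cmp (-n)
  refine ⟨M, N, max (max (2 * L1) (2 * L2)) 1, by linarith, by linarith, le_max_right _ _, fun ρ₀ hρ x hx => ?_⟩
  have r1 : 2 * L1 ≤ ρ₀ := ((le_max_left _ _).trans (le_max_left _ _)).trans hρ
  have r2 : 2 * L2 ≤ ρ₀ := ((le_max_right _ _).trans (le_max_left _ _)).trans hρ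
  have r3 : 1 ≤ ρ₀ := (le_max_right _ _).trans hρ
  obtain ⟨x1, x2, x3, x4⟩ := hx
  have hc : 0 < cyl x := by linarith
  have hl : 0 < lam ρ₀ := Real.rpow_pos_of_pos (by linarith) _
  have hl2 : lam (cyl x) ≤ 2 * lam ρ₀ := lam_le_mul (by linarith) hc (by norm_num) (by linarith)
  have hz : 0 < x 2 := by linarith
  have hn := cyl_le_norm x
  have hg : 0 < gfun k b x := gfun_pos k b (norm_pos_iff.1 (by linarith))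
  have hup : x ∈ upA := ⟨hc, hz⟩
  obtain ⟨u1, u2, u3⟩ := h.u_posG hup
  have hR := ((hcr x (by linarith)).2.2.2 (by linarith) (by linarith)).2
  refine ⟨by linarith, hz, hg, h.posφ x hc, ?_, h.ulow x (by linarith) (by linarith) (by linarith), ?_,
    u3.trans hR⟩
  · refine (hL2 x (by linarith) (by linarith) (by linarith)).trans ?_
    have := (hcmp ρ₀ (cyl x) (by linarith) (by linarith) (by linarith)).1
    gcongr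
  · rw [abs_of_pos u1]
    exact u2.trans hR

/-- the pointwise bound on the inner box -/
theorem gi3_inner (h : Red k b L C c R GR d Gd V0 S v e1 e2 φ Gφ u Gu ψ Gψ) {n : ℝ} (hφ : PhiB k b φ n) :
    ∃ A L' : ℝ, 0 ≤ A ∧ 1 ≤ L' ∧ ∀ (ρ₀ t : ℝ) (T : E3 → ℝ), L' ≤ ρ₀ → 0 ≤ t →
      ∀ x ∈ box ρ₀ (13 / 10 * ρ₀) (lam ρ₀) (ρ₀ / 20),
        |T x| ≤ t * (Real.exp (k * cyl x) * Real.exp (k * x 2 ^ 2 / (20 * ρ₀))) →
        ‖∇ T x‖ ≤ t / lam ρ₀ * (Real.exp (k * cyl x) * Real.exp (k * x 2 ^ 2 / (20 * ρ₀))) →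
        0 ≤ Efour V0 φ u Gφ Gu Gψ T x ∧ Efour V0 φ u Gφ Gu Gψ T x ≤
          t * A * (ρ₀ ^ (13 / 5 - b) * (em k ρ₀ x ^ 2 * ‖Gφ x‖ ^ 2) +
            ρ₀ ^ (13 / 5 - b) * (ρ₀ ^ (-n)) ^ 2 * (em k ρ₀ x ^ 2 * ‖Gu x‖ ^ 2 + em k ρ₀ x ^ 2 * ‖Gψ x‖ ^ 2) +
            ((ρ₀ ^ (-n)) ^ 2 * ρ₀ ^ (b - 2) * (|x 2| ^ 1 * Real.exp (-(k / 4 * x 2 ^ 2 / ρ₀))) +
              (ρ₀ ^ (-n)) ^ 2 * (((lam ρ₀)⁻¹) ^ 2 / ρ₀ ^ (13 / 5 - b)) *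
                (|x 2| ^ 0 * Real.exp (-(k / 4 * x 2 ^ 2 / ρ₀))))) := by
  obtain ⟨M, N, L1, hM, hN, hL1, ho⟩ := gi3_outer h hφ
  have hk := h.tail.kpos
  have hc := h.tail.cpos
  obtain ⟨MV, hMV, hV⟩ := h.tail.V0_le
  obtain ⟨Mu, hMu, hup⟩ := gfun_up hk b
  obtain ⟨Ml, hMl, hlow⟩ := gfun_low hk b
  set K := Ml / c with hK
  have hK0 : 0 ≤ K := by positivity
  set q := N / c with hq
  have hq0 : 0 ≤ q := by positivity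
  have c1 : 0 ≤ 2 + K := by positivity
  have c2 : 0 ≤ 2 * (q ^ 2 * (3 * K + 2)) := by positivity
  have c3 : 0 ≤ 8 * MV * q * (N * Mu) := by positivity
  have c4 : 0 ≤ 4 * q ^ 2 := by positivity
  refine ⟨(2 + K) + 2 * (q ^ 2 * (3 * K + 2)) + 8 * MV * q * (N * Mu) + 4 * q ^ 2, L1, by positivity, hL1,
    fun ρ₀ t T hρ ht x hx hT hT' => ?_⟩
  have r1 : 1 ≤ ρ₀ := hL1.trans hρ
  have r0 : 0 < ρ₀ := by linarith
  have hl : 0 < lam ρ₀ := Real.rpow_pos_of_pos r0 _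
  obtain ⟨x1, x2, x3, x4⟩ := hx
  obtain ⟨o1, o2, o3, o4, o5, o6, -, -⟩ := ho ρ₀ hρ x ⟨by linarith, by linarith, by linarith, by linarith⟩
  have hu : 0 < u x := lt_of_lt_of_le (by positivity) o6
  have hz : |x 2| = x 2 := abs_of_pos o2
  set y := k * x 2 ^ 2 / ρ₀ with hy
  have hy0 : 0 ≤ y := by positivity
  have y1 : k * x 2 ^ 2 / (20 * ρ₀) = y / 20 := by rw [hy]; ring
  have y2 : 3 * k * x 2 ^ 2 / (10 * ρ₀) = 3 * y / 10 := by rw [hy]; ring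
  have y3 : k * x 2 ^ 2 / (3 * ρ₀) = y / 3 := by rw [hy]; ring
  have y4 : k * x 2 ^ 2 / (2 * ρ₀) = y / 2 := by rw [hy]; ring
  have y5 : k / 4 * x 2 ^ 2 / ρ₀ = y / 4 := by rw [hy]; ring
  have g1 := hup ρ₀ x r0 (by linarith) (by linarith) (by rw [hz]; linarith)
  have g2 := hlow ρ₀ x r0 x1 (by linarith) (by rw [hz]; linarith)
  rw [y1] at hT hT'
  rw [y3] at g1
  rw [y4] at g2
  have hem : em k ρ₀ x = Real.exp (k * cyl x) * Real.exp (3 * y / 10) := by rw [em, y2]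
  have e1 := gi3_exp1 (r := k * cyl x) hy0
  have e2 := gi3_exp2 (r := k * cyl x) hy0
  have e3 := gi3_exp3 (r := k * cyl x) hy0
  rw [← hem] at e1 e2
  have hem0 : 0 < em k ρ₀ x := by rw [hem]; positivity
  have p1 := gi3_pow1 r0 b
  rw [y5, pow_one, pow_zero, one_mul, hz]
  set E := Real.exp (k * cyl x) * Real.exp (y / 20) with hE
  have hE0 : 0 < E := by positivity
  set τ := ρ₀ ^ (13 / 5 - b) with hτ
  have hτ0 : 0 < τ := Real.rpow_pos_of_pos r0 _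
  set w := ρ₀ ^ (-n) with hw
  have hw0 : 0 < w := Real.rpow_pos_of_pos r0 _
  set β := ρ₀ ^ (b - 2) with hβ
  have hβ0 : 0 < β := Real.rpow_pos_of_pos r0 _
  set D := Real.exp (-(y / 4)) with hD
  have hD0 : 0 < D := Real.exp_pos _
  have hs : 0 < τ * em k ρ₀ x ^ 2 := by positivity
  have a1 : φ x / u x ≤ q * w := by
    rw [div_le_iff₀ hu]
    calc φ x ≤ N * w * x 2 * gfun k b x := o5
      _ = q * w * (c * x 2 * gfun k b x) := by rw [hq]; field_simp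
      _ ≤ _ := by gcongr
  have a2 : E / u x ≤ K * (τ * em k ρ₀ x ^ 2) := by
    rw [div_le_iff₀ hu]
    calc E ≤ em k ρ₀ x ^ 2 * (Real.exp (-(k * cyl x)) * Real.exp (-(y / 2))) := e1
      _ = τ * lam ρ₀ * em k ρ₀ x ^ 2 * (β * (Real.exp (-(k * cyl x)) * Real.exp (-(y / 2)))) := by
        linear_combination (-(em k ρ₀ x ^ 2 * (Real.exp (-(k * cyl x)) * Real.exp (-(y / 2))))) * p1
      _ ≤ τ * x 2 * em k ρ₀ x ^ 2 * (Ml * gfun k b x) := by gcongr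
      _ = K * (τ * em k ρ₀ x ^ 2) * (c * x 2 * gfun k b x) := by rw [hK]; field_simp
      _ ≤ _ := by gcongr
  have a3 : φ x * E ≤ N * Mu * (w * β * (x 2 * D)) := by
    calc φ x * E ≤ N * w * x 2 * (Mu * β * (Real.exp (-(k * cyl x)) * Real.exp (-(y / 3)))) * E := by
          refine mul_le_mul_of_nonneg_right (o5.trans ?_) hE0.le
          gcongr
      _ = N * Mu * (w * β * (x 2 * (Real.exp (-(k * cyl x)) * Real.exp (-(y / 3)) * E))) := by ring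
      _ ≤ _ := by gcongr
  have a4 : (E / lam ρ₀) ^ 2 / (τ * em k ρ₀ x ^ 2) ≤ (lam ρ₀)⁻¹ ^ 2 / τ * D := by
    rw [div_le_iff₀ hs]
    calc (E / lam ρ₀) ^ 2 = (lam ρ₀)⁻¹ ^ 2 * E ^ 2 := by ring
      _ ≤ (lam ρ₀)⁻¹ ^ 2 * (D * em k ρ₀ x ^ 2) := by gcongr
      _ = _ := by field_simp
  have a5 : ‖∇ T x‖ ≤ t * (E / lam ρ₀) := hT'.trans_eq (by ring)
  have key := gi3_pt (X := ‖Gφ x‖) (Y := ‖Gu x‖ + ‖Gψ x‖) ht hs hu o4.le a1 (norm_nonneg _) (by positivity) hT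
    (norm_nonneg _) a5 (by positivity) a2 hK0 (hV x o1) a3
  refine ⟨?_, key.trans ?_⟩
  · unfold Efour
    have := o4.le
    positivity
  · rw [mul_assoc t]
    refine mul_le_mul_of_nonneg_left ?_ ht
    set I1 := τ * (em k ρ₀ x ^ 2 * ‖Gφ x‖ ^ 2) with hI1
    set I2 := τ * w ^ 2 * (em k ρ₀ x ^ 2 * ‖Gu x‖ ^ 2 + em k ρ₀ x ^ 2 * ‖Gψ x‖ ^ 2) with hI2
    set I3 := w ^ 2 * β * (x 2 * D) with hI3
    set I4 := w ^ 2 * ((lam ρ₀)⁻¹ ^ 2 / τ) * D with hI4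
    have i1 : 0 ≤ I1 := by positivity
    have i2 : 0 ≤ I2 := by positivity
    have i3 : 0 ≤ I3 := by positivity
    have i4 : 0 ≤ I4 := by positivity
    have b1 : (2 + K) * (τ * em k ρ₀ x ^ 2 * ‖Gφ x‖ ^ 2) = (2 + K) * I1 := by rw [hI1]; ring
    have b2 : (q * w) ^ 2 * (3 * K + 2) * (τ * em k ρ₀ x ^ 2 * (‖Gu x‖ + ‖Gψ x‖) ^ 2) ≤
        2 * (q ^ 2 * (3 * K + 2)) * I2 := by
      have b : (‖Gu x‖ + ‖Gψ x‖) ^ 2 ≤ 2 * (‖Gu x‖ ^ 2 + ‖Gψ x‖ ^ 2) := add_sq_le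
      calc _ ≤ (q * w) ^ 2 * (3 * K + 2) * (τ * em k ρ₀ x ^ 2 * (2 * (‖Gu x‖ ^ 2 + ‖Gψ x‖ ^ 2))) := by gcongr
        _ = _ := by rw [hI2]; ring
    have b3 : 8 * MV * (q * w) * (N * Mu * (w * β * (x 2 * D))) = 8 * MV * q * (N * Mu) * I3 := by
      rw [hI3]; ring
    have b4 : 4 * (q * w) ^ 2 * ((E / lam ρ₀) ^ 2 / (τ * em k ρ₀ x ^ 2)) ≤ 4 * q ^ 2 * I4 := by
      calc _ ≤ 4 * (q * w) ^ 2 * ((lam ρ₀)⁻¹ ^ 2 / τ * D) := by gcongr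
        _ = _ := by rw [hI4]; ring
    rw [b1, b3]
    generalize 2 + K = d1 at *
    generalize 2 * (q ^ 2 * (3 * K + 2)) = d2 at *
    generalize 8 * MV * q * (N * Mu) = d3 at *
    generalize 4 * q ^ 2 = d4 at *
    have : (d1 + d2 + d3 + d4) * (I1 + I2 + (I3 + I4)) = d1 * I1 + d2 * I2 + d3 * I3 + d4 * I4 +
        (d1 * (I2 + I3 + I4) + d2 * (I1 + I3 + I4) + d3 * (I1 + I2 + I4) + d4 * (I1 + I2 + I3)) := by ring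
    have h0 : 0 ≤ d1 * (I2 + I3 + I4) + d2 * (I1 + I3 + I4) + d3 * (I1 + I2 + I4) + d4 * (I1 + I2 + I3) := by
      positivity
    linarith

theorem efour_le (h : Red k b L C c R GR d Gd V0 S v e1 e2 φ Gφ u Gu ψ Gψ) {n : ℝ} (hn : 0 ≤ n) (hφ : PhiB k b φ n) : ∃ C' L' : ℝ, 0 ≤ C' ∧ ∀ (ρ₀ t : ℝ) (T : E3 → ℝ), L' ≤ ρ₀ → 0 ≤ t →
    (∀ x, x ∉ box ρ₀ (13 / 10 * ρ₀) (lam ρ₀) (ρ₀ / 20) → T x = 0 ∧ ∇ T x = 0) →
    (∀ x, |T x| ≤ t * (Real.exp (k * cyl x) * Real.exp (k * x 2 ^ 2 / (20 * ρ₀))) ∧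
      ‖∇ T x‖ ≤ t / lam ρ₀ * (Real.exp (k * cyl x) * Real.exp (k * x 2 ^ 2 / (20 * ρ₀)))) →
    ∫ x, Efour V0 φ u Gφ Gu Gψ T x ≤ C' * t * ρ₀ ^ (b + 21 / 10 - 2 * n) := by
  have hk := h.tail.kpos
  have hv : FB v := FB.of_sumClass h.cls
  obtain ⟨M, N, L1, hM, hN, hL1, ho⟩ := gi3_outer h hφ
  obtain ⟨A, L2, hA, hL2, hi⟩ := gi3_inner h hφ
  obtain ⟨Mm, L3, hMm, hmj⟩ := exists_mj hk
  obtain ⟨C1, hC1, hc1⟩ := cacc_mj hv hk b e1 hMm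
  obtain ⟨C2, hC2, hc2⟩ := cacc_mj hv hk b e2 hMm
  obtain ⟨J1, hJ1, hj1⟩ := gauss_mom (κ := k / 4) (by positivity) 1
  obtain ⟨J0, hJ0, hj0⟩ := gauss_mom (κ := k / 4) (by positivity) 0
  have hpi := Real.pi_pos
  refine ⟨A * (C1 * N ^ 2 + 2 * (C2 * M ^ 2) + Real.pi * (J1 + J0)), max (max L1 L2) L3, by positivity,
    fun ρ₀ t T hρ ht hT0 hT => ?_⟩
  have r1 : L1 ≤ ρ₀ := ((le_max_left _ _).trans (le_max_left _ _)).trans hρ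
  have r2 : L2 ≤ ρ₀ := ((le_max_right _ _).trans (le_max_left _ _)).trans hρ
  have r3 : L3 ≤ ρ₀ := (le_max_right _ _).trans hρ
  have r : 1 ≤ ρ₀ := hL1.trans r1
  have r0 : 0 < ρ₀ := by linarith
  obtain ⟨m, hm⟩ := hmj ρ₀ r3
  obtain ⟨i1, j1⟩ := hc1 ρ₀ (N * ρ₀ ^ (-n)) m φ Gφ r hm h.oφ.eig fun x hx => by
    obtain ⟨-, -, -, o4, o5, -⟩ := ho ρ₀ r1 x hx
    rwa [abs_of_pos o4]
  obtain ⟨i2, j2⟩ := hc2 ρ₀ M m u Gu r hm h.ou.orb.eig fun x hx => (ho ρ₀ r1 x hx).2.2.2.2.2.2.1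
  obtain ⟨i3, j3⟩ := hc2 ρ₀ M m ψ Gψ r hm h.oψ.eig fun x hx => (ho ρ₀ r1 x hx).2.2.2.2.2.2.2
  obtain ⟨i4, j4⟩ := hj1 ρ₀ r0
  obtain ⟨i5, j5⟩ := hj0 ρ₀ r0
  have p2 := gi3_pow2 r0 b n
  have p3 := gi3_pow3 r b n
  have p4 := gi3_pow4 r b n
  have hl : 0 < lam ρ₀ := Real.rpow_pos_of_pos r0 _
  set τ := ρ₀ ^ (13 / 5 - b) with hτ
  have hτ0 : 0 < τ := Real.rpow_pos_of_pos r0 _
  set w := ρ₀ ^ (-n) with hw
  have hw0 : 0 < w := Real.rpow_pos_of_pos r0 _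
  set β := ρ₀ ^ (b - 2) with hβ
  have hβ0 : 0 < β := Real.rpow_pos_of_pos r0 _
  set f : ℝ → ℝ := fun z => w ^ 2 * β * (|z| ^ 1 * Real.exp (-(k / 4 * z ^ 2 / ρ₀))) +
    w ^ 2 * (((lam ρ₀)⁻¹) ^ 2 / τ) * (|z| ^ 0 * Real.exp (-(k / 4 * z ^ 2 / ρ₀))) with hf
  have if1 : Integrable f := (i4.const_mul _).add (i5.const_mul _)
  have if2 : Integrable ((shell ρ₀ (13 / 10 * ρ₀)).indicator fun x : E3 => f (x 2)) :=
    (integrable_indicator_iff (measurableSet_shell _ _)).2 (shell_integrable _ _ if1)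
  have if3 : Integrable fun x => m x ^ 2 * ‖Gu x‖ ^ 2 + m x ^ 2 * ‖Gψ x‖ ^ 2 := i2.add i3
  have if4 : Integrable fun x => τ * (m x ^ 2 * ‖Gφ x‖ ^ 2) +
      τ * w ^ 2 * (m x ^ 2 * ‖Gu x‖ ^ 2 + m x ^ 2 * ‖Gψ x‖ ^ 2) := (i1.const_mul _).add (if3.const_mul _)
  have if5 : Integrable fun x => τ * (m x ^ 2 * ‖Gφ x‖ ^ 2) +
      τ * w ^ 2 * (m x ^ 2 * ‖Gu x‖ ^ 2 + m x ^ 2 * ‖Gψ x‖ ^ 2) +
        (shell ρ₀ (13 / 10 * ρ₀)).indicator (fun x : E3 => f (x 2)) x := if4.add if2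
  have f0 : ∀ z, 0 ≤ f z := fun z => by
    rw [hf]
    positivity
  have hpt : ∀ x, 0 ≤ Efour V0 φ u Gφ Gu Gψ T x ∧ Efour V0 φ u Gφ Gu Gψ T x ≤
      t * A * (τ * (m x ^ 2 * ‖Gφ x‖ ^ 2) + τ * w ^ 2 * (m x ^ 2 * ‖Gu x‖ ^ 2 + m x ^ 2 * ‖Gψ x‖ ^ 2) +
        (shell ρ₀ (13 / 10 * ρ₀)).indicator (fun x : E3 => f (x 2)) x) := fun x => by
    by_cases hx : x ∈ box ρ₀ (13 / 10 * ρ₀) (lam ρ₀) (ρ₀ / 20)
    · have hx' : x ∈ shell ρ₀ (13 / 10 * ρ₀) := ⟨hx.1, hx.2.1⟩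
      rw [indicator_of_mem hx', hm.eq x hx]
      exact hi ρ₀ t T r2 ht x hx (hT x).1 (hT x).2
    · have e : Efour V0 φ u Gφ Gu Gψ T x = 0 := by simp [Efour, (hT0 x hx).1, (hT0 x hx).2]
      have : 0 ≤ (shell ρ₀ (13 / 10 * ρ₀)).indicator (fun x : E3 => f (x 2)) x :=
        indicator_nonneg (fun y _ => f0 _) x
      rw [e]
      exact ⟨le_rfl, by positivity⟩
  refine (integral_mono_of_nonneg (ae_of_all _ fun x => (hpt x).1) (if5.const_mul (t * A))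
    (ae_of_all _ fun x => (hpt x).2)).trans ?_
  have k1 : ∫ z, f z ≤ w ^ 2 * β * (J1 * ρ₀ ^ ((((1 : ℕ) : ℝ) + 1) / 2)) +
      w ^ 2 * (((lam ρ₀)⁻¹) ^ 2 / τ) * (J0 * ρ₀ ^ ((((0 : ℕ) : ℝ) + 1) / 2)) := by
    rw [hf, integral_add (i4.const_mul _) (i5.const_mul _), integral_const_mul, integral_const_mul]
    gcongr
  have k0 : 0 ≤ ∫ z, f z := integral_nonneg f0
  rw [integral_const_mul, integral_add if4 if2, integral_add (i1.const_mul _) (if3.const_mul _), integral_const_mul,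
    integral_const_mul, integral_add i2 i3, integral_indicator (measurableSet_shell _ _),
    shell_int r0.le (by linarith) f]
  set P := ρ₀ ^ (b + 21 / 10 - 2 * n) with hP
  have q1 : τ * ∫ x, m x ^ 2 * ‖Gφ x‖ ^ 2 ≤ C1 * N ^ 2 * P := by
    calc _ ≤ τ * (C1 * (N * w) ^ 2 * ρ₀ ^ (2 * b - 1 / 2)) := by gcongr
      _ = _ := by rw [← p2]; ring
  have q2 : τ * w ^ 2 * ((∫ x, m x ^ 2 * ‖Gu x‖ ^ 2) + ∫ x, m x ^ 2 * ‖Gψ x‖ ^ 2) ≤ 2 * (C2 * M ^ 2) * P := by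
    calc _ ≤ τ * w ^ 2 * (C2 * M ^ 2 * ρ₀ ^ (2 * b - 1 / 2) + C2 * M ^ 2 * ρ₀ ^ (2 * b - 1 / 2)) := by gcongr
      _ = _ := by rw [← p2]; ring
  have q3 : Real.pi * ((13 / 10 * ρ₀) ^ 2 - ρ₀ ^ 2) * ∫ z, f z ≤ Real.pi * (J1 + J0) * P := by
    have : (13 / 10 * ρ₀) ^ 2 - ρ₀ ^ 2 ≤ ρ₀ ^ 2 := by nlinarith [sq_nonneg ρ₀]
    calc _ ≤ Real.pi * ρ₀ ^ 2 * (w ^ 2 * β * (J1 * ρ₀ ^ ((((1 : ℕ) : ℝ) + 1) / 2)) +
          w ^ 2 * (((lam ρ₀)⁻¹) ^ 2 / τ) * (J0 * ρ₀ ^ ((((0 : ℕ) : ℝ) + 1) / 2))) := by gcongr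
      _ = Real.pi * (J1 * (ρ₀ ^ 2 * w ^ 2 * β * ρ₀ ^ ((((1 : ℕ) : ℝ) + 1) / 2)) +
          J0 * (ρ₀ ^ 2 * w ^ 2 * (((lam ρ₀)⁻¹) ^ 2 / τ) * ρ₀ ^ ((((0 : ℕ) : ℝ) + 1) / 2))) := by ring
      _ ≤ Real.pi * (J1 * P + J0 * P) := by gcongr
      _ = _ := by ring
  calc _ ≤ t * A * (C1 * N ^ 2 * P + 2 * (C2 * M ^ 2) * P + Real.pi * (J1 + J0) * P) := by gcongr
    _ = _ := by ring

end Crest.Agent.R335
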