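import Crest.Agent.R335.Gi1
import Crest.Agent.R335.Gi3
import Crest.Agent.R335.Gf4

/-!
# R335/Gi4: Green inequality above the layer.  `T = H(cyl) Q(z)` (`cylp_*`), `lap T - 2 V0 T = Lop V0 H Q`, `Red.green_up` with the majorant of `exists_mj` and `t = 2 ρ₀^(-σ) h q` (if `h q = 0`
then `Lop = 0`; or use `t + ε`): on the inner box `|T a| ≤ h q exp (k ρ) exp (k z²/(20 ρ₀)) 2 ρ₀^(-σ) exp (k z²/(4 ρ₀)) = t em`.  `ethree_le`, `efour_le` with `t = 2 h q`.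
-/

set_option autoImplicit false

namespace Crest.Agent.R335

open MeasureTheory Set Filter Topology
open scoped Gradient RealInnerProductSpace ENNReal ContDiff
open Crest.MathPhysics.ThreeBody

variable {k b L C c e1 e2 : ℝ} {R d V0 S v φ u ψ : E3 → ℝ} {GR Gd Gφ Gu Gψ : E3 → E3}

theorem core_up (h : Red k b L C c R GR d Gd V0 S v e1 e2 φ Gφ u Gu ψ Gψ) {σ n s : ℝ} (hσ : 0 ≤ σ) (hn : 0 ≤ n) (hm : Maj k u ψ σ) (hφ : PhiB k b φ n)
    (h1 : s ≤ σ + 14 / 5) (h2 : s ≤ 2 * n - 21 / 10) : ∃ C' L' : ℝ, 0 ≤ C' ∧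
    ∀ (ρ₀ h q : ℝ) (H Q : ℝ → ℝ), L' ≤ ρ₀ → HB k ρ₀ h H → QU k ρ₀ q Q →
      |∫ x, ang u ψ x * Rtwo u ψ x * Lop V0 H Q x| ≤ C' * h * q * ρ₀ ^ (b - s) := by
  have hR := h
  clear h
  have hk : 0 < k := hR.tail.kpos
  have hL : 1 ≤ L := hR.tail.Lge
  obtain ⟨M, Lm, hM, hmj⟩ := exists_mj hk
  obtain ⟨C3, L3, hC3, h3⟩ := ethree_le hR hM
  obtain ⟨C4, L4, hC4, h4⟩ := efour_le hR hn hφ
  obtain ⟨Lσ, hσ'⟩ := hm
  refine ⟨2 * C3 + 2 * C4, max (max (max Lm L3) (max L4 Lσ)) (2 * L), by positivity, ?_⟩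
  intro ρ₀ h q H Q hρ hH hQ
  simp only [max_le_iff] at hρ
  obtain ⟨⟨⟨r1, r2⟩, r3, r4⟩, r5⟩ := hρ
  have r6 : 1 ≤ ρ₀ := by linarith
  have r0 : 0 < ρ₀ := by linarith
  have l0 : 0 < lam ρ₀ := lam_pos r0
  have l1 : lam ρ₀ ≤ 1 := lam_le_one r6
  have hh := hH.h0
  have hq := hQ.q0
  obtain ⟨m, hmm⟩ := hmj ρ₀ r1
  have hH0 : ∀ ρ, ρ ≤ ρ₀ → H ρ = 0 := fun ρ hρ => hH.zero ρ (Or.inl hρ)
  obtain ⟨hc, hs⟩ := cylp_supp hH.zero hQ.zero
  have hT := cylp_contDiff hH.sm hQ.sm r0 hH0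
  have hg := cylp_grad hH.sm hQ.sm r0 hH0
  have hl := cylp_lap hH.sm hQ.sm r0 hH0
  set T : E3 → ℝ := fun x => H (cyl x) * Q (x 2) with hTd
  have hs1 : tsupport T ⊆ upA ∩ far L := by
    intro x hx
    obtain ⟨x1, -, x3, -⟩ := hs hx
    refine ⟨⟨by linarith, by linarith⟩, ?_⟩
    have := cyl_le_norm x
    simp only [far, mem_setOf_eq]
    linarith
  have hs2 : tsupport m ⊆ far L := by
    intro x hx
    obtain ⟨x1, -, -, -⟩ := hmm.sub hx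
    have := cyl_le_norm x
    simp only [far, mem_setOf_eq]
    linarith
  have hoff : ∀ x, x ∉ box ρ₀ (13 / 10 * ρ₀) (lam ρ₀) (ρ₀ / 20) → T x = 0 ∧ ∇ T x = 0 := fun x hx =>
    ⟨image_eq_zero_of_notMem_tsupport fun h' => hx (hs h'), s1a_grad_zero fun h' => hx (hs h')⟩
  have hTle : ∀ x, |T x| ≤ h * q * (Real.exp (k * cyl x) * Real.exp (k * x 2 ^ 2 / (20 * ρ₀))) := by
    intro x
    simp only [hTd, abs_mul]
    calc _ ≤ (h * Real.exp (k * cyl x)) * (q * Real.exp (k * x 2 ^ 2 / (20 * ρ₀))) :=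
          mul_le_mul (hH.le _).1 (hQ.le _).1 (abs_nonneg _) (by positivity)
      _ = _ := by ring
  have hE4 := h4 ρ₀ (2 * h * q) T r3 (by positivity) hoff fun x => by
    have e0 : 0 ≤ h * q * (Real.exp (k * cyl x) * Real.exp (k * x 2 ^ 2 / (20 * ρ₀))) := by positivity
    refine ⟨(hTle x).trans (by linarith), (hg x).trans ?_⟩
    have a1 : |deriv H (cyl x)| * |Q (x 2)| ≤
        (h * Real.exp (k * cyl x)) * (q * Real.exp (k * x 2 ^ 2 / (20 * ρ₀))) :=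
      mul_le_mul (hH.le _).2.1 (hQ.le _).1 (abs_nonneg _) (by positivity)
    have a2 : |H (cyl x)| * |deriv Q (x 2)| ≤
        (h * Real.exp (k * cyl x)) * (q / lam ρ₀ * Real.exp (k * x 2 ^ 2 / (20 * ρ₀))) :=
      mul_le_mul (hH.le _).1 (hQ.le _).2 (abs_nonneg _) (by positivity)
    have a3 : q ≤ q / lam ρ₀ := le_div_self hq l0 l1
    have a4 : (h * Real.exp (k * cyl x)) * (q * Real.exp (k * x 2 ^ 2 / (20 * ρ₀))) ≤
        (h * Real.exp (k * cyl x)) * (q / lam ρ₀ * Real.exp (k * x 2 ^ 2 / (20 * ρ₀))) := by gcongr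
    calc _ ≤ 2 * ((h * Real.exp (k * cyl x)) * (q / lam ρ₀ * Real.exp (k * x 2 ^ 2 / (20 * ρ₀)))) := by linarith
      _ = _ := by ring
  have hE3 := h3 ρ₀ m r2 hmm
  have hle : ∀ x, |T x * ang u ψ x| ≤ 2 * ρ₀ ^ (-σ) * h * q * m x := by
    intro x
    by_cases hx : x ∈ box ρ₀ (13 / 10 * ρ₀) (lam ρ₀) (ρ₀ / 20)
    · rw [hmm.eq x hx, abs_mul]
      obtain ⟨x1, -, x3, x4⟩ := hx
      have c0 : 0 < cyl x := by linarith
      have b1 := lam_anti r0 x1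
      have b2 := lam_pos c0
      have b3 := hσ' x (by linarith) (by linarith) (by linarith)
      have b4 : cyl x ^ (-σ) ≤ ρ₀ ^ (-σ) := Real.rpow_le_rpow_of_nonpos r0 x1 (by linarith)
      have b5 : Real.exp (k * x 2 ^ 2 / (4 * cyl x)) ≤ Real.exp (k * x 2 ^ 2 / (4 * ρ₀)) := by gcongr
      have b6 : |ang u ψ x| ≤ 2 * ρ₀ ^ (-σ) * Real.exp (k * x 2 ^ 2 / (4 * ρ₀)) := b3.trans (by gcongr)
      have b7 : Real.exp (3 * k * x 2 ^ 2 / (10 * ρ₀)) =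
          Real.exp (k * x 2 ^ 2 / (20 * ρ₀)) * Real.exp (k * x 2 ^ 2 / (4 * ρ₀)) := by
        rw [← Real.exp_add]
        congr 1
        field_simp
        ring
      calc _ ≤ (h * q * (Real.exp (k * cyl x) * Real.exp (k * x 2 ^ 2 / (20 * ρ₀)))) *
            (2 * ρ₀ ^ (-σ) * Real.exp (k * x 2 ^ 2 / (4 * ρ₀))) :=
            mul_le_mul (hTle x) b6 (abs_nonneg _) (by positivity)
        _ = _ := by rw [em, b7]; ring
    · rw [(hoff x hx).1, zero_mul, abs_zero]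
      have := hmm.nn x
      positivity
  have e : ∀ x, Lop V0 H Q x = lap T x - 2 * V0 x * T x := by
    intro x
    rw [hl x]
    simp only [Lop, hTd]
    ring
  simp only [e]
  have p1 : ρ₀ ^ (-σ) * ρ₀ ^ (b - 14 / 5) ≤ ρ₀ ^ (b - s) := by
    rw [← Real.rpow_add r0]
    exact Real.rpow_le_rpow_of_exponent_le r6 (by linarith)
  have p2 : ρ₀ ^ (b + 21 / 10 - 2 * n) ≤ ρ₀ ^ (b - s) := Real.rpow_le_rpow_of_exponent_le r6 (by linarith)
  have hA : 0 ≤ C3 * ρ₀ ^ (b - 14 / 5) := by positivity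
  refine le_of_forall_pos_le_add fun ε hε => ?_
  set A := C3 * ρ₀ ^ (b - 14 / 5) with hAd
  have hδ : 0 < ε / (A + 1) := by positivity
  have ht : 0 < 2 * ρ₀ ^ (-σ) * h * q + ε / (A + 1) := by positivity
  have key := hR.green_up hT hc hs1 hmm.sm hmm.cpt hs2 ht fun x =>
    (hle x).trans (mul_le_mul_of_nonneg_right (by linarith) (hmm.nn x))
  refine key.trans ?_
  have q1 := mul_le_mul_of_nonneg_left hE3 ht.le
  have q2 : ε / (A + 1) * A ≤ ε := by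
    rw [div_mul_eq_mul_div, div_le_iff₀ (by positivity)]
    nlinarith
  have q3 : 2 * ρ₀ ^ (-σ) * h * q * A ≤ 2 * C3 * h * q * ρ₀ ^ (b - s) := by
    calc _ = 2 * C3 * h * q * (ρ₀ ^ (-σ) * ρ₀ ^ (b - 14 / 5)) := by rw [hAd]; ring
      _ ≤ _ := by gcongr
  have q4 : C4 * (2 * h * q) * ρ₀ ^ (b + 21 / 10 - 2 * n) ≤ 2 * C4 * h * q * ρ₀ ^ (b - s) := by
    calc _ ≤ C4 * (2 * h * q) * ρ₀ ^ (b - s) := by gcongr
      _ = _ := by ring
  nlinarith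

end Crest.Agent.R335
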