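import Crest.Agent.R335.Gj1
import Crest.Agent.R335.Gg1

/-!
# R335/Gj2: the pointwise inequality behind the gluing.
`U = a R₂`, `λ₀ = lam ρ₀`, `x` in the shell `[ρ₀, 1.3 ρ₀]` (everything vanishes off the shell: `HB.Lop_zero`).  Cases: `z ≤ 0`: all terms vanish (`Om_small`, `QU.zero`, `deriv_zero_of_le`).
`0 < z < λ₀`: `x ∉ Om` (`2 lam (cyl x) ≥ λ₀`), `Qp = Qp'' = 0`, `Q0'' = Q''`: the sum vanishes.  `λ₀ ≤ z ≤ 2 λ₀`: the sum is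
`1_Om U Lop Q - ψ H Q'' + (ψ - U) H Qp'' - U (H'' + H'/ρ - 2 V0 H) Qp`; `|U| ≤ 2 |ψ|`, `|ψ - U| ≤ |τ|³ R₂` (`arctan_mul_sqrt`), `|τ| ≤ C ρ₀^(-μ)` (`LayB`, `ulow`),
`R₂ exp (k ρ) ≤ C λ₀ ρ₀^(b-2)`, `LayB.blk`.  `2 λ₀ < z`: `Q0'' = 0`, `Lop Qp = Lop Q`; if `x ∉ Om` then `z² ≥ (1000/k) ρ₀ log ρ₀`, `z ≤ ρ₀/20` (else `Lop = 0`),
`|U Lop| ≤ C h q ρ₀^(b-1) exp (-(1/3 - 1/20) k z²/ρ₀) ≤ h q ρ₀^(b-20)` (`Red.crude`, `gfun_up`, `QB.le2`, `Tail.V0_le`).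
-/

set_option autoImplicit false

namespace Crest.Agent.R335

open MeasureTheory Set Filter Topology
open scoped Gradient RealInnerProductSpace ENNReal ContDiff
open Crest.MathPhysics.ThreeBody

variable {k b L C c e1 e2 : ℝ} {R d V0 S v φ u ψ : E3 → ℝ} {GR Gd Gφ Gu Gψ : E3 → E3}

/-- the difference between the glued integrand and the two Green identities -/
noncomputable def Glue (k ρ₀ : ℝ) (V0 u ψ : E3 → ℝ) (H Q Qp Q0 : ℝ → ℝ) (x : E3) : ℝ :=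
  (Om k).indicator (fun x => ang u ψ x * Rtwo u ψ x * Lop V0 H Q x) x +
    {x : E3 | 0 < x 2 ∧ x 2 < lam ρ₀}.indicator (fun x => ψ x * (H (cyl x) * deriv (deriv Q) (x 2))) x -
    {x : E3 | 0 < x 2}.indicator (fun x => ψ x * (H (cyl x) * deriv (deriv Q0) (x 2))) x -
    ang u ψ x * Rtwo u ψ x * Lop V0 H Qp x

theorem gj2_A {ρ₀ h MV : ℝ} {H : ℝ → ℝ} (hH : HB k ρ₀ h H) {x : E3} (hx : 1 ≤ cyl x) (hM : 0 ≤ MV)
    (hV : |V0 x| ≤ MV) : |deriv (deriv H) (cyl x) + deriv H (cyl x) / cyl x - 2 * V0 x * H (cyl x)| ≤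
      (2 + 2 * MV) * h * Real.exp (k * cyl x) := by
  obtain ⟨a0, a1, a2⟩ := hH.le (cyl x)
  have b1 : |deriv H (cyl x) / cyl x| ≤ h * Real.exp (k * cyl x) := by
    rw [abs_div, abs_of_pos (by linarith : 0 < cyl x)]
    exact (div_le_self (abs_nonneg _) hx).trans a1
  have b2 : |2 * V0 x * H (cyl x)| ≤ 2 * MV * (h * Real.exp (k * cyl x)) := by
    rw [abs_mul, abs_mul, abs_two]
    gcongr
  have b3 := abs_sub (deriv (deriv H) (cyl x) + deriv H (cyl x) / cyl x) (2 * V0 x * H (cyl x))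
  have b4 := abs_add_le (deriv (deriv H) (cyl x)) (deriv H (cyl x) / cyl x)
  linarith

theorem gj2_mid {h q a E M e l A H Q Qp Q2 Qp2 U p K r1 r2 I : ℝ} (hh : 0 ≤ h) (hq : 0 ≤ q) (ha : 0 ≤ a) (hE : 0 ≤ E)
    (hM : 0 ≤ M) (he : 0 ≤ e) (hl : 0 < l) (hA : |A| ≤ a * h * e) (hH : |H| ≤ h * e) (d0 : |Q| ≤ q * E)
    (d1 : |Qp| ≤ M * q) (d2 : |Q2| ≤ M * q) (d3 : |Qp2| ≤ M * q / l ^ 2) (c1 : |U| * e ≤ K * r1)
    (c2 : |p| * e ≤ K * r1) (c3 : |p - U| * e / l ^ 2 ≤ K * r2) (t1 : |I| ≤ |U * (A * Q + H * Q2)|) :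
    |I - p * (H * (Q2 - Qp2)) - U * (A * Qp + H * Qp2)| ≤
      K * (a * E + 2 * M + a * M) * h * q * r1 + K * M * h * q * r2 := by
  have e1 : I - p * (H * (Q2 - Qp2)) - U * (A * Qp + H * Qp2) =
      I + -(p * (H * Q2)) + (p - U) * (H * Qp2) + -(U * (A * Qp)) := by ring
  have s1 : |I| ≤ (a * E + M) * h * q * (K * r1) := by
    calc |I| ≤ |U| * |A * Q + H * Q2| := by rwa [← abs_mul]
      _ ≤ |U| * (a * h * e * (q * E) + h * e * (M * q)) := by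
        gcongr
        refine (abs_add_le _ _).trans ?_
        rw [abs_mul, abs_mul]
        gcongr
      _ = (a * E + M) * h * q * (|U| * e) := by ring
      _ ≤ _ := by gcongr
  have s2 : |-(p * (H * Q2))| ≤ M * h * q * (K * r1) := by
    calc |-(p * (H * Q2))| = |p| * (|H| * |Q2|) := by rw [abs_neg, abs_mul, abs_mul]
      _ ≤ |p| * (h * e * (M * q)) := by gcongr
      _ = M * h * q * (|p| * e) := by ring
      _ ≤ _ := by gcongr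
  have s3 : |(p - U) * (H * Qp2)| ≤ M * h * q * (K * r2) := by
    calc |(p - U) * (H * Qp2)| = |p - U| * (|H| * |Qp2|) := by rw [abs_mul, abs_mul]
      _ ≤ |p - U| * (h * e * (M * q / l ^ 2)) := by gcongr
      _ = M * h * q * (|p - U| * e / l ^ 2) := by ring
      _ ≤ _ := by gcongr
  have s4 : |-(U * (A * Qp))| ≤ a * M * h * q * (K * r1) := by
    calc |-(U * (A * Qp))| = |U| * (|A| * |Qp|) := by rw [abs_neg, abs_mul, abs_mul]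
      _ ≤ |U| * (a * h * e * (M * q)) := by gcongr
      _ = a * M * h * q * (|U| * e) := by ring
      _ ≤ _ := by gcongr
  rw [e1]
  have u1 := abs_add_le (I + -(p * (H * Q2)) + (p - U) * (H * Qp2)) (-(U * (A * Qp)))
  have u2 := abs_add_three I (-(p * (H * Q2))) ((p - U) * (H * Qp2))
  linarith

theorem gj2_fin {K1 K2 a E M h q r1 r2 i : ℝ} (hK1 : 0 ≤ K1) (hK2 : 0 ≤ K2) (ha : 0 ≤ a) (hE : 0 ≤ E) (hM : 0 ≤ M)
    (hh : 0 ≤ h) (hq : 0 ≤ q) (h1 : 0 ≤ r1) (h2 : 0 ≤ r2) (hi : 0 ≤ i) :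
    K1 * (a * E + 2 * M + a * M) * h * q * r1 + K1 * M * h * q * r2 ≤
      (K1 * (a * E + 3 * M + a * M) + K2 * (a + 1)) * h * q * (r1 + r2 + i) := by
  have s0 : 0 ≤ K2 * (a + 1) := by positivity
  have s1 : K1 * (a * E + 2 * M + a * M) * h * q * r1 ≤
      (K1 * (a * E + 3 * M + a * M) + K2 * (a + 1)) * h * q * r1 := by
    gcongr
    linarith [mul_nonneg hK1 hM]
  have s2 : K1 * M * h * q * r2 ≤ (K1 * (a * E + 3 * M + a * M) + K2 * (a + 1)) * h * q * r2 := by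
    gcongr
    have : 0 ≤ K1 * (a * E + 2 * M + a * M) := by positivity
    linarith
  have s3 : 0 ≤ (K1 * (a * E + 3 * M + a * M) + K2 * (a + 1)) * h * q * i := by positivity
  linarith

theorem gj2_layer (h : Red k b L C c R GR d Gd V0 S v e1 e2 φ Gφ u Gu ψ Gψ) {μ : ℝ} (hμ : 0 ≤ μ) (hl : LayB k b ψ μ) :
    ∃ K L' : ℝ, 0 ≤ K ∧ ∀ ρ₀, L' ≤ ρ₀ → ∀ x : E3, ρ₀ ≤ cyl x → cyl x ≤ 13 / 10 * ρ₀ → lam ρ₀ ≤ x 2 →
      x 2 ≤ 2 * lam ρ₀ → |ang u ψ x * Rtwo u ψ x| * Real.exp (k * cyl x) ≤ K * ρ₀ ^ (b - 13 / 5 - μ) ∧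
        |ψ x| * Real.exp (k * cyl x) ≤ K * ρ₀ ^ (b - 13 / 5 - μ) ∧
        |ψ x - ang u ψ x * Rtwo u ψ x| * Real.exp (k * cyl x) / lam ρ₀ ^ 2 ≤ K * ρ₀ ^ (b - 7 / 5 - 3 * μ) := by
  have hk := h.tail.kpos
  have hc := h.tail.cpos
  obtain ⟨C1, L1, hC1, b1⟩ := hl.blk hk hμ
  obtain ⟨C2, L2, hC2, b2⟩ := hl
  obtain ⟨M3, L3, hM3, hL3, b3, -⟩ := h.crude
  obtain ⟨M4, hM4, b4⟩ := gfun_up hk b
  have hK2 : 0 ≤ (C2 / c) ^ 3 * (3 * M3 * M4) := by positivity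
  refine ⟨2 * C1 + (C2 / c) ^ 3 * (3 * M3 * M4), max (max L1 L2) (max L3 20), by positivity,
    fun ρ₀ hρ x x1 x2 z1 z2 => ?_⟩
  have hL1 : L1 ≤ ρ₀ := (le_max_left _ _).trans ((le_max_left _ _).trans hρ)
  have hL2 : L2 ≤ ρ₀ := (le_max_right _ _).trans ((le_max_left _ _).trans hρ)
  have hL3' : L3 ≤ ρ₀ := (le_max_left _ _).trans ((le_max_right _ _).trans hρ)
  have h20 : 20 ≤ ρ₀ := (le_max_right _ _).trans ((le_max_right _ _).trans hρ)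
  have hρ0 : 0 < ρ₀ := by linarith
  have hc0 : 0 < cyl x := by linarith
  have hl0 : 0 < lam ρ₀ := lam_pos hρ0
  have hl1 : lam ρ₀ ≤ 1 := lam_le_one (by linarith)
  have hl2 : lam ρ₀ ≤ 2 * lam (cyl x) := lam_le_mul hc0 hρ0 one_le_two (by linarith)
  have hl3 : lam (cyl x) ≤ lam ρ₀ := lam_anti hρ0 x1
  have hl4 : 0 < lam (cyl x) := lam_pos hc0
  have z0 : 0 < x 2 := hl0.trans_le z1
  have hu := (h.u_posG ⟨hc0, z0⟩).1
  obtain ⟨a1, a2⟩ := arctan_mul_sqrt (p := ψ x) hu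
  have c1 := b1 ρ₀ hL1 x ⟨x1, x2, by linarith, z2⟩
  have r1 : 0 < ρ₀ ^ (b - 13 / 5 - μ) := Real.rpow_pos_of_pos hρ0 _
  have r2 : 0 < ρ₀ ^ (b - 7 / 5 - 3 * μ) := Real.rpow_pos_of_pos hρ0 _
  have he0 : 0 < Real.exp (k * cyl x) := Real.exp_pos _
  have hg : 0 < gfun k b x := gfun_pos k b (norm_pos_iff.1 (hc0.trans_le (cyl_le_norm x)))
  refine ⟨?_, ?_, ?_⟩
  · have : |ang u ψ x * Rtwo u ψ x| ≤ 2 * |ψ x| := by
      rw [abs_mul, abs_of_nonneg (a := Rtwo u ψ x) (Real.sqrt_nonneg _)]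
      exact a1
    have := mul_le_mul_of_nonneg_right this he0.le
    nlinarith [mul_nonneg hK2 r1.le]
  · nlinarith [mul_nonneg hK2 r1.le, mul_nonneg hC1 r1.le]
  · have t1 : |ψ x / u x| ≤ C2 / c * ρ₀ ^ (-μ) := by
      have p1 := b2 x (by linarith) (by rw [abs_of_pos z0]; linarith)
      have p2 := h.ulow x (by linarith) (by linarith) (by linarith)
      have p3 : cyl x ^ (-μ) ≤ ρ₀ ^ (-μ) := Real.rpow_le_rpow_of_nonpos hρ0 x1 (by linarith)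
      have p4 : 0 < ρ₀ ^ (-μ) := Real.rpow_pos_of_pos hρ0 _
      rw [abs_div, abs_of_pos hu, div_le_iff₀ hu]
      calc |ψ x| ≤ C2 * cyl x ^ (-μ) * lam (cyl x) * gfun k b x := p1
        _ ≤ C2 * ρ₀ ^ (-μ) * x 2 * gfun k b x := by gcongr; linarith
        _ = C2 / c * ρ₀ ^ (-μ) * (c * x 2 * gfun k b x) := by field_simp
        _ ≤ _ := by gcongr
    have t2 : Rtwo u ψ x ≤ M3 * (3 * lam ρ₀) * gfun k b x := by
      refine (b3 x (by linarith)).2.2.1.trans ?_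
      rw [abs_of_pos z0]
      gcongr
      linarith
    have t3 : gfun k b x * Real.exp (k * cyl x) ≤ M4 * ρ₀ ^ (b - 2) := by
      have p1 := b4 ρ₀ x hρ0 (by linarith) (by linarith) (by rw [abs_of_pos z0]; linarith)
      have p2 : Real.exp (-(k * x 2 ^ 2 / (3 * ρ₀))) ≤ 1 := Real.exp_le_one_iff.2 (neg_nonpos.2 (by positivity))
      have p3 : Real.exp (-(k * cyl x)) * Real.exp (k * cyl x) = 1 := by rw [← Real.exp_add]; simp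
      have p4 : 0 < ρ₀ ^ (b - 2) := Real.rpow_pos_of_pos hρ0 _
      calc gfun k b x * Real.exp (k * cyl x)
          ≤ M4 * ρ₀ ^ (b - 2) * (Real.exp (-(k * cyl x)) * 1) * Real.exp (k * cyl x) := by
            refine mul_le_mul_of_nonneg_right (p1.trans ?_) he0.le
            gcongr
        _ = M4 * ρ₀ ^ (b - 2) * (Real.exp (-(k * cyl x)) * Real.exp (k * cyl x)) := by ring
        _ = _ := by rw [p3, mul_one]
    have t4 : (ρ₀ ^ (-μ)) ^ 3 * ρ₀ ^ (b - 2) / lam ρ₀ = ρ₀ ^ (b - 7 / 5 - 3 * μ) := by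
      rw [lam, ← Real.rpow_natCast, ← Real.rpow_mul hρ0.le, ← Real.rpow_add hρ0, ← Real.rpow_sub hρ0]
      congr 1
      push_cast
      ring
    have p4 : 0 < ρ₀ ^ (-μ) := Real.rpow_pos_of_pos hρ0 _
    calc |ψ x - ang u ψ x * Rtwo u ψ x| * Real.exp (k * cyl x) / lam ρ₀ ^ 2
        ≤ |ψ x / u x| ^ 3 * Rtwo u ψ x * Real.exp (k * cyl x) / lam ρ₀ ^ 2 := by gcongr; exact a2
      _ ≤ (C2 / c * ρ₀ ^ (-μ)) ^ 3 * (M3 * (3 * lam ρ₀) * gfun k b x) * Real.exp (k * cyl x) / lam ρ₀ ^ 2 := by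
        have : 0 ≤ Rtwo u ψ x := Real.sqrt_nonneg _
        gcongr
      _ = (C2 / c * ρ₀ ^ (-μ)) ^ 3 * (3 * M3) / lam ρ₀ * (gfun k b x * Real.exp (k * cyl x)) := by field_simp
      _ ≤ (C2 / c * ρ₀ ^ (-μ)) ^ 3 * (3 * M3) / lam ρ₀ * (M4 * ρ₀ ^ (b - 2)) := by gcongr
      _ = (C2 / c) ^ 3 * (3 * M3 * M4) * ((ρ₀ ^ (-μ)) ^ 3 * ρ₀ ^ (b - 2) / lam ρ₀) := by ring
      _ ≤ _ := by rw [t4]; gcongr; linarith

theorem gj2_far (h : Red k b L C c R GR d Gd V0 S v e1 e2 φ Gφ u Gu ψ Gψ) :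
    ∃ K L' : ℝ, 0 ≤ K ∧ ∀ ρ₀, L' ≤ ρ₀ → ∀ x : E3, ρ₀ ≤ cyl x → cyl x ≤ 13 / 10 * ρ₀ → 2 * lam ρ₀ < x 2 →
      x 2 < ρ₀ / 20 → x ∉ Om k → |ang u ψ x * Rtwo u ψ x| * Real.exp (k * cyl x) *
        Real.exp (k * x 2 ^ 2 / (20 * ρ₀)) ≤ K * ρ₀ ^ (b - 20) := by
  have hk := h.tail.kpos
  obtain ⟨M3, L3, hM3, hL3, b3, -⟩ := h.crude
  obtain ⟨M4, hM4, b4⟩ := gfun_up hk b
  refine ⟨2 * M3 * M4, max L3 20, by positivity, fun ρ₀ hρ x x1 x2 z1 z2 hm => ?_⟩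
  have hL3' : L3 ≤ ρ₀ := (le_max_left _ _).trans hρ
  have h20 : 20 ≤ ρ₀ := (le_max_right _ _).trans hρ
  have hρ0 : 0 < ρ₀ := by linarith
  have hc0 : 0 < cyl x := by linarith
  have hl0 : 0 < lam ρ₀ := lam_pos hρ0
  have hl1 : lam ρ₀ ≤ 1 := lam_le_one (by linarith)
  have hl3 : lam (cyl x) ≤ lam ρ₀ := lam_anti hρ0 x1
  have z0 : 0 < x 2 := by linarith
  have hg : 0 < gfun k b x := gfun_pos k b (norm_pos_iff.1 (hc0.trans_le (cyl_le_norm x)))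
  have hlog : 0 ≤ Real.log ρ₀ := Real.log_nonneg (by linarith)
  have z3 : 1000 / k * ρ₀ * Real.log ρ₀ ≤ x 2 ^ 2 := by
    have p1 : 1000 / k * cyl x * Real.log (cyl x) < x 2 ^ 2 := by
      by_contra hn
      exact hm ⟨by linarith, not_lt.1 hn⟩
    refine le_trans ?_ p1.le
    gcongr
  have z4 : 1000 * Real.log ρ₀ ≤ k * x 2 ^ 2 / ρ₀ := by
    rw [le_div_iff₀ hρ0]
    have := mul_le_mul_of_nonneg_left z3 hk.le
    have e : k * (1000 / k * ρ₀ * Real.log ρ₀) = 1000 * Real.log ρ₀ * ρ₀ := by field_simp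
    linarith
  have t1 : |ang u ψ x * Rtwo u ψ x| ≤ 2 * (M3 * ρ₀ * gfun k b x) := by
    have p0 : 0 ≤ Rtwo u ψ x := Real.sqrt_nonneg _
    rw [abs_mul, abs_of_nonneg p0]
    refine mul_le_mul (abs_arctan_le_two _) ((b3 x (by linarith)).2.2.1.trans ?_) p0 zero_le_two
    rw [abs_of_pos z0]
    gcongr
    linarith
  have p1 := b4 ρ₀ x hρ0 (by linarith) (by linarith) (by rw [abs_of_pos z0]; linarith)
  have p2 : Real.exp (-(k * cyl x)) * Real.exp (-(k * x 2 ^ 2 / (3 * ρ₀))) * Real.exp (k * cyl x) *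
      Real.exp (k * x 2 ^ 2 / (20 * ρ₀)) ≤ ρ₀ ^ (-19 : ℝ) := by
    rw [← Real.exp_add, ← Real.exp_add, ← Real.exp_add, Real.rpow_def_of_pos hρ0, Real.exp_le_exp]
    have e1 : k * x 2 ^ 2 / (3 * ρ₀) = k * x 2 ^ 2 / ρ₀ / 3 := by field_simp
    have e2 : k * x 2 ^ 2 / (20 * ρ₀) = k * x 2 ^ 2 / ρ₀ / 20 := by field_simp
    rw [e1, e2]
    linarith
  have p3 : ρ₀ * ρ₀ ^ (b - 2) * ρ₀ ^ (-19 : ℝ) = ρ₀ ^ (b - 20) := by
    nth_rewrite 1 [← Real.rpow_one ρ₀]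
    rw [← Real.rpow_add hρ0, ← Real.rpow_add hρ0]
    congr 1
    ring
  have p4 : 0 < ρ₀ ^ (b - 2) := Real.rpow_pos_of_pos hρ0 _
  calc |ang u ψ x * Rtwo u ψ x| * Real.exp (k * cyl x) * Real.exp (k * x 2 ^ 2 / (20 * ρ₀))
      ≤ 2 * (M3 * ρ₀ * (M4 * ρ₀ ^ (b - 2) * (Real.exp (-(k * cyl x)) * Real.exp (-(k * x 2 ^ 2 / (3 * ρ₀)))))) *
        Real.exp (k * cyl x) * Real.exp (k * x 2 ^ 2 / (20 * ρ₀)) := by
        gcongr
        refine t1.trans ?_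
        gcongr
    _ = 2 * M3 * M4 * (ρ₀ * ρ₀ ^ (b - 2) * (Real.exp (-(k * cyl x)) * Real.exp (-(k * x 2 ^ 2 / (3 * ρ₀))) *
        Real.exp (k * cyl x) * Real.exp (k * x 2 ^ 2 / (20 * ρ₀)))) := by ring
    _ ≤ 2 * M3 * M4 * (ρ₀ * ρ₀ ^ (b - 2) * ρ₀ ^ (-19 : ℝ)) := by gcongr
    _ = _ := by rw [p3]

set_option maxHeartbeats 800000 in
theorem glue_pt (h : Red k b L C c R GR d Gd V0 S v e1 e2 φ Gφ u Gu ψ Gψ) {μ M : ℝ} (hμ : 0 ≤ μ) (hM : 1 ≤ M) (hl : LayB k b ψ μ) : ∃ C' L' : ℝ, 0 ≤ C' ∧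
    ∀ (ρ₀ h q : ℝ) (H Q Qp Q0 : ℝ → ℝ), L' ≤ ρ₀ → HB k ρ₀ h H → QB k ρ₀ q Q → QU k ρ₀ (M * q) Qp →
      (∀ z, 0 < z → deriv (deriv Q0) z = deriv (deriv Q) z - deriv (deriv Qp) z) →
      (∀ z, 2 * lam ρ₀ ≤ z → Qp z = Q z ∧ deriv (deriv Qp) z = deriv (deriv Q) z) →
      (∀ z, lam ρ₀ ≤ z → z ≤ 2 * lam ρ₀ → |Qp z| ≤ M * q ∧ |deriv (deriv Q) z| ≤ M * q ∧
        |deriv (deriv Qp) z| ≤ M * q / lam ρ₀ ^ 2) →
      ∀ x, (x ∉ shell ρ₀ (13 / 10 * ρ₀) → Glue k ρ₀ V0 u ψ H Q Qp Q0 x = 0) ∧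
        (x ∈ shell ρ₀ (13 / 10 * ρ₀) → |Glue k ρ₀ V0 u ψ H Q Qp Q0 x| ≤ C' * h * q *
          ((Icc 0 (2 * lam ρ₀)).indicator (fun _ => ρ₀ ^ (b - 13 / 5 - μ) + ρ₀ ^ (b - 7 / 5 - 3 * μ)) (x 2) +
            (Icc 0 (ρ₀ / 20)).indicator (fun _ => ρ₀ ^ (b - 20)) (x 2))) := by
  classical
  have hk := h.tail.kpos
  obtain ⟨K1, L1, hK1, b1⟩ := gj2_layer h hμ hl
  obtain ⟨K2, L2, hK2, b2⟩ := gj2_far h
  obtain ⟨MV, hMV, bV⟩ := h.tail.V0_le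
  set a : ℝ := 2 + 2 * MV with ha
  have ha0 : 0 ≤ a := by positivity
  set E : ℝ := Real.exp k with hE
  have hE0 : 0 < E := Real.exp_pos _
  have hM0 : 0 ≤ M := by linarith
  refine ⟨K1 * (a * E + 3 * M + a * M) + K2 * (a + 1), max (max L1 L2) (L + 1), by positivity,
    fun ρ₀ hh q H Q Qp Q0 hρ hH hQ hQp e0 e1 e2 x => ⟨fun hx => ?_, fun hx => ?_⟩⟩
  · have h1 : cyl x ≤ ρ₀ ∨ 13 / 10 * ρ₀ ≤ cyl x := by
      by_contra hn
      push Not at hn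
      exact hx ⟨hn.1.le, hn.2.le⟩
    simp only [Glue, indicator_apply, hH.Lop_zero _ hx, hH.zero _ h1, mul_zero, zero_mul, ite_self, add_zero,
      sub_zero]
  have hL1 : L1 ≤ ρ₀ := (le_max_left _ _).trans ((le_max_left _ _).trans hρ)
  have hL2 : L2 ≤ ρ₀ := (le_max_right _ _).trans ((le_max_left _ _).trans hρ)
  have hL : L + 1 ≤ ρ₀ := (le_max_right _ _).trans hρ
  have hρ1 : 1 ≤ ρ₀ := by linarith [h.tail.Lge]
  have hρ0 : 0 < ρ₀ := by linarith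
  obtain ⟨x1, x2⟩ := hx
  have hc0 : 0 < cyl x := by linarith
  have hl0 : 0 < lam ρ₀ := lam_pos hρ0
  have hl1 : lam ρ₀ ≤ 1 := lam_le_one hρ1
  have hl2 : lam ρ₀ ≤ 2 * lam (cyl x) := lam_le_mul hc0 hρ0 one_le_two (by linarith)
  have hh0 := hH.h0
  have hq0 := hQ.q0
  have r1 : 0 < ρ₀ ^ (b - 13 / 5 - μ) := Real.rpow_pos_of_pos hρ0 _
  have r2 : 0 < ρ₀ ^ (b - 7 / 5 - 3 * μ) := Real.rpow_pos_of_pos hρ0 _
  have r3 : 0 < ρ₀ ^ (b - 20) := Real.rpow_pos_of_pos hρ0 _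
  have i1 : 0 ≤ (Icc 0 (2 * lam ρ₀)).indicator
      (fun _ : ℝ => ρ₀ ^ (b - 13 / 5 - μ) + ρ₀ ^ (b - 7 / 5 - 3 * μ)) (x 2) :=
    indicator_nonneg (fun _ _ => by positivity) _
  have i2 : 0 ≤ (Icc 0 (ρ₀ / 20)).indicator (fun _ : ℝ => ρ₀ ^ (b - 20)) (x 2) :=
    indicator_nonneg (fun _ _ => r3.le) _
  have hA := gj2_A (V0 := V0) hH (by linarith) hMV (bV x (by linarith [cyl_le_norm x]))
  rw [← ha] at hA
  have hHe := (hH.le (cyl x)).1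
  set e : ℝ := Real.exp (k * cyl x) with he
  have he0 : 0 < e := Real.exp_pos _
  rcases lt_or_ge (x 2) (lam ρ₀) with z1 | z1
  · have n1 : x ∉ Om k := fun hm => by linarith [hm.1]
    have p1 : Qp (x 2) = 0 := hQp.zero _ (Or.inl z1.le)
    have p2 : deriv (deriv Qp) (x 2) = 0 := (deriv_zero_of_le hQp.sm (fun z hz => hQp.zero z (Or.inl hz)) _ z1.le).2
    have g0 : Glue k ρ₀ V0 u ψ H Q Qp Q0 x = 0 := by
      unfold Glue
      rw [indicator_of_notMem n1]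
      simp only [Lop, p1, p2, mul_zero, add_zero, sub_zero, zero_add]
      rcases le_or_gt (x 2) 0 with z0 | z0
      · rw [indicator_of_notMem (fun hm => absurd hm.1 (not_lt.2 z0)),
          indicator_of_notMem (s := {x : E3 | 0 < x 2}) (not_lt.2 z0), sub_zero]
      · rw [indicator_of_mem (s := {x : E3 | 0 < x 2 ∧ x 2 < lam ρ₀}) ⟨z0, z1⟩,
          indicator_of_mem (s := {x : E3 | 0 < x 2}) z0, e0 _ z0, p2, sub_zero, sub_self]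
    rw [g0, abs_zero]
    positivity
  have z0 : 0 < x 2 := hl0.trans_le z1
  have g1 : Glue k ρ₀ V0 u ψ H Q Qp Q0 x =
      (Om k).indicator (fun x => ang u ψ x * Rtwo u ψ x * Lop V0 H Q x) x -
        ψ x * (H (cyl x) * (deriv (deriv Q) (x 2) - deriv (deriv Qp) (x 2))) -
        ang u ψ x * Rtwo u ψ x * Lop V0 H Qp x := by
    unfold Glue
    rw [indicator_of_notMem (s := {x : E3 | 0 < x 2 ∧ x 2 < lam ρ₀}) (fun hm => absurd hm.2 (not_lt.2 z1)),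
      indicator_of_mem (s := {x : E3 | 0 < x 2}) z0, e0 _ z0, add_zero]
  rw [g1]
  rcases le_or_gt (x 2) (2 * lam ρ₀) with z2 | z2
  · obtain ⟨c1, c2, c3⟩ := b1 ρ₀ hL1 x x1 x2 z1 z2
    obtain ⟨d1, d2, d3⟩ := e2 _ z1 z2
    have d0 : |Q (x 2)| ≤ q * E := by
      refine (hQ.le _).1.trans (mul_le_mul_of_nonneg_left (Real.exp_le_exp.2 ?_) hq0)
      rw [div_le_iff₀ (by positivity)]
      refine mul_le_mul_of_nonneg_left ?_ hk.le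
      have : x 2 ^ 2 ≤ 2 ^ 2 := pow_le_pow_left₀ z0.le (by linarith only [z2, hl1]) 2
      linarith only [this, hρ1]
    rw [indicator_of_mem (s := Icc 0 (2 * lam ρ₀)) ⟨z0.le, z2⟩]
    have t1 : |(Om k).indicator (fun x => ang u ψ x * Rtwo u ψ x * Lop V0 H Q x) x| ≤
        |ang u ψ x * Rtwo u ψ x * Lop V0 H Q x| := by
      rw [indicator_apply]
      split_ifs
      · exact le_rfl
      · rw [abs_zero]; exact abs_nonneg _
    have key := gj2_mid (I := (Om k).indicator (fun x => ang u ψ x * Rtwo u ψ x * Lop V0 H Q x) x) hh0 hq0 ha0 hE0.le hM0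
      he0.le hl0 hA hHe d0 d1 d2 d3 c1 c2 c3 t1
    exact le_trans key (gj2_fin hK1 hK2 ha0 hE0.le hM0 hh0 hq0 r1.le r2.le i2)
  obtain ⟨f1, f2⟩ := e1 _ z2.le
  have f3 : Lop V0 H Qp x = Lop V0 H Q x := by simp only [Lop, f1, f2]
  rw [f2, f3, sub_self, mul_zero, mul_zero, sub_zero]
  by_cases hm : x ∈ Om k
  · rw [indicator_of_mem hm, sub_self, abs_zero]
    positivity
  rw [indicator_of_notMem hm, zero_sub, abs_neg]
  rcases le_or_gt (ρ₀ / 20) (x 2) with z3 | z3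
  · have p0 : ∀ z, ρ₀ / 20 ≤ z → Q z = 0 := fun z hz => hQ.zero z (hz.trans (le_abs_self z))
    have p2 : deriv (deriv Q) (x 2) = 0 := (deriv_zero_of_ge hQ.sm p0 _ z3).2
    simp only [Lop, p0 _ z3, p2, mul_zero, add_zero, abs_zero]
    positivity
  have c1 := b2 ρ₀ hL2 x x1 x2 z2 z3 hm
  have d0 := (hQ.le (x 2)).1
  have d1 := hQ.le2 (x 2) (z1.trans (le_abs_self _))
  set w : ℝ := Real.exp (k * x 2 ^ 2 / (20 * ρ₀)) with hw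
  have hw0 : 0 < w := Real.exp_pos _
  have t1 : |Lop V0 H Q x| ≤ a * hh * e * (q * w) + hh * e * (q * w) := by
    refine (abs_add_le _ _).trans ?_
    rw [abs_mul, abs_mul]
    gcongr
  rw [indicator_of_mem (s := Icc 0 (ρ₀ / 20)) ⟨z0.le, z3.le⟩, abs_mul]
  calc |ang u ψ x * Rtwo u ψ x| * |Lop V0 H Q x|
      ≤ |ang u ψ x * Rtwo u ψ x| * (a * hh * e * (q * w) + hh * e * (q * w)) := by gcongr
    _ = (a + 1) * hh * q * (|ang u ψ x * Rtwo u ψ x| * e * w) := by ring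
    _ ≤ (a + 1) * hh * q * (K2 * ρ₀ ^ (b - 20)) := by gcongr
    _ = K2 * (a + 1) * hh * q * (0 + ρ₀ ^ (b - 20)) := by ring
    _ ≤ _ := by
      have : 0 ≤ K1 * (a * E + 3 * M + a * M) := by positivity
      gcongr
      linarith

end Crest.Agent.R335
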