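import Crest.Agent.R335.Gj2
import Crest.Agent.R335.Gi4

/-!
# R335/Gj3: the Green identity on a block.  `QB.split`, `core_up` for `Qp`, `core_lay` for `Q0`, `glue_pt` and `abs_integral_le_shell` for the difference.  All four pieces of `Glue` are integrable
(`int_of_L2`, `intOn_of_L2`, `Red.memLp_U`, `measurable_Lop`: `Lop`, `H(cyl) Q''(z)` are bounded and vanish off a box).
-/

set_option autoImplicit false

namespace Crest.Agent.R335

open MeasureTheory Set Filter Topology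
open scoped Gradient RealInnerProductSpace ENNReal ContDiff
open Crest.MathPhysics.ThreeBody

variable {k b L C c e1 e2 : ℝ} {R d V0 S v φ u ψ : E3 → ℝ} {GR Gd Gφ Gu Gψ : E3 → E3}

theorem gj3_bdd {f : ℝ → ℝ} (hf : Continuous f) {α β : ℝ} (h0 : ∀ z, z ≤ α ∨ β ≤ z → f z = 0) :
    ∃ B : ℝ, 0 ≤ B ∧ ∀ z, |f z| ≤ B := by
  have hc : HasCompactSupport f := HasCompactSupport.intro (isCompact_Icc (a := α) (b := β)) fun z hz => by
    refine h0 z ?_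
    by_contra h
    push Not at h
    exact hz ⟨h.1.le, h.2.le⟩
  obtain ⟨B, hB⟩ := hf.bounded_above_of_compact_support hc
  exact ⟨B, (norm_nonneg _).trans (hB 0), hB⟩

theorem gj3_d2 {Q : ℝ → ℝ} (hQ : ContDiff ℝ 2 Q) {α β : ℝ} (h0 : ∀ z, z ≤ α ∨ β ≤ z → Q z = 0) (z : ℝ)
    (hz : z ≤ α ∨ β ≤ z) : deriv Q z = 0 ∧ deriv (deriv Q) z = 0 := by
  rcases hz with h1 | h1
  · exact deriv_zero_of_le hQ (fun r hr => h0 r (Or.inl hr)) z h1
  · exact deriv_zero_of_ge hQ (fun r hr => h0 r (Or.inr hr)) z h1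

theorem gj3_int {w f : E3 → ℝ} (hw : MemLp w 2 volume) (hf : Measurable f) {α β z₁ z₂ M : ℝ}
    (h1 : ∀ x ∈ box α β z₁ z₂, |f x| ≤ M) (h2 : ∀ x, (cyl x ≤ α ∨ β ≤ cyl x) ∨ (x 2 ≤ z₁ ∨ z₂ ≤ x 2) → f x = 0) :
    Integrable fun x => w x * f x := by
  have h3 : ∀ x, x ∉ box α β z₁ z₂ → f x = 0 := fun x hx => by
    refine h2 x ?_
    by_contra h
    push Not at h
    exact hx ⟨h.1.1.le, h.1.2.le, h.2.1.le, h.2.2.le⟩
  obtain ⟨M', hM'⟩ := (isCompact_box α β z₁ z₂).isBounded.subset_closedBall 0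
  refine int_of_L2 hw hf.aestronglyMeasurable (M := |M|) (M' := M') (fun x => ?_) fun x hx => h3 x fun h => ?_
  · by_cases hx : x ∈ box α β z₁ z₂
    · exact (h1 x hx).trans (le_abs_self _)
    · rw [h3 x hx, abs_zero]; exact abs_nonneg _
  · exact absurd (mem_closedBall_zero_iff.1 (hM' h)) (not_le.2 hx)

theorem gj3_int2 {w : E3 → ℝ} (hw : MemLp w 2 volume) {ρ₀ h : ℝ} {H Q : ℝ → ℝ} (hH : HB k ρ₀ h H)
    (hQ : ContDiff ℝ 2 Q) {α β : ℝ} (h0 : ∀ z, z ≤ α ∨ β ≤ z → Q z = 0) :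
    Integrable fun x => w x * (H (cyl x) * deriv (deriv Q) (x 2)) := by
  obtain ⟨B, B0, hB⟩ := gj3_bdd hH.sm.continuous hH.zero
  obtain ⟨D, D0, hD⟩ := gj3_bdd (gba_c2 hQ).2 fun z hz => (gj3_d2 hQ h0 z hz).2
  have h2 : Measurable fun x : E3 => x 2 := by fun_prop
  refine gj3_int hw ((hH.sm.continuous.measurable.comp continuous_cyl.measurable).mul
    ((measurable_deriv (deriv Q)).comp h2)) (α := ρ₀) (β := 13 / 10 * ρ₀) (z₁ := α) (z₂ := β) (M := B * D)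
    (fun x _ => ?_) fun x hx => ?_
  · rw [abs_mul]
    exact mul_le_mul (hB _) (hD _) (abs_nonneg _) B0
  · rcases hx with hx | hx
    · rw [hH.zero _ hx, zero_mul]
    · rw [(gj3_d2 hQ h0 _ hx).2, mul_zero]

theorem gj3_int1 (hT : Tail k b L C c R GR d Gd V0 S) {w : E3 → ℝ} (hw : MemLp w 2 volume) {ρ₀ h : ℝ}
    {H Q : ℝ → ℝ} (hL : L < ρ₀) (hH : HB k ρ₀ h H) (hQ : ContDiff ℝ 2 Q) {α β : ℝ}
    (h0 : ∀ z, z ≤ α ∨ β ≤ z → Q z = 0) : Integrable fun x => w x * Lop V0 H Q x := by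
  obtain ⟨B, B0, hB⟩ := gj3_bdd hH.sm.continuous hH.zero
  obtain ⟨B1, B10, hB1⟩ := gj3_bdd (gba_c2 hH.sm).1 fun z hz => (gb_zero hH hz).2.1
  obtain ⟨B2, B20, hB2⟩ := gj3_bdd (gba_c2 hH.sm).2 fun z hz => (gb_zero hH hz).2.2
  obtain ⟨A, A0, hA⟩ := gj3_bdd hQ.continuous h0
  obtain ⟨D, D0, hD⟩ := gj3_bdd (gba_c2 hQ).2 fun z hz => (gj3_d2 hQ h0 z hz).2
  obtain ⟨W, W0, hW⟩ := hT.V0_le
  refine gj3_int hw (measurable_Lop hT.mV hH.sm hQ) (α := ρ₀) (β := 13 / 10 * ρ₀) (z₁ := α) (z₂ := β)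
    (M := (B2 + B1 + 2 * W * B) * A + B * D) (fun x hx => ?_) fun x hx => ?_
  · have a1 : 1 ≤ cyl x := by linarith [hT.Lge, hx.1]
    have a2 : L < ‖x‖ := by linarith [hx.1, cyl_le_norm x]
    have a3 : |deriv H (cyl x) / cyl x| ≤ B1 := by
      rw [abs_div, abs_of_nonneg (cyl_nonneg x)]
      exact (div_le_self (abs_nonneg _) a1).trans (hB1 _)
    have a4 : |2 * V0 x * H (cyl x)| ≤ 2 * W * B := by
      rw [abs_mul, abs_mul, abs_two]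
      exact mul_le_mul (mul_le_mul_of_nonneg_left (hW x a2) zero_le_two) (hB _) (abs_nonneg _) (by positivity)
    have a5 : |deriv (deriv H) (cyl x) + deriv H (cyl x) / cyl x - 2 * V0 x * H (cyl x)| ≤ B2 + B1 + 2 * W * B :=
      (abs_sub _ _).trans (add_le_add ((abs_add_le _ _).trans (add_le_add (hB2 _) a3)) a4)
    refine (abs_add_le _ _).trans (add_le_add ?_ ?_)
    · rw [abs_mul]
      exact mul_le_mul a5 (hA _) (abs_nonneg _) (by positivity)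
    · rw [abs_mul]
      exact mul_le_mul (hB _) (hD _) (abs_nonneg _) B0
  · rcases hx with hx | hx
    · obtain ⟨a0, a1, a2⟩ := gb_zero hH hx
      simp [Lop, a0, a1, a2]
    · simp [Lop, h0 _ hx, (gj3_d2 hQ h0 _ hx).2]

theorem gj3_four {f₁ f₂ f₃ f₄ : E3 → ℝ} (h₁ : Integrable f₁) (h₂ : Integrable f₂) (h₃ : Integrable f₃)
    (h₄ : Integrable f₄) :
    ∫ x, (f₁ x + f₂ x - f₃ x - f₄ x) = (∫ x, f₁ x) + (∫ x, f₂ x) - (∫ x, f₃ x) - ∫ x, f₄ x := by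
  rw [← integral_add h₁ h₂]
  have a := integral_sub (h₁.add h₂) h₃
  have a' := integral_sub ((h₁.add h₂).sub h₃) h₄
  simp only [Pi.add_apply, Pi.sub_apply] at a a'
  rw [a', a]

theorem gj3_abs {Q : ℝ → ℝ} {Z : ℝ} (h0 : ∀ z, Z ≤ |z| → Q z = 0) (z : ℝ) (hz : z ≤ -Z ∨ Z ≤ z) : Q z = 0 := by
  refine h0 z ?_
  rcases hz with h | h
  · linarith [neg_abs_le z]
  · linarith [le_abs_self z]

theorem gj3_num {ρ₀ μ s : ℝ} (h : 1 ≤ ρ₀) (h3 : s ≤ μ + 6 / 5) (h4 : s ≤ 3 * μ) (h5 : s ≤ 10) :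
    Real.pi * ((13 / 10 * ρ₀) ^ 2 - ρ₀ ^ 2) *
      (2 * lam ρ₀ * (ρ₀ ^ (b - 13 / 5 - μ) + ρ₀ ^ (b - 7 / 5 - 3 * μ)) + ρ₀ / 20 * ρ₀ ^ (b - 20)) ≤
      15 * ρ₀ ^ (b - s) := by
  have h0 : 0 < ρ₀ := by linarith
  have key : ∀ a e : ℝ, 2 + a + e ≤ b - s → ρ₀ ^ 2 * (ρ₀ ^ a * ρ₀ ^ e) ≤ ρ₀ ^ (b - s) := fun a e hae => by
    rw [← Real.rpow_two, ← Real.rpow_add h0, ← Real.rpow_add h0]
    exact Real.rpow_le_rpow_of_exponent_le h (by linarith)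
  have a1 := key (-(3 / 5)) (b - 13 / 5 - μ) (by linarith)
  have a2 := key (-(3 / 5)) (b - 7 / 5 - 3 * μ) (by linarith)
  have a3 := key 1 (b - 20) (by linarith)
  rw [Real.rpow_one] at a3
  have a4 : Real.pi * ((13 / 10 * ρ₀) ^ 2 - ρ₀ ^ 2) ≤ 3 * ρ₀ ^ 2 := by
    nlinarith [Real.pi_le_four, sq_nonneg ρ₀]
  have a5 : 0 ≤ ρ₀ ^ (b - s) := by positivity
  refine (mul_le_mul_of_nonneg_right a4 (by unfold lam; positivity)).trans ?_
  unfold lam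
  nlinarith

theorem core (h : Red k b L C c R GR d Gd V0 S v e1 e2 φ Gφ u Gu ψ Gψ) {μ σ n s : ℝ} (hμ : 0 ≤ μ) (hσ : 0 ≤ σ) (hn : 0 ≤ n) (hl : LayB k b ψ μ) (hm : Maj k u ψ σ)
    (hφ : PhiB k b φ n) (h1 : s ≤ σ + 14 / 5) (h2 : s ≤ 2 * n - 21 / 10) (h3 : s ≤ μ + 6 / 5) (h4 : s ≤ 3 * μ)
    (h5 : s ≤ 10) : CoreB k b V0 u ψ s := by
  have hT := h.tail
  obtain ⟨M, hM, hsp⟩ := QB.split hT.kpos
  obtain ⟨C1, L1, C10, hup⟩ := core_up h hσ hn hm hφ h1 h2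
  obtain ⟨C2, L2, C20, hlay⟩ := core_lay h hμ hl
  obtain ⟨C3, L3, C30, hgl⟩ := glue_pt h hμ hM hl
  refine ⟨15 * C3 + C2 * M + C1 * M, max (max L1 L2) (max L3 (L + 1)), by positivity,
    fun ρ₀ h' q H Q hρ hH hQ => ?_⟩
  simp only [max_le_iff] at hρ
  obtain ⟨⟨r1, r2⟩, r3, r4⟩ := hρ
  have r5 : 1 ≤ ρ₀ := by linarith [hT.Lge]
  have r0 : 0 < ρ₀ := by linarith
  have rl : 0 < lam ρ₀ := Real.rpow_pos_of_pos r0 _
  have hh := hH.h0
  have hq := hQ.q0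
  obtain ⟨Qp, Q0, s1, s2, s3, s4, s5, s6, s7, s8⟩ := hsp ρ₀ q Q r5 hQ
  have e4 := hup ρ₀ h' (M * q) H Qp r1 hH s1
  have e3 := hlay ρ₀ h' (M * q) H Q0 r2 hH s2 s3 s4 s5
  have hg := hgl ρ₀ h' q H Q Qp Q0 r3 hH hQ s1 s6 s7 s8
  have m2 : Measurable fun x : E3 => x 2 := by fun_prop
  have mA : MeasurableSet {x : E3 | 0 < x 2 ∧ x 2 < lam ρ₀} := m2 measurableSet_Ioo
  have mB : MeasurableSet {x : E3 | 0 < x 2} := m2 measurableSet_Ioi
  have hψ := h.oψ.eig.h1.mf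
  have i1 := (gj3_int1 hT h.memLp_U.1 (by linarith) hH hQ.sm (gj3_abs hQ.zero)).indicator (measurableSet_Om k)
  have i2 := (gj3_int2 hψ hH hQ.sm (gj3_abs hQ.zero)).indicator mA
  have i3 := (gj3_int2 hψ hH s2 (gj3_abs s4)).indicator mB
  have i4 := gj3_int1 hT h.memLp_U.1 (by linarith) hH s1.sm s1.zero
  have j1 : Integrable ((Icc 0 (2 * lam ρ₀)).indicator
      fun _ : ℝ => ρ₀ ^ (b - 13 / 5 - μ) + ρ₀ ^ (b - 7 / 5 - 3 * μ)) :=
    (integrable_indicator_iff measurableSet_Icc).2 (integrableOn_const measure_Icc_lt_top.ne)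
  have j2 : Integrable ((Icc 0 (ρ₀ / 20)).indicator fun _ : ℝ => ρ₀ ^ (b - 20)) :=
    (integrable_indicator_iff measurableSet_Icc).2 (integrableOn_const measure_Icc_lt_top.ne)
  have e1 := abs_integral_le_shell r0.le (by linarith : ρ₀ ≤ 13 / 10 * ρ₀) (F := Glue k ρ₀ V0 u ψ H Q Qp Q0)
    ((j1.add j2).const_mul (C3 * h' * q)) (Eventually.of_forall fun x => (hg x).2)
    (Eventually.of_forall fun x => (hg x).1)
  simp only [Pi.add_apply] at e1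
  rw [integral_const_mul, integral_add j1 j2, integral_indicator measurableSet_Icc,
    integral_indicator measurableSet_Icc, setIntegral_const, setIntegral_const, Real.volume_real_Icc_of_le (by linarith),
    Real.volume_real_Icc_of_le (by linarith), sub_zero, sub_zero, smul_eq_mul, smul_eq_mul, mul_left_comm] at e1
  have e2 := e1.trans (mul_le_mul_of_nonneg_left (gj3_num r5 h3 h4 h5) (by positivity))
  unfold Glue at e2
  rw [gj3_four i1 i2 i3 i4,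
    integral_indicator (measurableSet_Om k), integral_indicator mA, integral_indicator mB] at e2
  have e5 : C2 * h' * (M * q) * ρ₀ ^ (b - 6 / 5 - μ) ≤ C2 * h' * (M * q) * ρ₀ ^ (b - s) :=
    mul_le_mul_of_nonneg_left (Real.rpow_le_rpow_of_exponent_le r5 (by linarith)) (by positivity)
  have e6 := e3.trans e5
  rw [abs_le] at e2 e4 e6 ⊢
  constructor <;> linarith [e2.1, e2.2, e4.1, e4.2, e6.1, e6.2]

end Crest.Agent.R335
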