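import Crest.Agent.R335.Ge

/-!
# R335/Gk1: consequences of `NB`.  Cover `[α, β]` by `⌊β - α⌋ + 1` unit windows (induction on the number of windows, `setIntegral_mono_set`, `integral_union_le`-type additivity; integrability by
`int_window`, `Red.memLp_U`).
-/

set_option autoImplicit false

namespace Crest.Agent.R335

open MeasureTheory Set Filter Topology
open scoped Gradient RealInnerProductSpace ENNReal ContDiff
open Crest.MathPhysics.ThreeBody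

variable {k b L C c e1 e2 : ℝ} {R d V0 S v φ u ψ : E3 → ℝ} {GR Gd Gφ Gu Gψ : E3 → E3}

theorem gk1_nn (k b : ℝ) (u ψ : E3 → ℝ) (x : E3) : 0 ≤ |ang u ψ x| * Rtwo u ψ x * Gz k b (cyl x) :=
  mul_nonneg (mul_nonneg (abs_nonneg _) (Real.sqrt_nonneg _))
    (mul_nonneg (Real.exp_pos _).le (Real.rpow_nonneg (Real.sqrt_nonneg _) _))

theorem gk1_int (h : Red k b L C c R GR d Gd V0 S v e1 e2 φ Gφ u Gu ψ Gψ) : ∃ L' : ℝ, 3 ≤ L' ∧ ∀ α β, L' ≤ α →
    IntegrableOn (fun x => |ang u ψ x| * Rtwo u ψ x * Gz k b (cyl x)) (Om k ∩ shell α β) := by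
  obtain ⟨L', h3, H⟩ := int_window h.tail.kpos b
  refine ⟨L', h3, fun α β hα => ?_⟩
  simpa using H _ (fun _ => 1) (Om k ∩ shell α β) α β 1 hα h.memLp_U.2 aestronglyMeasurable_const
    ((measurableSet_Om k).inter (measurableSet_shell α β)) inter_subset_left (fun _ _ _ => by simp)
    fun x hx hx' => absurd hx.2 hx'

theorem gk1_union {F : E3 → ℝ} (h0 : ∀ x, 0 ≤ F x) {A B D : Set E3} (hB : MeasurableSet B) (hA : IntegrableOn F A)
    (iB : IntegrableOn F B) (iD : IntegrableOn F D) (hs : A \ B ⊆ D) :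
    ∫ x in A, F x ≤ (∫ x in B, F x) + ∫ x in D, F x := by
  rw [← integral_inter_add_sdiff hB hA]
  exact add_le_add (setIntegral_mono_set iB (ae_of_all _ h0) inter_subset_right.eventuallyLE)
    (setIntegral_mono_set iD (ae_of_all _ h0) hs.eventuallyLE)

theorem nb_int (h : Red k b L C c R GR d Gd V0 S v e1 e2 φ Gφ u Gu ψ Gψ) {ν : ℝ} (hν : -1 / 2 ≤ ν) (hN : NB k b u ψ ν) : ∃ L' : ℝ, 3 ≤ L' ∧ ∀ α β, L' ≤ α → α ≤ β →
    ∫ x in Om k ∩ shell α β, |ang u ψ x| * Rtwo u ψ x * Gz k b (cyl x) ≤ (β - α + 1) * α ^ (-ν - 1 / 2) := by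
  obtain ⟨L1, h3, hI⟩ := gk1_int h
  obtain ⟨L2, hN⟩ := hN
  refine ⟨max L1 L2, le_max_of_le_left h3, fun α β hα hβ => ?_⟩
  have h1 : L1 ≤ α := (le_max_left _ _).trans hα
  have h2 : L2 ≤ α := (le_max_right _ _).trans hα
  have hα0 : 0 < α := by linarith
  have key : ∀ n : ℕ, ∫ x in Om k ∩ shell α (α + n + 1), |ang u ψ x| * Rtwo u ψ x * Gz k b (cyl x) ≤
      (n + 1) * α ^ (-ν - 1 / 2) := by
    intro n
    induction n with
    | zero => simpa [Nw] using hN α h2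
    | succ n ih =>
      have hn : (0 : ℝ) ≤ n := n.cast_nonneg
      have e : α + ((n + 1 : ℕ) : ℝ) + 1 = α + n + 1 + 1 := by push_cast; ring
      have a1 := gk1_union (gk1_nn k b u ψ) ((measurableSet_Om k).inter (measurableSet_shell α (α + n + 1)))
        (hI α (α + n + 1 + 1) h1) (hI α _ h1) (hI (α + n + 1) (α + n + 1 + 1) (by linarith))
        fun x hx => ⟨hx.1.1, (not_le.1 fun hc => hx.2 ⟨hx.1.1, hx.1.2.1, hc⟩).le, hx.1.2.2⟩
      have a2 := hN (α + n + 1) (by linarith)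
      have a3 : (α + n + 1) ^ (-ν - 1 / 2) ≤ α ^ (-ν - 1 / 2) :=
        Real.rpow_le_rpow_of_nonpos hα0 (by linarith) (by linarith)
      rw [e]
      unfold Nw at a2
      push_cast
      linarith
  have f1 : (⌊β - α⌋₊ : ℝ) ≤ β - α := Nat.floor_le (by linarith)
  have f2 := Nat.lt_floor_add_one (β - α)
  refine ((setIntegral_mono_set (hI α _ h1) (ae_of_all _ (gk1_nn k b u ψ))
    (LE.le.eventuallyLE fun x hx => ⟨hx.1, hx.2.1, ?_⟩)).trans (key ⌊β - α⌋₊)).trans ?_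
  · linarith [hx.2.2]
  · exact mul_le_mul_of_nonneg_right (by linarith) (Real.rpow_nonneg hα0.le _)

/-- `norm_integral_le_of_norm_le`; no measurability of `p` is needed -/
theorem mom_le (h : Red k b L C c R GR d Gd V0 S v e1 e2 φ Gφ u Gu ψ Gψ) {ν : ℝ} (hν : -1 / 2 ≤ ν) (hN : NB k b u ψ ν) {θ : ℝ → ℝ} (hθ : Win k b θ) : ∃ L' : ℝ, 3 ≤ L' ∧
    ∀ (ρ₀ P : ℝ) (p : E3 → ℝ), L' ≤ ρ₀ → 0 ≤ P → (∀ x ∈ Om k ∩ shell ρ₀ (ρ₀ + 3), |p x| ≤ P) →
      |mom k b u ψ θ p ρ₀| ≤ 4 * P * ρ₀ ^ (-ν - 1 / 2) := by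
  obtain ⟨L1, h3, hI⟩ := gk1_int h
  obtain ⟨L2, -, H⟩ := nb_int h hν hN
  refine ⟨max L1 L2, le_max_of_le_left h3, fun ρ₀ P p hρ hP hp => ?_⟩
  have hm := (measurableSet_Om k).inter (measurableSet_shell ρ₀ (ρ₀ + 3))
  have a1 := H ρ₀ (ρ₀ + 3) ((le_max_right _ _).trans hρ) (by linarith)
  unfold mom
  rw [setIntegral_eq_of_subset_of_forall_sdiff_eq_zero (measurableSet_Om k) (s := Om k ∩ shell ρ₀ (ρ₀ + 3))
    inter_subset_left fun x hx => ?_]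
  · rw [← Real.norm_eq_abs]
    refine (norm_integral_le_of_norm_le ((hI ρ₀ (ρ₀ + 3) ((le_max_left _ _).trans hρ)).const_mul P)
      (ae_restrict_of_forall_mem hm fun x hx => ?_)).trans ?_
    · have hG : 0 ≤ Gz k b (cyl x) := mul_nonneg (Real.exp_pos _).le (Real.rpow_nonneg (Real.sqrt_nonneg _) _)
      have hR : 0 ≤ Rtwo u ψ x := Real.sqrt_nonneg _
      rw [Real.norm_eq_abs, abs_mul, abs_mul, abs_mul, abs_mul, abs_of_nonneg hG, abs_of_nonneg hR,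
        abs_of_nonneg (hθ.nn _)]
      calc |ang u ψ x| * Rtwo u ψ x * (|p x| * (Gz k b (cyl x) * θ (cyl x - ρ₀)))
          ≤ |ang u ψ x| * Rtwo u ψ x * (P * (Gz k b (cyl x) * 1)) := by
            have := hθ.nn (cyl x - ρ₀)
            gcongr
            · exact hp x hx
            · exact hθ.le _
        _ = _ := by ring
    · rw [integral_const_mul]
      calc _ ≤ P * ((ρ₀ + 3 - ρ₀ + 1) * ρ₀ ^ (-ν - 1 / 2)) := mul_le_mul_of_nonneg_left a1 hP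
        _ = _ := by ring
  · have : θ (cyl x - ρ₀) = 0 := hθ.zero _ (by
      by_contra hc
      push Not at hc
      exact hx.2 ⟨hx.1, by linarith [hc.1], by linarith [hc.2]⟩)
    simp [this]

theorem int_Ew (h : Red k b L C c R GR d Gd V0 S v e1 e2 φ Gφ u Gu ψ Gψ) {ν : ℝ} (hν : -1 / 2 ≤ ν) (hN : NB k b u ψ ν) : ∃ C' L' : ℝ, 0 ≤ C' ∧ ∀ ρ₀, L' ≤ ρ₀ →
    ∫ x in Om k ∩ shell ρ₀ (13 / 10 * ρ₀), |ang u ψ x| * Rtwo u ψ x * (Gz k b (cyl x) * Ew k ρ₀ (cyl x)) ≤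
      C' * Real.log ρ₀ * ρ₀ ^ (-ν - 3 / 2) := by
  obtain ⟨L1, h3, hI⟩ := gk1_int h
  obtain ⟨L2, -, H⟩ := nb_int h hν hN
  have hk := h.tail.kpos
  refine ⟨3 + 2 / k, max L1 L2, by positivity, fun ρ₀ hρ => ?_⟩
  have h1 : L1 ≤ ρ₀ := (le_max_left _ _).trans hρ
  have h2 : L2 ≤ ρ₀ := (le_max_right _ _).trans hρ
  have h0 : 0 < ρ₀ := by linarith
  have hl : 1 ≤ Real.log ρ₀ := by
    rw [Real.le_log_iff_exp_le h0]
    linarith [Real.exp_one_lt_d9]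
  have hlk : 0 ≤ Real.log ρ₀ / k := by positivity
  set F : E3 → ℝ := fun x => |ang u ψ x| * Rtwo u ψ x * Gz k b (cyl x) with hF
  have hA := hI ρ₀ (13 / 10 * ρ₀) h1
  have hw : ∀ α, ρ₀ ≤ α → ∫ x in Om k ∩ shell ρ₀ (13 / 10 * ρ₀), (shell α (α + Real.log ρ₀ / k)).indicator F x ≤
      (Real.log ρ₀ / k + 1) * ρ₀ ^ (-ν - 1 / 2) := by
    intro α hα
    rw [setIntegral_indicator (measurableSet_shell _ _)]
    refine ((setIntegral_mono_set (hI α _ (h1.trans hα)) (ae_of_all _ (gk1_nn k b u ψ))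
      (LE.le.eventuallyLE fun x hx => ⟨hx.1.1, hx.2⟩)).trans
      (H α _ (h2.trans hα) (by linarith))).trans ?_
    rw [add_sub_cancel_left]
    exact mul_le_mul_of_nonneg_left (Real.rpow_le_rpow_of_nonpos h0 hα (by linarith)) (by positivity)
  have e : (fun x => |ang u ψ x| * Rtwo u ψ x * (Gz k b (cyl x) * Ew k ρ₀ (cyl x))) = fun x =>
      (ρ₀ ^ 2)⁻¹ * F x + ρ₀⁻¹ * ((shell ρ₀ (ρ₀ + Real.log ρ₀ / k)).indicator F x +
        (shell (6 / 5 * ρ₀) (6 / 5 * ρ₀ + Real.log ρ₀ / k)).indicator F x) := by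
    funext x
    have i : ∀ α β, (shell α β).indicator F x = (Icc α β).indicator 1 (cyl x) * F x := by
      intro α β
      by_cases hx : x ∈ shell α β
      · rw [indicator_of_mem hx, indicator_of_mem (show cyl x ∈ Icc α β from hx), Pi.one_apply, one_mul]
      · rw [indicator_of_notMem hx, indicator_of_notMem (show cyl x ∉ Icc α β from hx), zero_mul]
    rw [i, i, Ew, hF]
    ring
  have i1 := fun α β => hA.indicator (measurableSet_shell α β)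
  rw [e, integral_add (hA.const_mul _) (((i1 _ _).fun_add (i1 _ _)).const_mul _), integral_const_mul,
    integral_const_mul, integral_add (i1 _ _) (i1 _ _)]
  have a1 := H ρ₀ (13 / 10 * ρ₀) h2 (by linarith)
  have a2 := hw ρ₀ le_rfl
  have a3 := hw (6 / 5 * ρ₀) (by linarith)
  have e2 : ρ₀ ^ (-ν - 3 / 2) = ρ₀⁻¹ * ρ₀ ^ (-ν - 1 / 2) := by
    rw [← Real.rpow_neg_one, ← Real.rpow_add h0]
    congr 1
    ring
  have hp : 0 ≤ ρ₀ ^ (-ν - 1 / 2) := Real.rpow_nonneg h0.le _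
  calc _ ≤ (ρ₀ ^ 2)⁻¹ * (ρ₀ * ρ₀ ^ (-ν - 1 / 2)) + ρ₀⁻¹ * ((Real.log ρ₀ / k + 1) * ρ₀ ^ (-ν - 1 / 2) +
        (Real.log ρ₀ / k + 1) * ρ₀ ^ (-ν - 1 / 2)) := by
        gcongr
        exact a1.trans (mul_le_mul_of_nonneg_right (by linarith) hp)
    _ = (3 + 2 / k * Real.log ρ₀) * (ρ₀⁻¹ * ρ₀ ^ (-ν - 1 / 2)) := by field_simp; ring
    _ ≤ _ := by
        rw [← e2]
        exact mul_le_mul_of_nonneg_right (by linarith) (Real.rpow_nonneg h0.le _)

end Crest.Agent.R335
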