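import Crest.Agent.R335.Gk2a

/-!
# R335/Gk2: the model error
-/

set_option autoImplicit false

namespace Crest.Agent.R335

open MeasureTheory Set Filter Topology
open scoped Gradient RealInnerProductSpace ENNReal ContDiff
open Crest.MathPhysics.ThreeBody

variable {k b L C c e1 e2 : ℝ} {R d V0 S v φ u ψ : E3 → ℝ} {GR Gd Gφ Gu Gψ : E3 → E3}

/-- `int_Ew`; `θ (cyl - ρ₀)` and `θ (cyl - 6/5 ρ₀)` vanish off the shell; integrability by `int_window` (`p` is bounded on `Om ∩ shell`), for `F` by comparison -/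
theorem blk_gen (h : Red k b L C c R GR d Gd V0 S v e1 e2 φ Gφ u Gu ψ Gψ) {ν : ℝ} (hν : -1 / 2 ≤ ν) (hN : NB k b u ψ ν) {θ : ℝ → ℝ} (hθ : Win k b θ) : ∃ C' L' : ℝ, 0 ≤ C' ∧
    ∀ (ρ₀ P : ℝ) (F p : E3 → ℝ), L' ≤ ρ₀ → 0 ≤ P → Measurable F → Continuous p →
      (∀ x, x ∉ shell ρ₀ (13 / 10 * ρ₀) → F x = 0) →
      (∀ x ∈ Om k ∩ shell ρ₀ (13 / 10 * ρ₀),
        |F x - p x * (Gz k b (cyl x) * (θ (cyl x - ρ₀) - θ (cyl x - 6 / 5 * ρ₀)))| ≤ P * (Gz k b (cyl x) * Ew k ρ₀ (cyl x))) →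
      IntegrableOn (fun x => ang u ψ x * Rtwo u ψ x * F x) (Om k) ∧
        |(∫ x in Om k, ang u ψ x * Rtwo u ψ x * F x) - (mom k b u ψ θ p ρ₀ - mom k b u ψ θ p (6 / 5 * ρ₀))| ≤
          C' * P * Real.log ρ₀ * ρ₀ ^ (-ν - 3 / 2) := by
  obtain ⟨L1, -, hw⟩ := int_window h.tail.kpos b
  obtain ⟨C', L2, hC, hE⟩ := int_Ew h hν hN
  obtain ⟨L3, -, hO⟩ := Om_small h.tail.kpos
  refine ⟨C', max (max L1 L2) (max L3 30), hC, fun ρ₀ P F p hL hP hF hp hF0 hFp => ?_⟩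
  have l1 : L1 ≤ ρ₀ := (le_max_left _ _).trans ((le_max_left _ _).trans hL)
  have l2 : L2 ≤ ρ₀ := (le_max_right _ _).trans ((le_max_left _ _).trans hL)
  have l3 : L3 ≤ ρ₀ := (le_max_left _ _).trans ((le_max_right _ _).trans hL)
  have l4 : 30 ≤ ρ₀ := (le_max_right _ _).trans ((le_max_right _ _).trans hL)
  have hA := measurableSet_Om k
  have hAS : MeasurableSet (Om k ∩ shell ρ₀ (13 / 10 * ρ₀)) := hA.inter (measurableSet_shell _ _)
  obtain ⟨M, hM⟩ := (isCompact_closedBall (0 : E3) (3 * ρ₀)).exists_bound_of_continuousOn hp.continuousOn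
  have hM' : ∀ x ∈ Om k, x ∈ shell ρ₀ (13 / 10 * ρ₀) → |p x| ≤ M := fun x hx hs => by
    refine hM x (mem_closedBall_zero_iff.2 ?_)
    obtain ⟨h3, h4⟩ := hO x hx (l3.trans hs.1)
    have h5 := norm_le_cyl_add x
    rw [abs_of_pos h3] at h5
    linarith [hs.2]
  have hθ0 : ∀ ρ₁, ρ₀ ≤ ρ₁ → ρ₁ ≤ 6 / 5 * ρ₀ → ∀ x, x ∉ shell ρ₀ (13 / 10 * ρ₀) → θ (cyl x - ρ₁) = 0 := by
    intro ρ₁ h1 h2 x hx
    refine hθ.zero _ ?_
    by_contra hc
    push Not at hc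
    exact hx ⟨by linarith [hc.1], by linarith [hc.2]⟩
  have hI : ∀ ρ₁, ρ₀ ≤ ρ₁ → ρ₁ ≤ 6 / 5 * ρ₀ → IntegrableOn
      (fun x => ang u ψ x * Rtwo u ψ x * (p x * (Gz k b (cyl x) * θ (cyl x - ρ₁)))) (Om k) := by
    intro ρ₁ h1 h2
    have := hw _ (fun x => p x * θ (cyl x - ρ₁)) (Om k) ρ₀ (13 / 10 * ρ₀) M l1 h.memLp_U.1
      (hp.mul (hθ.cont.comp (continuous_cyl.sub continuous_const))).aestronglyMeasurable hA subset_rfl
      (fun x hx hs => by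
        rw [abs_mul, abs_of_nonneg (hθ.nn _)]
        exact (mul_le_of_le_one_right (abs_nonneg _) (hθ.le _)).trans (hM' x hx hs))
      (fun x _ hs => by rw [hθ0 ρ₁ h1 h2 x hs, mul_zero])
    refine this.congr_fun (fun x _ => ?_) hA
    ring
  have i1 := hI ρ₀ le_rfl (by linarith)
  have i2 := hI (6 / 5 * ρ₀) (by linarith) le_rfl
  have iE : IntegrableOn (fun x => |ang u ψ x| * Rtwo u ψ x * (Gz k b (cyl x) * Ew k ρ₀ (cyl x)))
      (Om k ∩ shell ρ₀ (13 / 10 * ρ₀)) := by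
    have := hw _ (fun x => Ew k ρ₀ (cyl x)) (Om k ∩ shell ρ₀ (13 / 10 * ρ₀)) ρ₀ (13 / 10 * ρ₀)
      ((ρ₀ ^ 2)⁻¹ + 2 * ρ₀⁻¹) l1 h.memLp_U.2
      ((measurable_Ew k ρ₀).comp continuous_cyl.measurable).aestronglyMeasurable hAS inter_subset_left
      (fun x _ _ => by
        obtain ⟨h1, h2⟩ := Ew_nonneg k (by linarith : 0 < ρ₀) (cyl x)
        rw [abs_of_nonneg (le_trans (by positivity) h1)]
        exact h2)
      (fun x hx hs => absurd hx.2 hs)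
    refine this.congr_fun (fun x _ => ?_) hAS
    ring
  set D : E3 → ℝ := fun x => ang u ψ x * Rtwo u ψ x *
    (F x - p x * (Gz k b (cyl x) * (θ (cyl x - ρ₀) - θ (cyl x - 6 / 5 * ρ₀)))) with hD
  have hD0 : ∀ x ∈ Om k \ (Om k ∩ shell ρ₀ (13 / 10 * ρ₀)), D x = 0 := fun x hx => by
    have hs : x ∉ shell ρ₀ (13 / 10 * ρ₀) := fun hs => hx.2 ⟨hx.1, hs⟩
    simp only [hD, hF0 x hs, hθ0 ρ₀ le_rfl (by linarith) x hs, hθ0 (6 / 5 * ρ₀) (by linarith) le_rfl x hs]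
    ring
  have hDm : AEStronglyMeasurable D volume :=
    h.memLp_U.1.aestronglyMeasurable.mul (hF.sub (hp.measurable.mul
      (((measurable_Gz k b).comp continuous_cyl.measurable).mul
        ((hθ.cont.comp (continuous_cyl.sub continuous_const)).sub
          (hθ.cont.comp (continuous_cyl.sub continuous_const))).measurable))).aestronglyMeasurable
  have hDle : ∀ᵐ x ∂(volume.restrict (Om k ∩ shell ρ₀ (13 / 10 * ρ₀))),
      ‖D x‖ ≤ P * (|ang u ψ x| * Rtwo u ψ x * (Gz k b (cyl x) * Ew k ρ₀ (cyl x))) := by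
    refine (ae_restrict_iff' hAS).2 (Eventually.of_forall fun x hx => ?_)
    have hR : 0 ≤ Rtwo u ψ x := Real.sqrt_nonneg _
    rw [Real.norm_eq_abs, hD, abs_mul, abs_mul, abs_of_nonneg hR]
    calc _ ≤ |ang u ψ x| * Rtwo u ψ x * (P * (Gz k b (cyl x) * Ew k ρ₀ (cyl x))) :=
          mul_le_mul_of_nonneg_left (hFp x hx) (by positivity)
      _ = _ := by ring
  have iD' : IntegrableOn D (Om k ∩ shell ρ₀ (13 / 10 * ρ₀)) :=
    Integrable.mono' (iE.const_mul P) hDm.restrict hDle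
  have iD : IntegrableOn D (Om k) := iD'.of_forall_sdiff_eq_zero hA hD0
  have e : ∀ x, ang u ψ x * Rtwo u ψ x * F x = D x +
      (ang u ψ x * Rtwo u ψ x * (p x * (Gz k b (cyl x) * θ (cyl x - ρ₀))) -
        ang u ψ x * Rtwo u ψ x * (p x * (Gz k b (cyl x) * θ (cyl x - 6 / 5 * ρ₀)))) := fun x => by
    simp only [hD]
    ring
  simp only [e]
  refine ⟨iD.add (i1.sub i2), ?_⟩
  rw [integral_add iD (i1.sub' i2), integral_sub i1 i2, mom, mom, add_sub_cancel_right,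
    setIntegral_eq_of_subset_of_forall_sdiff_eq_zero hA inter_subset_left hD0]
  calc _ ≤ ∫ x in Om k ∩ shell ρ₀ (13 / 10 * ρ₀),
        P * (|ang u ψ x| * Rtwo u ψ x * (Gz k b (cyl x) * Ew k ρ₀ (cyl x))) :=
        norm_integral_le_of_norm_le (iE.const_mul P) hDle
    _ ≤ P * (C' * Real.log ρ₀ * ρ₀ ^ (-ν - 3 / 2)) := by
        rw [integral_const_mul]
        exact mul_le_mul_of_nonneg_left (hE ρ₀ l2) hP
    _ = _ := by ring

end Crest.Agent.R335
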