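import Crest.Agent.R335.Gk1
import Crest.Agent.R335.Gb

/-!
# R335/Gk2: the model error
-/

set_option autoImplicit false

namespace Crest.Agent.R335

open MeasureTheory Set Filter Topology
open scoped Gradient RealInnerProductSpace ENNReal ContDiff
open Crest.MathPhysics.ThreeBody

variable {k b L C c e1 e2 : ℝ} {R d V0 S v φ u ψ : E3 → ℝ} {GR Gd Gφ Gu Gψ : E3 → E3}

/-- `Tail.V0a`, `1/ρ - 1/‖x‖ ≤ z²/(2 ρ³)` (`norm_sub_cyl`), `z² ≤ (1000/k) ρ log ρ`, `HW.eq`, `HW.le`, `Ew_nonneg` -/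
theorem Tail.model (h : Tail k b L C c R GR d Gd V0 S) (C₁ : ℝ) : ∃ C' L' : ℝ, 0 ≤ C' ∧
    ∀ (ρ₀ c₁ : ℝ) (θ H : ℝ → ℝ), L' ≤ ρ₀ → HW k b C₁ c₁ ρ₀ θ H → ∀ x ∈ Om k ∩ shell ρ₀ (13 / 10 * ρ₀),
      |deriv (deriv H) (cyl x) + deriv H (cyl x) / cyl x - 2 * V0 x * H (cyl x) -
        Gz k b (cyl x) * (θ (cyl x - ρ₀) - θ (cyl x - 6 / 5 * ρ₀))| ≤
          C' * Real.log ρ₀ * (Gz k b (cyl x) * Ew k ρ₀ (cyl x)) := by
  have hC := h.Cge
  have hk := h.kpos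
  refine ⟨|C₁| * (1 + (C + 2000 * |b|)), max 3 (L + 1), by positivity,
    fun ρ₀ c₁ θ H hρ hW x hx => ?_⟩
  obtain ⟨⟨-, hz⟩, h1, h2⟩ := hx
  have h3 : 3 ≤ ρ₀ := (le_max_left _ _).trans hρ
  have h4 : L + 1 ≤ ρ₀ := (le_max_right _ _).trans hρ
  have h0 : 0 < ρ₀ := by linarith
  have hp : 0 < cyl x := by linarith
  have hr := cyl_le_norm x
  have hr0 : 0 < ‖x‖ := by linarith
  have hl1 : 1 ≤ Real.log ρ₀ := by
    rw [Real.le_log_iff_exp_le h0]; linarith [Real.exp_one_lt_d9]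
  have hl2 : Real.log (cyl x) ≤ 2 * Real.log ρ₀ := by
    have := Real.log_le_log hp (show cyl x ≤ ρ₀ ^ 2 by nlinarith)
    rwa [Real.log_pow, Nat.cast_ofNat] at this
  have hE := (Ew_nonneg k h0 (cyl x)).1
  have hE0 : 0 < (ρ₀ ^ 2)⁻¹ := by positivity
  have hG := Gz_pos k b hp
  have a1 : C / ‖x‖ ^ 2 ≤ C * (Real.log ρ₀ * Ew k ρ₀ (cyl x)) := by
    rw [div_eq_mul_inv]
    refine mul_le_mul_of_nonneg_left ?_ (by linarith)
    have := inv_anti₀ (by positivity) (pow_le_pow_left₀ h0.le (h1.trans hr) 2)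
    nlinarith
  have a2 : ‖x‖ - cyl x ≤ 1000 / k * Real.log ρ₀ := by
    refine (norm_sub_cyl x hp).2.trans ?_
    rw [div_le_iff₀ (by positivity)]
    have := mul_le_mul_of_nonneg_left hl2 (show 0 ≤ 1000 / k * cyl x by positivity)
    linarith
  have a3 : |2 * k * b / ‖x‖ - 2 * k * b / cyl x| ≤
      2000 * |b| * (Real.log ρ₀ * Ew k ρ₀ (cyl x)) := by
    have e : 2 * k * b / ‖x‖ - 2 * k * b / cyl x = -(2 * k * b * ((‖x‖ - cyl x) * (‖x‖ * cyl x)⁻¹)) := by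
      field_simp; ring
    have i1 : (‖x‖ * cyl x)⁻¹ ≤ Ew k ρ₀ (cyl x) :=
      (inv_anti₀ (by positivity) (by nlinarith)).trans hE
    have i2 := mul_le_mul a2 i1 (by positivity) (by positivity)
    have i3 : 0 ≤ (‖x‖ - cyl x) * (‖x‖ * cyl x)⁻¹ := mul_nonneg (by linarith) (by positivity)
    rw [e, abs_neg, abs_mul, abs_mul, abs_of_nonneg i3, abs_of_pos (by positivity : 0 < 2 * k)]
    refine (mul_le_mul_of_nonneg_left i2 (by positivity)).trans (le_of_eq ?_)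
    field_simp; ring
  have a4 : |k ^ 2 - 2 * k * b / cyl x - 2 * V0 x| ≤
      (C + 2000 * |b|) * (Real.log ρ₀ * Ew k ρ₀ (cyl x)) := by
    obtain ⟨k1, k2⟩ := abs_le.1 ((h.V0a x (by linarith)).trans a1)
    obtain ⟨k3, k4⟩ := abs_le.1 a3
    exact abs_le.2 ⟨by linarith, by linarith⟩
  have a5 : H (cyl x) ≤ |C₁| * Gz k b (cyl x) :=
    (hW.le _ h1).trans (mul_le_mul_of_nonneg_right (le_abs_self _) hG.le)
  have a6 := mul_le_mul a4 a5 (hW.nn _) ((abs_nonneg _).trans a4)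
  have hGE : 0 ≤ Gz k b (cyl x) * Ew k ρ₀ (cyl x) := mul_nonneg hG.le (hE0.le.trans hE)
  have a7 := (hW.eq _ h1 h2).trans (mul_le_mul_of_nonneg_right
    ((le_abs_self C₁).trans (le_mul_of_one_le_right (abs_nonneg _) hl1)) hGE)
  rw [← abs_of_nonneg (hW.nn (cyl x)), ← abs_mul] at a6
  refine le_trans (le_of_eq ?_) ((abs_add_le _ _).trans ((add_le_add a7 a6).trans (le_of_eq ?_)))
  · congr 1; ring
  · ring
end Crest.Agent.R335
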