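import Crest.Agent.R335.Gk2
import Crest.Agent.R335.Gg3

/-!
# R335/Gk5: the kernel `√(z² + ε²)` sees the values of `ψ` on the plane.
`CoreB` for `(H, Q1)`: error `C √ρ₀ ρ₀^(-1/2-s)`.  `blk_gen` with `p x = Q (x 2)`, `P = C √ρ₀ (log ρ₀)²` (on `Om ∩ shell`: `λ₀ ≤ z < ρ₀/40`, `|Q| ≤ z + 1 ≤ C √ρ₀ log ρ₀`,
`H Q'' ≤ C Gz ρ₀⁻² ≤ C Gz Ew`), `mom_le` at `ρ₀` and `6/5 ρ₀` with `P = C √ρ₀ log ρ₀`.  `src_low`: the integrand is `≥ 0`, and `≥ c ρ₀^(-11/2) Q''(z)` on `box (ρ₀ + 3) (6/5 ρ₀) 0 λ₀`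
(`HW.low`, `Gz_cmp`, `gfun_low`, `rpow_cmp`); `shell_int` for `f = 1_(0,λ₀) Q''`.
-/

set_option autoImplicit false

namespace Crest.Agent.R335

open MeasureTheory Set Filter Topology
open scoped Gradient RealInnerProductSpace ENNReal ContDiff
open Crest.MathPhysics.ThreeBody

variable {k b L C c e1 e2 : ℝ} {R d V0 S v φ u ψ : E3 → ℝ} {GR Gd Gφ Gu Gψ : E3 → E3}

theorem gk5a_bdd {H : ℝ → ℝ} (hH : Continuous H) {α β : ℝ} (h0 : ∀ ρ, ρ ≤ α ∨ β ≤ ρ → H ρ = 0) :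
    ∃ M : ℝ, 0 ≤ M ∧ ∀ ρ, |H ρ| ≤ M := by
  obtain ⟨M, hM⟩ := (isCompact_Icc (a := α) (b := β)).exists_bound_of_continuousOn hH.continuousOn
  refine ⟨max M 0, le_max_right _ _, fun ρ => ?_⟩
  by_cases h : ρ ∈ Icc α β
  · exact (hM ρ h).trans (le_max_left _ _)
  · have : ρ ≤ α ∨ β ≤ ρ := by
      by_contra hc
      push Not at hc
      exact h ⟨hc.1.le, hc.2.le⟩
    rw [h0 ρ this, abs_zero]
    exact le_max_right _ _

theorem gk5a_pt (hk : 0 < k) {c' c₁ M₁ M₂ ρ₀ ρ z g G p Hh : ℝ} (hc' : 0 < c') (hc₁ : 0 < c₁) (hM₁ : 1 ≤ M₁)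
    (hM₂ : 1 ≤ M₂) (h1 : 1 ≤ ρ₀) (hρ : ρ₀ ≤ ρ) (hρ2 : ρ ≤ 2 * ρ₀) (hz : z ^ 2 ≤ 1)
    (hG : ρ₀ ^ (-(b + 1 / 2)) * Real.exp (k * ρ) ≤ M₁ * G)
    (hg : ρ₀ ^ (b - 2) * (Real.exp (-(k * ρ)) * Real.exp (-(k * z ^ 2 / (2 * ρ₀)))) ≤ M₂ * g)
    (hp : c' / ρ ^ 3 * g ≤ p) (hH : c₁ * G ≤ Hh) :
    c' * c₁ * Real.exp (-(k / 2)) / (8 * M₁ * M₂) * ρ₀ ^ (-11 / 2 : ℝ) ≤ p * Hh := by
  have h0 : 0 < ρ₀ := by linarith
  have hρ0 : 0 < ρ := by linarith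
  have e1 : Real.exp (-(k / 2)) ≤ Real.exp (-(k * z ^ 2 / (2 * ρ₀))) := by
    apply Real.exp_le_exp.2
    have : k * z ^ 2 / (2 * ρ₀) ≤ k / 2 := by
      rw [div_le_div_iff₀ (by positivity) (by norm_num)]
      have : k * z ^ 2 ≤ k * ρ₀ := mul_le_mul_of_nonneg_left (by linarith) hk.le
      nlinarith
    linarith
  have hg' : ρ₀ ^ (b - 2) * (Real.exp (-(k * ρ)) * Real.exp (-(k / 2))) / M₂ ≤ g := by
    rw [div_le_iff₀ (by linarith), mul_comm g]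
    refine le_trans ?_ hg
    gcongr
  have hG' : ρ₀ ^ (-(b + 1 / 2)) * Real.exp (k * ρ) / M₁ ≤ G := by
    rw [div_le_iff₀ (by linarith), mul_comm G]
    exact hG
  have h3 : c' / (8 * ρ₀ ^ 3) ≤ c' / ρ ^ 3 := by
    apply div_le_div_of_nonneg_left hc'.le (by positivity)
    calc ρ ^ 3 ≤ (2 * ρ₀) ^ 3 := by gcongr
      _ = 8 * ρ₀ ^ 3 := by ring
  have hp' : c' / (8 * ρ₀ ^ 3) * (ρ₀ ^ (b - 2) * (Real.exp (-(k * ρ)) * Real.exp (-(k / 2))) / M₂) ≤ p := by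
    refine le_trans ?_ hp
    exact mul_le_mul h3 hg' (by positivity) (by positivity)
  have hH' : c₁ * (ρ₀ ^ (-(b + 1 / 2)) * Real.exp (k * ρ) / M₁) ≤ Hh :=
    le_trans (mul_le_mul_of_nonneg_left hG' hc₁.le) hH
  have hpos : 0 ≤ c' / (8 * ρ₀ ^ 3) * (ρ₀ ^ (b - 2) * (Real.exp (-(k * ρ)) * Real.exp (-(k / 2))) / M₂) := by
    positivity
  refine le_trans (le_of_eq ?_) (mul_le_mul hp' hH' (by positivity) (hpos.trans hp'))
  have e2 : ρ₀ ^ (-11 / 2 : ℝ) = ρ₀ ^ (b - 2) * ρ₀ ^ (-(b + 1 / 2)) / ρ₀ ^ 3 := by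
    rw [← Real.rpow_add h0, ← Real.rpow_natCast, ← Real.rpow_sub h0]
    congr 1
    push_cast
    ring
  have e3 : Real.exp (-(k * ρ)) = (Real.exp (k * ρ))⁻¹ := Real.exp_neg _
  rw [e2, e3]
  have := Real.exp_pos (k * ρ)
  field_simp

theorem src_low (h : Red k b L C c R GR d Gd V0 S v e1 e2 φ Gφ u Gu ψ Gψ) {c' L₁ : ℝ} (hc' : 0 < c')
    (hlow : ∀ x, L₁ ≤ cyl x → |x 2| ≤ 8 * lam (cyl x) → c' / cyl x ^ 3 * gfun k b x ≤ ψ x) (C₁ : ℝ) {c₁ : ℝ} (hc₁ : 0 < c₁) :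
    ∃ c₂ L' : ℝ, 0 < c₂ ∧ ∀ (ρ₀ : ℝ) (θ H Q : ℝ → ℝ), L' ≤ ρ₀ → HW k b C₁ c₁ ρ₀ θ H → ContDiff ℝ 2 Q →
      (∀ z, 0 < z → z < lam ρ₀ → 0 ≤ deriv (deriv Q) z) → 1 / 2 ≤ ∫ z in Ioo 0 (lam ρ₀), deriv (deriv Q) z →
      c₂ * ρ₀ ^ (-7 / 2 : ℝ) ≤ ∫ x in {x : E3 | 0 < x 2 ∧ x 2 < lam ρ₀}, ψ x * (H (cyl x) * deriv (deriv Q) (x 2)) := by
  have hk := h.tail.kpos
  obtain ⟨M₁, hM₁, hGz⟩ := Gz_cmp k b
  obtain ⟨M₂, hM₂, hgf⟩ := gfun_low hk b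
  set K₀ : ℝ := c' * c₁ * Real.exp (-(k / 2)) / (8 * M₁ * M₂) with hK₀
  have hK₀p : 0 < K₀ := by positivity
  refine ⟨K₀ * Real.pi / 10, max L₁ 30, by positivity, ?_⟩
  intro ρ₀ θ H Q hρ₀ hW hQ hQ0 hQ1
  have h30 : 30 ≤ ρ₀ := (le_max_right _ _).trans hρ₀
  have hL₁ : L₁ ≤ ρ₀ := (le_max_left _ _).trans hρ₀
  have h0 : 0 < ρ₀ := by linarith
  have hl0 : 0 < lam ρ₀ := lam_pos h0
  have hl1 : lam ρ₀ ≤ 1 := lam_le_one (by linarith)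
  have hQc : Continuous (deriv (deriv Q)) := (gba_c2 hQ).2
  have hHc : Continuous H := hW.hb.sm.continuous
  have hc2 : Continuous fun x : E3 => x 2 := by fun_prop
  set A : Set E3 := {x : E3 | 0 < x 2 ∧ x 2 < lam ρ₀} with hA
  have hAm : MeasurableSet A :=
    ((isOpen_lt continuous_const hc2).inter (isOpen_lt hc2 continuous_const)).measurableSet
  -- integrability
  have hint : IntegrableOn (fun x => ψ x * (H (cyl x) * deriv (deriv Q) (x 2))) A := by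
    obtain ⟨MH, hMH0, hMH⟩ := gk5a_bdd hHc hW.hb.zero
    obtain ⟨MQ, hMQ⟩ := (isCompact_Icc (a := (0 : ℝ)) (b := lam ρ₀)).exists_bound_of_continuousOn hQc.continuousOn
    refine intOn_of_L2 (f := fun x => H (cyl x) * deriv (deriv Q) (x 2)) h.oψ.eig.h1.mf
      ((hHc.comp continuous_cyl).mul (hQc.comp hc2)).aestronglyMeasurable hAm (M := MH * MQ)
      (M' := 13 / 10 * ρ₀ + 1) ?_ ?_
    · intro x hx
      rw [abs_mul]
      exact mul_le_mul (hMH _) (hMQ _ ⟨hx.1.le, hx.2.le⟩) (abs_nonneg _) hMH0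
    · intro x hx hn
      have h1 := norm_le_cyl_add x
      rw [abs_of_pos hx.1] at h1
      have h2 := hx.2
      have h3 : H (cyl x) = 0 := hW.hb.zero _ (Or.inr (by linarith))
      simp only [h3, zero_mul]
  have hψ : ∀ x ∈ A, ρ₀ ≤ cyl x → cyl x ≤ 2 * ρ₀ → c' / cyl x ^ 3 * gfun k b x ≤ ψ x := by
    intro x hx h1 h2
    refine hlow x (hL₁.trans h1) ?_
    rw [abs_of_pos hx.1]
    exact hx.2.le.trans (lam_le_mul (by linarith) h0 (by norm_num) (by linarith))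
  have hnn : ∀ x ∈ A, 0 ≤ ψ x * (H (cyl x) * deriv (deriv Q) (x 2)) := by
    intro x hx
    by_cases hc : cyl x ≤ ρ₀ ∨ 13 / 10 * ρ₀ ≤ cyl x
    · rw [hW.hb.zero _ hc, zero_mul, mul_zero]
    · push Not at hc
      have h1 := hψ x hx hc.1.le (by linarith [hc.2])
      have h2 : 0 ≤ c' / cyl x ^ 3 * gfun k b x := by
        have := cyl_nonneg x
        unfold gfun
        positivity
      exact mul_nonneg (h2.trans h1) (mul_nonneg (hW.nn _) (hQ0 _ hx.1 hx.2))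
  set f : ℝ → ℝ := (Ioo 0 (lam ρ₀)).indicator (deriv (deriv Q)) with hf
  have hfi : Integrable f := by
    rw [hf, integrable_indicator_iff measurableSet_Ioo]
    exact (hQc.continuousOn.integrableOn_Icc (a := 0) (b := lam ρ₀)).mono_set Ioo_subset_Icc_self
  have hfI : 1 / 2 ≤ ∫ z, f z := by
    rw [hf, integral_indicator measurableSet_Ioo]
    exact hQ1
  have hαβ : ρ₀ + 3 ≤ 6 / 5 * ρ₀ := by linarith
  set B : Set E3 := shell (ρ₀ + 3) (6 / 5 * ρ₀) with hB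
  have hBm : MeasurableSet B := measurableSet_shell _ _
  have hI : ∫ x in B, f (x 2) = Real.pi * ((6 / 5 * ρ₀) ^ 2 - (ρ₀ + 3) ^ 2) * ∫ z, f z :=
    shell_int (by linarith) hαβ f
  have hfB : IntegrableOn (fun x : E3 => f (x 2)) B := shell_integrable _ _ hfi
  have hr : 0 < ρ₀ ^ (-11 / 2 : ℝ) := Real.rpow_pos_of_pos h0 _
  have hmain : ∫ x, B.indicator (fun x : E3 => K₀ * ρ₀ ^ (-11 / 2 : ℝ) * f (x 2)) x ≤
      ∫ x, A.indicator (fun x => ψ x * (H (cyl x) * deriv (deriv Q) (x 2))) x := by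
    refine integral_mono ((integrable_indicator_iff hBm).2 (hfB.const_mul _))
      ((integrable_indicator_iff hAm).2 hint) ?_
    intro x
    by_cases hxA : x ∈ A
    · rw [indicator_of_mem hxA]
      by_cases hxB : x ∈ B
      · rw [indicator_of_mem hxB, hf, indicator_of_mem (show x 2 ∈ Ioo 0 (lam ρ₀) from hxA), ← mul_assoc]
        refine mul_le_mul_of_nonneg_right ?_ (hQ0 _ hxA.1 hxA.2)
        have h1 : ρ₀ ≤ cyl x := by linarith [hxB.1]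
        have h2 : cyl x ≤ 2 * ρ₀ := by linarith [hxB.2]
        have h3 : |x 2| ≤ 1 := by
          rw [abs_of_pos hxA.1]
          linarith [hxA.2]
        refine gk5a_pt hk hc' hc₁ hM₁ hM₂ (by linarith) h1 h2 (z := x 2) ?_
          (hGz ρ₀ (cyl x) h0 (by linarith) h2).2 (hgf ρ₀ x h0 h1 h2 (by linarith)) (hψ x hxA h1 h2)
          (hW.low _ hxB.1 hxB.2)
        rw [← sq_abs]
        nlinarith [abs_nonneg (x 2)]
      · rw [indicator_of_notMem hxB]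
        exact hnn x hxA
    · rw [indicator_of_notMem hxA]
      by_cases hxB : x ∈ B
      · rw [indicator_of_mem hxB, hf, indicator_of_notMem (show x 2 ∉ Ioo 0 (lam ρ₀) from hxA), mul_zero]
      · rw [indicator_of_notMem hxB]
  rw [integral_indicator hBm, integral_indicator hAm, integral_const_mul, hI] at hmain
  refine le_trans ?_ hmain
  have e : ρ₀ ^ (-7 / 2 : ℝ) = ρ₀ ^ (-11 / 2 : ℝ) * ρ₀ ^ 2 := by
    rw [← Real.rpow_natCast, ← Real.rpow_add h0]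
    congr 1
    push_cast
    ring
  have h5 : ρ₀ ^ 2 / 5 ≤ (6 / 5 * ρ₀) ^ 2 - (ρ₀ + 3) ^ 2 := by nlinarith
  have hπ := Real.pi_pos
  rw [e]
  calc K₀ * Real.pi / 10 * (ρ₀ ^ (-11 / 2 : ℝ) * ρ₀ ^ 2)
      = K₀ * ρ₀ ^ (-11 / 2 : ℝ) * (Real.pi * (ρ₀ ^ 2 / 5) * (1 / 2)) := by ring
    _ ≤ _ := by
      refine mul_le_mul_of_nonneg_left ?_ (by positivity)
      refine mul_le_mul (mul_le_mul_of_nonneg_left h5 hπ.le) hfI (by norm_num) ?_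
      exact mul_nonneg hπ.le (le_trans (by positivity) h5)

end Crest.Agent.R335
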