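import Crest.Agent.R335.Gl1a

/-!
# R335/Gl1: the layer.  `ss` with `s = ρ^(-3/10)`, `K = C ρ^(-ν) s gfun (pt ρ 0)` (`PB` on the ball of radius `3 s`: `|y 2| ≤ 3 s`, `lam ≤ C s`, `‖y‖ - cyl y ≤ |y 2| ≤ 2`, `gfun_le`, `rpow_cmp`);
`(8 lam/s)², s², (s/ρ)^(2/3) ≤ C ρ^(-3/5)`.  `Tail.plane_le` (`|ψ| ≤ R` a.e.), `Even3.eq_pt`, `gfun_pt`, `gfun_le`.
-/

set_option autoImplicit false

namespace Crest.Agent.R335

open MeasureTheory Set Filter Topology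
open scoped Gradient RealInnerProductSpace ENNReal ContDiff
open Crest.MathPhysics.ThreeBody

variable {k b L C c e1 e2 : ℝ} {R d V0 S v φ u ψ : E3 → ℝ} {GR Gd Gφ Gu Gψ : E3 → E3}

theorem gl1_norm_pt {ρ : ℝ} (h : 0 ≤ ρ) : ‖pt ρ 0‖ = ρ := by
  refine (pow_left_inj₀ (norm_nonneg _) h two_ne_zero).1 ?_
  rw [norm_sq_cyl, cyl_pt h, pt_2]
  ring

theorem gl1_g (k b : ℝ) (hk : 0 ≤ k) : ∃ M : ℝ, 0 < M ∧ ∀ x : E3, 16 ≤ cyl x → |x 2| ≤ 8 →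
    gfun k b x ≤ M * gfun k b (pt (cyl x) 0) := by
  obtain ⟨M, hM, H⟩ := gfun_le k b hk
  have hM0 : 0 < M := one_pos.trans_le hM
  refine ⟨M * Real.exp (k * 8), by positivity, fun x h1 h2 => ?_⟩
  have hn := gl1_norm_pt (cyl_nonneg x)
  have hd : ‖pt (cyl x) 0 - pt (cyl x) |x 2|‖ ≤ 8 := by
    refine (norm_pt_sub _ _ _ _).trans ?_
    rwa [sub_self, abs_zero, zero_add, zero_sub, abs_neg, abs_abs]
  have hp : 0 < ‖pt (cyl x) 0‖ := by rw [hn]; linarith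
  have := (H (pt (cyl x) 0) (pt (cyl x) |x 2|) hp (by rw [hn]; linarith)).1
  rw [(gfun_pt k b x).1] at this
  exact this.trans (mul_le_mul_of_nonneg_right (mul_le_mul_of_nonneg_left
    (Real.exp_le_exp.2 (mul_le_mul_of_nonneg_left hd hk)) hM0.le) (gfun_pos k b (norm_pos_iff.1 hp)).le)

theorem lay_low (h : Red k b L C c R GR d Gd V0 S v e1 e2 φ Gφ u Gu ψ Gψ) (hP : PB k b ψ (11 / 5)) (hp : Post k b φ ψ) : ∃ c' L₁ : ℝ, 0 < c' ∧
    ∀ x, L₁ ≤ cyl x → |x 2| ≤ 8 * lam (cyl x) → c' / cyl x ^ 3 * gfun k b x ≤ ψ x := by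
  obtain ⟨C', L₁, hC', hd⟩ := lay_diff h hP
  obtain ⟨L₂, c', hc', hlow, -⟩ := hp
  obtain ⟨M, hM, hg⟩ := gl1_g k b h.tail.kpos.le
  obtain ⟨L₃, hev⟩ := eventually_atTop.1
    (ev_pow (a := -(11 / 5) - 9 / 10) (a' := -3) (by norm_num) (2 * M * C' / c'))
  refine ⟨c' / (2 * M), max (max L₁ L₂) (max L₃ 16), by positivity, fun x hx hz => ?_⟩
  simp only [max_le_iff] at hx
  obtain ⟨⟨x1, x2⟩, x3, x4⟩ := hx
  have h0 : 0 < cyl x := by linarith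
  have hz8 : |x 2| ≤ 8 := hz.trans (by linarith [lam_le_one (show 1 ≤ cyl x by linarith)])
  have hgx : 0 < gfun k b x := gfun_pos k b (norm_pos_iff.1 (h0.trans_le (cyl_le_norm x)))
  have a1 := (abs_le.1 (hd x x1 hz)).1
  have a2 := hlow _ x2
  have a3 := hg x x4 hz8
  have a4 := hev _ x3
  have e3 : cyl x ^ (-3 : ℝ) = (cyl x ^ 3)⁻¹ := by
    rw [Real.rpow_neg h0.le]
    norm_num
  rw [e3] at a4
  have hi : 0 < (cyl x ^ 3)⁻¹ := by positivity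
  generalize cyl x ^ (-(11 / 5) - 9 / 10 : ℝ) = t at a1 a4
  rw [div_eq_mul_inv] at a2 ⊢
  generalize (cyl x ^ 3)⁻¹ = s at a2 a4 hi ⊢
  have b1 : C' * t ≤ c' / (2 * M) * s := by
    have := mul_le_mul_of_nonneg_left a4 (show 0 ≤ c' / (2 * M) by positivity)
    refine le_trans (le_of_eq ?_) this
    field_simp
  have b2 : C' * t * gfun k b x ≤ c' / (2 * M) * s * gfun k b x := mul_le_mul_of_nonneg_right b1 hgx.le
  have b3 : 2 * (c' / (2 * M) * s * gfun k b x) ≤ c' * s * gfun k b (pt (cyl x) 0) := by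
    have := mul_le_mul_of_nonneg_left a3 (show 0 ≤ c' / M * s by positivity)
    refine le_trans (le_of_eq ?_) (this.trans (le_of_eq ?_)) <;> field_simp
  linarith

/-- `ulow`, `lam_le_mul`, `rpow_cmp` -/
theorem strip_of_lay (h : Red k b L C c R GR d Gd V0 S v e1 e2 φ Gφ u Gu ψ Gψ) {μ : ℝ} (hl : LayB k b ψ μ) : StripP u ψ μ := by
  obtain ⟨C', L₁, hC', hb⟩ := hl
  obtain ⟨M, hM, hcmp⟩ := rpow_cmp (-μ)
  have hc := h.tail.cpos
  have hM0 : 0 ≤ M := zero_le_one.trans hM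
  refine ⟨8 * C' * M / c, 2 * max (max L₁ L) 16, by positivity, fun ρ₀ hρ₀ ρ z r1 r2 z1 z2 => ?_⟩
  have hx : max (max L₁ L) 16 ≤ ρ := by linarith
  simp only [max_le_iff] at hx
  obtain ⟨⟨x1, x2⟩, x3⟩ := hx
  have hρ : 0 < ρ := by linarith
  have hρ0 : 0 < ρ₀ := by linarith
  have l1 : lam ρ ≤ 2 * lam ρ₀ := lam_le_mul hρ0 hρ one_le_two (by linarith)
  have l2 : lam ρ₀ ≤ 2 * lam ρ := lam_le_mul hρ hρ0 one_le_two r2
  have l3 : 0 < lam ρ := lam_pos hρ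
  have l4 : lam ρ ≤ 1 := lam_le_one (by linarith)
  have hz : 0 < z := by linarith
  have hcyl : cyl (pt ρ z) = ρ := cyl_pt hρ.le z
  have hg : 0 < gfun k b (pt ρ z) :=
    gfun_pos k b (norm_pos_iff.1 (hρ.trans_le (hcyl.ge.trans (cyl_le_norm _))))
  have a1 := hb (pt ρ z) (by rwa [hcyl]) (by rw [hcyl, pt_2, abs_of_pos hz]; linarith)
  have a2 := h.ulow (pt ρ z) (by rwa [hcyl]) (by rw [hcyl, pt_2]; linarith) (by rw [hcyl, pt_2]; linarith)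
  rw [hcyl] at a1
  rw [pt_2] at a2
  have hu : 0 < u (pt ρ z) := lt_of_lt_of_le (by positivity) a2
  have a3 := (hcmp ρ₀ ρ hρ0 (by linarith) (by linarith)).1
  have p0 : 0 < ρ₀ ^ (-μ) := Real.rpow_pos_of_pos hρ0 _
  unfold tau
  rw [abs_div, abs_of_pos hu, div_le_iff₀ hu]
  calc |ψ (pt ρ z)| ≤ C' * ρ ^ (-μ) * lam ρ * gfun k b (pt ρ z) := a1
    _ ≤ C' * (M * ρ₀ ^ (-μ)) * (8 * z) * gfun k b (pt ρ z) :=
      mul_le_mul_of_nonneg_right (mul_le_mul (mul_le_mul_of_nonneg_left a3 hC') (by linarith) l3.le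
        (by positivity)) hg.le
    _ = 8 * C' * M / c * ρ₀ ^ (-μ) * (c * z * gfun k b (pt ρ z)) := by field_simp
    _ ≤ 8 * C' * M / c * ρ₀ ^ (-μ) * u (pt ρ z) := mul_le_mul_of_nonneg_left a2 (by positivity)

end Crest.Agent.R335
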