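import Crest.Agent.R335.Ge

/-!
# R335/Gl1: the layer.  `ss` with `s = ρ^(-3/10)`, `K = C ρ^(-ν) s gfun (pt ρ 0)` (`PB` on the ball of radius `3 s`: `|y 2| ≤ 3 s`, `lam ≤ C s`, `‖y‖ - cyl y ≤ |y 2| ≤ 2`, `gfun_le`, `rpow_cmp`);
`(8 lam/s)², s², (s/ρ)^(2/3) ≤ C ρ^(-3/5)`.  `Tail.plane_le` (`|ψ| ≤ R` a.e.), `Even3.eq_pt`, `gfun_pt`, `gfun_le`.
-/

set_option autoImplicit false

namespace Crest.Agent.R335

open MeasureTheory Set Filter Topology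
open scoped Gradient RealInnerProductSpace ENNReal ContDiff
open Crest.MathPhysics.ThreeBody

variable {k b L C c e1 e2 : ℝ} {R d V0 S v φ u ψ : E3 → ℝ} {GR Gd Gφ Gu Gψ : E3 → E3}

theorem gl1a_norm {ρ : ℝ} (h : 0 ≤ ρ) : ‖pt ρ 0‖ = ρ := by
  have h1 := norm_sq_cyl (pt ρ 0)
  rw [cyl_pt h, pt_2, zero_pow two_ne_zero, add_zero] at h1
  exact (pow_left_inj₀ (norm_nonneg _) h two_ne_zero).1 h1

theorem gl1a_sq {ρ : ℝ} (h : 0 < ρ) : (ρ ^ (-(3 / 10) : ℝ)) ^ 2 = lam ρ := by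
  unfold lam
  rw [← Real.rpow_natCast, ← Real.rpow_mul h.le]
  norm_num

theorem gl1a_third {ρ : ℝ} (h : 1 ≤ ρ) : (ρ ^ (-(3 / 10) : ℝ) / ρ) ^ (2 / 3 : ℝ) ≤ lam ρ := by
  have h0 : 0 < ρ := by linarith
  unfold lam
  have e : ρ ^ (-(3 / 10) : ℝ) / ρ = ρ ^ (-(13 / 10) : ℝ) := by
    rw [show (-(13 / 10) : ℝ) = -(3 / 10) - 1 by norm_num, Real.rpow_sub_one h0.ne']
  rw [e, ← Real.rpow_mul h0.le]
  exact Real.rpow_le_rpow_of_exponent_le h (by norm_num)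

theorem gl1a_cube {ρ m' : ℝ} (h : 1 ≤ ρ) (h1 : m' ≤ 12 / 5) : 1 / ρ ^ 3 ≤ ρ ^ (-m') * lam ρ := by
  have h0 : 0 < ρ := by linarith
  unfold lam
  rw [← Real.rpow_add h0, one_div, ← Real.rpow_natCast, ← Real.rpow_neg h0.le]
  exact Real.rpow_le_rpow_of_exponent_le h (by push_cast; linarith)

theorem gl1a_g0 (k b : ℝ) (x : E3) : 0 ≤ gfun k b x :=
  mul_nonneg (Real.rpow_nonneg (norm_nonneg _) _) (Real.exp_pos _).le

theorem gl1a_near (k b : ℝ) (hk : 0 ≤ k) : ∃ Cg : ℝ, 1 ≤ Cg ∧ ∀ x y : E3, 16 ≤ ‖x‖ → ‖x - y‖ ≤ 8 →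
    gfun k b y ≤ Cg * gfun k b x ∧ gfun k b x ≤ Cg * gfun k b y := by
  obtain ⟨C, hC, H⟩ := gfun_le k b hk
  have hC0 : 0 ≤ C := zero_le_one.trans hC
  refine ⟨C * Real.exp (k * 8), one_le_mul_of_one_le_of_one_le hC (Real.one_le_exp (by positivity)),
    fun x y hx hxy => ?_⟩
  obtain ⟨a1, a2⟩ := H x y (by linarith) (by linarith)
  have e : C * Real.exp (k * ‖x - y‖) ≤ C * Real.exp (k * 8) :=
    mul_le_mul_of_nonneg_left (Real.exp_le_exp.2 (mul_le_mul_of_nonneg_left hxy hk)) hC0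
  exact ⟨a1.trans (mul_le_mul_of_nonneg_right e (gl1a_g0 k b x)),
    a2.trans (mul_le_mul_of_nonneg_right e (gl1a_g0 k b y))⟩

theorem gl1a_plane (k b : ℝ) (hk : 0 ≤ k) : ∃ Cg : ℝ, 1 ≤ Cg ∧ ∀ x : E3, 16 ≤ cyl x →
    |x 2| ≤ 8 * lam (cyl x) → gfun k b (pt (cyl x) 0) ≤ Cg * gfun k b x := by
  obtain ⟨Cg, hCg, Hg⟩ := gl1a_near k b hk
  refine ⟨Cg, hCg, fun x hx hz => ?_⟩
  rw [← (gfun_pt k b x).1]
  refine (Hg (pt (cyl x) 0) (pt (cyl x) |x 2|) (by rw [gl1a_norm (cyl_nonneg x)]; exact hx) ?_).2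
  refine (norm_pt_sub _ _ _ _).trans ?_
  rw [sub_self, abs_zero, zero_add, zero_sub, abs_neg, abs_abs]
  have := lam_le_one (ρ := cyl x) (by linarith)
  linarith

theorem lay_diff (h : Red k b L C c R GR d Gd V0 S v e1 e2 φ Gφ u Gu ψ Gψ) {ν : ℝ} (hP : PB k b ψ ν) : ∃ C' L' : ℝ, 0 ≤ C' ∧ ∀ x, L' ≤ cyl x → |x 2| ≤ 8 * lam (cyl x) →
    |ψ x - ψ (pt (cyl x) 0)| ≤ C' * cyl x ^ (-ν - 9 / 10) * gfun k b x := by
  obtain ⟨L', HP⟩ := hP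
  have hk := h.tail.kpos
  obtain ⟨Cs, hCs, Hs⟩ := ss h.cls h.sv e2
  obtain ⟨Cg, hCg, Hg⟩ := gl1a_near k b hk.le
  obtain ⟨Cp, hCp, Hp⟩ := gl1a_plane k b hk.le
  obtain ⟨M, hM, HM⟩ := rpow_cmp (-ν)
  obtain ⟨L0, hL0⟩ := eventually_atTop.1 (ev_pow (a := -(3 / 10)) (a' := 0) (by norm_num) 8)
  have hCg0 : 0 ≤ Cg := by linarith
  have hCp0 : 0 ≤ Cp := by linarith
  have hM0 : 0 ≤ M := by linarith
  refine ⟨Cs * 66 * (M * 5 * (Cg * Real.exp (k * 2))) * Cp, max L0 (max (L' + 1) 16), by positivity,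
    fun x hx hz => ?_⟩
  simp only [max_le_iff] at hx
  obtain ⟨hx0, hx2, hx3⟩ := hx
  have f3 := Hp x hx3 hz
  set ρ := cyl x with hρ
  have hρ0 : 0 < ρ := by linarith
  have hρ1 : 1 ≤ ρ := by linarith
  set s : ℝ := ρ ^ (-(3 / 10) : ℝ) with hs
  have hs0 : 0 < s := Real.rpow_pos_of_pos hρ0 _
  have hs1 : s ≤ 1 / 8 := by
    have := hL0 ρ hx0
    rw [Real.rpow_zero] at this
    linarith
  have hsq : s ^ 2 = lam ρ := gl1a_sq hρ0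
  have hlam0 : 0 < lam ρ := lam_pos hρ0
  have hls : 8 * lam ρ ≤ s := by rw [← hsq]; nlinarith
  have hxo : x ∈ offA := hρ0
  have hn0 : ‖pt ρ 0‖ = ρ := gl1a_norm hρ0.le
  set g0 := gfun k b (pt ρ 0) with hg0
  have hg00 : 0 ≤ g0 := gl1a_g0 k b _
  have hrm : 0 ≤ ρ ^ (-ν) := Real.rpow_nonneg hρ0.le _
  have hK : ∀ y ∈ Metric.ball (pt ρ 0) (3 * s),
      |ψ y| ≤ M * ρ ^ (-ν) * (5 * s) * (Cg * g0 * Real.exp (k * 2)) := by
    intro y hy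
    rw [Metric.mem_ball, dist_eq_norm] at hy
    have c1 := abs_cyl_sub_le y (pt ρ 0)
    rw [cyl_pt hρ0.le] at c1
    obtain ⟨c2, c2'⟩ := abs_le.1 c1
    have c3 : |y 2| ≤ 3 * s := by
      have := abs_z_le_norm (y - pt ρ 0)
      rw [PiLp.sub_apply, pt_2, sub_zero] at this
      linarith
    have hyo : 0 < cyl y := by linarith
    have c4 : lam (cyl y) ≤ 2 * lam ρ := lam_le_mul hρ0 hyo (by norm_num) (by linarith)
    have c5 := HP y (by linarith)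
    have c6 := (HM ρ (cyl y) hρ0 (by linarith) (by linarith)).1
    have c7 : gfun k b y ≤ Cg * g0 :=
      (Hg (pt ρ 0) y (by rw [hn0]; linarith) (by rw [norm_sub_rev]; linarith)).1
    refine c5.trans ?_
    have c8 : 0 < lam (cyl y) := lam_pos hyo
    have c9 : |y 2| + lam (cyl y) ≤ 5 * s := by linarith
    have c10 := gl1a_g0 k b y
    have c11 : ‖y‖ - cyl y ≤ 2 := by linarith [norm_le_cyl_add y]
    gcongr
  have hz0 : 0 ≤ |x 2| := abs_nonneg _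
  have key := Hs ψ Gψ ρ |x 2| s _ h.oψ.eig h.oψ.cont h.psi_refl (by linarith) hs0 (by linarith)
    (by rw [abs_abs]; linarith) hK
  have e1' : (|x 2| / s) ^ 2 ≤ 64 * lam ρ := by
    have : |x 2| / s ≤ 8 * s := by
      rw [div_le_iff₀ hs0]
      nlinarith
    calc (|x 2| / s) ^ 2 ≤ (8 * s) ^ 2 := pow_le_pow_left₀ (by positivity) this 2
      _ = 64 * lam ρ := by rw [← hsq]; ring
  have e2' : (|x 2| / s) ^ 2 + s ^ 2 + (s / ρ) ^ (2 / 3 : ℝ) ≤ 66 * lam ρ := by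
    have := gl1a_third hρ1
    linarith
  have e3 : ρ ^ (-ν) * s * lam ρ = ρ ^ (-ν - 9 / 10) := by
    unfold lam
    rw [hs, ← Real.rpow_add hρ0, ← Real.rpow_add hρ0]
    congr 1
    ring
  have hr9 : 0 ≤ ρ ^ (-ν - 9 / 10) := Real.rpow_nonneg hρ0.le _
  rw [h.evψ.eq_pt hxo]
  refine key.trans ?_
  calc Cs * ((|x 2| / s) ^ 2 + s ^ 2 + (s / ρ) ^ (2 / 3 : ℝ)) *
        (M * ρ ^ (-ν) * (5 * s) * (Cg * g0 * Real.exp (k * 2)))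
      ≤ Cs * (66 * lam ρ) * (M * ρ ^ (-ν) * (5 * s) * (Cg * g0 * Real.exp (k * 2))) := by gcongr
    _ = Cs * 66 * (M * 5 * (Cg * Real.exp (k * 2))) * (ρ ^ (-ν) * s * lam ρ) * g0 := by ring
    _ ≤ Cs * 66 * (M * 5 * (Cg * Real.exp (k * 2))) * ρ ^ (-ν - 9 / 10) * (Cp * gfun k b x) := by
        rw [e3]; gcongr
    _ = _ := by ring

theorem lay_of_pb (h : Red k b L C c R GR d Gd V0 S v e1 e2 φ Gφ u Gu ψ Gψ) {ν μ : ℝ} (hP : PB k b ψ ν) (h1 : μ ≤ 12 / 5) (h2 : μ ≤ ν + 3 / 10) : LayB k b ψ μ := by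
  obtain ⟨C', L', hC', H⟩ := lay_diff h hP
  obtain ⟨Cp, hCp, Hp⟩ := gl1a_plane k b h.tail.kpos.le
  have hC : 0 ≤ C := by linarith [h.tail.Cge]
  have hCp0 : 0 ≤ Cp := by linarith
  refine ⟨C * Cp + C', max L' (max (L + 1) 16), by positivity, fun x hx hz => ?_⟩
  simp only [max_le_iff] at hx
  obtain ⟨hx0, hx1, hx3⟩ := hx
  have f3 := Hp x hx3 hz
  have f2 := H x hx0 hz
  set ρ := cyl x with hρ
  have hρ0 : 0 < ρ := by linarith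
  have hρ1 : 1 ≤ ρ := by linarith
  have hlam0 : 0 < lam ρ := lam_pos hρ0
  have hg := gl1a_g0 k b x
  have hg0 := gl1a_g0 k b (pt ρ 0)
  have hrm : 0 ≤ ρ ^ (-μ) := Real.rpow_nonneg hρ0.le _
  have hpl := h.tail.plane_le h.oψ.cont zero_le_one
    (h.abs_psi_le.mono fun y hy => by rwa [one_mul]) ρ (by linarith)
  have f1 : |ψ (pt ρ 0)| ≤ C * (ρ ^ (-μ) * lam ρ) * (Cp * gfun k b x) := by
    refine hpl.trans ?_
    have := gl1a_cube hρ1 h1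
    calc 1 * C / ρ ^ 3 * gfun k b (pt ρ 0) = C * (1 / ρ ^ 3) * gfun k b (pt ρ 0) := by ring
      _ ≤ _ := by gcongr
  have e : ρ ^ (-ν - 9 / 10) ≤ ρ ^ (-μ) * lam ρ := by
    unfold lam
    rw [← Real.rpow_add hρ0]
    exact Real.rpow_le_rpow_of_exponent_le hρ1 (by linarith)
  have f4 : C' * ρ ^ (-ν - 9 / 10) * gfun k b x ≤ C' * (ρ ^ (-μ) * lam ρ) * gfun k b x := by gcongr
  have f5 : |ψ x| ≤ |ψ (pt ρ 0)| + |ψ x - ψ (pt ρ 0)| := by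
    have := abs_add_le (ψ (pt ρ 0)) (ψ x - ψ (pt ρ 0))
    rwa [add_sub_cancel] at this
  calc |ψ x| ≤ C * (ρ ^ (-μ) * lam ρ) * (Cp * gfun k b x) + C' * (ρ ^ (-μ) * lam ρ) * gfun k b x := by
        linarith
    _ = _ := by ring

end Crest.Agent.R335
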