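import Crest.Agent.R335.Gl2a

/-!
# R335/Gl2: masses of the weight `R₂ Gz`.  On windows `R₂ Gz ≤ C ρ^(-5/2) z exp (-k z²/(3 ρ))` (`Red.crude`, `gfun_up`, `Gz_cmp`, `Om_small`) and
`R₂ Gz ≥ u Gz ≥ c ρ^(-5/2) z exp (-k z²/(2 ρ))` (`ulow`, `gfun_low`).  `abs_setIntegral_le_shell`, `gauss_mom`, `box_vol`, `setIntegral_ge_of_const_le`.
-/

set_option autoImplicit false

namespace Crest.Agent.R335

open MeasureTheory Set Filter Topology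
open scoped Gradient RealInnerProductSpace ENNReal ContDiff
open Crest.MathPhysics.ThreeBody

variable {k b L C c e1 e2 : ℝ} {R d V0 S v φ u ψ : E3 → ℝ} {GR Gd Gφ Gu Gψ : E3 → E3}

theorem box_sub_Om (hk : 0 < k) {ρ z₁ z₂ : ℝ} (hρ : 1 ≤ ρ) (h1 : 2 * lam ρ ≤ z₁) (h2 : z₂ ^ 2 ≤ 1000 / k * ρ * Real.log ρ) (β : ℝ) :
    box ρ β z₁ z₂ ⊆ Om k := by
  rintro x ⟨a1, -, a3, a4⟩
  have hρ0 : 0 < ρ := by linarith
  have l0 := lam_pos hρ0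
  have l1 := lam_anti hρ0 a1
  refine ⟨by linarith, ?_⟩
  have b1 : x 2 ^ 2 ≤ z₂ ^ 2 := pow_le_pow_left₀ (by linarith) a4 2
  have b2 : Real.log ρ ≤ Real.log (cyl x) := Real.log_le_log hρ0 a1
  have b3 : 0 ≤ Real.log ρ := Real.log_nonneg hρ
  have b4 : 1000 / k * ρ * Real.log ρ ≤ 1000 / k * cyl x * Real.log (cyl x) :=
    mul_le_mul (mul_le_mul_of_nonneg_left a1 (by positivity)) b2 b3
      (mul_nonneg (by positivity) (by linarith))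
  linarith

theorem gl2_int (hk : 0 < k) (b : ℝ) : ∃ L' : ℝ, 3 ≤ L' ∧ ∀ (w : E3 → ℝ) (A : Set E3) (α β : ℝ), L' ≤ α →
    MemLp w 2 volume → MeasurableSet A → A ⊆ Om k → A ⊆ shell α β →
      IntegrableOn (fun x => w x * Gz k b (cyl x)) A := by
  obtain ⟨L', h3, hi⟩ := int_window hk b
  refine ⟨L', h3, fun w A α β hα hw hA h1 h2 => ?_⟩
  have := hi w (fun _ => 1) A α β 1 hα hw aestronglyMeasurable_const hA h1 (fun _ _ _ => by simp)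
    (fun x hx hx' => absurd (h2 hx) hx')
  simpa only [one_mul] using this

theorem gl2_box_shell (ρ β z₁ z₂ : ℝ) : box ρ β z₁ z₂ ⊆ shell ρ β := fun _ hx => ⟨hx.1, hx.2.1⟩

theorem mass_low (h : Red k b L C c R GR d Gd V0 S v e1 e2 φ Gφ u Gu ψ Gψ) : ∃ c' L' : ℝ, 0 < c' ∧ 3 ≤ L' ∧ ∀ ρ z₁ z₂, L' ≤ ρ → 2 * lam ρ ≤ z₁ → z₁ ≤ z₂ →
    z₂ ^ 2 ≤ 1000 / k * ρ * Real.log ρ →
      c' * ρ ^ (-3 / 2 : ℝ) * (z₁ * (z₂ - z₁) * Real.exp (-(k * z₂ ^ 2 / (2 * ρ)))) ≤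
        ∫ x in box ρ (ρ + 1) z₁ z₂, Rtwo u ψ x * Gz k b (cyl x) := by
  have hk := h.tail.kpos
  obtain ⟨M, L1, hM, hL1, hw⟩ := wt_up h
  obtain ⟨L2, hL2, hi⟩ := gl2_int hk b
  have hM0 : 0 < M := by linarith
  refine ⟨M⁻¹, max L1 L2, inv_pos.2 hM0, le_max_of_le_left hL1, fun ρ z₁ z₂ hρ h1 h12 h2 => ?_⟩
  have hρ1 : L1 ≤ ρ := (le_max_left _ _).trans hρ
  have hρ2 : L2 ≤ ρ := (le_max_right _ _).trans hρ
  have hρ0 : 0 < ρ := by linarith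
  have l0 := lam_pos hρ0
  have hz1 : 0 ≤ z₁ := by linarith
  have hsub := box_sub_Om hk (show 1 ≤ ρ by linarith) h1 h2 (ρ + 1)
  have hint := hi (Rtwo u ψ) _ ρ (ρ + 1) hρ2 h.memLp_Rtwo (measurableSet_box ρ (ρ + 1) z₁ z₂) hsub
    (gl2_box_shell _ _ _ _)
  obtain ⟨hfin, hvol⟩ := box_vol hρ0.le (show ρ ≤ ρ + 1 by linarith) h12
  have hp : 0 < ρ ^ (-5 / 2 : ℝ) := Real.rpow_pos_of_pos hρ0 _
  have hlow : ∀ x ∈ box ρ (ρ + 1) z₁ z₂, M⁻¹ * (ρ ^ (-5 / 2 : ℝ) * (z₁ * Real.exp (-(k * z₂ ^ 2 / (2 * ρ))))) ≤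
      Rtwo u ψ x * Gz k b (cyl x) := by
    intro x hx
    have a1 := (hw ρ hρ1 x ⟨hsub hx, hx.1, by linarith [hx.2.1]⟩).2
    rw [inv_mul_le_iff₀ hM0]
    refine le_trans (mul_le_mul_of_nonneg_left ?_ hp.le) a1
    have a2 : x 2 ^ 2 ≤ z₂ ^ 2 := pow_le_pow_left₀ (by linarith [hx.2.2.1]) hx.2.2.2 2
    refine mul_le_mul hx.2.2.1 (Real.exp_le_exp.2 (neg_le_neg ?_)) (Real.exp_pos _).le (by linarith [hx.2.2.1])
    exact div_le_div_of_nonneg_right (mul_le_mul_of_nonneg_left a2 hk.le) (by positivity)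
  have key := setIntegral_ge_of_const_le (measurableSet_box ρ (ρ + 1) z₁ z₂) hfin hlow hint
  refine le_trans ?_ key
  rw [hvol, smul_eq_mul]
  have e1 : ρ ^ (-3 / 2 : ℝ) = ρ * ρ ^ (-5 / 2 : ℝ) := by
    rw [show (-3 / 2 : ℝ) = 1 + -5 / 2 by norm_num, Real.rpow_add hρ0, Real.rpow_one]
  have e2 : ρ ≤ Real.pi * ((ρ + 1) ^ 2 - ρ ^ 2) := by nlinarith [Real.pi_gt_three]
  have e3 : 0 ≤ (z₂ - z₁) * (M⁻¹ * (ρ ^ (-5 / 2 : ℝ) * (z₁ * Real.exp (-(k * z₂ ^ 2 / (2 * ρ)))))) :=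
    mul_nonneg (sub_nonneg.2 h12) (by positivity)
  rw [e1]
  calc _ = ρ * ((z₂ - z₁) * (M⁻¹ * (ρ ^ (-5 / 2 : ℝ) * (z₁ * Real.exp (-(k * z₂ ^ 2 / (2 * ρ))))))) := by ring
    _ ≤ Real.pi * ((ρ + 1) ^ 2 - ρ ^ 2) *
        ((z₂ - z₁) * (M⁻¹ * (ρ ^ (-5 / 2 : ℝ) * (z₁ * Real.exp (-(k * z₂ ^ 2 / (2 * ρ))))))) :=
      mul_le_mul_of_nonneg_right e2 e3
    _ = _ := by ring

/-- `le_abs_arctan` with the bound of `Red.crude`, `Red.tau_eq` -/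
theorem nw_low (h : Red k b L C c R GR d Gd V0 S v e1 e2 φ Gφ u Gu ψ Gψ) : ∃ c' L' : ℝ, 0 < c' ∧ 3 ≤ L' ∧ ∀ ρ z₁ z₂ t, L' ≤ ρ → 2 * lam ρ ≤ z₁ → z₁ ≤ z₂ →
    z₂ ^ 2 ≤ 1000 / k * ρ * Real.log ρ → 0 ≤ t →
    (∀ ρ' z, ρ ≤ ρ' → ρ' ≤ ρ + 1 → z₁ ≤ z → z ≤ z₂ → t ≤ |tau u ψ ρ' z|) →
      c' * t * ρ ^ (-3 / 2 : ℝ) * (z₁ * (z₂ - z₁) * Real.exp (-(k * z₂ ^ 2 / (2 * ρ)))) ≤ Nw k b u ψ ρ := by
  have hk := h.tail.kpos
  obtain ⟨c', L1, hc', hL1, hm⟩ := mass_low h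
  obtain ⟨L2, hL2, hi⟩ := gl2_int hk b
  obtain ⟨M, L3, hM, hL3, hcr, -⟩ := h.crude
  obtain ⟨L4, hL4, hsm⟩ := Om_small hk
  have hM2 : 0 < 1 + M ^ 2 := by positivity
  refine ⟨c' / (1 + M ^ 2), max (max L1 L2) (max L3 L4), div_pos hc' hM2,
    le_max_of_le_left (le_max_of_le_left hL1), fun ρ z₁ z₂ t hρ h1 h12 h2 ht hτ => ?_⟩
  have hρ1 : L1 ≤ ρ := ((le_max_left _ _).trans (le_max_left _ _)).trans hρ
  have hρ2 : L2 ≤ ρ := ((le_max_right _ _).trans (le_max_left _ _)).trans hρ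
  have hρ3 : L3 ≤ ρ := ((le_max_left _ _).trans (le_max_right _ _)).trans hρ
  have hρ4 : L4 ≤ ρ := ((le_max_right _ _).trans (le_max_right _ _)).trans hρ
  have hρ0 : 0 < ρ := by linarith
  have hsub := box_sub_Om hk (show 1 ≤ ρ by linarith) h1 h2 (ρ + 1)
  have hB := measurableSet_box ρ (ρ + 1) z₁ z₂
  have hA : MeasurableSet (Om k ∩ shell ρ (ρ + 1)) := (measurableSet_Om k).inter (measurableSet_shell _ _)
  have hBA : box ρ (ρ + 1) z₁ z₂ ⊆ Om k ∩ shell ρ (ρ + 1) := subset_inter hsub (gl2_box_shell _ _ _ _)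
  have i1 := hi (Rtwo u ψ) _ ρ (ρ + 1) hρ2 h.memLp_Rtwo hB hsub (gl2_box_shell _ _ _ _)
  have i2 := hi (fun x => |ang u ψ x| * Rtwo u ψ x) _ ρ (ρ + 1) hρ2 h.memLp_U.2 hA inter_subset_left
    inter_subset_right
  have s1 : ∫ x in box ρ (ρ + 1) z₁ z₂, |ang u ψ x| * Rtwo u ψ x * Gz k b (cyl x) ≤ Nw k b u ψ ρ := by
    refine setIntegral_mono_set i2 ((ae_restrict_iff' hA).2 (Eventually.of_forall fun x hx => ?_))
      hBA.eventuallyLE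
    have : 0 < Gz k b (cyl x) := Gz_pos k b (by linarith [hx.2.1])
    exact mul_nonneg (mul_nonneg (abs_nonneg _) (Real.sqrt_nonneg _)) this.le
  have s2 : ∫ x in box ρ (ρ + 1) z₁ z₂, t / (1 + M ^ 2) * (Rtwo u ψ x * Gz k b (cyl x)) ≤
      ∫ x in box ρ (ρ + 1) z₁ z₂, |ang u ψ x| * Rtwo u ψ x * Gz k b (cyl x) := by
    refine setIntegral_mono_on (i1.const_mul _) (i2.mono_set hBA) hB fun x hx => ?_
    have hc : 0 < cyl x := by linarith [hx.1]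
    have hG : 0 < Gz k b (cyl x) := Gz_pos k b hc
    obtain ⟨b1, b2⟩ := hsm x (hsub hx) (hρ4.trans hx.1)
    have l0 := lam_pos hc
    have b3 := ((hcr x (hρ3.trans hx.1)).2.2.2 (by linarith [(hsub hx).1]) (by linarith)).1
    have b4 := hτ (cyl x) (x 2) hx.1 hx.2.1 hx.2.2.1 hx.2.2.2
    rw [← h.tau_eq ⟨hc, b1⟩] at b4
    have b5 : t / (1 + M ^ 2) ≤ |ang u ψ x| := by
      rw [div_le_iff₀' hM2]
      exact b4.trans (le_abs_arctan b3)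
    rw [mul_assoc]
    exact mul_le_mul_of_nonneg_right b5 (mul_nonneg (Real.sqrt_nonneg _) hG.le)
  rw [integral_const_mul] at s2
  have s3 := mul_le_mul_of_nonneg_left (hm ρ z₁ z₂ hρ1 h1 h12 h2) (div_nonneg ht hM2.le)
  calc _ = t / (1 + M ^ 2) * (c' * ρ ^ (-3 / 2 : ℝ) * (z₁ * (z₂ - z₁) * Real.exp (-(k * z₂ ^ 2 / (2 * ρ))))) := by
        ring
    _ ≤ _ := s3.trans (s2.trans s1)

end Crest.Agent.R335
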