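import Crest.Agent.R335.Ge

/-!
# R335/Gl2: masses of the weight `R₂ Gz`.  On windows `R₂ Gz ≤ C ρ^(-5/2) z exp (-k z²/(3 ρ))` (`Red.crude`, `gfun_up`, `Gz_cmp`, `Om_small`) and
`R₂ Gz ≥ u Gz ≥ c ρ^(-5/2) z exp (-k z²/(2 ρ))` (`ulow`, `gfun_low`).  `abs_setIntegral_le_shell`, `gauss_mom`, `box_vol`, `setIntegral_ge_of_const_le`.
-/

set_option autoImplicit false

namespace Crest.Agent.R335

open MeasureTheory Set Filter Topology
open scoped Gradient RealInnerProductSpace ENNReal ContDiff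
open Crest.MathPhysics.ThreeBody

variable {k b L C c e1 e2 : ℝ} {R d V0 S v φ u ψ : E3 → ℝ} {GR Gd Gφ Gu Gψ : E3 → E3}

theorem wt_up (h : Red k b L C c R GR d Gd V0 S v e1 e2 φ Gφ u Gu ψ Gψ) : ∃ M L' : ℝ, 1 ≤ M ∧ 3 ≤ L' ∧ ∀ ρ, L' ≤ ρ → ∀ x ∈ Om k ∩ shell ρ (ρ + 3),
    Rtwo u ψ x * Gz k b (cyl x) ≤ M * ρ ^ (-5 / 2 : ℝ) * (x 2 * Real.exp (-(k * x 2 ^ 2 / (3 * ρ)))) ∧
      ρ ^ (-5 / 2 : ℝ) * (x 2 * Real.exp (-(k * x 2 ^ 2 / (2 * ρ)))) ≤ M * (Rtwo u ψ x * Gz k b (cyl x)) := by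
  have hk := h.tail.kpos
  have hc := h.tail.cpos
  obtain ⟨M1, L1, hM1, hL1, h1, -⟩ := h.crude
  obtain ⟨M2, hM2, h2⟩ := Gz_cmp k b
  obtain ⟨M3, hM3, h3⟩ := gfun_up hk b
  obtain ⟨M4, hM4, h4⟩ := gfun_low hk b
  obtain ⟨L5, hL5, h5⟩ := Om_small hk
  have hA : 1 ≤ M1 * M3 * M2 := one_le_mul_of_one_le_of_one_le (one_le_mul_of_one_le_of_one_le hM1 hM3) hM2
  have hB : 0 ≤ M4 * M2 / c := by positivity
  refine ⟨M1 * M3 * M2 + M4 * M2 / c, max (max L1 L5) 10, by linarith,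
    le_trans (by norm_num) (le_max_right _ _), fun ρ hρ x hx => ?_⟩
  have r1 : L1 ≤ ρ := (le_max_left _ _).trans ((le_max_left _ _).trans hρ)
  have r5 : L5 ≤ ρ := (le_max_right _ _).trans ((le_max_left _ _).trans hρ)
  have r10 : 10 ≤ ρ := (le_max_right _ _).trans hρ
  have hρ0 : 0 < ρ := by linarith
  obtain ⟨hO, hs1, hs2⟩ := hx
  obtain ⟨hz0, hz1⟩ := h5 x hO (r5.trans hs1)
  have hcy : 0 < cyl x := by linarith
  have hlam := lam_pos hcy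
  have hz2 : lam (cyl x) / 16 ≤ x 2 := by linarith [hO.1]
  have hz3 : x 2 ≤ cyl x / 2 := by linarith
  have hR := ((h1 x (r1.trans hs1)).2.2.2 hz2 hz3).2
  obtain ⟨g1, g2⟩ := h2 ρ (cyl x) hρ0 (by linarith) (by linarith)
  have g3 := h3 ρ x hρ0 (by linarith) (by linarith) (by rw [abs_of_pos hz0]; linarith)
  have g4 := h4 ρ x hρ0 hs1 (by linarith) (by rw [abs_of_pos hz0]; linarith)
  have hu := h.ulow x (by linarith) hz2 hz3
  have hu2 := (h.u_posG (x := x) ⟨hcy, hz0⟩).2.1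
  have hG := Gz_pos k b hcy
  have hR0 : 0 ≤ Rtwo u ψ x := Real.sqrt_nonneg _
  have e1 : ρ ^ (b - 2) * ρ ^ (-(b + 1 / 2)) = ρ ^ (-5 / 2 : ℝ) := by
    rw [← Real.rpow_add hρ0]; congr 1; ring
  have e2 : Real.exp (-(k * cyl x)) * Real.exp (k * cyl x) = 1 := by
    rw [← Real.exp_add]; simp
  have p1 : 0 < ρ ^ (b - 2) := Real.rpow_pos_of_pos hρ0 _
  have p2 : 0 < ρ ^ (-(b + 1 / 2)) := Real.rpow_pos_of_pos hρ0 _
  have p3 : 0 < ρ ^ (-5 / 2 : ℝ) := Real.rpow_pos_of_pos hρ0 _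
  have hg0 : 0 ≤ gfun k b x := by unfold gfun; positivity
  constructor
  · set E := Real.exp (-(k * x 2 ^ 2 / (3 * ρ))) with hE
    have hE0 : 0 < E := Real.exp_pos _
    calc Rtwo u ψ x * Gz k b (cyl x)
        ≤ (M1 * x 2 * (M3 * ρ ^ (b - 2) * (Real.exp (-(k * cyl x)) * E))) *
          (M2 * (ρ ^ (-(b + 1 / 2)) * Real.exp (k * cyl x))) := by
          refine mul_le_mul (hR.trans ?_) g1 hG.le (by positivity)
          exact mul_le_mul_of_nonneg_left g3 (by positivity)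
      _ = M1 * M3 * M2 * (ρ ^ (b - 2) * ρ ^ (-(b + 1 / 2))) *
          (Real.exp (-(k * cyl x)) * Real.exp (k * cyl x)) * (x 2 * E) := by ring
      _ = M1 * M3 * M2 * ρ ^ (-5 / 2 : ℝ) * (x 2 * E) := by rw [e1, e2, mul_one]
      _ ≤ _ := by
          refine mul_le_mul_of_nonneg_right (mul_le_mul_of_nonneg_right (by linarith) p3.le) (by positivity)
  · set E := Real.exp (-(k * x 2 ^ 2 / (2 * ρ))) with hE
    have hE0 : 0 < E := Real.exp_pos _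
    have hzg : x 2 * gfun k b x ≤ Rtwo u ψ x / c := by
      rw [le_div_iff₀ hc]; linarith
    calc ρ ^ (-5 / 2 : ℝ) * (x 2 * E)
        = x 2 * ((ρ ^ (b - 2) * (Real.exp (-(k * cyl x)) * E)) *
          (ρ ^ (-(b + 1 / 2)) * Real.exp (k * cyl x))) := by
          rw [← e1]
          calc ρ ^ (b - 2) * ρ ^ (-(b + 1 / 2)) * (x 2 * E)
              = ρ ^ (b - 2) * ρ ^ (-(b + 1 / 2)) * (x 2 * E) *
                (Real.exp (-(k * cyl x)) * Real.exp (k * cyl x)) := by rw [e2, mul_one]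
            _ = _ := by ring
      _ ≤ x 2 * ((M4 * gfun k b x) * (M2 * Gz k b (cyl x))) := by
          refine mul_le_mul_of_nonneg_left (mul_le_mul g4 g2 (by positivity) (by positivity)) hz0.le
      _ = M4 * M2 * (x 2 * gfun k b x) * Gz k b (cyl x) := by ring
      _ ≤ M4 * M2 * (Rtwo u ψ x / c) * Gz k b (cyl x) := by gcongr
      _ = M4 * M2 / c * (Rtwo u ψ x * Gz k b (cyl x)) := by ring
      _ ≤ _ := mul_le_mul_of_nonneg_right (by linarith) (by positivity)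

theorem mass_up (h : Red k b L C c R GR d Gd V0 S v e1 e2 φ Gφ u Gu ψ Gψ) : ∃ M L' : ℝ, 1 ≤ M ∧ 3 ≤ L' ∧ ∀ ρ, L' ≤ ρ →
    ∫ x in Om k ∩ shell ρ (ρ + 3), Rtwo u ψ x * Gz k b (cyl x) ≤ M * ρ ^ (-1 / 2 : ℝ) ∧
    ∫ x in Om k ∩ shell ρ (ρ + 3), Rtwo u ψ x * (x 2 ^ 2 * Gz k b (cyl x)) ≤ M * ρ ^ (1 / 2 : ℝ) ∧
    ∀ z₁ z₂, 0 ≤ z₁ → z₁ ≤ z₂ →
      ∫ x in Om k ∩ box ρ (ρ + 3) z₁ z₂, Rtwo u ψ x * Gz k b (cyl x) ≤ M * ρ ^ (-3 / 2 : ℝ) * (z₂ * (z₂ - z₁)) := by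
  have hk := h.tail.kpos
  obtain ⟨M, L1, hM, hL1, h1⟩ := wt_up h
  obtain ⟨N1, hN1, g1⟩ := gauss_mom (κ := k / 3) (by positivity) 1
  obtain ⟨N3, hN3, g3⟩ := gauss_mom (κ := k / 3) (by positivity) 3
  obtain ⟨L5, hL5, h5⟩ := Om_small hk
  refine ⟨36 * M * (1 + N1 + N3), max L1 L5, by nlinarith, hL1.trans (le_max_left _ _), fun ρ hρ => ?_⟩
  have r1 : L1 ≤ ρ := (le_max_left _ _).trans hρ
  have r5 : L5 ≤ ρ := (le_max_right _ _).trans hρ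
  have r3 : 3 ≤ ρ := hL1.trans r1
  have hρ0 : 0 < ρ := by linarith
  have p3 : 0 < ρ ^ (-5 / 2 : ℝ) := Real.rpow_pos_of_pos hρ0 _
  have hvol : Real.pi * ((ρ + 3) ^ 2 - ρ ^ 2) ≤ 36 * ρ := by
    have := Real.pi_le_four
    have := Real.pi_pos
    nlinarith
  have hvol0 : 0 ≤ Real.pi * ((ρ + 3) ^ 2 - ρ ^ 2) := by
    have := Real.pi_pos
    have : 0 ≤ (ρ + 3) ^ 2 - ρ ^ 2 := by nlinarith
    positivity
  have hA : MeasurableSet (Om k ∩ shell ρ (ρ + 3)) := (measurableSet_Om k).inter (measurableSet_shell _ _)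
  have hpt : ∀ x ∈ Om k ∩ shell ρ (ρ + 3), 0 < x 2 ∧ 0 ≤ Rtwo u ψ x * Gz k b (cyl x) ∧
      Rtwo u ψ x * Gz k b (cyl x) ≤ M * ρ ^ (-5 / 2 : ℝ) * (x 2 * Real.exp (-(k / 3 * x 2 ^ 2 / ρ))) := by
    intro x hx
    have hcy : 0 < cyl x := by linarith [hx.2.1]
    refine ⟨(h5 x hx.1 (r5.trans hx.2.1)).1, mul_nonneg (Real.sqrt_nonneg _) (Gz_pos k b hcy).le, ?_⟩
    have e : k / 3 * x 2 ^ 2 / ρ = k * x 2 ^ 2 / (3 * ρ) := by field_simp
    rw [e]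
    exact (h1 ρ r1 x hx).1
  have key : ∀ (j : ℕ) (N : ℝ) (F : E3 → ℝ), 0 ≤ N →
      Integrable (fun z : ℝ => |z| ^ j * Real.exp (-(k / 3 * z ^ 2 / ρ))) →
      ∫ z : ℝ, |z| ^ j * Real.exp (-(k / 3 * z ^ 2 / ρ)) ≤ N * ρ ^ (((j : ℝ) + 1) / 2) →
      (∀ x ∈ Om k ∩ shell ρ (ρ + 3),
        |F x| ≤ M * ρ ^ (-5 / 2 : ℝ) * (|x 2| ^ j * Real.exp (-(k / 3 * x 2 ^ 2 / ρ)))) →
      ∫ x in Om k ∩ shell ρ (ρ + 3), F x ≤ 36 * M * N * ρ ^ (((j : ℝ) - 2) / 2) := by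
    intro j N F hN hi hle hF
    have a1 := abs_setIntegral_le_shell hρ0.le (by linarith : ρ ≤ ρ + 3) hA inter_subset_right (F := F)
      (f := fun z => M * ρ ^ (-5 / 2 : ℝ) * (|z| ^ j * Real.exp (-(k / 3 * z ^ 2 / ρ))))
      (hi.const_mul _) (fun z => by positivity) (Eventually.of_forall hF)
    rw [integral_const_mul] at a1
    have e : ρ * ρ ^ (-5 / 2 : ℝ) * ρ ^ (((j : ℝ) + 1) / 2) = ρ ^ (((j : ℝ) - 2) / 2) := by
      conv_lhs => rw [← Real.rpow_one ρ]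
      rw [← Real.rpow_mul hρ0.le, ← Real.rpow_mul hρ0.le, ← Real.rpow_add hρ0, ← Real.rpow_add hρ0]
      congr 1; ring
    have i0 : 0 ≤ ∫ z : ℝ, |z| ^ j * Real.exp (-(k / 3 * z ^ 2 / ρ)) :=
      integral_nonneg fun z => by positivity
    calc ∫ x in Om k ∩ shell ρ (ρ + 3), F x ≤ _ := (le_abs_self _).trans a1
      _ ≤ 36 * ρ * (M * ρ ^ (-5 / 2 : ℝ) * (N * ρ ^ (((j : ℝ) + 1) / 2))) := by
          refine mul_le_mul hvol (mul_le_mul_of_nonneg_left hle (by positivity)) (by positivity)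
            (by positivity)
      _ = 36 * M * N * (ρ * ρ ^ (-5 / 2 : ℝ) * ρ ^ (((j : ℝ) + 1) / 2)) := by ring
      _ = _ := by rw [e]
  refine ⟨?_, ?_, fun z₁ z₂ hz1 hz12 => ?_⟩
  · have a := key 1 N1 (fun x => Rtwo u ψ x * Gz k b (cyl x)) hN1 (g1 ρ hρ0).1 (g1 ρ hρ0).2 fun x hx => by
      obtain ⟨a0, a1, a2⟩ := hpt x hx
      rw [abs_of_nonneg a1, pow_one, abs_of_pos a0]
      exact a2
    have e : (((1 : ℕ) : ℝ) - 2) / 2 = -1 / 2 := by norm_num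
    rw [e] at a
    refine a.trans (mul_le_mul_of_nonneg_right ?_ (Real.rpow_nonneg hρ0.le _))
    exact mul_le_mul_of_nonneg_left (by linarith) (by positivity)
  · have a := key 3 N3 (fun x => Rtwo u ψ x * (x 2 ^ 2 * Gz k b (cyl x))) hN3 (g3 ρ hρ0).1 (g3 ρ hρ0).2
      fun x hx => by
      obtain ⟨a0, a1, a2⟩ := hpt x hx
      have e : Rtwo u ψ x * (x 2 ^ 2 * Gz k b (cyl x)) = x 2 ^ 2 * (Rtwo u ψ x * Gz k b (cyl x)) := by ring
      rw [e, abs_of_nonneg (by positivity), abs_of_pos a0]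
      refine (mul_le_mul_of_nonneg_left a2 (sq_nonneg _)).trans (le_of_eq ?_)
      ring
    have e : (((3 : ℕ) : ℝ) - 2) / 2 = 1 / 2 := by norm_num
    rw [e] at a
    refine a.trans (mul_le_mul_of_nonneg_right ?_ (Real.rpow_nonneg hρ0.le _))
    exact mul_le_mul_of_nonneg_left (by linarith) (by positivity)
  · obtain ⟨v1, v2⟩ := box_vol hρ0.le (by linarith : ρ ≤ ρ + 3) hz12
    have hz2 : 0 ≤ z₂ := hz1.trans hz12
    have hfin : volume (Om k ∩ box ρ (ρ + 3) z₁ z₂) < ⊤ :=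
      (measure_mono inter_subset_right).trans_lt v1.lt_top
    have hb : ∀ x ∈ Om k ∩ box ρ (ρ + 3) z₁ z₂,
        ‖Rtwo u ψ x * Gz k b (cyl x)‖ ≤ M * ρ ^ (-5 / 2 : ℝ) * z₂ := by
      intro x hx
      obtain ⟨a0, a1, a2⟩ := hpt x ⟨hx.1, hx.2.1, hx.2.2.1⟩
      rw [Real.norm_of_nonneg a1]
      refine a2.trans (mul_le_mul_of_nonneg_left ?_ (by positivity))
      have : Real.exp (-(k / 3 * x 2 ^ 2 / ρ)) ≤ 1 := Real.exp_le_one_iff.2 (neg_nonpos.2 (by positivity))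
      nlinarith [hx.2.2.2.2]
    have a1 := norm_setIntegral_le_of_norm_le_const hfin hb
    have a2 : volume.real (Om k ∩ box ρ (ρ + 3) z₁ z₂) ≤ 36 * ρ * (z₂ - z₁) := by
      refine (measureReal_mono inter_subset_right v1).trans ?_
      rw [v2]
      exact mul_le_mul_of_nonneg_right hvol (by linarith)
    have e : ρ * ρ ^ (-5 / 2 : ℝ) = ρ ^ (-3 / 2 : ℝ) := by
      conv_lhs => rw [← Real.rpow_one ρ]
      rw [← Real.rpow_mul hρ0.le, ← Real.rpow_add hρ0]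
      congr 1; ring
    have d0 : 0 ≤ z₂ - z₁ := by linarith
    calc ∫ x in Om k ∩ box ρ (ρ + 3) z₁ z₂, Rtwo u ψ x * Gz k b (cyl x) ≤ _ := (le_abs_self _).trans a1
      _ ≤ M * ρ ^ (-5 / 2 : ℝ) * z₂ * (36 * ρ * (z₂ - z₁)) := mul_le_mul_of_nonneg_left a2 (by positivity)
      _ = 36 * M * 1 * (ρ * ρ ^ (-5 / 2 : ℝ)) * (z₂ * (z₂ - z₁)) := by ring
      _ ≤ _ := by
          rw [e]
          refine mul_le_mul_of_nonneg_right (mul_le_mul_of_nonneg_right ?_ (Real.rpow_nonneg hρ0.le _))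
            (by positivity)
          exact mul_le_mul_of_nonneg_left (by linarith) (by positivity)

end Crest.Agent.R335
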