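import Crest.Agent.R335.M_Main

/-!
# R335/M: `τ = ψ/u` is almost decreasing in `z` (SUB-LEAD part)

`ℓ = log ρ₀`, `e = ρ₀^(-12)`, `λ₀ = lam ρ₀`.  For `s = ± 1` and a level `α` let `f = s (ψ - α u)` (an `Orb`), `f̃ (ρ,z) = f (pt ρ z)`, `P_s = {r | s ψ(pt r 0) > 0}`.  All levels satisfy `|α| ≤ C'`
(`|τ| ≤ C/c` on the region of `Red.ulow`).  Pieces `f 1_Û` as in `K3` (step 1): `ζ (f - ε)₊ 1_Û ∈ H¹`, and testing the equation gives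
`qf (ζ f 1_Û) - e2 nsq = ½ ∫ ‖∇ζ‖² f² 1_Û` whenever `U` is a component of `{f̃ > 0} ∩ O` (`O` open in the quadrant) and `ζ` vanishes near the part of `∂O` which `U` can reach.
(H) Hölder: if `f̃(x) ≥ (e/8) u(x)` then `f > (e/16) u(x)` on a ball of radius `ρ₀^(-N)` around `x` (`holder`, `Tail.cont_le`, `ulow`), which lies in `Û`.
(Pocket) `U` = component of `{f̃ > 0} ∩ {z > 0, 0 < ρ < ρ₁}` containing `y`.  Either the closure of `U` contains a point `(r,0)`, `r ∈ P_s`, `r < ρ₁ - 1/2`, and then `y` is joined to `(r,0)` inside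
  `{f̃ > 0} ∩ {ρ < ρ₁}`; or, with `ζ = ζ(cyl)` equal to `1` for `cyl ≤ ρ₁ - 1` and `0` for `cyl ≥ ρ₁ - 1/2`, `picone` gives `∫_{cyl ≤ ρ₁ - 1} u² ‖∇τ‖² 1_Û ≤ C ∫_{cyl ≥ ρ₁ - 1} R²` (`Tail.mass_le`).
  Let `F = |arctan τ - arctan α| 1_Û`; `(u² + ψ²) ‖∇F‖² ≤ u² ‖∇τ‖² 1_Û`.  If on a box `[ρ_y - 1/4, ρ_y + 1/4] × [-1/4, 1/4] × [z₁, z₂] ∋ y` every vertical line contains a point outside `Û` and
  `u² + ψ² ≥ ρ₀^(-N) e^(-2 k ρ_y)`, then `poincare_vert` and (H) give `e² ≤ ρ₀^N' e^(-2 k (ρ₁ - ρ_y))`, false for `ρ₁ - ρ_y ≥ Cd ℓ`.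
(Confine) box `O = (ρ* - T, ρ* + dd) × (max (z* - H) (3λ₀/4), z* + H)`, `U` the component of `{f̃ > 0} ∩ O` containing `x*`, and `f̃ ≤ 0` on the bottom side if the maximum is `3λ₀/4`.  Then `U` contains points with
  `ρ < ρ* - T + 1`.  Otherwise take `ζ = e^(-κ √(1 + (z - z*)²))` times cut-offs at the top, (bottom) and right side.  Lower bound `qf ξ - e2 nsq ξ ≥ κ₀ nsq ξ` for `ξ` supported in the box: `picone`, `c z g ≤ u ≤ C' z g`,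
  and the Hardy inequality `∫ w ‖∇h‖² ≥ (k²/4) ∫ w h²`, `w = z² e^(-2 k r)` (`TH.sq_div` with `Y = (k/2) w x/‖x‖`), `h = ξ/u`.  With `κ² < κ₀`: `e² ρ₀^(-N) ≤ ρ₀^N (e^(-2 κ H + 2 k T) + e^(-2 k dd))`.
(Path) Confine at the level shifted by `e/4`, then Pocket at the end point with `ρ₁ = ρ* - T + dd + 1`: a path `Γ` in `{f̃ > 0}` from `(r,0)`, `r ∈ P_s`, to `x*`, whose part in `ρ ≥ ρ* - T + dd + 1` lies in the box.  The zeros on vertical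
  lines for this Pocket: the height `λ₀/2` (`StripB`, `mon_up`, `mon_down`), or a tiny height `z_b` below which `ψ - α u > 0` on the window (`mon_post`; for `s = 1` a bottom point in `U` would connect `U` to `P₊`).
(Conclusion) if `y` above (below) the box, `ρ* - T + dd + 1 ≤ ρ_y ≤ ρ* - dd`, had the opposite inequality, Pocket at `y` with `ρ₁ = ρ*` (zeros: the points of `Γ`, intermediate value theorem) joins `y` to `(r',0)`, `r' ∈ P_{-s}`.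
  Extend the path which ends at the upper point vertically upwards and the other one vertically down to the ray; `Red.ord` and `cross` give a contradiction.  In `mon_up`, `y = (ρ* - dd, λ₀/2)`.
-/

set_option autoImplicit false

namespace Crest.Agent.R335

open MeasureTheory Set Filter Topology
open scoped Gradient RealInnerProductSpace ENNReal ContDiff
open Crest.MathPhysics.ThreeBody

variable {k b L C c e1 e2 : ℝ} {R d V0 S v φ u ψ : E3 → ℝ} {GR Gd Gφ Gu Gψ : E3 → E3}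


theorem m_strip (h : Red k b L C c R GR d Gd V0 S v e1 e2 φ Gφ u Gu ψ Gψ) {ρ₀ A s α t ρ : ℝ} (h0 : 0 < ρ₀)
    (hA : StripB u ψ ρ₀ A) (hs : s = 1 ∨ s = -1) (hα : A ≤ s * α) (h1 : ρ₀ / 2 ≤ ρ) (h2 : ρ ≤ 2 * ρ₀)
    (h3 : lam ρ₀ / 4 ≤ t) (h4 : t ≤ 4 * lam ρ₀) : lv u ψ s α (pt ρ t) ≤ 0 := by
  have hlam := lam_pos h0
  have hρ : 0 < ρ := by linarith
  have ht : 0 < t := by linarith
  rw [h.lv_tau s α hρ ht]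
  have h5 := abs_le.1 (hA ρ t h1 h2 h3 h4)
  refine mul_nonpos_of_nonpos_of_nonneg ?_ (h.u_pos (pt_mem_offA hρ t) (by rwa [pt_two])).le
  rcases hs with rfl | rfl <;> linarith [h5.1, h5.2]

theorem mon_up (h : Red k b L C c R GR d Gd V0 S v e1 e2 φ Gφ u Gu ψ Gψ) (Y : ℝ) : ∃ L' : ℝ, ∀ ρ₀ A z, L' ≤ ρ₀ →
    StripB u ψ ρ₀ A → lam ρ₀ ≤ z → z ^ 2 ≤ Y * ρ₀ * Real.log ρ₀ → tau u ψ ρ₀ z ≤ A + ρ₀ ^ (-12 : ℝ) := by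
  obtain ⟨Cd, Ch, L₁, hCd, hCh, h16, h1⟩ := m_main h Y 0 0
  refine ⟨L₁, fun ρ₀ A z hL hA hz hz' => ?_⟩
  obtain ⟨h2, -, h3⟩ := h1 ρ₀ hL
  have hρ : 16 ≤ ρ₀ := h16.trans hL
  have hlam : 0 < lam ρ₀ := lam_pos (by linarith)
  have he0 : 0 < ρ₀ ^ (-12 : ℝ) := Real.rpow_pos_of_pos (by linarith) _
  have he1 : ρ₀ ^ (-12 : ℝ) ≤ 1 := Real.rpow_le_one_of_one_le_of_nonpos (by linarith) (by norm_num)
  have hl0 : 0 ≤ Cd * Real.log ρ₀ := mul_nonneg (by linarith) (Real.log_nonneg (by linarith))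
  rw [abs_zero, add_zero] at h2
  by_contra hcon
  push Not at hcon
  have hα : A ≤ 1 * (tau u ψ ρ₀ z - ρ₀ ^ (-12 : ℝ) / 2) := by linarith
  have h4 := h3 z 1 (tau u ψ ρ₀ z - ρ₀ ^ (-12 : ℝ) / 2) (lam ρ₀ / 2) (ρ₀ - Cd * Real.log ρ₀) (lam ρ₀ / 2) (Or.inl rfl)
    hz hz' (by rw [abs_le]; constructor <;> linarith) (by linarith)
    (fun _ ρ' h5 h6 => m_strip h (by linarith) hA (Or.inl rfl) hα h5 h6 (by linarith) (by linarith))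
    (by linarith) le_rfl
    (fun ρ' h5 h6 => Or.inl (m_strip h (by linarith) hA (Or.inl rfl) hα h5 h6 (by linarith) (by linarith)))
    (fun x _ _ h5 h6 => by linarith) (by rw [add_zero]) le_rfl
    (Or.inl ⟨rfl, le_rfl, le_max_of_le_right (by linarith)⟩)
  have h5 := abs_le.1 (hA (ρ₀ - Cd * Real.log ρ₀) (lam ρ₀ / 2) (by linarith) (by linarith) (by linarith)
    (by linarith))
  linarith [h5.2]

theorem mon_down (h : Red k b L C c R GR d Gd V0 S v e1 e2 φ Gφ u Gu ψ Gψ) (Y W : ℝ) : ∃ Cd Ch L' : ℝ, 1 ≤ Cd ∧ 1 ≤ Ch ∧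
    ∀ ρ₀ A z₀, L' ≤ ρ₀ → StripB u ψ ρ₀ A → lam ρ₀ ≤ z₀ → z₀ ^ 2 ≤ Y * ρ₀ * Real.log ρ₀ →
      tau u ψ ρ₀ z₀ ≤ -A - ρ₀ ^ (-12 : ℝ) → ∀ ρ z, ρ₀ - (Cd + W) * Real.log ρ₀ ≤ ρ → ρ ≤ ρ₀ - Cd * Real.log ρ₀ →
        z₀ + Ch * Real.log ρ₀ ≤ z → z ^ 2 ≤ 4 * Y * ρ₀ * Real.log ρ₀ →
          tau u ψ ρ z ≤ tau u ψ ρ₀ z₀ + ρ₀ ^ (-12 : ℝ) := by
  obtain ⟨Cd, Ch, L₁, hCd, hCh, h16, h1⟩ := m_main h Y W 0
  refine ⟨Cd, Ch, L₁, hCd, hCh, fun ρ₀ A z₀ hL hA hz hz' hτ ρ z hρ1 hρ2 hz1 hz2 => ?_⟩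
  obtain ⟨-, -, h3⟩ := h1 ρ₀ hL
  have hρ : 16 ≤ ρ₀ := h16.trans hL
  have hlam : 0 < lam ρ₀ := lam_pos (by linarith)
  have he0 : 0 < ρ₀ ^ (-12 : ℝ) := Real.rpow_pos_of_pos (by linarith) _
  have he1 : ρ₀ ^ (-12 : ℝ) ≤ 1 := Real.rpow_le_one_of_one_le_of_nonpos (by linarith) (by norm_num)
  have hα : A ≤ -1 * (tau u ψ ρ₀ z₀ + ρ₀ ^ (-12 : ℝ) / 2) := by linarith
  have h4 := h3 z₀ (-1) (tau u ψ ρ₀ z₀ + ρ₀ ^ (-12 : ℝ) / 2) (lam ρ₀ / 2) ρ z (Or.inr rfl)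
    hz hz' (by rw [abs_le]; constructor <;> linarith) (by linarith)
    (fun _ ρ' h5 h6 => m_strip h (by linarith) hA (Or.inr rfl) hα h5 h6 (by linarith) (by linarith))
    (by linarith) le_rfl
    (fun ρ' h5 h6 => Or.inl (m_strip h (by linarith) hA (Or.inr rfl) hα h5 h6 (by linarith) (by linarith)))
    (fun x _ _ h5 h6 => by linarith) hρ1 hρ2 (Or.inr ⟨rfl, hz1, hz2⟩)
  linarith

theorem mon_post (h : Red k b L C c R GR d Gd V0 S v e1 e2 φ Gφ u Gu ψ Gψ) (hp : Post k b φ ψ) (Y W : ℝ) :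
    ∃ Cd Ch L' : ℝ, 1 ≤ Cd ∧ 1 ≤ Ch ∧ ∀ ρ₀ z₀, L' ≤ ρ₀ → ρ₀ ^ (1 / 4 : ℝ) ≤ z₀ → z₀ ^ 2 ≤ Y * ρ₀ * Real.log ρ₀ →
      ∀ ρ z, ρ₀ - (Cd + W) * Real.log ρ₀ ≤ ρ → ρ ≤ ρ₀ - Cd * Real.log ρ₀ →
        (z₀ + Ch * Real.log ρ₀ ≤ z → z ^ 2 ≤ 4 * Y * ρ₀ * Real.log ρ₀ →
          tau u ψ ρ z ≤ tau u ψ ρ₀ z₀ + ρ₀ ^ (-12 : ℝ)) ∧
        (lam ρ₀ / 2 ≤ z → z ≤ z₀ - Ch * Real.log ρ₀ → tau u ψ ρ₀ z₀ - ρ₀ ^ (-12 : ℝ) ≤ tau u ψ ρ z) := by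
  obtain ⟨N₀, L₀, -, h0⟩ := m_low_post h hp
  obtain ⟨L₂, h2⟩ := m_zb h hp
  obtain ⟨Cd, Ch, L₁, hCd, hCh, h16, h1⟩ := m_main h Y W N₀
  refine ⟨Cd, Ch, max L₁ (max L₀ L₂), hCd, hCh, fun ρ₀ z₀ hL hz hz' ρ z hρ1 hρ2 => ?_⟩
  have hL1 : L₁ ≤ ρ₀ := le_trans (by simp) hL
  have hL0 : L₀ ≤ ρ₀ := le_trans (by simp) hL
  have hL2 : L₂ ≤ ρ₀ := le_trans (by simp) hL
  obtain ⟨-, hq, h3⟩ := h1 ρ₀ hL1
  have hρ : 16 ≤ ρ₀ := h16.trans hL1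
  have hlam : 0 < lam ρ₀ := lam_pos (by linarith)
  have hlam1 : lam ρ₀ ≤ 1 := lam_le_one (by linarith)
  have he0 : 0 < ρ₀ ^ (-12 : ℝ) := Real.rpow_pos_of_pos (by linarith) _
  have he1 : ρ₀ ^ (-12 : ℝ) ≤ 1 := Real.rpow_le_one_of_one_le_of_nonpos (by linarith) (by norm_num)
  have hl0 : 0 ≤ Ch * Real.log ρ₀ := mul_nonneg (by linarith) (Real.log_nonneg (by linarith))
  have hlow : ∀ z₁ : ℝ, 0 < z₁ → ∀ x, ρ₀ / 2 ≤ cyl x → cyl x ≤ 2 * ρ₀ → z₁ ≤ x 2 → x 2 < lam ρ₀ / 8 →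
      pe k (-N₀) ρ₀ (cyl x) ^ 2 ≤ u x ^ 2 + ψ x ^ 2 := fun z₁ hz₁ x h5 h6 h7 h8 =>
    h0 ρ₀ x hL0 h5 h6 (by rw [abs_le]; constructor <;> linarith)
  constructor
  · intro hz1 hz2
    obtain ⟨z₁, h5, h6, h7⟩ := h2 ρ₀ (tau u ψ ρ₀ z₀ + ρ₀ ^ (-12 : ℝ) / 2) hL2
    have h4 := h3 z₀ (-1) (tau u ψ ρ₀ z₀ + ρ₀ ^ (-12 : ℝ) / 2) z₁ ρ z (Or.inr rfl)
      (by linarith) hz' (by rw [abs_le]; constructor <;> linarith) (by linarith)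
      (fun h8 => by linarith) h5 h6
      (fun ρ' h8 h9 => Or.inl (by
        have := h7 ρ' z₁ h8 h9 h5.le le_rfl
        unfold lv at this ⊢
        linarith))
      (hlow z₁ h5) hρ1 hρ2 (Or.inr ⟨rfl, hz1, hz2⟩)
    linarith
  · intro hz1 hz2
    obtain ⟨z₁, h5, h6, h7⟩ := h2 ρ₀ (tau u ψ ρ₀ z₀ - ρ₀ ^ (-12 : ℝ) / 2) hL2
    have h4 := h3 z₀ 1 (tau u ψ ρ₀ z₀ - ρ₀ ^ (-12 : ℝ) / 2) z₁ ρ z (Or.inl rfl)
      (by linarith) hz' (by rw [abs_le]; constructor <;> linarith) (by linarith)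
      (fun h8 => by linarith) h5 h6 (fun ρ' h8 h9 => Or.inr fun t h10 h11 => h7 ρ' t h8 h9 h10 h11)
      (hlow z₁ h5) hρ1 hρ2 (Or.inl ⟨rfl, hz1, le_max_of_le_left hz2⟩)
    linarith

end Crest.Agent.R335
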