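import Crest.Agent.R335.Gl2
import Crest.Agent.R335.M

/-!
# R335/Gl3: between pointwise bounds and means
-/

set_option autoImplicit false

namespace Crest.Agent.R335

open MeasureTheory Set Filter Topology
open scoped Gradient RealInnerProductSpace ENNReal ContDiff
open Crest.MathPhysics.ThreeBody

variable {k b L C c e1 e2 : ℝ} {R d V0 S v φ u ψ : E3 → ℝ} {GR Gd Gφ Gu Gψ : E3 → E3}

theorem pb_init (h : Red k b L C c R GR d Gd V0 S v e1 e2 φ Gφ u Gu ψ Gψ) : PB k b ψ (-1 / 10) := by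
  obtain ⟨M, L', hM, hL, h1, -⟩ := h.crude
  obtain ⟨L2, hL2⟩ := eventually_atTop.1 (ev_pow (a := 0) (a' := -(-1 / 10)) (by norm_num) M)
  refine ⟨max L' L2, fun x hx => ?_⟩
  have a1 := (h1 x (le_trans (le_max_left _ _) hx)).2.1
  have a2 := hL2 _ (le_trans (le_max_right _ _) hx)
  rw [Real.rpow_zero, mul_one] at a2
  have hc : 0 < cyl x := by linarith [le_trans (le_max_left _ _) hx, h.tail.Lge]
  have a3 : 0 ≤ gfun k b x := by unfold gfun; positivity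
  have a4 : 1 ≤ Real.exp (k * (‖x‖ - cyl x)) :=
    Real.one_le_exp (mul_nonneg h.tail.kpos.le (sub_nonneg.2 (cyl_le_norm x)))
  have a5 := lam_pos hc
  refine a1.trans ?_
  have a6 : gfun k b x ≤ gfun k b x * Real.exp (k * (‖x‖ - cyl x)) := le_mul_of_one_le_right a3 a4
  gcongr

/-- `|a| R₂ ≤ 2 |ψ|` (`arctan_mul_sqrt`), `gfun_exp`, `Gz_cmp`: the integrand is `≤ C ρ^(-ν-5/2) z` on `z² ≤ C ρ log ρ` -/
theorem nb_of_pb (h : Red k b L C c R GR d Gd V0 S v e1 e2 φ Gφ u Gu ψ Gψ) {ν ν' : ℝ} (hP : PB k b ψ ν) (hν : ν' < ν) : NB k b u ψ ν' := by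
  have hk := h.tail.kpos
  obtain ⟨L1, h1⟩ := hP
  obtain ⟨M1, hM1, g1⟩ := gfun_exp k b
  obtain ⟨M2, hM2, g2⟩ := Gz_cmp k b
  obtain ⟨M3, hM3, g3⟩ := rpow_cmp (-ν)
  obtain ⟨L2, hL2, g4⟩ := Om_small (k := k) hk
  obtain ⟨L3, g5⟩ := eventually_atTop.1 (ev_log (a := -ν - 1 / 2) (a' := -ν' - 1 / 2) (by linarith)
    (4 * M3 * M1 * M2 * (Real.pi * 3) * (4000 / k)) 1)
  refine ⟨max (max L1 L2) L3, fun ρ hρ => ?_⟩
  have r1 : L1 ≤ ρ := le_trans (le_trans (le_max_left _ _) (le_max_left _ _)) hρ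
  have r2 : L2 ≤ ρ := le_trans (le_trans (le_max_right _ _) (le_max_left _ _)) hρ
  have r3 := g5 ρ (le_trans (le_max_right _ _) hρ)
  have r0 : 0 < ρ := by linarith
  have hlog : 0 ≤ Real.log ρ := Real.log_nonneg (by linarith)
  set Z := √(4000 / k * ρ * Real.log ρ) with hZ
  have hZ0 : 0 ≤ Z := Real.sqrt_nonneg _
  have hZ2 : Z * Z = 4000 / k * ρ * Real.log ρ := Real.mul_self_sqrt (by positivity)
  have hz : ∀ x ∈ Om k ∩ shell ρ (ρ + 1), x 2 ≤ Z := by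
    rintro x ⟨hx, hx1, hx2⟩
    refine Real.le_sqrt_of_sq_le (hx.2.trans ?_)
    have b1 : Real.log (cyl x) ≤ 2 * Real.log ρ := by
      have : Real.log (ρ ^ 2) = 2 * Real.log ρ := by simp
      rw [← this]
      exact Real.log_le_log (by linarith) (by nlinarith)
    have b2 : 0 ≤ Real.log (cyl x) := Real.log_nonneg (by linarith)
    calc 1000 / k * cyl x * Real.log (cyl x) ≤ 1000 / k * (2 * ρ) * (2 * Real.log ρ) := by
          gcongr; linarith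
      _ = _ := by ring
  have hsub : Om k ∩ shell ρ (ρ + 1) ⊆ box ρ (ρ + 1) 0 Z := fun x hx =>
    ⟨hx.2.1, hx.2.2, (g4 x hx.1 (r2.trans hx.2.1)).1.le, hz x hx⟩
  obtain ⟨v1, v2⟩ := box_vol (α := ρ) (β := ρ + 1) (z₁ := 0) (z₂ := Z) r0.le (by linarith) hZ0
  have hp : ρ ^ (-ν) * ρ ^ (b - 2) * ρ ^ (-(b + 1 / 2)) * ρ * ρ = ρ ^ (-ν - 1 / 2) := by
    rw [← Real.rpow_add r0, ← Real.rpow_add r0, ← Real.rpow_add_one r0.ne', ← Real.rpow_add_one r0.ne']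
    congr 1; ring
  have p1 : 0 < ρ ^ (-ν) := Real.rpow_pos_of_pos r0 _
  have p2 : 0 < ρ ^ (b - 2) := Real.rpow_pos_of_pos r0 _
  have p3 : 0 < ρ ^ (-(b + 1 / 2)) := Real.rpow_pos_of_pos r0 _
  have hbd : ∀ x ∈ Om k ∩ shell ρ (ρ + 1), ‖|ang u ψ x| * Rtwo u ψ x * Gz k b (cyl x)‖ ≤
      4 * M3 * M1 * M2 * (ρ ^ (-ν) * ρ ^ (b - 2) * ρ ^ (-(b + 1 / 2))) * Z := by
    intro x hx
    obtain ⟨hO, hx1, hx2⟩ := id hx
    have c0 : 0 < cyl x := by linarith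
    obtain ⟨z0, z1⟩ := g4 x hO (r2.trans hx1)
    have hu := (h.u_posG (x := x) ⟨c0, z0⟩).1
    have a1 : |ang u ψ x| * Rtwo u ψ x ≤ 2 * |ψ x| := (arctan_mul_sqrt hu).1
    have a2 := h1 x (r1.trans hx1)
    have a3 := g1 ρ x r0 (by linarith) (by linarith) (by rw [abs_of_pos z0]; linarith)
    have a4 := (g2 ρ (cyl x) r0 (by linarith) (by linarith)).1
    have a5 := (g3 ρ (cyl x) r0 (by linarith) (by linarith)).1
    have a6 : |x 2| + lam (cyl x) ≤ 2 * Z := by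
      rw [abs_of_pos z0]; linarith [hz x hx, hO.1]
    have a7 := Gz_pos k b c0
    have a8 : 0 ≤ gfun k b x * Real.exp (k * (‖x‖ - cyl x)) := by unfold gfun; positivity
    have a9 := lam_pos c0
    have a10 : |ψ x| ≤ M3 * ρ ^ (-ν) * (2 * Z) * (M1 * ρ ^ (b - 2) * Real.exp (-(k * cyl x))) :=
      a2.trans (by gcongr)
    have a11 : 0 ≤ Rtwo u ψ x := Real.sqrt_nonneg _
    have e : Real.exp (-(k * cyl x)) * Real.exp (k * cyl x) = 1 := by rw [← Real.exp_add]; simp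
    rw [Real.norm_of_nonneg (by positivity)]
    calc |ang u ψ x| * Rtwo u ψ x * Gz k b (cyl x)
        ≤ 2 * (M3 * ρ ^ (-ν) * (2 * Z) * (M1 * ρ ^ (b - 2) * Real.exp (-(k * cyl x)))) *
          (M2 * (ρ ^ (-(b + 1 / 2)) * Real.exp (k * cyl x))) :=
          mul_le_mul (a1.trans (by linarith)) a4 a7.le (by positivity)
      _ = 4 * M3 * M1 * M2 * (ρ ^ (-ν) * ρ ^ (b - 2) * ρ ^ (-(b + 1 / 2))) * Z *
          (Real.exp (-(k * cyl x)) * Real.exp (k * cyl x)) := by ring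
      _ = _ := by rw [e, mul_one]
  have key := norm_setIntegral_le_of_norm_le_const
    (lt_of_le_of_lt (measure_mono hsub) (lt_top_iff_ne_top.2 v1)) hbd
  have v3 : volume.real (Om k ∩ shell ρ (ρ + 1)) ≤ Real.pi * 3 * ρ * Z := by
    refine (measureReal_mono hsub v1).trans ?_
    rw [v2, sub_zero]
    have : Real.pi * ((ρ + 1) ^ 2 - ρ ^ 2) ≤ Real.pi * 3 * ρ := by
      rw [mul_assoc]
      exact mul_le_mul_of_nonneg_left (by nlinarith) Real.pi_pos.le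
    exact mul_le_mul_of_nonneg_right this hZ0
  refine (le_abs_self _).trans (key.trans (le_trans ?_ r3))
  calc _ ≤ 4 * M3 * M1 * M2 * (ρ ^ (-ν) * ρ ^ (b - 2) * ρ ^ (-(b + 1 / 2))) * Z *
        (Real.pi * 3 * ρ * Z) := mul_le_mul_of_nonneg_left v3 (by positivity)
    _ = 4 * M3 * M1 * M2 * (ρ ^ (-ν) * ρ ^ (b - 2) * ρ ^ (-(b + 1 / 2))) *
        (Real.pi * 3 * ρ) * (Z * Z) := by ring
    _ = _ := by rw [hZ2, ← hp]; exact le_of_eq (by ring) |>.antisymm (le_of_eq (by ring))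

end Crest.Agent.R335
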