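import Crest.Agent.R335.Gl3a

/-!
# R335/Gl3: between pointwise bounds and means
-/

set_option autoImplicit false

namespace Crest.Agent.R335

open MeasureTheory Set Filter Topology
open scoped Gradient RealInnerProductSpace ENNReal ContDiff
open Crest.MathPhysics.ThreeBody

variable {k b L C c e1 e2 : ℝ} {R d V0 S v φ u ψ : E3 → ℝ} {GR Gd Gφ Gu Gψ : E3 → E3}

theorem maj_zero (h : Red k b L C c R GR d Gd V0 S v e1 e2 φ Gφ u Gu ψ Gψ) : Maj k u ψ 0 := by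
  refine ⟨1, fun x h1 _ _ => ?_⟩
  rw [neg_zero, Real.rpow_zero, mul_one]
  have h2 : 1 ≤ Real.exp (k * x 2 ^ 2 / (4 * cyl x)) :=
    Real.one_le_exp (by have := h.tail.kpos; positivity)
  have h3 : |ang u ψ x| ≤ 2 := abs_arctan_le_two _
  linarith

/-- `|a|² ≤ 2 |τ| ≤ C ρ^(-11/5) exp (k z²/(2 ρ))` (`ulow`, `norm_sub_cyl`) -/
theorem maj_one (h : Red k b L C c R GR d Gd V0 S v e1 e2 φ Gφ u Gu ψ Gψ) (hP : PB k b ψ (11 / 5)) : Maj k u ψ 1 := by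
  obtain ⟨L₁, h1⟩ := hP
  have hc := h.tail.cpos
  have hk := h.tail.kpos
  obtain ⟨L₂, h2⟩ := eventually_atTop.1 (ev_pow (a := -(11 / 5)) (a' := -2) (by norm_num) (10 / c))
  refine ⟨max (max L₁ L₂) (max L 1), fun x hx hz hz' => ?_⟩
  have hx1 : L₁ ≤ cyl x := le_trans (by simp) hx
  have hx2 : L₂ ≤ cyl x := le_trans (by simp) hx
  have hx3 : L ≤ cyl x := le_trans (by simp) hx
  have hx4 : 1 ≤ cyl x := le_trans (by simp) hx
  have hρ : 0 < cyl x := by linarith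
  have hlam : 0 < lam (cyl x) := (gea_lam hx4).1
  have hz0 : 0 < x 2 := by linarith
  have hg : 0 < gfun k b x := gfun_pos k b (by
    rintro rfl
    simp at hz0)
  have hu := h.ulow x hx3 (by linarith) (by linarith)
  have hu0 : 0 < c * x 2 * gfun k b x := by positivity
  have hψ := h1 x hx1
  rw [abs_of_pos hz0] at hψ
  set E := Real.exp (k * x 2 ^ 2 / (4 * cyl x)) with hE
  have hE0 : 0 < E := Real.exp_pos _
  have hE2 : Real.exp (k * (‖x‖ - cyl x)) ≤ E ^ 2 := by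
    rw [hE, ← Real.exp_nat_mul]
    refine Real.exp_le_exp.2 ((mul_le_mul_of_nonneg_left (norm_sub_cyl x hρ).2 hk.le).trans_eq ?_)
    push_cast
    field_simp
    ring
  have hp : 0 < cyl x ^ (-(11 / 5) : ℝ) := Real.rpow_pos_of_pos hρ _
  have hτ : |ψ x / u x| ≤ 5 / c * cyl x ^ (-(11 / 5) : ℝ) * E ^ 2 := by
    rw [abs_div, abs_of_pos (hu0.trans_le hu), div_le_iff₀ (hu0.trans_le hu)]
    calc |ψ x| ≤ cyl x ^ (-(11 / 5) : ℝ) * (5 * x 2) * (gfun k b x * E ^ 2) := by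
          refine hψ.trans ?_
          gcongr
          linarith
      _ = 5 / c * cyl x ^ (-(11 / 5) : ℝ) * E ^ 2 * (c * x 2 * gfun k b x) := by field_simp
      _ ≤ _ := by gcongr
  have h3 : |ang u ψ x| ≤ 2 := abs_arctan_le_two _
  have h4 : |ang u ψ x| ≤ |ψ x / u x| := abs_arctan_le _
  have h5 : cyl x ^ (-2 : ℝ) = (cyl x ^ (-1 : ℝ)) ^ 2 := by
    rw [← Real.rpow_natCast, ← Real.rpow_mul hρ.le]; norm_num
  have h6 := h2 _ hx2
  rw [h5] at h6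
  have hq : 0 < cyl x ^ (-1 : ℝ) := Real.rpow_pos_of_pos hρ _
  refine abs_le_of_sq_le_sq' ?_ (by positivity) |>.2
  calc |ang u ψ x| ^ 2 = |ang u ψ x| * |ang u ψ x| := sq _
    _ ≤ 2 * (5 / c * cyl x ^ (-(11 / 5) : ℝ) * E ^ 2) := mul_le_mul h3 (h4.trans hτ) (abs_nonneg _) (by norm_num)
    _ = 10 / c * cyl x ^ (-(11 / 5) : ℝ) * E ^ 2 := by ring
    _ ≤ (cyl x ^ (-1 : ℝ)) ^ 2 * E ^ 2 := by gcongr
    _ ≤ (2 * cyl x ^ (-1 : ℝ) * E) ^ 2 := by nlinarith [sq_nonneg (cyl x ^ (-1 : ℝ) * E)]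

end Crest.Agent.R335
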