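import Crest.Agent.R335.Gl2
import Crest.Agent.R335.Gl1
import Crest.Agent.R335.M

/-!
# R335/Gl4: from means to pointwise bounds.
`tau_low`: `mon_down` with `Y = 10/k`, `W = 2`; if `τ₀ ≤ -A - e` then `|τ| ≥ -τ₀ - e` on the box `[ρ', ρ' + 1] × [z₁ + η, z₁ + 2 η]`, `ρ' = ρ₀ - Cd ℓ - 1`, `z₁ = z₀ + Ch ℓ`, `η = ρ₀^(23/50)`; `nw_low`
gives `c (-τ₀ - e) ρ'^(-3/2) η² exp (-k (z₁ + 2η)²/(2 ρ')) ≤ ρ'^(-μ' - 1/2)`, and `k (z₁ + 2η)²/(2 ρ') ≤ k (‖pt ρ₀ z₀‖ - ρ₀) + 1` for large `ρ₀` (`norm_sub_cyl`; all corrections are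
`O(ρ₀^(-1/25) log)`).  `pb_of_nb`: `|z| ≤ 8 lam`: `LayB`; `z² ≥ (10/k) ρ log ρ`: `Red.crude` and `k (‖x‖ - ρ) ≥ (7/2) log ρ`; otherwise `mon_up`, `tau_low`, `Red.tau_eq` at `pt ρ |z|`, `|ψ| = |τ| u`.
-/

set_option autoImplicit false

namespace Crest.Agent.R335

open MeasureTheory Set Filter Topology
open scoped Gradient RealInnerProductSpace ENNReal ContDiff
open Crest.MathPhysics.ThreeBody

variable {k b L C c e1 e2 : ℝ} {R d V0 S v φ u ψ : E3 → ℝ} {GR Gd Gφ Gu Gψ : E3 → E3}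

theorem gl4a_B {k ρ₀ ρ' r z₀ δ l Q ζ η : ℝ} (hk : 0 < k) (h0 : 0 < ρ₀) (h1 : ρ₀ / 2 ≤ ρ') (h2 : ρ₀ ≤ r) (h3 : ρ' ≤ r)
    (h4 : r - ρ' ≤ Q * l) (h5 : k * z₀ ^ 2 ≤ 10 * ρ₀ * l) (z0 : 0 ≤ z₀) (z1 : z₀ ≤ ζ) (d0 : 0 ≤ δ) (d1 : δ ≤ 3 * η)
    (h6 : η ≤ ζ) (h7 : 20 * Q * l ^ 2 ≤ ρ₀) (h8 : 30 * k * (ζ * η) ≤ ρ₀) :
    k * (z₀ + δ) ^ 2 / (2 * ρ') ≤ k * (z₀ ^ 2 / (2 * r)) + 1 := by
  have p1 : 0 < ρ' := by linarith
  have p2 : 0 < r := by linarith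
  have η0 : 0 ≤ η := by linarith
  have a1 : k * z₀ ^ 2 * (r - ρ') ≤ 10 * ρ₀ * l * (Q * l) :=
    mul_le_mul h5 h4 (by linarith) (le_trans (by positivity) h5)
  have a2 : 10 * ρ₀ * l * (Q * l) ≤ ρ' * r := by
    have b1 : 10 * ρ₀ * l * (Q * l) = ρ₀ / 2 * (20 * Q * l ^ 2) := by ring
    rw [b1]
    calc ρ₀ / 2 * (20 * Q * l ^ 2) ≤ ρ₀ / 2 * ρ₀ := mul_le_mul_of_nonneg_left h7 (by positivity)
      _ ≤ ρ' * r := mul_le_mul h1 h2 h0.le p1.le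
  have a3 : 2 * z₀ * δ + δ ^ 2 ≤ 15 * (ζ * η) := by
    have b1 : z₀ * δ ≤ ζ * (3 * η) := mul_le_mul z1 d1 d0 (by linarith)
    have b2 : δ * δ ≤ (3 * ζ) * (3 * η) := mul_le_mul (by linarith) d1 d0 (by linarith)
    nlinarith
  have a4 : k * (2 * z₀ * δ + δ ^ 2) ≤ ρ' := by nlinarith [mul_le_mul_of_nonneg_left a3 hk.le]
  have e : k * (z₀ + δ) ^ 2 / (2 * ρ') = k * (z₀ ^ 2 / (2 * r)) + k * z₀ ^ 2 * (r - ρ') / (ρ' * r) / 2 +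
      k * (2 * z₀ * δ + δ ^ 2) / ρ' / 2 := by
    field_simp
    ring
  have a5 : k * z₀ ^ 2 * (r - ρ') / (ρ' * r) ≤ 1 := (div_le_one (by positivity)).2 (a1.trans a2)
  have a6 : k * (2 * z₀ * δ + δ ^ 2) / ρ' ≤ 1 := (div_le_one p1).2 a4
  rw [e]
  linarith

theorem gl4a_fin {c t P η z B E M X Y : ℝ} (hc : 0 < c) (t0 : 0 ≤ t) (hP : 0 < P) (hη : 0 < η) (hz : η ≤ z)
    (h1 : c * t * P * (z * η * Real.exp (-B)) ≤ P * X) (h2 : X ≤ M * (Y * η ^ 2)) (hM : 0 ≤ M) (hY : 0 ≤ Y)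
    (hB : B ≤ E + 1) : t ≤ M * Real.exp 1 / c * Y * Real.exp E := by
  have e0 := Real.exp_pos (-B)
  have a1 : c * t * (η * η * Real.exp (-B)) ≤ X := by
    refine le_of_mul_le_mul_left (le_trans ?_ h1) hP
    calc P * (c * t * (η * η * Real.exp (-B))) = c * t * P * (η * η * Real.exp (-B)) := by ring
      _ ≤ _ := by gcongr
  have a2 : c * t * Real.exp (-B) ≤ M * Y := by
    refine le_of_mul_le_mul_right ?_ (show 0 < η ^ 2 by positivity)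
    nlinarith
  have a3 : c * t ≤ M * Y * Real.exp B := by
    calc c * t = c * t * Real.exp (-B) * Real.exp B := by rw [mul_assoc, ← Real.exp_add]; simp
      _ ≤ _ := mul_le_mul_of_nonneg_right a2 (Real.exp_pos B).le
  have a4 : Real.exp B ≤ Real.exp 1 * Real.exp E := by
    rw [← Real.exp_add, Real.exp_le_exp]
    linarith
  calc t = c * t / c := by field_simp
    _ ≤ M * Y * (Real.exp 1 * Real.exp E) / c :=
        div_le_div_of_nonneg_right (a3.trans (mul_le_mul_of_nonneg_left a4 (by positivity))) hc.le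
    _ = _ := by ring

theorem tau_low (h : Red k b L C c R GR d Gd V0 S v e1 e2 φ Gφ u Gu ψ Gψ) {μ μ' : ℝ} (hS : StripP u ψ μ) (hN : NB k b u ψ μ') (h0 : 0 ≤ μ') (h1 : μ' ≤ μ) (h2 : μ ≤ 3) :
    ∃ L' : ℝ, ∀ ρ₀ z₀, L' ≤ ρ₀ → lam ρ₀ ≤ z₀ → z₀ ^ 2 ≤ 10 / k * ρ₀ * Real.log ρ₀ →
      -tau u ψ ρ₀ z₀ ≤ ρ₀ ^ (9 / 100 - μ') * Real.exp (k * (‖pt ρ₀ z₀‖ - ρ₀)) := by
  have hk : 0 < k := h.tail.kpos
  obtain ⟨C', Ls, hC', hs⟩ := hS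
  obtain ⟨LN, hn⟩ := hN
  obtain ⟨Cd, Ch, Lm, hCd, hCh, hm⟩ := mon_down h (10 / k) 2
  obtain ⟨c', Ln, hc', hLn, hw⟩ := nw_low h
  obtain ⟨M, hM, hcmp⟩ := rpow_cmp (1 - μ')
  obtain ⟨Q, hQ⟩ : ∃ Q, Q = 5 / k + Cd + 1 := ⟨_, rfl⟩
  have ev : ∀ᶠ ρ₀ : ℝ in atTop, ∀ z₀, lam ρ₀ ≤ z₀ → z₀ ^ 2 ≤ 10 / k * ρ₀ * Real.log ρ₀ →
      -tau u ψ ρ₀ z₀ ≤ ρ₀ ^ (9 / 100 - μ') * Real.exp (k * (‖pt ρ₀ z₀‖ - ρ₀)) := by
    filter_upwards [eventually_ge_atTop Ls, eventually_ge_atTop Lm, eventually_ge_atTop (2 * Ln),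
      eventually_ge_atTop (2 * LN), Real.tendsto_log_atTop.eventually_ge_atTop 2,
      ev_pow (a := -μ') (a' := 9 / 100 - μ') (by linarith) (C' + 1),
      ev_log (a := 0) (a' := 1) (by norm_num) (2 * (Cd + 1)) 1,
      ev_log (a := 0) (a' := 23 / 50) (by norm_num) Ch 1,
      ev_pow (a := 23 / 25) (a' := 1) (by norm_num) k,
      ev_log (a := 1) (a' := 26 / 25) (by norm_num) (10 / k) 1,
      ev_log (a := 0) (a' := 1) (by norm_num) (20 * Q) 2,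
      ev_pow (a := 49 / 50) (a' := 1) (by norm_num) (30 * k),
      ev_pow (a := 2 / 25 - μ') (a' := 9 / 100 - μ') (by linarith) (2 * (M * Real.exp 1 / c')),
      ev_pow (a := -12) (a' := 9 / 100 - μ') (by linarith) 2]
      with ρ₀ l1 l2 l3 l4 l5 v1 v2 v3 v4 v5 v6 v7 v8 v9 z₀ hz0 hz1
    simp only [Real.rpow_zero, Real.rpow_one, mul_one, pow_one] at v2 v3 v4 v5 v6 v7
    have r1 : 1 ≤ ρ₀ := by linarith
    have r0 : 0 < ρ₀ := by linarith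
    have z0 : 0 ≤ z₀ := (lam_pos r0).le.trans hz0
    have hcyl : cyl (pt ρ₀ z₀) = ρ₀ := cyl_pt r0.le z₀
    have hr : ρ₀ ≤ ‖pt ρ₀ z₀‖ := by
      have := cyl_le_norm (pt ρ₀ z₀)
      rwa [hcyl] at this
    have hE : 1 ≤ Real.exp (k * (‖pt ρ₀ z₀‖ - ρ₀)) := Real.one_le_exp (mul_nonneg hk.le (by linarith))
    have hT : 0 < ρ₀ ^ (9 / 100 - μ') := Real.rpow_pos_of_pos r0 _
    have hTE : ρ₀ ^ (9 / 100 - μ') ≤ ρ₀ ^ (9 / 100 - μ') * Real.exp (k * (‖pt ρ₀ z₀‖ - ρ₀)) :=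
      le_mul_of_one_le_right hT.le hE
    by_cases hc : tau u ψ ρ₀ z₀ ≤ -(C' * ρ₀ ^ (-μ)) - ρ₀ ^ (-12 : ℝ)
    swap
    · have a1 : ρ₀ ^ (-μ) ≤ ρ₀ ^ (-μ') := Real.rpow_le_rpow_of_exponent_le r1 (by linarith)
      have a2 : ρ₀ ^ (-12 : ℝ) ≤ ρ₀ ^ (-μ') := Real.rpow_le_rpow_of_exponent_le r1 (by linarith)
      have a3 := mul_le_mul_of_nonneg_left a1 hC'
      push Not at hc
      linarith
    obtain ⟨η, hη⟩ : ∃ η, η = ρ₀ ^ (23 / 50 : ℝ) := ⟨_, rfl⟩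
    obtain ⟨ζ, hζ⟩ : ∃ ζ, ζ = ρ₀ ^ (13 / 25 : ℝ) := ⟨_, rfl⟩
    obtain ⟨l, hl⟩ : ∃ l, l = Real.log ρ₀ := ⟨_, rfl⟩
    have η1 : 1 ≤ η := hη ▸ Real.one_le_rpow r1 (by norm_num)
    have ηζ : η ≤ ζ := by
      rw [hη, hζ]
      exact Real.rpow_le_rpow_of_exponent_le r1 (by norm_num)
    have η2 : η ^ 2 = ρ₀ ^ (23 / 25 : ℝ) := by
      rw [hη, sq, ← Real.rpow_add r0]
      norm_num
    have ζ2 : ζ ^ 2 = ρ₀ ^ (26 / 25 : ℝ) := by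
      rw [hζ, sq, ← Real.rpow_add r0]
      norm_num
    have ζη : ζ * η = ρ₀ ^ (49 / 50 : ℝ) := by
      rw [hη, hζ, ← Real.rpow_add r0]
      norm_num
    have hm' := hm ρ₀ _ z₀ l2 (hs ρ₀ l1) hz0 hz1 hc
    rw [← η2] at v4
    rw [← ζ2] at v5
    rw [← ζη] at v7
    rw [← hη] at v3
    rw [← hl] at l5 v2 v3 v5 v6 hz1 hm'
    have hz2 : k * z₀ ^ 2 ≤ 10 * ρ₀ * l := by
      calc k * z₀ ^ 2 ≤ k * (10 / k * ρ₀ * l) := mul_le_mul_of_nonneg_left hz1 hk.le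
        _ = _ := by field_simp
    obtain ⟨ρ', hρ'⟩ : ∃ ρ', ρ' = ρ₀ - Cd * l - 1 := ⟨_, rfl⟩
    have cdl : 0 ≤ Cd * l := mul_nonneg (by linarith only [hCd]) (by linarith only [l5])
    have q1 : ρ₀ / 2 ≤ ρ' := by linarith only [hρ', v2, l5]
    have q2 : ρ' ≤ ρ₀ := by linarith only [hρ', cdl]
    have q0 : 0 < ρ' := by linarith
    obtain ⟨δ, hδ⟩ : ∃ δ, δ = Ch * l + 2 * η := ⟨_, rfl⟩
    have chl : 2 ≤ Ch * l := by nlinarith only [hCh, l5]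
    have d0 : 0 ≤ δ := by linarith
    have d1 : δ ≤ 3 * η := by linarith
    have d2 : (z₀ + δ) ^ 2 ≤ 4 * (10 / k) * ρ₀ * l := by
      have b1 : δ ^ 2 ≤ 9 * η ^ 2 := by nlinarith only [d0, d1]
      have b0 : ρ₀ * 2 ≤ ρ₀ * l := mul_le_mul_of_nonneg_left l5 r0.le
      have b2 : k * δ ^ 2 ≤ 10 * ρ₀ * l := by linarith only [mul_le_mul_of_nonneg_left b1 hk.le, b0, v4, r0]
      have b3 : k * (z₀ + δ) ^ 2 ≤ 40 * ρ₀ * l := by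
        linarith only [mul_nonneg hk.le (sq_nonneg (z₀ - δ)), b2, hz2]
      calc (z₀ + δ) ^ 2 = k * (z₀ + δ) ^ 2 / k := by field_simp
        _ ≤ 40 * ρ₀ * l / k := by gcongr
        _ = _ := by ring
    have hA : 0 ≤ C' * ρ₀ ^ (-μ) := mul_nonneg hC' (Real.rpow_nonneg r0.le _)
    have t0 : 0 ≤ -tau u ψ ρ₀ z₀ - ρ₀ ^ (-12 : ℝ) := by linarith
    have hlam : lam ρ' ≤ 1 := Real.rpow_le_one_of_one_le_of_nonpos (by linarith) (by norm_num)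
    have hlog : l / 2 ≤ Real.log ρ' := by
      have b1 : Real.log (ρ₀ / 2) ≤ Real.log ρ' := Real.log_le_log (by positivity) q1
      rw [Real.log_div r0.ne' two_ne_zero, ← hl] at b1
      linarith [Real.log_two_lt_d9]
    have d3 : (z₀ + δ) ^ 2 ≤ 1000 / k * ρ' * Real.log ρ' := by
      calc (z₀ + δ) ^ 2 ≤ 4 * (10 / k) * ρ₀ * l := d2
        _ = 160 / k * (ρ₀ / 2) * (l / 2) := by ring
        _ ≤ _ := by gcongr; norm_num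
    have w1 := (hw ρ' (z₀ + δ - η) (z₀ + δ) _ (by linarith) (by linarith) (by linarith) d3 t0
      fun ρ z b1 b2 b3 b4 => by
        have b5 := hm' ρ z (by linarith) (by linarith) (by linarith)
          ((pow_le_pow_left₀ (by linarith) b4 2).trans d2)
        linarith [neg_abs_le (tau u ψ ρ z)]).trans (hn ρ' (by linarith))
    have e1 : ρ' ^ (-μ' - 1 / 2) = ρ' ^ (-3 / 2 : ℝ) * ρ' ^ (1 - μ') := by
      rw [← Real.rpow_add q0]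
      congr 1
      ring
    have e2 : ρ₀ ^ (1 - μ') = ρ₀ ^ (2 / 25 - μ') * η ^ 2 := by
      rw [η2, ← Real.rpow_add r0]
      congr 1
      ring
    rw [e1, sub_sub_cancel] at w1
    have hns := norm_sub_cyl (pt ρ₀ z₀) (by rwa [hcyl])
    rw [hcyl, pt_2] at hns
    have hB : k * (z₀ + δ) ^ 2 / (2 * ρ') ≤ k * (‖pt ρ₀ z₀‖ - ρ₀) + 1 := by
      refine (gl4a_B (Q := Q) hk r0 q1 hr (q2.trans hr) ?_ hz2 z0 ?_ d0 d1 ηζ v6 v7).trans ?_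
      · have b1 : z₀ ^ 2 / (2 * ρ₀) ≤ 5 / k * l := by
          rw [div_le_iff₀ (by positivity)]
          calc z₀ ^ 2 ≤ 10 / k * ρ₀ * l := hz1
            _ = _ := by ring
        rw [hQ, hρ']
        linarith [hns.2]
      · refine (pow_le_pow_iff_left₀ z0 (by linarith) two_ne_zero).1 ?_
        linarith
      · linarith [mul_le_mul_of_nonneg_left hns.1 hk.le]
    have w2 := gl4a_fin (M := M) (Y := ρ₀ ^ (2 / 25 - μ')) hc' t0 (Real.rpow_pos_of_pos q0 _) (by linarith) (by linarith) w1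
      (by rw [← e2]; exact (hcmp ρ₀ ρ' r0 (by linarith) (by linarith)).1) (by linarith) (Real.rpow_nonneg r0.le _) hB
    have w3 := mul_le_mul_of_nonneg_right v8 (Real.exp_pos (k * (‖pt ρ₀ z₀‖ - ρ₀))).le
    linarith
  obtain ⟨L', hL'⟩ := eventually_atTop.1 ev
  exact ⟨L', fun ρ₀ z₀ a1 a2 a3 => hL' ρ₀ a1 z₀ a2 a3⟩

end Crest.Agent.R335
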