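import Crest.Agent.R335.Gl2
import Crest.Agent.R335.M

/-!
# R335/Gm1: pointwise bound at the parabolic scale.  `mon_post` with `Y = 10/k`, `W = 2` at `(ρ, z)`, window `ρ' = ρ - Cd ℓ - 1`.  If `τ₀ < -e`: box `[z + Ch ℓ, z + Ch ℓ + √ρ]`; if `τ₀ > e`: box
`[c₁ √ρ/4, c₁ √ρ/2]`.  `nw_low`: both have mass `≥ c ρ^(-1/2)`.
-/

set_option autoImplicit false

namespace Crest.Agent.R335

open MeasureTheory Set Filter Topology
open scoped Gradient RealInnerProductSpace ENNReal ContDiff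
open Crest.MathPhysics.ThreeBody

variable {k b L C c e1 e2 : ℝ} {R d V0 S v φ u ψ : E3 → ℝ} {GR Gd Gφ Gu Gψ : E3 → E3}

theorem gm1_box (h : Red k b L C c R GR d Gd V0 S v e1 e2 φ Gφ u Gu ψ Gψ) {ν c₁ C₁ : ℝ} (hN : NB k b u ψ ν)
    (hc₁ : 0 < c₁) : ∃ C' L' : ℝ, 0 ≤ C' ∧ ∀ ρ ρ' z₁ t, L' ≤ ρ → ρ / 2 ≤ ρ' → ρ' ≤ ρ → c₁ * √ρ / 4 ≤ z₁ →
      z₁ + c₁ * √ρ / 4 ≤ 2 * C₁ * √ρ → 0 ≤ t →
      (∀ r z, ρ' ≤ r → r ≤ ρ' + 1 → z₁ ≤ z → z ≤ z₁ + c₁ * √ρ / 4 → t ≤ |tau u ψ r z|) → t ≤ C' * ρ ^ (-ν) := by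
  have hk := h.tail.kpos
  obtain ⟨c', L₂, hc', hL₂, hw⟩ := nw_low h
  obtain ⟨L₃, hL₃⟩ := hN
  obtain ⟨M, hM, hcmp⟩ := rpow_cmp (-ν)
  have ev : ∀ᶠ ρ : ℝ in atTop, 2 * L₂ ≤ ρ ∧ 2 * L₃ ≤ ρ ∧ 8 / c₁ ≤ √ρ ∧ k * C₁ ^ 2 ≤ Real.log ρ := by
    filter_upwards [eventually_ge_atTop (2 * L₂), eventually_ge_atTop (2 * L₃),
      Real.tendsto_sqrt_atTop.eventually_ge_atTop (8 / c₁),
      Real.tendsto_log_atTop.eventually_ge_atTop (k * C₁ ^ 2)] with ρ a1 a2 a3 a4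
    exact ⟨a1, a2, a3, a4⟩
  obtain ⟨L', hL'⟩ := eventually_atTop.1 ev
  set E := Real.exp (-(4 * k * C₁ ^ 2)) with hE
  have hE0 : 0 < E := Real.exp_pos _
  have hq : 0 < c' * (c₁ ^ 2 / 16 * E) := by positivity
  refine ⟨M / (c' * (c₁ ^ 2 / 16 * E)), L', by positivity, fun ρ ρ' z₁ t hρ h1 h2 h3 h4 ht hb => ?_⟩
  obtain ⟨a1, a2, a3, a4⟩ := hL' ρ hρ
  have hρ6 : 6 ≤ ρ := by linarith
  have hρ' : 3 ≤ ρ' := by linarith
  have hρ'0 : 0 < ρ' := by linarith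
  set s := √ρ with hs
  have hs0 : 0 < s := Real.sqrt_pos.2 (by linarith)
  have hss : s ^ 2 = ρ := Real.sq_sqrt (by linarith)
  have b1 : 8 ≤ c₁ * s := by
    rw [div_le_iff₀ hc₁] at a3
    linarith
  have hz₁ : 0 < z₁ := by linarith
  have b2 : 2 * lam ρ' ≤ z₁ := by
    have := lam_le_one (ρ := ρ') (by linarith)
    linarith
  have b3 : (z₁ + c₁ * s / 4) ^ 2 ≤ 4 * C₁ ^ 2 * ρ := by
    have := pow_le_pow_left₀ (by linarith) h4 2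
    rw [← hss]
    linarith
  have b4 : Real.log ρ ≤ 2 * Real.log ρ' := by
    rw [show 2 * Real.log ρ' = Real.log (ρ' ^ 2) by rw [Real.log_pow]; norm_num]
    exact Real.log_le_log (by linarith) (by nlinarith)
  have b5 : (z₁ + c₁ * s / 4) ^ 2 ≤ 1000 / k * ρ' * Real.log ρ' := by
    have l0 : 0 ≤ Real.log ρ' := Real.log_nonneg (by linarith)
    have c1 : C₁ ^ 2 ≤ 2 * Real.log ρ' / k := by
      rw [le_div_iff₀ hk]
      linarith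
    have c2 : 4 * C₁ ^ 2 * ρ ≤ 4 * (2 * Real.log ρ' / k) * (2 * ρ') :=
      mul_le_mul (by linarith) (by linarith) (by linarith) (by positivity)
    have c3 : 0 ≤ ρ' * Real.log ρ' / k := by positivity
    have c4 : 4 * (2 * Real.log ρ' / k) * (2 * ρ') = 16 * (ρ' * Real.log ρ' / k) := by ring
    have c5 : 1000 / k * ρ' * Real.log ρ' = 1000 * (ρ' * Real.log ρ' / k) := by ring
    linarith
  have b6 := (hw ρ' z₁ (z₁ + c₁ * s / 4) t (by linarith) b2 (by linarith) b5 ht hb).trans (hL₃ ρ' (by linarith))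
  have b7 : E ≤ Real.exp (-(k * (z₁ + c₁ * s / 4) ^ 2 / (2 * ρ'))) := by
    refine Real.exp_le_exp.2 (neg_le_neg ?_)
    rw [div_le_iff₀ (by linarith)]
    have c1 : 4 * C₁ ^ 2 * ρ ≤ 4 * C₁ ^ 2 * (2 * ρ') := mul_le_mul_of_nonneg_left (by linarith) (by positivity)
    have c2 := mul_le_mul_of_nonneg_left (b3.trans c1) hk.le
    linarith
  have b8 : c₁ ^ 2 / 16 * ρ' ≤ z₁ * (z₁ + c₁ * s / 4 - z₁) := by
    have c1 : c₁ * s / 4 * (c₁ * s / 4) ≤ z₁ * (c₁ * s / 4) := mul_le_mul_of_nonneg_right h3 (by positivity)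
    have c2 : c₁ ^ 2 / 16 * ρ' ≤ c₁ ^ 2 / 16 * ρ := mul_le_mul_of_nonneg_left h2 (by positivity)
    have c3 : c₁ * s / 4 * (c₁ * s / 4) = c₁ ^ 2 / 16 * ρ := by rw [← hss]; ring
    rw [add_sub_cancel_left]
    linarith
  have b9 : c₁ ^ 2 / 16 * ρ' * E ≤
      z₁ * (z₁ + c₁ * s / 4 - z₁) * Real.exp (-(k * (z₁ + c₁ * s / 4) ^ 2 / (2 * ρ'))) :=
    mul_le_mul b8 b7 hE0.le (le_trans (by positivity) b8)
  have p1 : 0 < ρ' ^ (-3 / 2 : ℝ) := Real.rpow_pos_of_pos hρ'0 _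
  have b10 := (mul_le_mul_of_nonneg_left b9 (show 0 ≤ c' * t * ρ' ^ (-3 / 2 : ℝ) by positivity)).trans b6
  have e1 : ρ' ^ (-ν - 1 / 2) = ρ' ^ (-ν) * (ρ' ^ (-3 / 2 : ℝ) * ρ') := by
    rw [← Real.rpow_add_one hρ'0.ne', ← Real.rpow_add hρ'0]
    congr 1
    ring
  have b11 : t * (c' * (c₁ ^ 2 / 16 * E)) ≤ ρ' ^ (-ν) := by
    refine le_of_mul_le_mul_right ?_ (mul_pos p1 hρ'0)
    rw [← e1]
    refine le_trans (le_of_eq ?_) b10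
    ring
  have b12 := (hcmp ρ ρ' (by linarith) (by linarith) (by linarith)).1
  rw [div_mul_eq_mul_div, le_div_iff₀ hq]
  exact b11.trans b12

theorem pt_bound (h : Red k b L C c R GR d Gd V0 S v e1 e2 φ Gφ u Gu ψ Gψ) (hp : Post k b φ ψ) {ν c₁ C₁ : ℝ} (hN : NB k b u ψ ν) (h0 : 0 ≤ ν) (h1 : ν ≤ 12) (hc₁ : 0 < c₁) :
    ∃ C' L' : ℝ, 0 ≤ C' ∧ ∀ ρ z, L' ≤ ρ → c₁ * √ρ ≤ z → z ≤ C₁ * √ρ → |tau u ψ ρ z| ≤ C' * ρ ^ (-ν) := by
  have hk := h.tail.kpos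
  obtain ⟨C', L₀, hC', hbox⟩ := gm1_box (C₁ := C₁) h hN hc₁
  obtain ⟨Cd, Ch, L₁, hCd, hCh, hm⟩ := mon_post h hp (10 / k) 2
  have ev : ∀ᶠ ρ : ℝ in atTop, L₀ ≤ ρ ∧ L₁ ≤ ρ ∧ 4 ≤ ρ ∧ 8 / c₁ ≤ √ρ ∧ k * C₁ ^ 2 ≤ Real.log ρ ∧ 1 ≤ Real.log ρ ∧
      4 * Cd * Real.log ρ ≤ ρ ∧ 2 * Ch / c₁ * Real.log ρ ≤ √ρ ∧ c₁⁻¹ * ρ ^ (1 / 4 : ℝ) ≤ √ρ := by
    filter_upwards [eventually_ge_atTop L₀, eventually_ge_atTop L₁, eventually_ge_atTop 4,
      Real.tendsto_sqrt_atTop.eventually_ge_atTop (8 / c₁),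
      Real.tendsto_log_atTop.eventually_ge_atTop (k * C₁ ^ 2), Real.tendsto_log_atTop.eventually_ge_atTop 1,
      ev_log (a := 0) (a' := 1) (by norm_num) (4 * Cd) 1, ev_log (a := 0) (a' := 1 / 2) (by norm_num) (2 * Ch / c₁) 1,
      ev_pow (a := 1 / 4) (a' := 1 / 2) (by norm_num) c₁⁻¹] with ρ a1 a2 a3 a4 a5 a6 a7 a8 a9
    rw [Real.rpow_zero, pow_one, mul_one] at a7 a8
    rw [Real.rpow_one] at a7
    rw [← Real.sqrt_eq_rpow] at a8 a9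
    exact ⟨a1, a2, a3, a4, a5, a6, a7, a8, a9⟩
  obtain ⟨L', hL'⟩ := eventually_atTop.1 ev
  refine ⟨C' + 1, L', by linarith, fun ρ z hρ hz1 hz2 => ?_⟩
  obtain ⟨a1, a2, a3, a4, a5, a6, a7, a8, a9⟩ := hL' ρ hρ
  have hbx := fun z₁ t => hbox ρ (ρ - Cd * Real.log ρ - 1) z₁ t a1
  set s := √ρ with hs
  set l := Real.log ρ with hl
  have hs0 : 0 < s := Real.sqrt_pos.2 (by linarith)
  have hss : s ^ 2 = ρ := Real.sq_sqrt (by linarith)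
  have b1 : 8 ≤ c₁ * s := by
    rw [div_le_iff₀ hc₁] at a4
    linarith
  have b2 : 2 * (Ch * l) ≤ c₁ * s := by
    rw [div_mul_eq_mul_div, div_le_iff₀ hc₁] at a8
    linarith
  have b3 : ρ ^ (1 / 4 : ℝ) ≤ z := by
    rw [inv_mul_le_iff₀ hc₁] at a9
    linarith
  have b4 : 0 ≤ Ch * l := mul_nonneg (by linarith) (by linarith)
  have b5 : 0 ≤ Cd * l := mul_nonneg (by linarith) (by linarith)
  have b6 : (C₁ * s) ^ 2 ≤ 10 / k * ρ * l := by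
    have c1 : C₁ ^ 2 ≤ l / k := by
      rw [le_div_iff₀ hk]
      linarith
    have c2 : C₁ ^ 2 * ρ ≤ l / k * ρ := mul_le_mul_of_nonneg_right c1 (by linarith)
    have c3 : 0 ≤ l / k * ρ := mul_nonneg (div_nonneg (by linarith) hk.le) (by linarith)
    have c4 : 10 / k * ρ * l = 10 * (l / k * ρ) := by ring
    rw [mul_pow, hss]
    linarith
  have b7 : z ^ 2 ≤ 10 / k * ρ * l := (pow_le_pow_left₀ (by linarith) hz2 2).trans b6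
  have hmm := hm ρ z a2 b3 b7
  have he : ρ ^ (-12 : ℝ) ≤ ρ ^ (-ν) := Real.rpow_le_rpow_of_exponent_le (by linarith) (by linarith)
  have he0 : 0 < ρ ^ (-12 : ℝ) := Real.rpow_pos_of_pos (by linarith) _
  have hC0 : 0 ≤ C' * ρ ^ (-ν) := mul_nonneg hC' (by linarith)
  have hlam := lam_le_one (ρ := ρ) (by linarith)
  rw [abs_le]
  constructor
  · by_contra hcon
    push Not at hcon
    have := hbx (z + Ch * l) (-tau u ψ ρ z - ρ ^ (-12 : ℝ)) (by linarith) (by linarith) (by linarith) (by linarith)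
      (by linarith) fun r y h1 h2 h3 h4 => by
        have c1 : y ^ 2 ≤ (2 * (C₁ * s)) ^ 2 := pow_le_pow_left₀ (by linarith) (by linarith) 2
        have c2 := (hmm r y (by linarith) (by linarith)).1 h3 (by linarith)
        linarith [neg_le_abs (tau u ψ r y)]
    linarith
  · by_contra hcon
    push Not at hcon
    have := hbx (c₁ * s / 4) (tau u ψ ρ z - ρ ^ (-12 : ℝ)) (by linarith) (by linarith) le_rfl (by linarith)
      (by linarith) fun r y h1 h2 h3 h4 => by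
        have c2 := (hmm r y (by linarith) (by linarith)).2 (by linarith) (by linarith)
        linarith [le_abs_self (tau u ψ r y)]
    linarith

end Crest.Agent.R335
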