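import Crest.Agent.R335.Gm2a

/-!
# R335/Gm2: Chebyshev's trick.
`cheb_abs`: off `Z`, `P₀ |a - a₀| ≤ |(a - a₀) p| ≤ -(a - a₀) p + 2 e |p|`; `-∫_{Zᶜ} (a - a₀) p w = -∫ a p w + ∫_Z (a - a₀) p w`; `|a₀| ∫ w ≤ |∫ a w| + ∫ |a - a₀| w`.
`cheb_J`: `M₀ = ∫ w`, `M₂ = ∫ (k z² - (cyl - ρ₀)) w`, `w = R₂ Gz θ(cyl - ρ₀)` on `Om`; `z₀ = √(M₂/(k M₀))`.  `mass_up`; `mass_low` on `box (ρ₀ + 1) (ρ₀ + 2) √ρ₀ (2 √ρ₀)` gives `M₀ ≥ c ρ₀^(-1/2)` and
`∫ z² w ≥ c ρ₀^(1/2)`; `0 ≤ cyl - ρ₀ ≤ 3`.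
-/

set_option autoImplicit false

namespace Crest.Agent.R335

open MeasureTheory Set Filter Topology
open scoped Gradient RealInnerProductSpace ENNReal ContDiff
open Crest.MathPhysics.ThreeBody

variable {k b L C c e1 e2 : ℝ} {R d V0 S v φ u ψ : E3 → ℝ} {GR Gd Gφ Gu Gψ : E3 → E3}

theorem gm2_alg {k M c ρ s I0 I1 I2 J : ℝ} (hk : 0 < k) (hM : 0 < M) (hc : 0 < c) (hs : 0 < s) (hρ : ρ = s ^ 2)
    (hL : 6 * M / (k * c) ≤ ρ) (hJ : c * s⁻¹ ≤ J) (h0 : J ≤ I0) (h2 : ρ * J ≤ I2) (u0 : I0 ≤ M * s⁻¹) (u2 : I2 ≤ M * s)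
    (l1 : 0 ≤ I1) (u1 : I1 ≤ 3 * I0) :
    ∃ z₀, √(c / (2 * M)) * s ≤ z₀ ∧ z₀ ≤ (√(c / (2 * M)) + √(M / c)) * s ∧ k * I2 - I1 - k * z₀ ^ 2 * I0 = 0 := by
  have hJ0 : 0 < J := lt_of_lt_of_le (by positivity) hJ
  have hI0 : 0 < I0 := hJ0.trans_le h0
  have a1 : c ≤ J * s := by
    have := mul_le_mul_of_nonneg_right hJ hs.le
    rwa [mul_assoc, inv_mul_cancel₀ hs.ne', mul_one] at this
  have a2 : I0 * s ≤ M := by
    have := mul_le_mul_of_nonneg_right u0 hs.le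
    rwa [mul_assoc, inv_mul_cancel₀ hs.ne', mul_one] at this
  have a3 : 6 * M ≤ ρ * (k * c) := (div_le_iff₀ (by positivity)).1 hL
  have low : c / (2 * M) * s ^ 2 ≤ (k * I2 - I1) / (k * I0) := by
    rw [div_mul_eq_mul_div, div_le_div_iff₀ (by positivity) (by positivity), ← hρ]
    have hρ0 : 0 < ρ := by rw [hρ]; positivity
    have b1 : c * I0 ≤ M * J := by
      have : c * I0 * s ≤ M * J * s := by
        calc c * I0 * s = c * (I0 * s) := by ring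
          _ ≤ c * M := mul_le_mul_of_nonneg_left a2 hc.le
          _ ≤ J * s * M := mul_le_mul_of_nonneg_right a1 hM.le
          _ = M * J * s := by ring
      exact le_of_mul_le_mul_right this hs
    have b2 : k * ρ * (c * I0) ≤ k * ρ * (M * J) := mul_le_mul_of_nonneg_left b1 (by positivity)
    have b3 : k * M * (ρ * J) ≤ k * M * I2 := mul_le_mul_of_nonneg_left h2 (by positivity)
    have b4 : 6 * M * I0 ≤ ρ * (k * c) * I0 := mul_le_mul_of_nonneg_right a3 hI0.le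
    have b5 : M * I1 ≤ M * (3 * I0) := mul_le_mul_of_nonneg_left u1 hM.le
    nlinarith
  have up : (k * I2 - I1) / (k * I0) ≤ M / c * s ^ 2 := by
    rw [div_mul_eq_mul_div, div_le_div_iff₀ (by positivity) hc]
    have b1 : c ≤ I0 * s := a1.trans (mul_le_mul_of_nonneg_right h0 hs.le)
    have b2 : k * I2 * c ≤ k * (M * s) * c := by gcongr
    have b3 : k * (M * s) * c ≤ k * (M * s) * (I0 * s) := by gcongr
    nlinarith [mul_nonneg l1 hc.le]
  have hn : 0 ≤ (k * I2 - I1) / (k * I0) := le_trans (by positivity) low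
  refine ⟨√((k * I2 - I1) / (k * I0)), ?_, ?_, ?_⟩
  · have := Real.sqrt_le_sqrt low
    rwa [Real.sqrt_mul (by positivity), Real.sqrt_sq hs.le] at this
  · have := Real.sqrt_le_sqrt up
    rw [Real.sqrt_mul (by positivity), Real.sqrt_sq hs.le] at this
    have h3 : 0 ≤ √(c / (2 * M)) * s := by positivity
    linarith
  · rw [Real.sq_sqrt hn]
    field_simp
    ring

theorem gm2_low {k c ρ s : ℝ} (hk : 0 < k) (hc : 0 < c) (hs : 1 ≤ s) (hρ : ρ = s ^ 2) :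
    c / 8 * Real.exp (-(2 * k)) * s⁻¹ ≤
      c * (ρ + 1) ^ (-3 / 2 : ℝ) * (s * (2 * s - s) * Real.exp (-(k * (2 * s) ^ 2 / (2 * (ρ + 1))))) := by
  have hs0 : 0 < s := by linarith
  have hρ1 : 1 ≤ ρ := by rw [hρ]; nlinarith
  have e1 : ((2 * s) ^ 3)⁻¹ ≤ (ρ + 1) ^ (-3 / 2 : ℝ) := by
    have h1 : ((2 * s) ^ 2) ^ (-3 / 2 : ℝ) ≤ (ρ + 1) ^ (-3 / 2 : ℝ) :=
      Real.rpow_le_rpow_of_nonpos (by linarith) (by nlinarith) (by norm_num)
    refine le_trans (le_of_eq ?_) h1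
    rw [← Real.rpow_natCast (2 * s) 2, ← Real.rpow_mul (by positivity), ← Real.rpow_natCast (2 * s) 3,
      ← Real.rpow_neg (by positivity)]
    norm_num
  have e2 : Real.exp (-(2 * k)) ≤ Real.exp (-(k * (2 * s) ^ 2 / (2 * (ρ + 1)))) := by
    refine Real.exp_le_exp.2 (neg_le_neg ?_)
    rw [div_le_iff₀ (by positivity)]
    nlinarith
  calc c / 8 * Real.exp (-(2 * k)) * s⁻¹ = c * ((2 * s) ^ 3)⁻¹ * (s * (2 * s - s) * Real.exp (-(2 * k))) := by
        field_simp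
        ring
    _ ≤ _ := by
        have : 0 ≤ s * (2 * s - s) := by nlinarith
        gcongr

theorem cheb_J (h : Red k b L C c R GR d Gd V0 S v e1 e2 φ Gφ u Gu ψ Gψ) {θ : ℝ → ℝ} (hθ : Win k b θ) : ∃ c₁ C₁ L' : ℝ, 0 < c₁ ∧ c₁ ≤ C₁ ∧ ∀ ρ₀, L' ≤ ρ₀ → ∃ z₀, c₁ * √ρ₀ ≤ z₀ ∧
    z₀ ≤ C₁ * √ρ₀ ∧ ∫ x in Om k, (ptwo k x - (k * z₀ ^ 2 - ρ₀)) * (Rtwo u ψ x * (Gz k b (cyl x) * θ (cyl x - ρ₀))) = 0 := by
  have hk : 0 < k := h.tail.kpos
  obtain ⟨M, L1, hM, hL1, hup⟩ := mass_up h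
  obtain ⟨c', L2, hc', hL2, hlow⟩ := mass_low h
  obtain ⟨L3, hL3, hint⟩ := int_window hk b
  obtain ⟨L4, hL4, hsm⟩ := Om_small hk
  set c₀ := c' / 8 * Real.exp (-(2 * k)) with hc₀
  have hc0 : 0 < c₀ := by positivity
  have hM0 : 0 < M := by linarith
  refine ⟨√(c₀ / (2 * M)), √(c₀ / (2 * M)) + √(M / c₀), L1 + L2 + L3 + L4 + Real.exp k + 6 * M / (k * c₀),
    by positivity, by linarith [Real.sqrt_nonneg (M / c₀)], fun ρ hρ => ?_⟩
  have hek := Real.exp_pos k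
  have hq : 0 < 6 * M / (k * c₀) := by positivity
  have hρ0 : 0 < ρ := by linarith
  set s := √ρ with hsdef
  have hs2 : ρ = s ^ 2 := (Real.sq_sqrt hρ0.le).symm
  have hs3 : 2 ≤ s := Real.le_sqrt_of_sq_le (by linarith)
  have hs0 : 0 < s := by linarith
  have hOm := measurableSet_Om k
  have hθc : Continuous fun x : E3 => θ (cyl x - ρ) := hθ.cont.comp (continuous_cyl.sub continuous_const)
  have hθ0 : ∀ x : E3, x ∉ shell ρ (ρ + 3) → θ (cyl x - ρ) = 0 := by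
    intro x hx
    refine hθ.zero _ ?_
    by_contra hcon
    push Not at hcon
    exact hx ⟨by linarith [hcon.1], by linarith [hcon.2]⟩
  have hz : Continuous fun x : E3 => x 2 := by fun_prop
  have hzb : ∀ x ∈ Om k, x ∈ shell ρ (ρ + 3) → x 2 ^ 2 ≤ (ρ + 3) ^ 2 := by
    intro x hx hx'
    have := hsm x hx (by linarith [hx'.1])
    have h2 := hx'.2
    exact pow_le_pow_left₀ this.1.le (by linarith [this.2]) 2
  have hG : ∀ x : E3, x ∈ shell ρ (ρ + 3) → 0 < Gz k b (cyl x) := fun x hx => Gz_pos k b (by linarith [hx.1])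
  have hR : ∀ x : E3, 0 ≤ Rtwo u ψ x := fun x => Real.sqrt_nonneg _
  have habs : ∀ t, |θ t| ≤ 1 := fun t => by rw [abs_of_nonneg (hθ.nn t)]; exact hθ.le t
  have i0 : IntegrableOn (fun x => Rtwo u ψ x * (θ (cyl x - ρ) * Gz k b (cyl x))) (Om k) :=
    hint _ _ _ ρ (ρ + 3) 1 (by linarith) h.memLp_Rtwo hθc.aestronglyMeasurable hOm subset_rfl
      (fun x _ _ => habs _) fun x _ hx => hθ0 x hx
  have i1 : IntegrableOn (fun x => Rtwo u ψ x * ((cyl x - ρ) * θ (cyl x - ρ) * Gz k b (cyl x))) (Om k) :=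
    hint _ (fun x => (cyl x - ρ) * θ (cyl x - ρ)) _ ρ (ρ + 3) 3 (by linarith) h.memLp_Rtwo
      ((continuous_cyl.sub continuous_const).mul hθc).aestronglyMeasurable hOm subset_rfl
      (fun x _ hx => by
        rw [abs_mul, abs_of_nonneg (show 0 ≤ cyl x - ρ by linarith [hx.1])]
        have := habs (cyl x - ρ)
        have h1 := hx.1
        have h2 := hx.2
        nlinarith [abs_nonneg (θ (cyl x - ρ))]) fun x _ hx => by rw [hθ0 x hx, mul_zero]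
  have i2 : IntegrableOn (fun x => Rtwo u ψ x * (x 2 ^ 2 * θ (cyl x - ρ) * Gz k b (cyl x))) (Om k) :=
    hint _ (fun x => x 2 ^ 2 * θ (cyl x - ρ)) _ ρ (ρ + 3) ((ρ + 3) ^ 2) (by linarith) h.memLp_Rtwo
      ((hz.pow 2).mul hθc).aestronglyMeasurable hOm subset_rfl
      (fun x hx' hx => by
        rw [abs_mul, abs_of_nonneg (sq_nonneg (x 2))]
        have := habs (cyl x - ρ)
        have h1 := hzb x hx' hx
        nlinarith [abs_nonneg (θ (cyl x - ρ)), sq_nonneg (x 2)]) fun x _ hx => by rw [hθ0 x hx, mul_zero]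
  have hA : MeasurableSet (Om k ∩ shell ρ (ρ + 3)) := hOm.inter (measurableSet_shell _ _)
  have j0 : IntegrableOn (fun x => Rtwo u ψ x * ((1 : ℝ) * Gz k b (cyl x))) (Om k ∩ shell ρ (ρ + 3)) :=
    hint _ (fun _ => 1) _ ρ (ρ + 3) 1 (by linarith) h.memLp_Rtwo aestronglyMeasurable_const hA inter_subset_left
      (fun x _ _ => by simp) fun x hx hx' => absurd hx.2 hx'
  have j2 : IntegrableOn (fun x => Rtwo u ψ x * (x 2 ^ 2 * Gz k b (cyl x))) (Om k ∩ shell ρ (ρ + 3)) :=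
    hint _ (fun x => x 2 ^ 2) _ ρ (ρ + 3) ((ρ + 3) ^ 2) (by linarith) h.memLp_Rtwo
      (hz.pow 2).aestronglyMeasurable hA inter_subset_left
      (fun x hx _ => by rw [abs_of_nonneg (sq_nonneg (x 2))]; exact hzb x hx.1 hx.2) fun x hx hx' => absurd hx.2 hx'
  simp only [one_mul] at j0
  have nn : ∀ x : E3, 0 ≤ θ (cyl x - ρ) * Gz k b (cyl x) := by
    intro x
    by_cases hx : x ∈ shell ρ (ρ + 3)
    · exact mul_nonneg (hθ.nn _) (hG x hx).le
    · rw [hθ0 x hx, zero_mul]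
  -- restriction to the shell
  have res : ∀ F : E3 → ℝ, (∀ x, x ∉ shell ρ (ρ + 3) → F x = 0) →
      ∫ x in Om k, F x = ∫ x in Om k ∩ shell ρ (ρ + 3), F x := fun F hF =>
    setIntegral_eq_of_subset_of_forall_sdiff_eq_zero hOm inter_subset_left fun x hx =>
      hF x fun hs => hx.2 ⟨hx.1, hs⟩
  obtain ⟨up0, up2, -⟩ := hup ρ (by linarith)
  have r1 : ρ ^ (-1 / 2 : ℝ) = s⁻¹ := by
    rw [hsdef, Real.sqrt_eq_rpow, ← Real.rpow_neg hρ0.le]
    norm_num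
  have r2 : ρ ^ (1 / 2 : ℝ) = s := by rw [hsdef, Real.sqrt_eq_rpow]
  rw [r1] at up0
  rw [r2] at up2
  have u0 : ∫ x in Om k, Rtwo u ψ x * (θ (cyl x - ρ) * Gz k b (cyl x)) ≤ M * s⁻¹ := by
    rw [res _ fun x hx => by rw [hθ0 x hx]; simp]
    refine le_trans (setIntegral_mono_on (i0.mono_set inter_subset_left) j0 hA fun x hx => ?_) up0
    exact mul_le_mul_of_nonneg_left (mul_le_of_le_one_left (hG x hx.2).le (hθ.le _)) (hR x)
  have u2 : ∫ x in Om k, Rtwo u ψ x * (x 2 ^ 2 * θ (cyl x - ρ) * Gz k b (cyl x)) ≤ M * s := by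
    rw [res _ fun x hx => by rw [hθ0 x hx]; simp]
    refine le_trans (setIntegral_mono_on (i2.mono_set inter_subset_left) j2 hA fun x hx => ?_) up2
    exact mul_le_mul_of_nonneg_left (mul_le_mul_of_nonneg_right
      (mul_le_of_le_one_right (sq_nonneg _) (hθ.le _)) (hG x hx.2).le) (hR x)
  have l1 : 0 ≤ ∫ x in Om k, Rtwo u ψ x * ((cyl x - ρ) * θ (cyl x - ρ) * Gz k b (cyl x)) := by
    refine setIntegral_nonneg hOm fun x _ => mul_nonneg (hR x) ?_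
    by_cases hx : x ∈ shell ρ (ρ + 3)
    · rw [mul_assoc]
      exact mul_nonneg (by linarith [hx.1]) (nn x)
    · rw [hθ0 x hx]
      simp
  have u1 : ∫ x in Om k, Rtwo u ψ x * ((cyl x - ρ) * θ (cyl x - ρ) * Gz k b (cyl x)) ≤
      3 * ∫ x in Om k, Rtwo u ψ x * (θ (cyl x - ρ) * Gz k b (cyl x)) := by
    rw [← integral_const_mul]
    refine setIntegral_mono_on i1 (i0.const_mul 3) hOm fun x _ => ?_
    by_cases hx : x ∈ shell ρ (ρ + 3)
    · have h1 := mul_nonneg (hR x) (nn x)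
      have h2 : cyl x - ρ ≤ 3 := by linarith [hx.2]
      nlinarith
    · rw [hθ0 x hx]
      simp
  -- lower bounds
  have hlam : 2 * lam (ρ + 1) ≤ s := by
    have : lam (ρ + 1) ≤ 1 := Real.rpow_le_one_of_one_le_of_nonpos (by linarith) (by norm_num)
    linarith
  have hlog : (2 * s) ^ 2 ≤ 1000 / k * (ρ + 1) * Real.log (ρ + 1) := by
    have h1 : k ≤ Real.log (ρ + 1) := by
      rw [Real.le_log_iff_exp_le (by linarith)]
      linarith
    have h2 : 1000 / k * (ρ + 1) * k ≤ 1000 / k * (ρ + 1) * Real.log (ρ + 1) :=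
      mul_le_mul_of_nonneg_left h1 (by positivity)
    have h3 : 1000 / k * (ρ + 1) * k = 1000 * (ρ + 1) := by field_simp
    nlinarith
  have hJ := (gm2_low hk hc' (by linarith) hs2).trans (hlow (ρ + 1) s (2 * s) (by linarith) hlam (by linarith) hlog)
  have hsub : box (ρ + 1) (ρ + 1 + 1) s (2 * s) ⊆ Om k := box_sub_Om hk (by linarith) hlam hlog _
  have hB := measurableSet_box (ρ + 1) (ρ + 1 + 1) s (2 * s)
  have hθ1 : ∀ x ∈ box (ρ + 1) (ρ + 1 + 1) s (2 * s), θ (cyl x - ρ) = 1 := fun x hx =>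
    hθ.one _ (by linarith [hx.1]) (by linarith [hx.2.1])
  have e0 : ∫ x in box (ρ + 1) (ρ + 1 + 1) s (2 * s), Rtwo u ψ x * Gz k b (cyl x) =
      ∫ x in box (ρ + 1) (ρ + 1 + 1) s (2 * s), Rtwo u ψ x * (θ (cyl x - ρ) * Gz k b (cyl x)) :=
    setIntegral_congr_fun hB fun x hx => by simp only [hθ1 x hx, one_mul]
  have l0 : ∫ x in box (ρ + 1) (ρ + 1 + 1) s (2 * s), Rtwo u ψ x * Gz k b (cyl x) ≤
      ∫ x in Om k, Rtwo u ψ x * (θ (cyl x - ρ) * Gz k b (cyl x)) := by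
    rw [e0]
    exact setIntegral_mono_set i0 (Eventually.of_forall fun x => mul_nonneg (hR x) (nn x)) hsub.eventuallyLE
  have l2 : ρ * ∫ x in box (ρ + 1) (ρ + 1 + 1) s (2 * s), Rtwo u ψ x * Gz k b (cyl x) ≤
      ∫ x in Om k, Rtwo u ψ x * (x 2 ^ 2 * θ (cyl x - ρ) * Gz k b (cyl x)) := by
    rw [e0, ← integral_const_mul]
    refine le_trans (setIntegral_mono_on ((i0.mono_set hsub).const_mul ρ) (i2.mono_set hsub) hB fun x hx => ?_)
      (setIntegral_mono_set i2 (Eventually.of_forall fun x => mul_nonneg (hR x) ?_) hsub.eventuallyLE)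
    · have h1 := mul_nonneg (hR x) (nn x)
      have h2 : ρ ≤ x 2 ^ 2 := by
        rw [hs2]
        exact pow_le_pow_left₀ hs0.le hx.2.2.1 2
      nlinarith
    · rw [mul_assoc]
      exact mul_nonneg (sq_nonneg _) (nn x)
  obtain ⟨z₀, a1, a2, a3⟩ := gm2_alg hk hM0 hc0 hs0 hs2 (by linarith) hJ l0 l2 u0 u2 l1 u1
  refine ⟨z₀, a1, a2, ?_⟩
  have i3 : IntegrableOn (fun x => k * (Rtwo u ψ x * (x 2 ^ 2 * θ (cyl x - ρ) * Gz k b (cyl x))) -
      Rtwo u ψ x * ((cyl x - ρ) * θ (cyl x - ρ) * Gz k b (cyl x))) (Om k) := (i2.const_mul k).sub i1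
  rw [← a3, ← integral_const_mul, ← integral_const_mul, ← integral_sub (i2.const_mul k) i1,
    ← integral_sub i3 (i0.const_mul _)]
  refine integral_congr_ae (Eventually.of_forall fun x => ?_)
  simp only [ptwo]
  ring

end Crest.Agent.R335
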