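import Crest.Agent.R335.Gl2

/-!
# R335/Gm2: Chebyshev's trick.
`cheb_abs`: off `Z`, `P₀ |a - a₀| ≤ |(a - a₀) p| ≤ -(a - a₀) p + 2 e |p|`; `-∫_{Zᶜ} (a - a₀) p w = -∫ a p w + ∫_Z (a - a₀) p w`; `|a₀| ∫ w ≤ |∫ a w| + ∫ |a - a₀| w`.
`cheb_J`: `M₀ = ∫ w`, `M₂ = ∫ (k z² - (cyl - ρ₀)) w`, `w = R₂ Gz θ(cyl - ρ₀)` on `Om`; `z₀ = √(M₂/(k M₀))`.  `mass_up`; `mass_low` on `box (ρ₀ + 1) (ρ₀ + 2) √ρ₀ (2 √ρ₀)` gives `M₀ ≥ c ρ₀^(-1/2)` and
`∫ z² w ≥ c ρ₀^(1/2)`; `0 ≤ cyl - ρ₀ ≤ 3`.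
-/

set_option autoImplicit false

namespace Crest.Agent.R335

open MeasureTheory Set Filter Topology
open scoped Gradient RealInnerProductSpace ENNReal ContDiff
open Crest.MathPhysics.ThreeBody

variable {k b L C c e1 e2 : ℝ} {R d V0 S v φ u ψ : E3 → ℝ} {GR Gd Gφ Gu Gψ : E3 → E3}

theorem cheb_abs {X : Type} [MeasurableSpace X] {μ : Measure X} {w a p : X → ℝ} {Z : Set X} (hZ : MeasurableSet Z)
    {a₀ e P₀ P₁ B : ℝ} (he : 0 ≤ e) (hP : 0 < P₀) (hw : ∀ᵐ x ∂μ, 0 ≤ w x) (i1 : Integrable w μ)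
    (i2 : Integrable (fun x => a x * w x) μ) (i3 : Integrable (fun x => p x * w x) μ)
    (i4 : Integrable (fun x => a x * (p x * w x)) μ) (h0 : ∫ x, p x * w x ∂μ = 0)
    (h1 : ∀ᵐ x ∂μ, w x ≠ 0 → x ∉ Z → (a x - a₀) * p x ≤ e * |p x| ∧ P₀ ≤ |p x|)
    (h2 : ∀ᵐ x ∂μ, w x ≠ 0 → x ∈ Z → |a x - a₀| ≤ B ∧ |p x| ≤ P₁) :
    ∫ x, |a x| * w x ∂μ ≤ |∫ x, a x * w x ∂μ| +
      2 * ((|∫ x, a x * (p x * w x) ∂μ| + B * P₁ * (∫ x in Z, w x ∂μ) + 2 * e * ∫ x, |p x| * w x ∂μ) / P₀ +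
        B * ∫ x in Z, w x ∂μ) := by
  have j1 : Integrable (fun x => a x * w x - a₀ * w x) μ := i2.sub (i1.const_mul a₀)
  have e3 : ∫ x, |p x| * w x ∂μ = ∫ x, |p x * w x| ∂μ := by
    refine integral_congr_ae ?_
    filter_upwards [hw] with x hx
    rw [abs_mul, abs_of_nonneg hx]
  have k1 : P₀ * ∫ x, |a x * w x - a₀ * w x| ∂μ ≤ -(∫ x, a x * (p x * w x) ∂μ) + 2 * e * (∫ x, |p x * w x| ∂μ) +
      (B * P₁ + P₀ * B) * ∫ x in Z, w x ∂μ := by
    have a1 : Integrable (fun x => a₀ * (p x * w x) - a x * (p x * w x)) μ := (i3.const_mul a₀).sub i4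
    have a2 : Integrable (fun x => 2 * e * |p x * w x|) μ := i3.abs.const_mul _
    have a3 : Integrable (fun x => (B * P₁ + P₀ * B) * Z.indicator w x) μ := (i1.indicator hZ).const_mul _
    have a4 : Integrable (fun x => a₀ * (p x * w x) - a x * (p x * w x) + 2 * e * |p x * w x|) μ := a1.add a2
    have a5 := integral_mono_ae (j1.abs.const_mul P₀) (a4.add a3) (by
      filter_upwards [hw, h1, h2] with x hx b1 b2
      simp only [Pi.add_apply]
      rcases hx.eq_or_lt with h3 | h3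
      · have h4 : Z.indicator w x = 0 := indicator_apply_eq_zero.2 fun _ => h3.symm
        simp [← h3, h4]
      rw [← sub_mul, abs_mul, abs_mul, abs_of_pos h3]
      by_cases hz : x ∈ Z
      · obtain ⟨c1, c2⟩ := b2 h3.ne' hz
        have c3 : (a x - a₀) * p x ≤ B * P₁ := (le_abs_self _).trans
          (abs_mul (a x - a₀) (p x) ▸ mul_le_mul c1 c2 (abs_nonneg _) ((abs_nonneg _).trans c1))
        have c4 : P₀ * |a x - a₀| ≤ -((a x - a₀) * p x) + 2 * e * |p x| + (B * P₁ + P₀ * B) := by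
          linarith [mul_le_mul_of_nonneg_left c1 hP.le, mul_nonneg he (abs_nonneg (p x))]
        rw [indicator_of_mem hz]
        linarith [mul_le_mul_of_nonneg_right c4 h3.le]
      · obtain ⟨c1, c2⟩ := b1 h3.ne' hz
        have c3 : |(a x - a₀) * p x| ≤ -((a x - a₀) * p x) + 2 * e * |p x| :=
          abs_le.2 ⟨by linarith [mul_nonneg he (abs_nonneg (p x))], by linarith⟩
        have c4 : P₀ * |a x - a₀| ≤ -((a x - a₀) * p x) + 2 * e * |p x| := by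
          rw [abs_mul] at c3
          linarith [mul_le_mul_of_nonneg_left c2 (abs_nonneg (a x - a₀))]
        rw [indicator_of_notMem hz]
        linarith [mul_le_mul_of_nonneg_right c4 h3.le])
    rw [integral_const_mul, integral_add' a4 a3, integral_add a1 a2, integral_sub (i3.const_mul a₀) i4,
      integral_const_mul, integral_const_mul, integral_const_mul, h0, integral_indicator hZ] at a5
    linarith
  have k2 : ∫ x, |a x| * w x ∂μ ≤ |a₀| * (∫ x, w x ∂μ) + ∫ x, |a x * w x - a₀ * w x| ∂μ := by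
    rw [← integral_const_mul, ← integral_add (i1.const_mul _) j1.abs]
    refine integral_mono_of_nonneg (hw.mono fun x hx => mul_nonneg (abs_nonneg _) hx)
      ((i1.const_mul _).add j1.abs) (hw.mono fun x hx => ?_)
    have := mul_le_mul_of_nonneg_right (abs_sub_abs_le_abs_sub (a x) a₀) hx
    simp only
    rw [← sub_mul, abs_mul, abs_of_nonneg hx]
    linarith
  have k3 : |a₀| * (∫ x, w x ∂μ) ≤ |∫ x, a x * w x ∂μ| + ∫ x, |a x * w x - a₀ * w x| ∂μ := by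
    have a1 := abs_integral_le_integral_abs (μ := μ) (f := fun x => a x * w x - a₀ * w x)
    rw [integral_sub i2 (i1.const_mul a₀), integral_const_mul, abs_sub_comm] at a1
    have a2 := abs_sub_abs_le_abs_sub (a₀ * ∫ x, w x ∂μ) (∫ x, a x * w x ∂μ)
    rw [abs_mul, abs_of_nonneg (integral_nonneg_of_ae hw)] at a2
    linarith
  have k4 : ∫ x, |a x * w x - a₀ * w x| ∂μ ≤
      (|∫ x, a x * (p x * w x) ∂μ| + B * P₁ * (∫ x in Z, w x ∂μ) + 2 * e * ∫ x, |p x| * w x ∂μ) / P₀ +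
        B * ∫ x in Z, w x ∂μ := by
    rw [div_add' _ _ _ hP.ne', le_div_iff₀ hP, e3]
    linarith [neg_le_abs (∫ x, a x * (p x * w x) ∂μ)]
  linarith

end Crest.Agent.R335
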