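import Crest.Agent.R335.Gm1
import Crest.Agent.R335.Gm2

/-!
# R335/Gm3: the improvement step.
`cheb_abs` for `μ = volume.restrict (Om k)`, `w = R₂ Gz θ(cyl - ρ₀)`, `a = ang`, `p = ptwo - (k z₀² - ρ₀) = k (z² - z₀²) - (cyl - ρ₀)`, `Z = {|z - z₀| ≤ η}`, `η = ρ₀^(23/50)`,
`a₀ = arctan (τ(ρ*, z₀))`, `ρ* = ρ₀ + 4 + Cd log ρ₀`, `e = ρ*^(-12)`, `P₀ = k c₁ √ρ₀ η/2`, `P₁ = C √ρ₀ η`, `B = C ρ₀^(-ν)` (`pt_bound` with `c₁/2`, `2 C₁`).  `cheb_mono` is the hypothesis `h1`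
(`mon_post` with `Y = 1000/k`, `W = 1`: `ρ* - (Cd + 1) log ρ* ≤ ρ₀`, `ρ₀ + 3 ≤ ρ* - Cd log ρ*`, `Ch log ρ* ≤ η`; `arctan_le_add`, `Red.tau_eq`).  `∫_Z w ≤ C ρ₀^(-3/2) √ρ₀ η`, `∫ |p| w ≤ C ρ₀^(1/2)`
(`mass_up`), `∫ a p w = mom ptwo - (k z₀² - ρ₀) mom 1`.  Result `Nw (ρ₀ + 1) ≤ C ρ₀^(-1/2 - ν - 1/25)`.
-/

set_option autoImplicit false

namespace Crest.Agent.R335

open MeasureTheory Set Filter Topology
open scoped Gradient RealInnerProductSpace ENNReal ContDiff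
open Crest.MathPhysics.ThreeBody

variable {k b L C c e1 e2 : ℝ} {R d V0 S v φ u ψ : E3 → ℝ} {GR Gd Gφ Gu Gψ : E3 → E3}

theorem gm3a_b1 {Cd l ρ : ℝ} (h1 : 1 ≤ Cd) (h2 : 4 ≤ l) (h3 : 2 * Cd ^ 2 * l ≤ ρ) : Cd * (4 + Cd * l) ≤ ρ := by
  have e1 : l ≤ Cd * l := le_mul_of_one_le_left (by linarith) h1
  have e2 : Cd * 4 ≤ Cd * (Cd * l) := mul_le_mul_of_nonneg_left (by linarith) (by linarith)
  linarith

theorem cheb_mono (h : Red k b L C c R GR d Gd V0 S v e1 e2 φ Gφ u Gu ψ Gψ) (hp : Post k b φ ψ) {c₁ C₁ : ℝ} (hc₁ : 0 < c₁) : ∃ Cd L' : ℝ, 1 ≤ Cd ∧ ∀ ρ₀ z₀, L' ≤ ρ₀ →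
    c₁ * √ρ₀ ≤ z₀ → z₀ ≤ C₁ * √ρ₀ → ∀ x ∈ Om k ∩ shell ρ₀ (ρ₀ + 3), ρ₀ ^ (23 / 50 : ℝ) < |x 2 - z₀| →
      (ang u ψ x - Real.arctan (tau u ψ (ρ₀ + 4 + Cd * Real.log ρ₀) z₀)) * (ptwo k x - (k * z₀ ^ 2 - ρ₀)) ≤
          ρ₀ ^ (-12 : ℝ) * |ptwo k x - (k * z₀ ^ 2 - ρ₀)| ∧
        k * c₁ / 2 * ρ₀ ^ (24 / 25 : ℝ) ≤ |ptwo k x - (k * z₀ ^ 2 - ρ₀)| := by
  have hk : 0 < k := h.tail.kpos
  obtain ⟨Cd, Ch, L₁, hCd, hCh, H⟩ := mon_post h hp (1000 / k) 1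
  have ev : ∀ᶠ ρ : ℝ in atTop, L₁ ≤ ρ ∧ 1 ≤ ρ ∧ 4 ≤ Real.log ρ ∧ C₁ ^ 2 * k / 1000 ≤ Real.log ρ ∧
      2 / c₁ * ρ ^ (1 / 4 : ℝ) ≤ ρ ^ (1 / 2 : ℝ) ∧
      2 * Cd ^ 2 * Real.log ρ ^ 1 * ρ ^ (0 : ℝ) ≤ ρ ^ (1 : ℝ) ∧
      2 * Ch * Real.log ρ ^ 1 * ρ ^ (0 : ℝ) ≤ ρ ^ (23 / 50 : ℝ) ∧
      6 / (k * c₁) * ρ ^ (0 : ℝ) ≤ ρ ^ (24 / 25 : ℝ) :=
    (eventually_ge_atTop _).and ((eventually_ge_atTop _).and
      ((Real.tendsto_log_atTop.eventually_ge_atTop _).and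
      ((Real.tendsto_log_atTop.eventually_ge_atTop _).and
      ((ev_pow (by norm_num) _).and ((ev_log (by norm_num) _ 1).and
      ((ev_log (by norm_num) _ 1).and (ev_pow (by norm_num) _)))))))
  obtain ⟨L', hL'⟩ := eventually_atTop.1 ev
  refine ⟨Cd, L', hCd, fun ρ z₀ hρ hz1 hz2 x hx hη => ?_⟩
  obtain ⟨a1, a2, a3, a4, a5, a6, a7, a8⟩ := hL' ρ hρ
  rw [pow_one, Real.rpow_zero, mul_one] at a6 a7
  rw [Real.rpow_one] at a6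
  rw [Real.rpow_zero, mul_one, div_le_iff₀ (by positivity)] at a8
  rw [div_mul_eq_mul_div, div_le_iff₀ hc₁, ← Real.sqrt_eq_rpow] at a5
  obtain ⟨⟨o1, o2⟩, s1, s2⟩ := hx
  have hρ0 : 0 < ρ := by linarith
  set l := Real.log ρ with hl
  set r := ρ + 4 + Cd * l with hr
  have b0 : 0 ≤ Cd * l := by positivity
  have b1 : Cd * (4 + Cd * l) ≤ ρ := gm3a_b1 hCd a3 a6
  have b2 : 4 + Cd * l ≤ ρ := le_trans (le_mul_of_one_le_left (by linarith) hCd) b1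
  have b3 : ρ + 4 ≤ r := by linarith
  have hr0 : 0 < r := by linarith
  have b4 : l ≤ Real.log r := Real.log_le_log hρ0 (by linarith)
  have b5 : Cd * (Real.log r - l) ≤ 1 := by
    have e1 : Real.log r - l = Real.log (r / ρ) := by rw [Real.log_div hr0.ne' hρ0.ne']
    have e2 := Real.log_le_sub_one_of_pos (div_pos hr0 hρ0)
    have e3 : r / ρ - 1 = (4 + Cd * l) / ρ := by
      rw [hr]
      field_simp
      ring
    have e4 : Cd * ((4 + Cd * l) / ρ) ≤ 1 := by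
      rw [← mul_div_assoc, div_le_one hρ0]
      exact b1
    rw [e1]
    rw [e3] at e2
    exact le_trans (mul_le_mul_of_nonneg_left e2 (by linarith)) e4
  have b6 : Real.log r ≤ l + 1 := by
    have := le_mul_of_one_le_left (sub_nonneg.2 b4) hCd
    linarith
  have b7 : Cd * l ≤ Cd * Real.log r := mul_le_mul_of_nonneg_left b4 (by linarith)
  have hs0 : 0 < √ρ := Real.sqrt_pos.2 hρ0
  have hz0 : 0 < z₀ := lt_of_lt_of_le (by positivity) hz1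
  have hY : 0 < 1000 / k := by positivity
  have c1 : r ^ (1 / 4 : ℝ) ≤ z₀ := by
    have e1 : r ^ (1 / 4 : ℝ) ≤ (16 * ρ) ^ (1 / 4 : ℝ) :=
      Real.rpow_le_rpow hr0.le (by linarith) (by norm_num)
    have e2 : (16 : ℝ) ^ (1 / 4 : ℝ) = 2 := by
      rw [show (16 : ℝ) = 2 ^ (4 : ℝ) by norm_num, ← Real.rpow_mul (by norm_num)]
      norm_num
    rw [Real.mul_rpow (by norm_num) hρ0.le, e2] at e1
    linarith
  have c2 : z₀ ^ 2 ≤ 1000 / k * r * Real.log r := by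
    have e1 : z₀ ^ 2 ≤ (C₁ * √ρ) ^ 2 := pow_le_pow_left₀ hz0.le hz2 2
    rw [mul_pow, Real.sq_sqrt hρ0.le] at e1
    have e2 : C₁ ^ 2 ≤ 1000 / k * Real.log r := by
      rw [div_mul_eq_mul_div, le_div_iff₀ hk]
      linarith
    have e3 : C₁ ^ 2 * ρ ≤ 1000 / k * Real.log r * r :=
      mul_le_mul e2 (by linarith) hρ0.le (mul_nonneg hY.le (by linarith))
    linarith
  obtain ⟨H1, H2⟩ := H r z₀ (by linarith) c1 c2 (cyl x) (x 2) (by linarith) (by linarith)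
  have hc0 : 0 < cyl x := by linarith
  have hlam := lam_pos hc0
  have hxz : 0 < x 2 := by linarith
  have hup : x ∈ upA := ⟨hc0, hxz⟩
  have hang : ang u ψ x = Real.arctan (tau u ψ (cyl x) (x 2)) := by rw [ang, h.tau_eq hup]
  have he0 : 0 ≤ r ^ (-12 : ℝ) := Real.rpow_nonneg hr0.le _
  have he1 : r ^ (-12 : ℝ) ≤ ρ ^ (-12 : ℝ) :=
    Real.rpow_le_rpow_of_nonpos hρ0 (by linarith) (by norm_num)
  have hη0 : 0 < ρ ^ (23 / 50 : ℝ) := Real.rpow_pos_of_pos hρ0 _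
  have hη1 : Ch * Real.log r ≤ ρ ^ (23 / 50 : ℝ) := by
    have := mul_le_mul_of_nonneg_left (show Real.log r ≤ 2 * l by linarith) (show 0 ≤ Ch by linarith)
    linarith
  have hpw : ρ ^ (23 / 50 : ℝ) * √ρ = ρ ^ (24 / 25 : ℝ) := by
    rw [Real.sqrt_eq_rpow, ← Real.rpow_add hρ0]
    norm_num
  have hw : c₁ * ρ ^ (24 / 25 : ℝ) ≤ ρ ^ (23 / 50 : ℝ) * z₀ := by
    rw [← hpw]
    have := mul_le_mul_of_nonneg_left hz1 hη0.le
    linarith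
  have hp' : ptwo k x - (k * z₀ ^ 2 - ρ) = k * ((x 2 - z₀) * (x 2 + z₀)) - (cyl x - ρ) := by
    rw [ptwo]
    ring
  rw [hang, hp']
  rcases lt_abs.1 hη with h1 | h1
  · have d1 : ρ ^ (23 / 50 : ℝ) * z₀ ≤ (x 2 - z₀) * (x 2 + z₀) :=
      mul_le_mul h1.le (by linarith) hz0.le (by linarith)
    have d2 : k * (c₁ * ρ ^ (24 / 25 : ℝ)) ≤ k * ((x 2 - z₀) * (x 2 + z₀)) :=
      mul_le_mul_of_nonneg_left (hw.trans d1) hk.le
    have d3 : k * c₁ / 2 * ρ ^ (24 / 25 : ℝ) ≤ k * ((x 2 - z₀) * (x 2 + z₀)) - (cyl x - ρ) := by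
      linarith
    have d4 : 0 ≤ k * ((x 2 - z₀) * (x 2 + z₀)) - (cyl x - ρ) := le_trans (by linarith) d3
    rw [abs_of_nonneg d4]
    refine ⟨mul_le_mul_of_nonneg_right ?_ d4, d3⟩
    have d5 : x 2 ^ 2 ≤ 4 * (1000 / k) * r * Real.log r := by
      have e1 : Real.log (cyl x) ≤ Real.log r := Real.log_le_log hc0 (by linarith)
      have e2 : 0 ≤ Real.log (cyl x) := Real.log_nonneg (by linarith)
      have e3 : cyl x * Real.log (cyl x) ≤ r * Real.log r := mul_le_mul (by linarith) e1 e2 hr0.le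
      have e4 : 0 ≤ r * Real.log r := mul_nonneg hr0.le (by linarith)
      have e5 := mul_le_mul_of_nonneg_left e3 hY.le
      have e6 := mul_nonneg hY.le e4
      linarith
    have := arctan_le_add he0 (H1 (by linarith) d5)
    linarith
  · have d1 : ρ ^ (23 / 50 : ℝ) * z₀ ≤ -(x 2 - z₀) * (x 2 + z₀) :=
      mul_le_mul h1.le (by linarith) hz0.le (by linarith)
    have d2 : k * (c₁ * ρ ^ (24 / 25 : ℝ)) ≤ k * (-(x 2 - z₀) * (x 2 + z₀)) :=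
      mul_le_mul_of_nonneg_left (hw.trans d1) hk.le
    have d3 : k * c₁ / 2 * ρ ^ (24 / 25 : ℝ) ≤ -(k * ((x 2 - z₀) * (x 2 + z₀)) - (cyl x - ρ)) := by
      linarith
    have d4 : 0 ≤ -(k * ((x 2 - z₀) * (x 2 + z₀)) - (cyl x - ρ)) := le_trans (by linarith) d3
    rw [abs_of_nonpos (by linarith)]
    refine ⟨?_, d3⟩
    have d5 : lam r / 2 ≤ x 2 := by
      have := lam_anti hc0 (show cyl x ≤ r by linarith)
      linarith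
    have d6 := arctan_le_add (s := tau u ψ r z₀) (t := tau u ψ (cyl x) (x 2)) he0
      (by linarith [H2 d5 (by linarith)])
    have d7 : Real.arctan (tau u ψ r z₀) - Real.arctan (tau u ψ (cyl x) (x 2)) ≤ ρ ^ (-12 : ℝ) := by
      linarith
    have := mul_le_mul_of_nonneg_right d7 d4
    linarith

end Crest.Agent.R335
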