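import Crest.Agent.R335.K1_0

/-!
# R335/K1_B: the potential is invariant (one-body Hohenberg-Kohn, part 2)
-/

set_option autoImplicit false

namespace Crest.Agent.R335

open MeasureTheory Set Filter Topology
open scoped Gradient RealInnerProductSpace ENNReal ContDiff
open Crest.MathPhysics.ThreeBody

variable {k b L C c e1 e2 : ℝ} {R d V0 S v φ : E3 → ℝ} {GR Gd Gφ : E3 → E3}

/-- as `Eig.comp_iso` (copy its proof), the potential is transported as well -/
theorem k1_eig_comp {e : ℝ} {f : E3 → ℝ} {G : E3 → E3} (hf : Eig v e f G) (T : E3 ≃ₗᵢ[ℝ] E3) :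
    Eig (fun x => v (T x)) e (fun x => f (T x)) fun x => T.symm (G (T x)) := by
  refine ⟨hf.h1.comp_iso T, fun ξ X hξ => ?_⟩
  have h := hf.eq _ _ (hξ.comp_iso T.symm)
  unfold bf ip at h ⊢
  rw [← s1_int_iso T, ← s1_int_iso T fun x => v x * _, ← s1_int_iso T fun x => f x * _] at h
  have e1 : ∫ x, ⟪T.symm (G (T x)), X x⟫ = ∫ x, ⟪G (T x), T.symm.symm (X (T.symm (T x)))⟫ := by
    refine integral_congr_ae (Eventually.of_forall fun x => ?_)
    simp only [LinearIsometryEquiv.symm_symm, LinearIsometryEquiv.symm_apply_apply]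
    rw [← T.inner_map_map, LinearIsometryEquiv.apply_symm_apply]
  rw [e1]
  simpa only [LinearIsometryEquiv.symm_apply_apply] using h

/-- `φ ∘ T = φ` a.e., so (`H1.unique`, `Eig.congr`) `Eig (v ∘ T) e φ Gφ`.  Test both equations with `χ φ`, `χ` smooth with compact support
(`H1.mul_c1_cpt`): `∫ χ w = 0` for the integrable function `w = (v - v ∘ T) φ²` (`FB.int`, `FB.comp_iso`, `FB.int_mul`);
`ae_eq_zero_of_integral_contDiff_smul_eq_zero` (or `IsOpen.ae_eq_zero_of_integral_contDiff_smul_eq_zero`, see `s1a_unique_on`) gives `w = 0` a.e. -/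
theorem k1_v_sym (hv : FB v) {e : ℝ} (he : Eig v e φ Gφ) (hp : ∀ᵐ x, 0 < φ x) (T : E3 ≃ₗᵢ[ℝ] E3)
    (hT : ∀ᵐ x, φ (T x) = φ x) : ∀ᵐ x, v (T x) = v x := by
  have h1 := k1_eig_comp he T
  have h2 : Eig (fun x => v (T x)) e φ Gφ := h1.congr hT (h1.h1.unique he.h1 hT)
  have hv' := hv.comp_iso T
  have hi : Integrable fun x => v x * φ x ^ 2 - v (T x) * φ x ^ 2 := (hv.int _ _ he.h1).sub (hv'.int _ _ he.h1)
  have key : ∀ᵐ x, v x * φ x ^ 2 - v (T x) * φ x ^ 2 = 0 := by
    refine ae_eq_zero_of_integral_contDiff_smul_eq_zero hi.locallyIntegrable fun χ c1 c2 => ?_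
    have hξ := he.h1.mul_c1_cpt (c1.of_le (by simp)) c2
    have a1 := he.eq _ _ hξ
    have a2 := h2.eq _ _ hξ
    unfold bf at a1 a2
    have e : ∀ x, χ x • (v x * φ x ^ 2 - v (T x) * φ x ^ 2) =
        v x * (φ x * (χ x * φ x)) - v (T x) * (φ x * (χ x * φ x)) := fun x => by
      rw [smul_eq_mul]; ring
    simp only [e]
    rw [integral_sub (hv.int_mul he.h1 hξ) (hv'.int_mul he.h1 hξ)]
    linarith
  filter_upwards [key, hp] with x a1 a2
  have a3 : (v x - v (T x)) * φ x ^ 2 = 0 := by linarith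
  have a4 := (mul_eq_zero.1 a3).resolve_right (by positivity)
  linarith

end Crest.Agent.R335
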