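import Crest.Agent.R335.K1_D

/-!
# R335/K1_E: the square root of the density is a subsolution
-/

set_option autoImplicit false

namespace Crest.Agent.R335

open MeasureTheory Set Filter Topology
open scoped Gradient RealInnerProductSpace ENNReal ContDiff
open Crest.MathPhysics.ThreeBody

variable {k b L C c e1 e2 : ℝ} {R d V0 S v φ : E3 → ℝ} {GR Gd Gφ : E3 → E3}

/-- Family `U 0 = √2 φ` (`Eig.lin` with `b = 0`, or `H1.const_mul` and the equation), `U (j + 1) = ψ j`, energies `e 0 = e1`, `e (j + 1) = e2`;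
`y N = √(∑ i ∈ range (N + 1), U i ²)`, gradient `K N` from `H1.norm_sum` (`choose`).  `∫ ‖K N‖² ≤ ∑ ∫ ‖G i‖² ≤ M`: `FB.kin_le` and `Eig.qf_eq` give
`∫ ‖Gψ j‖² ≤ (4 |e2| + C) nsq (ψ j)`, and `∑_{j < N} nsq (ψ j) ≤ 1` (`sum_le_hasSum`, `nsq_nonneg`).  `0 ≤ y N ≤ R`, `y N → R` a.e. (`Finset.sum_range_succ'`,
`HasSum.tendsto_sum_nat`, `Real.sqrt_sq`), so `y N → R` in `L²` (`tendsto_eLpNorm_of_dominated`).  `H1.of_bdd`: `K N ⇀ G'`, `H1.unique`: `G' = GR` a.e.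
`FB.bf_weak` (weak convergence of `y N`: dominated convergence with the bound `|R g|`; `nsq (y N) ≤ nsq R`) and `k1_kato_fin` give `bf (v - e2) R G' ξ K ≤ 0`;
unfold `bf`, `SubS`. -/
theorem k1_kato {ψ : ℕ → E3 → ℝ} {Gψ : ℕ → E3 → E3} (hk : KS v e1 e2 φ Gφ ψ Gψ R) (hR0 : ∀ x, 0 ≤ R x)
    (hR : H1 R GR) : SubS univ (fun x => v x - e2) 0 R GR := by
  have hv : FB v := FB.of_sumClass hk.ob.cls
  obtain ⟨U, hU0, hU1⟩ : ∃ U : ℕ → E3 → ℝ, (U 0 = fun x => √2 * φ x) ∧ ∀ j, U (j + 1) = ψ j :=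
    ⟨fun i => Nat.casesOn i (fun x => √2 * φ x) ψ, rfl, fun _ => rfl⟩
  obtain ⟨G, hG0, hG1⟩ : ∃ G : ℕ → E3 → E3, (G 0 = fun x => √2 • Gφ x) ∧ ∀ j, G (j + 1) = Gψ j :=
    ⟨fun i => Nat.casesOn i (fun x => √2 • Gφ x) Gψ, rfl, fun _ => rfl⟩
  obtain ⟨e, he0, he1⟩ : ∃ e : ℕ → ℝ, e 0 = e1 ∧ ∀ j, e (j + 1) = e2 :=
    ⟨fun i => Nat.casesOn i e1 fun _ => e2, rfl, fun _ => rfl⟩
  have hU : ∀ i, Eig v (e i) (U i) (G i) := by
    intro i
    cases i with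
    | zero =>
      rw [hU0, hG0, he0]
      simpa using Eig.lin hv hk.ob.eig hk.ob.eig (√2) 0
    | succ j => rw [hU1, hG1, he1]; exact hk.eig j
  have he : ∀ i, e i ≤ e2 := by
    intro i
    cases i with
    | zero => rw [he0]; exact hk.ob.lt.le
    | succ j => rw [he1]
  choose K h1 h2 h3 using fun N => H1.norm_sum (Finset.range (N + 1)) (f := U) (G := G) fun i _ => (hU i).h1
  have hsum : ∀ N x, ∑ i ∈ Finset.range (N + 1), U i x ^ 2 = ∑ j ∈ Finset.range N, ψ j x ^ 2 + 2 * φ x ^ 2 := by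
    intro N x
    rw [Finset.sum_range_succ', hU0]
    simp only [hU1, mul_pow, Real.sq_sqrt (show (0 : ℝ) ≤ 2 by norm_num)]
  obtain ⟨C0, hC0, hkin⟩ := hv.kin_le
  have hA : 0 ≤ 4 * |e2| + C0 := by positivity
  have hGi : ∀ i, ∫ x, ‖G i x‖ ^ 2 ≤ (4 * |e2| + C0) * nsq (U i) := by
    intro i
    have a1 := hkin _ _ (hU i).h1
    rw [(hU i).qf_eq] at a1
    have a2 : e i * nsq (U i) ≤ |e2| * nsq (U i) :=
      mul_le_mul_of_nonneg_right ((he i).trans (le_abs_self _)) nsq_nonneg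
    linarith
  have hKM : ∀ N, ∫ x, ‖K N x‖ ^ 2 ≤ (4 * |e2| + C0) * (1 + nsq (U 0)) := by
    intro N
    have a1 : ∫ x, ‖K N x‖ ^ 2 ≤ ∫ x, ∑ i ∈ Finset.range (N + 1), ‖G i x‖ ^ 2 :=
      integral_mono_ae (h1 N).int_grad_sq (integrable_finset_sum _ fun i _ => (hU i).h1.int_grad_sq) (h2 N)
    rw [integral_finset_sum _ fun i _ => (hU i).h1.int_grad_sq] at a1
    refine a1.trans ((Finset.sum_le_sum fun i _ => hGi i).trans ?_)
    rw [← Finset.mul_sum, Finset.sum_range_succ']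
    refine mul_le_mul_of_nonneg_left (add_le_add ?_ le_rfl) hA
    simp only [hU1]
    exact sum_le_hasSum _ (fun _ _ => nsq_nonneg) hk.sum
  have hle : ∀ N, ∀ᵐ x, ‖√(∑ i ∈ Finset.range (N + 1), U i x ^ 2)‖ ≤ R x := by
    intro N
    filter_upwards [hk.dens] with x hx
    rw [Real.norm_of_nonneg (Real.sqrt_nonneg _), hsum]
    have := sum_le_hasSum (Finset.range N) (fun j _ => sq_nonneg (ψ j x)) hx
    exact Real.sqrt_le_iff.2 ⟨hR0 x, by linarith⟩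
  have hlim : ∀ᵐ x, Tendsto (fun N => √(∑ i ∈ Finset.range (N + 1), U i x ^ 2)) atTop (𝓝 (R x)) := by
    filter_upwards [hk.dens] with x hx
    have := (hx.tendsto_sum_nat.add_const (2 * φ x ^ 2)).sqrt
    rw [sub_add_cancel, Real.sqrt_sq (hR0 x)] at this
    simpa only [hsum] using this
  have hL2 := (tendsto_eLpNorm_of_dominated (fun N => (h1 N).mf.aestronglyMeasurable) hR.mf hle hlim).2
  obtain ⟨G', hG', -, hw⟩ := H1.of_bdd h1 hKM hR.mf hL2
  have hGG : G' =ᵐ[volume] GR := hG'.unique hR EventuallyEq.rfl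
  intro ξ X hξ h0
  have hn : ∀ N, nsq (fun x => √(∑ i ∈ Finset.range (N + 1), U i x ^ 2)) ≤ nsq R := by
    intro N
    refine integral_mono_ae (h1 N).int_sq hR.int_sq ?_
    filter_upwards [hle N] with x hx
    rw [Real.norm_of_nonneg (Real.sqrt_nonneg _)] at hx
    exact pow_le_pow_left₀ (Real.sqrt_nonneg _) hx 2
  have ht := (hv.sub_const e2).bf_weak h1 hG' hξ.h1 (M := max (nsq R) ((4 * |e2| + C0) * (1 + nsq (U 0))))
    (fun N => ⟨(hn N).trans (le_max_left _ _), (hKM N).trans (le_max_right _ _)⟩)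
    (fun g hg => s3a_tendsto_mul (fun N => (h1 N).mf) (fun _ => hg) hR.mf hg hL2 (s3a_tendsto_const g)) hw
  have hb : bf (fun x => v x - e2) R G' ξ X ≤ 0 :=
    le_of_tendsto' ht fun N => k1_kato_fin hv (Finset.range (N + 1)) (fun i _ => hU i) (fun i _ => he i) (h1 N)
      (fun _ => Real.sqrt_nonneg _)
      (fun _ => Real.sq_sqrt (Finset.sum_nonneg fun _ _ => sq_nonneg _)) (h2 N) (h3 N) hξ.h1 h0
  unfold bf at hb
  have e1 : ∫ x, ⟪GR x, X x⟫ = ∫ x, ⟪G' x, X x⟫ :=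
    integral_congr_ae (hGG.mono fun x hx => by simp only [hx])
  have e2' : ∫ x, ((v x - e2) * R x - (0 : E3 → ℝ) x) * ξ x = ∫ x, (v x - e2) * (R x * ξ x) :=
    integral_congr_ae (Eventually.of_forall fun x => by simp only [Pi.zero_apply]; ring)
  rw [e1, e2']
  exact hb

end Crest.Agent.R335
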