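import Crest.Agent.R335.K2_lap

/-!
# R335/K2_bar: the far barrier: inequalities (sub-lead helper47)

`B = k2B k b a p`, `p = pt s 1`, `P = ‖p‖`, `r = ‖x‖`, `t = ‖x - p‖ ≥ L₀ ≥ max (2 P) a ...`, so `|r - t| ≤ P`, `t / 2 ≤ r ≤ 2 t`.
`B = (x 0 - s) / t * (x 2 - 1) * gfun k b (x - p) * exp (a / t)` (`Real.rpow_def_of_pos`), `1 ≤ exp (a / t) ≤ exp 1`, `gfun_le` compares
`gfun k b x` with `gfun k b (x - p)` (constant `C₁ exp (k P)`).  Margin: `|2 k b (1 / r - 1 / t)| ≤ 4 k |b| P / t²`, `C / r² ≤ 4 |C| / t²`,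
`|2 b - 2| a / t³ ≤ k a / t²` for `t ≥ |2 b - 2| / k`; choose `a ≥ 0` with `k a ≥ 4 k |b| P + 4 |C| + 5 |b - 3|`.
On the target region: `x 0 - s ≥ x 0 / 2 ≥ t / 4` (`t² ≤ (x 0)² + 1 + (x 2)² ≤ 4 (x 0)²`), `x 2 - 1 ≥ x 2 / 2`, `t ≥ x 0 - s`.
-/

set_option autoImplicit false

namespace Crest.Agent.R335

open MeasureTheory Set Filter Topology
open scoped Gradient RealInnerProductSpace ENNReal ContDiff
open Crest.MathPhysics.ThreeBody

variable {k b L C c e2 : ℝ} {R d V0 S v : E3 → ℝ} {GR Gd : E3 → E3}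

theorem k2_bar_eq (k b a : ℝ) {p x : E3} (hx : 0 < ‖x - p‖) : k2B k b a p x =
    (x 0 - p 0) / ‖x - p‖ * (x 2 - p 2) * gfun k b (x - p) * Real.exp (a / ‖x - p‖) := by
  have e : (b - 3) * Real.log ‖x - p‖ = Real.log ‖x - p‖ * (b - 2) - Real.log ‖x - p‖ := by ring
  rw [k2B, gfun, Real.rpow_def_of_pos hx, e, Real.exp_add, Real.exp_add, Real.exp_sub, Real.exp_log hx]
  field_simp

theorem k2_bar_num {k b C a P r t : ℝ} (hk : 0 < k) (hP : 0 ≤ P) (ht : 0 < t) (h1 : |r - t| ≤ P) (h2 : 2 * P ≤ t)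
    (ha : k * a = 4 * k * |b| * P + 4 * |C| + 5 * |b - 3|) (ha0 : 0 ≤ a) (h3 : |2 * b - 2| ≤ k * t) :
    k ^ 2 - 2 * k * b / r + C / r ^ 2 ≤ k ^ 2 - 2 * k * b / t + (2 * k * a + (b - 3) ^ 2 + 5 * (b - 3)) / t ^ 2 -
      (2 * b - 2) * a / t ^ 3 + a ^ 2 / t ^ 4 := by
  obtain ⟨h4, h5⟩ := abs_le.1 h1
  have hr : 0 < r := by linarith
  have hrt : t ≤ 2 * r := by linarith
  have a1 : 2 * k * b / t - 2 * k * b / r ≤ 4 * k * |b| * P / t ^ 2 := by
    have e : 2 * k * b / t - 2 * k * b / r = 2 * k * (b * (r - t)) / (r * t) := by field_simp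
    have b1 : b * (r - t) ≤ |b| * P := by
      refine (le_abs_self _).trans ?_
      rw [abs_mul]; exact mul_le_mul_of_nonneg_left h1 (abs_nonneg _)
    have b2 : 2 * k * (b * (r - t)) / (r * t) ≤ 2 * k * (|b| * P) / (r * t) := by gcongr
    have b3 : 2 * k * (|b| * P) / (r * t) ≤ 2 * k * (|b| * P) / (t / 2 * t) := by gcongr; linarith
    have e2 : 2 * k * (|b| * P) / (t / 2 * t) = 4 * k * |b| * P / t ^ 2 := by field_simp; ring
    linarith
  have a2 : C / r ^ 2 ≤ 4 * |C| / t ^ 2 := by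
    have b2 : C / r ^ 2 ≤ |C| / r ^ 2 := by gcongr; exact le_abs_self _
    have b3 : |C| / r ^ 2 ≤ |C| / (t / 2) ^ 2 := by gcongr; linarith
    have e2 : |C| / (t / 2) ^ 2 = 4 * |C| / t ^ 2 := by field_simp; ring
    linarith
  have a3 : (2 * b - 2) * a / t ^ 3 ≤ k * a / t ^ 2 := by
    have b2 : (2 * b - 2) * a / t ^ 3 ≤ k * t * a / t ^ 3 := by gcongr; exact (le_abs_self _).trans h3
    have e2 : k * t * a / t ^ 3 = k * a / t ^ 2 := by field_simp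
    linarith
  have a4 : (4 * k * |b| * P + 4 * |C| + k * a) / t ^ 2 ≤ (2 * k * a + (b - 3) ^ 2 + 5 * (b - 3)) / t ^ 2 := by
    refine div_le_div_of_nonneg_right ?_ (by positivity)
    have := neg_abs_le (b - 3)
    nlinarith [sq_nonneg (b - 3)]
  have a5 : 0 ≤ a ^ 2 / t ^ 4 := by positivity
  rw [add_div, add_div] at a4
  linarith

theorem k2_bar_c0 (x : E3) : |x 0| ≤ ‖x‖ := by
  refine abs_le_of_sq_le_sq' ?_ (norm_nonneg _) |> abs_le.2
  rw [geob_norm_sq]; nlinarith [sq_nonneg (x 1), sq_nonneg (x 2)]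

theorem k2_bar (hk : 0 < k) (b C : ℝ) {s : ℝ} (hs : 0 ≤ s) : ∃ (B : E3 → ℝ) (M κ L₀ : ℝ), 0 < M ∧ 0 < κ ∧ 0 < L₀ ∧
    ContDiffOn ℝ 2 B {x | x ≠ pt s 1} ∧
    (∀ x : E3, s ≤ x 0 → 1 ≤ x 2 → L₀ ≤ ‖x - pt s 1‖ → 0 ≤ B x ∧ B x ≤ M * x 2 * gfun k b x ∧
      (k ^ 2 - 2 * k * b / ‖x‖ + C / ‖x‖ ^ 2) * B x ≤ lap B x ∧ (x 0 = s ∨ x 2 = 1 → B x = 0)) ∧
    ∀ x : E3, L₀ ≤ x 0 → |x 1| ≤ 1 → 2 ≤ x 2 → x 2 ≤ 3 / 5 * x 0 → κ * x 2 * gfun k b x ≤ B x := by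
  obtain ⟨C₁, hC₁, hg⟩ := gfun_le k b hk.le
  obtain ⟨P, hP⟩ : ∃ P, P = ‖pt s 1‖ := ⟨_, rfl⟩
  have hP0 : 0 ≤ P := hP ▸ norm_nonneg _
  obtain ⟨a, ha⟩ : ∃ a, a = (4 * k * |b| * P + 4 * |C| + 5 * |b - 3|) / k := ⟨_, rfl⟩
  have ha0 : 0 ≤ a := by rw [ha]; positivity
  have hka : k * a = 4 * k * |b| * P + 4 * |C| + 5 * |b - 3| := by rw [ha]; field_simp
  have hq : 0 ≤ |2 * b - 2| / k := by positivity
  obtain ⟨N, hN⟩ : ∃ N, N = C₁ * Real.exp (k * P) := ⟨_, rfl⟩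
  have hN0 : 0 < N := by rw [hN]; positivity
  have hcmp : ∀ x : E3, 2 * P + 1 ≤ ‖x - pt s 1‖ →
      gfun k b x ≤ N * gfun k b (x - pt s 1) ∧ gfun k b (x - pt s 1) ≤ N * gfun k b x := by
    intro x hx
    have e : ‖x - pt s 1 - x‖ = P := by rw [hP, sub_sub_cancel_left, norm_neg]
    have := hg (x - pt s 1) x (by linarith) (by rw [e]; linarith)
    rwa [e, ← hN] at this
  refine ⟨k2B k b a (pt s 1), N * Real.exp 1, 1 / (8 * N), 2 * P + a + |2 * b - 2| / k + 1 + 2 * s, by positivity,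
    by positivity, by positivity, k2B_smooth k b a _, ?_, ?_⟩
  · intro x h0 h2 hL
    have ht : 0 < ‖x - pt s 1‖ := by linarith
    have hx : x ≠ pt s 1 := fun h => by simp [h] at ht
    have hB : 0 ≤ k2B k b a (pt s 1) x := by
      rw [k2B, pt_0, pt_2]
      exact mul_nonneg (mul_nonneg (by linarith) (by linarith)) (Real.exp_pos _).le
    refine ⟨hB, ?_, ?_, ?_⟩
    · rw [k2_bar_eq k b a ht, pt_0, pt_2]
      have a1 : (x 0 - s) / ‖x - pt s 1‖ ≤ 1 := by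
        rw [div_le_one ht]
        have := k2_bar_c0 (x - pt s 1)
        rw [PiLp.sub_apply, pt_0] at this
        exact (le_abs_self _).trans this
      have a2 := (hcmp x (by linarith)).2
      have a3 : Real.exp (a / ‖x - pt s 1‖) ≤ Real.exp 1 := Real.exp_le_exp.2 ((div_le_one ht).2 (by linarith))
      have a4 := (gfun_pos k b (sub_ne_zero.2 hx)).le
      have a5 : 0 ≤ x 2 - 1 := by linarith
      have a6 : 0 ≤ N * gfun k b x := a4.trans a2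
      calc _ ≤ 1 * x 2 * (N * gfun k b x) * Real.exp 1 := by
            gcongr
            linarith
        _ = _ := by ring
    · rw [k2B_lap k b a hx]
      refine mul_le_mul_of_nonneg_right (k2_bar_num hk hP0 ht ?_ (by linarith) hka ha0 ?_) hB
      · have := abs_norm_sub_norm_le x (x - pt s 1)
        rwa [sub_sub_cancel, ← hP] at this
      · rw [← div_le_iff₀' hk]; linarith
    · rintro (h | h) <;> simp [k2B, pt_0, pt_2, h]
  · intro x h0 h1 h2 h3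
    have b0 := k2_bar_c0 (x - pt s 1)
    rw [PiLp.sub_apply, pt_0] at b0
    have b1 := (le_abs_self _).trans b0
    have ht : 0 < ‖x - pt s 1‖ := by linarith
    have hx : x ≠ pt s 1 := fun h => by simp [h] at ht
    have b2 : ‖x - pt s 1‖ ≤ 2 * x 0 := by
      refine (abs_le_of_sq_le_sq' ?_ (by linarith)).2
      rw [geob_norm_sq, PiLp.sub_apply, PiLp.sub_apply, PiLp.sub_apply, pt_0, pt_1, pt_2]
      obtain ⟨c1, c2⟩ := abs_le.1 h1
      nlinarith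
    have a1 : 1 / 4 ≤ (x 0 - s) / ‖x - pt s 1‖ := by rw [le_div_iff₀ ht]; linarith
    have a2 := (hcmp x (by linarith)).1
    have a3 : 1 ≤ Real.exp (a / ‖x - pt s 1‖) := Real.one_le_exp (by positivity)
    have a4 := (gfun_pos k b (sub_ne_zero.2 hx)).le
    have a5 : 0 ≤ x 2 - 1 := by linarith
    rw [k2_bar_eq k b a ht, pt_0, pt_2]
    calc 1 / (8 * N) * x 2 * gfun k b x ≤ 1 / (8 * N) * x 2 * (N * gfun k b (x - pt s 1)) := by
          gcongr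
      _ = 1 / 4 * (x 2 / 2) * gfun k b (x - pt s 1) * 1 := by field_simp; ring
      _ ≤ _ := by
          gcongr
          linarith

end Crest.Agent.R335
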