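import Crest.Agent.R335.K2_cmp
import Crest.Agent.R335.K2_bar

/-!
# R335/K2_far: `lb_far` (sub-lead helper47)

`s = L' + 1`, `p = pt s 1`; `k2_bar h.kpos b (C + 1)` gives `B M κ L₀`; `k2_cmp` with `M`, `m = κ / 2` gives `L₁`; `L₂ = max L₀ (L₁ + ‖p‖)`.
`D = {s ≤ x 0, 1 ≤ x 2, L₂ ≤ ‖x - p‖}`, `Ω` the same with strict inequalities (`‖x‖ ≥ |x 0| ≥ 1`, `cyl x ≥ |x 0|`).  The cap
`{s ≤ x 0, 1 ≤ x 2, ‖x - p‖ = L₂}` is compact, `f > 0` and `B` are continuous on it: there is `c₀ > 0` with `c₀ B ≤ f` on it; on the rest of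
`D \ Ω` one has `B = 0 < f`.  `c' = c₀ κ / 2`, `L'' = L₂ + s + 1`.
-/

set_option autoImplicit false

namespace Crest.Agent.R335

open MeasureTheory Set Filter Topology
open scoped Gradient RealInnerProductSpace ENNReal ContDiff
open Crest.MathPhysics.ThreeBody

variable {k b L C c e2 : ℝ} {R d V0 S v : E3 → ℝ} {GR Gd : E3 → E3}

theorem k2_far_cyl {x : E3} (h : 0 < x 0) : 0 < cyl x :=
  Real.sqrt_pos.2 (by nlinarith [sq_nonneg (x 1)])

theorem k2_lb_far (h : Tail k b L C c R GR d Gd V0 S) (hv : IsSumClassPotential v)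
    (hk : SubS univ (fun x => v x - e2) 0 R GR) {f : E3 → ℝ} {G : E3 → E3} (hf : Orb v e2 R f G) {L' : ℝ}
    (hL : 0 ≤ L') (hp : ∀ x : E3, L' < x 0 → 0 < x 2 → 0 < f x) : ∃ c' L'' : ℝ, 0 < c' ∧ ∀ x : E3,
      L'' ≤ x 0 → |x 1| ≤ 1 → 2 ≤ x 2 → x 2 ≤ 3 / 5 * x 0 → c' * x 2 * gfun k b x ≤ f x := by
  obtain ⟨B, M, κ, L₀, hM, hκ, hL₀, hBc, hB, hBt⟩ := k2_bar h.kpos b (C + 1) (s := L' + 1) (by linarith)
  obtain ⟨L₁, hc⟩ := k2_cmp h hv hk hM (half_pos hκ)
  obtain ⟨p, hpp⟩ : ∃ p, p = pt (L' + 1) 1 := ⟨_, rfl⟩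
  rw [← hpp] at hBc hB
  obtain ⟨L₂, hL₂⟩ : ∃ L₂, L₂ = max L₀ (L₁ + ‖p‖) := ⟨_, rfl⟩
  have l0 : L₀ ≤ L₂ := hL₂ ▸ le_max_left _ _
  have l1 : L₁ + ‖p‖ ≤ L₂ := hL₂ ▸ le_max_right _ _
  have c0 : Continuous fun x : E3 => x 0 := by fun_prop
  have c2 : Continuous fun x : E3 => x 2 := by fun_prop
  have cn : Continuous fun x : E3 => ‖x - p‖ := by fun_prop
  have hne : ∀ x : E3, L₂ ≤ ‖x - p‖ → x ≠ p := fun x hx e => by
    rw [e, sub_self, norm_zero] at hx; linarith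
  have hK : IsCompact {x : E3 | L' + 1 ≤ x 0 ∧ 1 ≤ x 2 ∧ ‖x - p‖ = L₂} := by
    refine (isCompact_closedBall p L₂).of_isClosed_subset
      ((isClosed_le continuous_const c0).inter ((isClosed_le continuous_const c2).inter (isClosed_eq cn continuous_const))) ?_
    intro x hx
    rw [mem_closedBall_iff_norm]; exact hx.2.2.le
  obtain ⟨ε, hε, hεf⟩ := hK.exists_forall_le' (f := f) (a := 0)
    (hf.cont.mono fun x hx => k2_far_cyl (by linarith [hx.1])) fun x hx => hp x (by linarith [hx.1]) (by linarith [hx.2.1])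
  obtain ⟨N, hN⟩ := hK.exists_bound_of_continuousOn (f := B) (hBc.continuousOn.mono fun x hx => hne x hx.2.2.ge)
  have hc0 : 0 < ε / (|N| + 1) := by positivity
  have key := hc f G {x : E3 | L' + 1 < x 0 ∧ 1 < x 2 ∧ L₂ < ‖x - p‖} {x : E3 | L' + 1 ≤ x 0 ∧ 1 ≤ x 2 ∧ L₂ ≤ ‖x - p‖} B _ hf
    ((isOpen_lt continuous_const c0).inter ((isOpen_lt continuous_const c2).inter (isOpen_lt continuous_const cn)))
    ((isClosed_le continuous_const c0).inter ((isClosed_le continuous_const c2).inter (isClosed_le continuous_const cn)))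
    (fun x hx => ⟨hx.1.le, hx.2.1.le, hx.2.2.le⟩) hc0
    (fun x hx => by
      have a1 := norm_sub_le x p
      have a2 := (le_abs_self _).trans (k2_bar_c0 x)
      obtain ⟨b1, b2, b3⟩ := hx
      exact ⟨by linarith, by nlinarith, k2_far_cyl (by linarith)⟩)
    (fun x hx => (hp x (by linarith [hx.1]) (by linarith [hx.2.1])).le)
    (hBc.mono fun x hx => hne x hx.2.2.le) (hBc.continuousOn.mono fun x hx => hne x hx.2.2)
    (fun x hx => by
      obtain ⟨b1, b2, b3, -⟩ := hB x hx.1.le hx.2.1.le (l0.trans hx.2.2.le)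
      exact ⟨b1, b2, b3⟩)
    (fun x hx hx' => by
      obtain ⟨b1, b2, b3⟩ := hx
      obtain ⟨d1, -, -, d4⟩ := hB x b1 b2 (l0.trans b3)
      have hfx := hp x (by linarith) (by linarith)
      rcases b1.eq_or_lt with e1 | e1
      · rw [d4 (Or.inl e1.symm), mul_zero]; exact hfx.le
      rcases b2.eq_or_lt with e2 | e2
      · rw [d4 (Or.inr e2.symm), mul_zero]; exact hfx.le
      rcases b3.eq_or_lt with e3 | e3
      · have a1 := hεf x ⟨b1, b2, e3.symm⟩
        have a2 := hN x ⟨b1, b2, e3.symm⟩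
        have a3 : B x ≤ |N| + 1 := by
          have := le_abs_self N
          have := le_abs_self (B x)
          rw [Real.norm_eq_abs] at a2
          linarith
        calc ε / (|N| + 1) * B x ≤ ε / (|N| + 1) * (|N| + 1) := mul_le_mul_of_nonneg_left a3 hc0.le
          _ = ε := by field_simp
          _ ≤ f x := a1
      · exact absurd ⟨e1, e2, e3⟩ hx')
  refine ⟨ε / (|N| + 1) * (κ / 2), L₂ + (L' + 1) + 1, by positivity, fun x h0 h1 h2 h3 => ?_⟩
  have b0 := k2_bar_c0 (x - p)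
  rw [PiLp.sub_apply, hpp, pt_0, ← hpp] at b0
  have b1 := (le_abs_self _).trans b0
  have a1 := key x ⟨by linarith, by linarith, by linarith⟩
  have a2 := hBt x (by linarith) h1 h2 h3
  have a3 : κ / 2 * x 2 * gfun k b x ≤ B x - κ / 2 * x 2 * gfun k b x := by linarith
  have a4 := mul_le_mul_of_nonneg_left a3 hc0.le
  linarith

end Crest.Agent.R335
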