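import Crest.Agent.R335.Geob
import Crest.Agent.R83.Newt

/-!
# R335/K2_lap: the far barrier: calculus (sub-lead helper47)

`Y = (x 0 - p 0) (x 2 - p 2)` is harmonic with `⟪∇ Y x, x - p⟫ = 2 Y`; `F = exp ∘ φ`, `φ r = -k r + (b - 3) log r + a / r`, `r = ‖x - p‖`,
`∇ r = r⁻¹ • (x - p)`, `lap r = 2 / r`.  `R83.lap_mul`, `R83.lap_comp`, `R83.grad_comp`, `R83.grad_mul`, `R83.grad_coord` (files `R83/Inf`, `R83/Tst`,
`R83/PB` has `pb_grad_norm`):  `lap (Y F) = Y (F'' + 6 F' / r) = Y F (φ'' + φ'² + 6 φ' / r)`, `φ' = -k + (b - 3) / r - a / r²`.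
-/

set_option autoImplicit false

namespace Crest.Agent.R335

open MeasureTheory Set Filter Topology
open scoped Gradient RealInnerProductSpace ENNReal ContDiff
open Crest.MathPhysics.ThreeBody

variable {k b L C c e2 : ℝ} {R d V0 S v : E3 → ℝ} {GR Gd : E3 → E3}

/-- the far barrier -/
noncomputable def k2B (k b a : ℝ) (p x : E3) : ℝ :=
  (x 0 - p 0) * (x 2 - p 2) * Real.exp (-k * ‖x - p‖ + (b - 3) * Real.log ‖x - p‖ + a / ‖x - p‖)

theorem k2_lap_cd (i : Fin 3) (c : ℝ) : ContDiff ℝ 2 fun y : E3 => y i - c :=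
  ((EuclideanSpace.proj i : E3 →L[ℝ] ℝ).contDiff).sub contDiff_const

theorem k2_lap_gc (i : Fin 3) (c : ℝ) (x : E3) : ∇ (fun y : E3 => y i - c) x = Crest.Agent.R83.e i := by
  have : (fun y : E3 => y i - c) = fun y : E3 => -c + y i := by funext y; ring
  rw [this, Crest.Agent.R83.grad_const_add, Crest.Agent.R83.grad_coord]

theorem k2_lap_lc (i : Fin 3) (c : ℝ) (x : E3) : lap (fun y : E3 => y i - c) x = 0 := by
  have : ∇ (fun y : E3 => y i - c) = fun _ => Crest.Agent.R83.e i := funext (k2_lap_gc i c)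
  show Crest.Agent.R83.dvg _ _ = 0
  rw [this]
  simp [Crest.Agent.R83.dvg]

theorem k2_lap_rc {p x : E3} (hx : x ≠ p) : ContDiffAt ℝ 2 (fun y : E3 => ‖y - p‖) x :=
  (contDiffAt_id.sub contDiffAt_const).norm ℝ (sub_ne_zero.2 hx)

theorem k2_lap_gr {p x : E3} (hx : x ≠ p) : ∇ (fun y : E3 => ‖y - p‖) x = ‖x - p‖⁻¹ • (x - p) := by
  rw [← Crest.Agent.R83.pb_grad_norm (sub_ne_zero.2 hx)]
  simp only [gradient]
  rw [fderiv_comp_sub (f := fun z : E3 => ‖z‖)]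

theorem k2_lap_lr {p x : E3} (hx : x ≠ p) : lap (fun y : E3 => ‖y - p‖) x = 2 / ‖x - p‖ := by
  have hr : ‖x - p‖ ≠ 0 := norm_ne_zero_iff.2 (sub_ne_zero.2 hx)
  have h0 : ∇ (fun y : E3 => ‖y - p‖) =ᶠ[𝓝 x] fun y => ‖y - p‖⁻¹ • (y - p) := by
    filter_upwards [isOpen_ne.mem_nhds hx] with y hy using k2_lap_gr hy
  have hd := (k2_lap_rc hx).differentiableAt (by simp)
  have h1 : Crest.Agent.R83.dvg (fun y : E3 => y - p) x = 3 := by
    simp [Crest.Agent.R83.dvg, fderiv_sub_const]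
  show Crest.Agent.R83.dvg _ _ = _
  rw [Crest.Agent.R83.dvg_congr h0, Crest.Agent.R83.dvg_smul (a := fun y : E3 => ‖y - p‖⁻¹) (B := fun y : E3 => y - p) (hd.inv hr)
    (differentiableAt_id.sub_const p), h1,
    Crest.Agent.R83.grad_comp (h := fun t : ℝ => t⁻¹) (f := fun y : E3 => ‖y - p‖) (hasDerivAt_inv hr) hd, k2_lap_gr hx,
    real_inner_smul_left, real_inner_smul_left, real_inner_self_eq_norm_sq]
  field_simp
  ring

/-- the radial profile -/
noncomputable def k2_lap_F (k b a r : ℝ) : ℝ := Real.exp (-k * r + (b - 3) * Real.log r + a / r)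

theorem k2_lap_Fc (k b a : ℝ) {r : ℝ} (hr : r ≠ 0) : ContDiffAt ℝ 2 (k2_lap_F k b a) r := by
  unfold k2_lap_F
  exact (((contDiffAt_const.mul contDiffAt_id).add (contDiffAt_const.mul (Real.contDiffAt_log.2 hr))).add
    (contDiffAt_const.div contDiffAt_id hr)).exp

theorem k2_lap_F1 (k b a : ℝ) {r : ℝ} (hr : r ≠ 0) :
    HasDerivAt (k2_lap_F k b a) (k2_lap_F k b a r * (-k + (b - 3) / r - a / r ^ 2)) r := by
  have h : HasDerivAt (fun t : ℝ => -k * t + (b - 3) * Real.log t + a / t) (-k + (b - 3) / r - a / r ^ 2) r := by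
    have h := (((hasDerivAt_id' r).const_mul (-k)).fun_add ((Real.hasDerivAt_log hr).const_mul (b - 3))).fun_add
      ((hasDerivAt_inv hr).const_mul a)
    simp only [div_eq_mul_inv]
    exact h.congr_deriv (by ring)
  exact h.exp

theorem k2_lap_F2 (k b a : ℝ) {r : ℝ} (hr : r ≠ 0) :
    deriv (deriv (k2_lap_F k b a)) r = k2_lap_F k b a r * ((-k + (b - 3) / r - a / r ^ 2) ^ 2 +
      (-(b - 3) / r ^ 2 + 2 * a / r ^ 3)) := by
  have h0 : deriv (k2_lap_F k b a) =ᶠ[𝓝 r] fun t => k2_lap_F k b a t * (-k + (b - 3) * t⁻¹ - a * (t⁻¹) ^ 2) := by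
    filter_upwards [isOpen_ne.mem_nhds hr] with t ht
    rw [(k2_lap_F1 k b a ht).deriv]
    simp [div_eq_mul_inv]
  rw [h0.deriv_eq]
  have h := (k2_lap_F1 k b a hr).mul ((((hasDerivAt_inv hr).const_mul (b - 3)).const_add (-k)).sub
    (((hasDerivAt_inv hr).pow 2).const_mul a))
  refine (HasDerivAt.deriv (f := fun t => k2_lap_F k b a t * (-k + (b - 3) * t⁻¹ - a * (t⁻¹) ^ 2)) h).trans ?_
  simp only [Pi.sub_apply, Pi.pow_apply]
  norm_num
  field_simp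
  ring

theorem k2B_smooth (k b a : ℝ) (p : E3) : ContDiffOn ℝ 2 (k2B k b a p) {x | x ≠ p} := by
  intro x hx
  have hr : ‖x - p‖ ≠ 0 := norm_ne_zero_iff.2 (sub_ne_zero.2 hx)
  have hF : ContDiffAt ℝ 2 (fun y : E3 => k2_lap_F k b a ‖y - p‖) x :=
    ContDiffAt.comp (g := k2_lap_F k b a) (f := fun y : E3 => ‖y - p‖) x (k2_lap_Fc k b a hr) (k2_lap_rc hx)
  exact (((k2_lap_cd 0 (p 0)).mul (k2_lap_cd 2 (p 2))).contDiffAt.mul hF).contDiffWithinAt

theorem k2B_lap (k b a : ℝ) {p x : E3} (hx : x ≠ p) : lap (k2B k b a p) x =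
    (k ^ 2 - 2 * k * b / ‖x - p‖ + (2 * k * a + (b - 3) ^ 2 + 5 * (b - 3)) / ‖x - p‖ ^ 2 -
      (2 * b - 2) * a / ‖x - p‖ ^ 3 + a ^ 2 / ‖x - p‖ ^ 4) * k2B k b a p x := by
  have hr : ‖x - p‖ ≠ 0 := norm_ne_zero_iff.2 (sub_ne_zero.2 hx)
  have hY := ((k2_lap_cd 0 (p 0)).mul (k2_lap_cd 2 (p 2))).contDiffAt (x := x)
  have hF : ContDiffAt ℝ 2 (fun y : E3 => k2_lap_F k b a ‖y - p‖) x :=
    ContDiffAt.comp (g := k2_lap_F k b a) (f := fun y : E3 => ‖y - p‖) x (k2_lap_Fc k b a hr) (k2_lap_rc hx)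
  have h0 := (k2_lap_cd 0 (p 0)).contDiffAt (x := x)
  have h2 := (k2_lap_cd 2 (p 2)).contDiffAt (x := x)
  have e : k2B k b a p = fun y : E3 => (y 0 - p 0) * (y 2 - p 2) * k2_lap_F k b a ‖y - p‖ := rfl
  have hlY : lap (fun y : E3 => (y 0 - p 0) * (y 2 - p 2)) x = 0 := by
    have := Crest.Agent.R83.lap_mul h0 h2
    rw [k2_lap_gc, k2_lap_gc] at this
    have e1 := k2_lap_lc 0 (p 0) x
    have e2 := k2_lap_lc 2 (p 2) x
    simp only [lap] at e1 e2 ⊢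
    rw [this, e1, e2]
    simp [EuclideanSpace.inner_single_left]
  have hgY := Crest.Agent.R83.grad_mul (h0.differentiableAt (by simp)) (h2.differentiableAt (by simp))
  rw [k2_lap_gc, k2_lap_gc] at hgY
  have hgF := Crest.Agent.R83.grad_comp (f := fun y : E3 => ‖y - p‖) (k2_lap_F1 k b a hr)
    ((k2_lap_rc hx).differentiableAt (by simp))
  have hlF := Crest.Agent.R83.lap_comp (k2_lap_rc hx) (k2_lap_Fc k b a hr)
  have e3 := k2_lap_lr hx
  have hn : ‖‖x - p‖⁻¹ • (x - p)‖ = 1 := by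
    rw [norm_smul, norm_inv, norm_norm, inv_mul_cancel₀ hr]
  simp only [lap] at e3 hlY ⊢
  rw [k2_lap_gr hx, hn, e3, k2_lap_F2 k b a hr, (k2_lap_F1 k b a hr).deriv] at hlF
  rw [k2_lap_gr hx] at hgF
  rw [e, Crest.Agent.R83.lap_mul hY hF, hlY, hlF, hgY, hgF]
  simp only [inner_add_left, real_inner_smul_left, real_inner_smul_right, EuclideanSpace.inner_single_left,
    PiLp.sub_apply, map_one, one_mul]
  field_simp
  ring

end Crest.Agent.R335
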