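import Crest.Agent.R335.Geob
import Crest.Agent.R83.Newt
import Crest.Agent.R335.K2_lap

/-!
# R335/K2_box: the barrier on a box (sub-lead helper47)

`B = s * (exp (ω (x 2 - l)) - 1) * cos (π (x 0 - ρ) / 2) * cos (π (x 1) / 2)`, `ω = κ + 6` (`ω² ≥ κ + π² / 2`, `π ≤ 4`... use `Real.pi_lt_d2`),
`M = ω exp (3 ω)`.  `lap B = s (ω² exp (ω t) - π² / 2 (exp (ω t) - 1)) cos cos ≥ (ω² - π² / 2) B`; `ω t ≤ exp (ω t) - 1 ≤ ω t exp (ω t)`.
For the Laplacian use `R83.newt_lap` (sum of second partial derivatives, see `p1_lap_rad` in `R335/P1_a.lean`) or `R83.lap_mul`, `R83.lap_comp`,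
`R83.grad_coord`.
-/

set_option autoImplicit false

namespace Crest.Agent.R335

open MeasureTheory Set Filter Topology
open scoped Gradient RealInnerProductSpace ENNReal ContDiff
open Crest.MathPhysics.ThreeBody

variable {k b L C c e2 : ℝ} {R d V0 S v : E3 → ℝ} {GR Gd : E3 → E3}

theorem k2_box_c {f : ℝ → ℝ} (hf : ContDiff ℝ 2 f) (i : Fin 3) (c : ℝ) : ContDiff ℝ 2 fun y : E3 => f (y i - c) :=
  hf.comp (k2_lap_cd i c)

theorem k2_box_g {f : ℝ → ℝ} (hf : ContDiff ℝ 2 f) (i : Fin 3) (c : ℝ) (x : E3) :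
    ∇ (fun y : E3 => f (y i - c)) x = deriv f (x i - c) • Crest.Agent.R83.e i := by
  rw [Crest.Agent.R83.grad_comp (f := fun y : E3 => y i - c) ((hf.differentiable (by simp)) _).hasDerivAt
    ((k2_lap_cd i c).differentiable (by simp) x), k2_lap_gc]

theorem k2_box_l {f : ℝ → ℝ} (hf : ContDiff ℝ 2 f) (i : Fin 3) (c : ℝ) (x : E3) :
    Crest.Agent.R83.lap (fun y : E3 => f (y i - c)) x = deriv (deriv f) (x i - c) := by
  have h := k2_lap_lc i c x
  simp only [lap] at h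
  rw [Crest.Agent.R83.lap_comp (a := fun y : E3 => y i - c) (k2_lap_cd i c).contDiffAt hf.contDiffAt, k2_lap_gc, h]
  simp

theorem k2_box_p {f g h : ℝ → ℝ} (hf : ContDiff ℝ 2 f) (hg : ContDiff ℝ 2 g) (hh : ContDiff ℝ 2 h) (a b c : ℝ) (x : E3) :
    lap (fun y : E3 => f (y 2 - c) * g (y 0 - a) * h (y 1 - b)) x =
      deriv (deriv f) (x 2 - c) * g (x 0 - a) * h (x 1 - b) + f (x 2 - c) * deriv (deriv g) (x 0 - a) * h (x 1 - b) +
        f (x 2 - c) * g (x 0 - a) * deriv (deriv h) (x 1 - b) := by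
  have h1 := (k2_box_c hf 2 c).contDiffAt (x := x)
  have h2 := (k2_box_c hg 0 a).contDiffAt (x := x)
  have h3 := (k2_box_c hh 1 b).contDiffAt (x := x)
  show Crest.Agent.R83.lap _ _ = _
  rw [Crest.Agent.R83.lap_mul (h1.mul h2) h3, Crest.Agent.R83.lap_mul h1 h2,
    Crest.Agent.R83.grad_mul (h1.differentiableAt (by simp)) (h2.differentiableAt (by simp)),
    k2_box_l hf, k2_box_l hg, k2_box_l hh, k2_box_g hf, k2_box_g hg, k2_box_g hh]
  simp [inner_add_left, real_inner_smul_left, real_inner_smul_right, EuclideanSpace.inner_single_left]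
  ring

theorem k2_box_exp (s w t : ℝ) : deriv (deriv fun u : ℝ => s * (Real.exp (w * u) - 1)) t = s * (w ^ 2 * Real.exp (w * t)) := by
  have h : ∀ u : ℝ, HasDerivAt (fun u : ℝ => Real.exp (w * u)) (Real.exp (w * u) * w) u := fun u => by
    simpa using ((hasDerivAt_id' u).const_mul w).exp
  have e : deriv (fun u : ℝ => s * (Real.exp (w * u) - 1)) = fun u => s * w * Real.exp (w * u) := by
    funext u; rw [(((h u).sub_const 1).const_mul s).deriv]; ring
  rw [e, ((h t).const_mul (s * w)).deriv]; ring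

theorem k2_box_cos (w t : ℝ) : deriv (deriv fun u : ℝ => Real.cos (w * u)) t = -(w ^ 2 * Real.cos (w * t)) := by
  have h : ∀ u : ℝ, HasDerivAt (fun u : ℝ => w * u) w u := fun u => by
    simpa using ((hasDerivAt_id' u).const_mul w)
  have e : deriv (fun u : ℝ => Real.cos (w * u)) = fun u => -w * Real.sin (w * u) := by
    funext u; rw [(h u).cos.deriv]; ring
  rw [e, ((h t).sin.const_mul (-w)).deriv]; ring

theorem k2_box_cn {u : ℝ} (hu : |u| ≤ 1) : 0 ≤ Real.cos (Real.pi / 2 * u) := by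
  have := abs_le.1 hu
  have := Real.pi_pos
  exact Real.cos_nonneg_of_neg_pi_div_two_le_of_le (by nlinarith) (by nlinarith)

theorem k2_box_cz {u : ℝ} (hu : |u| = 1) : Real.cos (Real.pi / 2 * u) = 0 := by
  rcases (abs_eq zero_le_one).1 hu with h | h <;> simp [h]

theorem k2_box {κ : ℝ} (hκ : 0 ≤ κ) : ∃ M : ℝ, 0 < M ∧ ∀ ρ l s : ℝ, 0 ≤ l → 0 ≤ s → ∃ B : E3 → ℝ, ContDiff ℝ 2 B ∧
    (∀ x : E3, |x 0 - ρ| ≤ 1 → |x 1| ≤ 1 → l ≤ x 2 → x 2 ≤ 3 → 0 ≤ B x ∧ B x ≤ s * M * x 2 ∧ κ * B x ≤ lap B x ∧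
      (|x 0 - ρ| = 1 ∨ |x 1| = 1 ∨ x 2 = l → B x = 0)) ∧
    ∀ z, l ≤ z → s * (z - l) ≤ B (pt ρ z) := by
  have hw : 6 ≤ κ + 6 := by linarith
  generalize hw : κ + 6 = w at hw
  refine ⟨w * Real.exp (3 * w), by positivity, fun ρ l s hl hs => ?_⟩
  have hf : ContDiff ℝ 2 fun u : ℝ => s * (Real.exp (w * u) - 1) := by fun_prop
  have hg : ContDiff ℝ 2 fun u : ℝ => Real.cos (Real.pi / 2 * u) := by fun_prop
  refine ⟨fun y : E3 => s * (Real.exp (w * (y 2 - l)) - 1) * Real.cos (Real.pi / 2 * (y 0 - ρ)) *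
    Real.cos (Real.pi / 2 * (y 1 - 0)), ((k2_box_c hf 2 l).mul (k2_box_c hg 0 ρ)).mul (k2_box_c hg 1 0), ?_, ?_⟩
  · intro x h0 h1 h2 h3
    rw [k2_box_p hf hg hg ρ 0 l x, k2_box_exp, k2_box_cos, k2_box_cos]
    beta_reduce
    have c0 := k2_box_cn h0
    have c1 := k2_box_cn (u := x 1 - 0) (by simpa using h1)
    have d0 := Real.cos_le_one (Real.pi / 2 * (x 0 - ρ))
    have d1 := Real.cos_le_one (Real.pi / 2 * (x 1 - 0))
    have z0 := k2_box_cz (u := x 0 - ρ)
    have z1 := k2_box_cz (u := x 1 - 0)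
    generalize Real.cos (Real.pi / 2 * (x 0 - ρ)) = A at *
    generalize Real.cos (Real.pi / 2 * (x 1 - 0)) = B at *
    have ht : 0 ≤ w * (x 2 - l) := mul_nonneg (by linarith) (by linarith)
    have hE : 1 ≤ Real.exp (w * (x 2 - l)) := Real.one_le_exp ht
    have hE2 : Real.exp (w * (x 2 - l)) ≤ Real.exp (3 * w) := Real.exp_le_exp.2 (by nlinarith)
    have hE3 : Real.exp (w * (x 2 - l)) - 1 ≤ w * (x 2 - l) * Real.exp (w * (x 2 - l)) := by
      have a1 := Real.add_one_le_exp (-(w * (x 2 - l)))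
      have a2 : Real.exp (-(w * (x 2 - l))) * Real.exp (w * (x 2 - l)) = 1 := by rw [← Real.exp_add]; simp
      nlinarith
    have hAB : 0 ≤ A * B := mul_nonneg c0 c1
    have hAB1 : A * B ≤ 1 := by nlinarith
    have hsE : 0 ≤ s * (Real.exp (w * (x 2 - l)) - 1) := mul_nonneg hs (by linarith)
    refine ⟨mul_nonneg (mul_nonneg hsE c0) c1, ?_, ?_, ?_⟩
    · have a1 : w * (x 2 - l) * Real.exp (w * (x 2 - l)) ≤ w * x 2 * Real.exp (3 * w) :=
        mul_le_mul (by nlinarith) hE2 (by positivity) (mul_nonneg (by linarith) (by linarith))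
      have a2 := mul_le_mul_of_nonneg_left (hE3.trans a1) hs
      have a3 := mul_le_mul_of_nonneg_left hAB1 hsE
      nlinarith
    · have hp := Real.pi_pos
      have hp4 := Real.pi_le_four
      have a1 : (κ + 2 * (Real.pi / 2) ^ 2) * (Real.exp (w * (x 2 - l)) - 1) ≤ w ^ 2 * Real.exp (w * (x 2 - l)) :=
        mul_le_mul (by nlinarith) (by linarith) (by linarith) (by positivity)
      have a2 := mul_le_mul_of_nonneg_left a1 (mul_nonneg hs hAB)
      nlinarith
    · rintro (h | h | h)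
      · simp [z0 h]
      · simp [z1 (by simpa using h)]
      · simp [h]
  · intro z hz
    simp only [pt_0, pt_1, pt_2, sub_self, mul_zero, Real.cos_zero, mul_one]
    have := Real.add_one_le_exp (w * (z - l))
    exact mul_le_mul_of_nonneg_left (by nlinarith) hs

end Crest.Agent.R335
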