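import Crest.Agent.R335.K2_cmp
import Crest.Agent.R335.K2_box

/-!
# R335/K2_lay: the lower bound near the plane (sub-lead helper47)

`κ = k² + 2 k |b| + C + 1`, `M₁` from `k2_box`, `Q = C₁ exp (5 k)` from `gfun_le` (all points of the box are within `5 ≤ ρ / 2` of `pt ρ 0`,
`‖pt ρ 0‖ = ρ`), `g₀ = gfun k b (pt ρ 0)`, so `g₀ ≤ Q g x`, `g x ≤ Q g₀` on the box.  `k2_cmp` with `M = M₁ Q`, `m = 1 / (4 Q)` gives `L₁`.
For `ρ ≥ L'' = max ...` take `l = 1 / (32 ρ)`, `s = g₀`, `D = {|x 0 - ρ| ≤ 1, |x 1| ≤ 1, l ≤ x 2, x 2 ≤ 3}`, `Ω` with strict inequalities,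
`c₀ = c' / (3 M₁ Q)` (top face: `c₀ B ≤ c₀ g₀ M₁ 3 ≤ c' g x ≤ f x`; other faces `B = 0 ≤ f`); `‖x‖ ≥ x 0 ≥ ρ - 1 ≥ ρ / 2`.
At `pt ρ z`: `z - l ≥ z / 2`, `B ≥ g₀ z / 2 ≥ z g / (2 Q)`; `c'' = c₀ / (4 Q)`.
-/

set_option autoImplicit false

namespace Crest.Agent.R335

open MeasureTheory Set Filter Topology
open scoped Gradient RealInnerProductSpace ENNReal ContDiff
open Crest.MathPhysics.ThreeBody

variable {k b L C c e2 : ℝ} {R d V0 S v : E3 → ℝ} {GR Gd : E3 → E3}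

theorem k2_lay_x0 (x : E3) : x 0 ≤ cyl x := by
  refine le_trans (le_abs_self _) (abs_le_of_sq_le_sq' ?_ (cyl_nonneg x)).2
  rw [cyl_sq, sq_abs]
  nlinarith [sq_nonneg (x 1)]

theorem k2_lay_norm {ρ : ℝ} (hρ : 0 ≤ ρ) : ‖pt ρ 0‖ = ρ := by
  have := norm_sq_cyl (pt ρ 0)
  rw [cyl_pt hρ, show pt ρ 0 2 = 0 from rfl] at this
  exact (pow_left_inj₀ (norm_nonneg _) hρ two_ne_zero).1 (by linarith)

theorem k2_lay_dist (ρ : ℝ) {x : E3} (h0 : |x 0 - ρ| ≤ 1) (h1 : |x 1| ≤ 1) (h2 : 0 ≤ x 2) (h3 : x 2 ≤ 3) :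
    ‖pt ρ 0 - x‖ ≤ 5 := by
  refine (abs_le_of_sq_le_sq' ?_ (by norm_num)).2
  rw [EuclideanSpace.real_norm_sq_eq, Fin.sum_univ_three]
  have e0 : (pt ρ 0 - x) 0 = ρ - x 0 := rfl
  have e1 : (pt ρ 0 - x) 1 = 0 - x 1 := rfl
  have e2 : (pt ρ 0 - x) 2 = 0 - x 2 := rfl
  rw [e0, e1, e2]
  nlinarith [abs_le.1 h0, abs_le.1 h1]

theorem k2_layer (h : Tail k b L C c R GR d Gd V0 S) (hv : IsSumClassPotential v)
    (hk : SubS univ (fun x => v x - e2) 0 R GR) {f : E3 → ℝ} {G : E3 → E3} (hf : Orb v e2 R f G)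
    (hp : ∀ x : E3, 0 < x 0 → 0 < x 2 → 0 ≤ f x) {c' L' : ℝ} (hc : 0 < c')
    (hl : ∀ x : E3, L' ≤ x 0 → |x 1| ≤ 1 → x 2 = 3 → c' * gfun k b x ≤ f x) : ∃ c'' L'' : ℝ, 0 < c'' ∧
      ∀ ρ z, L'' ≤ ρ → 0 < z → 1 ≤ 16 * ρ * z → z ≤ 2 → c'' * z * gfun k b (pt ρ z) ≤ f (pt ρ z) := by
  have hk0 := h.kpos
  have hC : 0 ≤ C := by linarith [h.Cge]
  obtain ⟨M₁, hM₁, hbox⟩ := k2_box (κ := k ^ 2 + 2 * k * |b| + (C + 1)) (by positivity)
  obtain ⟨C₁, hC₁, hg⟩ := gfun_le k b hk0.le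
  obtain ⟨Q, hQ⟩ : ∃ Q, Q = C₁ * Real.exp (k * 5) := ⟨_, rfl⟩
  have hQ0 : 0 < Q := by rw [hQ]; positivity
  obtain ⟨L₁, hcmp⟩ := k2_cmp h hv hk (M := M₁ * Q) (m := 1 / (4 * Q)) (by positivity) (by positivity)
  refine ⟨c' / (3 * M₁ * Q) / (4 * Q), max (max (L₁ + 1) (L' + 1)) 10, by positivity,
    fun ρ z hρ hz h16 hz2 => ?_⟩
  simp only [max_le_iff] at hρ
  obtain ⟨⟨r1, r2⟩, r3⟩ := hρ
  have hρ0 : 0 < ρ := by linarith
  have hn := k2_lay_norm hρ0.le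
  have hg0 : 0 < gfun k b (pt ρ 0) := gfun_pos k b (norm_pos_iff.1 (by rwa [hn]))
  have hl0 : 0 < 1 / (32 * ρ) := by positivity
  obtain ⟨B, hB, hB1, hB2⟩ := hbox ρ (1 / (32 * ρ)) (gfun k b (pt ρ 0)) hl0.le hg0.le
  have hD : ∀ x : E3, |x 0 - ρ| ≤ 1 → |x 1| ≤ 1 → 1 / (32 * ρ) ≤ x 2 → x 2 ≤ 3 →
      ρ - 1 ≤ x 0 ∧ ρ - 1 ≤ cyl x ∧ ρ - 1 ≤ ‖x‖ ∧ 0 < gfun k b x ∧ gfun k b x ≤ Q * gfun k b (pt ρ 0) ∧
        gfun k b (pt ρ 0) ≤ Q * gfun k b x := by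
    intro x a0 a1 a2 a3
    have b0 : ρ - 1 ≤ x 0 := by linarith [(abs_le.1 a0).1]
    have b1 := b0.trans (k2_lay_x0 x)
    have b2 := b1.trans (cyl_le_norm x)
    have b3 := k2_lay_dist ρ a0 a1 (hl0.le.trans a2) a3
    have b4 : 0 < gfun k b x := gfun_pos k b (norm_pos_iff.1 (by linarith))
    obtain ⟨b5, b6⟩ := hg (pt ρ 0) x (by rwa [hn]) (by rw [hn]; linarith)
    have b7 : C₁ * Real.exp (k * ‖pt ρ 0 - x‖) ≤ Q := by
      rw [hQ]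
      gcongr
    exact ⟨b0, b1, b2, b4, b5.trans (by gcongr), b6.trans (by gcongr)⟩
  have c0 : Continuous fun x : E3 => |x 0 - ρ| := by fun_prop
  have c1 : Continuous fun x : E3 => |x 1| := by fun_prop
  have c2 : Continuous fun x : E3 => x 2 := by fun_prop
  have hlz : 1 / (32 * ρ) ≤ z / 2 := by
    rw [div_le_iff₀ (by positivity)]
    linarith
  have key := hcmp f G {x | |x 0 - ρ| < 1 ∧ |x 1| < 1 ∧ 1 / (32 * ρ) < x 2 ∧ x 2 < 3}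
    {x | |x 0 - ρ| ≤ 1 ∧ |x 1| ≤ 1 ∧ 1 / (32 * ρ) ≤ x 2 ∧ x 2 ≤ 3} B (c' / (3 * M₁ * Q)) hf
    ((isOpen_lt c0 continuous_const).inter ((isOpen_lt c1 continuous_const).inter
      ((isOpen_lt continuous_const c2).inter (isOpen_lt c2 continuous_const))))
    ((isClosed_le c0 continuous_const).inter ((isClosed_le c1 continuous_const).inter
      ((isClosed_le continuous_const c2).inter (isClosed_le c2 continuous_const))))
    (fun x hx => ⟨hx.1.le, hx.2.1.le, hx.2.2.1.le, hx.2.2.2.le⟩) (by positivity) ?_ ?_ hB.contDiffOn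
    hB.continuous.continuousOn ?_ ?_ (pt ρ z) ?_
  · obtain ⟨-, -, -, a1, a2, -⟩ := hD (pt ρ z) (by simp [pt]) (by simp [pt])
      (show 1 / (32 * ρ) ≤ z by linarith) (show z ≤ 3 by linarith)
    have a3 := hB2 z (by linarith)
    rw [show pt ρ z 2 = z from rfl] at key
    refine le_trans ?_ key
    rw [div_eq_mul_inv _ (4 * Q), mul_assoc, mul_assoc]
    refine mul_le_mul_of_nonneg_left ?_ (by positivity)
    have a4 : gfun k b (pt ρ 0) * (z / 2) ≤ B (pt ρ z) :=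
      le_trans (mul_le_mul_of_nonneg_left (by linarith) hg0.le) a3
    have a5 : gfun k b (pt ρ z) / Q * (z / 2) ≤ gfun k b (pt ρ 0) * (z / 2) :=
      mul_le_mul_of_nonneg_right ((div_le_iff₀' hQ0).2 a2) (by linarith)
    have a6 : (4 * Q)⁻¹ * (z * gfun k b (pt ρ z)) + 1 / (4 * Q) * z * gfun k b (pt ρ z) =
        gfun k b (pt ρ z) / Q * (z / 2) := by
      field_simp
      ring
    linarith
  · rintro x ⟨a0, a1, a2, a3⟩
    obtain ⟨-, b1, b2, -⟩ := hD x a0 a1 a2 a3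
    refine ⟨by linarith, ?_, by linarith⟩
    rw [div_le_iff₀ (by positivity)] at a2
    nlinarith [mul_le_mul_of_nonneg_right (show ρ / 2 ≤ ‖x‖ by linarith) (show 0 ≤ x 2 by nlinarith)]
  · rintro x ⟨a0, -, a2, -⟩
    exact hp x (by linarith [(abs_lt.1 a0).1]) (hl0.trans a2)
  · rintro x ⟨a0, a1, a2, a3⟩
    obtain ⟨-, -, b2, b4, -, b6⟩ := hD x a0.le a1.le a2.le a3.le
    obtain ⟨d1, d2, d3, -⟩ := hB1 x a0.le a1.le a2.le a3.le
    have hx2 : 0 < x 2 := hl0.trans a2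
    have hx1 : 1 ≤ ‖x‖ := by linarith
    refine ⟨d1, d2.trans ?_, le_trans (mul_le_mul_of_nonneg_right ?_ d1) d3⟩
    · calc _ ≤ Q * gfun k b x * M₁ * x 2 := by gcongr
        _ = _ := by ring
    · have e1 : (C + 1) / ‖x‖ ^ 2 ≤ C + 1 := div_le_self (by positivity) (one_le_pow₀ hx1)
      have e2 : 2 * k * |b| / ‖x‖ ≤ 2 * k * |b| := div_le_self (by positivity) hx1
      have e3 : -(2 * k * b / ‖x‖) ≤ 2 * k * |b| / ‖x‖ := by
        rw [← neg_div, ← mul_neg]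
        gcongr
        exact neg_le_abs b
      linarith
  · rintro x ⟨a0, a1, a2, a3⟩ hx
    obtain ⟨b0, -, -, b4, -, b6⟩ := hD x a0 a1 a2 a3
    obtain ⟨-, d2, -, d4⟩ := hB1 x a0 a1 a2 a3
    by_cases h3 : x 2 = 3
    · refine le_trans ?_ (hl x (by linarith) a1 h3)
      rw [h3] at d2
      calc _ ≤ c' / (3 * M₁ * Q) * (Q * gfun k b x * M₁ * 3) := by
            refine mul_le_mul_of_nonneg_left (d2.trans ?_) (by positivity)
            gcongr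
        _ = _ := by field_simp
    · rw [d4, mul_zero]
      · exact hp x (by linarith) (hl0.trans_le a2)
      · by_contra hne
        push Not at hne
        exact hx ⟨lt_of_le_of_ne a0 hne.1, lt_of_le_of_ne a1 hne.2.1, lt_of_le_of_ne a2 hne.2.2.symm,
          lt_of_le_of_ne a3 h3⟩
  · exact ⟨by simp [pt], by simp [pt], show 1 / (32 * ρ) < z by linarith, show z < 3 by linarith⟩

end Crest.Agent.R335
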