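import Crest.Agent.R335.Lib
import Crest.Agent.R335.K2_far
import Crest.Agent.R335.K2_lay

/-!
# R335/K2: lower bounds for positive solutions (SUB-LEAD part)

General comparison lemma (CMP).  `Ω ⊆ far L ∩ {z > 0} ∩ offA` open, `B ∈ C²`, `f ≥ 0` on `Ω` a continuous solution of `(-Δ/2 + v - e2) f = 0`,
`B ≤ M d` on `Ω`, `R - d ≤ (m / 2M) R` on `Ω`, `β = B + M (R - d) - m R ≤ B - (m/2) R`, `t = (c₀ β - f)₊ / R` (bounded; `H1loc` calculus, `R` is locally bounded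
above and below on `Ω`).  For `ξ = t χ²`:
`∫ R² ∇(f/R)·∇ξ = ∫ ∇f·∇(R ξ) - ∇R·∇(f ξ) ≥ 0` (equation of `f`, hypothesis `kato` with the test function `f ξ ≥ 0`), and
`∫ R² ∇(β/R)·∇ξ = ∫ ∇(B - M d)·∇(R ξ) + ∇R·∇((M d - B) ξ) ≤ -∫ [lap B - 2 V0 B - 2 M |S| - 2 (C/r⁴) M d - ...] R ξ` (`Tail.eqd`, `Tail.sub` with the test function
`(M d - B) ξ ≥ 0`).  On `{t > 0}`, `B ≥ (m/2) R ≥ (m/2) c z g`, so a margin `lap B - 2 V0 B ≥ μ(x) B` beats the errors if `μ (m/2) c z g` does.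
Subtract: `∫ R² ‖∇t‖² χ² + c₀ ∫ margin R t χ² ≤ 2 ∫ R² t χ ‖∇t‖ ‖∇χ‖`, so `t = 0` (`χ = χ_n`, `R ∈ L²`).  Boundary: `t = 0` a.e. on the open set
`N = {c₀ B - c₀ (m/2) c z g < f}`, which has to contain `∂Ω`.
* `lb_far`: `x̃ = x - e₃`, `B = z̃ (x² - y²) (ρ² - 2 z̃²) F(‖x̃‖)` (harmonic polynomial of degree 5: `lap (Y F) = Y (F'' + 12 F'/r̃)`),
  `F = r̃^(b-6) e^(-k r̃) (1 + r̃^(-1/2))`, `Ω = {|y| < x, z̃ > 0, 2 z̃² < ρ², r̃ > L₁}`; on the cap `r̃ = L₁` (compact in `{x > L', z ≥ 1}`) `f ≥ c₁ > 0`.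
* `no_pos`: `pos_of_nonneg` on the half space, `lb_far`, `lower_plane`, and `Tail.plane_le` (or `Tail.cont_le`): `c g ≤ f(ρ,0,0) ≤ C ρ^(-2) g`.
* `ulow`: `lb_far` + rotation invariance for `z ≥ 2`; for `lam/16 ≤ z ≤ 2` (CMP) on the box `|x - ρ|, |y| < 1`, `λ' < z < 3`, `λ' = lam ρ / 40`, with
  `B = g(ρ,0,0) sinh(ω (z - λ')) cos(π (x - ρ)/2) cos(π y/2)`, `ω² ≥ π²/2 + k² + 2`; there `(R - d)/R ≤ C ρ^(-4)/λ'² → 0`.
-/

set_option autoImplicit false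

namespace Crest.Agent.R335

open MeasureTheory Set Filter Topology
open scoped Gradient RealInnerProductSpace ENNReal ContDiff
open Crest.MathPhysics.ThreeBody

variable {k b L C c e1 e2 : ℝ} {R d V0 S v φ u ψ : E3 → ℝ} {GR Gd Gφ Gu Gψ : E3 → E3}


theorem lb_far (h : Tail k b L C c R GR d Gd V0 S) (hv : IsSumClassPotential v)
    (hk : SubS univ (fun x => v x - e2) 0 R GR) {f : E3 → ℝ} {G : E3 → E3} (hf : Orb v e2 R f G) {L' : ℝ}
    (hL : 0 ≤ L') (hp : ∀ x : E3, L' < x 0 → 0 < x 2 → 0 < f x) : ∃ c' L'' : ℝ, 0 < c' ∧ ∀ x : E3,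
      L'' ≤ x 0 → |x 1| ≤ 1 → 2 ≤ x 2 → x 2 ≤ 3 / 5 * x 0 → c' * x 2 * gfun k b x ≤ f x := by
  exact k2_lb_far h hv hk hf hL hp

theorem no_pos (h : Tail k b L C c R GR d Gd V0 S) (hv : IsSumClassPotential v) (hs : SymV v)
    (hk : SubS univ (fun x => v x - e2) 0 R GR) {f : E3 → ℝ} {G : E3 → E3} (hf : Orb v e2 R f G) {L' : ℝ}
    (hL : 0 ≤ L') (hp : ∀ x : E3, L' < x 0 → 0 ≤ f x) : ∀ x : E3, L' < x 0 → f x = 0 := by
  have hA : ∀ x : E3, L' < x 0 → x ∈ offA := fun x hx => by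
    have h1 : 0 < x 0 := hL.trans_lt hx
    exact Real.sqrt_pos.2 (by positivity)
  have hO : IsOpen {x : E3 | L' < x 0} := isOpen_lt continuous_const (by fun_prop)
  have hC : Convex ℝ {x : E3 | L' < x 0} :=
    convex_halfSpace_gt (EuclideanSpace.proj (0 : Fin 3) : E3 →L[ℝ] ℝ).toLinearMap.isLinear L'
  rcases pos_of_nonneg hv hs hf.eig hf.cont hO hC hA hp with h0 | h0
  · exact h0
  exfalso
  obtain ⟨c', L'', hc', hl⟩ := lb_far h hv hk hf hL fun x hx _ => h0 x hx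
  obtain ⟨c₁, hc₁, hpl⟩ := lower_plane hv hs e2
  obtain ⟨Q, hQ, hg⟩ := gfun_le k b h.kpos.le
  obtain ⟨M, hM⟩ := hf.dom
  have hM' : ∀ᵐ x, |f x| ≤ max M 0 * R x := hM.mono fun x hx =>
    hx.trans (mul_le_mul_of_nonneg_right (le_max_left _ _) (h.R0 x))
  have hup := h.plane_le hf.cont (le_max_right M 0) hM'
  have hCp := h.Cge
  set Q' := Q * Real.exp (k * 4) with hQ'
  have hQp : 0 < Q' := by positivity
  set κ := c₁ * (c' / Q') with hκ
  have hκp : 0 < κ := by positivity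
  obtain ⟨ρ, hρ⟩ : ∃ ρ : ℝ, max (max (L' + 9) (L'' + 1)) (max (max (L + 1) 10) (max M 0 * C / κ + 1)) ≤ ρ :=
    ⟨_, le_rfl⟩
  simp only [max_le_iff] at hρ
  obtain ⟨⟨r1, r2⟩, ⟨r3, r4⟩, r5⟩ := hρ
  have hn : ‖pt ρ 0‖ = ρ := by
    have h1 := norm_sq_cyl (pt ρ 0)
    rw [cyl_pt (by linarith), pt_2] at h1
    nlinarith [norm_nonneg (pt ρ 0)]
  have hg0 : 0 < gfun k b (pt ρ 0) := gfun_pos k b (norm_pos_iff.1 (by rw [hn]; linarith))
  have hco : ∀ (p y : E3) (i : Fin 3), |y i - p i| ≤ ‖y - p‖ := fun p y i => by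
    simpa using PiLp.norm_apply_le (y - p) i
  have key := hpl f G ρ (c' / Q' * gfun k b (pt ρ 0)) hf.eig hf.cont r4 (by positivity) (fun y hy => by
    have h1 := (abs_le.1 (hco (pt ρ 0) y 0)).1
    rw [mem_ball_iff_norm] at hy
    rw [pt_0] at h1
    exact hp y (by linarith)) fun y hy => by
    rw [mem_ball_iff_norm] at hy
    have h1 := abs_le.1 ((hco (pt ρ 3) y 0).trans hy.le)
    have h2 := (hco (pt ρ 3) y 1).trans hy.le
    have h3 := abs_le.1 ((hco (pt ρ 3) y 2).trans hy.le)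
    rw [pt_0] at h1
    rw [pt_1, sub_zero] at h2
    rw [pt_2] at h3
    have h4 : ‖pt ρ 0 - y‖ ≤ 4 := by
      have h5 := norm_pt_sub ρ 0 ρ 3
      have h6 := norm_sub_le_norm_sub_add_norm_sub (pt ρ 0) (pt ρ 3) y
      rw [norm_sub_rev (pt ρ 3)] at h6
      norm_num at h5
      linarith
    have h5 := (hg (pt ρ 0) y (by rw [hn]; linarith) (by rw [hn]; linarith)).2
    have hy0 : 0 ≤ gfun k b y := p7a_g k b y
    have h6 : gfun k b (pt ρ 0) ≤ Q' * gfun k b y := h5.trans (by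
      have := h.kpos
      rw [hQ']
      gcongr)
    have h7 := hl y (by linarith) (by linarith) (by linarith) (by linarith)
    calc c' / Q' * gfun k b (pt ρ 0) ≤ c' / Q' * (Q' * gfun k b y) := by gcongr
      _ = c' * 1 * gfun k b y := by field_simp
      _ ≤ c' * y 2 * gfun k b y := by gcongr; linarith
      _ ≤ f y := h7
  have h1 := (le_abs_self _).trans (hup ρ (by linarith))
  have h2 : κ * gfun k b (pt ρ 0) ≤ max M 0 * C / ρ ^ 3 * gfun k b (pt ρ 0) := by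
    rw [hκ, mul_assoc]
    exact key.trans h1
  have h3 := le_of_mul_le_mul_right h2 hg0
  have h4 : max M 0 * C / κ < ρ ^ 3 := by nlinarith [sq_nonneg (ρ - 1), sq_nonneg ρ]
  rw [div_lt_iff₀ hκp] at h4
  rw [le_div_iff₀ (by positivity)] at h3
  linarith

theorem ulow (h : Tail k b L C c R GR d Gd V0 S) (hv : IsSumClassPotential v)
    (hk : SubS univ (fun x => v x - e2) 0 R GR) (hu : OddU v e2 R u Gu) : ∃ c' L' : ℝ, 0 < c' ∧
      ∀ x, L' ≤ cyl x → lam (cyl x) / 16 ≤ x 2 → x 2 ≤ cyl x / 2 → c' * x 2 * gfun k b x ≤ u x := by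
  have hA : ∀ x : E3, 0 < x 0 → x ∈ offA := fun x hx => Real.sqrt_pos.2 (by positivity)
  obtain ⟨c₁, L₁, hc₁, h1⟩ := lb_far h hv hk hu.orb le_rfl fun x hx hz => hu.pos x (hA x hx) hz
  obtain ⟨c₂, L₂, hc₂, h2⟩ := k2_layer h hv hk hu.orb (fun x hx hz => (hu.pos x (hA x hx) hz).le)
    (c' := c₁ * 3) (L' := max L₁ 5) (by positivity) fun x a1 a2 a3 => by
      have a4 := (max_le_iff.1 a1).2
      have := h1 x (max_le_iff.1 a1).1 a2 (by linarith) (by linarith)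
      rwa [a3] at this
  refine ⟨min c₁ c₂, max (max L₁ L₂) 1, lt_min hc₁ hc₂, fun x a1 a2 a3 => ?_⟩
  simp only [max_le_iff] at a1
  obtain ⟨⟨a4, a5⟩, a6⟩ := a1
  obtain ⟨T, hT, e⟩ := exists_rot_pt x
  have hρ : 0 < cyl x := by linarith
  have e1 : u x = u (pt (cyl x) (x 2)) := by
    have := hu.symP T hT _ (hA (pt (cyl x) (x 2)) hρ)
    rwa [e] at this
  have e2 : gfun k b x = gfun k b (pt (cyl x) (x 2)) := by
    have : ‖x‖ = ‖pt (cyl x) (x 2)‖ := by rw [← T.norm_map (pt _ _), e]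
    simp only [gfun, this]
  have a7 : (cyl x)⁻¹ ≤ lam (cyl x) := by
    rw [← Real.rpow_neg_one]
    exact Real.rpow_le_rpow_of_exponent_le a6 (by norm_num)
  have a8 : 1 ≤ 16 * cyl x * x 2 := by
    have a9 : (cyl x)⁻¹ ≤ 16 * x 2 := by linarith
    rw [inv_le_iff_one_le_mul₀ hρ] at a9
    linarith
  have hz : 0 < x 2 := by
    by_contra hn
    nlinarith
  have hg := p7a_g k b (pt (cyl x) (x 2))
  rw [e1, e2]
  rcases le_total (x 2) 2 with a9 | a9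
  · refine le_trans ?_ (h2 _ _ a5 hz a8 a9)
    gcongr
    exact min_le_right _ _
  · refine le_trans ?_ (h1 (pt (cyl x) (x 2)) a4 (by simp) a9 (by rw [pt_0, pt_2]; linarith))
    rw [pt_2]
    gcongr
    exact min_le_left _ _

end Crest.Agent.R335
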