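import Crest.Agent.R335.K1_F
import Crest.Agent.R335.K2

/-!
# R335/K1_H: dominated eigenfunctions of the second level are invariant under `O(2)`
-/

set_option autoImplicit false

namespace Crest.Agent.R335

open MeasureTheory Set Filter Topology
open scoped Gradient RealInnerProductSpace ENNReal ContDiff
open Crest.MathPhysics.ThreeBody

variable {k b L C c e1 e2 : ℝ} {R d V0 S v φ : E3 → ℝ} {GR Gd Gφ : E3 → E3}

/-- `n = x - x'` is horizontal and nonzero, `exists_rot_pt n` gives `T` with `T (pt (cyl n) 0) = n`, `cyl n = ‖n‖ > 0`; `y = T.symm x`.  `T0 y = y - (2 y 0 / cyl n) • pt (cyl n) 0`, so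
`T (T0 y) = x - (2 y 0 / cyl n) • n`, and `cyl n * y 0 = ⟪y, pt (cyl n) 0⟫ = ⟪x, n⟫ = ‖n‖² / 2` because `‖x‖ = ‖x'‖` (`norm_sq_cyl`). -/
theorem k1_geo {T0 : E3 ≃ₗᵢ[ℝ] E3} (hT0 : ∀ x j, T0 x j = if j = 0 then -x j else x j) {x x' : E3}
    (h1 : cyl x = cyl x') (h2 : x 2 = x' 2) (hne : x ≠ x') :
    ∃ (T : E3 ≃ₗᵢ[ℝ] E3) (y : E3), SymP T ∧ T y = x ∧ T (T0 y) = x' := by
  obtain ⟨T, hT, hn⟩ := exists_rot_pt (x - x')
  have hz : (x - x') 2 = 0 := by simp [h2]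
  rw [hz] at hn
  have hρ : ‖x - x'‖ ^ 2 = cyl (x - x') ^ 2 := by rw [norm_sq_cyl, hz]; ring
  have hρ0 : cyl (x - x') ≠ 0 := by
    intro h0
    rw [h0] at hρ
    exact hne (sub_eq_zero.1 (norm_eq_zero.1 (pow_eq_zero_iff two_ne_zero |>.1 (by simpa using hρ))))
  set ρ := cyl (x - x') with hρd
  refine ⟨T, T.symm x, hT, T.apply_symm_apply x, ?_⟩
  set y := T.symm x with hy
  have e1 : T0 y = y - (2 * y 0 / ρ) • pt ρ 0 := by
    ext j
    rw [hT0]
    fin_cases j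
    · simp
      field_simp
      ring
    · simp
    · simp
  have e2 : ⟪x, x - x'⟫ = y 0 * ρ := by
    rw [← hn, ← T.apply_symm_apply x, ← hy, T.inner_map_map]
    simp [PiLp.inner_apply, Fin.sum_univ_three, mul_comm]
  have e3 : ‖x'‖ ^ 2 = ‖x‖ ^ 2 := by rw [norm_sq_cyl, norm_sq_cyl, h1, h2]
  have e4 := norm_sub_sq_real x (x - x')
  rw [sub_sub_cancel, e3, e2, hρ] at e4
  have e5 : 2 * y 0 / ρ = 1 := by
    rw [div_eq_one_iff_eq hρ0]
    refine mul_right_cancel₀ hρ0 ?_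
    linarith
  rw [e1, e5, one_smul, map_sub, hn, hy, T.apply_symm_apply, sub_sub_cancel]

theorem k1h_aux (h : Tail k b L C c R GR d Gd V0 S) (hv : IsSumClassPotential v) (hs : SymV v)
    (hk : SubS univ (fun x => v x - e2) 0 R GR) {g : E3 → ℝ} {K : E3 → E3} (hg : Orb v e2 R g K)
    (hp : ∀ᵐ x, 0 < x 0 → 0 < g x) : False := by
  have h1 := le_of_ae_le (f := fun _ => 0) (g := g) (k1_isOpen_half 0) continuousOn_const
    (hg.cont.mono k1_half_sub) (hp.mono fun x hx hx' => (hx hx').le)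
  have h2 := no_pos h hv hs hk hg le_rfl h1
  obtain ⟨x, hx, hx'⟩ := k1_exists_mem (k1_isOpen_half 0) ⟨pt 1 0, by simp⟩ hp
  exact (hx' hx).ne' (h2 x hx)

/-- `g = 1 * f + (-1) * f ∘ T0` is an `Orb` (`Orb.lin`, `k1_orb_comp`; `T0` is `SymP` and an involution by `hT0`, `ext`), odd under `T0`.  `k1_hs` with `i = 0`: `g = 0` a.e., or `± g > 0` a.e. on
`{0 < x 0}`; then `± g ≥ 0` everywhere on the half space (`le_of_ae_le`, `k1_half_sub`), `no_pos` with `L' = 0` gives `± g = 0` there, contradiction (`k1_exists_mem`).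
Conclude with `k1_eq_of_ae`. -/
theorem k1_xodd (h : Tail k b L C c R GR d Gd V0 S) (ho : OB v e1 e2 φ Gφ) (hs : SymV v)
    (hφ : ∀ T, Sym T → ∀ᵐ x, φ (T x) = φ x) (hk : SubS univ (fun x => v x - e2) 0 R GR) {f : E3 → ℝ} {G : E3 → E3}
    (hf : Orb v e2 R f G) {T0 : E3 ≃ₗᵢ[ℝ] E3} (hT0 : ∀ x j, T0 x j = if j = 0 then -x j else x j) :
    ∀ x ∈ offA, f (T0 x) = f x := by
  have hP : SymP T0 := fun x => by simp [hT0]
  have hS : Sym T0 := Or.inl hP
  have hTT : ∀ x, T0 (T0 x) = x := by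
    intro x
    ext j
    rw [hT0, hT0]
    split_ifs <;> simp
  have hv := FB.of_sumClass ho.cls
  have hf' := k1_orb_comp h hs hf hS
  have hg := Orb.lin hv h.R0 hf hf' 1 (-1)
  have hg' := Orb.lin hv h.R0 hf hf' (-1) 1
  rcases k1_hs ho 0 hT0 (hφ T0 hS) hg.eig (Eventually.of_forall fun x => by simp only [hTT]; ring) with h0 | h0 | h0
  · exact k1_eq_of_ae hf'.cont hf.cont (h0.mono fun x hx => by linarith)
  · exact (k1h_aux h ho.cls hs hk hg h0).elim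
  · exact (k1h_aux h ho.cls hs hk hg' (h0.mono fun x hx hx' => by linarith [hx hx'])).elim

/-- `x' = T x` has the same `cyl` and `z`; if `x' ≠ x` take `T', y` from `k1_geo` (`exists_refl 0`) and apply `k1_xodd` to `f ∘ T'` (`k1_orb_comp`) at `y ∈ offA` (`Sym.cyl_eq`). -/
theorem k1_symP (h : Tail k b L C c R GR d Gd V0 S) (ho : OB v e1 e2 φ Gφ) (hs : SymV v)
    (hφ : ∀ T, Sym T → ∀ᵐ x, φ (T x) = φ x) (hk : SubS univ (fun x => v x - e2) 0 R GR) {f : E3 → ℝ} {G : E3 → E3}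
    (hf : Orb v e2 R f G) : ∀ T, SymP T → ∀ x ∈ offA, f (T x) = f x := by
  intro T hT x hx
  by_cases hne : T x = x
  · rw [hne]
  obtain ⟨T0, -, -, -, -, hT0⟩ := exists_refl 0
  obtain ⟨T', y, hT', h1, h2⟩ := k1_geo hT0 (Sym.cyl_eq (Or.inl hT) x) (hT x) hne
  have hS : Sym T' := Or.inl hT'
  have hy : y ∈ offA := by
    have h3 : cyl y = cyl x := by rw [← hS.cyl_eq y, h1, Sym.cyl_eq (Or.inl hT) x]
    show 0 < cyl y
    rw [h3]
    exact hx
  have := k1_xodd h ho hs hφ hk (k1_orb_comp h hs hf hS) hT0 y hy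
  simp only [h1, h2] at this
  exact this.symm

end Crest.Agent.R335
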