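import Crest.Agent.R335.K1_I

/-!
# R335/K1_J: the density is not made of even orbitals only
-/

set_option autoImplicit false

namespace Crest.Agent.R335

open MeasureTheory Set Filter Topology
open scoped Gradient RealInnerProductSpace ENNReal ContDiff
open Crest.MathPhysics.ThreeBody

variable {k b L C c e1 e2 : ℝ} {R d V0 S v φ : E3 → ℝ} {GR Gd Gφ : E3 → E3}

/-- finite linear combinations (induction on the finset, `Eig.lin`; the zero function is an eigenfunction: `H1.zero`, `simp [bf, ip]`) -/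
theorem k1_eig_sum (hv : FB v) {e : ℝ} (s : Finset ℕ) {a : ℕ → E3 → ℝ} {Ga : ℕ → E3 → E3}
    (ha : ∀ j, Eig v e (a j) (Ga j)) (α : ℕ → ℝ) :
    Eig v e (fun x => ∑ j ∈ s, α j * a j x) fun x => ∑ j ∈ s, α j • Ga j x := by
  classical
  induction s using Finset.induction_on with
  | empty =>
    simp only [Finset.sum_empty]
    exact ⟨H1.zero, fun ξ K _ => by simp [bf, ip]⟩
  | insert j s hj ih =>
    simp only [Finset.sum_insert hj]
    simpa only [one_mul, one_smul] using Eig.lin hv (ha j) ih (α j) 1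

/-- `η = c / 2`, `L'` from `k1_even_le` for `e1` and for `e2`.  Choose (`k1_exists_mem`) `x` in the open nonempty set `{ρ₀ < cyl x, 1 < cyl x * x 2 < 2}`, `ρ₀ = max ..` (`> L, 0`), where `dens`, `Tail.dlow`, `Tail.dle` hold:
`R x ≥ c z g`, `B = η z g > 0` (`gfun_pos`).  `|φ| ≤ R` a.e. (`HasSum.nonneg`, `Tail.R0`), so `|φ x| ≤ B`.  For `N` let `σ = √(∑_{j < N} a j x ²)`; if `σ > 0` put
`α j = a j x / σ`, `w = ∑ α j a j` (`k1_eig_sum`): `|w| ≤ R` a.e. (`Finset.sum_mul_sq_le_sq_mul_sq`, `sum_le_hasSum`), `w x = σ`, so `σ ≤ B`.  Hence (`HasSum.tendsto_sum_nat`,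
`le_of_tendsto'`) `R x ² ≤ 3 B² < (2 B)²`. -/
theorem k1_not_even (h : Tail k b L C c R GR d Gd V0 S) (hv : IsSumClassPotential v) (hs : SymV v)
    (eφ : Eig v e1 φ Gφ) (cφ : ContinuousOn φ offA) (evφ : Even3 φ) {a : ℕ → E3 → ℝ} {Ga : ℕ → E3 → E3}
    (ha : ∀ j, Eig v e2 (a j) (Ga j)) (ca : ∀ j, ContinuousOn (a j) offA) (eva : ∀ j, Even3 (a j))
    (dens : ∀ᵐ x, HasSum (fun j => a j x ^ 2) (R x ^ 2 - 2 * φ x ^ 2)) : False := by
  have hη : 0 < c / 2 := half_pos h.cpos
  obtain ⟨L1, h1⟩ := k1_even_le h hv hs e1 hη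
  obtain ⟨L2, h2⟩ := k1_even_le h hv hs e2 hη
  set ρ : ℝ := max L (max L1 L2) with hρ
  have hL : L ≤ ρ := le_max_left _ _
  have hL1 : L1 ≤ ρ := (le_max_left _ _).trans (le_max_right _ _)
  have hL2 : L2 ≤ ρ := (le_max_right _ _).trans (le_max_right _ _)
  have hρ0 : 0 < ρ := by linarith [h.Lge]
  have hz : Continuous fun x : E3 => cyl x * x 2 := continuous_cyl.mul (by fun_prop)
  have hU : IsOpen {x : E3 | ρ < cyl x ∧ 1 < cyl x * x 2 ∧ cyl x * x 2 < 2} :=
    (isOpen_lt continuous_const continuous_cyl).inter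
      ((isOpen_lt continuous_const hz).inter (isOpen_lt hz continuous_const))
  have hne : {x : E3 | ρ < cyl x ∧ 1 < cyl x * x 2 ∧ cyl x * x 2 < 2}.Nonempty := by
    refine ⟨pt (ρ + 1) (3 / 2 / (ρ + 1)), ?_⟩
    have e : (ρ + 1) * (3 / 2 / (ρ + 1)) = 3 / 2 := by field_simp
    simp only [mem_ofPred_eq, cyl_pt (by linarith : 0 ≤ ρ + 1), pt_2, e]
    norm_num
  obtain ⟨x, ⟨x1, x2, x3⟩, hd, hlow, hle⟩ := k1_exists_mem hU hne (dens.and (h.dlow.and h.dle))
  have hc0 : 0 < cyl x := hρ0.trans x1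
  have hz0 : 0 < x 2 := by
    by_contra hn
    nlinarith [mul_nonneg hc0.le (neg_nonneg.2 (not_lt.1 hn))]
  have y1 : 1 / cyl x ≤ x 2 := by rw [div_le_iff₀ hc0]; linarith
  have y2 : x 2 ≤ 2 / cyl x := by rw [le_div_iff₀ hc0]; linarith
  have hn : L < ‖x‖ := (hL.trans_lt x1).trans_le (cyl_le_norm x)
  have hg : 0 < gfun k b x := gfun_pos k b (norm_pos_iff.1 (by linarith [h.Lge]))
  set B : ℝ := c / 2 * x 2 * gfun k b x with hB
  have hB0 : 0 < B := by positivity
  have hR : 2 * B ≤ R x := by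
    refine le_trans ?_ ((le_abs_self _).trans hle)
    refine le_of_mul_le_mul_left ?_ hz0
    have := hlow hn
    rw [hB]
    linarith
  have hφ : |φ x| ≤ B := by
    refine h1 φ Gφ eφ cφ evφ ?_ x (hL1.trans x1.le) y1 y2
    filter_upwards [dens] with y hy
    have := hy.nonneg fun j => sq_nonneg _
    exact abs_le_of_sq_le_sq (by nlinarith [sq_nonneg (φ y)]) (h.R0 y)
  have hS : ∀ N, ∑ j ∈ Finset.range N, a j x ^ 2 ≤ B ^ 2 := by
    intro N
    set s : ℝ := ∑ j ∈ Finset.range N, a j x ^ 2 with hs'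
    rcases le_or_gt s 0 with s0 | s0
    · exact s0.trans (sq_nonneg _)
    have hσ : 0 < √s := Real.sqrt_pos.2 s0
    have hσ2 : √s ^ 2 = s := Real.sq_sqrt s0.le
    have key := h2 _ _ (k1_eig_sum (FB.of_sumClass hv) (Finset.range N) ha fun j => a j x / √s)
      (continuousOn_finsetSum _ fun j _ => continuousOn_const.mul (ca j))
      (fun T hT y hy => Finset.sum_congr rfl fun j _ => by rw [eva j T hT y hy]) ?_ x (hL2.trans x1.le) y1 y2
    · have e : ∑ j ∈ Finset.range N, a j x / √s * a j x = √s := by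
        have : ∑ j ∈ Finset.range N, a j x / √s * a j x = s / √s := by
          rw [hs', Finset.sum_div]
          exact Finset.sum_congr rfl fun j _ => by ring
        rw [this, Real.div_sqrt]
      rw [e, abs_of_pos hσ] at key
      rw [← hσ2]
      exact pow_le_pow_left₀ hσ.le key 2
    · filter_upwards [dens] with y hy
      refine abs_le_of_sq_le_sq ?_ (h.R0 y)
      have e : ∑ j ∈ Finset.range N, (a j x / √s) ^ 2 = 1 := by
        simp only [div_pow]
        rw [← Finset.sum_div, hσ2]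
        exact div_self s0.ne'
      have a1 := Finset.sum_mul_sq_le_sq_mul_sq (Finset.range N) (fun j => a j x / √s) fun j => a j y
      have a2 := sum_le_hasSum (Finset.range N) (fun j _ => sq_nonneg _) hy
      rw [e, one_mul] at a1
      nlinarith [sq_nonneg (φ y)]
  have h3 := le_of_tendsto' hd.tendsto_sum_nat hS
  have h4 : φ x ^ 2 ≤ B ^ 2 := by
    rw [← sq_abs]
    exact pow_le_pow_left₀ (abs_nonneg _) hφ 2
  nlinarith

end Crest.Agent.R335
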