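import Crest.Agent.R335.K1_0

/-!
# R335/K1_K: continuous representatives, parity decomposition
-/

set_option autoImplicit false

namespace Crest.Agent.R335

open MeasureTheory Set Filter Topology
open scoped Gradient RealInnerProductSpace ENNReal ContDiff
open Crest.MathPhysics.ThreeBody

variable {k b L C c e1 e2 : ℝ} {R d V0 S v φ : E3 → ℝ} {GR Gd Gφ : E3 → E3}

/-- `|φ| ≤ 1 * R` a.e. (`HasSum.nonneg`, `Tail.R0`), `k1_exists_orb`; `OB` by `k1_nsq_congr`, `k1_ip_congr`; `Even3` by `k1_eq_of_ae`, `k1_contOn_comp`, `k1_ae_comp`;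
`φ' ≥ 0` on `offA` (`le_of_ae_le`), `pos_of_nonneg` on `{0 < x 0}` (`k1_half_sub`; not zero by `k1_exists_mem`), `Even3.eq_pt`. -/
theorem k1_phi (h : Tail k b L C c R GR d Gd V0 S) {ψ : ℕ → E3 → ℝ} {Gψ : ℕ → E3 → E3}
    (hk : KS v e1 e2 φ Gφ ψ Gψ R) (hs : SymV v) (hφ : ∀ T, Sym T → ∀ᵐ x, φ (T x) = φ x) :
    ∃ φ', φ' =ᵐ[volume] φ ∧ OB v e1 e2 φ' Gφ ∧ Orb v e1 R φ' Gφ ∧ Even3 φ' ∧ ∀ x ∈ offA, 0 < φ' x := by
  have hM : ∀ᵐ x, |φ x| ≤ 1 * R x := by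
    filter_upwards [hk.dens] with x hx
    have h1 := hx.nonneg fun j => sq_nonneg _
    rw [one_mul]
    exact abs_le_of_sq_le_sq (by nlinarith [sq_nonneg (φ x)]) (h.R0 x)
  obtain ⟨φ', h1, h2⟩ := k1_exists_orb h hk.ob.cls hs hk.ob.eig hM
  have hpos : ∀ᵐ x, 0 < φ' x := by
    filter_upwards [h1, hk.ob.pos] with x a1 a2
    rwa [a1]
  have hev : Even3 φ' := fun T hT => by
    refine k1_eq_of_ae (k1_contOn_comp h2.cont hT) h2.cont ?_
    filter_upwards [h1, k1_ae_comp T h1, hφ T hT] with x a1 a2 a3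
    rw [a2, a3, a1]
  have h0 : ∀ x ∈ offA, 0 ≤ φ' x :=
    le_of_ae_le isOpen_offA continuousOn_const h2.cont (hpos.mono fun x hx _ => hx.le)
  refine ⟨φ', h1, ⟨hk.ob.cls, hk.ob.lt, h2.eig, (k1_nsq_congr h1).trans hk.ob.nφ, hpos, fun f G hf => ?_⟩,
    h2, hev, fun x hx => ?_⟩
  · rw [k1_ip_congr h1 EventuallyEq.rfl]; exact hk.ob.low f G hf
  · rcases pos_of_nonneg hk.ob.cls hs h2.eig h2.cont (k1_isOpen_half 0) (k1_convex_half 0) k1_half_sub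
      (fun y hy => h0 y (k1_half_sub hy)) with hz | hp
    · obtain ⟨y, hy, hy'⟩ := k1_exists_mem (k1_isOpen_half 0) ⟨pt 1 0, by simp⟩ hpos
      exact absurd (hz y hy) hy'.ne'
    · rw [hev.eq_pt hx]
      exact hp _ (show 0 < pt (cyl x) |x 2| 0 from hx)

/-- `|ψ j| ≤ 1 * R` a.e. (`le_hasSum`), continuous representatives `w j` (`k1_exists_orb`, `choose`, `ae_all_iff`), `T₀` from `exists_refl 2` (an involution, `SymM`),
`p j = ½ w j + ½ w j ∘ T₀`, `q j = ½ w j + (-½) w j ∘ T₀` (`Orb.lin`, `k1_orb_comp`).  For `SymM T`, `P = T₀.trans T` is `SymP` and `T x = P (T₀ x)`, so `hP` for `p j`, `q j` gives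
`p j (T x) = p j (T₀ x) = p j x`, `q j (T x) = q j (T₀ x) = - q j x`.  `p j ² + q j ² = (w j ² + (w j ∘ T₀)²) / 2` pointwise; `k1_ae_comp T₀`, `Tail.sym`, `hφ`;
`nsq (p j), nsq (q j) ≤ nsq (p j) + nsq (q j) = nsq (ψ j)` (`nsq_lin`, `k1_nsq_comp`, `k1_nsq_congr`, `Summable.of_nonneg_of_le`). -/
theorem k1_parity (h : Tail k b L C c R GR d Gd V0 S) {ψ : ℕ → E3 → ℝ} {Gψ : ℕ → E3 → E3}
    (hk : KS v e1 e2 φ Gφ ψ Gψ R) (hs : SymV v) (hφ : ∀ T, Sym T → ∀ᵐ x, φ (T x) = φ x)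
    (hP : ∀ f G, Orb v e2 R f G → ∀ T, SymP T → ∀ x ∈ offA, f (T x) = f x) :
    ∃ (p q : ℕ → E3 → ℝ) (Gp Gq : ℕ → E3 → E3), (∀ j, Orb v e2 R (p j) (Gp j)) ∧ (∀ j, Orb v e2 R (q j) (Gq j)) ∧
      (∀ j, Even3 (p j)) ∧ (∀ j T, SymM T → ∀ x ∈ offA, q j (T x) = -q j x) ∧
      (Summable fun j => nsq (p j)) ∧ (Summable fun j => nsq (q j)) ∧
      ∀ᵐ x, HasSum (fun j => p j x ^ 2 + q j x ^ 2) (R x ^ 2 - 2 * φ x ^ 2) := by
  have hv := FB.of_sumClass hk.ob.cls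
  have hM : ∀ j, ∀ᵐ x, |ψ j x| ≤ 1 * R x := fun j => by
    filter_upwards [hk.dens] with x hx
    have h1 := le_hasSum hx j fun i _ => sq_nonneg _
    rw [one_mul]
    exact abs_le_of_sq_le_sq (by nlinarith [sq_nonneg (φ x)]) (h.R0 x)
  choose w hw1 hw2 using fun j => k1_exists_orb h hk.ob.cls hs (hk.eig j) (hM j)
  obtain ⟨T₀, hS, -, hSM, hTT, -⟩ := exists_refl 2
  have hSM' := hSM rfl
  have op : ∀ j (β : ℝ), Orb v e2 R (fun x => (1 / 2) * w j x + β * w j (T₀ x)) _ := fun j β =>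
    Orb.lin hv h.R0 (hw2 j) (k1_orb_comp h hs (hw2 j) hS) (1 / 2) β
  have tr : ∀ j (β : ℝ) T, SymM T → ∀ x ∈ offA,
      (1 / 2) * w j (T x) + β * w j (T₀ (T x)) = (1 / 2) * w j (T₀ x) + β * w j x := by
    intro j β T hT x hx
    have hPs : SymP (T₀.trans T) := fun y => by
      rw [LinearIsometryEquiv.trans_apply, hT, hSM', neg_neg]
    have := hP _ _ (op j β) _ hPs (T₀ x) (hS.mem_offA hx)
    simpa only [LinearIsometryEquiv.trans_apply, hTT] using this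
  have hn : ∀ j, nsq (fun x => (1 / 2) * w j x + (1 / 2) * w j (T₀ x)) +
      nsq (fun x => (1 / 2) * w j x + (-(1 / 2)) * w j (T₀ x)) = nsq (ψ j) := fun j => by
    have m1 := (hw2 j).eig.h1.mf
    have m2 := (k1_orb_comp h hs (hw2 j) hS).eig.h1.mf
    rw [nsq_lin m1 m2, nsq_lin m1 m2, k1_nsq_comp (w j) T₀, k1_nsq_congr (hw1 j)]
    ring
  refine ⟨fun j x => (1 / 2) * w j x + (1 / 2) * w j (T₀ x), fun j x => (1 / 2) * w j x + (-(1 / 2)) * w j (T₀ x),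
    _, _, fun j => op j _, fun j => op j _, fun j T hT x hx => ?_, fun j T hT x hx => ?_, ?_, ?_, ?_⟩
  · rcases hT with hT | hT
    · exact hP _ _ (op j _) T hT x hx
    · exact (tr j _ T hT x hx).trans (by ring)
  · exact (tr j _ T hT x hx).trans (by ring)
  · exact Summable.of_nonneg_of_le (fun j => nsq_nonneg)
      (fun j => by rw [← hn j]; exact le_add_of_nonneg_right nsq_nonneg) hk.sum.summable
  · exact Summable.of_nonneg_of_le (fun j => nsq_nonneg)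
      (fun j => by rw [← hn j]; exact le_add_of_nonneg_left nsq_nonneg) hk.sum.summable
  · have hd : ∀ᵐ x, HasSum (fun j => w j x ^ 2) (R x ^ 2 - 2 * φ x ^ 2) := by
      filter_upwards [hk.dens, ae_all_iff.2 hw1] with x a1 a2
      simpa only [a2] using a1
    filter_upwards [hd, k1_ae_comp T₀ hd, h.sym T₀ hS, hφ T₀ hS] with x a1 a2 a3 a4
    rw [a3, a4] at a2
    have a5 := (a1.add a2).div_const 2
    rw [add_self_div_two] at a5
    have e : ∀ j, (w j x ^ 2 + w j (T₀ x) ^ 2) / 2 = ((1 / 2) * w j x + (1 / 2) * w j (T₀ x)) ^ 2 +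
        ((1 / 2) * w j x + (-(1 / 2)) * w j (T₀ x)) ^ 2 := fun j => by ring
    simp only [e] at a5
    exact a5

end Crest.Agent.R335
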