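import Crest.Agent.R335.K1_G

/-!
# R335/K1_M: the odd orbital
-/

set_option autoImplicit false

namespace Crest.Agent.R335

open MeasureTheory Set Filter Topology
open scoped Gradient RealInnerProductSpace ENNReal ContDiff
open Crest.MathPhysics.ThreeBody

variable {k b L C c e1 e2 : ℝ} {R d V0 S v φ : E3 → ℝ} {GR Gd Gφ : E3 → E3}

/-- an odd orbital which is positive a.e. on `{0 < z}` is an `OddU`: `u ≥ 0` on `Ω = {0 < x 0} ∩ {0 < x 2}` (`le_of_ae_le`), `pos_of_nonneg` on `Ω` (`k1_isOpen_half`, `k1_convex_half`,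
`k1_half_sub`; the zero case is excluded by `k1_exists_mem`), `exists_rot_pt` and `hP`. -/
theorem k1_oddU (hv : IsSumClassPotential v) (hs : SymV v) {u : E3 → ℝ} {Gu : E3 → E3} (hu : Orb v e2 R u Gu)
    (hP : ∀ T, SymP T → ∀ x ∈ offA, u (T x) = u x) (hM : ∀ T, SymM T → ∀ x ∈ offA, u (T x) = -u x)
    (hp : ∀ᵐ x, 0 < x 2 → 0 < u x) : OddU v e2 R u Gu := by
  have hΩ : IsOpen ({x : E3 | 0 < x 0} ∩ {x : E3 | 0 < x 2}) :=
    (k1_isOpen_half 0).inter (k1_isOpen_half 2)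
  have hA : ({x : E3 | 0 < x 0} ∩ {x : E3 | 0 < x 2}) ⊆ offA := inter_subset_left.trans k1_half_sub
  have h0 : ∀ x ∈ ({x : E3 | 0 < x 0} ∩ {x : E3 | 0 < x 2}), (0 : ℝ) ≤ u x :=
    le_of_ae_le (f := fun _ => 0) hΩ continuousOn_const (hu.cont.mono hA)
      (hp.mono fun x hx hx' => (hx hx'.2).le)
  refine ⟨hu, hP, hM, fun x hx hx2 => ?_⟩
  have hy : pt (cyl x) (x 2) ∈ ({x : E3 | 0 < x 0} ∩ {x : E3 | 0 < x 2}) := ⟨hx, hx2⟩
  rcases pos_of_nonneg hv hs hu.eig hu.cont hΩ ((k1_convex_half 0).inter (k1_convex_half 2)) hA h0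
    with hz | hz
  · obtain ⟨y, hy1, hy2⟩ := k1_exists_mem hΩ ⟨_, hy⟩ hp
    exact absurd (hz y hy1) (hy2 hy1.2).ne'
  · obtain ⟨T, hT, hTx⟩ := exists_rot_pt x
    rw [← hTx, hP T hT _ (hA hy)]
    exact hz _ hy
/-- `T₀` from `exists_refl 2`, all `q j` are odd a.e. (`ae_offA`).  `k1_hs` for `q j₀`: `u₀ = σ q j₀`, `σ = ± 1`, is positive a.e. on `{0 < z}` (`Orb.lin` with `β = 0`).  `k1_prop`: `q j = t j u₀` a.e.,
`nsq (q j) = t j ² nsq u₀` with `nsq u₀ > 0`, so `t j ²` is summable with sum `τ ≥ t j₀ ² > 0` (`le_hasSum`; `t j₀ ≠ 0` by `hne`).  `u = √τ u₀`, `k1_oddU`, `HasSum.mul_right`, `ae_all_iff`. -/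
theorem k1_odd (h : Tail k b L C c R GR d Gd V0 S) (ho : OB v e1 e2 φ Gφ) (hs : SymV v)
    (hφ : ∀ T, Sym T → ∀ᵐ x, φ (T x) = φ x)
    (hP : ∀ f G, Orb v e2 R f G → ∀ T, SymP T → ∀ x ∈ offA, f (T x) = f x) {q : ℕ → E3 → ℝ} {Gq : ℕ → E3 → E3}
    (hq : ∀ j, Orb v e2 R (q j) (Gq j)) (hM : ∀ j T, SymM T → ∀ x ∈ offA, q j (T x) = -q j x)
    (hsum : Summable fun j => nsq (q j)) {j₀ : ℕ} (hne : ¬ ∀ᵐ x, q j₀ x = 0) :
    ∃ u Gu, OddU v e2 R u Gu ∧ ∀ᵐ x, HasSum (fun j => q j x ^ 2) (u x ^ 2) := by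
  have hv : FB v := FB.of_sumClass ho.cls
  obtain ⟨T, hT, -, hTM, -, hTx⟩ := exists_refl 2
  have hodd : ∀ j, ∀ᵐ x, q j (T x) = -q j x := fun j =>
    ae_offA.mono fun x hx => hM j T (hTM rfl) x hx
  have hsc : ∀ σ : ℝ, Orb v e2 R (fun x => σ * q j₀ x) fun x => σ • Gq j₀ x := fun σ => by
    have := Orb.lin hv h.R0 (hq j₀) (hq j₀) σ 0
    simpa only [zero_mul, add_zero, zero_smul] using this
  obtain ⟨σ, hσ⟩ : ∃ σ : ℝ, ∀ᵐ x, 0 < x 2 → 0 < σ * q j₀ x := by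
    rcases k1_hs ho 2 hTx (hφ T hT) (hq j₀).eig (hodd j₀) with h1 | h1 | h1
    · exact absurd h1 hne
    · exact ⟨1, h1.mono fun x hx hx2 => by simpa using hx hx2⟩
    · exact ⟨-1, h1.mono fun x hx hx2 => by simpa using hx hx2⟩
  have hodd' : ∀ᵐ x, σ * q j₀ (T x) = -(σ * q j₀ x) := (hodd j₀).mono fun x hx => by rw [hx]; ring
  choose t ht using fun j => k1_prop ho 2 hTx (hφ T hT) (hq j).eig (hsc σ).eig (hodd j) hodd' hσ
  have ht0 : t j₀ ≠ 0 := fun h0 => hne ((ht j₀).mono fun x hx => by rw [hx, h0, zero_mul])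
  have hn : ∀ j, nsq (q j) = t j ^ 2 * nsq (fun x => σ * q j₀ x) := fun j => by
    rw [k1_nsq_congr (ht j)]
    simp only [nsq, mul_pow (t j), integral_const_mul]
  have hn0 : nsq (fun x => σ * q j₀ x) ≠ 0 := fun h0 => by
    apply hne
    apply nsq_eq_zero (hq j₀).eig.h1.mf
    rw [hn, h0, mul_zero]
  have hst : Summable fun j => t j ^ 2 := by
    simp only [hn] at hsum
    exact (summable_mul_right_iff hn0).1 hsum
  set τ := ∑' j, t j ^ 2 with hτ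
  have hτ0 : 0 < τ := lt_of_lt_of_le (by positivity)
    (le_hasSum hst.hasSum j₀ fun j _ => sq_nonneg _)
  refine ⟨_, _, k1_oddU ho.cls hs (hsc (√τ * σ)) (hP _ _ (hsc (√τ * σ))) (fun T' hT' x hx => ?_)
    (hσ.mono fun x hx hx2 => ?_), ?_⟩
  · simp only [hM j₀ T' hT' x hx, mul_neg]
  · rw [mul_assoc]
    exact mul_pos (Real.sqrt_pos.2 hτ0) (hx hx2)
  · filter_upwards [ae_all_iff.2 ht] with x hx
    have h1 := hst.hasSum.mul_right ((σ * q j₀ x) ^ 2)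
    rw [mul_assoc, mul_pow, Real.sq_sqrt hτ0.le]
    refine h1.congr_fun ?_
    intro j
    rw [hx j, mul_pow]
end Crest.Agent.R335
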