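import Crest.Agent.R335.K1_A
import Crest.Agent.R335.K1_B
import Crest.Agent.R335.K1_E
import Crest.Agent.R335.K1_H
import Crest.Agent.R335.K1_J
import Crest.Agent.R335.K1_K
import Crest.Agent.R335.K1_M

/-!
# R335/K1: symmetry reduction (SUB-LEAD part)

`δ = e2 - e1`, `E₂` = eigenfunctions for `e2` (orthogonal to `φ` by `Eig.orth`; `f ⊥ φ` with `qf f ≤ e2 nsq f` is in `E₂` by `euler_rank_one`).
1. `SymV v` (one-body Hohenberg-Kohn).  `‖∇ψ_j‖² ≤ C nsq ψ_j` (`FB.kin_le`), so all sums below converge and `∫ |v| R² < ∞` (monotone convergence).  For `Sym T`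
   put `φ' = φ∘T`, `ψ'_j = ψ_j∘T` (same density since `R∘T = R`, same kinetic energy): `2 qf v φ' + ∑ qf v ψ'_j = 2 e1 + e2`.  `OB.low` gives the lower bound
   `3 e2 - δ (2 c² + ∑ ip φ ψ'_j ²)`, `c = ip φ φ'`, `ip φ ψ'_j ² ≤ (1 - c²) nsq ψ_j`.  So `c² = 1`, `φ' = φ` a.e.; comparing the equations of `φ` and `φ∘T`
   gives `(v - v∘T) φ = 0` (test with `Tst` functions; `ae_eq_zero_of_integral_contDiff_smul_eq_zero`).
2. `kato`: `R_N = √(2 φ² + ∑_{j<N} ψ_j²)` (`H1.norm_sum`) is a subsolution (test the equations with `ξ U_i/√(R_N² + ε²)` for bounded `ξ`, the term of `φ`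
   has the good sign `δ φ² ≥ 0`; approximate a general `TH` function `ξ ≥ 0` by `TH.dense`), `R_N → R` in `L²` with bounded gradients (`H1.of_bdd`, `H1.unique`).
3. (HS) if `f ∈ E₂` is odd in the coordinate `x_i` then `f⁺ = |f| sgn x_i ∈ E₂` (`H1.half`, odd hence `⊥ φ`), `f⁺ ± f ≥ 0` on the half space, so by `pos_or_zero`
   `f = 0` or `f` has a strict sign on the half space; two such functions are proportional (choose `t` with `ip (f - t f') f' = 0`).
4. Parity parts `ψ_j^χ = (1/8) ∑_g χ(g) ψ_j∘g`, `g ∈ (ℤ/2)³` (or three successive even/odd splittings): `R² = 2 φ² + ∑_j ∑_χ (ψ_j^χ)²` a.e., each part is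
   dominated by `R`; parts which are odd in two coordinates vanish by (HS).  Continuous representatives: `exists_cont` (`Tail.bdd`).
5. `x`-odd parts vanish: such a part has a sign on `{x > 0}`, `no_pos`.  `y`-odd parts: rotate by `π/2`.
6. All-even parts `f` are `Even3`: for a rotation `T`, `f∘T ∈ E₂` is invariant under the rotation by `π`, so its `x`-odd part is `y`-odd, hence `0`; so `f` is invariant under
   all reflections in vertical planes, which generate the `SymP` maps (a `SymP` map is a rotation or a rotation composed with `x ↦ -x`; or use directly: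
   two points with the same `cyl` and `z` are exchanged by such a reflection).
7. The `z`-odd parts are `c_j u₀`; they are not all `0`: otherwise `R² = 2 φ² + ∑ f_j²` with even `f_j`; for a unit vector `(a_j)` of finite support `w = ∑ a_j f_j ∈ E₂`, `|w| ≤ R`,
   `ss` with `s = ρ^(-1/2)`, `z ∈ [1/ρ, 2/ρ]`, `Tail.cont_le` give `|w|, φ ≤ C ρ^(-1/2) z g`, contradicting `Tail.dlow` on a set of positive measure.
   `u = √(∑ c_j²) u₀`, rotation invariant by (HS), positive by `pos_of_nonneg` on `{x > 0, z > 0}`.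

Implementation (helper22): files `K1_*`.  Steps 4-6 are shortened: the `x`-odd part of `f ∘ T` vanishes for every dominated `f ∈ E₂` and every `SymP T`,
so every such `f` is invariant under all reflections in vertical planes (`k1_symP`); only the parity in `z` is needed.
-/

set_option autoImplicit false

namespace Crest.Agent.R335

open MeasureTheory Set Filter Topology
open scoped Gradient RealInnerProductSpace ENNReal ContDiff
open Crest.MathPhysics.ThreeBody

variable {k b L C c e1 e2 : ℝ} {R d V0 S v φ u ψ : E3 → ℝ} {GR Gd Gφ Gu Gψ : E3 → E3}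


theorem ks2_of_ks (h : Tail k b L C c R GR d Gd V0 S) {ψ : ℕ → E3 → ℝ} {Gψ : ℕ → E3 → E3}
    (hk : KS v e1 e2 φ Gφ ψ Gψ R) : ∃ (φ' u : E3 → ℝ) (Gu : E3 → E3) (ψ' : ℕ → E3 → ℝ) (Gψ' : ℕ → E3 → E3),
      KS2 v e1 e2 R φ' Gφ u Gu ψ' Gψ' := by
  have hv : FB v := FB.of_sumClass hk.ob.cls
  have hφ : ∀ T, Sym T → ∀ᵐ x, φ (T x) = φ x := fun T hT => k1_phi_sym hk h.hR T (h.sym T hT)
  have hs : SymV v := fun T hT => k1_v_sym hv hk.ob.eig hk.ob.pos T (hφ T hT)
  have hka : ∀ GR, H1 R GR → SubS univ (fun x => v x - e2) 0 R GR := fun _ hR => k1_kato hk h.R0 hR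
  have hP : ∀ f G, Orb v e2 R f G → ∀ T, SymP T → ∀ x ∈ offA, f (T x) = f x := fun f G hf =>
    k1_symP h hk.ob hs hφ (hka GR h.hR) hf
  obtain ⟨φ', e0, ho, oφ, evφ, posφ⟩ := k1_phi h hk hs hφ
  obtain ⟨p, q, Gp, Gq, hp, hq, evp, hM, sp, sq, dens⟩ := k1_parity h hk hs hφ hP
  have hne : ∃ j, ¬ ∀ᵐ x, q j x = 0 := by
    by_contra hc
    push Not at hc
    refine k1_not_even h hk.ob.cls hs oφ.eig oφ.cont evφ (fun j => (hp j).eig) (fun j => (hp j).cont) evp ?_
    filter_upwards [dens, ae_all_iff.2 hc, e0] with x h1 h2 h3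
    simpa [h2, h3] using h1
  obtain ⟨j₀, hne⟩ := hne
  obtain ⟨u, Gu, hu, hsum⟩ := k1_odd h hk.ob hs hφ hP hq hM sq hne
  refine ⟨φ', u, Gu, p, Gp, ho, hs, oφ, evφ, posφ, hu, hp, evp, sp, ?_, hka⟩
  filter_upwards [dens, hsum, e0] with x h1 h2 h3
  simpa [h3] using h1.sub h2

end Crest.Agent.R335
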