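import Crest.Agent.R335.Lib

/-!
# R335/K1_0: small tools for the symmetry reduction
-/

set_option autoImplicit false

namespace Crest.Agent.R335

open MeasureTheory Set Filter Topology
open scoped Gradient RealInnerProductSpace ENNReal ContDiff
open Crest.MathPhysics.ThreeBody

variable {k b L C c e1 e2 : ℝ} {R d V0 S v φ : E3 → ℝ} {GR Gd Gφ : E3 → E3}

/-- an a.e. statement can be transported by an isometry -/
theorem k1_ae_comp (T : E3 ≃ₗᵢ[ℝ] E3) {p : E3 → Prop} (h : ∀ᵐ x, p x) : ∀ᵐ x, p (T x) :=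
  T.measurePreserving.quasiMeasurePreserving.ae h

/-- an a.e. statement holds at some point of a nonempty open set -/
theorem k1_exists_mem {U : Set E3} (hU : IsOpen U) (hne : U.Nonempty) {p : E3 → Prop} (h : ∀ᵐ x, p x) :
    ∃ x ∈ U, p x :=
  Measure.exists_mem_of_measure_ne_zero_of_ae (hU.measure_pos volume hne).ne' (ae_restrict_of_ae h)

theorem k1_eq_of_ae {f g : E3 → ℝ} (hf : ContinuousOn f offA) (hg : ContinuousOn g offA) (h : ∀ᵐ x, f x = g x) :
    ∀ x ∈ offA, f x = g x := fun x hx =>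
  le_antisymm (le_of_ae_le isOpen_offA hf hg (h.mono fun _ hy _ => hy.le) x hx)
    (le_of_ae_le isOpen_offA hg hf (h.mono fun _ hy _ => hy.ge) x hx)

theorem Sym.mem_offA {T : E3 ≃ₗᵢ[ℝ] E3} (hT : Sym T) {x : E3} (hx : x ∈ offA) : T x ∈ offA := by
  have h : 0 < cyl x := hx
  change 0 < cyl (T x)
  rwa [hT.cyl_eq]

theorem k1_contOn_comp {f : E3 → ℝ} (hf : ContinuousOn f offA) {T : E3 ≃ₗᵢ[ℝ] E3} (hT : Sym T) :
    ContinuousOn (fun x => f (T x)) offA :=
  hf.comp T.continuous.continuousOn fun _ hx => hT.mem_offA hx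

theorem k1_orb_comp (h : Tail k b L C c R GR d Gd V0 S) (hs : SymV v) {e : ℝ} {f : E3 → ℝ} {G : E3 → E3}
    (hf : Orb v e R f G) {T : E3 ≃ₗᵢ[ℝ] E3} (hT : Sym T) :
    Orb v e R (fun x => f (T x)) fun x => T.symm (G (T x)) := by
  obtain ⟨M, hM⟩ := hf.dom
  refine ⟨hf.eig.comp_iso T (hs T hT), k1_contOn_comp hf.cont hT, M, ?_⟩
  filter_upwards [k1_ae_comp T hM, h.sym T hT] with x h1 h2
  rwa [h2] at h1

/-- a continuous representative of a dominated eigenfunction -/
theorem k1_exists_orb (h : Tail k b L C c R GR d Gd V0 S) (hv : IsSumClassPotential v) (hs : SymV v) {e M : ℝ}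
    {f : E3 → ℝ} {G : E3 → E3} (hf : Eig v e f G) (hM : ∀ᵐ x, |f x| ≤ M * R x) :
    ∃ f', f' =ᵐ[volume] f ∧ Orb v e R f' G := by
  have hb : Bl offA f := by
    intro K hK hs
    obtain ⟨N, hN⟩ := h.bdd.2 K hK hs
    refine ⟨|M| * N, ?_⟩
    filter_upwards [hM, hN] with x h1 h2 hx
    refine h1.trans ((le_abs_self _).trans ?_)
    rw [abs_mul]
    exact mul_le_mul_of_nonneg_left (h2 hx) (abs_nonneg _)
  obtain ⟨f', h1, h2⟩ := exists_cont hv hs hf hb
  refine ⟨f', h1, hf.congr h1.symm EventuallyEq.rfl, h2, M, ?_⟩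
  filter_upwards [hM, h1] with x a1 a2
  rwa [a2]

theorem k1_nsq_congr {f g : E3 → ℝ} (h : f =ᵐ[volume] g) : nsq f = nsq g :=
  integral_congr_ae (h.mono fun x hx => by simp only [hx])

theorem k1_ip_congr {f g f' g' : E3 → ℝ} (h : f =ᵐ[volume] f') (h' : g =ᵐ[volume] g') : ip f g = ip f' g' := by
  refine integral_congr_ae ?_
  filter_upwards [h, h'] with x h1 h2
  simp only [h1, h2]

theorem k1_nsq_comp (f : E3 → ℝ) (T : E3 ≃ₗᵢ[ℝ] E3) : nsq (fun x => f (T x)) = nsq f :=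
  s1_int_iso T fun x => f x ^ 2

theorem k1_ip_comp (f g : E3 → ℝ) (T : E3 ≃ₗᵢ[ℝ] E3) : ip (fun x => f (T x)) (fun x => g (T x)) = ip f g :=
  s1_int_iso T fun x => f x * g x

/-- an even function is orthogonal to an odd function -/
theorem k1_ip_odd {f g : E3 → ℝ} (T : E3 ≃ₗᵢ[ℝ] E3) (hf : ∀ᵐ x, f (T x) = f x) (hg : ∀ᵐ x, g (T x) = -g x) :
    ip f g = 0 := by
  have h1 := k1_ip_comp f g T
  have h2 : ip (fun x => f (T x)) (fun x => g (T x)) = -ip f g := by
    unfold ip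
    rw [← integral_neg]
    refine integral_congr_ae ?_
    filter_upwards [hf, hg] with x a1 a2
    rw [a1, a2, mul_neg]
  linarith

theorem k1_isOpen_half (i : Fin 3) : IsOpen {x : E3 | 0 < x i} :=
  isOpen_lt continuous_const (by fun_prop)

theorem k1_convex_half (i : Fin 3) : Convex ℝ {x : E3 | 0 < x i} := by
  intro x hx y hy s t hs ht hst
  have hx' : 0 < x i := hx
  have hy' : 0 < y i := hy
  change 0 < (s • x + t • y) i
  simp only [PiLp.add_apply, PiLp.smul_apply, smul_eq_mul]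
  rcases hs.eq_or_lt with h0 | h0
  · have : t = 1 := by linarith
    rw [← h0, this]; simpa using hy'
  · have := mul_pos h0 hx'
    have := mul_nonneg ht hy'.le
    linarith

theorem k1_half_sub : {x : E3 | 0 < x 0} ⊆ offA := by
  intro x hx
  have hx' : 0 < x 0 := hx
  change 0 < cyl x
  exact Real.sqrt_pos.2 (by positivity)

end Crest.Agent.R335
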