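import Crest.Agent.R335.K1_0

/-!
# R335/K1_A: the ground state orbital is invariant (one-body Hohenberg-Kohn, part 1)
-/

set_option autoImplicit false

namespace Crest.Agent.R335

open MeasureTheory Set Filter Topology
open scoped Gradient RealInnerProductSpace ENNReal ContDiff
open Crest.MathPhysics.ThreeBody

variable {k b L C c e1 e2 : ℝ} {R d V0 S v φ : E3 → ℝ} {GR Gd Gφ : E3 → E3}

/-- the series of the potential energies.  `hasSum_integral_of_dominated_convergence` with the bounds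
`|v x| * w j x ^ 2`, whose sum is `|v x| * (R x ^ 2 - 2 * f x ^ 2)` (integrable: `s1_abs_int`, `FB.int`). -/
theorem k1_hasSum_pot (hv : FB v) {w : ℕ → E3 → ℝ} {Gw : ℕ → E3 → E3} {f : E3 → ℝ} {G : E3 → E3}
    (hw : ∀ j, H1 (w j) (Gw j)) (hf : H1 f G) (hR : H1 R GR)
    (hd : ∀ᵐ x, HasSum (fun j => w j x ^ 2) (R x ^ 2 - 2 * f x ^ 2)) :
    HasSum (fun j => ∫ x, v x * w j x ^ 2) ((∫ x, v x * R x ^ 2) - 2 * ∫ x, v x * f x ^ 2) := by
  have i1 := hv.int _ _ hR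
  have i2 := hv.int _ _ hf
  have e : (∫ x, v x * R x ^ 2) - 2 * ∫ x, v x * f x ^ 2 = ∫ x, v x * (R x ^ 2 - 2 * f x ^ 2) := by
    rw [← integral_const_mul, ← integral_sub i1 (i2.const_mul 2)]
    exact integral_congr_ae (Eventually.of_forall fun x => by ring)
  rw [e]
  refine hasSum_integral_of_dominated_convergence (fun j x => |v x| * w j x ^ 2)
    (fun j => (hv.int _ _ (hw j)).1) (fun j => Eventually.of_forall fun x => ?_) ?_ ?_ ?_
  · rw [Real.norm_eq_abs, abs_mul, abs_of_nonneg (sq_nonneg (w j x))]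
  · filter_upwards [hd] with x hx using (hx.mul_left _).summable
  · refine ((s1_abs_int hv hR).sub ((s1_abs_int hv hf).const_mul 2)).congr ?_
    filter_upwards [hd] with x hx
    rw [(hx.mul_left |v x|).tsum_eq, Pi.sub_apply]
    ring
  · filter_upwards [hd] with x hx using hx.mul_left _

/-- Put `φ' = φ ∘ T`, `ψ' j = ψ j ∘ T` (`H1.comp_iso`, gradients `T.symm (G (T x))` have the same norm, `s1_int_iso`),
`A = ∫ v φ²`, `A' = ∫ v φ'²`, `B = ∫ v R²`.  `k1_hasSum_pot` for `(ψ, φ)` and for `(ψ', φ')` (`k1_ae_comp T hk.dens`, `hT`).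
`Eig.qf_eq`: `½ ∫ ‖Gψ j‖² = e2 nsq (ψ j) - ∫ v (ψ j)²`, so `HasSum (qf v (ψ' j) ..) (e2 + 2 A - 2 A')`, and `qf v φ' = e1 - A + A'`.
With `δ = e2 - e1 > 0`, `c = ip φ φ'`, `OB.low` gives `qf v φ' ≥ e2 - δ c²` and `qf v (ψ' j) ≥ e2 nsq (ψ j) - δ (1 - c²) nsq (ψ j)`, because
`ip φ (ψ' j) = ip (φ - c φ') (ψ' j)` (`ip φ' (ψ' j) = ip φ (ψ j) = 0`: `k1_ip_comp`, `Eig.orth`), `ip_sq_le`, `nsq (φ - c φ') = 1 - c²` (`nsq_lin`, `k1_nsq_comp`).
Sum (`hasSum_le`): `2 e1 + e2 ≥ 2 (e2 - δ c²) + e2 - δ (1 - c²)`, so `c² ≥ 1`, `nsq (φ - c φ') ≤ 0`, `φ = c φ'` a.e. (`nsq_eq_zero`), `c² = 1`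
(`nsq_nonneg`), `c > 0` since `φ, φ' > 0` a.e. (`Filter.Eventually.exists`). -/
theorem k1_phi_sym {ψ : ℕ → E3 → ℝ} {Gψ : ℕ → E3 → E3} (hk : KS v e1 e2 φ Gφ ψ Gψ R) (hR : H1 R GR)
    (T : E3 ≃ₗᵢ[ℝ] E3) (hT : ∀ᵐ x, R (T x) = R x) : ∀ᵐ x, φ (T x) = φ x := by
  have hv := FB.of_sumClass hk.ob.cls
  have hφ := hk.ob.eig.h1
  have hφ' := hφ.comp_iso T
  have hψ := fun j => (hk.eig j).h1
  have hψ' := fun j => (hψ j).comp_iso T
  have s1 := k1_hasSum_pot hv hψ hφ hR hk.dens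
  have s2 := k1_hasSum_pot hv hψ' hφ' hR (by
    filter_upwards [k1_ae_comp T hk.dens, hT] with x h1 h2
    rwa [h2] at h1)
  have hq : ∀ (f : E3 → ℝ) (G : E3 → E3), qf v (fun x => f (T x)) (fun x => T.symm (G (T x))) =
      qf v f G - (∫ x, v x * f x ^ 2) + ∫ x, v x * f (T x) ^ 2 := by
    intro f G
    simp only [qf, LinearIsometryEquiv.norm_map]
    rw [s1_int_iso T fun x => ‖G x‖ ^ 2]
    ring
  set c0 := ip φ fun x => φ (T x) with hc0
  have hδ : 0 < e2 - e1 := sub_pos.2 hk.ob.lt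
  have n1 : nsq (fun x => φ (T x)) = 1 := by rw [k1_nsq_comp, hk.ob.nφ]
  have n2 : nsq (fun x => 1 * φ x + -c0 * φ (T x)) = 1 - c0 ^ 2 := by
    rw [nsq_lin hφ.mf hφ'.mf, n1, hk.ob.nφ, ← hc0]
    ring
  have m2 : MemLp (fun x => 1 * φ x + -c0 * φ (T x)) 2 volume :=
    (hφ.mf.const_mul 1).add (hφ'.mf.const_mul (-c0))
  have l1 : e2 - (e2 - e1) * c0 ^ 2 ≤ e1 - (∫ x, v x * φ x ^ 2) + ∫ x, v x * φ (T x) ^ 2 := by
    have h1 := hk.ob.low _ _ hφ'
    rw [hq, hk.ob.eig.qf_eq, n1, hk.ob.nφ, ← hc0] at h1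
    linarith
  have l2 : ∀ j, (e2 - (e2 - e1) * (1 - c0 ^ 2)) * nsq (ψ j) ≤
      e2 * nsq (ψ j) - (∫ x, v x * ψ j x ^ 2) + ∫ x, v x * ψ j (T x) ^ 2 := by
    intro j
    have h1 := hk.ob.low _ _ (hψ' j)
    rw [hq, (hk.eig j).qf_eq, k1_nsq_comp] at h1
    have h2 : ip (fun x => φ (T x)) (fun x => ψ j (T x)) = 0 := by
      rw [k1_ip_comp]
      exact hk.ob.eig.orth (hk.eig j) hk.ob.lt.ne
    have h3 : ip (fun x => 1 * φ x + -c0 * φ (T x)) (fun x => ψ j (T x)) =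
        ip φ fun x => ψ j (T x) := by
      have h4 : ip (fun x => 1 * φ x + -c0 * φ (T x)) (fun x => ψ j (T x)) =
          ip φ (fun x => ψ j (T x)) + -c0 * ip (fun x => φ (T x)) fun x => ψ j (T x) := by
        simp only [ip]
        rw [← integral_const_mul, ← integral_add (hφ.int_mul (hψ' j))
          ((hφ'.int_mul (hψ' j)).const_mul _)]
        exact integral_congr_ae (Eventually.of_forall fun x => by ring)
      rw [h4, h2, mul_zero, add_zero]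
    have h5 := ip_sq_le m2 (hψ' j).mf
    rw [h3, n2, k1_nsq_comp] at h5
    have h6 := mul_le_mul_of_nonneg_left h5 hδ.le
    linarith
  have l3 := hasSum_le l2 (hk.sum.mul_left _) (((hk.sum.mul_left e2).sub s1).add s2)
  have hc1 : 1 ≤ c0 ^ 2 := by
    by_contra h
    push Not at h
    nlinarith [mul_pos hδ (sub_pos.2 h)]
  have hn0 : 0 ≤ nsq (fun x => 1 * φ x + -c0 * φ (T x)) := nsq_nonneg
  have hz := nsq_eq_zero m2 (by linarith)
  have hc2 : c0 ^ 2 = 1 := by linarith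
  obtain ⟨x0, a1, a2, a3⟩ := (hz.and (hk.ob.pos.and (k1_ae_comp T hk.ob.pos))).exists
  have hc3 : 0 < c0 := by
    by_contra h
    push Not at h
    nlinarith [mul_nonneg (neg_nonneg.2 h) a3.le]
  have hc4 : c0 = 1 := by nlinarith
  filter_upwards [hz] with x hx
  rw [hc4] at hx
  linarith

end Crest.Agent.R335
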