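import Crest.Agent.R335.K1_0

/-!
# R335/K1_C: Kato inequality for a finite family, regularised form
-/

set_option autoImplicit false

namespace Crest.Agent.R335

open MeasureTheory Set Filter Topology
open scoped Gradient RealInnerProductSpace ENNReal ContDiff
open Crest.MathPhysics.ThreeBody

variable {k b L C c e1 e2 : ℝ} {R d V0 S v φ : E3 → ℝ} {GR Gd Gφ : E3 → E3}

/-- the test function `η = ξ h(y)`, `h = s12h ε = (t² + ε²)^(-1/2)` (lemmas `s12h_cd`, `s12h_deriv`, `s12h_bd` in `S12`; see the proof of `ki_of_test`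
for the bound of `deriv h`).  `h(y) - ε⁻¹ ∈ H¹` (`H1.comp` with `t ↦ h t - ε⁻¹`, `h 0 = ε⁻¹`), multiply by the `C¹` function `ξ` (`H1.mul_c1_cpt`) and add
`ε⁻¹ ξ` (`Tst.h1`, `H1.const_mul`, `H1.add`, `H1.congr`). -/
theorem k1_eta {y ξ : E3 → ℝ} {K : E3 → E3} (hy : H1 y K) (hξ : Tst univ ξ) {ε : ℝ} (hε : 0 < ε) :
    H1 (fun x => ξ x * s12h ε (y x))
      fun x => s12h ε (y x) • ∇ ξ x - (ξ x * (y x * s12h ε (y x) ^ 3)) • K x := by
  have h0 : s12h ε 0 = ε⁻¹ := by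
    unfold s12h
    rw [show (0 : ℝ) ^ 2 + ε ^ 2 = ε ^ 2 by ring, Real.sqrt_sq hε.le]
  have hd : ∀ t, deriv (fun t => s12h ε t - ε⁻¹) t = -t * s12h ε t ^ 3 := fun t => by
    rw [deriv_sub_const, s12h_deriv hε]
  have h1 := hy.comp (h := fun t => s12h ε t - ε⁻¹) ((s12h_cd hε).sub contDiff_const) (by simp only [h0, sub_self])
    (L := ε⁻¹ ^ 2) fun t => by
      obtain ⟨a1, a2, a3⟩ := s12h_bd hε t
      rw [hd, abs_mul, abs_neg, abs_of_pos (pow_pos a1 3)]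
      calc |t| * s12h ε t ^ 3 = |t| * s12h ε t * s12h ε t ^ 2 := by ring
        _ ≤ 1 * ε⁻¹ ^ 2 := mul_le_mul a3 (pow_le_pow_left₀ a1.le a2 2) (by positivity) zero_le_one
        _ = ε⁻¹ ^ 2 := one_mul _
  have h2 := (h1.mul_c1_cpt (hξ.sm.of_le (by simp)) hξ.cpt).add (hξ.h1.const_mul ε⁻¹)
  refine h2.congr (Eventually.of_forall fun x => ?_) (Eventually.of_forall fun x => ?_)
  · simp only; ring
  · simp only [hd]; module

/-- `H1.mul`: `|u| ≤ y`, so `|u| h(y) ≤ 1` and `|u| y h(y)³ ≤ ε⁻¹`; `ξ` is bounded, `∇ ξ`, `K`, `Gu` are in `L²` (`MemLp.of_le_mul`, `MemLp.of_le`). -/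
theorem k1_eta_mul {y ξ u : E3 → ℝ} {K Gu : E3 → E3} (hy : H1 y K) (hu : H1 u Gu) (hle : ∀ x, |u x| ≤ y x)
    (hξ : Tst univ ξ) {ε : ℝ} (hε : 0 < ε) :
    H1 (fun x => ξ x * s12h ε (y x) * u x) fun x => (ξ x * s12h ε (y x)) • Gu x +
      u x • (s12h ε (y x) • ∇ ξ x - (ξ x * (y x * s12h ε (y x) ^ 3)) • K x) := by
  obtain ⟨M, hM⟩ := hξ.sm.continuous.bounded_above_of_compact_support hξ.cpt
  have hη := k1_eta hy hξ hε
  have hM0 : 0 ≤ M := (norm_nonneg _).trans (hM 0)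
  have hb : ∀ x, |ξ x * s12h ε (y x)| ≤ M * ε⁻¹ := fun x => by
    obtain ⟨a1, a2, -⟩ := s12h_bd hε (y x)
    rw [abs_mul, abs_of_pos a1]
    exact mul_le_mul (hM x) a2 a1.le hM0
  have hu1 : ∀ x, |u x| * s12h ε (y x) ≤ 1 := fun x => by
    obtain ⟨a1, -, a3⟩ := s12h_bd hε (y x)
    exact (mul_le_mul_of_nonneg_right ((hle x).trans (le_abs_self _)) a1.le).trans a3
  refine hη.mul hu (s5a_smul (G := u) hη.mf.1 (Eventually.of_forall hb) hu.mf) ?_
  refine (s5a_smul hη.mf.1 (Eventually.of_forall hb) hu.mG).add ?_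
  have hh : AEStronglyMeasurable (fun x => s12h ε (y x)) volume :=
    (s12h_cd hε).continuous.comp_aestronglyMeasurable hy.mf.1
  have h1 : MemLp (fun x => (u x * s12h ε (y x)) • ∇ ξ x) 2 volume :=
    s5a_smul (hu.mf.1.mul hh) (M := 1) (Eventually.of_forall fun x => by
      rw [abs_mul, abs_of_pos (s12h_bd hε (y x)).1]; exact hu1 x) hξ.h1.mG
  have h2 : MemLp (fun x => (u x * (ξ x * (y x * s12h ε (y x) ^ 3))) • K x) 2 volume :=
    s5a_smul (hu.mf.1.mul (hξ.h1.mf.1.mul (hy.mf.1.mul (hh.pow 3)))) (M := M * ε⁻¹)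
      (Eventually.of_forall fun x => by
        obtain ⟨a1, -, a3⟩ := s12h_bd hε (y x)
        calc |u x * (ξ x * (y x * s12h ε (y x) ^ 3))|
            = |u x| * s12h ε (y x) * (|y x| * s12h ε (y x)) * |ξ x * s12h ε (y x)| := by
              simp only [abs_mul, abs_pow, abs_of_pos a1]; ring
          _ ≤ 1 * 1 * (M * ε⁻¹) :=
              mul_le_mul (mul_le_mul (hu1 x) a3 (by positivity) zero_le_one) (hb x) (abs_nonneg _) (by norm_num)
          _ = M * ε⁻¹ := by ring) hy.mG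
  refine (memLp_congr_ae (Eventually.of_forall fun x => ?_)).1 (h1.sub h2)
  simp only [Pi.sub_apply]
  module

/-- Test the equation of `U i` with `η U i` (`k1_eta_mul`, `Eig.eq`), sum over `i ∈ s` (`integral_finsetSum`; integrability from `H1.int_inner`, `FB.int_mul`,
`H1.int_mul`).  Pointwise a.e., with `h = h(y)`, `X = h ∇ξ - ξ y h³ K`: `∑ ⟪G i, η G i + U i X⟫ = η ∑ ‖G i‖² + ⟪y K, X⟫ ≥ y h ⟪K, ∇ξ⟫ + ξ h (1 - (y h)²) ‖K‖²
≥ y h ⟪K, ∇ξ⟫`, `∑ U i (η U i) = η y²`, and `∑ e i ∫ η (U i)² ≤ e2 ∫ η y²`. -/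
theorem k1_kato_eps (hv : FB v) {ι : Type} (s : Finset ι) {U : ι → E3 → ℝ} {G : ι → E3 → E3} {e : ι → ℝ}
    (hU : ∀ i ∈ s, Eig v (e i) (U i) (G i)) (he : ∀ i ∈ s, e i ≤ e2) {y : E3 → ℝ} {K : E3 → E3} (hy : H1 y K)
    (y0 : ∀ x, 0 ≤ y x) (y2 : ∀ x, y x ^ 2 = ∑ i ∈ s, U i x ^ 2) (h1 : ∀ᵐ x, ‖K x‖ ^ 2 ≤ ∑ i ∈ s, ‖G i x‖ ^ 2)
    (h2 : ∀ᵐ x, y x • K x = ∑ i ∈ s, U i x • G i x)
    {ξ : E3 → ℝ} (hξ : Tst univ ξ) (h0 : ∀ x, 0 ≤ ξ x) {ε : ℝ} (hε : 0 < ε) :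
    (1 / 2) * (∫ x, y x * s12h ε (y x) * ⟪K x, ∇ ξ x⟫) +
      ∫ x, (v x - e2) * (y x * s12h ε (y x) * (y x * ξ x)) ≤ 0 := by
  set η : E3 → ℝ := fun x => ξ x * s12h ε (y x) with hη
  set X : E3 → E3 := fun x => s12h ε (y x) • ∇ ξ x - (ξ x * (y x * s12h ε (y x) ^ 3)) • K x with hX
  have hle : ∀ i ∈ s, ∀ x, |U i x| ≤ y x := fun i hi x =>
    abs_le_of_sq_le_sq (by
      rw [y2]
      exact Finset.single_le_sum (f := fun i => U i x ^ 2) (fun j _ => sq_nonneg _) hi) (y0 x)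
  have ht : ∀ i ∈ s, H1 (fun x => η x * U i x) fun x => η x • G i x + U i x • X x := fun i hi =>
    k1_eta_mul hy (hU i hi).h1 (hle i hi) hξ hε
  have hη0 : ∀ x, 0 ≤ η x := fun x => mul_nonneg (h0 x) (s12h_bd hε _).1.le
  have i1 : ∀ i ∈ s, Integrable fun x => ⟪G i x, η x • G i x + U i x • X x⟫ := fun i hi =>
    (hU i hi).h1.int_inner (ht i hi)
  have i2 : ∀ i ∈ s, Integrable fun x => (v x - e2) * (U i x * (η x * U i x)) := fun i hi =>
    (hv.sub_const e2).int_mul (hU i hi).h1 (ht i hi)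
  have e1 : ∀ i ∈ s, (1 / 2) * (∫ x, ⟪G i x, η x • G i x + U i x • X x⟫) +
      ∫ x, (v x - e2) * (U i x * (η x * U i x)) ≤ 0 := fun i hi => by
    have a1 := (hU i hi).eq _ _ (ht i hi)
    have a2 := hv.int_mul (hU i hi).h1 (ht i hi)
    have a3 := (hU i hi).h1.int_mul (ht i hi)
    have a4 : ∫ x, (v x - e2) * (U i x * (η x * U i x)) =
        (∫ x, v x * (U i x * (η x * U i x))) - e2 * ∫ x, U i x * (η x * U i x) := by
      rw [← integral_const_mul, ← integral_sub a2 (a3.const_mul e2)]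
      exact integral_congr_ae (Eventually.of_forall fun x => by simp only; ring)
    have a5 : 0 ≤ ∫ x, U i x * (η x * U i x) := integral_nonneg fun x => by
      have := mul_nonneg (hη0 x) (mul_self_nonneg (U i x))
      simp only [Pi.zero_apply]
      linarith
    have a6 := mul_le_mul_of_nonneg_right (he i hi) a5
    unfold bf ip at a1
    linarith
  have e2' := Finset.sum_nonpos e1
  rw [Finset.sum_add_distrib, ← Finset.mul_sum, ← integral_finsetSum _ i1, ← integral_finsetSum _ i2] at e2'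
  have e3 : ∫ x, (v x - e2) * (y x * s12h ε (y x) * (y x * ξ x)) =
      ∫ x, ∑ i ∈ s, (v x - e2) * (U i x * (η x * U i x)) := by
    refine integral_congr_ae (Eventually.of_forall fun x => ?_)
    have : ∑ i ∈ s, (v x - e2) * (U i x * (η x * U i x)) = (v x - e2) * (η x * ∑ i ∈ s, U i x ^ 2) := by
      rw [Finset.mul_sum, Finset.mul_sum]
      exact Finset.sum_congr rfl fun i _ => by ring
    beta_reduce
    rw [this, ← y2]
    simp only [hη]
    ring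
  have hh : AEStronglyMeasurable (fun x => s12h ε (y x)) volume :=
    (s12h_cd hε).continuous.comp_aestronglyMeasurable hy.mf.1
  have i3 : Integrable fun x => y x * s12h ε (y x) * ⟪K x, ∇ ξ x⟫ :=
    (hy.int_inner hξ.h1).bdd_mul (c := 1) (hy.mf.1.mul hh) (Eventually.of_forall fun x => by
      obtain ⟨a1, -, a3⟩ := s12h_bd hε (y x)
      rwa [Real.norm_eq_abs, abs_mul, abs_of_pos a1])
  have e4 : ∫ x, y x * s12h ε (y x) * ⟪K x, ∇ ξ x⟫ ≤ ∫ x, ∑ i ∈ s, ⟪G i x, η x • G i x + U i x • X x⟫ := by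
    refine integral_mono_ae i3 (integrable_finsetSum _ i1) ?_
    filter_upwards [h1, h2] with x a1 a2
    have a3 : ∑ i ∈ s, ⟪G i x, η x • G i x + U i x • X x⟫ =
        η x * ∑ i ∈ s, ‖G i x‖ ^ 2 + ⟪y x • K x, X x⟫ := by
      rw [a2, sum_inner, Finset.mul_sum, ← Finset.sum_add_distrib]
      refine Finset.sum_congr rfl fun i _ => ?_
      rw [inner_add_right, real_inner_smul_right, real_inner_smul_right, real_inner_smul_left,
        real_inner_self_eq_norm_sq]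
    have a4 : ⟪y x • K x, X x⟫ = y x * s12h ε (y x) * ⟪K x, ∇ ξ x⟫ -
        η x * (y x * s12h ε (y x)) ^ 2 * ‖K x‖ ^ 2 := by
      simp only [hX, hη, inner_sub_right, real_inner_smul_right, real_inner_smul_left, real_inner_self_eq_norm_sq]
      ring
    obtain ⟨b1, -, b3⟩ := s12h_bd hε (y x)
    rw [abs_of_nonneg (y0 x)] at b3
    have b4 : (y x * s12h ε (y x)) ^ 2 ≤ 1 := pow_le_one₀ (mul_nonneg (y0 x) b1.le) b3
    have b5 : η x * (y x * s12h ε (y x)) ^ 2 * ‖K x‖ ^ 2 ≤ η x * ∑ i ∈ s, ‖G i x‖ ^ 2 := by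
      rw [mul_assoc]
      refine mul_le_mul_of_nonneg_left (le_trans ?_ a1) (hη0 x)
      exact mul_le_of_le_one_left (sq_nonneg _) b4
    simp only [a3, a4]
    linarith
  rw [e3]
  linarith

end Crest.Agent.R335
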