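import Crest.Agent.R335.K1_C

/-!
# R335/K1_D: Kato inequality for a finite family
-/

set_option autoImplicit false

namespace Crest.Agent.R335

open MeasureTheory Set Filter Topology
open scoped Gradient RealInnerProductSpace ENNReal ContDiff
open Crest.MathPhysics.ThreeBody

variable {k b L C c e1 e2 : ℝ} {R d V0 S v φ : E3 → ℝ} {GR Gd Gφ : E3 → E3}

theorem k1d_lim {y g : E3 → ℝ} (hy : AEStronglyMeasurable y volume) (y0 : ∀ x, 0 ≤ y x) (hg : Integrable g)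
    (h0 : ∀ᵐ x, y x = 0 → g x = 0) :
    Tendsto (fun n : ℕ => ∫ x, y x * s12h (1 / ((n : ℝ) + 1)) (y x) * g x) atTop (𝓝 (∫ x, g x)) := by
  have hε : ∀ n : ℕ, (0 : ℝ) < 1 / ((n : ℝ) + 1) := fun n => by positivity
  refine tendsto_integral_of_dominated_convergence (fun x => ‖g x‖) (fun n => ?_) hg.norm
    (fun n => Eventually.of_forall fun x => ?_) (h0.mono fun x hx => ?_)
  · exact (hy.mul ((s12h_cd (hε n)).continuous.comp_aestronglyMeasurable hy)).mul hg.1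
  · obtain ⟨b0, -, b2⟩ := s12h_bd (hε n) (y x)
    rw [abs_of_nonneg (y0 x)] at b2
    rw [norm_mul, Real.norm_of_nonneg (mul_nonneg (y0 x) b0.le)]
    exact mul_le_of_le_one_left (norm_nonneg _) b2
  · rcases (y0 x).eq_or_lt with h | h
    · simp only [hx h.symm, mul_zero]
      exact tendsto_const_nhds
    · have t1 : Tendsto (fun n : ℕ => √(y x ^ 2 + (1 / ((n : ℝ) + 1)) ^ 2)) atTop (𝓝 (√(y x ^ 2 + 0 ^ 2))) :=
        ((tendsto_one_div_add_atTop_nhds_zero_nat.pow 2).const_add _).sqrt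
      rw [zero_pow two_ne_zero, add_zero, Real.sqrt_sq h.le] at t1
      have t2 := ((t1.inv₀ h.ne').const_mul (y x)).mul_const (g x)
      rw [mul_inv_cancel₀ h.ne', one_mul] at t2
      exact t2

/-- `ε = 1 / (n + 1) → 0` in `k1_kato_eps`: `0 ≤ y h_ε(y) ≤ 1` (`s12h_bd`), `y h_ε(y) → 1` where `y > 0`; where `y = 0` we have `K = 0` a.e.
(`H1.level`) and `y ξ = 0`.  `tendsto_integral_of_dominated_convergence` with the bounds `|⟪K, ∇ξ⟫|` (`H1.int_inner`, `Tst.h1`) and `|(v - e2) (y ξ)|`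
(`FB.sub_const`, `FB.int_mul`); `le_of_tendsto'`. -/
theorem k1_kato_tst (hv : FB v) {ι : Type} (s : Finset ι) {U : ι → E3 → ℝ} {G : ι → E3 → E3} {e : ι → ℝ}
    (hU : ∀ i ∈ s, Eig v (e i) (U i) (G i)) (he : ∀ i ∈ s, e i ≤ e2) {y : E3 → ℝ} {K : E3 → E3} (hy : H1 y K)
    (y0 : ∀ x, 0 ≤ y x) (y2 : ∀ x, y x ^ 2 = ∑ i ∈ s, U i x ^ 2) (h1 : ∀ᵐ x, ‖K x‖ ^ 2 ≤ ∑ i ∈ s, ‖G i x‖ ^ 2)
    (h2 : ∀ᵐ x, y x • K x = ∑ i ∈ s, U i x • G i x)
    {ξ : E3 → ℝ} (hξ : Tst univ ξ) (h0 : ∀ x, 0 ≤ ξ x) : bf (fun x => v x - e2) y K ξ (∇ ξ) ≤ 0 := by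
  have t1 := k1d_lim hy.mf.1 y0 (hy.int_inner hξ.h1) ((hy.level 0).mono fun x hx h => by
    rw [hx h, inner_zero_left])
  have t2 := k1d_lim hy.mf.1 y0 ((hv.sub_const e2).int_mul hy hξ.h1) (Eventually.of_forall fun x h => by
    rw [h, zero_mul, mul_zero])
  refine le_of_tendsto' ((t1.const_mul (1 / 2)).add t2) fun n => ?_
  have h := k1_kato_eps hv s hU he hy y0 y2 h1 h2 hξ h0 (ε := 1 / ((n : ℝ) + 1)) (by positivity)
  refine le_of_eq_of_le ?_ h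
  congr 1
  refine integral_congr_ae (Eventually.of_forall fun x => ?_)
  simp only
  ring

/-- approximate `ξ` by `H1.dense` (nonnegativity is preserved: `a = 0`), `FB.bf_tendsto` (constant first sequence) -/
theorem k1_kato_fin (hv : FB v) {ι : Type} (s : Finset ι) {U : ι → E3 → ℝ} {G : ι → E3 → E3} {e : ι → ℝ}
    (hU : ∀ i ∈ s, Eig v (e i) (U i) (G i)) (he : ∀ i ∈ s, e i ≤ e2) {y : E3 → ℝ} {K : E3 → E3} (hy : H1 y K)
    (y0 : ∀ x, 0 ≤ y x) (y2 : ∀ x, y x ^ 2 = ∑ i ∈ s, U i x ^ 2) (h1 : ∀ᵐ x, ‖K x‖ ^ 2 ≤ ∑ i ∈ s, ‖G i x‖ ^ 2)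
    (h2 : ∀ᵐ x, y x • K x = ∑ i ∈ s, U i x • G i x)
    {ξ : E3 → ℝ} {X : E3 → E3} (hξ : H1 ξ X) (h0 : ∀ᵐ x, 0 ≤ ξ x) : bf (fun x => v x - e2) y K ξ X ≤ 0 := by
  obtain ⟨ψ, hψ, hA, hp, -⟩ := hξ.dense
  have t := (hv.sub_const e2).bf_tendsto (fun _ => hy) (fun n => (hψ n).h1) hy hξ (s3a_tendsto_const _)
    (s3a_tendsto_const _) hA.l2 hA.l2G
  exact le_of_tendsto' t fun n => k1_kato_tst hv s hU he hy y0 y2 h1 h2 (hψ n) (hp 0 le_rfl h0 n)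

end Crest.Agent.R335
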