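import Crest.Agent.R335.K1_0

/-!
# R335/K1_F: (HS) eigenfunctions of the second level which are odd in one coordinate have a sign on the half space
-/

set_option autoImplicit false

namespace Crest.Agent.R335

open MeasureTheory Set Filter Topology
open scoped Gradient RealInnerProductSpace ENNReal ContDiff
open Crest.MathPhysics.ThreeBody

variable {k b L C c e1 e2 : ℝ} {R d V0 S v φ : E3 → ℝ} {GR Gd Gφ : E3 → E3}

/-- `H = {0 < x i}`, `q = H.indicator f` (`H1.half`), `p = |q| - |f - q|` (`H1.abs`, `H1.sub`).  A.e. (`ae_coord_ne i 0`): `p = |f|` on `H`, `p = -|f|` off `H`,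
`p² = f²`, `‖∇p‖ = ‖G‖`.  So `qf v p = qf v f = e2 nsq p` (`Eig.qf_eq`), `p ∘ T = -p` a.e. (`T x i = -x i`), `ip φ p = 0` (`k1_ip_odd`), `euler_rank_one` with
`OB.low` (`δ = e2 - e1`, `FB.of_sumClass`). -/
theorem k1_abs_eig (ho : OB v e1 e2 φ Gφ) (i : Fin 3) {T : E3 ≃ₗᵢ[ℝ] E3}
    (hT : ∀ x j, T x j = if j = i then -x j else x j) (hφ : ∀ᵐ x, φ (T x) = φ x) {f : E3 → ℝ} {G : E3 → E3}
    (hf : Eig v e2 f G) (hodd : ∀ᵐ x, f (T x) = -f x) :
    ∃ p Gp, Eig v e2 p Gp ∧ ∀ᵐ x, 0 < x i → p x = |f x| := by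
  have hq := hf.h1.half i hT hodd
  have hp := hq.abs.sub (hf.h1.sub hq).abs
  set p : E3 → ℝ := fun x => |{x : E3 | 0 < x i}.indicator f x| - |f x - {x : E3 | 0 < x i}.indicator f x| with hpd
  set Gp : E3 → E3 := fun x =>
    (if 0 ≤ {x : E3 | 0 < x i}.indicator f x then {x : E3 | 0 < x i}.indicator G x
      else -{x : E3 | 0 < x i}.indicator G x) -
    (if 0 ≤ f x - {x : E3 | 0 < x i}.indicator f x then G x - {x : E3 | 0 < x i}.indicator G x
      else -(G x - {x : E3 | 0 < x i}.indicator G x)) with hGd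
  have hin : ∀ x : E3, 0 < x i → p x = |f x| ∧ ‖Gp x‖ = ‖G x‖ := by
    intro x hx
    have hx' : x ∈ {x : E3 | 0 < x i} := hx
    simp only [hpd, hGd, indicator_of_mem hx', sub_self, abs_zero, sub_zero, le_refl, if_true, true_and]
    split_ifs <;> simp
  have hout : ∀ x : E3, ¬0 < x i → p x = -|f x| ∧ ‖Gp x‖ = ‖G x‖ := by
    intro x hx
    have hx' : x ∉ {x : E3 | 0 < x i} := hx
    simp only [hpd, hGd, indicator_of_notMem hx', sub_self, abs_zero, sub_zero, le_refl, if_true, zero_sub,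
      true_and]
    split_ifs <;> simp
  have hsq : ∀ x, p x ^ 2 = f x ^ 2 := by
    intro x
    by_cases hx : 0 < x i
    · rw [(hin x hx).1, sq_abs]
    · rw [(hout x hx).1, neg_sq, sq_abs]
  have hG : ∀ x, ‖Gp x‖ = ‖G x‖ := by
    intro x
    by_cases hx : 0 < x i
    · exact (hin x hx).2
    · exact (hout x hx).2
  have hn : nsq p = nsq f := by
    unfold nsq
    simp only [hsq]
  have hqf : qf v p Gp = qf v f G := by
    unfold qf
    simp only [hsq, hG]
  have hpo : ∀ᵐ x, p (T x) = -p x := by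
    filter_upwards [hodd, ae_coord_ne i 0] with x h1 h2
    have hTx : T x i = -x i := by rw [hT x i, if_pos rfl]
    by_cases hx : 0 < x i
    · have : ¬0 < T x i := by rw [hTx]; linarith
      rw [(hout _ this).1, (hin x hx).1, h1, abs_neg]
    · have : 0 < T x i := by
        rw [hTx]
        rcases lt_or_gt_of_ne h2 with h | h
        · linarith
        · exact absurd h hx
      rw [(hin _ this).1, (hout x hx).1, h1, abs_neg, neg_neg]
  refine ⟨p, Gp, euler_rank_one (FB.of_sumClass ho.cls) ho.eig.h1.mf ho.low hp (k1_ip_odd T hφ hpo) ?_,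
    Eventually.of_forall fun x hx => (hin x hx).1⟩
  rw [hqf, hn, hf.qf_eq]

/-- `pos_or_zero` on `H` (`k1_isOpen_half`, `k1_convex_half`) for `p - f` (`Eig.lin`): if `p - f > 0` then `f < 0`; if `p - f = 0` then `f ≥ 0` on `H`, and `pos_or_zero` for `f`
gives `f > 0` or `f = 0` on `H`; in the last case `f = 0` a.e. by oddness (`k1_ae_comp`, `ae_coord_ne`). -/
theorem k1_hs (ho : OB v e1 e2 φ Gφ) (i : Fin 3) {T : E3 ≃ₗᵢ[ℝ] E3}
    (hT : ∀ x j, T x j = if j = i then -x j else x j) (hφ : ∀ᵐ x, φ (T x) = φ x) {f : E3 → ℝ} {G : E3 → E3}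
    (hf : Eig v e2 f G) (hodd : ∀ᵐ x, f (T x) = -f x) :
    (∀ᵐ x, f x = 0) ∨ (∀ᵐ x, 0 < x i → 0 < f x) ∨ ∀ᵐ x, 0 < x i → f x < 0 := by
  obtain ⟨p, Gp, hp, hpe⟩ := k1_abs_eig ho i hT hφ hf hodd
  have hV := FB.of_sumClass ho.cls
  have hw := hp.lin hV hf 1 (-1)
  rcases pos_or_zero hV hw (k1_isOpen_half i) (k1_convex_half i) (by
      filter_upwards [hpe] with x h1 hx
      rw [h1 hx]
      have := le_abs_self (f x)
      linarith) with h | h
  · have h0 : ∀ᵐ x : E3, x ∈ {x : E3 | 0 < x i} → 0 ≤ f x := by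
      filter_upwards [hpe, h] with x h1 h2 hx
      have h3 := h2 hx
      rw [h1 hx] at h3
      have := abs_nonneg (f x)
      linarith
    rcases pos_or_zero hV hf (k1_isOpen_half i) (k1_convex_half i) h0 with h1 | h1
    · left
      filter_upwards [h1, k1_ae_comp T h1, hodd, ae_coord_ne i 0] with x a1 a2 a3 a4
      rcases lt_or_gt_of_ne a4 with h | h
      · have hTx : T x i = -x i := by rw [hT x i, if_pos rfl]
        have : T x ∈ {x : E3 | 0 < x i} := by
          change 0 < T x i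
          rw [hTx]; linarith
        have := a2 this
        linarith
      · exact a1 h
    · exact Or.inr (Or.inl h1)
  · right; right
    filter_upwards [hpe, h] with x h1 h2 hx
    have h3 := h2 hx
    rw [h1 hx] at h3
    by_contra hc
    rw [abs_of_nonneg (not_lt.1 hc)] at h3
    linarith

end Crest.Agent.R335
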