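import Crest.Agent.R335.K1_F

/-!
# R335/K1_G: (HS) two odd eigenfunctions are proportional
-/

set_option autoImplicit false

namespace Crest.Agent.R335

open MeasureTheory Set Filter Topology
open scoped Gradient RealInnerProductSpace ENNReal ContDiff
open Crest.MathPhysics.ThreeBody

variable {k b L C c e1 e2 : ℝ} {R d V0 S v φ : E3 → ℝ} {GR Gd Gφ : E3 → E3}

/-- a function which is positive a.e. on the half space and even has a nonzero integral -/
theorem k1g_pos (i : Fin 3) {T : E3 ≃ₗᵢ[ℝ] E3} (hT : ∀ x j, T x j = if j = i then -x j else x j) {w : E3 → ℝ}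
    (hi : Integrable w) (hev : ∀ᵐ x, w (T x) = w x) (hp : ∀ᵐ x, 0 < x i → 0 < w x) : ∫ x, w x ≠ 0 := by
  intro h0
  have hall : ∀ᵐ x, 0 < w x := by
    filter_upwards [hp, k1_ae_comp T hp, hev, ae_coord_ne i 0] with x h1 h2 h3 h4
    rcases lt_or_gt_of_ne h4 with h | h
    · rw [← h3]
      apply h2
      rw [hT x i, if_pos rfl]
      linarith
    · exact h1 h
  have h1 := (integral_eq_zero_iff_of_nonneg_ae (hall.mono fun x hx => hx.le) hi).1 h0
  obtain ⟨x, -, hx1, hx2⟩ := k1_exists_mem isOpen_univ univ_nonempty (hall.and h1)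
  exact hx1.ne' hx2

/-- `nsq u ≠ 0` (`nsq_eq_zero`, `k1_exists_mem` on the half space), `t = ip f u / nsq u`, `g = 1 * f + (-t) * u` (`Eig.lin`) is odd and `ip g u = 0`.  `k1_hs` for `g`: if `g` had a strict
sign on the half space, then `g u` (or `-g u`) would be positive a.e. on the whole space (both factors are odd; `k1_ae_comp`, `ae_coord_ne`), which contradicts
`∫ g u = 0` (`integral_eq_zero_iff_of_nonneg_ae`, `H1.int_mul`, `Filter.Eventually.exists`). -/
theorem k1_prop (ho : OB v e1 e2 φ Gφ) (i : Fin 3) {T : E3 ≃ₗᵢ[ℝ] E3}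
    (hT : ∀ x j, T x j = if j = i then -x j else x j) (hφ : ∀ᵐ x, φ (T x) = φ x) {f u : E3 → ℝ} {G Gu : E3 → E3}
    (hf : Eig v e2 f G) (hu : Eig v e2 u Gu) (hodd : ∀ᵐ x, f (T x) = -f x) (hodd' : ∀ᵐ x, u (T x) = -u x)
    (hp : ∀ᵐ x, 0 < x i → 0 < u x) : ∃ t : ℝ, ∀ᵐ x, f x = t * u x := by
  have hn : nsq u ≠ 0 := by
    have := k1g_pos i hT (w := fun x => u x ^ 2) hu.h1.mf.integrable_sq
      (hodd'.mono fun x hx => by simp only [hx, neg_sq]) (hp.mono fun x hx h => pow_pos (hx h) 2)
    exact this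
  set t := ip f u / nsq u with ht
  have hg := Eig.lin (FB.of_sumClass ho.cls) hf hu 1 (-t)
  have hgodd : ∀ᵐ x, (fun x => 1 * f x + -t * u x) (T x) = -(fun x => 1 * f x + -t * u x) x := by
    filter_upwards [hodd, hodd'] with x h1 h2
    simp only [h1, h2]
    ring
  have hint : Integrable fun x => (1 * f x + -t * u x) * u x := hg.h1.int_mul hu.h1
  have hip : ∫ x, (1 * f x + -t * u x) * u x = 0 := by
    have e : (fun x => (1 * f x + -t * u x) * u x) = fun x => f x * u x - t * (u x * u x) := by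
      funext x; ring
    rw [e, integral_sub (hf.h1.int_mul hu.h1) ((hu.h1.int_mul hu.h1).const_mul t), integral_const_mul]
    change ip f u - t * ip u u = 0
    rw [ip_self, ht, div_mul_cancel₀ _ hn, sub_self]
  have hev : ∀ᵐ x, (1 * f (T x) + -t * u (T x)) * u (T x) = (1 * f x + -t * u x) * u x := by
    filter_upwards [hodd, hodd'] with x h1 h2
    rw [h1, h2]
    ring
  rcases k1_hs ho i hT hφ hg hgodd with h | h | h
  · refine ⟨t, h.mono fun x hx => ?_⟩
    linarith
  · exact absurd hip (k1g_pos i hT (w := fun x => (1 * f x + -t * u x) * u x) hint hev (by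
      filter_upwards [h, hp] with x h1 h2 hx using mul_pos (h1 hx) (h2 hx)))
  · refine absurd ?_ (k1g_pos i hT (w := fun x => -((1 * f x + -t * u x) * u x)) hint.neg
      (hev.mono fun x hx => by simp only [hx]) (by
      filter_upwards [h, hp] with x h1 h2 hx using neg_pos.2 (mul_neg_of_neg_of_pos (h1 hx) (h2 hx))))
    rw [integral_neg, hip, neg_zero]

end Crest.Agent.R335
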