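import Crest.Agent.R335.K1_0

/-!
# R335/K1_I: even eigenfunctions are small near the plane
-/

set_option autoImplicit false

namespace Crest.Agent.R335

open MeasureTheory Set Filter Topology
open scoped Gradient RealInnerProductSpace ENNReal ContDiff
open Crest.MathPhysics.ThreeBody

variable {k b L C c e1 e2 : ℝ} {R d V0 S v φ : E3 → ℝ} {GR Gd Gφ : E3 → E3}

theorem k1i_bound (h : Tail k b L C c R GR d Gd V0 S) : ∃ C₁ : ℝ, 0 ≤ C₁ ∧ ∀ w : E3 → ℝ, ContinuousOn w offA →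
    (∀ᵐ x, |w x| ≤ R x) → ∀ x y : E3, 2 ≤ cyl x → L + 1 < cyl x → ‖x - y‖ ≤ 1 →
      |w y| ≤ C₁ * (|y 2| + (1 + |y 2|) / ‖y‖ ^ 2) * gfun k b x := by
  obtain ⟨Cg, hCg, hg⟩ := gfun_le k b h.kpos.le
  have hC : 0 ≤ C := zero_le_one.trans h.Cge
  refine ⟨C * (Cg * Real.exp k), by positivity, fun w hw hle x y h2 hL hxy => ?_⟩
  have n1 := cyl_le_norm x
  have n2 := cyl_le_norm y
  have n3 := (abs_le.1 (abs_cyl_sub_le x y)).2
  have hL1 := h.Lge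
  have hy : y ∈ offA := by
    change 0 < cyl y
    linarith
  have h1 := h.cont_le hw zero_le_one (by simpa using hle) y hy (by linarith)
  have h3 := (hg x y (by linarith) (by linarith)).1
  have h4 : Real.exp (k * ‖x - y‖) ≤ Real.exp k :=
    Real.exp_le_exp.2 (by nlinarith [h.kpos, norm_nonneg (x - y)])
  have g0 : 0 < gfun k b x := gfun_pos k b (norm_pos_iff.1 (by linarith))
  have h5 : gfun k b y ≤ Cg * Real.exp k * gfun k b x :=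
    h3.trans (by gcongr)
  refine h1.trans ?_
  calc 1 * C * (|y 2| + (1 + |y 2|) / ‖y‖ ^ 2) * gfun k b y
      ≤ 1 * C * (|y 2| + (1 + |y 2|) / ‖y‖ ^ 2) * (Cg * Real.exp k * gfun k b x) := by gcongr
    _ = _ := by ring

theorem k1i_rpow {s : ℝ} (hs : 0 ≤ s) : (s ^ 3) ^ (2 / 3 : ℝ) = s ^ 2 := by
  rw [← Real.rpow_natCast s 3, ← Real.rpow_mul hs, ← Real.rpow_natCast s 2]
  norm_num

set_option maxHeartbeats 400000 in
/-- Let `ρ = cyl x`, `z = x 2`, `t = √ρ`, `s = t⁻¹`, `g₀ = gfun k b x = gfun k b (pt ρ z)` (same norm, `norm_sq_cyl`, `cyl_pt`), `w x = w (pt ρ z)` (`Even3.eq_pt`).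
For `y ∈ ball (pt ρ 0) (3 s)`: `‖y - pt ρ z‖ ≤ 4 s ≤ 1` (`norm_pt_sub`), `cyl y ≥ ρ - 1 > L` (`abs_cyl_sub_le`, `cyl_le_norm`), `|y 2| ≤ 3 s`, `‖y‖ ≥ ρ / 2`, so `Tail.cont_le` (`M = 1`) and
`gfun_le` give `|w y| ≤ K := C C_g e^k (3 s + 8 / ρ²) g₀ ≤ 11 C C_g e^k s g₀`, and for `y = pt ρ 0` itself `|w y| ≤ C C_g e^k ρ⁻² g₀`.
`ss` (the reflection hypothesis from `exists_refl_z`; `(z / s)² ≤ 4 / ρ`, `s² = 1 / ρ`, `(s / ρ) ^ (2/3) = 1 / ρ` since `s / ρ = (t⁻¹)³`): `|w x| ≤ C₁ s ρ⁻¹ g₀ ≤ C₁ s z g₀`.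
Take `L'` with `C₁ s ≤ η`. -/
theorem k1_even_le (h : Tail k b L C c R GR d Gd V0 S) (hv : IsSumClassPotential v) (hs : SymV v) (e : ℝ) {η : ℝ}
    (hη : 0 < η) : ∃ L' : ℝ, ∀ (w : E3 → ℝ) (G : E3 → E3), Eig v e w G → ContinuousOn w offA → Even3 w →
      (∀ᵐ x, |w x| ≤ R x) → ∀ x : E3, L' ≤ cyl x → 1 / cyl x ≤ x 2 → x 2 ≤ 2 / cyl x →
        |w x| ≤ η * x 2 * gfun k b x := by
  obtain ⟨C₁, hC₁, hb⟩ := k1i_bound h
  obtain ⟨Cs, hCs, hss⟩ := ss hv hs e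
  obtain ⟨T, hT, hT1, -⟩ := exists_refl_z
  refine ⟨max (max 16 (L + 2)) ((C₁ * (1 + 66 * Cs) / η) ^ 2), fun w G hw cw ew hle x hx hz1 hz2 => ?_⟩
  obtain ⟨ρ, hρ⟩ : ∃ ρ, ρ = cyl x := ⟨_, rfl⟩
  obtain ⟨z, hz⟩ : ∃ z, z = x 2 := ⟨_, rfl⟩
  rw [← hρ] at hx hz1 hz2
  rw [← hz] at hz1 hz2 ⊢
  have r1 : 16 ≤ ρ := le_trans (le_trans (le_max_left _ _) (le_max_left _ _)) hx
  have r2 : L + 2 ≤ ρ := le_trans (le_trans (le_max_right _ _) (le_max_left _ _)) hx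
  have r3 : (C₁ * (1 + 66 * Cs) / η) ^ 2 ≤ ρ := le_trans (le_max_right _ _) hx
  have r0 : 0 < ρ := by linarith
  obtain ⟨t, ht⟩ : ∃ t, t = √ρ := ⟨_, rfl⟩
  have t2 : t ^ 2 = ρ := by rw [ht]; exact Real.sq_sqrt r0.le
  have t4 : 4 ≤ t := by rw [ht]; exact Real.le_sqrt_of_sq_le (by linarith)
  have t5 : C₁ * (1 + 66 * Cs) / η ≤ t := by rw [ht]; exact Real.le_sqrt_of_sq_le r3
  have t0 : 0 < t := by linarith
  obtain ⟨s, hs'⟩ : ∃ s, s = t⁻¹ := ⟨_, rfl⟩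
  have s0 : 0 < s := by rw [hs']; positivity
  have st : s * t = 1 := by rw [hs']; exact inv_mul_cancel₀ t0.ne'
  have s4 : s ≤ 1 / 4 := by nlinarith only [st, s0, t4]
  have s2 : 1 / ρ = s ^ 2 := by rw [← t2, hs']; field_simp
  have s2' : 2 / ρ = 2 * s ^ 2 := by rw [← s2]; ring
  have s3 : s / ρ = s ^ 3 := by rw [div_eq_mul_one_div, s2]; ring
  have sη : C₁ * (1 + 66 * Cs) * s ≤ η := by
    rw [div_le_iff₀ hη] at t5
    have h9 := mul_le_mul_of_nonneg_right t5 s0.le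
    have h8 : t * η * s = η := by rw [mul_right_comm, mul_comm t s, st, one_mul]
    linarith
  rw [s2] at hz1
  rw [s2'] at hz2
  have z0 : 0 < z := lt_of_lt_of_le (by positivity) hz1
  have zs : z ≤ s := by nlinarith only [hz2, s0, s4]
  have hxA : x ∈ offA := by
    change 0 < cyl x
    rwa [← hρ]
  have e1 : w x = w (pt ρ z) := by rw [ew.eq_pt hxA, ← hρ, ← hz, abs_of_pos z0]
  have c1 : cyl (pt ρ z) = ρ := cyl_pt r0.le z
  have c0 : cyl (pt ρ 0) = ρ := cyl_pt r0.le 0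
  have e2 : gfun k b x = gfun k b (pt ρ z) := by
    have : ‖x‖ = ‖pt ρ z‖ := by
      refine (sq_eq_sq₀ (norm_nonneg _) (norm_nonneg _)).1 ?_
      rw [norm_sq_cyl, norm_sq_cyl, c1, ← hρ, ← hz]
      simp [pt]
    simp only [gfun, this]
  rw [e1, e2]
  obtain ⟨g, hg⟩ : ∃ g, g = gfun k b (pt ρ z) := ⟨_, rfl⟩
  have g0 : 0 < g := by
    rw [hg]
    exact gfun_pos k b (norm_pos_iff.1 (by linarith [cyl_le_norm (pt ρ z)]))
  have d0 : ‖pt ρ z - pt ρ 0‖ ≤ s := by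
    have := norm_pt_sub ρ z ρ 0
    rw [sub_self, abs_zero, sub_zero, abs_of_pos z0] at this
    linarith
  have hb' := fun y (hy : ‖pt ρ z - y‖ ≤ 1) => hb w cw hle (pt ρ z) y (by linarith) (by linarith) hy
  rw [← hg] at hb' ⊢
  have hK : ∀ y ∈ Metric.ball (pt ρ 0) (3 * s), |w y| ≤ 11 * C₁ * s * g := by
    intro y hy
    rw [mem_ball_iff_norm'] at hy
    have a1 : ‖pt ρ z - y‖ ≤ 1 := by
      have := norm_sub_le_norm_sub_add_norm_sub (pt ρ z) (pt ρ 0) y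
      linarith
    have a2 : |y 2| ≤ 3 * s := by
      have := abs_z_le_norm (pt ρ 0 - y)
      have e : (pt ρ 0 - y) 2 = -y 2 := by simp [pt]
      rw [e, abs_neg] at this
      linarith
    have a3 : ρ / 2 ≤ ‖y‖ := by
      have := (abs_le.1 (abs_cyl_sub_le (pt ρ 0) y)).2
      have := cyl_le_norm y
      linarith
    have a4 : (1 + |y 2|) / ‖y‖ ^ 2 ≤ 8 * s := by
      calc (1 + |y 2|) / ‖y‖ ^ 2 ≤ 2 / (ρ / 2) ^ 2 := by gcongr; linarith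
        _ = 8 * (1 / ρ) ^ 2 := by field_simp; norm_num
        _ = 8 * s * s ^ 3 := by rw [s2]; ring
        _ ≤ 8 * s * 1 := by gcongr; exact pow_le_one₀ s0.le (by linarith)
        _ = 8 * s := by ring
    refine (hb' y a1).trans ?_
    calc C₁ * (|y 2| + (1 + |y 2|) / ‖y‖ ^ 2) * g ≤ C₁ * (3 * s + 8 * s) * g := by gcongr
      _ = _ := by ring
  have hK0 : |w (pt ρ 0)| ≤ C₁ * s ^ 3 * g := by
    refine (hb' _ (by linarith)).trans ?_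
    have e : (pt ρ 0) 2 = 0 := by simp [pt]
    have a3 : ρ ≤ ‖pt ρ 0‖ := by linarith [cyl_le_norm (pt ρ 0)]
    have a4 : |(pt ρ 0) 2| + (1 + |(pt ρ 0) 2|) / ‖pt ρ 0‖ ^ 2 ≤ s ^ 3 := by
      rw [e, abs_zero, zero_add, add_zero]
      calc 1 / ‖pt ρ 0‖ ^ 2 ≤ 1 / ρ ^ 2 := by gcongr
        _ = (1 / ρ) ^ 2 := by ring
        _ = s ^ 3 * s := by rw [s2]; ring
        _ ≤ s ^ 3 * 1 := by gcongr; linarith
        _ = s ^ 3 := by ring
    gcongr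
  have h1 := hss w G ρ z s _ hw cw (fun y hy => by rw [← hT1]; exact ew T (Or.inr hT) y hy) (by linarith) s0
    (by linarith) (by rwa [abs_of_pos z0]) hK
  rw [s3, k1i_rpow s0.le] at h1
  have h2 : (z / s) ^ 2 ≤ (2 * s) ^ 2 := by
    gcongr
    rw [div_le_iff₀ s0]
    exact hz2.trans_eq (by ring)
  have h3 : |w (pt ρ z) - w (pt ρ 0)| ≤ Cs * (6 * s ^ 2) * (11 * C₁ * s * g) := by
    have h5 : (z / s) ^ 2 + s ^ 2 + s ^ 2 ≤ 6 * s ^ 2 := by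
      have : (2 * s) ^ 2 = 4 * s ^ 2 := by ring
      linarith
    refine h1.trans ?_
    gcongr
  have h4 : |w (pt ρ z)| ≤ |w (pt ρ z) - w (pt ρ 0)| + |w (pt ρ 0)| := by
    simpa using abs_add_le (w (pt ρ z) - w (pt ρ 0)) (w (pt ρ 0))
  calc |w (pt ρ z)| ≤ Cs * (6 * s ^ 2) * (11 * C₁ * s * g) + C₁ * s ^ 3 * g := by linarith
    _ = C₁ * (1 + 66 * Cs) * s * s ^ 2 * g := by ring
    _ ≤ η * z * g := by gcongr

end Crest.Agent.R335
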