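import Crest.Agent.R335.K1_A
import Crest.Agent.R335.K1_B
import Crest.Agent.R335.K1_E

/-!
# R335/K1_sym: exported forms of steps 1 and 2 of `K1` (no `Tail` hypothesis)
-/

set_option autoImplicit false

namespace Crest.Agent.R335

open MeasureTheory Set Filter Topology
open scoped Gradient RealInnerProductSpace ENNReal ContDiff
open Crest.MathPhysics.ThreeBody

variable {e1 e2 : ℝ} {R v φ : E3 → ℝ} {GR Gφ : E3 → E3} {ψ : ℕ → E3 → ℝ} {Gψ : ℕ → E3 → E3}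

theorem KS.symφ (hk : KS v e1 e2 φ Gφ ψ Gψ R) (hR : H1 R GR) (hs : ∀ T, Sym T → ∀ᵐ x, R (T x) = R x) :
    ∀ T, Sym T → ∀ᵐ x, φ (T x) = φ x := fun T hT => k1_phi_sym hk hR T (hs T hT)

theorem KS.symV (hk : KS v e1 e2 φ Gφ ψ Gψ R) (hR : H1 R GR) (hs : ∀ T, Sym T → ∀ᵐ x, R (T x) = R x) :
    SymV v := fun T hT =>
  k1_v_sym (FB.of_sumClass hk.ob.cls) hk.ob.eig hk.ob.pos T (hk.symφ hR hs T hT)

theorem KS.kato (hk : KS v e1 e2 φ Gφ ψ Gψ R) (hR0 : ∀ x, 0 ≤ R x) (hR : H1 R GR) :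
    SubS univ (fun x => v x - e2) 0 R GR := k1_kato hk hR0 hR

end Crest.Agent.R335
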