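import Crest.Agent.R335.S6b

/-!
# R335/S6: local Sobolev functions.  `Ω` is open.
-/

set_option autoImplicit false

namespace Crest.Agent.R335

open MeasureTheory Set Filter Topology
open scoped Gradient RealInnerProductSpace ENNReal ContDiff
open Crest.MathPhysics.ThreeBody

variable {E : Type} [NormedAddCommGroup E] [InnerProductSpace ℝ E] [FiniteDimensional ℝ E]
  [MeasurableSpace E] [BorelSpace E]

variable {Ω : Set E} {f g : E → ℝ} {G K : E → E}

theorem s6_lip (hΩ : IsOpen Ω) (hf : H1loc Ω f G) {h : ℝ → ℝ} (hh : ContDiff ℝ 1 h) {L : ℝ}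
    (hL : ∀ t, |deriv h t| ≤ L) : H1loc Ω (fun x => h (f x)) fun x => deriv h (f x) • G x := by
  refine H1loc.of_local hΩ fun x hx => ?_
  obtain ⟨f', G', U, a1, a2, a3, -, a4, -⟩ := hf.exists_h1 hΩ isCompact_singleton (singleton_subset_iff.2 hx)
  refine ⟨U, a2, a3 rfl, (((a1.h1.comp (h := fun t => h t - h 0) (hh.sub contDiff_const) (sub_self _)
    (by simpa only [deriv_sub_const] using hL)).loc U).add (H1loc.const (h 0))).congr
    (.of_forall fun y hy => ?_)⟩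
  simp [a4 y hy]

/-- chain rule; on compact subsets of `Ω` the values of `f` stay in a compact subset of the open set `O` -/
theorem H1loc.comp (hΩ : IsOpen Ω) (hf : H1loc Ω f G) {h : ℝ → ℝ} {O : Set ℝ} (hO : IsOpen O)
    (hh : ContDiffOn ℝ 1 h O)
    (hr : ∀ C, IsCompact C → C ⊆ Ω → ∃ B, IsCompact B ∧ B ⊆ O ∧ ∀ᵐ x, x ∈ C → f x ∈ B) :
    H1loc Ω (fun x => h (f x)) fun x => deriv h (f x) • G x := by
  refine H1loc.of_local hΩ fun x hx => ?_
  obtain ⟨C, c1, c2, c3⟩ := exists_compact_subset hΩ hx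
  obtain ⟨B, b1, b2, b3⟩ := hr C c1 c3
  obtain ⟨χ, d1, -, d2⟩ := exists_tst_one hO b1 b2
  have e1 : ContDiff ℝ 1 fun t => χ t * h t := contMDiff_iff_contDiff.1 (contMDiff_of_tsupport fun t ht =>
    ((d1.sm.of_le (by simp)).contDiffAt.mul
      (hh.contDiffAt (hO.mem_nhds (d1.sub (tsupport_mul_subset_left ht))))).contMDiffAt)
  obtain ⟨L, hL⟩ := (e1.continuous_deriv le_rfl).bounded_above_of_compact_support
    (HasCompactSupport.deriv d1.cpt.mul_right)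
  refine ⟨_, isOpen_interior, c2, (s6_lip isOpen_interior (hf.mono (interior_subset.trans c3)) e1 hL).congr
    (b3.mono fun y hy hC => ?_)⟩
  have e2 : (fun t => χ t * h t) =ᶠ[𝓝 (f y)] h :=
    (d2.filter_mono (nhds_le_nhdsSet (hy (interior_subset hC)))).mono fun t ht => by simp [ht]
  exact ⟨e2.eq_of_nhds, by rw [e2.deriv_eq]⟩

/-- chain rule for a globally Lipschitz `C¹` function -/
theorem H1loc.comp_lip (hΩ : IsOpen Ω) (hf : H1loc Ω f G) {h : ℝ → ℝ} (hh : ContDiff ℝ 1 h) {L : ℝ}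
    (hL : ∀ t, |deriv h t| ≤ L) : H1loc Ω (fun x => h (f x)) fun x => deriv h (f x) • G x := by
  exact s6_lip hΩ hf hh hL

theorem H1loc.comp2_lip (hΩ : IsOpen Ω) (hf : H1loc Ω f G) (hg : H1loc Ω g K) {h : ℝ × ℝ → ℝ}
    (hh : ContDiff ℝ 1 h) {L : ℝ} (hL : ∀ t, ‖fderiv ℝ h t‖ ≤ L) :
    H1loc Ω (fun x => h (f x, g x)) fun x =>
      fderiv ℝ h (f x, g x) (1, 0) • G x + fderiv ℝ h (f x, g x) (0, 1) • K x := by
  refine H1loc.of_local hΩ fun x hx => ?_
  obtain ⟨f', G', U, a1, a2, a3, -, a4, -⟩ := hf.exists_h1 hΩ isCompact_singleton (singleton_subset_iff.2 hx)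
  obtain ⟨g', K', U', b1, b2, b3, -, b4, -⟩ := hg.exists_h1 hΩ isCompact_singleton (singleton_subset_iff.2 hx)
  refine ⟨U ∩ U', a2.inter b2, ⟨a3 rfl, b3 rfl⟩, (((a1.h1.comp2 b1.h1 (h := fun t => h t - h 0)
    (hh.sub contDiff_const) (sub_self _) (by simpa only [fderiv_sub_const] using hL)).loc _).add
    (H1loc.const (h 0))).congr (.of_forall fun y hy => ?_)⟩
  simp [a4 y hy.1, b4 y hy.2, fderiv_sub_const]

/-- quotient; the denominator is locally bounded below -/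
theorem H1loc.div (hΩ : IsOpen Ω) (hf : H1loc Ω f G) (hg : H1loc Ω g K) (bf : Bl Ω f) (bg : Bl Ω g)
    (hl : ∀ C, IsCompact C → C ⊆ Ω → ∃ m : ℝ, 0 < m ∧ ∀ᵐ x, x ∈ C → m ≤ g x) :
    H1loc Ω (fun x => f x / g x) fun x => (g x)⁻¹ • G x - (f x / g x ^ 2) • K x := by
  have a1 := hg.comp hΩ (h := fun t => t⁻¹) isOpen_compl_singleton (contDiffOn_inv ℝ) fun C c1 c2 => by
    obtain ⟨m, m0, hm⟩ := hl C c1 c2
    obtain ⟨M, hM⟩ := bg C c1 c2
    refine ⟨Icc m M, isCompact_Icc, fun t ht => (m0.trans_le ht.1).ne', ?_⟩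
    filter_upwards [hm, hM] with x h1 h2 hx using ⟨h1 hx, (le_abs_self _).trans (h2 hx)⟩
  refine (hf.mul hΩ a1 bf fun C c1 c2 => ?_).congr (.of_forall fun x _ => ⟨(div_eq_mul_inv _ _).symm, ?_⟩)
  · obtain ⟨m, m0, hm⟩ := hl C c1 c2
    exact ⟨m⁻¹, hm.mono fun x h1 hx => by
      rw [abs_of_pos (inv_pos.2 (m0.trans_le (h1 hx)))]
      exact inv_anti₀ m0 (h1 hx)⟩
  · rw [deriv_inv, smul_smul, add_comm, mul_neg, neg_smul, ← sub_eq_add_neg, div_eq_mul_inv]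

theorem H1loc.pos (hΩ : IsOpen Ω) (hf : H1loc Ω f G) :
    H1loc Ω (fun x => max (f x) 0) fun x => if 0 < f x then G x else 0 := by
  refine H1loc.of_local hΩ fun x hx => ?_
  obtain ⟨f', G', U, a1, a2, a3, -, a4, -⟩ := hf.exists_h1 hΩ isCompact_singleton (singleton_subset_iff.2 hx)
  exact ⟨U, a2, a3 rfl, (a1.h1.pos.loc U).congr (.of_forall fun y hy => by simp [a4 y hy])⟩

/-- pieces: near every point of `Ω` the set `A` contains all or nothing of `{f ≠ 0}` -/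
theorem H1loc.piece (hΩ : IsOpen Ω) (hf : H1loc Ω f G) {A : Set E}
    (h : ∀ x ∈ Ω, (∀ᶠ y in 𝓝 x, y ∉ A → f y = 0) ∨ ∀ᶠ y in 𝓝 x, y ∈ A → f y = 0) :
    H1loc Ω (A.indicator f) ((A ∩ {x | f x ≠ 0}).indicator G) := by
  refine H1loc.of_local hΩ fun x hx => ?_
  rcases h x hx with h | h
  · obtain ⟨U, a1, a2, a3⟩ := eventually_nhds_iff.1 (h.and (hΩ.mem_nhds hx))
    refine ⟨U, a2, a3, (hf.mono fun y hy => (a1 y hy).2).congr
      ((hf.unique hΩ (H1loc.const 0)).mono fun y b1 hy => ?_)⟩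
    by_cases h0 : f y = 0
    · simp [indicator, h0, b1 (a1 y hy).2 h0]
    · have hA : y ∈ A := by_contra fun hA => h0 ((a1 y hy).1 hA)
      simp [hA, h0]
  · obtain ⟨U, a1, a2, a3⟩ := eventually_nhds_iff.1 h
    refine ⟨U, a2, a3, (H1loc.const 0).congr (.of_forall fun y hy => ?_)⟩
    by_cases hA : y ∈ A
    · simp [hA, a1 y hy hA]
    · simp [hA]

end Crest.Agent.R335
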