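import Crest.Agent.R335.P5b
import Crest.Agent.R335.S6

/-!
# R335/K2_abs: abstract weighted comparison principle (sub-lead helper47)

Model: `R335/P5b.lean` (`cmp_sub`, helpers `p5b_int`, `p5b_int'`, `p5b_mul`).
`q = u / R ∈ H1loc Ω` (`H1loc.div`) with gradient `Gq = R⁻¹ • Gu - (u / R²) • GR`, so `R • Gu - u • GR = R² • Gq` where `R > 0`
(a.e. on compact subsets of `Ω`).  `t = max q 0` (`H1loc.pos`), `0 ≤ t ≤ max M 0` a.e. on `Ω`.  For `χ = χ_n` from `exists_cut`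
(centre `0`, scale `n + 1`) the function `ξ = Ω.indicator (χ * (χ * t))` is in `TH Ω` (`p5b_mul`, `H1loc.th` with the compact set
`A ∩ tsupport χ`, `TH.mul_c1`), bounded, `≥ 0`.  Pointwise a.e.
`⟪R² • Gq, K⟫ = 1_Ω R² (χ² ‖Gt‖² + 2 χ t ⟪Gt, ∇ χ⟫) ≥ -R² t² ‖∇ χ‖² ≥ -(max M 0 * M' / (n + 1))² R²`, hence
`∫ h ξ_n ≤ (max M 0 * M' / (n + 1))² ∫ R² → 0` (the inner product term is integrable: `p5b_int`).  `h ξ_n ≥ 0` a.e. by `hpos`, and
`ξ_N ≤ ξ_n` for `n ≥ 2 N + 2` (there `χ_n = 1` on the support of `χ_N`), so `∫ h ξ_N = 0`, `h ξ_N = 0` a.e. for every `N`, `t = 0` a.e.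
-/

set_option autoImplicit false

namespace Crest.Agent.R335

open MeasureTheory Set Filter Topology
open scoped Gradient RealInnerProductSpace ENNReal ContDiff
open Crest.MathPhysics.ThreeBody

variable {k b L C c e2 : ℝ} {R d V0 S v : E3 → ℝ} {GR Gd : E3 → E3}

theorem k2_abs_pos {Ω : Set E3} (hΩ : IsOpen Ω)
    (lR : ∀ K, IsCompact K → K ⊆ Ω → ∃ m : ℝ, 0 < m ∧ ∀ᵐ x, x ∈ K → m ≤ R x) :
    ∀ᵐ x, x ∈ Ω → 0 < R x := by
  rw [ae_iff]
  refine measure_null_of_locally_null _ fun x hx => ?_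
  have hx' : x ∈ Ω := (Classical.not_imp.1 hx).1
  obtain ⟨K, k1, k2, k3⟩ := exists_compact_subset hΩ hx'
  obtain ⟨m, m0, hm⟩ := lR K k1 k3
  refine ⟨_, inter_mem_nhdsWithin _ (mem_interior_iff_mem_nhds.1 k2), measure_mono_null ?_ (ae_iff.1 hm)⟩
  rintro y ⟨h1, h2⟩ h3
  exact h1 fun _ => m0.trans_le (h3 h2)

theorem k2_abs_top {Ω C : Set E3} {f : E3 → ℝ} (hf : Bl Ω f) (hC : IsCompact C) (hs : C ⊆ Ω)
    (hm : AEStronglyMeasurable f (volume.restrict C)) : MemLp f ⊤ (volume.restrict C) := by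
  obtain ⟨M, hM⟩ := hf C hC hs
  exact memLp_top_of_bound hm M ((ae_restrict_iff' hC.measurableSet).2 hM)

theorem k2_abs_step {Ω : Set E3} (hΩ : IsOpen Ω) {u h : E3 → ℝ} {Gu : E3 → E3} (hR : H1 R GR) (bR : Bl Ω R)
    (lR : ∀ K, IsCompact K → K ⊆ Ω → ∃ m : ℝ, 0 < m ∧ ∀ᵐ x, x ∈ K → m ≤ R x)
    (hu : H1loc Ω u Gu) (bu : Bl Ω u) {M : ℝ} (hM : ∀ᵐ x, x ∈ Ω → u x ≤ M * R x)
    (hh : ∀ K, IsCompact K → K ⊆ Ω → MemLp h 2 (volume.restrict K))
    (H : ∀ ξ K, TH Ω ξ K → Bl Ω ξ → (∀ᵐ x, 0 ≤ ξ x) →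
      (∫ x, ⟪R x • Gu x - u x • GR x, K x⟫) + ∫ x, h x * ξ x ≤ 0)
    {A : Set E3} (hA : IsClosed A) (hAΩ : A ⊆ Ω) (hout : ∀ᵐ x, x ∈ Ω → x ∉ A → u x ≤ 0)
    {χ : E3 → ℝ} (hχ : ContDiff ℝ ∞ χ) (hc : HasCompactSupport χ) (h01 : ∀ x, 0 ≤ χ x ∧ χ x ≤ 1) {δ : ℝ}
    (hδ : ∀ x, ‖∇ χ x‖ ≤ δ) :
    Integrable (fun x => h x * (χ x * Ω.indicator (fun x => χ x * max (u x / R x) 0) x)) ∧
      ∫ x, h x * (χ x * Ω.indicator (fun x => χ x * max (u x / R x) 0) x) ≤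
        (max M 0 * δ) ^ 2 * ∫ x, R x ^ 2 := by
  have R0 := k2_abs_pos hΩ lR
  have tb : ∀ᵐ x, x ∈ Ω → max (u x / R x) 0 ≤ max M 0 := by
    filter_upwards [R0, hM] with x h1 h2 hx
    exact max_le_max ((div_le_iff₀ (h1 hx)).2 (h2 hx)) le_rfl
  have t1 := (p5b_mul ((hu.div hΩ (hR.loc Ω) bu bR lR).pos hΩ) hχ).th hΩ (hc.isCompact.inter_left hA)
    (inter_subset_left.trans hAΩ) (by
      filter_upwards [hout, R0] with x hx hr h1 h2
      by_cases h3 : x ∈ A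
      · rw [image_eq_zero_of_notMem_tsupport fun h4 => h2 ⟨h3, h4⟩, zero_mul]
      · rw [max_eq_right (div_nonpos_of_nonpos_of_nonneg (hx h1 h3) (hr h1).le), mul_zero])
  have t2 := t1.mul_c1 hΩ (hχ.of_le (by simp)).contDiffOn
  have e1 := H _ _ t2 (fun C _ _ => ⟨max M 0, by
    filter_upwards [tb] with x hx _
    by_cases h1 : x ∈ Ω
    · have k0 : 0 ≤ max (u x / R x) 0 := le_max_right _ _
      rw [indicator_of_mem h1, abs_of_nonneg (mul_nonneg (h01 x).1 (mul_nonneg (h01 x).1 k0))]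
      exact (mul_le_of_le_one_left (mul_nonneg (h01 x).1 k0) (h01 x).2).trans
        ((mul_le_of_le_one_left k0 (h01 x).2).trans (hx h1))
    · simp [h1]⟩) (Eventually.of_forall fun x => by
    by_cases h1 : x ∈ Ω
    · simp only [indicator_of_mem h1, ← mul_assoc]
      exact mul_nonneg (mul_self_nonneg _) (le_max_right _ _)
    · simp [h1])
  obtain ⟨C, hC, hCΩ, h0⟩ := t2.cpt
  have m1 : MemLp (fun x => R x • Gu x - u x • GR x) 2 (volume.restrict C) :=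
    ((hu.memLp hΩ hC hCΩ).2.smul (k2_abs_top bR hC hCΩ hR.mf.1.restrict)).sub
      ((hR.mG.restrict C).smul (k2_abs_top bu hC hCΩ (hu.memLp hΩ hC hCΩ).1.1))
  have i1 := p5b_int hC.measurableSet m1 t2.h1.mG (h0.mono fun x hx h1 => (hx h1).2)
  have i2 := p5b_int' hC.measurableSet (hh C hC hCΩ) t2.h1.mf (h0.mono fun x hx h1 => (hx h1).1)
  refine ⟨i2, ?_⟩
  have i3 : Integrable fun x => -((max M 0 * δ) ^ 2 * R x ^ 2) := (hR.mf.integrable_sq.const_mul _).neg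
  have e2 := integral_mono_ae i3 i1 (by
    filter_upwards [R0, tb] with x h1 h2
    by_cases h4 : x ∈ Ω
    · simp only [indicator_of_mem h4]
      have r0 := h1 h4
      by_cases h5 : 0 < u x / R x
      · have h6 := h2 h4
        rw [max_eq_left h5.le] at h6 ⊢
        rw [if_pos h5]
        obtain ⟨U, hU⟩ : ∃ U, U = (R x)⁻¹ • Gu x - (u x / R x ^ 2) • GR x := ⟨_, rfl⟩
        have e : R x • Gu x - u x • GR x = R x ^ 2 • U := by
          rw [hU, smul_sub, smul_smul, smul_smul]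
          congr 2 <;> field_simp
        rw [e, ← hU]
        have k1 := norm_add_sq_real (χ x • U) ((u x / R x) • ∇ χ x)
        have k2 : (u x / R x) ^ 2 * ‖∇ χ x‖ ^ 2 ≤ (max M 0 * δ) ^ 2 := by
          rw [← mul_pow]
          exact pow_le_pow_left₀ (mul_nonneg h5.le (norm_nonneg _))
            (mul_le_mul h6 (hδ x) (norm_nonneg _) (le_max_right _ _)) 2
        simp only [inner_add_right, real_inner_smul_left, real_inner_smul_right, norm_smul, mul_pow,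
          Real.norm_eq_abs, sq_abs, real_inner_self_eq_norm_sq] at k1 ⊢
        rw [← mul_pow]
        have k3 := sq_nonneg ‖χ x • U + (u x / R x) • ∇ χ x‖
        have k4 := sq_nonneg (R x)
        generalize (max M 0 * δ) ^ 2 = a at k2 ⊢
        generalize u x / R x = q at *
        have k5 : -a ≤ χ x * (χ x * ‖U‖ ^ 2 + q * ⟪U, ∇ χ x⟫) + χ x * q * ⟪U, ∇ χ x⟫ := by nlinarith
        nlinarith [mul_le_mul_of_nonneg_left k5 k4]
      · rw [if_neg h5, max_eq_right (not_lt.1 h5)]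
        simp only [smul_zero, zero_smul, add_zero, mul_zero, inner_zero_right, neg_nonpos]
        positivity
    · simp only [indicator_of_notMem h4, smul_zero, zero_smul, add_zero, inner_zero_right, neg_nonpos]
      positivity)
  rw [integral_neg, integral_const_mul] at e2
  linarith

theorem k2_abs {Ω : Set E3} (hΩ : IsOpen Ω) {u h : E3 → ℝ} {Gu : E3 → E3} (hR : H1 R GR) (bR : Bl Ω R)
    (lR : ∀ K, IsCompact K → K ⊆ Ω → ∃ m : ℝ, 0 < m ∧ ∀ᵐ x, x ∈ K → m ≤ R x)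
    (hu : H1loc Ω u Gu) (bu : Bl Ω u) {M : ℝ} (hM : ∀ᵐ x, x ∈ Ω → u x ≤ M * R x)
    (hh : ∀ K, IsCompact K → K ⊆ Ω → MemLp h 2 (volume.restrict K))
    (H : ∀ ξ K, TH Ω ξ K → Bl Ω ξ → (∀ᵐ x, 0 ≤ ξ x) →
      (∫ x, ⟪R x • Gu x - u x • GR x, K x⟫) + ∫ x, h x * ξ x ≤ 0)
    (hpos : ∀ᵐ x, x ∈ Ω → 0 < u x → 0 < h x) {A : Set E3} (hA : IsClosed A) (hAΩ : A ⊆ Ω)
    (hout : ∀ᵐ x, x ∈ Ω → x ∉ A → u x ≤ 0) : ∀ᵐ x, x ∈ Ω → u x ≤ 0 := by
  have R0 := k2_abs_pos hΩ lR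
  obtain ⟨M', hM', hcut⟩ := exists_cut (E := E3)
  choose χ h1 h2 h3 h4 using fun n : ℕ => hcut 0 (n + 1) n.cast_add_one_pos
  have st := fun n => k2_abs_step hΩ hR bR lR hu bu hM hh H hA hAΩ hout (h1 n).sm (h1 n).cpt (h2 n) (h4 n)
  have nn : ∀ᵐ x, x ∈ Ω → 0 ≤ h x * max (u x / R x) 0 := by
    filter_upwards [R0, hpos] with x k1 k2 hx
    by_cases k3 : 0 < u x
    · exact mul_nonneg (k2 hx k3).le (le_max_right _ _)
    · rw [max_eq_right (div_nonpos_of_nonpos_of_nonneg (not_lt.1 k3) (k1 hx).le), mul_zero]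
  have l0 : Tendsto (fun n : ℕ => (max M 0 * (M' / (n + 1))) ^ 2 * ∫ x, R x ^ 2) atTop (𝓝 0) := by
    simpa using ((((tendsto_const_nhds (x := M')).div_atTop
      (tendsto_atTop_add_const_right _ 1 tendsto_natCast_atTop_atTop)).const_mul (max M 0)).pow 2).mul_const
        (∫ x, R x ^ 2)
  have z : ∀ N, ∀ᵐ x, h x * (χ N x * Ω.indicator (fun x => χ N x * max (u x / R x) 0) x) = 0 := fun N => by
    have p0 : 0 ≤ᵐ[volume] fun x =>
        h x * (χ N x * Ω.indicator (fun x => χ N x * max (u x / R x) 0) x) := by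
      filter_upwards [nn] with x k1
      by_cases hx : x ∈ Ω
      · simp only [indicator_of_mem hx, Pi.zero_apply]
        nlinarith [mul_nonneg (mul_self_nonneg (χ N x)) (k1 hx)]
      · simp [hx]
    refine (integral_eq_zero_iff_of_nonneg_ae p0 (st N).1).1 (le_antisymm ?_ (integral_nonneg_of_ae p0))
    refine ge_of_tendsto l0 ?_
    filter_upwards [eventually_ge_atTop (2 * N + 2)] with n hn
    refine le_trans (integral_mono_ae (st N).1 (st n).1 ?_) (st n).2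
    filter_upwards [nn] with x k1
    by_cases hx : x ∈ Ω
    · simp only [indicator_of_mem hx]
      have k2 : χ N x * χ N x ≤ χ n x * χ n x := by
        by_cases k3 : x ∈ tsupport (χ N)
        · have k4 := mem_closedBall_zero_iff.1 ((h1 N).sub k3)
          have k5 : (2 * N + 2 : ℝ) ≤ n := by exact_mod_cast hn
          rw [h3 n x (mem_ball_zero_iff.2 (by linarith)), one_mul]
          exact mul_le_one₀ (h2 N x).2 (h2 N x).1 (h2 N x).2
        · rw [image_eq_zero_of_notMem_tsupport k3, zero_mul]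
          exact mul_self_nonneg _
      nlinarith [mul_le_mul_of_nonneg_right k2 (k1 hx)]
    · simp [hx]
  filter_upwards [ae_all_iff.2 z, R0, hpos] with x k1 k2 k3 hx
  by_contra k4
  have k5 := not_le.1 k4
  have k6 := k1 ⌈‖x‖⌉₊
  rw [indicator_of_mem hx, h3 _ x (mem_ball_zero_iff.2 (by linarith [Nat.le_ceil ‖x‖])), one_mul, one_mul,
    max_eq_left (div_pos k5 (k2 hx)).le] at k6
  exact (mul_pos (k3 hx k5) (div_pos k5 (k2 hx))).ne' k6

end Crest.Agent.R335
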