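import Crest.Agent.R335.K2_cmp0

/-!
# R335/K2_cmp: comparison of a nonnegative orbital with a barrier (sub-lead helper47)

Pure numerics on top of `k2_cmp0` with `M / c`, `m / (2 C)` in place of `M`, `m`.  With `r = ‖x‖ ≥ L₁ ≥ max 65 (L + 1)`, `z = x 2`:
`1 ≤ 64 r z` gives `z > 0` and `1 + z ≤ 65 r z`.  `h2`: `(1 + z)² / (z r⁴) ≤ 65² z / r²`; `h3`: `2 V0 ≤ k² - 2 k b / r + C / r²` (`h.V0a`),
so `lap B - 2 V0 B ≥ B / r²`, while `(1 + z) / r⁴ ≤ 65 z / r³`; `h4`: `c z g > 0`; conclusion: `(1 + z) / r² ≤ 65 z / r ≤ z`.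
-/

set_option autoImplicit false

namespace Crest.Agent.R335

open MeasureTheory Set Filter Topology
open scoped Gradient RealInnerProductSpace ENNReal ContDiff
open Crest.MathPhysics.ThreeBody

variable {k b L C c e2 : ℝ} {R d V0 S v : E3 → ℝ} {GR Gd : E3 → E3}

theorem k2_cmp_z {r z : ℝ} (hr : 65 ≤ r) (h : 1 ≤ 64 * r * z) : 0 < z ∧ 1 + z ≤ 65 * r * z := by
  have hz : 0 < z := pos_of_mul_pos_left (mul_comm (64 * r) z ▸ one_pos.trans_le h) (by linarith)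
  exact ⟨hz, by nlinarith⟩

theorem k2_cmp_a {r z A B : ℝ} (hr : 65 ≤ r) (h : 1 ≤ 64 * r * z) (hA : 0 ≤ A) (hB : 0 < B)
    (hL : 65 ^ 2 * A / B ≤ r) : A * ((1 + z) ^ 2 / (z * r ^ 4)) ≤ B * z := by
  obtain ⟨hz, h1⟩ := k2_cmp_z hr h
  have hr0 : 0 < r := by linarith
  have h2 : (1 + z) ^ 2 / (z * r ^ 4) ≤ 65 ^ 2 * z / r := by
    rw [div_le_div_iff₀ (by positivity) hr0]
    have h3 : (1 + z) ^ 2 ≤ (65 * r * z) ^ 2 := pow_le_pow_left₀ (by linarith) h1 2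
    have h4 : r ^ 3 ≤ r ^ 4 := pow_le_pow_right₀ (by linarith) (by norm_num)
    calc (1 + z) ^ 2 * r ≤ (65 * r * z) ^ 2 * r := by gcongr
      _ = 65 ^ 2 * z * (z * r ^ 3) := by ring
      _ ≤ 65 ^ 2 * z * (z * r ^ 4) := by gcongr
  rw [div_le_iff₀ hB] at hL
  refine (mul_le_mul_of_nonneg_left h2 hA).trans ?_
  rw [← mul_div_assoc, div_le_iff₀ hr0]
  nlinarith

theorem k2_cmp_b {r z A B : ℝ} (hr : 65 ≤ r) (h : 1 ≤ 64 * r * z) (hA : 0 ≤ A) (hB : 0 < B)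
    (hL : 65 * A / B ≤ r) : A * (1 + z) / r ^ 4 ≤ B * z / r ^ 2 := by
  obtain ⟨hz, h1⟩ := k2_cmp_z hr h
  have hr0 : 0 < r := by linarith
  rw [div_le_iff₀ hB] at hL
  rw [div_le_div_iff₀ (by positivity) (by positivity)]
  calc A * (1 + z) * r ^ 2 ≤ A * (65 * r * z) * r ^ 2 := by gcongr
    _ = 65 * A * (z * r ^ 3) := by ring
    _ ≤ r * B * (z * r ^ 3) := by gcongr
    _ = B * z * r ^ 4 := by ring

theorem k2_cmp_c {r z : ℝ} (hr : 65 ≤ r) (h : 1 ≤ 64 * r * z) : (1 + z) / r ^ 2 ≤ z := by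
  obtain ⟨hz, h1⟩ := k2_cmp_z hr h
  have hr0 : 0 < r := by linarith
  rw [div_le_iff₀ (by positivity)]
  have := mul_pos hr0 hz
  nlinarith

theorem k2_cmp (h : Tail k b L C c R GR d Gd V0 S) (hv : IsSumClassPotential v)
    (hk : SubS univ (fun x => v x - e2) 0 R GR) {M m : ℝ} (hM : 0 < M) (hm : 0 < m) : ∃ L₁ : ℝ,
      ∀ (f : E3 → ℝ) (G : E3 → E3) (Ω D : Set E3) (B : E3 → ℝ) (c₀ : ℝ), Orb v e2 R f G → IsOpen Ω → IsClosed D →
        Ω ⊆ D → 0 < c₀ → (∀ x ∈ D, L₁ ≤ ‖x‖ ∧ 1 ≤ 64 * ‖x‖ * x 2 ∧ 0 < cyl x) → (∀ x ∈ Ω, 0 ≤ f x) →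
        ContDiffOn ℝ 2 B Ω → ContinuousOn B D →
        (∀ x ∈ Ω, 0 ≤ B x ∧ B x ≤ M * x 2 * gfun k b x ∧
          (k ^ 2 - 2 * k * b / ‖x‖ + (C + 1) / ‖x‖ ^ 2) * B x ≤ lap B x) →
        (∀ x ∈ D, x ∉ Ω → c₀ * B x ≤ f x) → ∀ x ∈ Ω, c₀ * (B x - m * x 2 * gfun k b x) ≤ f x := by
  have hc := h.cpos
  have hC : 0 < C := one_pos.trans_le h.Cge
  set M' := M / c with hM'
  set m' := m / (2 * C) with hm'
  have hM0 : 0 < M' := by positivity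
  have hm0 : 0 < m' := by positivity
  refine ⟨max (max 65 (L + 1)) (max (65 ^ 2 * (M' * (C ^ 2 / c)) / (m' / 2 * c))
    (65 * (4 * M' * C ^ 2) / (m' / 2 * c))), fun f G Ω D B c₀ hf hΩ hD hΩD hc₀ hDs hf0 hB hBc h1 h4 x hx => ?_⟩
  have r1 : ∀ x ∈ D, 65 ≤ ‖x‖ := fun x hx => ((le_max_left _ _).trans (le_max_left _ _)).trans (hDs x hx).1
  have r2 : ∀ x ∈ D, L < ‖x‖ := fun x hx =>
    (lt_add_one L).trans_le (((le_max_right _ _).trans (le_max_left _ _)).trans (hDs x hx).1)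
  have r3 := fun x hx => ((le_max_left _ _).trans (le_max_right _ _)).trans (hDs x hx).1
  have r4 := fun x hx => ((le_max_right _ _).trans (le_max_right _ _)).trans (hDs x hx).1
  have hz : ∀ x ∈ D, 0 < x 2 := fun x hx => (k2_cmp_z (r1 x hx) (hDs x hx).2.1).1
  have hg : ∀ x ∈ D, 0 < gfun k b x := fun x hx => gfun_pos k b (norm_pos_iff.1 (by linarith [r1 x hx]))
  have key := k2_cmp0 h hv hk hf hΩ hD hΩD (fun x hx => ⟨r2 x hx, hz x hx, (hDs x hx).2.2⟩) hf0 hB hBc hM0.le hm0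
    hc₀ (fun x hx => (h1 x hx).2.1.trans_eq (by rw [hM']; field_simp)) (fun x hx => ?_) (fun x hx h5 => ?_)
    (fun x hx hn => ?_) x hx
  · refine le_trans (mul_le_mul_of_nonneg_left (sub_le_sub_left ?_ _) hc₀.le) key
    have a1 := k2_cmp_c (r1 x (hΩD hx)) (hDs x (hΩD hx)).2.1
    have a2 := (hg x (hΩD hx)).le
    calc m' * (C * (x 2 + (1 + x 2) / ‖x‖ ^ 2) * gfun k b x) ≤ m' * (C * (x 2 + x 2) * gfun k b x) := by gcongr
      _ = m * x 2 * gfun k b x := by rw [hm']; field_simp; ring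
  · have a1 := k2_cmp_a (r1 x (hΩD hx)) (hDs x (hΩD hx)).2.1 (by positivity) (by positivity) (r3 x (hΩD hx))
    linarith
  · have a1 := mul_le_mul_of_nonneg_right
      (k2_cmp_b (r1 x (hΩD hx)) (hDs x (hΩD hx)).2.1 (by positivity) (by positivity) (r4 x (hΩD hx)))
      (hg x (hΩD hx)).le
    obtain ⟨b1, -, b2⟩ := h1 x hx
    have a2 := mul_le_mul_of_nonneg_right (abs_le.1 (h.V0a x (r2 x (hΩD hx)))).2 b1
    have hr0 : 0 < ‖x‖ ^ 2 := pow_pos (by linarith [r1 x (hΩD hx)]) 2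
    have a3 := div_lt_div_of_pos_right h5 hr0
    have e1 : (C + 1) / ‖x‖ ^ 2 * B x = C / ‖x‖ ^ 2 * B x + B x / ‖x‖ ^ 2 := by ring
    have e2 : m' / 2 * c * x 2 / ‖x‖ ^ 2 * gfun k b x = m' / 2 * (c * x 2 * gfun k b x) / ‖x‖ ^ 2 := by ring
    linarith
  · have a1 := mul_pos hc₀ (mul_pos (half_pos hm0) (mul_pos (mul_pos hc (hz x hx)) (hg x hx)))
    linarith [h4 x hx hn]

end Crest.Agent.R335
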