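import Crest.Agent.R335.S5b

/-!
# R335/S5: products
-/

set_option autoImplicit false

namespace Crest.Agent.R335

open MeasureTheory Set Filter Topology
open scoped Gradient RealInnerProductSpace ENNReal ContDiff
open Crest.MathPhysics.ThreeBody

variable {E : Type} [NormedAddCommGroup E] [InnerProductSpace ℝ E] [FiniteDimensional ℝ E]
  [MeasurableSpace E] [BorelSpace E]

variable {f g : E → ℝ} {G K : E → E}

/-- divergence theorem for a `C¹` field on `Ω` and the square of a function: the tool for weighted Hardy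
inequalities `∫ w ‖G‖² ≥ ∫ (- div (w X) - w ‖X‖²) f²`.  Here `Y = w X` and `dv = div Y`. -/
theorem TH.sq_div {Ω : Set E} (hΩ : IsOpen Ω) (hf : TH Ω f G) {Y : E → E} (hY : ContDiffOn ℝ 1 Y Ω) :
    ∫ x, LinearMap.trace ℝ E (fderiv ℝ Y x : E →ₗ[ℝ] E) * f x ^ 2 = -∫ x, 2 * f x * ⟪G x, Y x⟫ := by
  set b := stdOrthonormalBasis ℝ E
  have hg : ∀ i, H1 (fun x => ⟪Y x, b i⟫ * f x) fun x =>
      ⟪Y x, b i⟫ • G x + f x • ∇ (fun x => ⟪Y x, b i⟫) x :=
    fun i => (hf.mul_c1 hΩ (hY.inner ℝ contDiffOn_const)).h1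
  have i1 := fun i => hf.h1.mf.integrable_mul ((hg i).mG.inner_const (𝕜 := ℝ) (b i))
  have i2 := fun i => (hf.h1.mG.inner_const (𝕜 := ℝ) (b i)).integrable_mul (hg i).mf
  have e1 := fun i => hf.h1.ibp (hg i) (b i)
  obtain ⟨C, -, hC, h0⟩ := hf.cpt
  have e2 : ∫ x, LinearMap.trace ℝ E (fderiv ℝ Y x : E →ₗ[ℝ] E) * f x ^ 2 =
      ∫ x, ∑ i, (f x * ⟪⟪Y x, b i⟫ • G x + f x • ∇ (fun x => ⟪Y x, b i⟫) x, b i⟫ -
        ⟪G x, b i⟫ * (⟪Y x, b i⟫ * f x)) := by
    refine integral_congr_ae (h0.mono fun x hx => ?_)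
    by_cases h : x ∈ C
    · have hd := ((hY.contDiffAt (hΩ.mem_nhds (hC h))).differentiableAt one_ne_zero).hasFDerivAt
      beta_reduce
      rw [LinearMap.trace_eq_sum_inner _ b, Finset.sum_mul]
      refine Finset.sum_congr rfl fun i _ => ?_
      rw [inner_add_left, real_inner_smul_left, real_inner_smul_left, inner_gradient_left,
        (hd.inner ℝ (hasFDerivAt_const (b i) x)).fderiv]
      simp [real_inner_comm]
      ring
    · simp [(hx h).1]
  have e3 : ∫ x, 2 * f x * ⟪G x, Y x⟫ = ∫ x, ∑ i, 2 * (⟪G x, b i⟫ * (⟪Y x, b i⟫ * f x)) := by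
    refine integral_congr_ae (Eventually.of_forall fun x => ?_)
    beta_reduce
    rw [← b.sum_inner_mul_inner, Finset.mul_sum]
    exact Finset.sum_congr rfl fun i _ => by rw [real_inner_comm (Y x)]; ring
  refine e2.trans ((integral_finsetSum _ fun i _ => (i1 i).sub (i2 i)).trans ?_)
  rw [e3.trans (integral_finsetSum _ fun i _ => (i2 i).const_mul 2), ← Finset.sum_neg_distrib]
  refine Finset.sum_congr rfl fun i _ => (integral_sub (i1 i) (i2 i)).trans ?_
  rw [integral_const_mul]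
  have := e1 i
  simp only [Pi.mul_apply] at this ⊢
  linarith

end Crest.Agent.R335
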