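import Crest.Agent.R335.P3
import Crest.Agent.R335.S5

/-!
# R335/P7: what `Tail` says about orbitals
-/

set_option autoImplicit false

namespace Crest.Agent.R335

open MeasureTheory Set Filter Topology
open scoped Gradient RealInnerProductSpace ENNReal ContDiff
open Crest.MathPhysics.ThreeBody

variable {k b L C c : ℝ} {R d V0 S v : E3 → ℝ} {GR Gd : E3 → E3}

theorem p7a_g (k b : ℝ) (x : E3) : 0 ≤ gfun k b x := by
  unfold gfun
  positivity

theorem Tail.mono (h : Tail k b L C c R GR d Gd V0 S) {L' c' : ℝ} (hL : L ≤ L') (hc : c' ≤ c) (h0 : 0 < c') :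
    Tail k b L' C c' R GR d Gd V0 S := by
  have hs : far L' ⊆ far L := fun x hx => hL.trans_lt hx
  obtain ⟨Ro, Re, M, p1, p2, p3, p4⟩ := h.plane
  exact ⟨h.kpos, h.Lge.trans hL, h.Cge, h0, h.hR, h.R0, h.hd, h.sym, h.bdd, h.mV, h.mS,
    fun x hx => h.V0a x (hs hx), fun ξ K h1 => h.sub ξ K (h1.mono hs), fun ξ K h1 => h.eqd ξ K (h1.mono hs),
    h.Sle.mono fun x h1 hx => h1 (hs hx), h.dle,
    h.dlow.mono fun x h1 hx => le_trans (by have := p7a_g k b x; gcongr) (h1 (hs hx)),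
    h.dup.mono fun x h1 hx => h1 (hs hx), h.qup.mono fun x h1 hx => h1 (hs hx),
    h.low.mono fun x h1 hx => le_trans (by have := p7a_g k b x; gcongr) (h1 (hs hx)),
    Ro, Re, M, p1, p2, p3.mono fun x h1 hx => h1 (hs hx), p4⟩

theorem Tail.R_le (h : Tail k b L C c R GR d Gd V0 S) :
    ∀ᵐ x, L < ‖x‖ → R x ≤ C * (|x 2| + (1 + |x 2|) / ‖x‖ ^ 2) * gfun k b x := by
  filter_upwards [h.dup, h.qup] with x h1 h2 hx
  have hg := p7a_g k b x
  have hC := zero_le_one.trans h.Cge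
  have hA : 0 ≤ C * (1 + |x 2|) / ‖x‖ ^ 2 * gfun k b x := by positivity
  have h3 : R x ≤ |d x| + C * (1 + |x 2|) / ‖x‖ ^ 2 * gfun k b x :=
    (pow_le_pow_iff_left₀ (h.R0 x) (by positivity) two_ne_zero).1 (by
      nlinarith [h2 hx, sq_abs (d x), mul_nonneg (abs_nonneg (d x)) hA])
  exact (h3.trans (add_le_add_left (h1 hx) _)).trans_eq (by ring)

/-- `R - |d|` is small above the plane -/
theorem Tail.R_sub_d (h : Tail k b L C c R GR d Gd V0 S) :
    ∀ᵐ x, L < ‖x‖ → 0 < x 2 → 0 ≤ R x - d x ∧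
      R x - d x ≤ C ^ 2 / c * ((1 + x 2) ^ 2 / (x 2 * ‖x‖ ^ 4)) * gfun k b x := by
  filter_upwards [h.dle, h.dlow, h.qup] with x h1 h2 h3 hx hz
  have hx0 : 0 < ‖x‖ := (zero_le_one.trans h.Lge).trans_lt hx
  have hg := gfun_pos k b (norm_pos_iff.1 hx0)
  have hc := h.cpos
  have h4 : c * x 2 * gfun k b x ≤ d x := le_of_mul_le_mul_left (by linarith [h2 hx]) hz
  have h5 : 0 < c * x 2 * gfun k b x := by positivity
  have h6 := sub_nonneg.2 ((le_abs_self _).trans h1)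
  refine ⟨h6, le_of_mul_le_mul_right ?_ h5⟩
  have h7 := h3 hx
  rw [abs_of_pos hz] at h7
  calc (R x - d x) * (c * x 2 * gfun k b x) ≤ (R x - d x) * (R x + d x) := by
        gcongr
        linarith [h.R0 x]
    _ ≤ (C * (1 + x 2) / ‖x‖ ^ 2 * gfun k b x) ^ 2 := by linarith
    _ = _ := by field_simp

/-- an a.e. inequality between functions which are continuous on an open set holds everywhere -/
theorem le_of_ae_le {U : Set E3} (hU : IsOpen U) {f g : E3 → ℝ} (hf : ContinuousOn f U) (hg : ContinuousOn g U)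
    (h : ∀ᵐ x, x ∈ U → f x ≤ g x) : ∀ x ∈ U, f x ≤ g x := by
  exact fun x hx => max_eq_right_iff.1 (Measure.eqOn_open_of_ae_eq (f := fun x => max (f x) (g x))
    ((ae_restrict_iff' hU.measurableSet).2 (h.mono fun y hy hyU => max_eq_right (hy hyU))) hU (hf.sup hg) hg hx)

theorem Tail.cont_le (h : Tail k b L C c R GR d Gd V0 S) {f : E3 → ℝ} (hf : ContinuousOn f offA) {M : ℝ}
    (hM : 0 ≤ M) (hd : ∀ᵐ x, |f x| ≤ M * R x) :
    ∀ x ∈ offA, L < ‖x‖ → |f x| ≤ M * C * (|x 2| + (1 + |x 2|) / ‖x‖ ^ 2) * gfun k b x := by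
  have h0 : ∀ x ∈ offA ∩ far L, x ≠ 0 := fun x hx =>
    norm_pos_iff.1 ((zero_le_one.trans h.Lge).trans_lt hx.2)
  refine fun x h1 h2 => le_of_ae_le (isOpen_offA.inter (isOpen_far L)) (hf.mono inter_subset_left).abs
    (g := fun x => M * C * (|x 2| + (1 + |x 2|) / ‖x‖ ^ 2) * gfun k b x)
    (ContinuousOn.mul (continuousOn_const.mul (ContinuousOn.add (by fun_prop) (ContinuousOn.div (by fun_prop)
      (by fun_prop) fun y hy => pow_ne_zero 2 (norm_ne_zero_iff.2 (h0 y hy))))) ((continuousOn_gfun k b).mono h0))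
    ?_ x ⟨h1, h2⟩
  filter_upwards [hd, h.R_le] with y a1 a2 hy
  exact (a1.trans (mul_le_mul_of_nonneg_left (a2 hy.2) hM)).trans_eq (by ring)

end Crest.Agent.R335
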