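import Crest.Agent.R335.P5b
import Crest.Agent.R335.S6
import Crest.Agent.R335.P7a

/-!
# R335/K2_sup: the two weak inequalities for quotients by `R` (sub-lead helper47)

* `k2_sup`: test `hf.eqS hv Ω` with `ξ * R` (`TH.mul_loc`, gradient `ξ • GR + R • K`) and `hk` with `ξ * f ≥ 0` (gradient
  `ξ • G + f • K`, `TH.mono`).  The two potential integrals have the same integrand (`ring`), the difference of the gradient integrands
  (both integrable, `H1.int_inner`) is `⟪R • G - f • GR, K⟫`.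
* `k2_sub`: `w = M d - B ≥ 0` on `Ω` (`H1loc`, `Bl` since `|d| ≤ R`).  `TH.green` and `h.eqd` with the test function `ξ * R`, `h.sub`
  with `ξ * w ≥ 0`:  `⟪R • (∇B - M • Gd) + w • GR, K⟫ = ⟪∇B, ξ • GR + R • K⟫ - M ⟪Gd, ξ • GR + R • K⟫ + ⟪GR, ξ • (M • Gd - ∇B) + w • K⟫`,
  and the integral of this is `≤ -∫ lap B (ξ R) + 2 M ∫ (V0 d - S) (ξ R) - 2 ∫ (V0 - C / r⁴) R (ξ w)`.  On compact subsets of `Ω ⊆ far L` all
  coefficients are bounded (`p5b_lap`, `h.V0a` with `‖x‖ > L ≥ 1`, `h.Sle` with `continuousOn_gfun`, `bR`, `h.dle`); integrability by `p5b_int`,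
  `p5b_int'`.
-/

set_option autoImplicit false

namespace Crest.Agent.R335

open MeasureTheory Set Filter Topology
open scoped Gradient RealInnerProductSpace ENNReal ContDiff
open Crest.MathPhysics.ThreeBody

variable {k b L C c e2 : ℝ} {R d V0 S v : E3 → ℝ} {GR Gd : E3 → E3}

theorem k2_sup {Ω : Set E3} (hΩ : IsOpen Ω) (hv : FB v) (hR : H1 R GR)
    (hk : SubS univ (fun x => v x - e2) 0 R GR) {f : E3 → ℝ} {G : E3 → E3} (hf : Eig v e2 f G) (bR : Bl Ω R)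
    (bf : Bl Ω f) (h0 : ∀ x ∈ Ω, 0 ≤ f x) {ξ : E3 → ℝ} {K : E3 → E3} (hξ : TH Ω ξ K) (bξ : Bl Ω ξ)
    (hξ0 : ∀ᵐ x, 0 ≤ ξ x) :
    Integrable (fun x => ⟪R x • G x - f x • GR x, K x⟫) ∧ 0 ≤ ∫ x, ⟪R x • G x - f x • GR x, K x⟫ := by
  have t1 := hξ.mul_loc hΩ (hR.loc Ω) bξ bR
  have t2 := hξ.mul_loc hΩ (hf.h1.loc Ω) bξ bf
  have e1 := hf.eqS hv Ω _ _ t1
  have e2' := hk _ _ (t2.mono (subset_univ _)) (by
    obtain ⟨A, -, a1, a2⟩ := hξ.cpt
    filter_upwards [a2, hξ0] with x b1 b2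
    by_cases hx : x ∈ A
    · exact mul_nonneg b2 (h0 x (a1 hx))
    · rw [(b1 hx).1, zero_mul])
  have i1 := hf.h1.int_inner t1.h1
  have i2 := hR.int_inner t2.h1
  have e3 : ∀ x, ⟪R x • G x - f x • GR x, K x⟫ =
      ⟪G x, ξ x • GR x + R x • K x⟫ - ⟪GR x, ξ x • G x + f x • K x⟫ := fun x => by
    simp only [inner_sub_left, inner_add_right, real_inner_smul_left, real_inner_smul_right,
      real_inner_comm (G x) (GR x)]
    ring
  have e4 : ∫ x, ((v x - e2) * f x - (0 : E3 → ℝ) x) * (ξ x * R x) =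
      ∫ x, ((v x - e2) * R x - (0 : E3 → ℝ) x) * (ξ x * f x) := by
    congr 1
    funext x
    simp only [Pi.zero_apply]
    ring
  simp only [e3]
  refine ⟨i1.sub i2, ?_⟩
  rw [integral_sub i1 i2]
  linarith

theorem k2_sup_cont {f : E3 → ℝ} {K : Set E3} (hK : IsCompact K) (hf : ContinuousOn f K) :
    MemLp f ⊤ (volume.restrict K) := by
  obtain ⟨M, hM⟩ := hK.exists_bound_of_continuousOn hf
  exact memLp_top_of_bound (hf.aestronglyMeasurable hK.measurableSet) M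
    ((ae_restrict_iff' hK.measurableSet).2 (Eventually.of_forall hM))

theorem k2_sup_V0 (h : Tail k b L C c R GR d Gd V0 S) : LB (far L) V0 := by
  refine ⟨h.mV.aestronglyMeasurable, fun K _ hK => ⟨k ^ 2 + 2 * k * |b| + C, Eventually.of_forall fun x hx => ?_⟩⟩
  have h1 : L < ‖x‖ := hK hx
  have h2 : 1 ≤ ‖x‖ := h.Lge.trans h1.le
  have h3 := abs_le.1 (h.V0a x h1)
  have hk := h.kpos
  have hC := h.Cge
  have h4 : C / ‖x‖ ^ 2 ≤ C := div_le_self (by linarith) (one_le_pow₀ h2)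
  have h5 : |2 * k * b / ‖x‖| ≤ 2 * k * |b| := by
    rw [abs_div, abs_mul, abs_of_pos (by positivity : 0 < 2 * k), abs_norm]
    exact div_le_self (by positivity) h2
  have h6 := abs_le.1 h5
  have h7 : 0 ≤ 2 * k * |b| := by positivity
  rw [abs_le]
  constructor <;> nlinarith [sq_nonneg k]

theorem k2_sup_S (h : Tail k b L C c R GR d Gd V0 S) : LB (far L) S := by
  refine ⟨h.mS.aestronglyMeasurable, fun K hK hs => ?_⟩
  have hr : ∀ x ∈ K, 0 < ‖x‖ := fun x hx => (zero_le_one.trans h.Lge).trans_lt (hs hx)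
  have hc : ContinuousOn (fun x : E3 => C * (1 + |x 2|) / ‖x‖ ^ 4 * gfun k b x) K :=
    (ContinuousOn.div (by fun_prop) (by fun_prop) fun x hx => (pow_pos (hr x hx) 4).ne').mul
      ((continuousOn_gfun k b).mono fun x hx => norm_pos_iff.1 (hr x hx))
  obtain ⟨M, hM⟩ := hK.exists_bound_of_continuousOn hc
  exact ⟨M, h.Sle.mono fun x h1 hx => (h1 (hs hx)).trans ((le_abs_self _).trans (hM x hx))⟩

theorem k2_sup_r (h : Tail k b L C c R GR d Gd V0 S) {K : Set E3} (hK : IsCompact K) (hs : K ⊆ far L) :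
    MemLp (fun x : E3 => C / ‖x‖ ^ 4) ⊤ (volume.restrict K) :=
  k2_sup_cont hK (ContinuousOn.div (by fun_prop) (by fun_prop) fun x hx =>
    (pow_pos ((zero_le_one.trans h.Lge).trans_lt (hs hx)) 4).ne')

theorem k2_sup_d (h : Tail k b L C c R GR d Gd V0 S) {Ω : Set E3} (bR : Bl Ω R) : Bl Ω d := fun K hK hKΩ => by
  obtain ⟨N, hN⟩ := bR K hK hKΩ
  exact ⟨N, by filter_upwards [hN, h.dle] with x a1 a2 hx using a2.trans ((le_abs_self _).trans (a1 hx))⟩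

/-- the right hand side -/
noncomputable def k2h (C M : ℝ) (R d V0 S B : E3 → ℝ) (x : E3) : ℝ :=
  R x * (lap B x - 2 * V0 x * B x + 2 * M * S x - 2 * (C / ‖x‖ ^ 4) * (M * d x - B x))

theorem k2h_memLp (h : Tail k b L C c R GR d Gd V0 S) {Ω : Set E3} (hΩ : IsOpen Ω) (hs : Ω ⊆ far L) (bR : Bl Ω R)
    {B : E3 → ℝ} (hB : ContDiffOn ℝ 2 B Ω) (M : ℝ) {K : Set E3} (hK : IsCompact K) (hKΩ : K ⊆ Ω) :
    MemLp (k2h C M R d V0 S B) 2 (volume.restrict K) := by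
  have m1 := p5b_lap hΩ hB hK hKΩ
  have m2 := p5b_lb (k2_sup_V0 h) hK (hKΩ.trans hs)
  have m3 := p5b_lb (k2_sup_S h) hK (hKΩ.trans hs)
  have m4 := k2_sup_r h hK (hKΩ.trans hs)
  have m5 := k2_sup_cont hK (hB.continuousOn.mono hKΩ)
  have m6 : MemLp d ⊤ (volume.restrict K) := p5b_lb (Ω := Ω) ⟨h.hd.mf.1, k2_sup_d h bR⟩ hK hKΩ
  have m7 : MemLp (fun x => lap B x - 2 * V0 x * B x + 2 * M * S x - 2 * (C / ‖x‖ ^ 4) * (M * d x - B x)) ⊤
      (volume.restrict K) :=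
    ((m1.sub (m5.mul' (m2.const_mul 2))).add (m3.const_mul _)).sub
      (((m6.const_mul M).sub m5).mul' (m4.const_mul 2))
  exact m7.mul' (h.hR.mf.restrict K)

theorem k2_sub (h : Tail k b L C c R GR d Gd V0 S) {Ω : Set E3} (hΩ : IsOpen Ω) (hs : Ω ⊆ far L) (bR : Bl Ω R)
    {B : E3 → ℝ} (hB : ContDiffOn ℝ 2 B Ω) {M : ℝ} (hBd : ∀ᵐ x, x ∈ Ω → B x ≤ M * d x) {ξ : E3 → ℝ} {K : E3 → E3}
    (hξ : TH Ω ξ K) (bξ : Bl Ω ξ) (hξ0 : ∀ᵐ x, 0 ≤ ξ x) :
    Integrable (fun x => ⟪R x • (∇ B x - M • Gd x) - (B x - M * d x) • GR x, K x⟫) ∧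
      (∫ x, ⟪R x • (∇ B x - M • Gd x) - (B x - M * d x) • GR x, K x⟫) + ∫ x, k2h C M R d V0 S B x * ξ x ≤ 0 := by
  have bd := k2_sup_d h bR
  have hB1 := H1loc.of_c1 hΩ (hB.of_le (by norm_num))
  have bw : Bl Ω fun x => M * d x - B x := fun A hA hAΩ => by
    obtain ⟨N1, a1⟩ := bd A hA hAΩ
    obtain ⟨N2, a2⟩ := Bl.of_continuousOn hB.continuousOn A hA hAΩ
    refine ⟨|M| * N1 + N2, ?_⟩
    filter_upwards [a1, a2] with x b1 b2 hx
    refine (abs_sub _ _).trans (add_le_add ?_ (b2 hx))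
    rw [abs_mul]
    exact mul_le_mul_of_nonneg_left (b1 hx) (abs_nonneg _)
  have t1 := hξ.mul_loc hΩ (h.hR.loc Ω) bξ bR
  have t2 := hξ.mul_loc hΩ (((h.hd.loc Ω).const_mul M).sub hB1) bξ bw
  have e1 := t1.green hΩ hB
  have e2' := h.eqd _ _ (t1.mono hs)
  have e3 := h.sub _ _ (t2.mono hs) (by
    obtain ⟨A, -, a1, a2⟩ := hξ.cpt
    filter_upwards [a2, hξ0, hBd] with x b1 b2 b3
    by_cases hx : x ∈ A
    · exact mul_nonneg b2 (sub_nonneg.2 (b3 (a1 hx)))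
    · rw [(b1 hx).1, zero_mul])
  obtain ⟨A, hA, hAΩ, h0⟩ := t1.cpt
  obtain ⟨A', hA', hAΩ', h0'⟩ := t2.cpt
  have : IsFiniteMeasure (volume.restrict A) := isFiniteMeasure_restrict.2 hA.measure_lt_top.ne
  have i1 := p5b_int hA.measurableSet (hB1.memLp hΩ hA hAΩ).2 t1.h1.mG (h0.mono fun x hx h1 => (hx h1).2)
  have i2 := h.hd.int_inner t1.h1
  have i3 := h.hR.int_inner t2.h1
  have j1 := p5b_int' hA.measurableSet ((p5b_lap hΩ hB hA hAΩ).mono_exponent le_top)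
    t1.h1.mf (h0.mono fun x hx h1 => (hx h1).1)
  have j2 := p5b_int' (a := fun x => V0 x * d x - S x) hA.measurableSet
    (((h.hd.mf.restrict A).mul' (p5b_lb (k2_sup_V0 h) hA (hAΩ.trans hs))).sub
      ((p5b_lb (k2_sup_S h) hA (hAΩ.trans hs)).mono_exponent le_top))
    t1.h1.mf (h0.mono fun x hx h1 => (hx h1).1)
  have j3 := p5b_int' (a := fun x => (V0 x - C / ‖x‖ ^ 4) * R x) hA'.measurableSet
    ((h.hR.mf.restrict A').mul' ((p5b_lb (k2_sup_V0 h) hA' (hAΩ'.trans hs)).sub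
      (k2_sup_r h hA' (hAΩ'.trans hs))))
    t2.h1.mf (h0'.mono fun x hx h1 => (hx h1).1)
  have e4 : ∀ x, ⟪R x • (∇ B x - M • Gd x) - (B x - M * d x) • GR x, K x⟫ =
      ⟪∇ B x, ξ x • GR x + R x • K x⟫ - M * ⟪Gd x, ξ x • GR x + R x • K x⟫ +
        ⟪GR x, ξ x • (M • Gd x - ∇ B x) + (M * d x - B x) • K x⟫ := fun x => by
    simp only [inner_sub_left, inner_add_right, inner_sub_right, real_inner_smul_left, real_inner_smul_right,
      real_inner_comm (Gd x) (GR x), real_inner_comm (∇ B x) (GR x)]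
    ring
  have e5 : ∀ x, k2h C M R d V0 S B x * ξ x = lap B x * (ξ x * R x) - 2 * M * ((V0 x * d x - S x) * (ξ x * R x)) +
      2 * ((V0 x - C / ‖x‖ ^ 4) * R x * (ξ x * (M * d x - B x))) := fun x => by
    unfold k2h
    ring
  have k1 := i1.sub (i2.const_mul M)
  have k2 := j1.sub (j2.const_mul (2 * M))
  simp only [e4, e5]
  refine ⟨k1.add i3, ?_⟩
  have l1 := integral_add k1 i3
  have l2 := integral_add k2 (j3.const_mul 2)
  simp only [Pi.sub_apply] at l1 l2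
  simp only [Pi.zero_apply, sub_zero] at e3
  rw [l1, l2, integral_sub i1 (i2.const_mul M), integral_sub j1 (j2.const_mul (2 * M)), integral_const_mul,
    integral_const_mul, integral_const_mul, e1]
  have l3 : ∫ x, ⟪Gd x, ξ x • GR x + R x • K x⟫ = -2 * ∫ x, (V0 x * d x - S x) * (ξ x * R x) := by linarith
  rw [l3]
  linarith

end Crest.Agent.R335
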