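import Crest.Agent.R335.P7b

/-!
# R335/P7: what `Tail` says about orbitals
-/

set_option autoImplicit false

namespace Crest.Agent.R335

open MeasureTheory Set Filter Topology
open scoped Gradient RealInnerProductSpace ENNReal ContDiff
open Crest.MathPhysics.ThreeBody

variable {k b L C c : ℝ} {R d V0 S v : E3 → ℝ} {GR Gd : E3 → E3}

theorem p7_poly {k : ℝ} (hk : 0 < k) (m : ℕ) : ∃ A : ℝ, 0 ≤ A ∧ ∀ ρ r : ℝ, 1 ≤ ρ → ρ ≤ r →
    r ^ m * Real.exp (-2 * k * r) ≤ A * ρ ^ m * Real.exp (-2 * k * ρ) := by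
  refine ⟨m.factorial * Real.exp (2 * k) / (2 * k) ^ m, by positivity, fun ρ r h1 h2 => ?_⟩
  have ht : 0 ≤ r - ρ := sub_nonneg.2 h2
  have a1 : r ^ m ≤ ρ ^ m * (1 + (r - ρ)) ^ m := by
    rw [← mul_pow]
    exact pow_le_pow_left₀ (by linarith) (by nlinarith) m
  have a2 := Real.pow_div_factorial_le_exp (2 * k * (1 + (r - ρ))) (by positivity) m
  have a3 : (1 + (r - ρ)) ^ m ≤
      m.factorial * Real.exp (2 * k) / (2 * k) ^ m * Real.exp (2 * k * (r - ρ)) := by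
    rw [div_le_iff₀ (by positivity), mul_pow, mul_add (2 * k), mul_one, Real.exp_add] at a2
    rw [div_mul_eq_mul_div, le_div_iff₀ (by positivity)]
    linarith
  have e : Real.exp (-2 * k * ρ) = Real.exp (2 * k * (r - ρ)) * Real.exp (-2 * k * r) := by
    rw [← Real.exp_add]; congr 1; ring
  have hρ : 0 ≤ ρ ^ m := by positivity
  calc r ^ m * Real.exp (-2 * k * r)
      ≤ ρ ^ m * (m.factorial * Real.exp (2 * k) / (2 * k) ^ m * Real.exp (2 * k * (r - ρ))) *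
          Real.exp (-2 * k * r) := by
        refine mul_le_mul_of_nonneg_right (a1.trans (mul_le_mul_of_nonneg_left a3 hρ)) (by positivity)
    _ = _ := by rw [e]; ring

theorem p7_pt (h : Tail k b L C c R GR d Gd V0 S) : ∃ (B : ℝ) (m : ℕ), 0 ≤ B ∧ ∀ ρ, L + 1 ≤ ρ →
    ∀ᵐ x, ρ ≤ ‖x‖ → R x ^ 2 ≤ B * ρ ^ m * Real.exp (-2 * k * ρ) * (1 + ‖x‖) ^ (-4 : ℝ) := by
  obtain ⟨n, hn⟩ := exists_nat_ge (2 * b - 2)
  obtain ⟨A, hA, hA'⟩ := p7_poly h.kpos (n + 4)
  have hL := h.Lge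
  have hC := h.Cge
  refine ⟨64 * C ^ 2 * A, n + 4, by positivity, fun ρ hρ => ?_⟩
  filter_upwards [h.R_le] with x hx hr
  set r := ‖x‖ with hrdef
  have r2 : 2 ≤ r := by linarith
  have r0 : 0 < r := by linarith
  have hx' := hx (by linarith)
  have z1 : |x 2| ≤ r := abs_z_le_norm x
  have g0 : 0 ≤ gfun k b x := by unfold gfun; positivity
  have q1 : (1 + |x 2|) / r ^ 2 ≤ r := by
    rw [div_le_iff₀ (by positivity)]; nlinarith
  have b1 : R x ≤ 2 * C * r * gfun k b x := by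
    refine hx'.trans (mul_le_mul_of_nonneg_right ?_ g0)
    nlinarith
  have b2 : R x ^ 2 ≤ (2 * C * r * gfun k b x) ^ 2 := pow_le_pow_left₀ (h.R0 x) b1 2
  have e1 : (r * gfun k b x) ^ 2 = r ^ (2 * b - 2) * Real.exp (-2 * k * r) := by
    unfold gfun
    rw [← hrdef]
    have e2 : Real.exp (-2 * k * r) = Real.exp (-k * r) ^ 2 := by
      rw [← Real.exp_nat_mul]; congr 1; push_cast; ring
    have e3 : r ^ (2 * b - 2) = (r * r ^ (b - 2)) ^ 2 := by
      rw [mul_comm r, ← Real.rpow_add_one r0.ne', ← Real.rpow_natCast, ← Real.rpow_mul r0.le]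
      congr 1; push_cast; ring
    rw [e2, e3]; ring
  have b3 : r ^ (2 * b - 2) ≤ r ^ n := by
    rw [← Real.rpow_natCast]; exact Real.rpow_le_rpow_of_exponent_le (by linarith) hn
  have e4 : (1 + r) ^ (-4 : ℝ) = ((1 + r) ^ 4)⁻¹ := by
    rw [Real.rpow_neg (by linarith)]; norm_num
  have b4 : (1 + r) ^ 4 ≤ 16 * r ^ 4 := by
    have := pow_le_pow_left₀ (by linarith : 0 ≤ 1 + r) (by linarith : 1 + r ≤ 2 * r) 4
    linarith [this, show (2 * r) ^ 4 = 16 * r ^ 4 by ring]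
  have b5 := hA' ρ r (by linarith) hr
  rw [e4, ← div_eq_mul_inv, le_div_iff₀ (by positivity)]
  have ex := Real.exp_pos (-2 * k * r)
  calc R x ^ 2 * (1 + r) ^ 4 ≤ (2 * C * r * gfun k b x) ^ 2 * (16 * r ^ 4) :=
        mul_le_mul b2 b4 (by positivity) (by positivity)
    _ = 64 * C ^ 2 * ((r * gfun k b x) ^ 2 * r ^ 4) := by ring
    _ ≤ 64 * C ^ 2 * (r ^ n * Real.exp (-2 * k * r) * r ^ 4) := by
        rw [e1]; gcongr
    _ = 64 * C ^ 2 * (r ^ (n + 4) * Real.exp (-2 * k * r)) := by ring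
    _ ≤ 64 * C ^ 2 * (A * ρ ^ (n + 4) * Real.exp (-2 * k * ρ)) := by gcongr
    _ = _ := by ring

theorem p7_loc {F w : E3 → ℝ} {B : Set E3} (hB : MeasurableSet B) (hw : Integrable fun x => w x ^ 2)
    (h0 : ∀ x, 0 ≤ F x) (t : ℝ) (h1 : ∀ x ∈ B, F x ≤ t * w x ^ 2) (h2 : ∀ x, x ∉ B → F x = 0) :
    ∫ x, F x ≤ t * ∫ x in B, w x ^ 2 := by
  rw [← setIntegral_eq_integral_of_forall_compl_eq_zero h2, ← integral_const_mul]
  exact integral_mono_of_nonneg (ae_of_all _ h0) (hw.integrableOn.const_mul t)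
    (ae_restrict_of_forall_mem hB h1)

/-- the mass outside a cylinder -/
theorem Tail.mass_le (h : Tail k b L C c R GR d Gd V0 S) : ∃ C' N : ℝ, 0 ≤ C' ∧ ∀ ρ, L + 1 ≤ ρ →
    ∫ x in {x | ρ ≤ cyl x}, R x ^ 2 ≤ C' * ρ ^ N * Real.exp (-2 * k * ρ) := by
  obtain ⟨B, m, hB, hm⟩ := p7_pt h
  have hi : Integrable fun x : E3 => (1 + ‖x‖) ^ (-4 : ℝ) :=
    integrable_one_add_norm (by simp; norm_num)
  have hp : ∀ x : E3, 0 ≤ (1 + ‖x‖) ^ (-4 : ℝ) := fun x => by positivity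
  have hI : 0 ≤ ∫ x : E3, (1 + ‖x‖) ^ (-4 : ℝ) := integral_nonneg hp
  refine ⟨B * ∫ x : E3, (1 + ‖x‖) ^ (-4 : ℝ), m, by positivity, fun ρ hρ => ?_⟩
  have hL := h.Lge
  have ρ0 : 0 < ρ := by linarith
  have hS : MeasurableSet {x | ρ ≤ cyl x} := (isClosed_le continuous_const continuous_cyl).measurableSet
  calc ∫ x in {x | ρ ≤ cyl x}, R x ^ 2
      ≤ ∫ x in {x | ρ ≤ cyl x}, B * ρ ^ m * Real.exp (-2 * k * ρ) * (1 + ‖x‖) ^ (-4 : ℝ) := by
        refine integral_mono_of_nonneg (ae_of_all _ fun x => sq_nonneg _)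
          (hi.integrableOn.const_mul _) ?_
        rw [EventuallyLE, ae_restrict_iff' hS]
        filter_upwards [hm ρ hρ] with x hx hc
        exact hx (le_trans hc (cyl_le_norm x))
    _ ≤ ∫ x : E3, B * ρ ^ m * Real.exp (-2 * k * ρ) * (1 + ‖x‖) ^ (-4 : ℝ) :=
        setIntegral_le_integral (hi.const_mul _) (ae_of_all _ fun x => by
          have := hp x
          simp only [Pi.zero_apply]; positivity)
    _ = _ := by rw [integral_const_mul, Real.rpow_natCast]; ring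

/-- Caccioppoli inequality for eigenfunctions, all scales `s ≤ 1` -/
theorem cacc_eig (hv : FB v) (e : ℝ) : ∃ C' : ℝ, 0 ≤ C' ∧ ∀ (w : E3 → ℝ) (G : E3 → E3) (a : E3) (s : ℝ),
    Eig v e w G → 0 < s → s ≤ 1 →
      ∫ x in Metric.ball a s, ‖G x‖ ^ 2 ≤ C' / s ^ 2 * ∫ x in Metric.ball a (3 * s), w x ^ 2 := by
  obtain ⟨M, hM, hcut⟩ := exists_cut (E := E3)
  obtain ⟨C0, hC0, hkin⟩ := hv.kin_le
  refine ⟨4 * |e| + C0 + 2 * M ^ 2, by positivity, fun w G a s hw hs hs1 => ?_⟩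
  obtain ⟨χ, hχ, h01, h1, hg⟩ := hcut a s hs
  have c1 : ContDiff ℝ 1 χ := hχ.sm.of_le (by simp)
  have habs : ∀ x, |χ x| ≤ 1 := fun x => abs_le.2 ⟨by linarith [(h01 x).1], (h01 x).2⟩
  have hloc := hw.loc hv c1 (M := max 1 (M / s)) (fun x => (habs x).trans (le_max_left _ _))
    (fun x => (hg x).trans (le_max_right _ _))
  have hH := hw.h1.mul_c1_cpt c1 hχ.cpt
  have hk := hkin _ _ hH
  have hout : ∀ x, x ∉ Metric.ball a (3 * s) → x ∉ tsupport χ := fun x hx h' =>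
    hx (Metric.closedBall_subset_ball (by linarith) (hχ.sub h'))
  set I := ∫ x in Metric.ball a (3 * s), w x ^ 2 with hI
  have I0 : 0 ≤ I := integral_nonneg fun x => sq_nonneg _
  have n0 : 0 ≤ nsq fun x => χ x * w x := nsq_nonneg
  have n1 : (nsq fun x => χ x * w x) ≤ 1 * I := by
    refine p7_loc measurableSet_ball hw.h1.int_sq (fun x => sq_nonneg _) 1 (fun x _ => ?_)
      (fun x hx => by rw [(s6a_out (hout x hx)).1]; ring)
    rw [mul_pow]
    refine mul_le_mul_of_nonneg_right ?_ (sq_nonneg _)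
    nlinarith [(h01 x).1, (h01 x).2]
  have n2 : ∫ x, ‖∇ χ x‖ ^ 2 * w x ^ 2 ≤ (M / s) ^ 2 * I := by
    refine p7_loc measurableSet_ball hw.h1.int_sq (fun x => by positivity) _ (fun x _ => ?_)
      (fun x hx => by rw [(s6a_out (hout x hx)).2]; simp)
    exact mul_le_mul_of_nonneg_right (pow_le_pow_left₀ (norm_nonneg _) (hg x) 2) (sq_nonneg _)
  have n3 : ∫ x in Metric.ball a s, ‖G x‖ ^ 2 ≤ ∫ x, ‖χ x • G x + w x • ∇ χ x‖ ^ 2 := by
    have e1 : ∫ x in Metric.ball a s, ‖G x‖ ^ 2 =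
        ∫ x in Metric.ball a s, ‖χ x • G x + w x • ∇ χ x‖ ^ 2 := by
      refine setIntegral_congr_fun measurableSet_ball fun x hx => ?_
      have hev : χ =ᶠ[𝓝 x] fun _ => 1 := by
        filter_upwards [Metric.isOpen_ball.mem_nhds hx] with y hy using h1 y hy
      have : ∇ χ x = 0 := by rw [hev.gradient_eq]; exact gradient_fun_const x 1
      simp only [h1 x hx, this, one_smul, smul_zero, add_zero]
    rw [e1]
    exact setIntegral_le_integral hH.int_grad_sq (ae_of_all _ fun x => sq_nonneg _)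
  have s2 : 0 < s ^ 2 := by positivity
  have s3 : s ^ 2 ≤ 1 := by nlinarith
  have n4 : e * (nsq fun x => χ x * w x) ≤ |e| * I := by
    calc e * (nsq fun x => χ x * w x) ≤ |e| * (nsq fun x => χ x * w x) :=
          mul_le_mul_of_nonneg_right (le_abs_self e) n0
      _ ≤ |e| * I := mul_le_mul_of_nonneg_left (by linarith) (abs_nonneg e)
  have n5 : C0 * (nsq fun x => χ x * w x) ≤ C0 * I := mul_le_mul_of_nonneg_left (by linarith) hC0
  have n6 : (4 * |e| + C0) * I ≤ (4 * |e| + C0) / s ^ 2 * I := by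
    refine mul_le_mul_of_nonneg_right ?_ I0
    rw [le_div_iff₀ s2]
    have : 0 ≤ 4 * |e| + C0 := by positivity
    nlinarith
  have e2 : (4 * |e| + C0 + 2 * M ^ 2) / s ^ 2 * I =
      (4 * |e| + C0) / s ^ 2 * I + 2 * ((M / s) ^ 2 * I) := by
    rw [div_pow]; ring
  rw [e2]
  linarith

theorem Orb.bl (h : Tail k b L C c R GR d Gd V0 S) {e : ℝ} {f : E3 → ℝ} {G : E3 → E3} (hf : Orb v e R f G) :
    Bl offA f := by
  have _ := h.kpos
  exact Bl.of_continuousOn hf.cont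

theorem Orb.lin (hv : FB v) {e : ℝ} {f g : E3 → ℝ} {G K : E3 → E3} (hR : ∀ x, 0 ≤ R x) (hf : Orb v e R f G)
    (hg : Orb v e R g K) (α β : ℝ) :
    Orb v e R (fun x => α * f x + β * g x) fun x => α • G x + β • K x := by
  have _ := hR
  refine ⟨hf.eig.lin hv hg.eig α β,
    (continuousOn_const.mul hf.cont).add (continuousOn_const.mul hg.cont), ?_⟩
  obtain ⟨M, hM⟩ := hf.dom
  obtain ⟨M', hM'⟩ := hg.dom
  refine ⟨|α| * M + |β| * M', ?_⟩
  filter_upwards [hM, hM'] with x h1 h2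
  calc |α * f x + β * g x| ≤ |α| * |f x| + |β| * |g x| := by
        rw [← abs_mul, ← abs_mul]; exact abs_add_le _ _
    _ ≤ |α| * (M * R x) + |β| * (M' * R x) := by gcongr
    _ = _ := by ring

end Crest.Agent.R335
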