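import Crest.Agent.R335.K2_abs
import Crest.Agent.R335.K2_sup
import Crest.Agent.R335.P7

/-!
# R335/K2_cmp0: comparison of a nonnegative orbital with a barrier, raw form (sub-lead helper47)

Apply `k2_abs` to `u = c₀ * β - f`, `β = B + M (R - d) - m R`, `Gu = c₀ • (∇ B + M • (GR - Gd) - m • GR) - G`, `h = c₀ * k2h C M R d V0 S B`,
`A = D ∩ {x | f x ≤ c₀ * (B x - m / 2 * (c * x 2 * g x))}` (closed: everything is continuous on the closed set `D`,
`ContinuousOn.preimage_isClosed_of_isClosed`; `A ⊆ Ω` by `h4`).  Facts, a.e. on `Ω` (`z = x 2 > 0`, `g = gfun k b x > 0`):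
`c z g ≤ d ≤ R` (`h.dlow`, `h.dle`), so `B ≤ M d`; `M (R - d) ≤ (m / 2) c z g ≤ (m / 2) R` (`Tail.R_sub_d`, `h2`), so
`β ≤ B - (m / 2) R ≤ B - (m / 2) c z g` and `u ≤ c₀ M R`; `R • Gu - u • GR = c₀ • (R • (∇ B - M • Gd) - (B - M d) • GR) - (R • G - f • GR)`
(`k2_sub`, `k2_sup`).  If `u > 0` then `B > (m / 2) c z g > 0`, and `2 M |S| + 2 (C / r⁴) (M d - B) ≤ 4 M C² (1 + z) / r⁴ g` (`h.Sle`, `h.dup`,
`C ≥ 1`), so `k2h > 0` by `h3`.  Lower bound of `R` on compact sets: `c z g` is continuous and positive.  `Bl`: `h.bdd`, `Orb.bl`,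
`Bl.of_continuousOn`.  Finally `β ≥ B - m R ≥ B - m C (z + (1 + z) / r²) g` (`Tail.R_le`) and `le_of_ae_le`.
-/

set_option autoImplicit false

namespace Crest.Agent.R335

open MeasureTheory Set Filter Topology
open scoped Gradient RealInnerProductSpace ENNReal ContDiff
open Crest.MathPhysics.ThreeBody

variable {k b L C c e2 : ℝ} {R d V0 S v : E3 → ℝ} {GR Gd : E3 → E3}

theorem k2_cmp0 (h : Tail k b L C c R GR d Gd V0 S) (hv : IsSumClassPotential v)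
    (hk : SubS univ (fun x => v x - e2) 0 R GR) {f : E3 → ℝ} {G : E3 → E3} (hf : Orb v e2 R f G)
    {Ω D : Set E3} (hΩ : IsOpen Ω) (hD : IsClosed D) (hΩD : Ω ⊆ D)
    (hDs : ∀ x ∈ D, L < ‖x‖ ∧ 0 < x 2 ∧ 0 < cyl x) (hf0 : ∀ x ∈ Ω, 0 ≤ f x) {B : E3 → ℝ}
    (hB : ContDiffOn ℝ 2 B Ω) (hBc : ContinuousOn B D) {M m c₀ : ℝ} (hM : 0 ≤ M) (hm : 0 < m) (hc₀ : 0 < c₀)
    (h1 : ∀ x ∈ Ω, B x ≤ M * (c * x 2 * gfun k b x))
    (h2 : ∀ x ∈ Ω, M * (C ^ 2 / c * ((1 + x 2) ^ 2 / (x 2 * ‖x‖ ^ 4))) ≤ m / 2 * (c * x 2))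
    (h3 : ∀ x ∈ Ω, m / 2 * (c * x 2 * gfun k b x) < B x →
      4 * M * C ^ 2 * (1 + x 2) / ‖x‖ ^ 4 * gfun k b x < lap B x - 2 * V0 x * B x)
    (h4 : ∀ x ∈ D, x ∉ Ω → c₀ * (B x - m / 2 * (c * x 2 * gfun k b x)) < f x) :
    ∀ x ∈ Ω, c₀ * (B x - m * (C * (x 2 + (1 + x 2) / ‖x‖ ^ 2) * gfun k b x)) ≤ f x := by
  have hc := h.cpos
  have hC := h.Cge
  have hs : Ω ⊆ far L := fun x hx => (hDs x (hΩD hx)).1
  have hDA : D ⊆ offA := fun x hx => (hDs x hx).2.2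
  have hA : Ω ⊆ offA := hΩD.trans hDA
  have hr : ∀ x ∈ D, 0 < ‖x‖ := fun x hx => (zero_le_one.trans h.Lge).trans_lt (hDs x hx).1
  have hne : ∀ x ∈ D, x ≠ 0 := fun x hx => norm_pos_iff.1 (hr x hx)
  have hgc : ContinuousOn (gfun k b) D := (continuousOn_gfun k b).mono hne
  have hz : Continuous fun x : E3 => x 2 := by fun_prop
  have hw : ContinuousOn (fun x : E3 => c * x 2 * gfun k b x) D :=
    (continuous_const.mul hz).continuousOn.mul hgc
  have hwp : ∀ x ∈ D, 0 < c * x 2 * gfun k b x := fun x hx =>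
    mul_pos (mul_pos hc (hDs x hx).2.1) (gfun_pos k b (hne x hx))
  have bR : Bl Ω R := fun K hK hKΩ => h.bdd.2 K hK (hKΩ.trans hA)
  have bf : Bl Ω f := Bl.of_continuousOn (hf.cont.mono hA)
  have bB : Bl Ω B := Bl.of_continuousOn hB.continuousOn
  have F1 : ∀ᵐ x, x ∈ Ω → c * x 2 * gfun k b x ≤ d x ∧ d x ≤ R x ∧
      M * (R x - d x) ≤ m / 2 * (c * x 2 * gfun k b x) := by
    filter_upwards [h.dlow, h.dle, h.R_sub_d] with x a1 a2 a3 hx
    obtain ⟨b1, b2, -⟩ := hDs x (hΩD hx)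
    have hg := (gfun_pos k b (hne x (hΩD hx))).le
    refine ⟨le_of_mul_le_mul_left (by linarith [a1 b1]) b2, (le_abs_self _).trans a2, ?_⟩
    have c1 := mul_le_mul_of_nonneg_left (a3 b1 b2).2 hM
    have c2 := mul_le_mul_of_nonneg_right (h2 x hx) hg
    linarith
  have hBd : ∀ᵐ x, x ∈ Ω → B x ≤ M * d x := F1.mono fun x hx h0 =>
    (h1 x h0).trans (mul_le_mul_of_nonneg_left (hx h0).1 hM)
  have hv' := FB.of_sumClass hv
  have hB1 := H1loc.of_c1 hΩ (hB.of_le (by norm_num))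
  have hu := ((((hB1.add (((h.hR.loc Ω).sub (h.hd.loc Ω)).const_mul M)).sub
    ((h.hR.loc Ω).const_mul m)).const_mul c₀).sub (hf.eig.h1.loc Ω))
  have key := k2_abs hΩ (h := fun x => c₀ * k2h C M R d V0 S B x) h.hR bR (fun K hK hKΩ => ?_) hu
    (fun K hK hKΩ => ?_) (M := c₀ * M) ?_ (fun K hK hKΩ => (k2h_memLp h hΩ hs bR hB M hK hKΩ).const_mul c₀)
    (fun ξ K hξ bξ hξ0 => ?_) ?_
    (A := D ∩ (fun x => c₀ * (B x - m / 2 * (c * x 2 * gfun k b x)) - f x) ⁻¹' Ici 0)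
    (ContinuousOn.preimage_isClosed_of_isClosed
      ((continuousOn_const.mul (hBc.sub (continuousOn_const.mul hw))).sub (hf.cont.mono hDA)) hD isClosed_Ici)
    (fun x hx => by_contra fun hn => (sub_neg.2 (h4 x hx.1 hn)).not_ge hx.2) ?_
  · refine le_of_ae_le hΩ (continuousOn_const.mul (hB.continuousOn.sub (continuousOn_const.mul
      ((continuousOn_const.mul (hz.continuousOn.add ((continuous_const.add hz).continuousOn.div
        (continuous_norm.pow 2).continuousOn fun x hx => (pow_pos (hr x (hΩD hx)) 2).ne'))).mul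
          (hgc.mono hΩD))))) (hf.cont.mono hA) ?_
    filter_upwards [key, F1, h.R_le] with x a1 a2 a3 hx
    obtain ⟨b1, b2, -⟩ := hDs x (hΩD hx)
    have c1 := a3 b1
    rw [abs_of_pos b2] at c1
    have c2 := mul_le_mul_of_nonneg_left c1 hm.le
    have c3 := mul_nonneg hM (sub_nonneg.2 (a2 hx).2.1)
    have c4 : B x - m * (C * (x 2 + (1 + x 2) / ‖x‖ ^ 2) * gfun k b x) ≤ B x + M * (R x - d x) - m * R x := by
      linarith
    have c5 := mul_le_mul_of_nonneg_left c4 hc₀.le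
    linarith [a1 hx]
  · rcases K.eq_empty_or_nonempty with rfl | hne'
    · exact ⟨1, one_pos, Eventually.of_forall fun x hx => hx.elim⟩
    obtain ⟨x₀, a1, a2⟩ := hK.exists_isMinOn hne' (hw.mono (hKΩ.trans hΩD))
    refine ⟨_, hwp x₀ (hΩD (hKΩ a1)), F1.mono fun x hx h0 => ?_⟩
    exact (a2 h0).trans ((hx (hKΩ h0)).1.trans (hx (hKΩ h0)).2.1)
  · obtain ⟨N1, a1⟩ := bR K hK hKΩ
    obtain ⟨N2, a2⟩ := bf K hK hKΩ
    obtain ⟨N3, a3⟩ := bB K hK hKΩ
    refine ⟨c₀ * (N3 + M * (N1 + N1) + m * N1) + N2, ?_⟩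
    filter_upwards [a1, a2, a3, h.dle] with x b1 b2 b3 b4 hx
    have c1 := abs_le.1 (b1 hx)
    have c2 := abs_le.1 (b2 hx)
    have c3 := abs_le.1 (b3 hx)
    have c4 := abs_le.1 (b4.trans c1.2)
    have c5 : |B x + M * (R x - d x) - m * R x| ≤ N3 + M * (N1 + N1) + m * N1 := by
      rw [abs_le]
      constructor <;> nlinarith
    have c6 := abs_le.1 c5
    rw [abs_le]
    constructor <;> nlinarith
  · filter_upwards [F1, hBd] with x a1 a2 hx
    obtain ⟨b1, b2, b3⟩ := a1 hx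
    have c1 := mul_le_mul_of_nonneg_left b2 hM
    have c2 := mul_le_mul_of_nonneg_left (b1.trans b2) hm.le
    have c3 := mul_pos hm (hwp x (hΩD hx))
    have c4 : B x + M * (R x - d x) - m * R x ≤ M * R x := by linarith [a2 hx]
    have c5 := mul_le_mul_of_nonneg_left c4 hc₀.le
    linarith [hf0 x hx]
  · obtain ⟨i1, e1⟩ := k2_sub h hΩ hs bR hB hBd hξ bξ hξ0
    obtain ⟨i2, e2⟩ := k2_sup hΩ hv' h.hR hk hf.eig bR bf hf0 hξ bξ hξ0
    have e3 : ∀ x, ⟪R x • (c₀ • (∇ B x + M • (GR x - Gd x) - m • GR x) - G x) -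
        (c₀ * (B x + M * (R x - d x) - m * R x) - f x) • GR x, K x⟫ =
        c₀ * ⟪R x • (∇ B x - M • Gd x) - (B x - M * d x) • GR x, K x⟫ - ⟪R x • G x - f x • GR x, K x⟫ := fun x => by
      simp only [inner_sub_left, inner_add_left, real_inner_smul_left]
      ring
    simp only [e3, mul_assoc]
    rw [integral_sub (i1.const_mul c₀) i2, integral_const_mul, integral_const_mul]
    nlinarith
  · filter_upwards [F1, h.Sle, h.dup] with x a1 a2 a3 hx hpos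
    obtain ⟨b1, b2, b3⟩ := a1 hx
    obtain ⟨b4, b5, -⟩ := hDs x (hΩD hx)
    have hw0 := hwp x (hΩD hx)
    have hg := (gfun_pos k b (hne x (hΩD hx))).le
    have hr0 := hr x (hΩD hx)
    have c1 : 0 < B x + M * (R x - d x) - m * R x := pos_of_mul_pos_left (by linarith [hf0 x hx]) hc₀.le
    have c2 := mul_le_mul_of_nonneg_left (b1.trans b2) hm.le
    have c3 : m / 2 * (c * x 2 * gfun k b x) < B x := by linarith
    have c4 := h3 x hx c3
    have c5 := (abs_le.1 (a2 b4)).1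
    have c6 := (abs_le.1 (a3 b4)).2
    rw [abs_of_pos b5] at c5 c6
    have c7 : 0 < B x := lt_trans (by positivity) c3
    have c8 : C / ‖x‖ ^ 4 * (M * d x - B x) ≤ C / ‖x‖ ^ 4 * (M * (C * (1 + x 2) * gfun k b x)) := by
      refine mul_le_mul_of_nonneg_left ?_ (by positivity)
      have : d x ≤ C * (1 + x 2) * gfun k b x := c6.trans (by gcongr; linarith)
      nlinarith
    have c9 : C * (1 + x 2) / ‖x‖ ^ 4 * gfun k b x ≤ C ^ 2 * (1 + x 2) / ‖x‖ ^ 4 * gfun k b x := by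
      gcongr
      nlinarith
    have c10 := mul_le_mul_of_nonneg_left (neg_le.1 c5 |>.trans c9) hM
    refine mul_pos hc₀ (mul_pos (hw0.trans_le (b1.trans b2)) ?_)
    have e1 : C / ‖x‖ ^ 4 * (M * (C * (1 + x 2) * gfun k b x)) =
        M * (C ^ 2 * (1 + x 2) / ‖x‖ ^ 4 * gfun k b x) := by ring
    have e2 : 4 * M * C ^ 2 * (1 + x 2) / ‖x‖ ^ 4 * gfun k b x =
        4 * (M * (C ^ 2 * (1 + x 2) / ‖x‖ ^ 4 * gfun k b x)) := by ring
    linarith
  · filter_upwards [F1] with x a1 hx hn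
    obtain ⟨b1, b2, b3⟩ := a1 hx
    have c1 : c₀ * (B x - m / 2 * (c * x 2 * gfun k b x)) - f x < 0 := not_le.1 fun h0 => hn ⟨hΩD hx, h0⟩
    have c2 := mul_le_mul_of_nonneg_left (b1.trans b2) hm.le
    have c4 : B x + M * (R x - d x) - m * R x ≤ B x - m / 2 * (c * x 2 * gfun k b x) := by linarith
    have c5 := mul_le_mul_of_nonneg_left c4 hc₀.le
    linarith

end Crest.Agent.R335
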