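import Crest.Agent.R335.UCP_C

/-!
# R335/UCP_E: the stream function of a divergence free field

Take `δ > 0` with `C₃ = cthickening (3 δ) K ⊆ U` (`IsCompact.exists_cthickening_subset_open`), `X' = C₃.indicator X ∈ L²`, `W₂ = thickening (2 δ) K`
(`Convex.thickening`), `D = cthickening (3 δ / 2) K` (`Convex.cthickening`, `IsCompact.cthickening`), `W = thickening δ K`, bumps `s2a_b E2 (n + N)` with
`1 / (N + 1) < δ`.  `ucp_moll` on `W₂` gives `σ n` (`closedBall x r ⊆ C₃ ⊆ U`, and `⟪X', ∇ ξ⟫ = ⟪X, ∇ ξ⟫` by `s1a_grad_zero`), `H1loc.of_c1`, `ucp_norm` on `D` gives `c n` with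
`∫ in D, (σ n - c n)² ≤ M ∫ ‖X'‖²` (`norm_Jr`, `s2a_conv_le`, `s2a_conv_mem`).  `χ` from `exists_tst_one` with `Ω = thickening (3 δ / 2) K`, `C = cthickening δ K`.
`φ n = χ (σ n - c n)`, `K n = χ • ∇ σ n + (σ n - c n) • ∇ χ` (definition of `H1loc`), `Y n = Jr (ρ n ⋆ X')`, `ucp_lim`, `s2a_conv_l2`, `H1loc.congr`.
-/

set_option autoImplicit false

namespace Crest.Agent.R335

open MeasureTheory Set Filter Topology
open scoped Gradient RealInnerProductSpace ENNReal ContDiff
open Crest.MathPhysics.ThreeBody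
open scoped Convolution
open ContinuousLinearMap (lsmul)


theorem ucp_stream {U K : Set E2} (hU : IsOpen U) {X : E2 → E2} (hX : L2l U X)
    (hdiv : ∀ ξ, Tst U ξ → ∫ p, ⟪X p, ∇ ξ p⟫ = 0) (hK : IsCompact K) (hc : Convex ℝ K) (hs : K ⊆ U) :
    ∃ (W : Set E2) (σ : E2 → ℝ), IsOpen W ∧ K ⊆ W ∧ W ⊆ U ∧ H1loc W σ fun p => Jr (X p) := by
  obtain ⟨δ₀, hδ₀, hsub⟩ := hK.exists_cthickening_subset_open hU hs
  obtain ⟨δ, rfl⟩ : ∃ δ : ℝ, δ₀ = 4 * δ := ⟨δ₀ / 4, by ring⟩
  have hδ : 0 < δ := by linarith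
  have hC₃ : IsCompact (Metric.cthickening (4 * δ) K) := hK.cthickening
  have hX' : MemLp ((Metric.cthickening (4 * δ) K).indicator X) 2 volume :=
    (memLp_indicator_iff_restrict hC₃.measurableSet).2 (hX _ hC₃ hsub)
  set X' := (Metric.cthickening (4 * δ) K).indicator X with hXd
  obtain ⟨N, hN⟩ := exists_nat_one_div_lt hδ
  have hball : ∀ n : ℕ, ∀ x ∈ Metric.thickening (3 * δ) K,
      Metric.closedBall x (s2a_b E2 (n + N)).rOut ⊆ Metric.cthickening (4 * δ) K := by
    intro n x hx y hy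
    obtain ⟨z, hz, hd⟩ := Metric.mem_thickening_iff.1 hx
    have h1 : (s2a_b E2 (n + N)).rOut ≤ 1 / ((N : ℝ) + 1) :=
      Nat.one_div_le_one_div (Nat.le_add_left N n)
    refine Metric.mem_cthickening_of_dist_le y z _ K hz ?_
    linarith [dist_triangle y x z, Metric.mem_closedBall.1 hy]
  have hW₂ : IsOpen (Metric.thickening (3 * δ) K) := Metric.isOpen_thickening
  choose σ hσ hσ' using fun n : ℕ => ucp_moll hW₂ (hc.thickening _) hX' (s2a_b E2 (n + N))
    fun x hx ξ hξ => by
      rw [← hdiv ξ ⟨hξ.sm, hξ.cpt, hξ.sub.trans ((hball n x hx).trans hsub)⟩]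
      congr 1
      funext p
      by_cases hp : p ∈ tsupport ξ
      · rw [hXd, indicator_of_mem (hball n x hx (hξ.sub hp))]
      · rw [s1a_grad_zero hp, inner_zero_right, inner_zero_right]
  set Y : ℕ → E2 → E2 := fun n x => Jr (((s2a_b E2 (n + N)).normed volume ⋆[lsmul ℝ ℝ] X') x) with hY
  have mY : ∀ n, MemLp (Y n) 2 volume := fun n => Jr.comp_memLp' (s2a_conv_mem _ hX')
  have iY : ∀ n, ∫ x, ‖Y n x‖ ^ 2 ≤ ∫ x, ‖X' x‖ ^ 2 := fun n => by
    simp only [hY, norm_Jr]
    exact s2a_conv_le _ hX'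
  have h1 : ∀ n, H1loc (Metric.thickening (3 * δ) K) (σ n) (Y n) := fun n =>
    (H1loc.of_c1 hW₂ (hσ n)).congr (Eventually.of_forall fun x hx => ⟨rfl, hσ' n x hx⟩)
  have hD : IsCompact (Metric.cthickening (2 * δ) K) := hK.cthickening
  have hDW : Metric.cthickening (2 * δ) K ⊆ Metric.thickening (3 * δ) K :=
    Metric.cthickening_subset_thickening' (by linarith) (by linarith) K
  obtain ⟨M, hM, hn⟩ := ucp_norm hW₂ (hc.cthickening _) hD hDW
  choose c hcn using fun n => hn _ _ (h1 n)
  have h2 : ∀ n, H1loc (Metric.thickening (3 * δ) K) (fun x => σ n x - c n) (Y n) := fun n =>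
    ((h1 n).sub (H1loc.const (c n))).congr (Eventually.of_forall fun x _ => ⟨rfl, sub_zero _⟩)
  have iD : ∀ n, Integrable ((Metric.cthickening (2 * δ) K).indicator fun x => (σ n x - c n) ^ 2) :=
    fun n => (integrable_indicator_iff hD.measurableSet).2
      ((h2 n).memLp hW₂ hD hDW).1.integrable_sq
  have bD : ∀ n, ∫ x, (Metric.cthickening (2 * δ) K).indicator (fun x => (σ n x - c n) ^ 2) x ≤
      M * ∫ x, ‖X' x‖ ^ 2 := fun n => by
    rw [integral_indicator hD.measurableSet]
    refine (hcn n).trans (mul_le_mul_of_nonneg_left (le_trans ?_ (iY n)) hM)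
    exact setIntegral_le_integral (s2a_sq (mY n)) (Eventually.of_forall fun x => sq_nonneg _)
  obtain ⟨χ, hχ, hχ0, hχ1⟩ := exists_tst_one (Metric.isOpen_thickening (δ := 2 * δ) (E := K))
    (hK.cthickening (r := δ)) (Metric.cthickening_subset_thickening' (by linarith) (by linarith) K)
  have hχD : tsupport χ ⊆ Metric.cthickening (2 * δ) K :=
    hχ.sub.trans (Metric.thickening_subset_cthickening _ _)
  obtain ⟨B, hB⟩ := hD.exists_bound_of_continuousOn
    (s1a_grad_cont (hχ.sm.of_le (by norm_cast))).continuousOn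
  have h3 := fun n => h2 n χ ⟨hχ.sm, hχ.cpt, hχD.trans hDW⟩
  have I0 : 0 ≤ ∫ x, ‖X' x‖ ^ 2 := integral_nonneg fun x => sq_nonneg _
  obtain ⟨f, hf⟩ := ucp_lim (W := Metric.thickening δ K) Metric.isOpen_thickening h3
    (M := M * (∫ x, ‖X' x‖ ^ 2) + (2 * (∫ x, ‖X' x‖ ^ 2) + 2 * B ^ 2 * (M * ∫ x, ‖X' x‖ ^ 2)))
    (fun n => by
      constructor
      · refine le_trans (integral_mono_of_nonneg (Eventually.of_forall fun x => sq_nonneg _) (iD n)
          (Eventually.of_forall fun x => ?_)) ((bD n).trans (le_add_of_nonneg_right (by positivity)))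
        by_cases hx : x ∈ Metric.cthickening (2 * δ) K
        · simp only [indicator_of_mem hx, mul_pow]
          exact mul_le_of_le_one_left (sq_nonneg _) (pow_le_one₀ (hχ0 x).1 (hχ0 x).2)
        · simp [indicator_of_notMem hx, image_eq_zero_of_notMem_tsupport fun h => hx (hχD h)]
      · have k : ∫ x, ‖χ x • Y n x + (σ n x - c n) • ∇ χ x‖ ^ 2 ≤ ∫ x, (2 * ‖Y n x‖ ^ 2 + 2 * B ^ 2 *
            (Metric.cthickening (2 * δ) K).indicator (fun x => (σ n x - c n) ^ 2) x) := by
          refine integral_mono_of_nonneg (Eventually.of_forall fun x => sq_nonneg _)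
            (((s2a_sq (mY n)).const_mul _).add ((iD n).const_mul _)) (Eventually.of_forall fun x => ?_)
          by_cases hx : x ∈ Metric.cthickening (2 * δ) K
          · simp only [indicator_of_mem hx]
            have a1 : ‖χ x • Y n x‖ ≤ ‖Y n x‖ := by
              rw [norm_smul, Real.norm_of_nonneg (hχ0 x).1]
              exact mul_le_of_le_one_left (norm_nonneg _) (hχ0 x).2
            have a2 : ‖(σ n x - c n) • ∇ χ x‖ ≤ |σ n x - c n| * B := by
              rw [norm_smul]
              exact mul_le_mul_of_nonneg_left (hB x hx) (norm_nonneg _)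
            have a3 := pow_le_pow_left₀ (norm_nonneg _) ((norm_add_le _ _).trans (add_le_add a1 a2)) 2
            rw [← sq_abs (σ n x - c n)]
            nlinarith [sq_nonneg (‖Y n x‖ - |σ n x - c n| * B)]
          · have hx' : x ∉ tsupport χ := fun h => hx (hχD h)
            simp [indicator_of_notMem hx, image_eq_zero_of_notMem_tsupport hx', s1a_grad_zero hx']
        rw [integral_add ((s2a_sq (mY n)).const_mul _) ((iD n).const_mul _), integral_const_mul,
          integral_const_mul] at k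
        have k2 := mul_le_mul_of_nonneg_left (bD n) (show 0 ≤ 2 * B ^ 2 by positivity)
        have k3 : 0 ≤ M * ∫ x, ‖X' x‖ ^ 2 := by positivity
        linarith [iY n])
    mY (Y₀ := fun x => Jr (X' x)) (Jr.comp_memLp' hX')
    (fun n x hx => by
      have e := eventually_nhdsSet_iff_forall.1 hχ1 x (Metric.thickening_subset_cthickening _ _ hx)
      have e' : χ =ᶠ[𝓝 x] fun _ => 1 := e
      rw [e.self_of_nhds, e'.gradient_eq, gradient_fun_const, smul_zero, add_zero, one_smul])
    (by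
      refine ((s2a_conv_l2 hX').comp (tendsto_add_atTop_nat N)).congr fun n => ?_
      refine eLpNorm_congr_norm_ae (Eventually.of_forall fun x => ?_)
      rw [hY, ← map_sub, norm_Jr])
  have hW : Metric.thickening δ K ⊆ Metric.cthickening (4 * δ) K :=
    (Metric.thickening_subset_cthickening _ _).trans (Metric.cthickening_mono (by linarith) K)
  refine ⟨_, f, Metric.isOpen_thickening, Metric.self_subset_thickening hδ K, hW.trans hsub,
    hf.congr (Eventually.of_forall fun x hx => ⟨rfl, ?_⟩)⟩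
  rw [hXd, indicator_of_mem (hW hx)]

end Crest.Agent.R335
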