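import Crest.Agent.R335.UCP_F1

/-!
# R335/UCP_F: the energy estimate
-/

set_option autoImplicit false

namespace Crest.Agent.R335

open MeasureTheory Set Filter Topology
open scoped Gradient RealInnerProductSpace ENNReal ContDiff
open Crest.MathPhysics.ThreeBody


variable {W : Set E2} {a τ σ : E2 → ℝ} {G : E2 → E2}

/-- pointwise Young inequality: `|i1|, |i2| ≤ g n`, `(a |k1| + |k2|)² ≤ (a² + 1) (d + 1)` -/
theorem ucp_young {c a d k1 k2 g n i1 i2 : ℝ} (ha : 0 < a) (hd : 0 ≤ d) (hk : k1 ^ 2 + k2 ^ 2 ≤ d + 1) (hg : 0 ≤ g)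
    (hn : 0 ≤ n) (h1 : |i1| ≤ g * n) (h2 : |i2| ≤ g * n) :
    c ^ 2 * (d * (a * g ^ 2)) / 2 ≤ (c ^ 2 * (d * (a * g ^ 2)) + 2 * c * (k1 * (a * i1) + k2 * i2)) +
      (c ^ 2 * (a * g ^ 2) / 2 + 2 * (a + a⁻¹) * n ^ 2) := by
  have s1 : i1 ^ 2 ≤ (g * n) ^ 2 := sq_le_sq' (abs_le.1 h1).1 (abs_le.1 h1).2
  have s2 : i2 ^ 2 ≤ (g * n) ^ 2 := sq_le_sq' (abs_le.1 h2).1 (abs_le.1 h2).2
  have s3 : (k1 * (a * i1) + k2 * i2) ^ 2 ≤ (k1 ^ 2 + k2 ^ 2) * ((a * i1) ^ 2 + i2 ^ 2) := by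
    nlinarith [sq_nonneg (k1 * i2 - k2 * (a * i1))]
  have s4 : (a * i1) ^ 2 + i2 ^ 2 ≤ (a ^ 2 + 1) * (g * n) ^ 2 := by
    have := mul_le_mul_of_nonneg_left s1 (sq_nonneg a)
    nlinarith
  have s5 : (k1 * (a * i1) + k2 * i2) ^ 2 ≤ (d + 1) * ((a ^ 2 + 1) * (g * n) ^ 2) :=
    s3.trans (mul_le_mul hk s4 (by positivity) (by positivity))
  obtain ⟨x, hx⟩ : ∃ x, x = c ^ 2 * (a * g ^ 2) * (d + 1) / 2 := ⟨_, rfl⟩
  obtain ⟨y, hy⟩ : ∃ y, y = 2 * (a + a⁻¹) * n ^ 2 := ⟨_, rfl⟩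
  have hxy : x * y = c ^ 2 * ((d + 1) * ((a ^ 2 + 1) * (g * n) ^ 2)) := by
    rw [hx, hy]; field_simp
  have s6 : (2 * c * (k1 * (a * i1) + k2 * i2)) ^ 2 ≤ (x + y) ^ 2 := by
    have := mul_le_mul_of_nonneg_left s5 (sq_nonneg c)
    nlinarith [sq_nonneg (x - y)]
  have s7 := (abs_le_of_sq_le_sq' s6 (by rw [hx, hy]; positivity)).1
  rw [← hy]
  rw [hx] at s7
  nlinarith

/-- `χ` from `exists_tst_one`; `R = χ² a ‖G‖² / 2 + 2 (a + a⁻¹) ‖∇ χ‖²` is integrable (it vanishes off `tsupport χ`), `A + B` is the integrand of `ucp_ident`,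
`A + B + R ≥ A / 2 ≥ 0` everywhere (`ucp_young` on `W`; everything vanishes off `W`).  On `K`: the integrand is
`(L₁² + a² L₂²) ‖G‖² ≤ 2 (a + a⁻¹) d a ‖G‖² ≤ 4 M (A + B + R)`, `M` a bound of `a + a⁻¹` on `K`.  `integral_mono_of_nonneg`, `setIntegral_le_integral`;
`C = 4 M ∫ R`. -/
theorem ucp_energy (hW : IsOpen W) (ha : ContinuousOn a W) (ha0 : ∀ p ∈ W, 0 < a p) (hτ : H1loc W τ G)
    (hσ : H1loc W σ fun p => a p • Jr (G p)) (heq : ∀ ξ, Tst W ξ → ∫ p, a p * ⟪G p, ∇ ξ p⟫ = 0) {K : Set E2}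
    (hK : IsCompact K) (hs : K ⊆ W) : ∃ C : ℝ, ∀ k1 k2 L : ℝ × ℝ → ℝ, Fld k1 k2 L →
      ∫ p in K, ‖fderiv ℝ L (τ p, σ p) (1, 0) • G p + fderiv ℝ L (τ p, σ p) (0, 1) • (a p • Jr (G p))‖ ^ 2 ≤ C := by
  obtain ⟨χ, hχ, -, h1⟩ := exists_tst_one hW hK hs
  have hai : ContinuousOn (fun p => a p + (a p)⁻¹) W := ha.add (ha.inv₀ fun p hp => (ha0 p hp).ne')
  obtain ⟨M, hM⟩ := hK.exists_bound_of_continuousOn (hai.mono hs)
  have hg : Continuous (∇ χ) := s1a_grad_cont (hχ.sm.of_le (by norm_cast))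
  have hR : Integrable fun p => χ p ^ 2 * (a p * ‖G p‖ ^ 2) / 2 + 2 * (a p + (a p)⁻¹) * ‖∇ χ p‖ ^ 2 := by
    refine IntegrableOn.integrable_of_forall_notMem_eq_zero (s := tsupport χ) (IntegrableOn.add ?_ ?_) fun p hp => ?_
    · have h2 : IntegrableOn (fun p => ‖G p‖ ^ 2) (tsupport χ) :=
        (memLp_two_iff_integrable_sq_norm (hτ.memLp hW hχ.cpt hχ.sub).2.1).1 (hτ.memLp hW hχ.cpt hχ.sub).2
      exact (IntegrableOn.continuousOn_mul (hχ.sm.continuous.pow 2).continuousOn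
        (IntegrableOn.continuousOn_mul (ha.mono hχ.sub) h2 hχ.cpt) hχ.cpt).div_const 2
    · exact (((hai.mono hχ.sub).const_mul 2).mul (hg.norm.pow 2).continuousOn).integrableOn_compact hχ.cpt
    · simp [image_eq_zero_of_notMem_tsupport hp, s1a_grad_zero hp]
  refine ⟨4 * |M| * ∫ p, (χ p ^ 2 * (a p * ‖G p‖ ^ 2) / 2 + 2 * (a p + (a p)⁻¹) * ‖∇ χ p‖ ^ 2),
    fun k1 k2 L hF => ?_⟩
  obtain ⟨hi, h0⟩ := ucp_ident hW ha hτ hσ heq hχ hF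
  have hd : ∀ w, 0 ≤ dvg k1 k2 w := fun w => by
    have := hF.hL w
    nlinarith [sq_nonneg (fderiv ℝ L w (1, 0)), sq_nonneg (fderiv ℝ L w (0, 1))]
  obtain ⟨T, hT⟩ : ∃ T : E2 → ℝ, T = fun p => (χ p ^ 2 * (dvg k1 k2 (τ p, σ p) * (a p * ‖G p‖ ^ 2)) +
      2 * χ p * (k1 (τ p, σ p) * (a p * ⟪G p, ∇ χ p⟫) + k2 (τ p, σ p) * ⟪Jr (G p), ∇ χ p⟫)) +
      (χ p ^ 2 * (a p * ‖G p‖ ^ 2) / 2 + 2 * (a p + (a p)⁻¹) * ‖∇ χ p‖ ^ 2) := ⟨_, rfl⟩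
  have hTi : Integrable T := hT ▸ hi.add hR
  have hTe : ∫ p, T p = ∫ p, (χ p ^ 2 * (a p * ‖G p‖ ^ 2) / 2 + 2 * (a p + (a p)⁻¹) * ‖∇ χ p‖ ^ 2) := by
    rw [hT, integral_add hi hR, h0, zero_add]
  have hTl : ∀ p ∈ W, χ p ^ 2 * (dvg k1 k2 (τ p, σ p) * (a p * ‖G p‖ ^ 2)) / 2 ≤ T p := fun p hp => by
    rw [hT]
    exact ucp_young (ha0 p hp) (hd _) (hF.hk _) (norm_nonneg _) (norm_nonneg _) (abs_real_inner_le_norm _ _)
      ((abs_real_inner_le_norm _ _).trans (by rw [norm_Jr]))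
  have hT0 : ∀ p, 0 ≤ T p := fun p => by
    by_cases hp : p ∈ W
    · have := ha0 p hp
      have := hd (τ p, σ p)
      exact le_trans (by positivity) (hTl p hp)
    · have hp' : p ∉ tsupport χ := fun h => hp (hχ.sub h)
      simp [hT, image_eq_zero_of_notMem_tsupport hp', s1a_grad_zero hp']
  rw [← hTe, ← integral_const_mul]
  refine le_trans (integral_mono_of_nonneg (Eventually.of_forall fun p => sq_nonneg _)
    (hTi.const_mul (4 * |M|)).integrableOn ?_)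
    (setIntegral_le_integral (hTi.const_mul _) (Eventually.of_forall fun p => by have := hT0 p; positivity))
  filter_upwards [ae_restrict_mem hK.measurableSet] with p hp
  have e1 := hTl p (hs hp)
  rw [h1.self_of_nhdsSet p hp] at e1
  have a0 := ha0 p (hs hp)
  have e2 : a p + (a p)⁻¹ ≤ |M| := (le_abs_self _).trans ((hM p hp).trans (le_abs_self _))
  have e3 : ‖fderiv ℝ L (τ p, σ p) (1, 0) • G p + fderiv ℝ L (τ p, σ p) (0, 1) • (a p • Jr (G p))‖ ^ 2 =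
      (fderiv ℝ L (τ p, σ p) (1, 0) ^ 2 + a p ^ 2 * fderiv ℝ L (τ p, σ p) (0, 1) ^ 2) * ‖G p‖ ^ 2 := by
    rw [norm_add_sq_real]
    simp only [real_inner_smul_left, real_inner_smul_right, inner_Jr_self, norm_smul, norm_Jr, mul_pow,
      Real.norm_eq_abs, sq_abs]
    ring
  have e4 : fderiv ℝ L (τ p, σ p) (1, 0) ^ 2 + a p ^ 2 * fderiv ℝ L (τ p, σ p) (0, 1) ^ 2 ≤
      (a p ^ 2 + 1) * (2 * dvg k1 k2 (τ p, σ p)) := by
    have := mul_le_mul_of_nonneg_left (hF.hL (τ p, σ p)) (by positivity : 0 ≤ a p ^ 2 + 1)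
    nlinarith [sq_nonneg (fderiv ℝ L (τ p, σ p) (0, 1)), sq_nonneg (a p * fderiv ℝ L (τ p, σ p) (1, 0))]
  have e5 : (a p ^ 2 + 1) * (2 * dvg k1 k2 (τ p, σ p)) * ‖G p‖ ^ 2 =
      4 * (a p + (a p)⁻¹) * (1 ^ 2 * (dvg k1 k2 (τ p, σ p) * (a p * ‖G p‖ ^ 2)) / 2) := by
    field_simp
    ring
  have d0 := hd (τ p, σ p)
  show _ ≤ 4 * |M| * T p
  rw [e3]
  refine (mul_le_mul_of_nonneg_right e4 (sq_nonneg _)).trans ?_
  rw [e5]
  exact mul_le_mul (by linarith) e1 (by positivity) (by positivity)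

end Crest.Agent.R335
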