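import Crest.Agent.R335.UCP_B
import Crest.Agent.R335.UCP_E
import Crest.Agent.R335.UCP_F

/-!
# R335/UCP_G: the planar unique continuation theorem
-/

set_option autoImplicit false

namespace Crest.Agent.R335

open MeasureTheory Set Filter Topology
open scoped Gradient RealInnerProductSpace ENNReal ContDiff
open Crest.MathPhysics.ThreeBody


theorem ucp_plane {U V : Set E2} (hU : IsOpen U) (hc : Convex ℝ U) (hV : IsOpen V) (hne : V.Nonempty) (hVU : V ⊆ U)
    {a τ : E2 → ℝ} {G : E2 → E2} (ha : ContinuousOn a U) (ha0 : ∀ p ∈ U, 0 < a p) (hτ : ContinuousOn τ U)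
    (h1 : H1loc U τ G) (heq : ∀ ξ, Tst U ξ → ∫ p, a p * ⟪G p, ∇ ξ p⟫ = 0) (h0 : ∀ p ∈ V, τ p = 0) :
    ∀ p ∈ U, τ p = 0 := by
  intro p hp
  by_contra hτp
  obtain ⟨q, hq⟩ := hne
  have hS : IsCompact (segment ℝ p q) := by
    rw [segment_eq_image]
    exact isCompact_Icc.image (by fun_prop)
  obtain ⟨δ, hδ, hδU⟩ := hS.exists_cthickening_subset_open hU (hc.segment_subset hp (hVU hq))
  obtain ⟨K, hK⟩ : ∃ K, K = Metric.cthickening δ (segment ℝ p q) := ⟨_, rfl⟩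
  have hKc : IsCompact K := hK ▸ hS.cthickening
  have hKv : Convex ℝ K := hK ▸ (convex_segment p q).cthickening δ
  have hKU : K ⊆ U := hK ▸ hδU
  have hball : ∀ x ∈ segment ℝ p q, ∀ ε, ε ≤ δ → Metric.ball x ε ⊆ K := fun x hx ε hε =>
    hK ▸ (Metric.ball_subset_closedBall.trans (Metric.closedBall_subset_closedBall hε)).trans
      (Metric.closedBall_subset_cthickening hx δ)
  obtain ⟨W, σ₀, hW, hKW, hWU, hσ₀⟩ := ucp_stream hU ((h1.l2l hU).2.smul ha)
    (fun ξ hξ => by simpa only [real_inner_smul_left] using heq ξ hξ) hKc hKv hKU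
  simp only [map_smul] at hσ₀
  obtain ⟨ε₀, hε₀, hεV⟩ := Metric.isOpen_iff.1 hV q hq
  obtain ⟨A, hA⟩ : ∃ A, A = Metric.ball q (min ε₀ δ) := ⟨_, rfl⟩
  have hAo : IsOpen A := hA ▸ Metric.isOpen_ball
  have hAV : A ⊆ V := hA ▸ (Metric.ball_subset_ball (min_le_left _ _)).trans hεV
  have hAK : A ⊆ K := hA ▸ hball q (right_mem_segment _ _ _) _ (min_le_right _ _)
  have hG0 : ∀ᵐ x, x ∈ A → G x = 0 := by
    filter_upwards [H1loc.unique hAo (h1.mono (hAV.trans hVU)) (H1loc.const 0)] with x hx hxA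
    exact hx hxA (h0 x (hAV hxA))
  obtain ⟨c, hc0⟩ := H1loc.const_of_grad hAo (hA ▸ convex_ball _ _) (hσ₀.mono (hAK.trans hKW))
    (by filter_upwards [hG0] with x hx hxA; simp [hx hxA])
  have hσ : H1loc W (fun x => σ₀ x - c) fun x => a x • Jr (G x) := by
    simpa using hσ₀.sub (H1loc.const c)
  have hτW := h1.mono hWU
  obtain ⟨C, hC⟩ := ucp_energy hW (ha.mono hWU) (fun x hx => ha0 x (hWU hx)) hτW hσ
    (fun ξ hξ => heq ξ ⟨hξ.sm, hξ.cpt, hξ.sub.trans hWU⟩) hKc hKW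
  -- a ball where `τ` is bounded below
  have hd : 0 < τ p ^ 2 / 2 := by positivity
  have hev : ∀ᶠ x in 𝓝 p, τ p ^ 2 / 2 < τ x ^ 2 :=
    ((hτ.continuousAt (hU.mem_nhds hp)).pow 2).eventually (lt_mem_nhds (half_lt_self (by positivity)))
  obtain ⟨ε₁, hε₁, hB1⟩ := Metric.eventually_nhds_iff_ball.1 hev
  obtain ⟨B, hB⟩ : ∃ B, B = Metric.ball p (min ε₁ δ) := ⟨_, rfl⟩
  have hBK : B ⊆ K := hB ▸ hball p (left_mem_segment _ _ _) _ (min_le_right _ _)
  have hB2 : ∀ x ∈ B, τ p ^ 2 / 2 ≤ τ x ^ 2 := fun x hx =>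
    (hB1 x (Metric.ball_subset_ball (min_le_left _ _) (hB ▸ hx))).le
  have hBm : MeasurableSet B := hB ▸ Metric.isOpen_ball.measurableSet
  have vK : volume K ≠ ⊤ := hKc.measure_lt_top.ne
  have vA : 0 < (volume A).toReal := ENNReal.toReal_pos
    (hA ▸ (Metric.measure_ball_pos _ _ (lt_min hε₀ hδ)).ne') (ne_top_of_le_ne_top vK (measure_mono hAK))
  have vB : 0 < (volume B).toReal := ENNReal.toReal_pos
    (hB ▸ (Metric.measure_ball_pos _ _ (lt_min hε₁ hδ)).ne') (ne_top_of_le_ne_top vK (measure_mono hBK))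
  obtain ⟨D, hD⟩ := Metric.isBounded_iff.1 hKc.isBounded
  obtain ⟨C', hC'⟩ : ∃ C', C' = 2 ^ (Module.finrank ℝ E2 + 2) * D ^ 2 * (volume K).toReal * |C| := ⟨_, rfl⟩
  have hC0 : 0 ≤ C' := hC' ▸ by positivity
  obtain ⟨N, hN⟩ : ∃ N, N = C' / ((volume A).toReal * (volume B).toReal) + 1 := ⟨_, rfl⟩
  have hN1 : 1 ≤ N := hN ▸ le_add_of_nonneg_left (by positivity)
  obtain ⟨η, hη, hbig⟩ := llog_big (N + Real.log (1 + Real.log (1 + 1 / (τ p ^ 2 / 2))))
  obtain ⟨k1, k2, hF⟩ := ucp_field hη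
  obtain ⟨Bd, hBd⟩ := hF.bd
  have hf := (H1loc.const (Ω := W) (llog η (0, 0))).sub (H1loc.comp2_lip hW hτW hσ hF.cL fun t => (hBd t).2.2)
  have hP := poincare_sub hW hKv hKc hKW (D := D) (fun x hx y hy => by rw [← dist_eq_norm]; exact hD hx hy)
    hAo.measurableSet hAK hf (m := 0) (by
      filter_upwards [hc0] with x hx hxA
      rw [hx hxA, h0 x (hAV hxA), sub_self, sub_self, abs_zero])
  simp only [zero_sub, norm_neg] at hP
  have hE := (hC k1 k2 _ hF).trans (le_abs_self C)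
  have hi : IntegrableOn (fun x => (llog η (0, 0) - llog η (τ x, σ₀ x - c)) ^ 2) K :=
    (hf.memLp hW hKc hKW).1.integrable_sq
  have l1 : ∫ x in B, (llog η (0, 0) - llog η (τ x, σ₀ x - c)) ^ 2 ≤
      ∫ x in K, (llog η (0, 0) - llog η (τ x, σ₀ x - c)) ^ 2 :=
    setIntegral_mono_set hi (Eventually.of_forall fun x => sq_nonneg _) hBK.eventuallyLE
  have l2 : N * (volume B).toReal ≤ ∫ x in B, (llog η (0, 0) - llog η (τ x, σ₀ x - c)) ^ 2 := by
    refine setIntegral_ge_of_const_le_real hBm (ne_top_of_le_ne_top vK (measure_mono hBK)) (fun x hx => ?_)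
      (hi.mono_set hBK)
    have := (llog_le hη hd (w := (τ x, σ₀ x - c)) (hB2 x hx)).2
    nlinarith
  have l3 : (volume A).toReal * (N * (volume B).toReal) ≤ C' := by
    refine (mul_le_mul_of_nonneg_left (l2.trans l1) vA.le).trans (hP.trans ?_)
    rw [hC']
    have : (0 : ℝ) ≤ 2 ^ (Module.finrank ℝ E2 + 2) * D ^ 2 * (volume K).toReal := by positivity
    have := mul_le_mul_of_nonneg_left hE this
    linarith
  have l4 : (volume A).toReal * (N * (volume B).toReal) = C' + (volume A).toReal * (volume B).toReal := by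
    rw [hN]; field_simp
  have := mul_pos vA vB
  linarith

end Crest.Agent.R335
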