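import Crest.Agent.R335.UCP_J1

/-!
# R335/UCP_J: circle averages
-/

set_option autoImplicit false

namespace Crest.Agent.R335

open MeasureTheory Set Filter Topology
open scoped Gradient RealInnerProductSpace ENNReal ContDiff
open Crest.MathPhysics.ThreeBody


theorem uj_cs {g : ℝ → ℝ} (hg : MemLp g 2 (volume.restrict (Ioo (-Real.pi) Real.pi))) :
    (∫ α in Ioo (-Real.pi) Real.pi, g α) ^ 2 ≤ 2 * Real.pi * ∫ α in Ioo (-Real.pi) Real.pi, g α ^ 2 := by
  have hp := Real.pi_pos
  obtain ⟨I, hI⟩ : ∃ I, I = ∫ α in Ioo (-Real.pi) Real.pi, g α := ⟨_, rfl⟩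
  have i1 : Integrable g (volume.restrict (Ioo (-Real.pi) Real.pi)) := hg.integrable one_le_two
  have h0 : 0 ≤ ∫ α in Ioo (-Real.pi) Real.pi, (2 * Real.pi * g α - I) ^ 2 := integral_nonneg fun _ => sq_nonneg _
  have e : ∀ α, (2 * Real.pi * g α - I) ^ 2 = ((2 * Real.pi) ^ 2 * g α ^ 2 - 4 * Real.pi * I * g α) + I ^ 2 :=
    fun α => by ring
  have j : Integrable (fun α => (2 * Real.pi) ^ 2 * g α ^ 2 - 4 * Real.pi * I * g α)
      (volume.restrict (Ioo (-Real.pi) Real.pi)) := (hg.integrable_sq.const_mul _).sub (i1.const_mul _)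
  simp only [e] at h0
  rw [integral_add j (integrable_const _), integral_sub (hg.integrable_sq.const_mul _) (i1.const_mul _),
    integral_const_mul, integral_const_mul, ← hI] at h0
  simp only [integral_const, MeasurableSet.univ, measureReal_restrict_apply, univ_inter, Real.volume_real_Ioo,
    smul_eq_mul] at h0
  rw [max_eq_left (by linarith)] at h0
  rw [← hI]
  refine le_of_mul_le_mul_left ?_ (by positivity : 0 < 2 * Real.pi)
  nlinarith

/-- Cauchy-Schwarz in the angle (cf. the proof of `s12a_memLp` in `S12a.lean`; `AEStronglyMeasurable.integral_prod_right'`) -/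
theorem avgG_l2l {G : E3 → E3} (hG : L2l Om3 G) : L2l Q2 (avgG G) := by
  intro C hC hs
  have hH := cyl_memLp hG hC hs
  have h0 : AEStronglyMeasurable (fun p : E2 => ∫ α in Ioo (-Real.pi) Real.pi, cya α (G (cyp α p)))
      (volume.restrict C) := hH.1.integral_prod_right'
  have h1 := (memLp_two_iff_integrable_sq_norm hH.1).1 hH
  refine MemLp.const_smul (f := fun p : E2 => ∫ α in Ioo (-Real.pi) Real.pi, cya α (G (cyp α p))) ?_ (2 * Real.pi)⁻¹
  refine (memLp_two_iff_integrable_sq_norm h0).2
    ((h1.integral_prod_left.const_mul (2 * Real.pi)).mono' (h0.norm.pow 2) ?_)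
  filter_upwards [h1.prod_right_ae, hH.1.prodMk_left] with p hp hm
  rw [Real.norm_of_nonneg (sq_nonneg _)]
  have m2 : MemLp (fun α => ‖cya α (G (cyp α p))‖) 2 (volume.restrict (Ioo (-Real.pi) Real.pi)) :=
    ((memLp_two_iff_integrable_sq_norm hm).2 hp).norm
  refine (pow_le_pow_left₀ (norm_nonneg _) (norm_integral_le_integral_norm _) 2).trans ?_
  exact uj_cs m2

/-- `cyl_int` for `⟪G x, lft Y x⟫` (integrable: `lft Y` is bounded and vanishes off the compact set `prj ⁻¹' tsupport Y`), `integral_prod`, `lft_cyp`, `inner_cya`; for a.e. `p ∈ tsupport Y` the function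
`α ↦ cya α (G (cyp α p))` is integrable (`cyl_memLp`, finite measure, `Integrable.prod_right_ae`), so `integral_inner` applies; off `tsupport Y` both sides vanish -/
theorem cyl_vec {G : E3 → E3} (hG : L2l Om3 G) {Y : E2 → E2} (h : Ccs Q2 Y) :
    ∫ x, ⟪G x, lft Y x⟫ = 2 * Real.pi * ∫ p, p 0 * ⟪avgG G p, Y p⟫ := by
  have hC := h.cpt
  have hC' := isCompact_prj hC
  have hG' : MemLp ((prj ⁻¹' tsupport Y).indicator G) 2 volume :=
    (memLp_indicator_iff_restrict hC'.measurableSet).2 (hG _ hC' fun x hx => prj_mem_Q2.1 (h.sub hx))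
  have hL : MemLp (lft Y) 2 volume := h.lift.cont.memLp_of_hasCompactSupport h.lift.cpt
  have hi : Integrable fun x => ⟪G x, lft Y x⟫ := by
    have : Integrable fun x => ⟪(prj ⁻¹' tsupport Y).indicator G x, lft Y x⟫ :=
      (hG'.norm.integrable_mul hL.norm).mono' (hG'.1.inner hL.1)
        (Eventually.of_forall fun x => norm_inner_le_norm _ _)
    refine this.congr (Eventually.of_forall fun x => ?_)
    by_cases hx : x ∈ prj ⁻¹' tsupport Y
    · simp only [indicator_of_mem hx]
    · have : lft Y x = 0 := by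
        ext i
        fin_cases i <;> simp [lft, image_eq_zero_of_notMem_tsupport hx]
      simp only [this, inner_zero_right]
  obtain ⟨h1, h2⟩ := cyl_int hi
  have h3 : ∀ᵐ p, p ∈ tsupport Y →
      Integrable (fun α => cya α (G (cyp α p))) (volume.restrict (Ioo (-Real.pi) Real.pi)) := by
    have : IsFiniteMeasure (volume.restrict (tsupport Y)) := ⟨by simpa using IsCompact.measure_lt_top hC⟩
    exact (ae_restrict_iff' (isClosed_tsupport Y).measurableSet).1
      ((cyl_memLp hG hC h.sub).integrable one_le_two).prod_right_ae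
  rw [h2, cym, integral_prod _ h1, ← integral_const_mul,
    ← setIntegral_eq_integral_of_forall_compl_eq_zero (s := H2)
      (f := fun p => 2 * Real.pi * (p 0 * ⟪avgG G p, Y p⟫)) fun p hp => ?_]
  · refine setIntegral_congr_ae measurableSet_H2 ?_
    filter_upwards [h3] with p hp hp0
    simp only [lft_cyp Y _ hp0, ← inner_cya, smul_eq_mul, integral_const_mul]
    by_cases hY : p ∈ tsupport Y
    · simp only [real_inner_comm (Y p), avgG, real_inner_smul_right]
      rw [integral_inner (hp hY)]
      have := Real.pi_pos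
      field_simp
    · simp [image_eq_zero_of_notMem_tsupport hY]
  · rw [image_eq_zero_of_notMem_tsupport fun hh => hp (h.sub hh).1]
    simp

end Crest.Agent.R335
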