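import Crest.Agent.R335.S9b

/-!
# R335/S9: Poincaré inequalities
-/

set_option autoImplicit false

namespace Crest.Agent.R335

open MeasureTheory Set Filter Topology
open scoped Gradient RealInnerProductSpace ENNReal ContDiff
open Crest.MathPhysics.ThreeBody

variable {E : Type} [NormedAddCommGroup E] [InnerProductSpace ℝ E] [FiniteDimensional ℝ E]
  [MeasurableSpace E] [BorelSpace E]

/-- Cauchy-Schwarz -/
theorem s9_cs {μ : Measure ℝ} {g : ℝ → ℝ≥0∞} (hg : AEMeasurable g μ) :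
    (∫⁻ t, g t ∂μ) ^ 2 ≤ μ univ * ∫⁻ t, g t ^ 2 ∂μ := by
  have h := ENNReal.lintegral_mul_le_Lp_mul_Lq μ Real.HolderConjugate.two_two (f := fun _ => 1) (g := g)
    aemeasurable_const hg
  simp only [Pi.mul_apply, one_mul, one_pow, lintegral_const, ENNReal.rpow_two] at h
  refine (pow_le_pow_left' h 2).trans (le_of_eq ?_)
  have e : ∀ x : ℝ≥0∞, (x ^ (1 / 2 : ℝ)) ^ 2 = x := fun x => by
    rw [← ENNReal.rpow_two, ← ENNReal.rpow_mul]
    norm_num
  rw [mul_pow, e, e]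

theorem s9_line {φ ψ : ℝ → ℝ} (hφ : ∀ t, HasDerivAt φ (ψ t) t) (hψ : Continuous ψ) {α β z z' : ℝ}
    (hz : z ∈ Icc α β) (hz' : z' ∈ Icc α β) :
    ‖φ z - φ z'‖ₑ ^ 2 ≤ ENNReal.ofReal (β - α) * ∫⁻ t in Icc α β, ‖ψ t‖ₑ ^ 2 := by
  have h1 := s9_cs (μ := volume.restrict (Icc α β)) (g := fun t => ‖ψ t‖ₑ) hψ.enorm.aemeasurable
  rw [Measure.restrict_apply_univ, Real.volume_Icc] at h1
  refine (pow_le_pow_left' ?_ 2).trans h1
  rw [← intervalIntegral.integral_eq_sub_of_hasDerivAt (fun t _ => hφ t) (hψ.intervalIntegrable _ _),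
    ← ofReal_norm, intervalIntegral.norm_integral_eq_norm_integral_uIoc, ofReal_norm]
  exact (enorm_integral_le_lintegral_enorm _).trans
    (lintegral_mono_set (uIoc_subset_uIcc.trans (uIcc_subset_Icc hz' hz)))

/-- vertical coordinate first -/
noncomputable def s9e : ℝ × (Fin 2 → ℝ) ≃ᵐ E3 :=
  (MeasurableEquiv.piFinSuccAbove (fun _ : Fin 3 => ℝ) 2).symm.trans (MeasurableEquiv.toLp 2 (Fin 3 → ℝ))

theorem s9e_apply (z : ℝ) (y : Fin 2 → ℝ) : s9e (z, y) = !₂[y 0, y 1, z] := by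
  ext i
  fin_cases i <;> rfl

theorem s9e_mp : MeasurePreserving s9e volume volume :=
  (PiLp.volume_preserving_toLp (Fin 3)).comp (volume_preserving_piFinSuccAbove (fun _ : Fin 3 => ℝ) 2).symm

theorem s9_meas {g : E3 → ℝ≥0∞} (hg : AEMeasurable g volume) :
    AEMeasurable (fun p : ℝ × (Fin 2 → ℝ) => g (s9e p)) (volume.prod volume) :=
  hg.comp_quasiMeasurePreserving s9e_mp.quasiMeasurePreserving

theorem s9_ton {g : E3 → ℝ≥0∞} (hg : AEMeasurable g volume) :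
    ∫⁻ x, g x = ∫⁻ y : Fin 2 → ℝ, ∫⁻ z : ℝ, g (s9e (z, y)) := by
  rw [← s9e_mp.lintegral_comp_emb s9e.measurableEmbedding]
  exact lintegral_prod_symm _ (s9_meas hg)

theorem s9_ae {p : E3 → Prop} (h : ∀ᵐ x, p x) : ∀ᵐ y : Fin 2 → ℝ, ∀ᵐ z : ℝ, p (s9e (z, y)) := by
  have h1 : ∀ᵐ q : ℝ × (Fin 2 → ℝ) ∂(volume.prod volume), p (s9e q) := s9e_mp.quasiMeasurePreserving.ae h
  exact Measure.ae_ae_of_ae_prod (Measure.measurePreserving_swap.quasiMeasurePreserving.ae h1)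

theorem s9_smooth {φ : E3 → ℝ} (hφ : ContDiff ℝ 1 φ) (y : Fin 2 → ℝ) {α β z z' : ℝ}
    (hz : z ∈ Icc α β) (hz' : z' ∈ Icc α β) : ‖φ (s9e (z, y)) - φ (s9e (z', y))‖ₑ ^ 2 ≤
      ENNReal.ofReal (β - α) * ∫⁻ t in Icc α β, ‖∇ φ (s9e (t, y))‖ₑ ^ 2 := by
  have e : ∀ t : ℝ, s9e (t, y) = s9e (0, y) + t • EuclideanSpace.single 2 (1 : ℝ) := fun t => by
    rw [s9e_apply, s9e_apply]
    ext i
    fin_cases i <;> simp
  have hl : ∀ t : ℝ, HasDerivAt (fun t : ℝ => s9e (t, y)) (EuclideanSpace.single 2 (1 : ℝ)) t := fun t => by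
    rw [funext e]
    simpa using ((hasDerivAt_id t).smul_const (EuclideanSpace.single 2 (1 : ℝ) : E3)).const_add (s9e (0, y))
  have hcont : Continuous fun t : ℝ => s9e (t, y) :=
    continuous_iff_continuousAt.2 fun t => (hl t).continuousAt
  refine (s9_line (φ := fun t => φ (s9e (t, y)))
    (ψ := fun t => fderiv ℝ φ (s9e (t, y)) (EuclideanSpace.single 2 (1 : ℝ)))
    (fun t => ((hφ.differentiable one_ne_zero _).hasFDerivAt).comp_hasDerivAt t (hl t))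
    (((hφ.continuous_fderiv one_ne_zero).comp hcont).clm_apply continuous_const) hz hz').trans ?_
  gcongr with t
  rw [← ofReal_norm, ← ofReal_norm]
  refine ENNReal.ofReal_le_ofReal (((fderiv ℝ φ _).le_opNorm _).trans (le_of_eq ?_))
  simp [gradient]

theorem s9_sq (u v : E3) : ‖u‖ₑ ^ 2 ≤ 2 * ‖v‖ₑ ^ 2 + 2 * ‖u - v‖ₑ ^ 2 := by
  have h : ‖u‖ ≤ ‖v‖ + ‖u - v‖ := by simpa using norm_add_le v (u - v)
  have h2 : ‖u‖ ^ 2 ≤ 2 * ‖v‖ ^ 2 + 2 * ‖u - v‖ ^ 2 := by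
    nlinarith [norm_nonneg u, norm_nonneg v, norm_nonneg (u - v), sq_nonneg (‖v‖ - ‖u - v‖)]
  have := ENNReal.ofReal_le_ofReal h2
  rwa [ENNReal.ofReal_add (by positivity) (by positivity), ENNReal.ofReal_mul zero_le_two,
    ENNReal.ofReal_mul zero_le_two, ENNReal.ofReal_pow (norm_nonneg _), ENNReal.ofReal_pow (norm_nonneg _),
    ENNReal.ofReal_pow (norm_nonneg _), ofReal_norm, ofReal_norm, ofReal_norm,
    ENNReal.ofReal_ofNat] at this

/-- the one dimensional inequality on almost every vertical line -/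
theorem s9_slice {f : E3 → ℝ} {G : E3 → E3} (hf : H1 f G) (α β : ℝ) :
    ∀ᵐ y : Fin 2 → ℝ, ∃ S : Set ℝ, (∀ᵐ z, z ∈ S) ∧ ∀ z ∈ S ∩ Icc α β, ∀ z' ∈ S ∩ Icc α β,
      ‖f (s9e (z, y)) - f (s9e (z', y))‖ₑ ^ 2 ≤
        ENNReal.ofReal (β - α) * (2 * ∫⁻ t in Icc α β, ‖G (s9e (t, y))‖ₑ ^ 2) := by
  obtain ⟨φ, hφ, hA, -⟩ := hf.dense
  have hm : ∀ n, AEMeasurable (fun x => ‖∇ (φ n) x - G x‖ₑ ^ 2) volume := fun n =>
    ((hφ n).h1.mG.1.sub hf.mG.1).enorm.pow_const 2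
  let En : ℕ → (Fin 2 → ℝ) → ℝ≥0∞ := fun n y => ∫⁻ z : ℝ, ‖∇ (φ n) (s9e (z, y)) - G (s9e (z, y))‖ₑ ^ 2
  have hEm : ∀ n, AEMeasurable (En n) volume := fun n => (s9_meas (hm n)).lintegral_prod_left'
  have h1 : Tendsto (fun n => ∫⁻ y, En n y) atTop (𝓝 0) := by
    have := ENNReal.Tendsto.pow (n := 2) hA.l2G
    rw [zero_pow two_ne_zero] at this
    refine this.congr fun n => ?_
    have e := eLpNorm_nnreal_pow_eq_lintegral (p := 2) (f := fun x => ∇ (φ n) x - G x) (μ := volume)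
      two_ne_zero
    simp only [NNReal.coe_ofNat, ENNReal.rpow_two, ENNReal.coe_ofNat] at e
    rw [e, s9_ton (hm n)]
  have h2 : ∀ᵐ y, liminf (fun n => En n y) atTop = 0 := by
    have := lintegral_liminf_le' (μ := volume) (u := atTop) hEm
    have hme : AEMeasurable (fun y => liminf (fun n => En n y) atTop) volume :=
      (Measurable.liminf fun n => (hEm n).measurable_mk).aemeasurable.congr
        ((ae_all_iff.2 fun n => (hEm n).ae_eq_mk).mono fun y hy => by simp only [hy])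
    rw [h1.liminf_eq, nonpos_iff_eq_zero, lintegral_eq_zero_iff' hme] at this
    exact this
  have h3 : ∀ᵐ y : Fin 2 → ℝ, AEMeasurable (fun z : ℝ => ‖G (s9e (z, y))‖ₑ ^ 2) volume :=
    (AEStronglyMeasurable.prodMk_right (μ := volume) (ν := volume) (f := fun p => G (s9e p))
      (hf.mG.1.comp_quasiMeasurePreserving s9e_mp.quasiMeasurePreserving)).mono
      fun y hy => hy.enorm.pow_const 2
  filter_upwards [h2, h3, s9_ae hA.ae] with y hy2 hy3 hy4
  refine ⟨{z | Tendsto (fun n => φ n (s9e (z, y))) atTop (𝓝 (f (s9e (z, y))))}, hy4, fun z hz z' hz' =>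
    ENNReal.le_of_forall_pos_le_add fun ε hε _ => ?_⟩
  have hlim : Tendsto (fun n => ‖φ n (s9e (z, y)) - φ n (s9e (z', y))‖ₑ ^ 2) atTop
      (𝓝 (‖f (s9e (z, y)) - f (s9e (z', y))‖ₑ ^ 2)) :=
    ENNReal.Tendsto.pow ((continuous_enorm.tendsto _).comp (Tendsto.sub hz.1 hz'.1))
  have hc : ENNReal.ofReal (β - α) * 2 ≠ ⊤ := ENNReal.mul_ne_top ENNReal.ofReal_ne_top (by simp)
  obtain ⟨δ, hδ, hδ'⟩ := ENNReal.exists_pos_mul_lt hc (ENNReal.coe_pos.2 hε).ne'
  refine isClosed_Iic.mem_of_frequently_of_tendsto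
    ((frequently_lt_of_liminf_lt (h := hy2.trans_lt hδ)).mono fun n hn => ?_) hlim
  refine (s9_smooth ((hφ n).sm.of_le (by simp)) y hz.2 hz'.2).trans ?_
  calc _ ≤ ENNReal.ofReal (β - α) * ∫⁻ t in Icc α β, (2 * ‖G (s9e (t, y))‖ₑ ^ 2 +
        2 * ‖∇ (φ n) (s9e (t, y)) - G (s9e (t, y))‖ₑ ^ 2) := by
        gcongr with t
        exact s9_sq _ _
    _ ≤ ENNReal.ofReal (β - α) * ((2 * ∫⁻ t in Icc α β, ‖G (s9e (t, y))‖ₑ ^ 2) + 2 * δ) := by
        rw [lintegral_add_left' (hy3.restrict.const_mul 2), lintegral_const_mul' _ _ (by simp),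
          lintegral_const_mul' _ _ (by simp)]
        gcongr
        exact (setLIntegral_le_lintegral _ _).trans hn.le
    _ ≤ _ := by
        rw [mul_add, ← mul_assoc _ 2 δ, mul_comm _ δ]
        gcongr

/-- vertical lines: `f` is continuous and has a zero on every vertical segment of the box.  Approximate uniformly by
smooth functions (`H1loc.exists_h1`, `TH.dense`), use the one dimensional inequality
`∫ φ² ≤ 2 h φ(z₀)² + 2 h² ∫ (∂φ)²` on every segment and Fubini. -/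
theorem poincare_vert {Ω : Set E3} (hΩ : IsOpen Ω) {f : E3 → ℝ} {G : E3 → E3} (hf : H1loc Ω f G)
    (hc : ContinuousOn f Ω) {a b : E3} (hab : ∀ i, a i ≤ b i) (hs : {x : E3 | ∀ i, a i ≤ x i ∧ x i ≤ b i} ⊆ Ω)
    (h0 : ∀ x : E3, (∀ i, a i ≤ x i ∧ x i ≤ b i) → ∃ z, a 2 ≤ z ∧ z ≤ b 2 ∧ f !₂[x 0, x 1, z] = 0) :
    ∫ x in {x : E3 | ∀ i, a i ≤ x i ∧ x i ≤ b i}, f x ^ 2 ≤
      2 * (b 2 - a 2) ^ 2 * ∫ x in {x : E3 | ∀ i, a i ≤ x i ∧ x i ≤ b i}, ‖G x‖ ^ 2 := by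
  set B : Set E3 := {x : E3 | ∀ i, a i ≤ x i ∧ x i ≤ b i} with hB
  have hBk : IsCompact B := by
    have : B = WithLp.toLp 2 '' Icc (fun i => a i) (fun i => b i) := by
      ext x
      exact ⟨fun h => ⟨x.ofLp, ⟨fun i => (h i).1, fun i => (h i).2⟩, rfl⟩,
        by rintro ⟨y, h, rfl⟩ i; exact ⟨h.1 i, h.2 i⟩⟩
    rw [this]
    exact isCompact_Icc.image (PiLp.continuous_toLp 2 _)
  have hBm := hBk.isClosed.measurableSet
  obtain ⟨f', G', U, hT, -, hBU, -, hU, -⟩ := hf.exists_h1 hΩ hBk hs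
  have h1 := hT.h1
  rw [setIntegral_congr_fun hBm (g := fun x => f' x ^ 2) fun x hx => by simp only [(hU x (hBU hx)).1],
    setIntegral_congr_fun (f := fun x => ‖G x‖ ^ 2) hBm (g := fun x => ‖G' x‖ ^ 2)
      fun x hx => by simp only [(hU x (hBU hx)).2]]
  have hh : 0 ≤ b 2 - a 2 := sub_nonneg.2 (hab 2)
  rw [← ENNReal.ofReal_le_ofReal_iff (by positivity), ENNReal.ofReal_mul (by positivity),
    ofReal_integral_eq_lintegral_ofReal h1.int_sq.integrableOn (ae_of_all _ fun _ => sq_nonneg _),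
    ofReal_integral_eq_lintegral_ofReal h1.int_grad_sq.integrableOn (ae_of_all _ fun _ => sq_nonneg _)]
  have e1 : ∀ x, ENNReal.ofReal (f' x ^ 2) = ‖f' x‖ₑ ^ 2 := fun x => by
    rw [← sq_abs, ENNReal.ofReal_pow (abs_nonneg _), ← Real.norm_eq_abs, ofReal_norm]
  have e2 : ∀ x, ENNReal.ofReal (‖G' x‖ ^ 2) = ‖G' x‖ₑ ^ 2 := fun x => by
    rw [ENNReal.ofReal_pow (norm_nonneg _), ofReal_norm]
  simp only [e1, e2]
  rw [← lintegral_indicator hBm, ← lintegral_indicator hBm,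
    s9_ton ((h1.mf.1.enorm.pow_const 2).indicator hBm), s9_ton ((h1.mG.1.enorm.pow_const 2).indicator hBm),
    ← lintegral_const_mul' _ _ ENNReal.ofReal_ne_top]
  refine lintegral_mono_ae ?_
  filter_upwards [s9_slice h1 (a 2) (b 2)] with y ⟨S, hS, hy⟩
  by_cases hY : (a 0 ≤ y 0 ∧ y 0 ≤ b 0) ∧ a 1 ≤ y 1 ∧ y 1 ≤ b 1
  swap
  · have : ∀ z, s9e (z, y) ∉ B := fun z h => hY (by rw [s9e_apply] at h; exact ⟨h 0, h 1⟩)
    simp only [indicator_of_notMem (this _), lintegral_zero, zero_le]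
  have hmem : ∀ z, s9e (z, y) ∈ B ↔ z ∈ Icc (a 2) (b 2) := fun z => by
    rw [s9e_apply]
    refine ⟨fun h => h 2, fun h i => ?_⟩
    fin_cases i
    exacts [hY.1, hY.2, h]
  have e3 : ∀ g : E3 → ℝ≥0∞, ∫⁻ z, B.indicator g (s9e (z, y)) = ∫⁻ z in Icc (a 2) (b 2), g (s9e (z, y)) :=
    fun g => by
      rw [← lintegral_indicator measurableSet_Icc]
      refine lintegral_congr fun z => ?_
      by_cases hz : z ∈ Icc (a 2) (b 2)
      · rw [indicator_of_mem hz, indicator_of_mem ((hmem z).2 hz)]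
      · rw [indicator_of_notMem hz, indicator_of_notMem (mt (hmem z).1 hz)]
  rw [e3, e3]
  rcases (hab 2).eq_or_lt with h2 | h2
  · rw [h2, Icc_self, setLIntegral_measure_zero _ _ (measure_singleton _)]
    exact zero_le
  obtain ⟨z0, hz1, hz2, hz0⟩ := h0 _ ((hmem _).2 (left_mem_Icc.2 h2.le))
  have hz0' : f' (s9e (z0, y)) = 0 := by
    rw [(hU _ (hBU ((hmem z0).2 ⟨hz1, hz2⟩))).1, s9e_apply]
    rwa [s9e_apply] at hz0
  have hcl : z0 ∈ closure (Ioo (a 2) (b 2) ∩ S) := by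
    have := closure_mono ((Measure.dense_of_ae hS).open_subset_closure_inter (isOpen_Ioo (a := a 2) (b := b 2)))
    rw [closure_closure, closure_Ioo h2.ne] at this
    exact this ⟨hz1, hz2⟩
  have hcf : ContinuousOn (fun z => f' (s9e (z, y))) (Icc (a 2) (b 2)) := by
    have : Continuous fun z : ℝ => s9e (z, y) := by
      simp only [s9e_apply]
      fun_prop
    exact (hc.comp this.continuousOn fun z hz => hs ((hmem z).2 hz)).congr
      fun z hz => (hU _ (hBU ((hmem z).2 hz))).1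
  set A := ∫⁻ t in Icc (a 2) (b 2), ‖G' (s9e (t, y))‖ₑ ^ 2
  calc _ ≤ ∫⁻ _ in Icc (a 2) (b 2), ENNReal.ofReal (b 2 - a 2) * (2 * A) := by
        refine lintegral_mono_ae ?_
        filter_upwards [ae_restrict_mem measurableSet_Icc, ae_restrict_of_ae hS] with z hz hzS
        have := ContinuousWithinAt.closure_le hcl
          (f := fun z' => ‖f' (s9e (z, y)) - f' (s9e (z', y))‖ₑ ^ 2)
          (g := fun _ => ENNReal.ofReal (b 2 - a 2) * (2 * A))
          ((ENNReal.continuous_pow 2).continuousAt.comp_continuousWithinAt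
            (continuous_enorm.continuousAt.comp_continuousWithinAt (continuousWithinAt_const.sub
              ((hcf z0 ⟨hz1, hz2⟩).mono (inter_subset_left.trans Ioo_subset_Icc_self)))))
          continuousWithinAt_const fun z' hz' => hy z ⟨hzS, hz⟩ z' ⟨hz'.2, Ioo_subset_Icc_self hz'.1⟩
        simpa only [hz0', sub_zero] using this
    _ = _ := by
        rw [lintegral_const, Measure.restrict_apply_univ, Real.volume_Icc, ENNReal.ofReal_mul zero_le_two,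
          ENNReal.ofReal_pow hh, ENNReal.ofReal_ofNat]
        ring

end Crest.Agent.R335
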