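import Crest.Agent.R335.UCP_D
import Crest.Agent.R335.S9

/-!
# R335/UCP_I: integration in cylindrical coordinates

One way: the map `Ψ (p, α) = cyp α p` is measure preserving from `cym.withDensity (ofReal (p 0))` to `volume`: for measurable `g ≥ 0` write `E3 ≅ ℝ × (Fin 2 → ℝ)`
or `(ℝ × ℝ) × ℝ` (`s9e` in `S9.lean` is such an equivalence; `PiLp.volume_preserving_toLp`, `volume_preserving_piFinSuccAbove`, `volume_preserving_finTwoArrow`),
use `lintegral_comp_polarCoord_symm` in the plane and Tonelli.  Another way: `lintegral_image_eq_lintegral_abs_det_fderiv_mul` /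
`integral_image_eq_integral_abs_det_fderiv_smul`, `integrableOn_image_iff_integrableOn_abs_det_fderiv_smul` for `(ρ, α, z) ↦ (ρ cos α, ρ sin α, z)` on `E3`.
-/

set_option autoImplicit false

namespace Crest.Agent.R335

open MeasureTheory Set Filter Topology
open scoped Gradient RealInnerProductSpace ENNReal ContDiff
open Crest.MathPhysics.ThreeBody


/-- the plane as a product -/
noncomputable def ui_e2 : ℝ × ℝ ≃ᵐ E2 :=
  (MeasurableEquiv.finTwoArrow (α := ℝ)).symm.trans (MeasurableEquiv.toLp 2 (Fin 2 → ℝ))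

theorem ui_e2_mp : MeasurePreserving ui_e2 volume volume :=
  (PiLp.volume_preserving_toLp (Fin 2)).comp (volume_preserving_finTwoArrow ℝ).symm

theorem ui_cont : Continuous fun q : E2 × ℝ => cyp q.2 q.1 := by
  simp only [cyp_def]
  fun_prop

theorem ui_mH2 : MeasurableSet H2 :=
  (isOpen_lt continuous_const (by fun_prop : Continuous fun p : E2 => p 0)).measurableSet

theorem ui_md : Measurable fun q : E2 × ℝ => ENNReal.ofReal (q.1 0) :=
  ENNReal.measurable_ofReal.comp (by fun_prop : Continuous fun q : E2 × ℝ => q.1 0).measurable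

theorem ui_lint {g : E3 → ℝ≥0∞} (hg : Measurable g) :
    ∫⁻ q : E2 × ℝ, ENNReal.ofReal (q.1 0) * g (cyp q.2 q.1) ∂cym = ∫⁻ x, g x := by
  have mF : Measurable fun w : ℝ × ℝ × ℝ =>
      ENNReal.ofReal w.1 * g !₂[w.1 * Real.cos w.2.1, w.1 * Real.sin w.2.1, w.2.2] :=
    (ENNReal.measurable_ofReal.comp measurable_fst).mul (hg.comp (Continuous.measurable (by fun_prop)))
  have m1 : Measurable fun q : E2 × ℝ => ENNReal.ofReal (q.1 0) * g (cyp q.2 q.1) :=
    ui_md.mul (hg.comp ui_cont.measurable)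
  have m2 : Measurable fun w : (ℝ × ℝ) × ℝ => g !₂[w.1.1, w.1.2, w.2] :=
    hg.comp (Continuous.measurable (by fun_prop))
  have e1 : ∫⁻ x, g x = ∫⁻ w : ℝ × ℝ, ∫⁻ z : ℝ, g !₂[w.1, w.2, z] := by
    rw [s9_ton hg.aemeasurable,
      ← (volume_preserving_finTwoArrow ℝ).lintegral_comp m2.lintegral_prod_right']
    simp only [s9e_apply]
    rfl
  have e2 : ∫⁻ w : ℝ × ℝ, ∫⁻ z : ℝ, g !₂[w.1, w.2, z] = ∫⁻ ρ in Ioi (0 : ℝ),
      ∫⁻ α in Ioo (-Real.pi) Real.pi, ∫⁻ z : ℝ,
        ENNReal.ofReal ρ * g !₂[ρ * Real.cos α, ρ * Real.sin α, z] := by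
    rw [← lintegral_comp_polarCoord_symm, polarCoord_target, Measure.volume_eq_prod,
      ← Measure.prod_restrict]
    have m3 : Measurable fun w : (ℝ × ℝ) × ℝ =>
        ENNReal.ofReal w.1.1 * g !₂[w.1.1 * Real.cos w.1.2, w.1.1 * Real.sin w.1.2, w.2] :=
      mF.comp (measurable_fst.fst.prodMk (measurable_fst.snd.prodMk measurable_snd))
    rw [← lintegral_prod _ m3.lintegral_prod_right'.aemeasurable]
    refine lintegral_congr fun p => ?_
    rw [polarCoord_symm_apply, smul_eq_mul]
    exact (lintegral_const_mul' _ _ ENNReal.ofReal_ne_top).symm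
  have pre : ui_e2 ⁻¹' H2 = Ioi (0 : ℝ) ×ˢ univ := by
    ext w
    simp only [mem_prod, mem_univ, and_true]
    rfl
  have mp := ui_e2_mp.restrict_preimage ui_mH2
  rw [pre, Measure.volume_eq_prod, ← Measure.restrict_prod_eq_prod_univ] at mp
  rw [e1, e2, cym, lintegral_prod _ m1.aemeasurable, ← mp.lintegral_comp m1.lintegral_prod_right']
  refine (lintegral_prod _ (m1.lintegral_prod_right'.comp ui_e2.measurable).aemeasurable).trans ?_
  refine lintegral_congr fun ρ => ?_
  have m4 : Measurable (Function.uncurry fun α z : ℝ =>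
      ENNReal.ofReal ρ * g !₂[ρ * Real.cos α, ρ * Real.sin α, z]) :=
    mF.comp (measurable_const.prodMk measurable_id)
  exact (lintegral_lintegral_swap m4.aemeasurable).symm

theorem ui_mp : MeasurePreserving (fun q : E2 × ℝ => cyp q.2 q.1)
    (cym.withDensity fun q => ENNReal.ofReal (q.1 0)) volume := by
  refine ⟨ui_cont.measurable, Measure.ext fun s hs => ?_⟩
  rw [← lintegral_indicator_one hs, lintegral_map (measurable_one.indicator hs) ui_cont.measurable,
    ← lintegral_indicator_one hs]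
  exact (lintegral_withDensity_eq_lintegral_mul _ ui_md
    ((measurable_one.indicator hs).comp ui_cont.measurable)).trans (ui_lint (measurable_one.indicator hs))

theorem ui_ae : ∀ᵐ q ∂cym, 0 < q.1 0 :=
  Measure.quasiMeasurePreserving_fst.ae (ae_restrict_mem ui_mH2)

theorem cyl_int {F : Type} [NormedAddCommGroup F] [NormedSpace ℝ F] {g : E3 → F} (hg : Integrable g) :
    Integrable (fun q : E2 × ℝ => q.1 0 • g (cyp q.2 q.1)) cym ∧
      ∫ x, g x = ∫ q : E2 × ℝ, q.1 0 • g (cyp q.2 q.1) ∂cym := by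
  have hi := ui_mp.integrable_comp_of_integrable hg
  have ht : ∀ᵐ q : E2 × ℝ ∂cym, ENNReal.ofReal (q.1 0) < ⊤ := Eventually.of_forall fun _ => ENNReal.ofReal_lt_top
  have he : (fun q : E2 × ℝ => (ENNReal.ofReal (q.1 0)).toReal • g (cyp q.2 q.1)) =ᵐ[cym]
      fun q => q.1 0 • g (cyp q.2 q.1) := by
    filter_upwards [ui_ae] with q hq
    rw [ENNReal.toReal_ofReal hq.le]
  refine ⟨((integrable_withDensity_iff_integrable_smul' ui_md ht).1 hi).congr he, ?_⟩
  rw [← integral_congr_ae he, ← integral_withDensity_eq_integral_toReal_smul ui_md ht,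
    ← integral_map ui_cont.measurable.aemeasurable (ui_mp.map_eq.symm ▸ hg.1), ui_mp.map_eq]

/-- measurability is transported (`MeasurePreserving.quasiMeasurePreserving`; `cym` is absolutely continuous with respect to the weighted measure,
`withDensity_absolutelyContinuous'`) -/
theorem cyl_meas {F : Type} [NormedAddCommGroup F] {g : E3 → F} (hg : AEStronglyMeasurable g volume) :
    AEStronglyMeasurable (fun q : E2 × ℝ => g (cyp q.2 q.1)) cym := by
  refine (hg.comp_quasiMeasurePreserving ui_mp.quasiMeasurePreserving).mono_ac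
    (withDensity_absolutelyContinuous' ui_md.aemeasurable ?_)
  filter_upwards [ui_ae] with q hq
  exact (ENNReal.ofReal_pos.2 hq).ne'

end Crest.Agent.R335
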