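import Crest.Agent.R335.UCP_H
import Crest.Agent.R335.UCP_I

/-!
# R335/UCP_K: the divergence of `(ψ / ρ) (a₀ e_ρ + a₁ e_z)` in weak form
-/

set_option autoImplicit false

namespace Crest.Agent.R335

open MeasureTheory Set Filter Topology
open scoped Gradient RealInnerProductSpace ENNReal ContDiff
open Crest.MathPhysics.ThreeBody


theorem uk_p0 : Continuous fun p : E2 => p 0 := by fun_prop

theorem uk_fderiv_zero {ψ : E2 → ℝ} {p : E2} (hp : p ∉ tsupport ψ) : fderiv ℝ ψ p = 0 := by
  by_contra h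
  exact hp (support_fderiv_subset ℝ h)

theorem uk_ibp {ψ g : E2 → ℝ} (h : Tst Q2 ψ) (hg : ContDiff ℝ 1 g) (a : E2) :
    ∫ p, (ψ p * fderiv ℝ g p a + fderiv ℝ ψ p a * g p) = 0 := by
  have c1 : ContDiff ℝ 1 ψ := h.sm.of_le (by simp)
  have d1 : Continuous fun p => fderiv ℝ ψ p a := (c1.continuous_fderiv one_ne_zero).clm_apply continuous_const
  have d2 : Continuous fun p => fderiv ℝ g p a := (hg.continuous_fderiv one_ne_zero).clm_apply continuous_const
  have i1 : Integrable fun p => fderiv ℝ ψ p a * g p :=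
    (d1.mul hg.continuous).integrable_of_hasCompactSupport ((h.cpt.fderiv_apply ℝ a).mul_right)
  have i2 : Integrable fun p => ψ p * fderiv ℝ g p a :=
    (c1.continuous.mul d2).integrable_of_hasCompactSupport h.cpt.mul_right
  have i3 : Integrable fun p => ψ p * g p :=
    (c1.continuous.mul hg.continuous).integrable_of_hasCompactSupport h.cpt.mul_right
  rw [integral_add i2 i1, integral_mul_fderiv_eq_neg_fderiv_mul_of_integrable i1 i2 i3
    (fun x _ => c1.differentiable one_ne_zero x) (fun x _ => hg.differentiable one_ne_zero x)]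
  ring

theorem ucp_ccsY {ψ : E2 → ℝ} (h : Tst Q2 ψ) (a : E2) : Ccs Q2 fun p : E2 => (ψ p / p 0) • a := by
  refine ccs_of_zero isOpen_Q2 h.cpt h.sub ?_ fun p hp => ?_
  · exact (h.sm.continuous.continuousOn.div uk_p0.continuousOn fun p hp => hp.1.ne').smul continuousOn_const
  · rw [image_eq_zero_of_notMem_tsupport hp]; simp

theorem ucp_ccsθ {ψ : E2 → ℝ} (h : Tst Q2 ψ) (a : E2) : Ccs Q2 fun p : E2 => fderiv ℝ ψ p a / p 0 := by
  have c1 : ContDiff ℝ 1 ψ := h.sm.of_le (by simp)
  refine ccs_of_zero isOpen_Q2 h.cpt h.sub ?_ fun p hp => ?_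
  · exact ((c1.continuous_fderiv one_ne_zero).clm_apply continuous_const).continuousOn.div
      uk_p0.continuousOn fun p hp => hp.1.ne'
  · rw [uk_fderiv_zero hp]; simp

/-- Add the integrals and use `cyl_int`, `integral_prod_symm` (angle outside).  For `p ∈ H2` the integrand is
`ψ p * fderiv ℝ ξ (cyp α p) (cyp α a) + fderiv ℝ ψ p a * ξ (cyp α p) = fderiv ℝ (fun p => ψ p * ξ (cyp α p)) p a` (`lft_cyp`, `prj_cyp`), which vanishes off `H2`, and the integral
over `E2` of the derivative of a `C¹` function with compact support is zero (`integral_mul_fderiv_eq_neg_fderiv_mul_of_integrable` or `(Tst.h1 _).wg`). -/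
theorem ucp_div {ψ : E2 → ℝ} (h : Tst Q2 ψ) (a : E2) {ξ : E3 → ℝ} (hξ : Tst Om3 ξ) :
    (∫ x, ⟪lft (fun p : E2 => (ψ p / p 0) • a) x, ∇ ξ x⟫) + ∫ x, fderiv ℝ ψ (prj x) a / cyl x * ξ x = 0 := by
  have c1 : ContDiff ℝ 1 ξ := hξ.sm.of_le (by simp)
  have hY := (ucp_ccsY h a).lift
  have hθ := (ucp_ccsθ h a).comp_prj
  have i1 : Integrable fun x => ⟪lft (fun p : E2 => (ψ p / p 0) • a) x, ∇ ξ x⟫ := by
    refine (hY.cont.inner (s1a_grad_cont c1)).integrable_of_hasCompactSupport ?_
    refine HasCompactSupport.intro hξ.cpt fun x hx => ?_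
    rw [s1a_grad_zero hx, inner_zero_right]
  have i2 : Integrable fun x => fderiv ℝ ψ (prj x) a / cyl x * ξ x :=
    (hθ.cont.mul c1.continuous).integrable_of_hasCompactSupport hξ.cpt.mul_left
  rw [← integral_add i1 i2]
  obtain ⟨j1, j2⟩ := cyl_int (i1.add i2)
  refine j2.trans ?_
  unfold cym at j1 ⊢
  rw [integral_prod_symm _ j1]
  refine integral_eq_zero_of_ae (ae_of_all _ fun α => ?_)
  have c2 : ContDiff ℝ 1 fun p => ξ (cyp α p) := c1.comp (cyp α).contDiff
  have key := uk_ibp h c2 a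
  rw [← setIntegral_eq_integral_of_forall_compl_eq_zero (s := H2) (fun p hp => by
    have : p ∉ tsupport ψ := fun h' => hp (h.sub h').1
    rw [image_eq_zero_of_notMem_tsupport this, uk_fderiv_zero this]; simp)] at key
  refine Eq.trans (setIntegral_congr_fun measurableSet_H2 fun p hp => ?_) key
  have p0 : 0 < p 0 := hp
  have d : fderiv ℝ (fun p => ξ (cyp α p)) p a = fderiv ℝ ξ (cyp α p) (cyp α a) := by
    have := ((c1.differentiable one_ne_zero (cyp α p)).hasFDerivAt.comp p (cyp α).hasFDerivAt).fderiv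
    exact congrArg (fun L : E2 →L[ℝ] ℝ => L a) this
  simp only [Pi.add_apply, lft_cyp _ α p0, prj_cyp α p0.le, cyl_cyp α p0.le, map_smul,
    real_inner_smul_left, smul_eq_mul, d]
  rw [real_inner_comm, inner_gradient_left]
  field_simp

end Crest.Agent.R335
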