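import Crest.Agent.R335.UCP_A
import Crest.Agent.R335.UCP_J
import Crest.Agent.R335.UCP_K

/-!
# R335/UCP_L: reduction to the plane
-/

set_option autoImplicit false

namespace Crest.Agent.R335

open MeasureTheory Set Filter Topology
open scoped Gradient RealInnerProductSpace ENNReal ContDiff
open Crest.MathPhysics.ThreeBody


theorem ul_l2l {E F : Type} [NormedAddCommGroup E] [InnerProductSpace ℝ E] [FiniteDimensional ℝ E]
    [MeasurableSpace E] [BorelSpace E] [NormedAddCommGroup F] {Ω : Set E} {f : E → F} (h : Ccs Ω f) : L2l Ω f :=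
  L2l.of_continuousOn h.cont.continuousOn

theorem ul_fd {ψ : E2 → ℝ} {p : E2} (hp : p ∉ tsupport ψ) : fderiv ℝ ψ p = 0 :=
  image_eq_zero_of_notMem_tsupport fun h => hp (tsupport_fderiv_subset ℝ h)

theorem ul_grad {ψ : E2 → ℝ} {p : E2} (hp : p ∉ tsupport ψ) : ∇ ψ p = 0 := by
  simp [gradient, ul_fd hp]

theorem ul_lft {Y : E2 → E2} {x : E3} (h : Y (prj x) = 0) : lft Y x = 0 := by
  ext i
  fin_cases i <;> simp [lft, h]

/-- `ucp_of_weak` with `L2l.of_continuousOn`, `avgG_l2l`.  For `ψ` with `Tst Q2 ψ` take the representative `τ', G'` of `τ` near `prj ⁻¹' tsupport ψ` (`H1loc.exists_h1`) and use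
`TH.ext_eq` with `J = lft Y`, `Y p = (ψ p / p 0) • a`, `h x = fderiv ℝ ψ (prj x) a / cyl x` (`ucp_div`, `ucp_ccsY`, `ucp_ccsθ`, `Ccs.lift`, `Ccs.comp_prj`).  Replace `τ', G'` by `t ∘ prj`, `G`
(`J`, `h` vanish off `prj ⁻¹' tsupport ψ`), then `cyl_vec` and `cyl_scal` with `θ p = fderiv ℝ ψ p a / p 0 * t p` (`ccs_of_zero`); `p 0 * (ψ p / p 0) = ψ p` also for `p 0 = 0`
because `ψ p = 0` there. -/
theorem ucp_red {t : E2 → ℝ} {τ : E3 → ℝ} {G : E3 → E3} (h1 : H1loc Om3 τ G) (ht : ContinuousOn t Q2)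
    (he : ∀ x ∈ Om3, τ x = t (prj x)) : H1loc Q2 t (avgG G) := by
  have hl := h1.l2l isOpen_Om3
  refine ucp_of_weak (L2l.of_continuousOn ht) (avgG_l2l hl.2) fun ψ hψ a => ?_
  have hC : IsCompact (prj ⁻¹' tsupport ψ) := isCompact_prj hψ.cpt
  have hs : prj ⁻¹' tsupport ψ ⊆ Om3 := fun x hx => prj_mem_Q2.1 (hψ.sub hx)
  obtain ⟨τ', G', U, hth, -, hCU, -, hrep, -⟩ := h1.exists_h1 isOpen_Om3 hC hs
  have cY := ucp_ccsY hψ a
  have cθ := ucp_ccsθ hψ a
  have key := TH.ext_eq isOpen_Om3 (J := lft fun p : E2 => (ψ p / p 0) • a)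
    (h := fun x => fderiv ℝ ψ (prj x) a / cyl x) (ul_l2l cY.lift) (ul_l2l cθ.comp_prj)
    (fun ξ hξ => ucp_div hψ a hξ) hth
  have cθt : Ccs Q2 fun p : E2 => fderiv ℝ ψ p a / p 0 * t p :=
    ccs_of_zero isOpen_Q2 hψ.cpt hψ.sub (cθ.cont.continuousOn.mul ht) fun p hp => by simp [ul_fd hp]
  have e1 : ∫ x, ⟪lft (fun p : E2 => (ψ p / p 0) • a) x, G' x⟫ = ∫ x, ⟪G x, lft (fun p : E2 => (ψ p / p 0) • a) x⟫ := by
    refine integral_congr_ae (Eventually.of_forall fun x => ?_)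
    by_cases hx : x ∈ prj ⁻¹' tsupport ψ
    · simp only [(hrep x (hCU hx)).2]
      exact real_inner_comm _ _
    · have h0 : ψ (prj x) = 0 := image_eq_zero_of_notMem_tsupport hx
      have : lft (fun p : E2 => (ψ p / p 0) • a) x = 0 := ul_lft (by simp [h0])
      simp [this]
  have e2 : ∫ x, fderiv ℝ ψ (prj x) a / cyl x * τ' x =
      ∫ x, (fun p : E2 => fderiv ℝ ψ p a / p 0 * t p) (prj x) := by
    refine integral_congr_ae (Eventually.of_forall fun x => ?_)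
    by_cases hx : x ∈ prj ⁻¹' tsupport ψ
    · simp only [(hrep x (hCU hx)).1, he x (hs hx), prj_zero]
    · have h0 : fderiv ℝ ψ (prj x) = 0 := ul_fd hx
      simp [h0]
  rw [e1, e2, cyl_vec hl.2 cY, cyl_scal cθt, ← mul_add] at key
  have key2 := (mul_eq_zero.1 key).resolve_left (by positivity)
  have e3 : ∫ p : E2, p 0 * ⟪avgG G p, (ψ p / p 0) • a⟫ = ∫ p, ⟪avgG G p, a⟫ * ψ p := by
    refine integral_congr_ae (Eventually.of_forall fun p => ?_)
    by_cases hp : p ∈ tsupport ψ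
    · have := (hψ.sub hp).1
      simp only [inner_smul_right]
      field_simp
    · have h0 : ψ p = 0 := image_eq_zero_of_notMem_tsupport hp
      simp [h0]
  have e4 : ∫ p : E2, p 0 * (fderiv ℝ ψ p a / p 0 * t p) = ∫ p, t p * fderiv ℝ ψ p a := by
    refine integral_congr_ae (Eventually.of_forall fun p => ?_)
    by_cases hp : p ∈ tsupport ψ
    · have := (hψ.sub hp).1
      field_simp
    · simp [ul_fd hp]
  rw [e3, e4] at key2
  linarith

/-- test with `ξ = φ ∘ prj` (`Tst.comp_prj`, `Tst.grad_prj`), `cyl_vec` with `Y p = b p • ∇ φ p` (`ccs_of_zero`): `lft Y x = w x • lft (∇ φ) x` -/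
theorem ucp_red_eq {b : E2 → ℝ} {w : E3 → ℝ} {G : E3 → E3} (hG : L2l Om3 G) (hb : ContinuousOn b Q2)
    (he : ∀ x ∈ Om3, w x = b (prj x)) (heq : ∀ ξ, Tst Om3 ξ → ∫ x, w x * ⟪G x, ∇ ξ x⟫ = 0) :
    ∀ φ, Tst Q2 φ → ∫ p, p 0 * b p * ⟪avgG G p, ∇ φ p⟫ = 0 := by
  intro φ hφ
  have cg : Continuous (∇ φ) :=
    (InnerProductSpace.toDual ℝ E2).symm.continuous.comp (hφ.sm.continuous_fderiv (by simp))
  have cY : Ccs Q2 fun p : E2 => b p • ∇ φ p :=
    ccs_of_zero isOpen_Q2 hφ.cpt hφ.sub (hb.smul cg.continuousOn) fun p hp => by simp [ul_grad hp]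
  have key := heq _ hφ.comp_prj
  have e1 : ∫ x, w x * ⟪G x, ∇ (fun x => φ (prj x)) x⟫ = ∫ x, ⟪G x, lft (fun p : E2 => b p • ∇ φ p) x⟫ := by
    refine integral_congr_ae (Eventually.of_forall fun x => ?_)
    simp only [hφ.grad_prj]
    by_cases hx : prj x ∈ tsupport φ
    · have : lft (fun p : E2 => b p • ∇ φ p) x = w x • lft (∇ φ) x := by
        rw [he x (prj_mem_Q2.1 (hφ.sub hx))]
        ext i
        fin_cases i <;> simp [lft, mul_assoc]
      rw [this, inner_smul_right]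
    · have h1 : lft (∇ φ) x = 0 := ul_lft (ul_grad hx)
      have h2 : lft (fun p : E2 => b p • ∇ φ p) x = 0 := ul_lft (by simp [ul_grad hx])
      simp [h1, h2]
  rw [e1, cyl_vec hG cY] at key
  have key2 := (mul_eq_zero.1 key).resolve_left (by positivity)
  rw [← key2]
  refine integral_congr_ae (Eventually.of_forall fun p => ?_)
  simp only [inner_smul_right]
  ring

end Crest.Agent.R335
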