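import Crest.Agent.R335.UCP_D

/-!
# R335/UCP_M: the equation of a ratio of two eigenfunctions
-/

set_option autoImplicit false

namespace Crest.Agent.R335

open MeasureTheory Set Filter Topology
open scoped Gradient RealInnerProductSpace ENNReal ContDiff
open Crest.MathPhysics.ThreeBody

variable {E : Type} [NormedAddCommGroup E] [InnerProductSpace ℝ E] [FiniteDimensional ℝ E]
  [MeasurableSpace E] [BorelSpace E]


/-- `H1loc.div` (`H1.loc`, `Bl.of_continuousOn`, minimum of `u` on a compact set).  Test the equation of `f` with `ξ u` and that of `u` with `ξ f` (`H1.mul_c1_cpt`);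
the potential terms and the right hand sides agree, so `∫ ⟪G, ξ • Gu + u • ∇ ξ⟫ = ∫ ⟪Gu, ξ • G + f • ∇ ξ⟫` (`H1.int_inner`, `integral_sub`).  On `Ω`
`u² • K = u • G - f • Gu`, off `Ω` the gradient of `ξ` vanishes (`s1a_grad_zero`). -/
theorem ucp_ratio {v u f : E → ℝ} {e : ℝ} {Gu G : E → E} {Ω : Set E} (hΩ : IsOpen Ω) (hu : Eig v e u Gu)
    (hf : Eig v e f G) (cu : ContinuousOn u Ω) (cf : ContinuousOn f Ω) (pos : ∀ x ∈ Ω, 0 < u x) :
    ∃ K, H1loc Ω (fun x => f x / u x) K ∧ ∀ ξ, Tst Ω ξ → ∫ x, u x ^ 2 * ⟪K x, ∇ ξ x⟫ = 0 := by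
  refine ⟨fun x => (u x)⁻¹ • G x - (f x / u x ^ 2) • Gu x,
    H1loc.div hΩ (hf.h1.loc Ω) (hu.h1.loc Ω) (Bl.of_continuousOn cf) (Bl.of_continuousOn cu) ?_, ?_⟩
  · intro C hC hs
    rcases C.eq_empty_or_nonempty with rfl | hne
    · exact ⟨1, one_pos, ae_of_all _ fun x hx => absurd hx (notMem_empty x)⟩
    obtain ⟨a, ha, hmin⟩ := hC.exists_isMinOn hne (cu.mono hs)
    exact ⟨u a, pos a (hs ha), ae_of_all _ fun x hx => hmin hx⟩
  · intro ξ hξ
    have c1 : ContDiff ℝ 1 ξ := hξ.sm.of_le (by simp)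
    have t1 := hu.h1.mul_c1_cpt c1 hξ.cpt
    have t2 := hf.h1.mul_c1_cpt c1 hξ.cpt
    have e1 := hf.eq _ _ t1
    have e2 := hu.eq _ _ t2
    have p1 : ∫ x, v x * (f x * (ξ x * u x)) = ∫ x, v x * (u x * (ξ x * f x)) := by
      congr 1; funext x; ring
    have p2 : ip f (fun x => ξ x * u x) = ip u fun x => ξ x * f x := by
      unfold ip; congr 1; funext x; ring
    unfold bf at e1 e2
    rw [p1, p2, ← e2] at e1
    have e3 : (∫ x, ⟪G x, ξ x • Gu x + u x • ∇ ξ x⟫) - ∫ x, ⟪Gu x, ξ x • G x + f x • ∇ ξ x⟫ = 0 := by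
      linarith
    rw [← integral_sub (hf.h1.int_inner t1) (hu.h1.int_inner t2)] at e3
    rw [← e3]
    congr 1; funext x
    by_cases hx : x ∈ Ω
    · have h0 := (pos x hx).ne'
      simp only [inner_add_right, inner_sub_left, real_inner_smul_left, real_inner_smul_right]
      rw [real_inner_comm (G x) (Gu x)]
      field_simp
      ring
    · have h0 : x ∉ tsupport ξ := fun h => hx (hξ.sub h)
      rw [s1a_grad_zero h0, image_eq_zero_of_notMem_tsupport h0]
      simp

end Crest.Agent.R335
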