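import Crest.Agent.R335.Lib
import Crest.Agent.R335.UCP_G
import Crest.Agent.R335.UCP_L
import Crest.Agent.R335.UCP_M

/-!
# R335/UCP: unique continuation for rotation invariant solutions (SUB-LEAD part)

1. `τ = f/u` is continuous and `H1loc` on `Ω = offA ∩ {z > 0}`, and `∫ u² ⟪∇τ, ∇ξ⟫ = 0` (test the equation of `f` with `u ξ`, that of `u` with `f ξ`).
2. Reduction to the plane `E2 ∋ (ρ, z)`: `τ̃ p = τ (pt ρ z)`, gradient `(avg_α ⟪∇τ, e_ρ⟫, avg_α ⟪∇τ, e_z⟫)` (average over the circle; test with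
   `φ(cyl x, z)/cyl x`, cylindrical coordinates from `integral_comp_polarCoord_symm`; Jensen for the `L²` bound), `a = ρ ũ²` continuous and positive,
   `∫ a ⟪∇τ̃, ∇φ⟫ = 0`.
3. `ucp2` (plane): on a disc `U` mollify `X = a ∇τ̃` (divergence free), get `σ_ε` with `∇σ_ε = J X_ε` (`Convex.exists_forall_hasFDerivAt_of_fderiv_symmetric`),
   normalised to be `0` on a small disc `V` where `τ̃ = 0`; `poincare_sub` makes `σ_ε` Cauchy in `L²`; so `σ ∈ H1loc`, `∇σ = J a ∇τ̃`.  `F = (τ̃, σ)` has Jacobian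
   `Jac = a ‖∇τ̃‖² ≥ ‖DF‖²/K`.  For `Φ_η w = -½ log(‖w‖² + η)` (superharmonic, `‖∇Φ‖ ≤ 1` where `Φ < 0`), `β = Φ_τ dσ - Φ_σ dτ`, `P t = 1 + log(1 + e^t)`, `h = 1/P`:
   `∫ d(χ² h(Φ∘F)) ∧ F*β = -∫ χ² h ΔΦ(F) Jac ≥ 0` (true for smooth `F` by `integral_fderiv_eq_zero`/symmetry of second derivatives, then for `H¹` maps by `H1.dense` and dominated
   convergence: all coefficients are bounded and continuous).  With `dΦ(F) ∧ F*β = ‖∇Φ‖² Jac` and `h² ‖∇Φ‖² ≤ 2 (-h') ‖∇Φ‖² + 1` this bounds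
   `∫ χ² ‖∇ log P(Φ_η∘F)‖²` uniformly in `η`.  `ℓ_η - log P(Φ_η∘F) ≥ 0` vanishes on `V` (`ℓ_η = log P(-½ log η) → ∞`), so it is bounded in `L²` (`poincare_sub`); Fatou gives `F = 0` a.e.
4. The interior of `{τ̃ = 0}` is open, closed and nonempty in the convex quadrant.
-/

set_option autoImplicit false

namespace Crest.Agent.R335

open MeasureTheory Set Filter Topology
open scoped Gradient RealInnerProductSpace ENNReal ContDiff
open Crest.MathPhysics.ThreeBody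

/-- the planar statement -/
theorem ucp2 {U V : Set E2} (hU : IsOpen U) (hc : Convex ℝ U) (hV : IsOpen V) (hne : V.Nonempty) (hVU : V ⊆ U)
    {a τ : E2 → ℝ} {G : E2 → E2} (ha : ContinuousOn a U) (ha0 : ∀ p ∈ U, 0 < a p) (hτ : ContinuousOn τ U)
    (h1 : H1loc U τ G) (heq : ∀ ξ, Tst U ξ → ∫ p, a p * ⟪G p, ∇ ξ p⟫ = 0) (h0 : ∀ p ∈ V, τ p = 0) :
    ∀ p ∈ U, τ p = 0 := by
  exact ucp_plane hU hc hV hne hVU ha ha0 hτ h1 heq h0

theorem ucp {v R u f : E3 → ℝ} {e2 : ℝ} {Gu G : E3 → E3} (hv : IsSumClassPotential v) (hu : OddU v e2 R u Gu)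
    (hf : Eig v e2 f G) (hc : ContinuousOn f offA) (hs : ∀ T, SymP T → ∀ x ∈ offA, f (T x) = f x) {V : Set E3}
    (hV : IsOpen V) (hne : V.Nonempty) (hVs : ∀ x ∈ V, x ∈ offA ∧ 0 < x 2) (h0 : ∀ x ∈ V, f x = 0) :
    ∀ x ∈ offA, 0 < x 2 → f x = 0 := by
  have hsub : Om3 ⊆ offA := fun x hx => hx.1
  obtain ⟨K, hK, heq⟩ := ucp_ratio isOpen_Om3 hu.orb.eig hf (hu.orb.cont.mono hsub) (hc.mono hsub)
    fun x hx => hu.pos x hx.1 hx.2
  have cpt : Continuous fun p : E2 => pt (p 0) (p 1) :=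
    continuous_pt.comp (f := fun p : E2 => (p 0, p 1)) (by fun_prop)
  have mpt : ∀ p ∈ Q2, pt (p 0) (p 1) ∈ Om3 := fun p hp =>
    ⟨show 0 < cyl _ by rw [cyl_pt hp.1.le]; exact hp.1, by simpa [pt] using hp.2⟩
  have inv : ∀ g : E3 → ℝ, (∀ T, SymP T → ∀ x ∈ offA, g (T x) = g x) → ∀ x ∈ Om3,
      g x = g (pt (prj x 0) (prj x 1)) := fun g hg x hx => by
    obtain ⟨T, hT, h⟩ := exists_rot_pt x
    have := hg T hT _ (mpt _ (prj_mem_Q2.2 hx)).1
    rw [prj_zero, prj_one, h] at this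
    exact this
  have cf : ContinuousOn (fun p : E2 => f (pt (p 0) (p 1))) Q2 :=
    hc.comp cpt.continuousOn fun p hp => (mpt p hp).1
  have cu : ContinuousOn (fun p : E2 => u (pt (p 0) (p 1))) Q2 :=
    hu.orb.cont.comp cpt.continuousOn fun p hp => (mpt p hp).1
  have pu : ∀ p ∈ Q2, 0 < u (pt (p 0) (p 1)) := fun p hp => hu.pos _ (mpt p hp).1 (mpt p hp).2
  have ct : ContinuousOn (fun p : E2 => f (pt (p 0) (p 1)) / u (pt (p 0) (p 1))) Q2 :=
    cf.div cu fun p hp => (pu p hp).ne'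
  have r1 := ucp_red hK ct fun x hx => by rw [← inv f hs x hx, ← inv u hu.symP x hx]
  have r2 := ucp_red_eq (b := fun p : E2 => u (pt (p 0) (p 1)) ^ 2) (hK.l2l isOpen_Om3).2 (cu.pow 2)
    (fun x hx => by rw [← inv u hu.symP x hx]) heq
  obtain ⟨x₀, hx₀⟩ := hne
  obtain ⟨T, hT, hT0⟩ := exists_rot_pt x₀
  have key := ucp2 (V := Q2 ∩ {p : E2 | T (pt (p 0) (p 1)) ∈ V}) isOpen_Q2 convex_Q2
    (isOpen_Q2.inter (hV.preimage (T.continuous.comp cpt)))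
    ⟨prj x₀, prj_mem_Q2.2 (hVs x₀ hx₀), by simpa [hT0] using hx₀⟩ inter_subset_left
    (a := fun p : E2 => p 0 * u (pt (p 0) (p 1)) ^ 2)
    ((by fun_prop : Continuous fun p : E2 => p 0).continuousOn.mul (cu.pow 2))
    (fun p hp => mul_pos hp.1 (pow_pos (pu p hp) 2)) ct r1 r2 fun p hp => by
      have := h0 _ hp.2
      rw [hs T hT _ (mpt p hp.1).1] at this
      simp [this]
  intro x hx hz
  have h2 := key (prj x) (prj_mem_Q2.2 ⟨hx, hz⟩)
  rw [← inv f hs x ⟨hx, hz⟩, ← inv u hu.symP x ⟨hx, hz⟩] at h2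
  exact (div_eq_zero_iff.1 h2).resolve_right (hu.pos x hx hz).ne'

end Crest.Agent.R335
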