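import Crest.Agent.R335.K3_a
import Crest.Agent.R335.UCP

/-!
# R335/K3_b: Courant's theorem for even invariant eigenfunctions
-/

set_option autoImplicit false

namespace Crest.Agent.R335

open MeasureTheory Set Filter Topology
open scoped Gradient RealInnerProductSpace ENNReal ContDiff
open Crest.MathPhysics.ThreeBody

variable {v f g φ u R : E3 → ℝ} {G Gφ Gu : E3 → E3} {e e1 e2 : ℝ} {A B : Set E3}

theorem k3_ip_pos (hφ : MemLp φ 2 volume) (hp : ∀ᵐ x, 0 < φ x) (hg : MemLp g 2 volume) (h0 : ∀ᵐ x, 0 ≤ g x)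
    {U : Set E3} (hU : IsOpen U) (hne : U.Nonempty) (hU0 : ∀ x ∈ U, 0 < g x) : 0 < ip φ g := by
  have h1 : ∀ᵐ x, 0 ≤ φ x * g x := by
    filter_upwards [hp, h0] with x h1 h2 using mul_nonneg h1.le h2
  refine lt_of_le_of_ne (integral_nonneg_of_ae h1) fun h => ?_
  have h2 := (integral_eq_zero_iff_of_nonneg_ae h1 (hφ.integrable_mul hg)).1 h.symm
  refine hne.ne_empty (hU.eq_empty_of_measure_zero (μ := volume) (measure_eq_zero_iff_ae_notMem.2 ?_))
  filter_upwards [hp, h2] with x h3 h4 hx using (mul_pos h3 (hU0 x hx)).ne' h4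

/-- a nonempty open set contains a point off the plane -/
theorem k3_off_plane {U : Set E3} (hU : IsOpen U) (hne : U.Nonempty) : ∃ x ∈ U, x 2 ≠ 0 := by
  by_contra h
  refine hne.ne_empty (hU.eq_empty_of_measure_zero (μ := volume) (measure_eq_zero_iff_ae_notMem.2 ?_))
  filter_upwards [ae_coord_ne 2 0] with x hx hU using h ⟨x, hU, hx⟩

theorem k3_open (hc : ContinuousOn f offA) {O : Set ℝ} (hO : IsOpen O) : IsOpen {x | x ∈ offA ∧ f x ∈ O} :=
  hc.isOpen_inter_preimage isOpen_offA hO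

theorem k3_sym_off {T : E3 ≃ₗᵢ[ℝ] E3} (hT : Sym T) {x : E3} (hx : x ∈ offA) : T x ∈ offA := by
  change 0 < cyl (T x)
  rw [hT.cyl_eq]
  exact hx

theorem k3_zero (hc : ContinuousOn f offA) (h : ∀ᵐ x, f x = 0) : ∀ x ∈ offA, f x = 0 := fun x hx => by
  by_contra hne
  have hU := k3_open hc (isOpen_ne (x := (0 : ℝ)))
  refine (Set.Nonempty.ne_empty ⟨x, And.intro hx hne⟩)
    (hU.eq_empty_of_measure_zero (μ := volume) (measure_eq_zero_iff_ae_notMem.2 ?_))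
  filter_upwards [h] with y hy hy' using hy'.2 hy

/-- unique continuation on both half spaces -/
theorem k3_ucp (hv : IsSumClassPotential v) (hs : SymV v) (hu : OddU v e2 R u Gu) (hf : Eig v e2 f G)
    (hc : ContinuousOn f offA) (hP : ∀ T, SymP T → ∀ x ∈ offA, f (T x) = f x) {V : Set E3} (hV : IsOpen V)
    (hne : V.Nonempty) (hVs : V ⊆ offA) (hr : ∀ x ∈ V, refl x ∈ V) (h0 : ∀ x ∈ V, f x = 0) :
    ∀ x ∈ offA, f x = 0 := by
  obtain ⟨T, hT, hT1, hT2⟩ := exists_refl_z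
  have hTT : ∀ x, T (T x) = x := fun x => by rw [hT1 x, ← hT2 x, T.apply_symm_apply]
  have hV' : IsOpen (V ∩ {x : E3 | 0 < x 2}) := hV.inter (isOpen_lt continuous_const (by fun_prop))
  have hne' : (V ∩ {x : E3 | 0 < x 2}).Nonempty := by
    obtain ⟨x, hx, hx2⟩ := k3_off_plane hV hne
    rcases lt_or_gt_of_ne hx2 with h | h
    · refine ⟨refl x, hr x hx, ?_⟩
      change 0 < refl x 2
      rw [← hT1, hT x]
      exact neg_pos.2 h
    · exact ⟨x, hx, h⟩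
  have h1 := ucp hv hu hf hc hP hV' hne' (fun x hx => ⟨hVs hx.1, hx.2⟩) fun x hx => h0 x hx.1
  have h2 := ucp hv hu (hf.comp_iso T (hs T (Or.inr hT)))
    (hc.comp T.continuous.continuousOn fun x hx => k3_sym_off (Or.inr hT) hx)
    (fun T' hT' x hx => by
      have h3 : SymP (T.trans (T'.trans T)) := fun y => by
        change T (T' (T y)) 2 = y 2
        rw [hT, hT', hT, neg_neg]
      have h4 := hP _ h3 (T x) (k3_sym_off (Or.inr hT) hx)
      change f (T (T' (T (T x)))) = f (T x) at h4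
      rwa [hTT] at h4)
    hV' hne' (fun x hx => ⟨hVs hx.1, hx.2⟩) fun x hx => h0 _ (hT1 x ▸ hr x hx.1)
  refine k3_zero hc ?_
  filter_upwards [ae_offA, ae_coord_ne 2 0] with x hx hx2
  rcases lt_or_gt_of_ne hx2 with h | h
  · have := h2 (T x) (k3_sym_off (Or.inr hT) hx) (by rw [hT x]; exact neg_pos.2 h)
    rwa [hTT] at this
  · exact h1 x hx h

theorem k3_eig_neg (hv : FB v) (hf : Eig v e f G) : Eig v e (fun x => -f x) fun x => -G x := by
  simpa using Eig.lin hv hf hf (-1) 0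

theorem k3_sign (ho : OB v e1 e2 φ Gφ) (hf : Eig v e2 f G) (hc : ContinuousOn f offA)
    (hne : ∃ x ∈ offA, 0 < f x) : ∃ x ∈ offA, f x < 0 := by
  by_contra h
  push Not at h
  obtain ⟨x, hx, hx0⟩ := hne
  refine (k3_ip_pos ho.eig.h1.mf ho.pos hf.h1.mf ?_ (k3_open hc isOpen_Ioi) ⟨x, hx, hx0⟩
    fun y hy => hy.2).ne' (ho.eig.orth hf ho.lt.ne)
  filter_upwards [ae_offA] with y hy using h y hy

theorem k3_signs (ho : OB v e1 e2 φ Gφ) (hf : Eig v e2 f G) (hc : ContinuousOn f offA)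
    (hne : ∃ x ∈ offA, f x ≠ 0) : (∃ x ∈ offA, 0 < f x) ∧ ∃ x ∈ offA, f x < 0 := by
  obtain ⟨x, hx, hx0⟩ := hne
  rcases lt_or_gt_of_ne hx0 with h | h
  · obtain ⟨y, hy, hy0⟩ := k3_sign ho (k3_eig_neg (FB.of_sumClass ho.cls) hf) hc.neg ⟨x, hx, neg_pos.2 h⟩
    exact ⟨⟨y, hy, neg_lt_zero.1 hy0⟩, x, hx, h⟩
  · exact ⟨⟨x, hx, h⟩, k3_sign ho hf hc ⟨x, hx, h⟩⟩

theorem k3_courant (ho : OB v e1 e2 φ Gφ) (hs : SymV v) (hu : OddU v e2 R u Gu) (hf : Eig v e2 f G)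
    (hc : ContinuousOn f offA) (he : Even3 f) (h : Piece f A B)
    (hA : ∀ T, SymP T → ∀ x, T x ∈ A ↔ x ∈ A) (hB : ∀ T, SymP T → ∀ x, T x ∈ B ↔ x ∈ B) (nA : A.Nonempty)
    (nB : B.Nonempty) : False := by
  have hv := FB.of_sumClass ho.cls
  have h1 := h.h1 hf.h1 hc
  have h2 := h.symm.h1 hf.h1 hc
  have a1 : 0 < ip φ (A.indicator f) := k3_ip_pos ho.eig.h1.mf ho.pos h1.mf
    (Eventually.of_forall (indicator_nonneg fun y hy => (h.pos hy).le)) h.oA nA fun x hx => by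
      rw [indicator_of_mem hx]
      exact h.pos hx
  have a2 : 0 < ip φ (B.indicator f) := k3_ip_pos ho.eig.h1.mf ho.pos h2.mf
    (Eventually.of_forall (indicator_nonneg fun y hy => (h.symm.pos hy).le)) h.oB nB fun x hx => by
      rw [indicator_of_mem hx]
      exact h.symm.pos hx
  set α := ip φ (B.indicator f)
  set β := -ip φ (A.indicator f) with hβ
  have hχ : Eig v e2 (fun x => α * A.indicator f x + β * B.indicator f x)
      fun x => α • A.indicator G x + β • B.indicator G x :=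
    euler_rank_one hv ho.eig.h1.mf ho.low ((h1.const_mul α).add (h2.const_mul β))
      (by rw [s13a_ip_lin ho.eig.h1.mf h1.mf h2.mf, hβ]; ring) (h.qf_two hv hf hc α β).le
  obtain ⟨x, hx⟩ := nA
  obtain ⟨y, hy⟩ := k3_sign ho hf hc ⟨x, h.off hx, h.pos hx⟩
  obtain ⟨T, hT, hT1, -⟩ := exists_refl_z
  have inv : ∀ C : Set E3, (∀ T, SymP T → ∀ x, T x ∈ C ↔ x ∈ C) → ∀ T, SymP T → ∀ x ∈ offA,
      C.indicator f (T x) = C.indicator f x := fun C hC T hT x hx => by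
    by_cases hxC : x ∈ C
    · rw [indicator_of_mem hxC, indicator_of_mem ((hC T hT x).2 hxC), he T (Or.inl hT) x hx]
    · rw [indicator_of_notMem hxC, indicator_of_notMem fun h' => hxC ((hC T hT x).1 h')]
  have key := k3_ucp ho.cls hs hu hχ
    ((continuousOn_const.mul (h.cont hc)).add (continuousOn_const.mul (h.symm.cont hc)))
    (fun T hT x hx => by rw [inv A hA T hT x hx, inv B hB T hT x hx]) (k3_open hc isOpen_Iio) ⟨y, hy⟩
    (fun x hx => hx.1)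
    (fun x hx => ⟨hT1 x ▸ k3_sym_off (Or.inr hT) hx.1, by rw [← hT1, he T (Or.inr hT) x hx.1]; exact hx.2⟩)
    (fun x hx => by
      rw [indicator_of_notMem fun h' => absurd (h.pos h') (not_lt.2 (le_of_lt hx.2)),
        indicator_of_notMem fun h' => absurd (h.symm.pos h') (not_lt.2 (le_of_lt hx.2))]
      ring) x (h.off hx)
  rw [indicator_of_mem hx, indicator_of_notMem (h.dis x hx), mul_zero, add_zero] at key
  exact (mul_pos a2 (h.pos hx)).ne' key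

theorem k3_pt_off {ρ : ℝ} (h : 0 < ρ) (z : ℝ) : pt ρ z ∈ offA := by
  change 0 < cyl (pt ρ z)
  rwa [cyl_pt h.le]

theorem k3_eq_pt (he : Even3 f) {x : E3} (hx : x ∈ offA) : f (pt (cyl x) (x 2)) = f x := by
  obtain ⟨T, hT, h⟩ := exists_rot_pt x
  rw [← he T (Or.inl hT) _ (k3_pt_off hx _), h]

theorem k3_conn (ho : OB v e1 e2 φ Gφ) (hs : SymV v) (hu : OddU v e2 R u Gu) (hf : Eig v e2 f G)
    (hc : ContinuousOn f offA) (he : Even3 f) :
    IsPreconnected {p : ℝ × ℝ | 0 < p.1 ∧ 0 < f (pt p.1 p.2)} := by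
  rintro U W hU hW hs' ⟨p, hp, hpU⟩ ⟨q, hq, hqW⟩
  by_contra hd
  have hπ : Continuous fun x : E3 => (cyl x, x 2) := continuous_cyl.prodMk (by fun_prop)
  have hm : ∀ x, x ∈ offA ∧ 0 < f x → (cyl x, x 2) ∈ {p : ℝ × ℝ | 0 < p.1 ∧ 0 < f (pt p.1 p.2)} :=
    fun x hx => ⟨hx.1, by rw [k3_eq_pt he hx.1]; exact hx.2⟩
  have inv : ∀ C : Set (ℝ × ℝ), ∀ T, SymP T → ∀ x,
      T x ∈ {x | x ∈ offA ∧ f x ∈ Ioi 0} ∩ (fun x : E3 => (cyl x, x 2)) ⁻¹' C ↔
        x ∈ {x | x ∈ offA ∧ f x ∈ Ioi 0} ∩ (fun x : E3 => (cyl x, x 2)) ⁻¹' C := fun C T hT x => by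
    have e1 : cyl (T x) = cyl x := Sym.cyl_eq (Or.inl hT) x
    have e2 : T x ∈ offA ↔ x ∈ offA := by
      change 0 < cyl (T x) ↔ 0 < cyl x
      rw [e1]
    simp only [mem_inter_iff, mem_ofPred_eq, mem_preimage, e1, hT x, e2]
    exact and_congr_left fun _ => and_congr_right fun hx => by rw [he T (Or.inl hT) x hx]
  have ne : ∀ C : Set (ℝ × ℝ), ∀ p ∈ {p : ℝ × ℝ | 0 < p.1 ∧ 0 < f (pt p.1 p.2)}, p ∈ C →
      ({x | x ∈ offA ∧ f x ∈ Ioi 0} ∩ (fun x : E3 => (cyl x, x 2)) ⁻¹' C).Nonempty := fun C p hp hC =>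
    ⟨pt p.1 p.2, ⟨k3_pt_off hp.1 _, hp.2⟩, by rwa [mem_preimage, cyl_pt hp.1.le, pt_2]⟩
  refine k3_courant ho hs hu hf hc he
    ⟨(k3_open hc isOpen_Ioi).inter (hU.preimage hπ), (k3_open hc isOpen_Ioi).inter (hW.preimage hπ),
      fun x h1 h2 => hd ⟨_, hm x h1.1, h1.2, h2.2⟩, fun x => ⟨fun h => h.elim And.left And.left, fun h => ?_⟩⟩
    (inv U) (inv W) (ne U p hp hpU) (ne W q hq hqW)
  exact (hs' (hm x h)).imp (fun h' => ⟨h, h'⟩) fun h' => ⟨h, h'⟩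

end Crest.Agent.R335
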