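import Crest.Agent.R335.Cross

/-!
# R335/K3_c: plane topology and sign patterns
-/

set_option autoImplicit false

namespace Crest.Agent.R335

open MeasureTheory Set Filter Topology
open scoped Gradient RealInnerProductSpace ENNReal ContDiff
open Crest.MathPhysics.ThreeBody

variable {g : ℝ × ℝ → ℝ}

theorem k3_axis (he : ∀ ρ z, 0 < ρ → g (ρ, -z) = g (ρ, z))
    (hP : IsPreconnected {p : ℝ × ℝ | 0 < p.1 ∧ 0 < g p}) {p : ℝ × ℝ} (h1 : 0 < p.1) (h2 : 0 < g p) :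
    ∃ r, 0 < r ∧ 0 < g (r, 0) := by
  have hI := hP.image Prod.snd continuous_snd.continuousOn
  have m1 : p.2 ∈ Prod.snd '' {p : ℝ × ℝ | 0 < p.1 ∧ 0 < g p} := ⟨p, ⟨h1, h2⟩, rfl⟩
  have m2 : -p.2 ∈ Prod.snd '' {p : ℝ × ℝ | 0 < p.1 ∧ 0 < g p} :=
    ⟨(p.1, -p.2), ⟨h1, by rw [he _ _ h1]; exact h2⟩, rfl⟩
  have m0 : (0 : ℝ) ∈ Prod.snd '' {p : ℝ × ℝ | 0 < p.1 ∧ 0 < g p} := by
    rcases le_total p.2 0 with h | h
    · exact hI.Icc_subset m1 m2 ⟨h, neg_nonneg.2 h⟩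
    · exact hI.Icc_subset m2 m1 ⟨neg_nonpos.2 h, h⟩
  obtain ⟨⟨r, z⟩, hq, rfl⟩ := m0
  exact ⟨r, hq⟩

theorem k3_abs (he : ∀ ρ z, 0 < ρ → g (ρ, -z) = g (ρ, z)) {ρ : ℝ} (h : 0 < ρ) (z : ℝ) : g (ρ, |z|) = g (ρ, z) := by
  rcases abs_choice z with h' | h'
  · rw [h']
  · rw [h', he _ _ h]

theorem k3_join (hc : ContinuousOn g {p | 0 < p.1}) (he : ∀ ρ z, 0 < ρ → g (ρ, -z) = g (ρ, z)) {O : Set ℝ}
    (hO : IsOpen O) (hP : IsPreconnected {p : ℝ × ℝ | 0 < p.1 ∧ g p ∈ O}) {p q : ℝ × ℝ}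
    (hp : 0 < p.1 ∧ g p ∈ O) (hq : 0 < q.1 ∧ g q ∈ O) (p0 : 0 ≤ p.2) (q0 : 0 ≤ q.2) :
    JoinedIn {p : ℝ × ℝ | (0 < p.1 ∧ g p ∈ O) ∧ 0 ≤ p.2} p q := by
  have ho : IsOpen {p : ℝ × ℝ | 0 < p.1 ∧ g p ∈ O} :=
    hc.isOpen_inter_preimage (isOpen_lt continuous_const continuous_fst) hO
  have h1 := (ho.isConnected_iff_isPathConnected.1 ⟨⟨p, hp⟩, hP⟩).joinedIn p hp q hq
  have h2 := h1.map (f := fun p : ℝ × ℝ => (p.1, |p.2|)) (by fun_prop)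
  rw [abs_of_nonneg p0, abs_of_nonneg q0] at h2
  refine h2.mono ?_
  rintro _ ⟨x, hx, rfl⟩
  exact ⟨⟨hx.1, by rw [k3_abs he hx.1]; exact hx.2⟩, abs_nonneg _⟩

theorem k3_plane (hc : ContinuousOn g {p | 0 < p.1}) (he : ∀ ρ z, 0 < ρ → g (ρ, -z) = g (ρ, z))
    (hP : IsPreconnected {p : ℝ × ℝ | 0 < p.1 ∧ 0 < g p}) (hN : IsPreconnected {p : ℝ × ℝ | 0 < p.1 ∧ g p < 0})
    {r₀ r₁ r₂ : ℝ} (h0 : 0 < r₀) (h01 : r₀ < r₁) (h12 : r₁ < r₂) (g0 : 0 < g (r₀, 0)) (g1 : g (r₁, 0) < 0)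
    (g2 : 0 < g (r₂, 0)) : ∃ L', 0 ≤ L' ∧ ∀ ρ z, L' < ρ → 0 ≤ g (ρ, z) := by
  obtain ⟨γ, hγ⟩ := k3_join hc he isOpen_Ioi hP (p := (r₀, 0)) (q := (r₂, 0)) ⟨h0, g0⟩
    ⟨h0.trans (h01.trans h12), g2⟩ le_rfl le_rfl
  obtain ⟨M, hM⟩ := (isCompact_range γ.continuous).isBounded.exists_norm_le
  have b1 : ∀ p ∈ range γ, p.1 ≤ M := fun p hp => (le_abs_self _).trans ((norm_fst_le p).trans (hM p hp))
  have b2 : ∀ p ∈ range γ, p.2 ≤ M := fun p hp => (le_abs_self _).trans ((norm_snd_le p).trans (hM p hp))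
  have hM0 : 0 ≤ M := (norm_nonneg _).trans (hM _ ⟨0, rfl⟩)
  refine ⟨M, hM0, fun ρ z hρ => ?_⟩
  by_contra hneg
  have hρ0 : 0 < ρ := hM0.trans_lt hρ
  have j1 := k3_join hc he isOpen_Iio hN (p := (r₁, 0)) (q := (ρ, |z|)) ⟨h0.trans h01, g1⟩
    ⟨hρ0, by rw [k3_abs he hρ0]; exact not_le.1 hneg⟩ le_rfl (abs_nonneg z)
  have hcv : Convex ℝ (({ρ} : Set ℝ) ×ˢ Ici (0 : ℝ)) := (convex_singleton ρ).prod (convex_Ici 0)
  have hm : ∀ z : ℝ, 0 ≤ z → (ρ, z) ∈ ({ρ} : Set ℝ) ×ˢ Ici (0 : ℝ) := fun z hz => ⟨rfl, hz⟩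
  have j2 : JoinedIn (({ρ} : Set ℝ) ×ˢ Ici (0 : ℝ)) (ρ, |z|) (ρ, M + 1) :=
    (hcv.isPathConnected ⟨_, hm 0 le_rfl⟩).joinedIn _ (hm _ (abs_nonneg z)) _ (hm _ (by linarith))
  refine cross (A := range γ) (H := M + 1) h01 h12 ?_ ?_ ⟨γ, fun t => ⟨t, rfl⟩⟩
    ((j1.mono subset_union_left).trans (j2.mono subset_union_right)) le_rfl ?_
  · rintro _ ⟨t, rfl⟩
    exact ⟨(hγ t).2, (b2 _ ⟨t, rfl⟩).trans_lt (lt_add_one M)⟩
  · rintro p (hp | hp)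
    · exact hp.2
    · exact hp.2
  · rw [Set.disjoint_left]
    rintro _ ⟨t, rfl⟩ (hp | hp)
    · exact lt_asymm (mem_Ioi.1 (hγ t).1.2) (mem_Iio.1 hp.1.2)
    · have h1 := b1 _ ⟨t, rfl⟩
      rw [show (γ t).1 = ρ from hp.1] at h1
      exact absurd hρ (not_lt.2 h1)

/-- the pattern `- +` occurs -/
def Up (p : ℝ → ℝ) : Prop := ∃ r r', 0 < r ∧ r < r' ∧ p r < 0 ∧ 0 < p r'

/-- the pattern `+ - +` occurs -/
def Alt (p : ℝ → ℝ) : Prop := ∃ r₀ r₁ r₂, 0 < r₀ ∧ r₀ < r₁ ∧ r₁ < r₂ ∧ 0 < p r₀ ∧ p r₁ < 0 ∧ 0 < p r₂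

theorem k3_up_or {p : ℝ → ℝ} (h1 : ∃ r, 0 < r ∧ 0 < p r) (h2 : ∃ r, 0 < r ∧ p r < 0) :
    Up p ∨ Up fun r => -p r := by
  obtain ⟨a, ha, ha'⟩ := h1
  obtain ⟨b, hb, hb'⟩ := h2
  rcases lt_trichotomy a b with h | rfl | h
  · exact Or.inr ⟨a, b, ha, h, neg_lt_zero.2 ha', neg_pos.2 hb'⟩
  · exact absurd ha' (lt_asymm hb')
  · exact Or.inl ⟨b, a, hb, h, hb', ha'⟩

theorem k3_alt_or {p : ℝ → ℝ} (h1 : Up p) (h2 : Up fun r => -p r) : Alt p ∨ Alt fun r => -p r := by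
  obtain ⟨b, b', hb, hbb, h3, h4⟩ := h1
  obtain ⟨a', a, ha, haa, h5, h6⟩ := h2
  rcases lt_trichotomy a b' with h | rfl | h
  · exact Or.inl ⟨a', a, b', ha, haa, h, neg_lt_zero.1 h5, neg_pos.1 h6, h4⟩
  · exact absurd h4 (lt_asymm (neg_pos.1 h6))
  · exact Or.inr ⟨b, b', a, hb, hbb, h, neg_pos.2 h3, neg_lt_zero.2 h4, h6⟩

theorem k3_up_open {p : ℝ → ℝ → ℝ} (hp : ∀ r, Continuous fun t => p t r) : IsOpen {t | Up (p t)} := by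
  refine isOpen_iff_mem_nhds.2 ?_
  rintro t ⟨r, r', h1, h2, h3, h4⟩
  filter_upwards [(hp r).continuousAt.eventually (gt_mem_nhds h3),
    (hp r').continuousAt.eventually (lt_mem_nhds h4)] with s h5 h6 using ⟨r, r', h1, h2, h5, h6⟩

theorem k3_dim {p q : ℝ → ℝ} (h : ∀ α β : ℝ, α ≠ 0 ∨ β ≠ 0 →
    ((Up fun r => α * p r + β * q r) ∨ Up fun r => -(α * p r + β * q r)) ∧
      ¬((Up fun r => α * p r + β * q r) ∧ Up fun r => -(α * p r + β * q r))) : False := by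
  have h' := fun t : ℝ => h (Real.cos t) (Real.sin t) (by
    by_contra hh
    push Not at hh
    have := Real.cos_sq_add_sin_sq t
    rw [hh.1, hh.2] at this
    norm_num at this)
  have o1 := k3_up_open (p := fun t r => Real.cos t * p r + Real.sin t * q r) fun r => by fun_prop
  have o2 := k3_up_open (p := fun t r => -(Real.cos t * p r + Real.sin t * q r)) fun r => by fun_prop
  have key := isPreconnected_univ (α := ℝ) _ _ o1 o2 fun t _ => (h' t).1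
  have e1 : (fun r => Real.cos Real.pi * p r + Real.sin Real.pi * q r) =
      fun r => -(Real.cos 0 * p r + Real.sin 0 * q r) := by
    funext r
    simp
  have e2 : (fun r => -(Real.cos Real.pi * p r + Real.sin Real.pi * q r)) =
      fun r => Real.cos 0 * p r + Real.sin 0 * q r := by
    funext r
    simp
  rcases (h' 0).1 with h0 | h0
  · obtain ⟨t, -, ht⟩ := key ⟨0, trivial, h0⟩ ⟨Real.pi, trivial, by rw [mem_ofPred_eq, e2]; exact h0⟩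
    exact (h' t).2 ht
  · obtain ⟨t, -, ht⟩ := key ⟨Real.pi, trivial, by rw [mem_ofPred_eq, e1]; exact h0⟩ ⟨0, trivial, h0⟩
    exact (h' t).2 ht

end Crest.Agent.R335
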