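import Crest.Agent.R335.K2
import Crest.Agent.R335.K3_b
import Crest.Agent.R335.K3_c

/-!
# R335/K3_d: ordered signs on the plane, at most one even orbital
-/

set_option autoImplicit false

namespace Crest.Agent.R335

open MeasureTheory Set Filter Topology
open scoped Gradient RealInnerProductSpace ENNReal ContDiff
open Crest.MathPhysics.ThreeBody

variable {k b L C c e1 e2 : ℝ} {R d V0 S v φ u f g : E3 → ℝ} {GR Gd Gφ Gu G K : E3 → E3}

theorem k3_even_lin (hf : Even3 f) (hg : Even3 g) (α β : ℝ) : Even3 fun x => α * f x + β * g x :=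
  fun T hT x hx => by simp only [hf T hT x hx, hg T hT x hx]

theorem k3_even_neg (hf : Even3 f) : Even3 fun x => -f x := fun T hT x hx => by simp only [hf T hT x hx]

theorem k3_orb_neg (hv : FB v) (hR : ∀ x, 0 ≤ R x) (hf : Orb v e2 R f G) :
    Orb v e2 R (fun x => -f x) fun x => -G x := by
  simpa using Orb.lin hv hR hf hf (-1) 0

theorem k3_pt_cont (hc : ContinuousOn f offA) : ContinuousOn (fun p : ℝ × ℝ => f (pt p.1 p.2)) {p | 0 < p.1} :=
  hc.comp continuous_pt.continuousOn fun p hp => k3_pt_off hp p.2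

theorem k3_pt_even (he : Even3 f) (ρ z : ℝ) (h : 0 < ρ) : f (pt ρ (-z)) = f (pt ρ z) := by
  rw [he.eq_pt (k3_pt_off h (-z)), he.eq_pt (k3_pt_off h z), cyl_pt h.le, cyl_pt h.le, pt_2, pt_2, abs_neg]

theorem k3_pos_plane (ho : OB v e1 e2 φ Gφ) (hs : SymV v) (hu : OddU v e2 R u Gu) (hf : Eig v e2 f G)
    (hc : ContinuousOn f offA) (he : Even3 f) (h : ∃ x ∈ offA, 0 < f x) : ∃ r, 0 < r ∧ 0 < f (pt r 0) := by
  obtain ⟨x, hx, hx0⟩ := h
  exact k3_axis (g := fun p => f (pt p.1 p.2)) (k3_pt_even he) (k3_conn ho hs hu hf hc he) (p := (cyl x, x 2)) hx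
    (by rw [← k3_eq_pt he hx] at hx0; exact hx0)

theorem k3_up (ho : OB v e1 e2 φ Gφ) (hs : SymV v) (hu : OddU v e2 R u Gu) (hf : Eig v e2 f G)
    (hc : ContinuousOn f offA) (he : Even3 f) (h : ∃ x ∈ offA, f x ≠ 0) :
    (Up fun r => f (pt r 0)) ∨ Up fun r => -f (pt r 0) := by
  obtain ⟨h1, x, hx, hx0⟩ := k3_signs ho hf hc h
  obtain ⟨r, hr, hr0⟩ := k3_pos_plane ho hs hu (k3_eig_neg (FB.of_sumClass ho.cls) hf) hc.neg (k3_even_neg he)
    ⟨x, hx, neg_pos.2 hx0⟩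
  exact k3_up_or (k3_pos_plane ho hs hu hf hc he h1) ⟨r, hr, neg_pos.1 hr0⟩

theorem k3_not_alt (h : Tail k b L C c R GR d Gd V0 S) (ho : OB v e1 e2 φ Gφ) (hs : SymV v)
    (hu : OddU v e2 R u Gu) (hk : SubS univ (fun x => v x - e2) 0 R GR) (hf : Orb v e2 R f G) (he : Even3 f) :
    ¬Alt fun r => f (pt r 0) := by
  rintro ⟨r₀, r₁, r₂, h0, h01, h12, g0, g1, g2⟩
  have hN := k3_conn ho hs hu (k3_eig_neg (FB.of_sumClass ho.cls) hf.eig) hf.cont.neg (k3_even_neg he)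
  simp only [neg_pos] at hN
  obtain ⟨L', hL', H⟩ := k3_plane (g := fun p => f (pt p.1 p.2)) (k3_pt_cont hf.cont) (k3_pt_even he)
    (k3_conn ho hs hu hf.eig hf.cont he) hN h0 h01 h12 g0 g1 g2
  have hcyl : ∀ x : E3, L' < x 0 → L' < cyl x := fun x hx =>
    hx.trans_le (Real.le_sqrt_of_sq_le (by nlinarith [sq_nonneg (x 1)]))
  have hoff : ∀ x : E3, L' < x 0 → x ∈ offA := fun x hx => hL'.trans_lt (hcyl x hx)
  have h1 := no_pos h ho.cls hs hk hf hL' fun x hx => by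
    rw [← k3_eq_pt he (hoff x hx)]
    exact H _ _ (hcyl x hx)
  have h2 := k3_ucp ho.cls hs hu hf.eig hf.cont (fun T hT => he T (Or.inl hT)) (V := {x : E3 | L' < x 0})
    (isOpen_lt continuous_const (by fun_prop)) ⟨pt (L' + 1) 0, lt_add_one L'⟩ hoff (fun x hx => hx) h1
  exact g0.ne' (h2 _ (k3_pt_off h0 0))

theorem k3_not_both (h : Tail k b L C c R GR d Gd V0 S) (ho : OB v e1 e2 φ Gφ) (hs : SymV v)
    (hu : OddU v e2 R u Gu) (hk : SubS univ (fun x => v x - e2) 0 R GR) (hf : Orb v e2 R f G) (he : Even3 f) :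
    ¬((Up fun r => f (pt r 0)) ∧ Up fun r => -f (pt r 0)) := fun hh =>
  (k3_alt_or hh.1 hh.2).elim (k3_not_alt h ho hs hu hk hf he)
    (k3_not_alt h ho hs hu hk (k3_orb_neg (FB.of_sumClass ho.cls) h.R0 hf) (k3_even_neg he))

theorem k3_dep (h : Tail k b L C c R GR d Gd V0 S) (ho : OB v e1 e2 φ Gφ) (hs : SymV v)
    (hu : OddU v e2 R u Gu) (hk : SubS univ (fun x => v x - e2) 0 R GR) (hf : Orb v e2 R f G) (he : Even3 f)
    (hg : Orb v e2 R g K) (hge : Even3 g) (hne : ∃ x ∈ offA, g x ≠ 0) : ∃ a : ℝ, ∀ x ∈ offA, f x = a * g x := by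
  have : ∃ α β : ℝ, (α ≠ 0 ∨ β ≠ 0) ∧ ∀ x ∈ offA, α * f x + β * g x = 0 := by
    by_contra hh
    refine k3_dim (p := fun r => f (pt r 0)) (q := fun r => g (pt r 0)) fun α β hαβ => ?_
    have h1 := Orb.lin (FB.of_sumClass ho.cls) h.R0 hf hg α β
    have h2 := k3_even_lin he hge α β
    refine ⟨k3_up ho hs hu h1.eig h1.cont h2 ?_, k3_not_both h ho hs hu hk h1 h2⟩
    by_contra h3
    exact hh ⟨α, β, hαβ, fun x hx => by_contra fun h4 => h3 ⟨x, hx, h4⟩⟩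
  obtain ⟨α, β, hαβ, H⟩ := this
  obtain ⟨y, hy, hy0⟩ := hne
  have hα : α ≠ 0 := by
    rintro rfl
    have h1 := H y hy
    rw [zero_mul, zero_add] at h1
    exact hαβ.elim (fun h => h rfl) fun h => mul_ne_zero h hy0 h1
  refine ⟨-β / α, fun x hx => ?_⟩
  have h1 := H x hx
  field_simp
  linarith

/-- an even orbital with ordered signs -/
theorem k3_ord (h : Tail k b L C c R GR d Gd V0 S) (ho : OB v e1 e2 φ Gφ) (hs : SymV v)
    (hu : OddU v e2 R u Gu) (hk : SubS univ (fun x => v x - e2) 0 R GR) (hf : Orb v e2 R f G) (he : Even3 f)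
    (hup : Up fun r => f (pt r 0)) :
    (∀ r r', 0 < r → 0 < r' → f (pt r 0) < 0 → 0 < f (pt r' 0) → r < r') ∧
      ∃ L', ∀ r, L' ≤ r → 0 ≤ f (pt r 0) := by
  have h1 : ∀ r r', 0 < r → 0 < r' → f (pt r 0) < 0 → 0 < f (pt r' 0) → r < r' := fun r r' hr hr' h2 h3 => by
    rcases lt_trichotomy r r' with h4 | rfl | h4
    · exact h4
    · exact absurd h2 (lt_asymm h3)
    · exact absurd ⟨hup, r', r, hr', h4, neg_lt_zero.2 h3, neg_pos.2 h2⟩ (k3_not_both h ho hs hu hk hf he)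
  obtain ⟨a, a', ha, haa, -, h2⟩ := hup
  refine ⟨h1, a', fun r hr => by_contra fun h3 => ?_⟩
  exact absurd (h1 r a' ((ha.trans haa).trans_le hr) (ha.trans haa) (not_le.1 h3) h2) (not_lt.2 hr)

/-- the family of even orbitals is replaced by one orbital -/
theorem k3_one (h : Tail k b L C c R GR d Gd V0 S) {ψ : ℕ → E3 → ℝ} {Gψ : ℕ → E3 → E3}
    (hk : KS2 v e1 e2 R φ Gφ u Gu ψ Gψ) : ∃ (f : E3 → ℝ) (G : E3 → E3), Orb v e2 R f G ∧ Even3 f ∧
      (∀ᵐ x, R x ^ 2 = 2 * φ x ^ 2 + u x ^ 2 + f x ^ 2) ∧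
      (∀ r r', 0 < r → 0 < r' → f (pt r 0) < 0 → 0 < f (pt r' 0) → r < r') ∧
      ∃ L', ∀ r, L' ≤ r → 0 ≤ f (pt r 0) := by
  have hv := FB.of_sumClass hk.ob.cls
  have hK := hk.kato GR h.hR
  by_cases hz : ∃ j, ∃ x ∈ offA, ψ j x ≠ 0
  · obtain ⟨j, hj⟩ := hz
    obtain ⟨g, K, hg, hge, hne, hup⟩ : ∃ (g : E3 → ℝ) (K : E3 → E3), Orb v e2 R g K ∧ Even3 g ∧
        (∃ x ∈ offA, g x ≠ 0) ∧ Up fun r => g (pt r 0) := by
      rcases k3_up hk.ob hk.sv hk.ou (hk.oψ j).eig (hk.oψ j).cont (hk.evψ j) hj with h1 | h1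
      · exact ⟨_, _, hk.oψ j, hk.evψ j, hj, h1⟩
      · obtain ⟨x, hx, hx0⟩ := hj
        exact ⟨_, _, k3_orb_neg hv h.R0 (hk.oψ j), k3_even_neg (hk.evψ j), ⟨x, hx, neg_ne_zero.2 hx0⟩, h1⟩
    choose a ha using fun i => k3_dep h hk.ob hk.sv hk.ou hK (hk.oψ i) (hk.evψ i) hg hge hne
    have hd : ∀ᵐ x, HasSum (fun i => a i ^ 2 * g x ^ 2) (R x ^ 2 - 2 * φ x ^ 2 - u x ^ 2) := by
      filter_upwards [hk.dens, ae_offA] with x hx hx'
      simpa only [ha _ x hx', mul_pow] using hx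
    have hsum : Summable fun i => a i ^ 2 := by
      by_contra hns
      obtain ⟨y, hy, hy0⟩ := hne
      refine hy0 (k3_zero hg.cont ?_ y hy)
      filter_upwards [hd] with x hx
      by_contra hx0
      exact hns ((summable_mul_right_iff (pow_ne_zero 2 hx0)).1 hx.summable)
    set s := ∑' i, a i ^ 2 with hs
    have hs0 : 0 ≤ s := tsum_nonneg fun i => sq_nonneg _
    obtain ⟨h1, L', h2⟩ := k3_ord h hk.ob hk.sv hk.ou hK hg hge hup
    refine ⟨_, _, Orb.lin hv h.R0 hg hg (√s) 0, k3_even_lin hge hge _ _, ?_, fun r r' hr hr' h3 h4 => ?_,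
      L', fun r hr => ?_⟩
    · filter_upwards [hd] with x hx
      have := hx.unique (hsum.hasSum.mul_right (g x ^ 2))
      rw [zero_mul, add_zero, mul_pow, Real.sq_sqrt hs0]
      linarith
    · rw [zero_mul, add_zero] at h3 h4
      exact h1 r r' hr hr' (neg_of_mul_neg_left (mul_comm (√s) _ ▸ h3) (Real.sqrt_nonneg s))
        (pos_of_mul_pos_left (mul_comm (√s) _ ▸ h4) (Real.sqrt_nonneg s))
    · rw [zero_mul, add_zero]
      exact mul_nonneg (Real.sqrt_nonneg s) (h2 r hr)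
  · push Not at hz
    refine ⟨ψ 0, Gψ 0, hk.oψ 0, hk.evψ 0, ?_, fun r r' hr _ h1 _ => absurd (hz 0 _ (k3_pt_off hr 0)) h1.ne,
      1, fun r hr => (hz 0 _ (k3_pt_off (one_pos.trans_le hr) 0)).ge⟩
    filter_upwards [hk.dens, ae_offA] with x hx hx'
    simp only [hz _ x hx', zero_pow two_ne_zero] at hx ⊢
    have := hx.unique hasSum_zero
    linarith

end Crest.Agent.R335
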