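import Crest.Agent.R335.K2
import Crest.Agent.R335.UCP
import Crest.Agent.R335.Cross
import Crest.Agent.R335.K3_d

/-!
# R335/K3: Courant's theorem, ordered signs, at most one even orbital (SUB-LEAD part)

`E'` = finite linear combinations of the `ψ_j` (`Orb.lin`, `Even3`).  For `f ∈ E'` put `f̃ (ρ,z) = f (pt ρ z)` on `H = {ρ > 0}`, `p r = f̃ (r,0)`.
1. Pieces.  For a union `D` of components of `{f̃ > 0}` (or `< 0`) in `H`, `f 1_D̂ ∈ H¹` (`D̂ = {x | (cyl x, x 2) ∈ D}`; `H1loc.piece` for `(f - ε)₊`, `H1loc.h1_offA`,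
   `H1.of_dominated`), it is continuous off the axis, and `qf = e2 nsq` (test the equation with `(f - ε)₊ 1_D̂`).
2. Courant.  `f ≠ 0` takes both signs (`⊥ φ > 0`).  Three components `D₁, D₂, D₃` give `χ = α f 1_{D₁} + β f 1_{D₂} ⊥ φ`, `χ ∈ E₂` (`euler_rank_one`), `χ = 0` on `D̂₃`.  `ucp` (after a
   reflection) gives `χ = 0` on one half space; then `χ - χ∘refl` is odd with energy `e2`, hence an eigenfunction, and so is `χ + χ∘refl`-free argument: `χ` itself is an eigenfunction which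
   vanishes on a half space; `|χ| sgn z`-extension is in `E₂`, positive or zero on the other half space (`pos_or_zero`), so `χ` has a sign; `χ ⊥ φ` gives `χ = 0`.  So `{f̃ > 0}`, `{f̃ < 0}`
   are connected, hence path connected (open subsets of the plane).
3. `p` takes both signs: if `p ≤ 0` then `ξ = f₊ 1_{z > 0} ∈ H¹` (piece), `qf = e2 nsq`, its odd extension is in `E₂`, `pos_or_zero` on the half space: `ξ = 0` or `f > 0` a.e.; both are impossible.
4. No alternation `p r₀ > 0 > p r₁`, `p r₂ > 0`, `r₀ < r₁ < r₂`: join `(r₀,0)`, `(r₂,0)` in `{f̃ > 0}`, reflect into `z ≥ 0` (`f` is even).  Any point of `{f̃ < 0}` is joined to `(r₁,0)`; if it has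
   `ρ` larger than the path, continue vertically upwards: `cross` gives a contradiction.  So `f ≥ 0` on `{x > L'}`, `no_pos` and `ucp` give `f = 0`.  The same for `-f`.
   Hence `f ≠ 0` is of type I (`p r < 0 < p r' → r < r'`) or of type II (`→ r' < r`), not both.
5. If `f₁, f₂ ∈ E'` were independent, the type of `cos t f₁ + sin t f₂` would be locally constant in `t` and change at `t = π`.  So all `ψ_j = c_j ψ₀` off the axis; `ψ = ± √(∑ c_j²) ψ₀`
   of type I (or `ψ = 0`).  `farp`: beyond a point with `p > 0`.  `ulow` from `K2`, `Tail.mono`.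
-/

set_option autoImplicit false

namespace Crest.Agent.R335

open MeasureTheory Set Filter Topology
open scoped Gradient RealInnerProductSpace ENNReal ContDiff
open Crest.MathPhysics.ThreeBody

variable {k b L C c e1 e2 : ℝ} {R d V0 S v φ u ψ : E3 → ℝ} {GR Gd Gφ Gu Gψ : E3 → E3}


theorem red_of_ks2 (h : Tail k b L C c R GR d Gd V0 S) {ψ : ℕ → E3 → ℝ} {Gψ : ℕ → E3 → E3}
    (hk : KS2 v e1 e2 R φ Gφ u Gu ψ Gψ) : ∃ (L' c' : ℝ) (ψ₀ : E3 → ℝ) (G₀ : E3 → E3),
      Red k b L' C c' R GR d Gd V0 S v e1 e2 φ Gφ u Gu ψ₀ G₀ := by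
  obtain ⟨f, G, hf, he, hd, ho, L1, h1⟩ := k3_one h hk
  have hK := hk.kato GR h.hR
  obtain ⟨c', L2, hc', h2⟩ := ulow h hk.ob.cls hK hk.ou
  refine ⟨max L (max L1 L2), min c c', f, G,
    h.mono (le_max_left _ _) (min_le_left _ _) (lt_min h.cpos hc'), hk.ob.cls, hk.sv, hk.ob.lt, hk.oφ, hk.evφ,
    hk.posφ, hk.ou, hf, he, hd, hK, fun x hx h3 h4 => ?_, ho,
    fun r hr => h1 r (((le_max_left _ _).trans (le_max_right _ _)).trans hr)⟩
  refine le_trans ?_ (h2 x (((le_max_right _ _).trans (le_max_right _ _)).trans hx) h3 h4)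
  have hρ : 0 < cyl x := (one_pos.trans_le h.Lge).trans_le ((le_max_left _ _).trans hx)
  have hz : 0 ≤ x 2 := le_trans (div_nonneg (Real.rpow_nonneg hρ.le _) (by norm_num)) h3
  have hg : 0 < gfun k b x := gfun_pos k b (norm_pos_iff.1 (hρ.trans_le (cyl_le_norm x)))
  exact mul_le_mul_of_nonneg_right (mul_le_mul_of_nonneg_right (min_le_right _ _) hz) hg.le

end Crest.Agent.R335
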