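import Crest.Agent.R335.Lib

/-!
# R335/K3_a: pieces of a continuous eigenfunction
-/

set_option autoImplicit false

namespace Crest.Agent.R335

open MeasureTheory Set Filter Topology
open scoped Gradient RealInnerProductSpace ENNReal ContDiff
open Crest.MathPhysics.ThreeBody

variable {v f : E3 → ℝ} {G : E3 → E3} {e : ℝ} {A B : Set E3}

/-- `A` and `B` are complementary unions of components of `{f > 0}` off the axis -/
structure Piece (f : E3 → ℝ) (A B : Set E3) : Prop where
  oA : IsOpen A
  oB : IsOpen B
  dis : ∀ x ∈ A, x ∉ B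
  un : ∀ x, (x ∈ A ∨ x ∈ B) ↔ x ∈ offA ∧ 0 < f x

theorem Piece.symm (h : Piece f A B) : Piece f B A :=
  ⟨h.oB, h.oA, fun x hB hA => h.dis x hA hB, fun x => or_comm.trans (h.un x)⟩

theorem Piece.pos (h : Piece f A B) {x : E3} (hx : x ∈ A) : 0 < f x := ((h.un x).1 (Or.inl hx)).2

theorem Piece.off (h : Piece f A B) {x : E3} (hx : x ∈ A) : x ∈ offA := ((h.un x).1 (Or.inl hx)).1

theorem k3a_eps (h : Piece f A B) (hf : H1 f G) (hc : ContinuousOn f offA) {ε : ℝ} (hε : 0 < ε) :
    H1 (A.indicator fun x => max (f x - ε) 0)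
      ((A ∩ {x | max (f x - ε) 0 ≠ 0}).indicator fun x => if ε < f x then G x else 0) := by
  have h1 := hf.pos_sub hε.le
  have h2 := (h1.loc offA).piece isOpen_offA (A := A) (fun x hx => by
    by_cases hp : 0 < f x
    · rcases (h.un x).2 ⟨hx, hp⟩ with hA | hB
      · exact Or.inl (by filter_upwards [h.oA.mem_nhds hA] with y hy hy' using absurd hy hy')
      · exact Or.inr (by filter_upwards [h.oB.mem_nhds hB] with y hy hy' using absurd hy (h.dis y hy'))
    · have h3 : ∀ᶠ y in 𝓝 x, f y < ε :=
        (hc.continuousAt (isOpen_offA.mem_nhds hx)).eventually (gt_mem_nhds ((not_lt.1 hp).trans_lt hε))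
      exact Or.inl (by filter_upwards [h3] with y hy _ using max_eq_right (by linarith)))
  have h4 : ((A ∩ {x | max (f x - ε) 0 ≠ 0}).indicator fun x => if ε < f x then G x else 0) =
      A.indicator fun x => if ε < f x then G x else 0 := by
    funext x
    by_cases hA : x ∈ A
    · by_cases hx : ε < f x
      · rw [indicator_of_mem hA, indicator_of_mem]
        exact ⟨hA, (lt_max_of_lt_left (sub_pos.2 hx)).ne'⟩
      · rw [indicator_of_mem hA, if_neg hx, indicator_apply_eq_zero]
        exact fun _ => if_neg hx
    · rw [indicator_of_notMem hA, indicator_of_notMem fun h' => hA h'.1]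
  refine h2.h1_offA (h1.mf.indicator h.oA.measurableSet) ?_
  rw [h4]
  exact h1.mG.indicator h.oA.measurableSet

theorem Piece.h1 (h : Piece f A B) (hf : H1 f G) (hc : ContinuousOn f offA) :
    H1 (A.indicator f) (A.indicator G) := by
  have hε : ∀ n : ℕ, (0 : ℝ) < 1 / ((n : ℝ) + 1) := fun n => Nat.one_div_pos_of_nat
  have ht := tendsto_one_div_add_atTop_nhds_zero_nat (𝕜 := ℝ)
  refine H1.of_dominated (b := fun x => |f x| + ‖G x‖) (fun n => k3a_eps h hf hc (hε n))
    (hf.mf.abs.add hf.mG.norm) (fun n => Eventually.of_forall fun x => ⟨?_, ?_⟩)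
    (Eventually.of_forall fun x => ?_) (Eventually.of_forall fun x => ?_)
  · refine le_add_of_le_of_nonneg ?_ (norm_nonneg _)
    by_cases hA : x ∈ A
    · rw [indicator_of_mem hA, abs_of_nonneg (le_max_right _ _)]
      exact max_le (by linarith [le_abs_self (f x), hε n]) (abs_nonneg _)
    · rw [indicator_of_notMem hA, abs_zero]
      exact abs_nonneg _
  · refine le_add_of_nonneg_of_le (abs_nonneg _) ((norm_indicator_le_norm_self _ _).trans ?_)
    split_ifs
    · exact le_rfl
    · rw [norm_zero]
      exact norm_nonneg _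
  · by_cases hA : x ∈ A
    · simp only [indicator_of_mem hA]
      have h1 := (tendsto_const_nhds (x := f x)).sub ht |>.max (tendsto_const_nhds (x := (0 : ℝ)))
      rwa [sub_zero, max_eq_left (h.pos hA).le] at h1
    · simp only [indicator_of_notMem hA]
      exact tendsto_const_nhds
  · by_cases hA : x ∈ A
    · rw [indicator_of_mem hA]
      refine tendsto_const_nhds.congr' ?_
      filter_upwards [ht.eventually (gt_mem_nhds (h.pos hA))] with n hn
      rw [indicator_of_mem, if_pos hn]
      exact ⟨hA, (lt_max_of_lt_left (sub_pos.2 hn)).ne'⟩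
    · rw [indicator_of_notMem hA]
      refine tendsto_const_nhds.congr fun n => ?_
      rw [indicator_of_notMem fun h' => hA h'.1]

theorem Piece.cont (h : Piece f A B) (hc : ContinuousOn f offA) : ContinuousOn (A.indicator f) offA := by
  intro x hx
  have hx' := hc.continuousAt (isOpen_offA.mem_nhds hx)
  refine ContinuousAt.continuousWithinAt ?_
  by_cases hp : 0 < f x
  · rcases (h.un x).2 ⟨hx, hp⟩ with hA | hB
    · refine hx'.congr ?_
      filter_upwards [h.oA.mem_nhds hA] with y hy using (indicator_of_mem hy f).symm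
    · refine (continuousAt_const (y := (0 : ℝ))).congr ?_
      filter_upwards [h.oB.mem_nhds hB] with y hy using (indicator_of_notMem (h.symm.dis y hy) f).symm
  · have hA : x ∉ A := fun hA => hp (h.pos hA)
    rw [ContinuousAt, indicator_of_notMem hA]
    have h1 : Tendsto (fun y => max (f y) 0) (𝓝 x) (𝓝 0) := by
      have := hx'.tendsto.max (tendsto_const_nhds (x := (0 : ℝ)))
      rwa [max_eq_right (not_lt.1 hp)] at this
    refine squeeze_zero (fun y => ?_) (fun y => ?_) h1
    · exact indicator_nonneg (fun y hy => (h.pos hy).le) y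
    · by_cases hy : y ∈ A
      · rw [indicator_of_mem hy]
        exact le_max_left _ _
      · rw [indicator_of_notMem hy]
        exact le_max_right _ _

theorem Piece.qf_eq (h : Piece f A B) (hf : Eig v e f G) (hc : ContinuousOn f offA) :
    qf v (A.indicator f) (A.indicator G) = e * nsq (A.indicator f) := by
  have h1 := hf.eq _ _ (h.h1 hf.h1 hc)
  unfold bf ip at h1
  unfold qf nsq
  have e1 : ∫ x, ‖A.indicator G x‖ ^ 2 = ∫ x, ⟪G x, A.indicator G x⟫ := by
    refine integral_congr_ae (Eventually.of_forall fun x => ?_)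
    by_cases hx : x ∈ A <;> simp [hx]
  have e2 : ∫ x, v x * A.indicator f x ^ 2 = ∫ x, v x * (f x * A.indicator f x) := by
    refine integral_congr_ae (Eventually.of_forall fun x => ?_)
    by_cases hx : x ∈ A <;> simp [hx, sq]
  have e3 : ∫ x, A.indicator f x ^ 2 = ∫ x, f x * A.indicator f x := by
    refine integral_congr_ae (Eventually.of_forall fun x => ?_)
    by_cases hx : x ∈ A <;> simp [hx, sq]
  rw [e1, e2, e3, h1]

theorem Piece.qf_two (h : Piece f A B) (hv : FB v) (hf : Eig v e f G) (hc : ContinuousOn f offA) (α β : ℝ) :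
    qf v (fun x => α * A.indicator f x + β * B.indicator f x)
        (fun x => α • A.indicator G x + β • B.indicator G x) =
      e * nsq fun x => α * A.indicator f x + β * B.indicator f x := by
  have hA := h.h1 hf.h1 hc
  have hB := h.symm.h1 hf.h1 hc
  have z1 : ∀ x, A.indicator f x * B.indicator f x = 0 := fun x => by
    by_cases hx : x ∈ A
    · rw [indicator_of_notMem (h.dis x hx), mul_zero]
    · rw [indicator_of_notMem hx, zero_mul]
  have z2 : ∀ x, ⟪A.indicator G x, B.indicator G x⟫ = 0 := fun x => by
    by_cases hx : x ∈ A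
    · rw [indicator_of_notMem (h.dis x hx), inner_zero_right]
    · rw [indicator_of_notMem hx, inner_zero_left]
  have e1 : bf v (A.indicator f) (A.indicator G) (B.indicator f) (B.indicator G) = 0 := by
    simp only [bf, z1, z2, mul_zero, integral_zero, add_zero]
  have e2 : ip (A.indicator f) (B.indicator f) = 0 := by simp only [ip, z1, integral_zero]
  rw [qf_lin hv hA hB, nsq_lin hA.mf hB.mf, e1, e2, h.qf_eq hf hc, h.symm.qf_eq hf hc]
  ring

end Crest.Agent.R335
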