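import Crest.Agent.R335.M_Bnd2

/-!
# R335/M_Bnd: pointwise bounds (`Tail.cont_le` with `M = 1`, `Red.abs_u_le`, `Red.abs_psi_le`, `Red.ulow`)
-/

set_option autoImplicit false

namespace Crest.Agent.R335

open MeasureTheory Set Filter Topology
open scoped Gradient RealInnerProductSpace ENNReal ContDiff
open Crest.MathPhysics.ThreeBody

variable {k b L C c e1 e2 : ℝ} {R d V0 S v φ u ψ : E3 → ℝ} {GR Gd Gφ Gu Gψ : E3 → E3}

theorem m_bnd_lam {ρ : ℝ} (h : 1 ≤ ρ) : 1 / ρ ≤ lam ρ := by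
  have := Real.rpow_le_rpow_of_exponent_le h (by norm_num : (-1 : ℝ) ≤ -(3 / 5))
  rwa [Real.rpow_neg_one, ← one_div] at this

theorem m_bnd_g (k b : ℝ) {x : E3} {ρ : ℝ} (h1 : 1 ≤ ‖x‖) (h2 : ‖x‖ ≤ ρ ^ 2) :
    Real.exp (-(2 * |b - 2| * Real.log ρ)) * Real.exp (-k * ‖x‖) ≤ gfun k b x ∧
      gfun k b x ≤ Real.exp (2 * |b - 2| * Real.log ρ) * Real.exp (-k * ‖x‖) := by
  have h3 : 0 ≤ Real.log ‖x‖ := Real.log_nonneg h1
  have h4 : Real.log ‖x‖ ≤ 2 * Real.log ρ := by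
    have := Real.log_le_log (by linarith) h2
    rwa [Real.log_pow, Nat.cast_ofNat] at this
  have h5 : |Real.log ‖x‖ * (b - 2)| ≤ 2 * |b - 2| * Real.log ρ := by
    rw [abs_mul, abs_of_nonneg h3]
    have := mul_le_mul_of_nonneg_right h4 (abs_nonneg (b - 2))
    linarith
  unfold gfun
  rw [Real.rpow_def_of_pos (by linarith)]
  exact ⟨mul_le_mul_of_nonneg_right (Real.exp_le_exp.2 (abs_le.1 h5).1) (Real.exp_pos _).le,
    mul_le_mul_of_nonneg_right (Real.exp_le_exp.2 (abs_le.1 h5).2) (Real.exp_pos _).le⟩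

theorem m_bnd_both (h : Red k b L C c R GR d Gd V0 S v e1 e2 φ Gφ u Gu ψ Gψ) {x : E3} (hx : L + 1 ≤ cyl x) {B : ℝ}
    (hB : |x 2| + (1 + |x 2|) / ‖x‖ ^ 2 ≤ B) :
    |u x| ≤ C * B * gfun k b x ∧ |ψ x| ≤ C * B * gfun k b x := by
  have hL := h.tail.Lge
  have hC := h.tail.Cge
  have hn := cyl_le_norm x
  have ho : x ∈ offA := show 0 < cyl x by linarith
  have hg : 0 < gfun k b x := gfun_pos k b (norm_pos_iff.1 (by linarith))
  have h1 := h.tail.cont_le h.ou.orb.cont zero_le_one (by simpa only [one_mul] using h.abs_u_le) x ho (by linarith)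
  have h2 := h.tail.cont_le h.oψ.cont zero_le_one (by simpa only [one_mul] using h.abs_psi_le) x ho (by linarith)
  have h3 : 1 * C * (|x 2| + (1 + |x 2|) / ‖x‖ ^ 2) * gfun k b x ≤ C * B * gfun k b x := by
    rw [one_mul]
    exact mul_le_mul_of_nonneg_right (mul_le_mul_of_nonneg_left hB (by linarith)) hg.le
  exact ⟨h1.trans h3, h2.trans h3⟩

theorem m_bnd_z {Y ρ z : ℝ} (hρ : 0 < ρ) (h1 : Y * Real.log ρ ≤ ρ / 64) (h2 : z ^ 2 ≤ Y * ρ * Real.log ρ) :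
    z ≤ ρ / 8 := by
  refine le_of_sq_le_sq ?_ (by positivity)
  have := mul_le_mul_of_nonneg_left h1 hρ.le
  nlinarith

/-- `(1 + z) / r² ≤ z + 1 / cyl²`, `1 / cyl² ≤ lam cyl ≤ 16 z` -/
theorem m_ratio (h : Red k b L C c R GR d Gd V0 S v e1 e2 φ Gφ u Gu ψ Gψ) : ∃ C₂ L' : ℝ, 0 < C₂ ∧ L ≤ L' ∧ ∀ x,
    L' ≤ cyl x → lam (cyl x) / 16 ≤ x 2 → |u x| ≤ C₂ * (x 2 * gfun k b x) ∧ |ψ x| ≤ C₂ * (x 2 * gfun k b x) := by
  have hL := h.tail.Lge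
  have hC := h.tail.Cge
  refine ⟨C * 18, L + 1, by linarith, by linarith, fun x hx hz => ?_⟩
  have hn := cyl_le_norm x
  have hl := m_bnd_lam (ρ := cyl x) (by linarith)
  have hp := lam_pos (ρ := cyl x) (by linarith)
  have hz0 : 0 < x 2 := by linarith
  have hB : |x 2| + (1 + |x 2|) / ‖x‖ ^ 2 ≤ 18 * x 2 := by
    rw [abs_of_pos hz0, add_div]
    have h1 : 1 / ‖x‖ ^ 2 ≤ 1 / cyl x := one_div_le_one_div_of_le (by linarith) (by nlinarith)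
    have h2 : x 2 / ‖x‖ ^ 2 ≤ x 2 := div_le_self hz0.le (by nlinarith)
    linarith
  obtain ⟨h1, h2⟩ := m_bnd_both h hx hB
  exact ⟨h1.trans_eq (by ring), h2.trans_eq (by ring)⟩

/-- `m_ratio`, `Red.ulow`; `z² ≤ Y ρ₀ log ρ₀ ≤ (ρ₀ / 2)²` for large `ρ₀` -/
theorem m_tau_le (h : Red k b L C c R GR d Gd V0 S v e1 e2 φ Gφ u Gu ψ Gψ) (Y : ℝ) : ∃ C' L' : ℝ, ∀ ρ₀ z, L' ≤ ρ₀ →
    lam ρ₀ ≤ z → z ^ 2 ≤ Y * ρ₀ * Real.log ρ₀ → |tau u ψ ρ₀ z| ≤ C' := by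
  obtain ⟨C₂, L₁, hC₂, hL₁, H⟩ := m_ratio h
  obtain ⟨L₂, hL₂, H₂⟩ := m_large Y
  have hc := h.tail.cpos
  refine ⟨C₂ / c, max L₁ L₂, fun ρ₀ z hρ hz hz2 => ?_⟩
  have h1 : L₁ ≤ ρ₀ := (le_max_left _ _).trans hρ
  have h2 : L₂ ≤ ρ₀ := (le_max_right _ _).trans hρ
  have hρ0 : 0 < ρ₀ := by linarith
  have hp := lam_pos hρ0
  have hz0 : 0 < z := by linarith
  have hz8 := m_bnd_z hρ0 (H₂ ρ₀ h2).2.2.2 hz2
  have e1 : cyl (pt ρ₀ z) = ρ₀ := cyl_pt hρ0.le z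
  have e2 : pt ρ₀ z 2 = z := pt_two _ _
  have h3 := (H (pt ρ₀ z) (by rw [e1]; exact h1) (by rw [e1, e2]; linarith)).2
  have h4 := h.ulow (pt ρ₀ z) (by rw [e1]; linarith) (by rw [e1, e2]; linarith) (by rw [e1, e2]; linarith)
  have hg : 0 < gfun k b (pt ρ₀ z) :=
    gfun_pos k b (norm_pos_iff.1 (by have := cyl_le_norm (pt ρ₀ z); linarith))
  rw [e2] at h3 h4
  have h5 : 0 < c * z * gfun k b (pt ρ₀ z) := by positivity
  unfold tau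
  rw [abs_div, abs_of_pos (h5.trans_le h4)]
  refine (div_le_div₀ (by positivity) h3 h5 h4).trans_eq ?_
  field_simp

/-- `Red.ulow` (`lam_anti`, `lam_half`), `‖x‖ - cyl x ≤ z² / (2 cyl x) ≤ |Y| log ρ₀` (`norm_sub_cyl`),
`‖x‖ ^ (b - 2) ≥ (3 ρ₀) ^ (-|b - 2|)`; constants are absorbed by one more power of `ρ₀` -/
theorem m_low (h : Red k b L C c R GR d Gd V0 S v e1 e2 φ Gφ u Gu ψ Gψ) (Y : ℝ) : ∃ N L' : ℝ, 0 ≤ N ∧ ∀ ρ₀ x, L' ≤ ρ₀ →
    ρ₀ / 2 ≤ cyl x → cyl x ≤ 2 * ρ₀ → lam ρ₀ / 8 ≤ x 2 → x 2 ^ 2 ≤ Y * ρ₀ * Real.log ρ₀ →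
      pe k (-N) ρ₀ (cyl x) ≤ u x := by
  obtain ⟨L₂, hL₂, H₂⟩ := m_large Y
  have hc := h.tail.cpos
  have hk := h.tail.kpos
  have hL := h.tail.Lge
  refine ⟨2 + 2 * |b - 2| + k * |Y|, L₂ + 2 * L + 8 / c, by positivity, fun ρ₀ x hρ h1 h2 hz hz2 => ?_⟩
  have h8 : 0 < 8 / c := by positivity
  have hρ0 : 0 < ρ₀ := by linarith
  have hp := lam_pos hρ0
  have hz0 : 0 < x 2 := by linarith
  obtain ⟨hlog, -, -, hY⟩ := H₂ ρ₀ (by linarith)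
  have hz8 := m_bnd_z hρ0 hY hz2
  have hl1 := lam_anti (half_pos hρ0) h1
  have hl2 := lam_half hρ0
  have h4 := h.ulow x (by linarith) (by linarith) (by linarith)
  refine le_trans ?_ h4
  have hn := cyl_le_norm x
  have hn2 := norm_le_cyl_add x
  rw [abs_of_pos hz0] at hn2
  have hg := (m_bnd_g k b (x := x) (ρ := ρ₀) (by linarith) (by nlinarith)).1
  have hcz : Real.exp (-(2 * Real.log ρ₀)) ≤ c * x 2 := by
    have e : Real.exp (-(2 * Real.log ρ₀)) = 1 / ρ₀ * (1 / ρ₀) := by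
      rw [Real.exp_neg, two_mul, Real.exp_add, Real.exp_log hρ0]
      field_simp
    have hl := m_bnd_lam (ρ := ρ₀) (by linarith)
    have h5 : 1 / ρ₀ ≤ c / 8 := by
      rw [div_le_div_iff₀ hρ0 (by norm_num)]
      have : 8 / c ≤ ρ₀ := by linarith
      rw [div_le_iff₀ hc] at this
      linarith
    rw [e]
    calc 1 / ρ₀ * (1 / ρ₀) ≤ c / 8 * (8 * x 2) :=
          mul_le_mul h5 (by linarith) (by positivity) (by positivity)
      _ = c * x 2 := by ring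
  have hd : ‖x‖ - cyl x ≤ |Y| * Real.log ρ₀ := by
    refine (norm_sub_cyl x (by linarith)).2.trans ?_
    rw [div_le_iff₀ (by linarith)]
    have h5 : Y * ρ₀ * Real.log ρ₀ ≤ |Y| * ρ₀ * Real.log ρ₀ :=
      mul_le_mul_of_nonneg_right (mul_le_mul_of_nonneg_right (le_abs_self Y) hρ0.le) (by linarith)
    have h6 : |Y| * Real.log ρ₀ * ρ₀ ≤ |Y| * Real.log ρ₀ * (2 * cyl x) :=
      mul_le_mul_of_nonneg_left (by linarith) (mul_nonneg (abs_nonneg _) (by linarith))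
    linarith
  calc pe k (-(2 + 2 * |b - 2| + k * |Y|)) ρ₀ (cyl x)
      ≤ Real.exp (-(2 * Real.log ρ₀)) * (Real.exp (-(2 * |b - 2| * Real.log ρ₀)) * Real.exp (-k * ‖x‖)) := by
        unfold pe
        rw [Real.rpow_def_of_pos hρ0, ← Real.exp_add, ← Real.exp_add, ← Real.exp_add, Real.exp_le_exp]
        have := mul_le_mul_of_nonneg_left hd hk.le
        linarith
    _ ≤ c * x 2 * gfun k b x := mul_le_mul hcz hg (by positivity) (by positivity)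

theorem m_up (h : Red k b L C c R GR d Gd V0 S v e1 e2 φ Gφ u Gu ψ Gψ) : ∃ N L' : ℝ, 0 ≤ N ∧ ∀ ρ₀ x, L' ≤ ρ₀ →
    ρ₀ / 4 ≤ cyl x → cyl x ≤ 4 * ρ₀ → |x 2| ≤ ρ₀ → |u x| ≤ pe k N ρ₀ (cyl x) ∧ |ψ x| ≤ pe k N ρ₀ (cyl x) := by
  have hk := h.tail.kpos
  have hL := h.tail.Lge
  have hC := h.tail.Cge
  refine ⟨2 + 2 * |b - 2|, 4 * (L + 1) + 3 * C, by positivity, fun ρ₀ x hρ h1 h2 hz => ?_⟩
  have hρ0 : 0 < ρ₀ := by linarith
  have hn := cyl_le_norm x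
  have hn2 := norm_le_cyl_add x
  have hB : |x 2| + (1 + |x 2|) / ‖x‖ ^ 2 ≤ 3 * ρ₀ := by
    have : (1 + |x 2|) / ‖x‖ ^ 2 ≤ 1 + |x 2| := div_le_self (by positivity) (by nlinarith)
    linarith
  have hg := (m_bnd_g k b (x := x) (ρ := ρ₀) (by linarith) (by nlinarith)).2
  have key : C * (3 * ρ₀) * gfun k b x ≤ pe k (2 + 2 * |b - 2|) ρ₀ (cyl x) := by
    have e : Real.exp (2 * Real.log ρ₀) = ρ₀ * ρ₀ := by rw [two_mul, Real.exp_add, Real.exp_log hρ0]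
    have h3 : C * (3 * ρ₀) ≤ Real.exp (2 * Real.log ρ₀) := by rw [e]; nlinarith
    calc C * (3 * ρ₀) * gfun k b x
        ≤ Real.exp (2 * Real.log ρ₀) * (Real.exp (2 * |b - 2| * Real.log ρ₀) * Real.exp (-k * ‖x‖)) :=
          mul_le_mul h3 hg (gfun_pos k b (norm_pos_iff.1 (by linarith))).le (Real.exp_pos _).le
      _ ≤ pe k (2 + 2 * |b - 2|) ρ₀ (cyl x) := by
        unfold pe
        rw [Real.rpow_def_of_pos hρ0, ← Real.exp_add, ← Real.exp_add, ← Real.exp_add, Real.exp_le_exp]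
        have := mul_le_mul_of_nonneg_left hn hk.le
        linarith
  obtain ⟨h3, h4⟩ := m_bnd_both h (x := x) (by linarith) hB
  exact ⟨h3.trans key, h4.trans key⟩

end Crest.Agent.R335
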