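import Crest.Agent.R335.M_Defs

/-!
# R335/M_Bnd2: mass and numbers
-/

set_option autoImplicit false

namespace Crest.Agent.R335

open MeasureTheory Set Filter Topology
open scoped Gradient RealInnerProductSpace ENNReal ContDiff
open Crest.MathPhysics.ThreeBody

variable {k b L C c e1 e2 : ℝ} {R d V0 S v φ u ψ : E3 → ℝ} {GR Gd Gφ Gu Gψ : E3 → E3}

/-- `Tail.mass_le`, `Red.abs_lv_le`; `ρ ^ N ≤ (2 ρ₀) ^ |N|` for `1 ≤ ρ ≤ 2 ρ₀` -/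
theorem m_mass (h : Red k b L C c R GR d Gd V0 S v e1 e2 φ Gφ u Gu ψ Gψ) (C' : ℝ) : ∃ C₁ P : ℝ, 0 ≤ C₁ ∧ 0 ≤ P ∧
    ∀ ρ₀ ρ s α, L + 1 ≤ ρ → ρ ≤ 2 * ρ₀ → (s = 1 ∨ s = -1) → |α| ≤ C' →
      ∫ x in {x | ρ ≤ cyl x}, lv u ψ s α x ^ 2 ≤ C₁ * ρ₀ ^ P * Real.exp (-2 * k * ρ) := by
  obtain ⟨C₂, N, hC₂, hN⟩ := h.tail.mass_le
  refine ⟨(1 + |C'|) ^ 2 * C₂ * 2 ^ |N|, |N|, by positivity, abs_nonneg _,
    fun ρ₀ ρ s α h1 h2 hs hα => ?_⟩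
  have hL := h.tail.Lge
  have hρ : 1 ≤ ρ := by linarith
  have hρ₀ : 0 ≤ ρ₀ := by linarith
  have iR : Integrable fun x => R x ^ 2 := h.tail.hR.mf.integrable_sq
  have a1 : ∫ x in {x | ρ ≤ cyl x}, lv u ψ s α x ^ 2
      ≤ ∫ x in {x | ρ ≤ cyl x}, (1 + |C'|) ^ 2 * R x ^ 2 := by
    refine integral_mono_of_nonneg (Eventually.of_forall fun x => sq_nonneg _)
      (iR.const_mul _).integrableOn (ae_restrict_of_ae ?_)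
    filter_upwards [h.abs_lv_le hs α] with x hx
    have b1 : |lv u ψ s α x| ≤ (1 + |C'|) * R x :=
      hx.trans (mul_le_mul_of_nonneg_right (by linarith [le_abs_self C']) (h.tail.R0 x))
    rw [← mul_pow, ← sq_abs (lv u ψ s α x)]
    exact pow_le_pow_left₀ (abs_nonneg _) b1 2
  rw [integral_const_mul] at a1
  have a2 : ρ ^ N ≤ 2 ^ |N| * ρ₀ ^ |N| := by
    rw [← Real.mul_rpow (by norm_num) hρ₀]
    exact (Real.rpow_le_rpow_of_exponent_le hρ (le_abs_self N)).trans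
      (Real.rpow_le_rpow (by linarith) h2 (abs_nonneg N))
  have a3 : C₂ * ρ ^ N * Real.exp (-2 * k * ρ) ≤ C₂ * (2 ^ |N| * ρ₀ ^ |N|) * Real.exp (-2 * k * ρ) := by
    gcongr
  calc _ ≤ _ := a1
    _ ≤ (1 + |C'|) ^ 2 * (C₂ * (2 ^ |N| * ρ₀ ^ |N|) * Real.exp (-2 * k * ρ)) :=
        mul_le_mul_of_nonneg_left ((hN ρ h1).trans a3) (sq_nonneg _)
    _ = _ := by ring

/-- `exp (-2 κ t) ≤ ρ₀ ^ (-2 κ N)`; take `2 κ N ≥ 2 P + 1` and `ρ₀ > C₁ / c₁` -/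
theorem m_num {κ c₁ : ℝ} (hκ : 0 < κ) (hc : 0 < c₁) (C₁ P : ℝ) : ∃ N L' : ℝ, 1 ≤ N ∧ ∀ ρ₀ t, L' ≤ ρ₀ →
    N * Real.log ρ₀ ≤ t → C₁ * ρ₀ ^ P * Real.exp (-2 * κ * t) < c₁ * ρ₀ ^ (-P) := by
  refine ⟨max 1 ((2 * P + 1) / (2 * κ)), max 1 (|C₁| / c₁ + 1), le_max_left _ _,
    fun ρ₀ t h1 h2 => ?_⟩
  have hρ1 : 1 ≤ ρ₀ := (le_max_left _ _).trans h1
  have hρ : 0 < ρ₀ := by linarith
  have hρ2 : |C₁| < c₁ * ρ₀ := by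
    have : |C₁| / c₁ < ρ₀ := by linarith [(le_max_right _ _).trans h1]
    rwa [div_lt_iff₀' hc] at this
  have hl : 0 ≤ Real.log ρ₀ := Real.log_nonneg hρ1
  have a1 : (2 * P + 1) / (2 * κ) * Real.log ρ₀ ≤ t :=
    (mul_le_mul_of_nonneg_right (le_max_right _ _) hl).trans h2
  have a2 : (2 * P + 1) * Real.log ρ₀ ≤ 2 * κ * t := by
    rw [div_mul_eq_mul_div, div_le_iff₀' (by positivity)] at a1
    exact a1
  have a3 : Real.exp (-2 * κ * t) ≤ ρ₀ ^ (-(2 * P + 1)) := by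
    rw [Real.rpow_def_of_pos hρ]
    exact Real.exp_le_exp.2 (by linarith)
  have a4 : ρ₀ ^ P * ρ₀ ^ (-(2 * P + 1)) * ρ₀ = ρ₀ ^ (-P) := by
    rw [← Real.rpow_add hρ, ← Real.rpow_add_one hρ.ne']
    congr 1
    ring
  have p1 : 0 < ρ₀ ^ P := Real.rpow_pos_of_pos hρ _
  have p2 : 0 < ρ₀ ^ (-(2 * P + 1)) := Real.rpow_pos_of_pos hρ _
  have p3 : 0 < Real.exp (-2 * κ * t) := Real.exp_pos _
  calc C₁ * ρ₀ ^ P * Real.exp (-2 * κ * t) ≤ |C₁| * ρ₀ ^ P * ρ₀ ^ (-(2 * P + 1)) := by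
        gcongr
        exact le_abs_self _
    _ = |C₁| * (ρ₀ ^ P * ρ₀ ^ (-(2 * P + 1))) := by ring
    _ < c₁ * ρ₀ * (ρ₀ ^ P * ρ₀ ^ (-(2 * P + 1))) := mul_lt_mul_of_pos_right hρ2 (mul_pos p1 p2)
    _ = c₁ * ρ₀ ^ (-P) := by rw [← a4]; ring

/-- powers of the logarithm are small -/
theorem m_large (B : ℝ) : ∃ L' : ℝ, 16 ≤ L' ∧ ∀ ρ₀, L' ≤ ρ₀ → 1 ≤ Real.log ρ₀ ∧
    B * Real.log ρ₀ ≤ ρ₀ ^ (1 / 4 : ℝ) ∧ ρ₀ ^ (1 / 4 : ℝ) ≤ ρ₀ / 8 ∧ B * Real.log ρ₀ ≤ ρ₀ / 64 := by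
  have e1 : ∀ᶠ ρ : ℝ in atTop, 1 ≤ Real.log ρ := Real.tendsto_log_atTop.eventually_ge_atTop 1
  have e2 := ((isLittleO_log_rpow_atTop (r := 1 / 4) (by norm_num)).const_mul_left B).bound one_pos
  have e3 : ∀ᶠ ρ : ℝ in atTop, 8 ≤ ρ ^ (3 / 4 : ℝ) :=
    (tendsto_rpow_atTop (by norm_num)).eventually_ge_atTop 8
  have e4 := (Real.isLittleO_log_id_atTop.const_mul_left B).bound (c := 1 / 64) (by norm_num)
  obtain ⟨L', hL'⟩ := eventually_atTop.1 (e1.and (e2.and (e3.and e4)))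
  refine ⟨max 16 L', le_max_left _ _, fun ρ hρ => ?_⟩
  obtain ⟨a1, a2, a3, a4⟩ := hL' ρ ((le_max_right _ _).trans hρ)
  have h0 : 0 < ρ := by linarith [(le_max_left _ _).trans hρ]
  have p1 : 0 < ρ ^ (1 / 4 : ℝ) := Real.rpow_pos_of_pos h0 _
  rw [one_mul, Real.norm_of_nonneg p1.le] at a2
  rw [id, Real.norm_of_nonneg h0.le] at a4
  refine ⟨a1, (Real.le_norm_self _).trans a2, ?_, by linarith [Real.le_norm_self (B * Real.log ρ)]⟩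
  have a5 : ρ ^ (1 / 4 : ℝ) * ρ ^ (3 / 4 : ℝ) = ρ := by
    rw [← Real.rpow_add h0]
    norm_num
  nlinarith

end Crest.Agent.R335
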