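import Crest.Agent.R335.M_Bnd2

/-!
# R335/M_Bnd3: consequences of `Post`
-/

set_option autoImplicit false

namespace Crest.Agent.R335

open MeasureTheory Set Filter Topology
open scoped Gradient RealInnerProductSpace ENNReal ContDiff
open Crest.MathPhysics.ThreeBody

variable {k b L C c e1 e2 : ℝ} {R d V0 S v φ u ψ : E3 → ℝ} {GR Gd Gφ Gu Gψ : E3 → E3}

theorem m_bnd3_low (h : Red k b L C c R GR d Gd V0 S v e1 e2 φ Gφ u Gu ψ Gψ) {x : E3} (hx : x ∈ offA)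
    (hL : L < ‖x‖) : (c / ‖x‖ ^ 3 * gfun k b x) ^ 2 ≤ 2 * φ x ^ 2 + u x ^ 2 + ψ x ^ 2 := by
  have hL1 := h.tail.Lge
  have hne : ∀ y ∈ offA ∩ far L, y ≠ 0 := fun y hy h0 => by
    have : L < ‖y‖ := hy.2
    rw [h0, norm_zero] at this
    linarith
  refine le_of_ae_le (U := offA ∩ far L) (isOpen_offA.inter (isOpen_far L))
    (f := fun x => (c / ‖x‖ ^ 3 * gfun k b x) ^ 2) (g := fun x => 2 * φ x ^ 2 + u x ^ 2 + ψ x ^ 2) ?_ ?_ ?_ x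
    ⟨hx, hL⟩
  · refine ((continuousOn_const.div (continuous_norm.pow 3).continuousOn fun y hy =>
      pow_ne_zero 3 (norm_ne_zero_iff.2 (hne y hy))).mul ((continuousOn_gfun k b).mono hne)).pow 2
  · exact ((continuousOn_const.mul ((h.oφ.cont.mono inter_subset_left).pow 2)).add
      ((h.ou.orb.cont.mono inter_subset_left).pow 2)).add ((h.oψ.cont.mono inter_subset_left).pow 2)
  · filter_upwards [h.tail.low, h.dens] with y h1 h2 hy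
    rw [← h2]
    have := h.tail.cpos
    have := p7a_g k b y
    exact pow_le_pow_left₀ (by positivity) (h1 hy.2) 2

/-- `(c r⁻³ g)² ≤ 2 φ² + u² + ψ²` on `offA ∩ far L` (`Tail.low`, `Red.dens`, `le_of_ae_le`, `continuousOn_gfun`), `0 < φ ≤ cyl^(-12) g`,
`‖x‖ ≤ cyl x + 1` -/
theorem m_low_post (h : Red k b L C c R GR d Gd V0 S v e1 e2 φ Gφ u Gu ψ Gψ) (hp : Post k b φ ψ) :
    ∃ N L' : ℝ, 0 ≤ N ∧ ∀ ρ₀ x, L' ≤ ρ₀ → ρ₀ / 2 ≤ cyl x → cyl x ≤ 2 * ρ₀ → |x 2| ≤ 1 →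
      pe k (-N) ρ₀ (cyl x) ^ 2 ≤ u x ^ 2 + ψ x ^ 2 := by
  obtain ⟨Lp, c', -, -, hφ⟩ := hp
  have hc := h.tail.cpos
  have hk := h.tail.kpos
  have hL1 := h.tail.Lge
  refine ⟨2 * |b - 2| + 4, 2 * |Lp| + 2 * (L + 1) + 512 / c ^ 2 + 96 * Real.exp k / c, by positivity,
    fun ρ₀ x h0 h1 h2 h3 => ?_⟩
  have p1 := abs_nonneg Lp
  have p2 : 0 < 512 / c ^ 2 := by positivity
  have p3 : 0 < 96 * Real.exp k / c := by positivity
  have p4 := le_abs_self Lp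
  have n1 := cyl_le_norm x
  have n2 := norm_le_cyl_add x
  set ρ := cyl x with hρ
  have hρ1 : 2 ≤ ρ := by linarith
  have hρ0 : 4 ≤ ρ₀ := by linarith
  have hx : x ∈ offA := show 0 < cyl x by linarith
  have k1 := m_bnd3_low h hx (by linarith)
  have k2 := hφ x (by linarith) h3
  have k3 := h.posφ x hx
  have hg := p7a_g k b x
  -- `φ` is negligible
  have e1 : ρ ^ (-12 : ℝ) = (ρ ^ 12)⁻¹ := by
    rw [Real.rpow_neg (by linarith)]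
    norm_cast
  rw [e1] at k2
  have k4 : φ x ^ 2 ≤ ((ρ ^ 12)⁻¹ * gfun k b x) ^ 2 := pow_le_pow_left₀ k3.le k2 2
  have k5 : c / (8 * ρ ^ 3) ≤ c / ‖x‖ ^ 3 := by
    refine div_le_div_of_nonneg_left hc.le (pow_pos (by linarith) 3) ?_
    calc ‖x‖ ^ 3 ≤ (2 * ρ) ^ 3 := pow_le_pow_left₀ (norm_nonneg _) (by linarith) 3
      _ = 8 * ρ ^ 3 := by ring
  have k6 : (c / (8 * ρ ^ 3) * gfun k b x) ^ 2 ≤ (c / ‖x‖ ^ 3 * gfun k b x) ^ 2 :=
    pow_le_pow_left₀ (by positivity) (mul_le_mul_of_nonneg_right k5 hg) 2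
  have k7 : (ρ ^ 12)⁻¹ ≤ c / (16 * ρ ^ 3) := by
    rw [inv_eq_one_div, div_le_div_iff₀ (by positivity) (by positivity)]
    have q1 : 256 / c ^ 2 ≤ ρ := by
      have : 512 / c ^ 2 = 2 * (256 / c ^ 2) := by ring
      linarith
    rw [div_le_iff₀ (by positivity)] at q1
    have q2 : ρ ≤ (ρ ^ 9) ^ 2 := by
      rw [← pow_mul]
      exact le_self_pow₀ (by linarith) (by norm_num)
    have q3 : 16 ≤ c * ρ ^ 9 := by
      refine (pow_le_pow_iff_left₀ (by norm_num) (by positivity) two_ne_zero).1 ?_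
      rw [mul_pow]
      nlinarith [mul_le_mul_of_nonneg_left q2 (sq_nonneg c)]
    have q4 : 0 < ρ ^ 3 := by positivity
    calc 1 * (16 * ρ ^ 3) = 16 * ρ ^ 3 := one_mul _
      _ ≤ c * ρ ^ 9 * ρ ^ 3 := mul_le_mul_of_nonneg_right q3 q4.le
      _ = c * ρ ^ 12 := by ring
  have k8 : ((ρ ^ 12)⁻¹ * gfun k b x) ^ 2 ≤ (c / (16 * ρ ^ 3) * gfun k b x) ^ 2 :=
    pow_le_pow_left₀ (by positivity) (mul_le_mul_of_nonneg_right k7 hg) 2
  have k9 : (c / (12 * ρ ^ 3) * gfun k b x) ^ 2 ≤ u x ^ 2 + ψ x ^ 2 := by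
    have f1 : (c / (12 * ρ ^ 3) * gfun k b x) ^ 2 = (c / ρ ^ 3 * gfun k b x) ^ 2 / 144 := by
      ring
    have f2 : (c / (16 * ρ ^ 3) * gfun k b x) ^ 2 = (c / ρ ^ 3 * gfun k b x) ^ 2 / 256 := by
      ring
    have f3 : (c / (8 * ρ ^ 3) * gfun k b x) ^ 2 = (c / ρ ^ 3 * gfun k b x) ^ 2 / 64 := by
      ring
    have := sq_nonneg (c / ρ ^ 3 * gfun k b x)
    linarith
  refine le_trans (pow_le_pow_left₀ (pe_pos _ _ (by linarith) _).le ?_ 2) k9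
  -- lower bound for `g`
  have g1 : ρ₀ ^ (-(2 * |b - 2|)) ≤ ‖x‖ ^ (b - 2) := by
    have a1 : ‖x‖ ^ (-|b - 2|) ≤ ‖x‖ ^ (b - 2) :=
      Real.rpow_le_rpow_of_exponent_le (by linarith) (neg_abs_le _)
    have a2 : (ρ₀ ^ (2 : ℝ)) ^ (-|b - 2|) ≤ ‖x‖ ^ (-|b - 2|) := by
      refine Real.rpow_le_rpow_of_nonpos (by linarith) ?_ (neg_nonpos.2 (abs_nonneg _))
      rw [Real.rpow_two]
      nlinarith
    rw [← Real.rpow_mul (by linarith), mul_neg] at a2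
    exact a2.trans a1
  have g2 : (Real.exp k)⁻¹ * Real.exp (-k * ρ) ≤ Real.exp (-k * ‖x‖) := by
    rw [← Real.exp_neg, ← Real.exp_add]
    refine Real.exp_le_exp.2 ?_
    nlinarith
  have g3 : (ρ₀ ^ 4)⁻¹ ≤ c / (12 * ρ ^ 3) * (Real.exp k)⁻¹ := by
    have hE := Real.exp_pos k
    rw [← div_eq_mul_inv, div_div, inv_eq_one_div, div_le_div_iff₀ (by positivity) (by positivity)]
    have q1 : 96 * Real.exp k / c ≤ ρ₀ := by linarith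
    rw [div_le_iff₀ hc] at q1
    have q2 : ρ ^ 3 ≤ (2 * ρ₀) ^ 3 := pow_le_pow_left₀ (by linarith) h2 3
    have q3 : 0 < ρ₀ ^ 3 := by positivity
    calc 1 * (12 * ρ ^ 3 * Real.exp k) = 12 * Real.exp k * ρ ^ 3 := by ring
      _ ≤ 12 * Real.exp k * (2 * ρ₀) ^ 3 := mul_le_mul_of_nonneg_left q2 (by positivity)
      _ = 96 * Real.exp k * ρ₀ ^ 3 := by ring
      _ ≤ ρ₀ * c * ρ₀ ^ 3 := mul_le_mul_of_nonneg_right q1 q3.le
      _ = c * ρ₀ ^ 4 := by ring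
  have e2 : ρ₀ ^ (-(2 * |b - 2| + 4)) = (ρ₀ ^ 4)⁻¹ * ρ₀ ^ (-(2 * |b - 2|)) := by
    rw [neg_add, Real.rpow_add (by linarith), mul_comm, Real.rpow_neg (y := 4) (by linarith)]
    norm_cast
  have hr : 0 ≤ ρ₀ ^ (-(2 * |b - 2|)) := Real.rpow_nonneg (by linarith) _
  unfold pe gfun
  rw [e2]
  calc (ρ₀ ^ 4)⁻¹ * ρ₀ ^ (-(2 * |b - 2|)) * Real.exp (-k * ρ)
      ≤ c / (12 * ρ ^ 3) * (Real.exp k)⁻¹ * ρ₀ ^ (-(2 * |b - 2|)) * Real.exp (-k * ρ) := by gcongr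
    _ = c / (12 * ρ ^ 3) * (ρ₀ ^ (-(2 * |b - 2|)) * ((Real.exp k)⁻¹ * Real.exp (-k * ρ))) := by ring
    _ ≤ _ := by gcongr

/-- compactness: `ψ - α u = lv u ψ 1 α` is continuous and positive on the segment `[ρ₀/2, 2 ρ₀] × {0}`
(`Red.lv_plane`, `RotI.contOn`, `IsCompact.exists_thickening_subset_open` or the tube lemma) -/
theorem m_zb (h : Red k b L C c R GR d Gd V0 S v e1 e2 φ Gφ u Gu ψ Gψ) (hp : Post k b φ ψ) : ∃ L' : ℝ, ∀ ρ₀ α,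
    L' ≤ ρ₀ → ∃ z₁, 0 < z₁ ∧ z₁ ≤ lam ρ₀ / 2 ∧ ∀ ρ t, ρ₀ / 2 ≤ ρ → ρ ≤ 2 * ρ₀ → 0 ≤ t → t ≤ z₁ →
      0 < lv u ψ 1 α (pt ρ t) := by
  obtain ⟨Lp, c', hc', hψ, -⟩ := hp
  refine ⟨2 * |Lp| + 2, fun ρ₀ α h0 => ?_⟩
  have p1 := abs_nonneg Lp
  have p4 := le_abs_self Lp
  have hO : IsOpen ({p : ℝ × ℝ | 0 < p.1} ∩ (fun p : ℝ × ℝ => lv u ψ 1 α (pt p.1 p.2)) ⁻¹' Ioi 0) :=
    (RotI.contOn (h.lv_cont 1 α)).isOpen_inter_preimage (isOpen_lt continuous_const continuous_fst) isOpen_Ioi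
  obtain ⟨U, W, -, hW, hU1, hW1, hUW⟩ := generalized_tube_lemma (isCompact_Icc (a := ρ₀ / 2) (b := 2 * ρ₀))
    (isCompact_singleton (x := (0 : ℝ))) hO (by
      rintro ⟨r, t⟩ ⟨hr, ht⟩
      have ht' : t = 0 := ht
      have hr1 : ρ₀ / 2 ≤ r := hr.1
      have hr0 : 0 < r := by linarith
      refine ⟨hr0, ?_⟩
      show 0 < lv u ψ 1 α (pt r t)
      rw [ht', h.lv_plane 1 α hr0, one_mul]
      refine lt_of_lt_of_le ?_ (hψ r (by linarith))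
      have : pt r 0 ≠ 0 := fun e => by
        have := pt_zero r 0
        rw [e] at this
        simp at this
        linarith
      have := gfun_pos k b this
      positivity)
  obtain ⟨ε, hε, hb⟩ := Metric.isOpen_iff.1 hW 0 (hW1 rfl)
  have hl := lam_pos (show 0 < ρ₀ by linarith)
  refine ⟨min (ε / 2) (lam ρ₀ / 2), lt_min (by linarith) (by linarith), min_le_right _ _,
    fun ρ t h1 h2 h3 h4 => ?_⟩
  have h5 : t ∈ W := hb (by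
    rw [mem_ball_zero_iff, Real.norm_eq_abs, abs_of_nonneg h3]
    linarith [min_le_left (ε / 2) (lam ρ₀ / 2)])
  exact (hUW (mk_mem_prod (hU1 ⟨h1, h2⟩) h5)).2

end Crest.Agent.R335
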