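import Crest.Agent.R335.M_Hardy
import Crest.Agent.R335.M_Bnd

/-!
# R335/M_Coer: coercivity of `qf - e2 nsq` above the layer

`Ω = offA ∩ {0 < z} ∩ far L₁` (`L₁` from `m_hardy`; `L₂ > L₁`, `L₂ ≥ L'` of `m_ratio`, `L₂ > 0`).  `f = ξ / u` is `H1loc Ω` (`H1loc.div`), `H1loc.th` gives `TH Ω (Ω.indicator f) (Ω.indicator G)`,
`G = u⁻¹ • K - (ξ / u²) • Gu`, so `u • G = K - (ξ / u) • Gu`.  `K = 0` a.e. where `ξ = 0` (`H1.level`), hence `G = 0` a.e. outside `C₀`.  With `w = (z g)²`, `c² w ≤ u² ≤ C₂² w` on `C₀`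
(`Red.ulow`, `m_ratio`): `nsq ξ ≤ C₂² ∫ w f² ≤ (2 C₂² / k²) ∫ w ‖G‖² ≤ (2 C₂² / (k² c²)) ∫ ‖K - (ξ / u) • Gu‖²`, `picone`.  `κ₀ = k² c² / (4 C₂²)`.
-/

set_option autoImplicit false

namespace Crest.Agent.R335

open MeasureTheory Set Filter Topology
open scoped Gradient RealInnerProductSpace ENNReal ContDiff
open Crest.MathPhysics.ThreeBody

variable {k b L C c e1 e2 : ℝ} {R d V0 S v φ u ψ : E3 → ℝ} {GR Gd Gφ Gu Gψ : E3 → E3}

theorem m_coer (h : Red k b L C c R GR d Gd V0 S v e1 e2 φ Gφ u Gu ψ Gψ) : ∃ κ₀ L₂ : ℝ, 0 < κ₀ ∧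
    ∀ (ξ : E3 → ℝ) (K : E3 → E3) (C₀ : Set E3), H1 ξ K → IsCompact C₀ →
      (∀ x ∈ C₀, L₂ ≤ cyl x ∧ lam (cyl x) / 16 ≤ x 2 ∧ x 2 ≤ cyl x / 2) → (∀ x, x ∉ C₀ → ξ x = 0) →
      (∃ M : ℝ, ∀ x, |ξ x| ≤ M) → κ₀ * nsq ξ ≤ qf v ξ K - e2 * nsq ξ := by
  have hk := h.tail.kpos
  have hc := h.tail.cpos
  obtain ⟨L₁, hL₁, hH⟩ := m_hardy hk b
  obtain ⟨C₂, L', hC₂, hL', hr⟩ := m_ratio h
  refine ⟨k ^ 2 * c ^ 2 / (4 * C₂ ^ 2), max L' L₁ + 1, by positivity,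
    fun ξ K C₀ hξ hC₀ hg h0 ⟨M, hM⟩ => ?_⟩
  set Ω : Set E3 := (offA ∩ {x | 0 < x 2}) ∩ far L₁ with hΩd
  have hΩ : IsOpen Ω := (isOpen_offA.inter (isOpen_lt continuous_const (by fun_prop))).inter (isOpen_far _)
  have hcyl : ∀ x ∈ C₀, L' ≤ cyl x ∧ L₁ < cyl x := fun x hx =>
    ⟨by linarith [(hg x hx).1, le_max_left L' L₁], by linarith [(hg x hx).1, le_max_right L' L₁]⟩
  have hsub : C₀ ⊆ Ω := fun x hx => by
    have h1 : 0 < cyl x := hL₁.trans_lt (hcyl x hx).2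
    have h2 := lam_pos h1
    exact ⟨⟨h1, show 0 < x 2 by linarith [(hg x hx).2.1]⟩, (hcyl x hx).2.trans_le (cyl_le_norm x)⟩
  have hpos : ∀ x ∈ Ω, 0 < u x := fun x hx => h.u_pos hx.1.1 hx.1.2
  have hcont : ContinuousOn u Ω := h.ou.orb.cont.mono fun x hx => hx.1.1
  have hdiv := H1loc.div hΩ (hξ.loc Ω) (h.ou.orb.eig.h1.loc Ω)
    (fun _ _ _ => ⟨M, Eventually.of_forall fun x _ => hM x⟩) (Bl.of_continuousOn hcont) fun C' h1 h2 => by
      obtain ⟨m, hm, hm'⟩ := h1.exists_forall_le' (hcont.mono h2) fun x hx => hpos x (h2 hx)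
      exact ⟨m, hm, Eventually.of_forall hm'⟩
  have hth := (hdiv.th hΩ hC₀ hsub (Eventually.of_forall fun x _ hx => by rw [h0 x hx, zero_div])).mono
    (inter_subset_right : Ω ⊆ far L₁)
  obtain ⟨i1, i2, h1⟩ := hH _ _ hth
  obtain ⟨i3, h2⟩ := picone h.fb h.ou.orb.eig hξ (Eventually.of_forall fun x hx =>
    hpos x (hsub (by_contra fun hn => hx (h0 x hn))))
  have h3 : nsq ξ ≤ C₂ ^ 2 * ∫ x, (x 2 * gfun k b x) ^ 2 * (Ω.indicator (fun x => ξ x / u x) x) ^ 2 := by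
    rw [← integral_const_mul]
    refine integral_mono hξ.int_sq (i1.const_mul _) fun x => ?_
    by_cases hx : x ∈ C₀
    · have e1 := (hr x (hcyl x hx).1 (hg x hx).2.1).1
      have e2 : u x ^ 2 ≤ (C₂ * (x 2 * gfun k b x)) ^ 2 := sq_le_sq' (abs_le.1 e1).1 (abs_le.1 e1).2
      have e3 : ξ x ^ 2 = u x ^ 2 * (ξ x / u x) ^ 2 := by
        have := (hpos x (hsub hx)).ne'
        field_simp
      simp only [indicator_of_mem (hsub hx)]
      rw [e3, ← mul_assoc, ← mul_pow C₂]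
      exact mul_le_mul_of_nonneg_right e2 (sq_nonneg _)
    · simp only [h0 x hx]
      rw [zero_pow two_ne_zero]
      positivity
  have h4 : c ^ 2 * ∫ x, (x 2 * gfun k b x) ^ 2 *
      ‖Ω.indicator (fun x => (u x)⁻¹ • K x - (ξ x / u x ^ 2) • Gu x) x‖ ^ 2 ≤
      ∫ x, ‖K x - (ξ x / u x) • Gu x‖ ^ 2 := by
    rw [← integral_const_mul]
    refine integral_mono_ae (i2.const_mul _) i3 ?_
    filter_upwards [hξ.level 0] with x hK
    by_cases hx : x ∈ C₀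
    · have hu := hpos x (hsub hx)
      have e1 := h.ulow x (hL'.trans (hcyl x hx).1) (hg x hx).2.1 (hg x hx).2.2
      have e0 : 0 ≤ c * x 2 * gfun k b x :=
        mul_nonneg (mul_nonneg hc.le (le_of_lt (hsub hx).1.2)) (by unfold gfun; positivity)
      have e2 : (c * x 2 * gfun k b x) ^ 2 ≤ u x ^ 2 := pow_le_pow_left₀ e0 e1 2
      have e3 : K x - (ξ x / u x) • Gu x = u x • ((u x)⁻¹ • K x - (ξ x / u x ^ 2) • Gu x) := by
        rw [smul_sub, smul_smul, smul_smul, mul_inv_cancel₀ hu.ne', one_smul]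
        congr 2
        field_simp
      rw [indicator_of_mem (hsub hx), e3, norm_smul, mul_pow ‖u x‖, Real.norm_eq_abs, sq_abs, ← mul_assoc,
        ← mul_pow c, ← mul_assoc]
      exact mul_le_mul_of_nonneg_right e2 (sq_nonneg _)
    · have e : Ω.indicator (fun x => (u x)⁻¹ • K x - (ξ x / u x ^ 2) • Gu x) x = 0 :=
        indicator_apply_eq_zero.2 fun _ => by simp [h0 x hx, hK (h0 x hx)]
      rw [e, norm_zero, zero_pow two_ne_zero, mul_zero, mul_zero]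
      positivity
  have h5 := mul_le_mul_of_nonneg_left h3 (show 0 ≤ k ^ 2 * c ^ 2 / (4 * C₂ ^ 2) by positivity)
  have h6 := mul_le_mul_of_nonneg_left h1 (sq_nonneg c)
  rw [← mul_assoc, show k ^ 2 * c ^ 2 / (4 * C₂ ^ 2) * C₂ ^ 2 = k ^ 2 * c ^ 2 / 4 by field_simp] at h5
  linarith

end Crest.Agent.R335
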