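import Crest.Agent.R335.M_Defs

/-!
# R335/M_Cut: cut-off functions

Use a `C¹` function `θ : ℝ → [0,1]`, `θ = 0` on `(-∞, 0]`, `θ = 1` on `[1, ∞)` with bounded derivative (`Real.smoothTransition`).  `x ↦ θ (2 (ρ₁ - 1/2 - cyl x))` is `C¹`
(`contDiffOn_cyl` on `offA`, constant near the axis), `‖∇ cyl‖ ≤ 1` (`grad_cyl`).
-/

set_option autoImplicit false

namespace Crest.Agent.R335

open MeasureTheory Set Filter Topology
open scoped Gradient RealInnerProductSpace ENNReal ContDiff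
open Crest.MathPhysics.ThreeBody

variable {k b L C c e1 e2 : ℝ} {R d V0 S v φ u ψ : E3 → ℝ} {GR Gd Gφ Gu Gψ : E3 → E3}

theorem m_cut_norm (f : E3 → ℝ) (x : E3) : ‖∇ f x‖ = ‖fderiv ℝ f x‖ :=
  (InnerProductSpace.toDual ℝ E3).symm.norm_map _

theorem m_cut_lip : ∃ K : ℝ, 0 ≤ K ∧ ∀ s t,
    |Real.smoothTransition s - Real.smoothTransition t| ≤ K * |s - t| := by
  have hs : ContDiff ℝ 1 Real.smoothTransition := Real.smoothTransition.contDiff (n := 1)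
  obtain ⟨K, hK⟩ := isCompact_Icc.exists_bound_of_continuousOn (s := Icc (0 : ℝ) 1)
    (hs.continuous_deriv le_rfl).continuousOn
  have hK0 : 0 ≤ K := (norm_nonneg _).trans (hK 0 ⟨le_rfl, zero_le_one⟩)
  have hb : ∀ t, ‖deriv Real.smoothTransition t‖ ≤ K := by
    intro t
    rcases lt_or_ge t 0 with h | h
    · have : Real.smoothTransition =ᶠ[𝓝 t] fun _ => 0 :=
        (eventually_lt_nhds h).mono fun y hy => Real.smoothTransition.zero_of_nonpos hy.le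
      rw [this.deriv_eq]; simpa using hK0
    rcases le_or_gt t 1 with h' | h'
    · exact hK t ⟨h, h'⟩
    · have : Real.smoothTransition =ᶠ[𝓝 t] fun _ => 1 :=
        (eventually_gt_nhds h').mono fun y hy => Real.smoothTransition.one_of_one_le hy.le
      rw [this.deriv_eq]; simpa using hK0
  refine ⟨K, hK0, fun s t => ?_⟩
  exact convex_univ.norm_image_sub_le_of_norm_deriv_le
    (fun x _ => hs.differentiable one_ne_zero x) (fun x _ => hb x) (mem_univ t) (mem_univ s)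

theorem m_cut_gen : ∃ M : ℝ, 0 ≤ M ∧ ∀ (p : E3 → ℝ) (a : ℝ), (∀ x y, |p x - p y| ≤ ‖x - y‖) →
    (∀ x, a - 1 ≤ p x → ContDiffAt ℝ 1 p x) → ∃ ζ : E3 → ℝ, ContDiff ℝ 1 ζ ∧ (∀ x, 0 ≤ ζ x ∧ ζ x ≤ 1) ∧
    (∀ x, ‖∇ ζ x‖ ≤ M) ∧ (∀ x ∈ tsupport ζ, p x ≤ a - 1 / 2) ∧ (∀ x, p x ≤ a - 1 → ζ x = 1) ∧
    ∀ x, p x < a - 1 → ∇ ζ x = 0 := by
  obtain ⟨K, hK0, hK⟩ := m_cut_lip
  refine ⟨2 * K, by positivity, fun p a hp hs => ?_⟩
  have hc : Continuous p := (LipschitzWith.of_dist_le_mul (K := 1) fun x y => by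
    rw [Real.dist_eq, dist_eq_norm]; simpa using hp x y).continuous
  have h1 : ∀ x, p x ≤ a - 1 → Real.smoothTransition (2 * (a - 1 / 2 - p x)) = 1 := fun x hx =>
    Real.smoothTransition.one_of_one_le (by linarith)
  have h2 : ∀ x, p x < a - 1 →
      (fun x => Real.smoothTransition (2 * (a - 1 / 2 - p x))) =ᶠ[𝓝 x] fun _ => 1 := fun x hx =>
    (hc.continuousAt.eventually_lt continuousAt_const hx).mono fun y hy => h1 y hy.le
  refine ⟨fun x => Real.smoothTransition (2 * (a - 1 / 2 - p x)), ?_,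
    fun x => ⟨Real.smoothTransition.nonneg _, Real.smoothTransition.le_one _⟩, fun x => ?_, ?_, h1,
    fun x hx => ?_⟩
  · refine contDiff_iff_contDiffAt.2 fun x => ?_
    rcases lt_or_ge (p x) (a - 1) with h | h
    · exact contDiffAt_const.congr_of_eventuallyEq (h2 x h)
    · exact (Real.smoothTransition.contDiffAt (n := 1)).comp x
        (contDiffAt_const.mul (contDiffAt_const.sub (hs x h)))
  · rw [m_cut_norm]
    refine norm_fderiv_le_of_lip' ℝ (by positivity) (Eventually.of_forall fun y => ?_)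
    refine (hK _ _).trans ?_
    rw [show 2 * (a - 1 / 2 - p y) - 2 * (a - 1 / 2 - p x) = -2 * (p y - p x) by ring, abs_mul]
    have := mul_le_mul_of_nonneg_left (hp y x) hK0
    norm_num
    linarith
  · refine closure_minimal (t := {x | p x ≤ a - 1 / 2}) (fun x hx => ?_)
      (isClosed_le hc continuous_const)
    by_contra h
    exact hx (Real.smoothTransition.zero_of_nonpos (by simp only [mem_setOf_eq, not_le] at h; linarith))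
  · rw [(h2 x hx).gradient_eq]; exact gradient_fun_const _ _

theorem m_cut_cd {ρ : ℝ} (h : 2 ≤ ρ) (x : E3) (hx : ρ - 1 ≤ cyl x) : ContDiffAt ℝ 1 cyl x :=
  (contDiffOn_cyl.contDiffAt (isOpen_offA.mem_nhds (show 0 < cyl x by linarith))).of_le (by simp)

theorem m_cut_mul {f g : E3 → ℝ} (hf : ContDiff ℝ 1 f) (hg : ContDiff ℝ 1 g) (x : E3) :
    ‖∇ (fun x => f x * g x) x‖ ≤ |f x| * ‖∇ g x‖ + |g x| * ‖∇ f x‖ := by
  rw [m_cut_norm, m_cut_norm, m_cut_norm,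
    fderiv_fun_mul (hf.differentiable one_ne_zero x) (hg.differentiable one_ne_zero x)]
  refine (norm_add_le _ _).trans (le_of_eq ?_)
  rw [norm_smul, norm_smul, Real.norm_eq_abs, Real.norm_eq_abs]

theorem m_cut_exp {κ : ℝ} (hκ : 0 < κ) (z₀ : ℝ) (x : E3) :
    ‖∇ (fun x : E3 => Real.exp (-κ * √(1 + (x 2 - z₀) ^ 2))) x‖ ≤
      κ * Real.exp (-κ * √(1 + (x 2 - z₀) ^ 2)) := by
  have h0 : 0 < 1 + (x 2 - z₀) ^ 2 := by positivity
  have h1 := ((((((hasDerivAt_id' (x 2)).sub_const z₀).fun_pow 2).const_add 1).sqrt h0.ne').const_mul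
    (-κ)).exp
  have h2 := (h1.comp_hasFDerivAt x (EuclideanSpace.proj (𝕜 := ℝ) (2 : Fin 3)).hasFDerivAt).fderiv
  rw [m_cut_norm]
  refine (congrArg norm h2).le.trans ?_
  have h3 : ‖(EuclideanSpace.proj (𝕜 := ℝ) (2 : Fin 3) : E3 →L[ℝ] ℝ)‖ ≤ 1 :=
    ContinuousLinearMap.opNorm_le_bound _ zero_le_one fun y => by
      rw [one_mul]; exact abs_z_le_norm y
  rw [norm_smul]
  refine (mul_le_of_le_one_right (norm_nonneg _) h3).trans ?_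
  have h4 := s4_div_le (x 2 - z₀) (w := 1 + (x 2 - z₀) ^ 2) (by linarith)
  have h5 : ((2 : ℕ) : ℝ) * (x 2 - z₀) ^ (2 - 1) * 1 / (2 * √(1 + (x 2 - z₀) ^ 2)) =
      (x 2 - z₀) / √(1 + (x 2 - z₀) ^ 2) := by
    norm_num; field_simp
  rw [h5, Real.norm_eq_abs, abs_mul, abs_mul, abs_neg, abs_of_pos hκ, abs_of_pos (Real.exp_pos _),
    mul_comm]
  exact mul_le_mul_of_nonneg_right (mul_le_of_le_one_right hκ.le h4) (Real.exp_pos _).le


theorem m_cut_cyl : ∃ M : ℝ, 0 ≤ M ∧ ∀ ρ₁ : ℝ, 2 ≤ ρ₁ → ∃ ζ : E3 → ℝ, ContDiff ℝ 1 ζ ∧ (∀ x, 0 ≤ ζ x ∧ ζ x ≤ 1) ∧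
    (∀ x, ‖∇ ζ x‖ ≤ M) ∧ (∀ x ∈ tsupport ζ, cyl x ≤ ρ₁ - 1 / 2) ∧ (∀ x, cyl x ≤ ρ₁ - 1 → ζ x = 1) ∧
    ∀ x, cyl x < ρ₁ - 1 → ∇ ζ x = 0 := by
  obtain ⟨M, hM, h⟩ := m_cut_gen
  exact ⟨M, hM, fun ρ hρ => h cyl ρ abs_cyl_sub_le (m_cut_cd hρ)⟩
/-- `ζ = E χ₁ χ₂`, `E = exp (-κ √(1 + (z - z₀)²))` (`‖∇E‖ ≤ κ E`, `E ≤ 1`), `χ₁` from `m_cut_cyl`,
`χ₂ = θ (2 (H - 1/2 - (z - z₀))) θ (2 (H - 1/2 + (z - z₀)))`; `∇χ₂ = 0` for `|z - z₀| < H - 1`, and for `|z - z₀| ≥ H - 1`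
`E² ≤ e² exp (-2 κ H)`. -/
theorem m_cut_box : ∃ M : ℝ, 0 ≤ M ∧ ∀ κ ρr z₀ H : ℝ, 0 < κ → κ ≤ 1 → 2 ≤ ρr → 2 ≤ H → ∃ ζ : E3 → ℝ,
    ContDiff ℝ 1 ζ ∧ (∀ x, 0 ≤ ζ x ∧ ζ x ≤ 1) ∧ (∀ x, ‖∇ ζ x‖ ≤ M) ∧
    (∀ x ∈ tsupport ζ, cyl x ≤ ρr - 1 / 2 ∧ |x 2 - z₀| ≤ H - 1 / 2) ∧
    (∀ x, cyl x ≤ ρr - 1 → |x 2 - z₀| ≤ 1 → 1 / 10 ≤ ζ x) ∧
    ∀ x, ‖∇ ζ x‖ ^ 2 ≤ 2 * κ ^ 2 * ζ x ^ 2 + M * ((if ρr - 1 ≤ cyl x then 1 else 0) + Real.exp (-2 * κ * H)) := by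
  obtain ⟨M, hM, h⟩ := m_cut_gen
  refine ⟨2 * M + 1 + 4 * M ^ 2 * Real.exp 2, by positivity, fun κ ρ z₀ H hκ hκ1 hρ hH => ?_⟩
  obtain ⟨χ1, c1, b1, g1, s1, o1, z1⟩ := h cyl ρ abs_cyl_sub_le (m_cut_cd hρ)
  obtain ⟨χ2, c2, b2, g2, s2, o2, z2⟩ := h (fun x => |x 2 - z₀|) H
    (fun x y => (abs_abs_sub_abs_le _ _).trans (by
      rw [sub_sub_sub_cancel_right]; exact abs_z_le_norm (x - y)))
    (fun x hx => ContDiffAt.abs (by fun_prop) (abs_pos.1 (by linarith)))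
  set E : E3 → ℝ := fun x => Real.exp (-κ * √(1 + (x 2 - z₀) ^ 2)) with hE
  have cE : ContDiff ℝ 1 E :=
    (contDiff_const.mul (ContDiff.sqrt (by fun_prop) fun x => by positivity)).exp
  have E0 : ∀ x, 0 < E x := fun x => Real.exp_pos _
  have E1 : ∀ x, E x ≤ 1 := fun x => Real.exp_le_one_iff.2 (by
    have := mul_nonneg hκ.le (Real.sqrt_nonneg (1 + (x 2 - z₀) ^ 2)); linarith)
  have bχ : ∀ x, 0 ≤ χ1 x * χ2 x ∧ χ1 x * χ2 x ≤ 1 := fun x =>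
    ⟨mul_nonneg (b1 x).1 (b2 x).1, mul_le_one₀ (b1 x).2 (b2 x).1 (b2 x).2⟩
  have key : ∀ x, ‖∇ (fun x => E x * (χ1 x * χ2 x)) x‖ ≤
      κ * (E x * (χ1 x * χ2 x)) + (E x * ‖∇ χ1 x‖ + E x * ‖∇ χ2 x‖) := by
    intro x
    have k1 := m_cut_mul cE (c1.mul c2) x
    have k2 := m_cut_mul c1 c2 x
    have k3 : ‖∇ E x‖ ≤ κ * E x := m_cut_exp hκ z₀ x
    rw [abs_of_pos (E0 x), abs_of_nonneg (bχ x).1] at k1
    rw [abs_of_nonneg (b1 x).1, abs_of_nonneg (b2 x).1] at k2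
    have k4 := mul_le_of_le_one_left (norm_nonneg (∇ χ2 x)) (b1 x).2
    have k5 := mul_le_of_le_one_left (norm_nonneg (∇ χ1 x)) (b2 x).2
    have k6 := mul_le_mul_of_nonneg_left (k2.trans (add_le_add k4 k5)) (E0 x).le
    have k7 := mul_le_mul_of_nonneg_left k3 (bχ x).1
    linarith
  have bζ : ∀ x, 0 ≤ E x * (χ1 x * χ2 x) ∧ E x * (χ1 x * χ2 x) ≤ 1 := fun x =>
    ⟨mul_nonneg (E0 x).le (bχ x).1, mul_le_one₀ (E1 x) (bχ x).1 (bχ x).2⟩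
  have a1 : ∀ x, E x * ‖∇ χ1 x‖ ≤ M := fun x =>
    (mul_le_of_le_one_left (norm_nonneg _) (E1 x)).trans (g1 x)
  have a2 : ∀ x, E x * ‖∇ χ2 x‖ ≤ M := fun x =>
    (mul_le_of_le_one_left (norm_nonneg _) (E1 x)).trans (g2 x)
  have e2 : 1 ≤ Real.exp 2 := Real.one_le_exp (by norm_num)
  refine ⟨fun x => E x * (χ1 x * χ2 x), cE.mul (c1.mul c2), bζ, fun x => ?_, fun x hx => ?_,
    fun x h1 h2 => ?_, fun x => ?_⟩
  · have := mul_le_one₀ hκ1 (bζ x).1 (bζ x).2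
    have : 0 ≤ 4 * M ^ 2 * Real.exp 2 := by positivity
    linarith [key x, a1 x, a2 x]
  · have := tsupport_mul_subset_right (f := E) (g := fun x => χ1 x * χ2 x) hx
    exact ⟨s1 x (tsupport_mul_subset_left (f := χ1) (g := χ2) this),
      s2 x (tsupport_mul_subset_right (f := χ1) (g := χ2) this)⟩
  · beta_reduce
    rw [o1 x h1, o2 x (by linarith), mul_one, mul_one]
    have q1 : √(1 + (x 2 - z₀) ^ 2) ≤ 2 := Real.sqrt_le_iff.2 ⟨by norm_num, by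
      have := sq_abs (x 2 - z₀); have := abs_nonneg (x 2 - z₀); nlinarith⟩
    have q2 : Real.exp (-2) ≤ E x := Real.exp_le_exp.2 (by
      have := mul_le_of_le_one_left (Real.sqrt_nonneg (1 + (x 2 - z₀) ^ 2)) hκ1; linarith)
    refine le_trans ?_ q2
    have q3 : Real.exp 2 = Real.exp 1 * Real.exp 1 := by rw [← Real.exp_add]; norm_num
    have q4 := Real.exp_one_lt_d9
    have q5 := Real.exp_pos 1
    rw [Real.exp_neg, one_div]
    exact inv_anti₀ (Real.exp_pos 2) (by nlinarith)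
  · have p1 : (E x * ‖∇ χ1 x‖) ^ 2 ≤ M ^ 2 * Real.exp 2 * (if ρ - 1 ≤ cyl x then 1 else 0) := by
      split_ifs with hx
      · have := pow_le_pow_left₀ (mul_nonneg (E0 x).le (norm_nonneg _)) (a1 x) 2
        nlinarith [sq_nonneg M]
      · rw [z1 x (not_le.1 hx)]; simp
    have p2 : (E x * ‖∇ χ2 x‖) ^ 2 ≤ M ^ 2 * Real.exp 2 * Real.exp (-2 * κ * H) := by
      rcases lt_or_ge |x 2 - z₀| (H - 1) with hx | hx
      · rw [z2 x hx, norm_zero, mul_zero, zero_pow two_ne_zero]; positivity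
      · have q1 : H - 1 ≤ √(1 + (x 2 - z₀) ^ 2) := hx.trans (Real.abs_le_sqrt (by linarith))
        have q2 : E x ^ 2 ≤ Real.exp 2 * Real.exp (-2 * κ * H) := by
          rw [hE, ← Real.exp_nat_mul, ← Real.exp_add]
          refine Real.exp_le_exp.2 ?_
          have := mul_le_mul_of_nonneg_left q1 hκ.le
          push_cast
          linarith
        rw [mul_pow, mul_comm, mul_assoc]
        exact mul_le_mul (pow_le_pow_left₀ (norm_nonneg _) (g2 x) 2) q2 (sq_nonneg _) (sq_nonneg _)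
    have p3 := pow_le_pow_left₀ (norm_nonneg _) (key x) 2
    have p4 : 0 ≤ (2 * M + 1) * ((if ρ - 1 ≤ cyl x then 1 else 0) + Real.exp (-2 * κ * H)) := by
      have : (0 : ℝ) ≤ if ρ - 1 ≤ cyl x then 1 else 0 := by split_ifs <;> norm_num
      positivity
    nlinarith [sq_nonneg (κ * (E x * (χ1 x * χ2 x)) - (E x * ‖∇ χ1 x‖ + E x * ‖∇ χ2 x‖)),
      sq_nonneg (E x * ‖∇ χ1 x‖ - E x * ‖∇ χ2 x‖)]
end Crest.Agent.R335
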