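import Crest.Agent.R335.M_Piece
import Crest.Agent.R335.M_Cut
import Crest.Agent.R335.M_Coer

/-!
# R335/M_CE: the energy inequality of (Confine)

`κ = min 1 √(κ₀ / 2)` (`κ₀` from `m_coer`), `ζ` from `m_cut_box`, `ξ = A.indicator (ζ f)`, `f = lv u ψ s α` (`m_piece_h1`, `m_piece`), `C₀ = {ρl ≤ cyl ≤ ρr, lam ρl / 16 ≤ z ≤ ρl / 2}` is compact
(`norm_le_cyl_add`), `f` is bounded on it (continuity), `lam_anti`.  `κ₀ ∫_A ζ² f² ≤ ½ ∫_A ‖∇ζ‖² f² ≤ κ² ∫_A ζ² f² + (M / 2) (…)`, and `ζ ≥ 1/10` on the small set.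
-/

set_option autoImplicit false

namespace Crest.Agent.R335

open MeasureTheory Set Filter Topology
open scoped Gradient RealInnerProductSpace ENNReal ContDiff
open Crest.MathPhysics.ThreeBody

variable {k b L C c e1 e2 : ℝ} {R d V0 S v φ u ψ : E3 → ℝ} {GR Gd Gφ Gu Gψ : E3 → E3}

theorem m_conf_energy (h : Red k b L C c R GR d Gd V0 S v e1 e2 φ Gφ u Gu ψ Gψ) : ∃ κ M L₂ : ℝ, 0 < κ ∧ 0 ≤ M ∧
    ∀ (s α ρl ρr z₀ H : ℝ) (A : Set E3), L₂ ≤ ρl → ρl ≤ ρr → 2 ≤ H → IsOpen A →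
      (∀ x ∈ A, ρl ≤ cyl x ∧ cyl x ≤ ρr ∧ lam ρl / 16 ≤ x 2 ∧ x 2 ≤ ρl / 2 ∧ 0 < lv u ψ s α x) →
      (∀ x ∈ offA, cyl x ≤ ρr - 1 / 2 → |x 2 - z₀| ≤ H - 1 / 2 → 0 < lv u ψ s α x → AoN A x) →
      ∫ x in A ∩ {x | cyl x ≤ ρr - 1 ∧ |x 2 - z₀| ≤ 1}, lv u ψ s α x ^ 2 ≤
        M * ((∫ x in {x | ρr - 1 ≤ cyl x}, lv u ψ s α x ^ 2) +
          Real.exp (-2 * κ * H) * ∫ x in {x | ρl ≤ cyl x}, lv u ψ s α x ^ 2) := by
  obtain ⟨κ₀, L₂, hκ₀, hco⟩ := m_coer h
  obtain ⟨M, hM, hcut⟩ := m_cut_box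
  have hκ : 0 < min 1 √(κ₀ / 2) := lt_min one_pos (Real.sqrt_pos.2 (half_pos hκ₀))
  have hκ2 : min 1 √(κ₀ / 2) ^ 2 ≤ κ₀ / 2 :=
    (pow_le_pow_left₀ hκ.le (min_le_right _ _) 2).trans (Real.sq_sqrt (half_pos hκ₀).le).le
  refine ⟨min 1 √(κ₀ / 2), 100 * (M / κ₀), max L₂ 2, hκ, by positivity,
    fun s α ρl ρr z₀ H A hl hlr hH hA hAp haon => ?_⟩
  have hl2 : 2 ≤ ρl := (le_max_right _ _).trans hl
  obtain ⟨ζ, hζ, h0, h1, hsupp, hlow, hgr⟩ := hcut _ ρr z₀ H hκ (min_le_left _ _) (by linarith) hH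
  generalize min 1 √(κ₀ / 2) = κ at hκ hκ2 hgr ⊢
  have heig := h.lv_eig s α
  have hc := h.lv_cont s α
  generalize lv u ψ s α = f at hAp haon heig hc ⊢
  have haon' : ∀ x ∈ offA, x ∈ tsupport ζ → 0 < f x → AoN A x := fun x hx hs hp =>
    haon x hx (hsupp x hs).1 (hsupp x hs).2 hp
  have hAp' : ∀ x ∈ A, 0 < f x := fun x hx => (hAp x hx).2.2.2.2
  have p1 := m_piece_h1 heig.h1 hc hζ h0 h1 hA hAp' haon'
  have p2 := m_piece h.fb heig hc hζ h0 h1 hA hAp' haon'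
  set C₀ : Set E3 := {x | ρl ≤ cyl x ∧ cyl x ≤ ρr ∧ lam ρl / 16 ≤ x 2 ∧ x 2 ≤ ρl / 2} with hC₀
  have hlam := lam_pos (show 0 < ρl by linarith)
  have hcpt : IsCompact C₀ := by
    have c2 : Continuous fun x : E3 => x 2 := by fun_prop
    refine Metric.isCompact_of_isClosed_isBounded ((isClosed_le continuous_const continuous_cyl).inter
      ((isClosed_le continuous_cyl continuous_const).inter ((isClosed_le continuous_const c2).inter
        (isClosed_le c2 continuous_const)))) ?_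
    refine (Metric.isBounded_closedBall (x := (0 : E3)) (r := ρr + ρl / 2)).subset fun x hx => ?_
    rw [mem_closedBall_zero_iff]
    have := norm_le_cyl_add x
    rw [abs_of_pos (by linarith [hx.2.2.1])] at this
    linarith [hx.2.1, hx.2.2.2]
  have hAC : A ⊆ C₀ := fun x hx =>
    ⟨(hAp x hx).1, (hAp x hx).2.1, (hAp x hx).2.2.1, (hAp x hx).2.2.2.1⟩
  obtain ⟨B, hB⟩ := hcpt.exists_bound_of_continuousOn
    (hc.mono fun x hx => (show 0 < cyl x by linarith [hx.1]))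
  have p3 := hco _ _ C₀ p1 hcpt (fun x hx => ⟨by linarith [hx.1, le_max_left L₂ 2],
      by linarith [hx.2.2.1, lam_anti (show 0 < ρl by linarith) hx.1], by linarith [hx.1, hx.2.2.2]⟩)
    (fun x hx => indicator_of_notMem (fun hx' => hx (hAC hx')) _) ⟨max B 0, fun x => by
      by_cases hx : x ∈ A
      · rw [indicator_of_mem hx, abs_mul, abs_of_nonneg (h0 x).1]
        exact (mul_le_of_le_one_left (abs_nonneg _) (h0 x).2).trans
          ((hB x (hAC hx)).trans (le_max_left _ _))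
      · rw [indicator_of_notMem hx, abs_zero]; exact le_max_right _ _⟩
  rw [p2] at p3
  have iF : Integrable fun x => f x ^ 2 := heig.h1.mf.integrable_sq
  have iZ : Integrable fun x => ζ x ^ 2 * f x ^ 2 :=
    iF.bdd_mul (c := 1) (hζ.continuous.pow 2).aestronglyMeasurable (Eventually.of_forall fun x => by
      rw [Real.norm_of_nonneg (sq_nonneg _)]
      exact pow_le_one₀ (h0 x).1 (h0 x).2)
  have eN : nsq (A.indicator fun x => ζ x * f x) = ∫ x in A, ζ x ^ 2 * f x ^ 2 := by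
    rw [nsq, ← integral_indicator hA.measurableSet]
    congr 1
    funext x
    by_cases hx : x ∈ A
    · rw [indicator_of_mem hx, indicator_of_mem hx, mul_pow]
    · rw [indicator_of_notMem hx, indicator_of_notMem hx]; norm_num
  rw [eN] at p3
  have mB : MeasurableSet {x : E3 | ρr - 1 ≤ cyl x} :=
    (isClosed_le continuous_const continuous_cyl).measurableSet
  have iB : Integrable ({x : E3 | ρr - 1 ≤ cyl x}.indicator fun x => f x ^ 2) := iF.indicator mB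
  have k1 : ∫ x in A, ‖∇ ζ x‖ ^ 2 * f x ^ 2 ≤ ∫ x in A, (2 * κ ^ 2 * (ζ x ^ 2 * f x ^ 2) +
      M * ({x : E3 | ρr - 1 ≤ cyl x}.indicator (fun x => f x ^ 2) x +
        Real.exp (-2 * κ * H) * f x ^ 2)) := by
    refine integral_mono_of_nonneg (Eventually.of_forall fun x => by positivity)
      ((iZ.const_mul _).add ((iB.add (iF.const_mul _)).const_mul _)).integrableOn
      (Eventually.of_forall fun x => ?_)
    have := mul_le_mul_of_nonneg_right (hgr x) (sq_nonneg (f x))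
    refine this.trans (le_of_eq ?_)
    simp only [indicator, mem_ofPred_eq]
    split_ifs <;> ring
  have i1 : Integrable (fun x => M * ({x : E3 | ρr - 1 ≤ cyl x}.indicator (fun x => f x ^ 2) x +
      Real.exp (-2 * κ * H) * f x ^ 2)) (volume.restrict A) :=
    ((iB.add (iF.const_mul _)).const_mul _).integrableOn
  rw [integral_add (iZ.const_mul _).integrableOn i1, integral_const_mul, integral_const_mul,
    integral_add iB.integrableOn (iF.const_mul _).integrableOn, integral_const_mul,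
    setIntegral_indicator mB] at k1
  have nF : 0 ≤ᵐ[volume] fun x => f x ^ 2 := Eventually.of_forall fun x => sq_nonneg _
  have k2 : ∫ x in A ∩ {x : E3 | ρr - 1 ≤ cyl x}, f x ^ 2 ≤ ∫ x in {x : E3 | ρr - 1 ≤ cyl x}, f x ^ 2 :=
    setIntegral_mono_set iF.integrableOn (ae_restrict_of_ae nF) inter_subset_right.eventuallyLE
  have k3 : ∫ x in A, f x ^ 2 ≤ ∫ x in {x : E3 | ρl ≤ cyl x}, f x ^ 2 :=
    setIntegral_mono_set iF.integrableOn (ae_restrict_of_ae nF)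
      (show A ⊆ {x : E3 | ρl ≤ cyl x} from fun x hx => (hAp x hx).1).eventuallyLE
  have mS : MeasurableSet (A ∩ {x : E3 | cyl x ≤ ρr - 1 ∧ |x 2 - z₀| ≤ 1}) :=
    hA.measurableSet.inter ((isClosed_le continuous_cyl continuous_const).inter
      (isClosed_le (by fun_prop : Continuous fun x : E3 => |x 2 - z₀|) continuous_const)).measurableSet
  have k4 : ∫ x in A ∩ {x : E3 | cyl x ≤ ρr - 1 ∧ |x 2 - z₀| ≤ 1}, f x ^ 2 ≤
      ∫ x in A ∩ {x : E3 | cyl x ≤ ρr - 1 ∧ |x 2 - z₀| ≤ 1}, 100 * (ζ x ^ 2 * f x ^ 2) := by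
    refine setIntegral_mono_on iF.integrableOn (iZ.const_mul _).integrableOn mS fun x hx => ?_
    have := pow_le_pow_left₀ (by norm_num) (hlow x hx.2.1 hx.2.2) 2
    nlinarith [sq_nonneg (f x)]
  have nZ : 0 ≤ᵐ[volume] fun x => ζ x ^ 2 * f x ^ 2 := Eventually.of_forall fun x => by positivity
  have k5 : ∫ x in A ∩ {x : E3 | cyl x ≤ ρr - 1 ∧ |x 2 - z₀| ≤ 1}, ζ x ^ 2 * f x ^ 2 ≤
      ∫ x in A, ζ x ^ 2 * f x ^ 2 :=
    setIntegral_mono_set iZ.integrableOn (ae_restrict_of_ae nZ) inter_subset_left.eventuallyLE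
  rw [integral_const_mul] at k4
  have k6 : 0 ≤ ∫ x in A, ζ x ^ 2 * f x ^ 2 := integral_nonneg_of_ae (ae_restrict_of_ae nZ)
  have k7 := mul_le_mul_of_nonneg_left (add_le_add k2
    (mul_le_mul_of_nonneg_left k3 (Real.exp_pos (-2 * κ * H)).le)) hM
  have k8 := mul_le_mul_of_nonneg_right hκ2 k6
  rw [mul_assoc, div_mul_eq_mul_div]
  refine k4.trans (mul_le_mul_of_nonneg_left (k5.trans ?_) (by norm_num))
  rw [le_div_iff₀ hκ₀]
  linarith

end Crest.Agent.R335
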