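import Crest.Agent.R335.M_Bnd

/-!
# R335/M_Hold: a ball on which the level function is bounded below

`f = lv u ψ s α`, `y = pt ρ z`: `f y = s (τ - α) u y ≥ (ρ₀^(-12) / 16) pe (-N₁)` (`Red.lv_tau`, `m_low`); on `ball y 1`: `|f| ≤ (1 + C') e^k pe N₂ ρ₀ ρ` (`m_up`, `abs_cyl_sub_le`);
`holder` (`Red.lv_eig`, `Red.lv_cont`): `|f x - f y| ≤ C K ρ₀^(-N/3) ≤ f y / 2` for `N = 3 (N₁ + N₂ + 14)` and large `ρ₀`.
-/

set_option autoImplicit false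

namespace Crest.Agent.R335

open MeasureTheory Set Filter Topology
open scoped Gradient RealInnerProductSpace ENNReal ContDiff
open Crest.MathPhysics.ThreeBody

variable {k b L C c e1 e2 : ℝ} {R d V0 S v φ u ψ : E3 → ℝ} {GR Gd Gφ Gu Gψ : E3 → E3}

theorem m_hold_z {Y ρ z : ℝ} (h1 : 1 ≤ ρ) (h2 : 64 * Y ^ 2 ≤ ρ) (hz : z ^ 2 ≤ Y * ρ * Real.log ρ) : z ≤ ρ / 2 := by
  have hl0 : 0 ≤ Real.log ρ := Real.log_nonneg h1
  have hs : 0 < √ρ := Real.sqrt_pos.2 (by linarith)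
  have hss : √ρ * √ρ = ρ := Real.mul_self_sqrt (by linarith)
  have hl : Real.log ρ ≤ 2 * √ρ := by
    have e : Real.log ρ = 2 * Real.log √ρ := by
      rw [Real.log_sqrt (by linarith)]; ring
    have := Real.log_le_sub_one_of_pos hs
    linarith
  have hY : 8 * |Y| ≤ √ρ := Real.le_sqrt_of_sq_le (by rw [mul_pow, sq_abs]; linarith)
  have h3 : Y * Real.log ρ ≤ ρ / 4 := by
    calc Y * Real.log ρ ≤ |Y| * Real.log ρ := mul_le_mul_of_nonneg_right (le_abs_self _) hl0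
      _ ≤ |Y| * (2 * √ρ) := mul_le_mul_of_nonneg_left hl (abs_nonneg _)
      _ ≤ ρ / 4 := by nlinarith
  refine abs_le_of_sq_le_sq' ?_ (by linarith) |>.2
  nlinarith

theorem m_hold (h : Red k b L C c R GR d Gd V0 S v e1 e2 φ Gφ u Gu ψ Gψ) (Y C' : ℝ) : ∃ N L' : ℝ, 1 ≤ N ∧
    ∀ ρ₀, L' ≤ ρ₀ → ρ₀ ^ (-N) ≤ lam ρ₀ / 8 ∧ ∀ ρ z s α, (s = 1 ∨ s = -1) → |α| ≤ C' → ρ₀ / 2 ≤ ρ → ρ ≤ 2 * ρ₀ →
      lam ρ₀ / 8 ≤ z → z ^ 2 ≤ Y * ρ₀ * Real.log ρ₀ → ρ₀ ^ (-12 : ℝ) / 16 ≤ s * (tau u ψ ρ z - α) →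
        ∀ x ∈ Metric.ball (pt ρ z) (ρ₀ ^ (-N)), pe k (-N) ρ₀ ρ ≤ lv u ψ s α x := by
  obtain ⟨N₁, L₁, hN₁, hlow⟩ := m_low h Y
  obtain ⟨N₂, L₂, hN₂, hup⟩ := m_up h
  obtain ⟨C₀, hC₀, hhold⟩ := holder h.cls h.sv e2
  have hk := h.tail.kpos
  set A : ℝ := C₀ * ((1 + |C'|) * Real.exp k) with hA
  refine ⟨3 * (N₁ + N₂ + 14), max (max L₁ L₂) (max (max 32 A) (64 * Y ^ 2)), by linarith, fun ρ₀ hρ₀ => ?_⟩
  simp only [max_le_iff] at hρ₀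
  obtain ⟨⟨hL₁, hL₂⟩, ⟨h32, hAρ⟩, hY⟩ := hρ₀
  have h0 : 0 < ρ₀ := by linarith
  have h1 : 1 ≤ ρ₀ := by linarith
  have hsmall : ρ₀ ^ (-(3 * (N₁ + N₂ + 14))) ≤ lam ρ₀ / 8 := by
    calc ρ₀ ^ (-(3 * (N₁ + N₂ + 14))) ≤ ρ₀ ^ (-(3 / 5) + (-1) : ℝ) :=
          Real.rpow_le_rpow_of_exponent_le h1 (by linarith)
      _ = lam ρ₀ * ρ₀⁻¹ := by rw [Real.rpow_add h0, Real.rpow_neg_one, lam]
      _ ≤ lam ρ₀ * 8⁻¹ := by
          have := lam_pos h0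
          gcongr
          linarith
      _ = lam ρ₀ / 8 := by ring
  refine ⟨hsmall, fun ρ z s α hs hα hρ1 hρ2 hz1 hz2 hτ x hx => ?_⟩
  have hρ : 0 < ρ := by linarith
  have hz0 : 0 < z := lt_of_lt_of_le (by have := lam_pos h0; positivity) hz1
  have hz3 : z ≤ ρ₀ / 2 := m_hold_z h1 hY hz2
  have hcy : cyl (pt ρ z) = ρ := cyl_pt hρ.le z
  have hE : 0 < Real.exp (-k * ρ) := Real.exp_pos _
  -- lower bound at the centre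
  have hy : ρ₀ ^ (-12 : ℝ) / 16 * pe k (-N₁) ρ₀ ρ ≤ lv u ψ s α (pt ρ z) := by
    have h2 := hlow ρ₀ (pt ρ z) hL₁ (by rwa [hcy]) (by rwa [hcy]) (by rwa [pt_two]) (by rwa [pt_two])
    rw [hcy] at h2
    rw [h.lv_tau s α hρ hz0]
    have h3 : 0 ≤ ρ₀ ^ (-12 : ℝ) / 16 := by positivity
    exact mul_le_mul hτ h2 (pe_pos _ _ h0 _).le (h3.trans hτ)
  -- upper bound on the unit ball
  have hK : ∀ w ∈ Metric.ball (pt ρ z) 1, |lv u ψ s α w| ≤ (1 + |C'|) * Real.exp k * pe k N₂ ρ₀ ρ := by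
    intro w hw
    rw [mem_ball_iff_norm] at hw
    have h2 := abs_cyl_sub_le w (pt ρ z)
    rw [hcy] at h2
    have h3 : |w 2 - z| ≤ ‖w - pt ρ z‖ := by
      have := EuclideanSpace.norm_eq (w - pt ρ z) ▸ PiLp.norm_apply_le (w - pt ρ z) 2
      have e : (w - pt ρ z) 2 = w 2 - z := by rw [PiLp.sub_apply, pt_two]
      rw [← e, EuclideanSpace.norm_eq]
      exact this
    obtain ⟨h4, h5⟩ := abs_le.1 (h2.trans hw.le)
    obtain ⟨h6, h7⟩ := abs_le.1 (h3.trans hw.le)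
    obtain ⟨h8, h9⟩ := hup ρ₀ w hL₂ (by linarith) (by linarith) (abs_le.2 ⟨by linarith, by linarith⟩)
    have h10 : pe k N₂ ρ₀ (cyl w) ≤ Real.exp k * pe k N₂ ρ₀ ρ := by
      unfold pe
      rw [mul_left_comm, ← Real.exp_add]
      gcongr
      nlinarith
    have h11 : |s| = 1 := by rcases hs with rfl | rfl <;> simp
    have h12 : |α| ≤ |C'| := hα.trans (le_abs_self _)
    unfold lv
    rw [abs_mul, h11, one_mul]
    calc |ψ w - α * u w| ≤ |ψ w| + |α * u w| := abs_sub _ _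
      _ = |ψ w| + |α| * |u w| := by rw [abs_mul]
      _ ≤ Real.exp k * pe k N₂ ρ₀ ρ + |C'| * (Real.exp k * pe k N₂ ρ₀ ρ) :=
          add_le_add (h9.trans h10) (mul_le_mul h12 (h8.trans h10) (abs_nonneg _) (abs_nonneg _))
      _ = _ := by ring
  rw [mem_ball_iff_norm] at hx
  have hl1 := lam_le_one h1
  have hh := hhold _ _ (pt ρ z) _ (h.lv_eig s α) (h.lv_cont s α) (by rw [hcy]; linarith) hK x (by linarith)
  have h13 : ‖x - pt ρ z‖ ^ (1 / 3 : ℝ) ≤ ρ₀ ^ (-(N₁ + N₂ + 14)) := by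
    calc ‖x - pt ρ z‖ ^ (1 / 3 : ℝ) ≤ (ρ₀ ^ (-(3 * (N₁ + N₂ + 14)))) ^ (1 / 3 : ℝ) :=
          Real.rpow_le_rpow (norm_nonneg _) hx.le (by norm_num)
      _ = _ := by
          rw [← Real.rpow_mul h0.le]
          congr 1
          ring
  set P : ℝ := ρ₀ ^ (-(N₁ + 13)) * Real.exp (-k * ρ) with hP
  have hP0 : 0 < P := mul_pos (Real.rpow_pos_of_pos h0 _) hE
  have h14 : |lv u ψ s α x - lv u ψ s α (pt ρ z)| ≤ P := by
    refine hh.trans ?_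
    have hpe := (pe_pos k N₂ h0 ρ).le
    calc C₀ * ((1 + |C'|) * Real.exp k * pe k N₂ ρ₀ ρ) * ‖x - pt ρ z‖ ^ (1 / 3 : ℝ)
        = A * (pe k N₂ ρ₀ ρ * ‖x - pt ρ z‖ ^ (1 / 3 : ℝ)) := by rw [hA]; ring
      _ ≤ ρ₀ * (pe k N₂ ρ₀ ρ * ρ₀ ^ (-(N₁ + N₂ + 14))) := by gcongr
      _ = P := by
          have e : ρ₀ ^ (-(N₁ + 13)) = ρ₀ ^ (1 : ℝ) * ρ₀ ^ N₂ * ρ₀ ^ (-(N₁ + N₂ + 14)) := by
            rw [← Real.rpow_add h0, ← Real.rpow_add h0]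
            congr 1
            ring
          rw [hP, e, Real.rpow_one, pe]
          ring
  have h15 : ρ₀ ^ (-12 : ℝ) / 16 * pe k (-N₁) ρ₀ ρ = ρ₀ / 16 * P := by
    have e : ρ₀ ^ (-12 : ℝ) * ρ₀ ^ (-N₁) = ρ₀ ^ (1 : ℝ) * ρ₀ ^ (-(N₁ + 13)) := by
      rw [← Real.rpow_add h0, ← Real.rpow_add h0]
      congr 1
      ring
    rw [Real.rpow_one] at e
    rw [hP, pe]
    linear_combination (Real.exp (-k * ρ) / 16) * e
  have h16 : pe k (-(3 * (N₁ + N₂ + 14))) ρ₀ ρ ≤ P := by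
    rw [hP, pe]
    exact mul_le_mul_of_nonneg_right (Real.rpow_le_rpow_of_exponent_le h1 (by linarith)) hE.le
  have h17 := (abs_le.1 h14).1
  rw [h15] at hy
  nlinarith

end Crest.Agent.R335
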