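import Crest.Agent.R335.M_Top2
import Crest.Agent.R335.M_Bnd2
import Crest.Agent.R335.M_Hold
import Crest.Agent.R335.M_CE

/-!
# R335/M_Confine: (Confine)

`f = lv u ψ s α`, `δ = ρ₀^(-N₂)` (`m_hold`).  `m_conf_top` with `ρl = ρ₀ - T`, `ρr = ρ₀ + D`, `zt = z₀ + H`: the first alternative is the claim.  Otherwise `m_conf_energy`
(`lam ρl ≤ 2 lam ρ₀` by `lam_anti`, `lam_half`; `z₀ + H ≤ ρ₀ / 8` by `m_large`; `AoN` on the bottom side: `RotI` and the last hypothesis); the ball `ball (pt ρ₀ z₀) δ` lies in the small set, `f ≥ pe k (-N₂) ρ₀ ρ₀` on it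
and its volume is `≥ δ³` (`EuclideanSpace.volume_ball_fin_three`).  `m_mass` at `ρr - 1` and at `ρl`.  Divide by `exp (-2 k ρ₀)`:
`ρ₀^(-5 N₂) ≤ M C₁ ρ₀^P (e^(2k) exp (-2 k D) + exp (-2 κ (H - (k / κ) T)))`; `m_num` for `k` and for `κ` with `c₁ = 1/2`; `N ≥ k / κ`.
-/

set_option autoImplicit false

namespace Crest.Agent.R335

open MeasureTheory Set Filter Topology
open scoped Gradient RealInnerProductSpace ENNReal ContDiff
open Crest.MathPhysics.ThreeBody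

variable {k b L C c e1 e2 : ℝ} {R d V0 S v φ u ψ : E3 → ℝ} {GR Gd Gφ Gu Gψ : E3 → E3}

theorem m_confine_vol (a : E3) {δ : ℝ} (hδ : 0 < δ) : δ ^ 3 ≤ volume.real (Metric.ball a δ) := by
  rw [measureReal_def, EuclideanSpace.volume_ball_fin_three, ENNReal.toReal_mul, ENNReal.toReal_pow,
    ENNReal.toReal_ofReal hδ.le, ENNReal.toReal_ofReal (by positivity)]
  have h1 : 0 < δ ^ 3 := by positivity
  nlinarith [Real.pi_gt_three]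

theorem m_confine_low {f : E3 → ℝ} (hf : MemLp f 2 volume) {a : E3} {δ m : ℝ} (hδ : 0 < δ) (hm : 0 ≤ m)
    {S : Set E3} (hS : Metric.ball a δ ⊆ S) (h : ∀ x ∈ Metric.ball a δ, m ≤ f x) :
    m ^ 2 * δ ^ 3 ≤ ∫ x in S, f x ^ 2 := by
  have hi : Integrable fun x => f x ^ 2 := hf.integrable_sq
  calc m ^ 2 * δ ^ 3 ≤ m ^ 2 * volume.real (Metric.ball a δ) := by
        gcongr
        exact m_confine_vol a hδ
    _ = ∫ _ in Metric.ball a δ, m ^ 2 := by rw [setIntegral_const, smul_eq_mul, mul_comm]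
    _ ≤ ∫ x in Metric.ball a δ, f x ^ 2 := by
        refine setIntegral_mono_on (integrableOn_const measure_ball_lt_top.ne) hi.integrableOn
          measurableSet_ball fun x hx => ?_
        exact pow_le_pow_left₀ hm (h x hx) 2
    _ ≤ ∫ x in S, f x ^ 2 :=
        setIntegral_mono_set hi.integrableOn (Eventually.of_forall fun x => sq_nonneg _) hS.eventuallyLE

theorem m_confine_num {a b t l T D H : ℝ} (ha : 1 ≤ a) (hb : 1 ≤ b) (ht : 0 < t) (hl : 1 ≤ l) (hT : 2 ≤ T)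
    (hD : (a + b + t) * l ≤ D) (hH : (a + b + t) * (T + l) ≤ H) :
    2 ≤ D ∧ a * l ≤ D ∧ 2 ≤ H ∧ b * l ≤ H - t * T := by
  have h1 : 1 ≤ a * l := one_le_mul_of_one_le_of_one_le ha hl
  have h2 : 1 ≤ b * l := one_le_mul_of_one_le_of_one_le hb hl
  have h3 : 0 ≤ t * l := by positivity
  have h4 : 0 ≤ a * T := by positivity
  have h5 : 0 ≤ b * T := by positivity
  have h6 : 0 ≤ t * T := by positivity
  refine ⟨?_, ?_, ?_, ?_⟩ <;> nlinarith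

theorem m_confine_zt {Y r l z : ℝ} (hr : 0 < r) (hl : 0 ≤ l) (hY : |Y| * l ≤ r / 64) (hz : z ^ 2 ≤ Y * r * l) :
    z ≤ r / 8 := by
  have h1 : Y * r * l ≤ (r / 8) ^ 2 := by
    have h2 : Y * l ≤ |Y| * l := mul_le_mul_of_nonneg_right (le_abs_self Y) hl
    nlinarith
  exact abs_le_of_sq_le_sq' (hz.trans h1) (by positivity) |>.2

theorem m_confine (h : Red k b L C c R GR d Gd V0 S v e1 e2 φ Gφ u Gu ψ Gψ) (Y C' : ℝ) : ∃ N L' : ℝ, 1 ≤ N ∧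
    ∀ ρ₀ s α z₀ T D H zb, L' ≤ ρ₀ → (s = 1 ∨ s = -1) → |α| ≤ C' → 2 ≤ T → T ≤ ρ₀ / 4 → N * Real.log ρ₀ ≤ D →
      D ≤ ρ₀ / 4 → N * (T + Real.log ρ₀) ≤ H → (z₀ + H) ^ 2 ≤ Y * ρ₀ * Real.log ρ₀ → lam ρ₀ / 2 ≤ zb →
      z₀ - H ≤ zb → zb + lam ρ₀ / 8 ≤ z₀ → ρ₀ ^ (-12 : ℝ) / 16 ≤ s * (tau u ψ ρ₀ z₀ - α) →
      (z₀ - H < zb → ∀ ρ, ρ₀ - T ≤ ρ → ρ ≤ ρ₀ + D → lv u ψ s α (pt ρ zb) ≤ 0) →
      ∃ p : ℝ × ℝ, p.1 < ρ₀ - T + 1 ∧
        JoinedIn (posS (lv u ψ s α) ∩ Ioo (ρ₀ - T) (ρ₀ + D) ×ˢ Ioo zb (z₀ + H)) p (ρ₀, z₀) := by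
  have hk := h.tail.kpos
  obtain ⟨N₂, Lh, hN₂, hhold⟩ := m_hold h Y C'
  obtain ⟨κ, M, L₂, hκ, hM, hen⟩ := m_conf_energy h
  obtain ⟨C₁, P, hC₁, hP, hmass⟩ := m_mass h C'
  obtain ⟨Nk, Lk, hNk, hnk⟩ := m_num hk (c₁ := 1 / 2) (by norm_num) (M * C₁ * Real.exp (2 * k)) (P + 5 * N₂)
  obtain ⟨Nκ, Lκ, hNκ, hnκ⟩ := m_num hκ (c₁ := 1 / 2) (by norm_num) (M * C₁) (P + 5 * N₂)
  obtain ⟨Ll, hLl, hl⟩ := m_large |Y|
  have hkκ : 0 < k / κ := div_pos hk hκ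
  refine ⟨Nk + Nκ + k / κ, max (max (max Lh Lk) (max Lκ Ll)) (max (4 / 3 * L₂) (4 / 3 * (L + 1))), by linarith, ?_⟩
  intro ρ₀ s α z₀ T D H zb hρ hs hα hT hT' hD hD' hH hz hzb hzb1 hzb2 hτ hbot
  simp only [max_le_iff] at hρ
  obtain ⟨⟨⟨hρh, hρk⟩, hρκ, hρl⟩, hρ2, hρL⟩ := hρ
  obtain ⟨hlog, -, -, hYl⟩ := hl ρ₀ hρl
  have hρ0 : 16 ≤ ρ₀ := hLl.trans hρl
  have hρp : 0 < ρ₀ := by linarith
  have hlam := lam_pos hρp
  have hlam1 : lam ρ₀ ≤ 1 := lam_le_one (by linarith)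
  obtain ⟨hD2, hDk, hH2, hHκ⟩ := m_confine_num hNk hNκ hkκ hlog hT hD hH
  have hz0 : 0 < z₀ := by linarith
  have hzt : z₀ + H ≤ ρ₀ / 8 := m_confine_zt hρp (by linarith) hYl hz
  obtain ⟨hδ, hh⟩ := hhold ρ₀ hρh
  set δ := ρ₀ ^ (-N₂) with hδd
  have hδ0 : 0 < δ := Real.rpow_pos_of_pos hρp _
  have hball := hh ρ₀ z₀ s α hs hα (by linarith) (by linarith) (by linarith)
    ((pow_le_pow_left₀ hz0.le (by linarith) 2).trans hz) hτ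
  have hpe := pe_pos k (-N₂) hρp ρ₀
  rcases m_conf_top (h.lv_cont s α) (h.lv_rot s α) (ρl := ρ₀ - T) (ρr := ρ₀ + D) (zb := zb) (zt := z₀ + H)
    (ρ := ρ₀) (z := z₀) (by linarith) (by linarith) (by linarith) (by linarith) (by linarith) (by linarith)
    (hpe.trans_le (hball _ (Metric.mem_ball_self hδ0))) with h1 | ⟨A, hAo, hA1, hA2, hA3⟩
  · exact h1
  exfalso
  have hlaml : lam (ρ₀ - T) ≤ 2 * lam ρ₀ := (lam_anti (by linarith) (by linarith)).trans (lam_half hρp)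
  have hE := hen s α (ρ₀ - T) (ρ₀ + D) z₀ H A (by linarith) (by linarith) hH2 hAo
    (fun x hx => by
      obtain ⟨a1, a2, a3, a4, a5⟩ := hA1 x hx
      exact ⟨by linarith, a2.le, by linarith, by linarith, a5⟩)
    (fun x hx a1 a2 a3 => by
      obtain ⟨a4, a5⟩ := abs_le.1 a2
      refine hA2 x hx (by linarith) (by linarith) ?_ a3
      by_contra hc
      rw [not_or, not_not, not_le] at hc
      have := hbot (by linarith [hc.1]) (cyl x) hc.2.le (by linarith)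
      rw [h.lv_rot s α x hx, hc.1] at a3
      linarith)
  have hgeo : ∀ x ∈ Metric.ball (pt ρ₀ z₀) δ, |cyl x - ρ₀| < δ ∧ |x 2 - z₀| < δ := fun x hx => by
    rw [Metric.mem_ball, dist_eq_norm] at hx
    have h1 := abs_cyl_sub_le x (pt ρ₀ z₀)
    have h2 := abs_z_le_norm (x - pt ρ₀ z₀)
    rw [cyl_pt hρp.le] at h1
    rw [PiLp.sub_apply, pt_two] at h2
    exact ⟨h1.trans_lt hx, h2.trans_lt hx⟩
  have hBA : Metric.ball (pt ρ₀ z₀) δ ⊆ A := hA3 δ fun x hx => by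
    obtain ⟨a1, a2⟩ := hgeo x hx
    obtain ⟨a3, a4⟩ := abs_lt.1 a1
    obtain ⟨a5, a6⟩ := abs_lt.1 a2
    exact ⟨by linarith, by linarith, by linarith, by linarith, hpe.trans_le (hball x hx)⟩
  have hlow := m_confine_low (h.lv_eig s α).h1.mf hδ0 hpe.le
    (S := A ∩ {x | cyl x ≤ ρ₀ + D - 1 ∧ |x 2 - z₀| ≤ 1}) (fun x hx => by
      obtain ⟨a1, a2⟩ := hgeo x hx
      obtain ⟨a3, a4⟩ := abs_lt.1 a1
      exact ⟨hBA hx, by linarith, by linarith⟩) hball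
  have hm1 := hmass ρ₀ (ρ₀ + D - 1) s α (by linarith) (by linarith) hs hα
  have hm2 := hmass ρ₀ (ρ₀ - T) s α (by linarith) (by linarith) hs hα
  have hn1 := hnk ρ₀ D hρk hDk
  have hn2 := hnκ ρ₀ _ hρκ hHκ
  set E := Real.exp (-2 * k * ρ₀) with hEd
  have hE0 : 0 < E := Real.exp_pos _
  have e1 : Real.exp (-2 * k * (ρ₀ + D - 1)) = E * (Real.exp (2 * k) * Real.exp (-2 * k * D)) := by
    rw [hEd, ← Real.exp_add, ← Real.exp_add]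
    congr 1
    ring
  have e2 : Real.exp (-2 * κ * H) * Real.exp (-2 * k * (ρ₀ - T)) = E * Real.exp (-2 * κ * (H - k / κ * T)) := by
    rw [hEd, ← Real.exp_add, ← Real.exp_add]
    congr 1
    field_simp
    ring
  have e3 : pe k (-N₂) ρ₀ ρ₀ ^ 2 * δ ^ 3 = E * ρ₀ ^ (-(5 * N₂)) := by
    have : ρ₀ ^ (-(5 * N₂)) = δ ^ 5 := by
      rw [hδd, ← Real.rpow_natCast, ← Real.rpow_mul hρp.le]
      congr 1
      push_cast
      ring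
    rw [this, hEd, show -2 * k * ρ₀ = -k * ρ₀ + -k * ρ₀ by ring, Real.exp_add]
    unfold pe
    ring
  have hP1 : ρ₀ ^ P ≤ ρ₀ ^ (P + 5 * N₂) := Real.rpow_le_rpow_of_exponent_le (by linarith) (by linarith)
  have hP2 : ρ₀ ^ (-(P + 5 * N₂)) ≤ ρ₀ ^ (-(5 * N₂)) := Real.rpow_le_rpow_of_exponent_le (by linarith) (by linarith)
  have hPp : 0 < ρ₀ ^ P := Real.rpow_pos_of_pos hρp _
  have hup : M * ((∫ x in {x | ρ₀ + D - 1 ≤ cyl x}, lv u ψ s α x ^ 2) +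
      Real.exp (-2 * κ * H) * ∫ x in {x | ρ₀ - T ≤ cyl x}, lv u ψ s α x ^ 2) ≤
      E * (M * C₁ * Real.exp (2 * k) * ρ₀ ^ (P + 5 * N₂) * Real.exp (-2 * k * D) +
        M * C₁ * ρ₀ ^ (P + 5 * N₂) * Real.exp (-2 * κ * (H - k / κ * T))) := by
    calc _ ≤ M * (C₁ * ρ₀ ^ P * Real.exp (-2 * k * (ρ₀ + D - 1)) +
          Real.exp (-2 * κ * H) * (C₁ * ρ₀ ^ P * Real.exp (-2 * k * (ρ₀ - T)))) := by gcongr
      _ = M * (C₁ * ρ₀ ^ P * Real.exp (-2 * k * (ρ₀ + D - 1)) +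
          C₁ * ρ₀ ^ P * (Real.exp (-2 * κ * H) * Real.exp (-2 * k * (ρ₀ - T)))) := by ring
      _ = E * (M * C₁ * Real.exp (2 * k) * ρ₀ ^ P * Real.exp (-2 * k * D) +
        M * C₁ * ρ₀ ^ P * Real.exp (-2 * κ * (H - k / κ * T))) := by rw [e1, e2]; ring
      _ ≤ _ := by gcongr
  have hfin : E * ρ₀ ^ (-(5 * N₂)) < E * ρ₀ ^ (-(5 * N₂)) := by
    calc E * ρ₀ ^ (-(5 * N₂)) ≤ _ := e3 ▸ hlow
      _ ≤ _ := hE
      _ ≤ _ := hup
      _ < E * (1 / 2 * ρ₀ ^ (-(P + 5 * N₂)) + 1 / 2 * ρ₀ ^ (-(P + 5 * N₂))) :=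
          mul_lt_mul_of_pos_left (add_lt_add hn1 hn2) hE0
      _ ≤ _ := mul_le_mul_of_nonneg_left (by linarith) hE0.le
  exact lt_irrefl _ hfin

end Crest.Agent.R335
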