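import Crest.Agent.R335.M_Defs

/-!
# R335/M_Hardy: the weighted Hardy inequality

`w = (z g)² = z² r^(2b-4) e^(-2 k r)`, `Y = k w x / r = k z² F(‖x‖²) x` on `far L₁`, `L₁ = 4 |b| / k`.  `div Y = k w (2 b / r - 2 k)` (trace of `fderiv (a • id) = ⟪∇a, x⟫ + 3 a`, see `s8_div`),
`TH.sq_div`, `|2 h ⟪G, Y⟫| ≤ w ‖G‖² + k² w h²`; `k (2 k - 2 b / r) - k² ≥ k² / 2`.  Integrability: `w` is bounded on the compact set of `TH.cpt`.
-/

set_option autoImplicit false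

namespace Crest.Agent.R335

open MeasureTheory Set Filter Topology
open scoped Gradient RealInnerProductSpace ENNReal ContDiff
open Crest.MathPhysics.ThreeBody

variable {k b L C c e1 e2 : ℝ} {R d V0 S v φ u ψ : E3 → ℝ} {GR Gd Gφ Gu Gψ : E3 → E3}

theorem m_hardy_trace (L : E3 →L[ℝ] ℝ) (c : ℝ) (v : E3) :
    LinearMap.trace ℝ E3 ((c • ContinuousLinearMap.id ℝ E3 + L.smulRight v : E3 →L[ℝ] E3) : E3 →ₗ[ℝ] E3) =
      3 * c + L v := by
  have e3 : ((c • ContinuousLinearMap.id ℝ E3 + L.smulRight v : E3 →L[ℝ] E3) : E3 →ₗ[ℝ] E3) =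
      c • LinearMap.id + (L : E3 →ₗ[ℝ] ℝ).smulRight v := rfl
  rw [e3, map_add, map_smul, LinearMap.trace_id, LinearMap.trace_smulRight, finrank_euclideanSpace_fin]
  simp [mul_comm]

theorem m_hardy_psi (k b : ℝ) {r : ℝ} (hr : 0 < r) :
    HasDerivAt (fun r : ℝ => k * (r ^ (b - 2) * Real.exp (-k * r)) ^ 2 / r)
      ((2 * b - 5 - 2 * k * r) / r * (k * (r ^ (b - 2) * Real.exp (-k * r)) ^ 2 / r)) r := by
  have h1 : HasDerivAt (fun r : ℝ => r ^ (b - 2)) ((b - 2) * r ^ (b - 2 - 1)) r :=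
    Real.hasDerivAt_rpow_const (Or.inl hr.ne')
  have h2 : HasDerivAt (fun r : ℝ => Real.exp (-k * r)) (Real.exp (-k * r) * (-k * 1)) r :=
    ((hasDerivAt_id r).const_mul (-k)).exp
  have h3 := ((((h1.fun_mul h2).fun_pow 2).const_mul k).fun_div (hasDerivAt_id r) hr.ne')
  refine h3.congr_deriv ?_
  rw [Real.rpow_sub_one hr.ne']
  have := hr.ne'
  simp only [id]
  push_cast
  field_simp
  ring

theorem m_hardy_div (k b : ℝ) {x : E3} (hx : x ≠ 0) :
    LinearMap.trace ℝ E3 (fderiv ℝ (fun y : E3 => (k * (y 2 * gfun k b y) ^ 2 / ‖y‖) • y) x : E3 →ₗ[ℝ] E3) =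
      -(k * (2 * k - 2 * b / ‖x‖) * (x 2 * gfun k b x) ^ 2) := by
  have hr : 0 < ‖x‖ := norm_pos_iff.2 hx
  have hNd : DifferentiableAt ℝ (fun y : E3 => ‖y‖) x := (contDiffAt_norm ℝ (n := 1) hx).differentiableAt one_ne_zero
  have hN := hNd.hasFDerivAt
  have hNx : fderiv ℝ (fun y : E3 => ‖y‖) x x = ‖x‖ := hNd.fderiv_norm_self
  have hz : HasFDerivAt (fun y : E3 => y 2) (EuclideanSpace.proj (2 : Fin 3) : E3 →L[ℝ] ℝ) x :=
    (EuclideanSpace.proj (2 : Fin 3) : E3 →L[ℝ] ℝ).hasFDerivAt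
  have h1 := (m_hardy_psi k b hr).comp_hasFDerivAt x hN
  have h2 := ((hz.fun_mul hz).fun_mul h1).fun_smul (hasFDerivAt_id x)
  have e : (fun y : E3 => (k * (y 2 * gfun k b y) ^ 2 / ‖y‖) • y) = fun y : E3 =>
      (y 2 * y 2 * ((fun r : ℝ => k * (r ^ (b - 2) * Real.exp (-k * r)) ^ 2 / r) ∘ fun y : E3 => ‖y‖) y) • id y := by
    funext y
    simp only [gfun, Function.comp_apply, id]
    congr 1
    ring
  rw [e, h2.fderiv, m_hardy_trace]
  have := hr.ne'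
  simp only [Function.comp_apply, ContinuousLinearMap.smul_apply, ContinuousLinearMap.add_apply, id, hNx,
    smul_eq_mul, gfun, PiLp.proj_apply]
  field_simp
  ring

theorem m_hardy_c1 (k b : ℝ) {x : E3} (hx : x ≠ 0) :
    ContDiffAt ℝ 1 (fun y : E3 => (k * (y 2 * gfun k b y) ^ 2 / ‖y‖) • y) x := by
  have hr : ‖x‖ ≠ 0 := norm_ne_zero_iff.2 hx
  have hN : ContDiffAt ℝ 1 (fun y : E3 => ‖y‖) x := contDiffAt_norm ℝ hx
  have hz : ContDiffAt ℝ 1 (fun y : E3 => y 2) x :=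
    (EuclideanSpace.proj (2 : Fin 3) : E3 →L[ℝ] ℝ).contDiff.contDiffAt
  have hg : ContDiffAt ℝ 1 (gfun k b) x :=
    (hN.rpow_const_of_ne hr).mul (contDiffAt_const.mul hN).exp
  exact ((contDiffAt_const.mul ((hz.mul hg).pow 2)).div hN hr).smul contDiffAt_id

theorem m_hardy (hk : 0 < k) (b : ℝ) : ∃ L₁ : ℝ, 0 ≤ L₁ ∧ ∀ (f : E3 → ℝ) (G : E3 → E3), TH (far L₁) f G →
    Integrable (fun x => (x 2 * gfun k b x) ^ 2 * f x ^ 2) ∧
    Integrable (fun x => (x 2 * gfun k b x) ^ 2 * ‖G x‖ ^ 2) ∧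
    k ^ 2 / 2 * ∫ x, (x 2 * gfun k b x) ^ 2 * f x ^ 2 ≤ ∫ x, (x 2 * gfun k b x) ^ 2 * ‖G x‖ ^ 2 := by
  refine ⟨4 * |b| / k, by positivity, fun f G hf => ?_⟩
  have hL : 0 ≤ 4 * |b| / k := by positivity
  have hne : ∀ x ∈ far (4 * |b| / k), x ≠ 0 := fun x hx => norm_pos_iff.1 (lt_of_le_of_lt hL hx)
  set w : E3 → ℝ := fun x => (x 2 * gfun k b x) ^ 2 with hw
  have w0 : ∀ x, 0 ≤ w x := fun x => sq_nonneg _
  have wm : Measurable w := ((by fun_prop : Measurable fun x : E3 => x 2).mul (measurable_gfun k b)).pow_const 2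
  obtain ⟨K, hK, hKs, hK0⟩ := hf.cpt
  have wc : ContinuousOn w K :=
    ((by fun_prop : ContinuousOn (fun x : E3 => x 2) K).mul
      ((continuousOn_gfun k b).mono fun x hx => hne x (hKs hx))).pow 2
  obtain ⟨M, hM⟩ := hK.exists_bound_of_continuousOn wc
  have i1 : Integrable fun x => w x * f x ^ 2 := by
    refine (hf.h1.int_sq.const_mul M).mono' (wm.aestronglyMeasurable.mul hf.h1.int_sq.1) ?_
    filter_upwards [hK0] with x hx
    by_cases h : x ∈ K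
    · rw [norm_mul, Real.norm_of_nonneg (sq_nonneg (f x))]
      exact mul_le_mul_of_nonneg_right (hM x h) (sq_nonneg _)
    · simp [(hx h).1]
  have i2 : Integrable fun x => w x * ‖G x‖ ^ 2 := by
    refine (hf.h1.int_grad_sq.const_mul M).mono' (wm.aestronglyMeasurable.mul hf.h1.int_grad_sq.1) ?_
    filter_upwards [hK0] with x hx
    by_cases h : x ∈ K
    · rw [norm_mul, Real.norm_of_nonneg (sq_nonneg ‖G x‖)]
      exact mul_le_mul_of_nonneg_right (hM x h) (sq_nonneg _)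
    · simp [(hx h).2]
  refine ⟨i1, i2, ?_⟩
  have hY : ContDiffOn ℝ 1 (fun y : E3 => (k * (y 2 * gfun k b y) ^ 2 / ‖y‖) • y) (far (4 * |b| / k)) :=
    fun x hx => (m_hardy_c1 k b (hne x hx)).contDiffWithinAt
  have h := hf.sq_div (isOpen_far _) hY
  have hT : ∀ x ∈ K, |2 * b / ‖x‖| ≤ k / 2 := fun x hx => by
    have h1 : 4 * |b| / k < ‖x‖ := hKs hx
    have h2 : 0 < ‖x‖ := lt_of_le_of_lt hL h1
    rw [div_lt_iff₀ hk] at h1
    rw [abs_div, abs_mul, abs_two, abs_of_pos h2, div_le_iff₀ h2]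
    linarith
  have e1 : ∫ x, LinearMap.trace ℝ E3
        (fderiv ℝ (fun y : E3 => (k * (y 2 * gfun k b y) ^ 2 / ‖y‖) • y) x : E3 →ₗ[ℝ] E3) * f x ^ 2 =
      -∫ x, k * (2 * k - 2 * b / ‖x‖) * (w x * f x ^ 2) := by
    rw [← integral_neg]
    apply integral_congr_ae
    filter_upwards [hK0] with x hx
    by_cases h : x ∈ K
    · rw [m_hardy_div k b (hne x (hKs h))]
      simp only [hw]
      ring
    · simp [(hx h).1]
  have i3 : Integrable fun x => k * (2 * k - 2 * b / ‖x‖) * (w x * f x ^ 2) := by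
    refine (i1.const_mul (k * (5 * k / 2))).mono'
      (AEStronglyMeasurable.mul (Measurable.aestronglyMeasurable (by fun_prop)) i1.1) ?_
    filter_upwards [hK0] with x hx
    by_cases h : x ∈ K
    · have h1 := abs_le.1 (hT x h)
      have h2 : 0 ≤ w x * f x ^ 2 := mul_nonneg (w0 x) (sq_nonneg _)
      have h3 : 0 ≤ k * (2 * k - 2 * b / ‖x‖) := mul_nonneg hk.le (by linarith [h1.2])
      rw [Real.norm_of_nonneg (mul_nonneg h3 h2)]
      exact mul_le_mul_of_nonneg_right (mul_le_mul_of_nonneg_left (by linarith [h1.1]) hk.le) h2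
    · simp [(hx h).1]
  have l1 : k * (3 * k / 2) * ∫ x, w x * f x ^ 2 ≤ ∫ x, k * (2 * k - 2 * b / ‖x‖) * (w x * f x ^ 2) := by
    rw [← integral_const_mul]
    apply integral_mono_ae (i1.const_mul _) i3
    filter_upwards [hK0] with x hx
    by_cases h : x ∈ K
    · have h1 := abs_le.1 (hT x h)
      have h2 : 0 ≤ w x * f x ^ 2 := mul_nonneg (w0 x) (sq_nonneg _)
      exact mul_le_mul_of_nonneg_right (mul_le_mul_of_nonneg_left (by linarith [h1.2]) hk.le) h2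
    · simp [(hx h).1]
  have hb : ∀ x, |2 * f x * ⟪G x, (k * (x 2 * gfun k b x) ^ 2 / ‖x‖) • x⟫| ≤
      w x * ‖G x‖ ^ 2 + k ^ 2 * (w x * f x ^ 2) := fun x => by
    have h0 := w0 x
    have h1 : ‖(k * (x 2 * gfun k b x) ^ 2 / ‖x‖) • x‖ ≤ k * w x := by
      rw [norm_smul, Real.norm_of_nonneg (by positivity)]
      rcases eq_or_ne ‖x‖ 0 with h | h
      · rw [h, mul_zero]
        positivity
      · rw [div_mul_cancel₀ _ h]
    have h3 := (abs_real_inner_le_norm (G x) ((k * (x 2 * gfun k b x) ^ 2 / ‖x‖) • x)).trans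
      (mul_le_mul_of_nonneg_left h1 (norm_nonneg _))
    rw [abs_mul, abs_mul, abs_two]
    have h4 := mul_le_mul_of_nonneg_left h3 (by positivity : 0 ≤ 2 * |f x|)
    have h5 := mul_nonneg h0 (sq_nonneg (‖G x‖ - k * |f x|))
    rw [← sq_abs (f x)]
    nlinarith
  have hB : Integrable fun x => w x * ‖G x‖ ^ 2 + k ^ 2 * (w x * f x ^ 2) := i2.add (i1.const_mul _)
  have l2 : |∫ x, 2 * f x * ⟪G x, (k * (x 2 * gfun k b x) ^ 2 / ‖x‖) • x⟫| ≤
      ∫ x, (w x * ‖G x‖ ^ 2 + k ^ 2 * (w x * f x ^ 2)) :=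
    norm_integral_le_of_norm_le (f := fun x => 2 * f x * ⟪G x, (k * (x 2 * gfun k b x) ^ 2 / ‖x‖) • x⟫) hB
      (Eventually.of_forall hb)
  rw [integral_add i2 (i1.const_mul _), integral_const_mul] at l2
  have l3 := le_abs_self (∫ x, 2 * f x * ⟪G x, (k * (x 2 * gfun k b x) ^ 2 / ‖x‖) • x⟫)
  rw [e1] at h
  linarith

end Crest.Agent.R335
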