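import Crest.Agent.R335.M_Path
import Crest.Agent.R335.M_Bnd3

/-!
# R335/M_Main: choice of the parameters
-/

set_option autoImplicit false

namespace Crest.Agent.R335

open MeasureTheory Set Filter Topology
open scoped Gradient RealInnerProductSpace ENNReal ContDiff
open Crest.MathPhysics.ThreeBody

variable {k b L C c e1 e2 : ℝ} {R d V0 S v φ u ψ : E3 → ℝ} {GR Gd Gφ Gu Gψ : E3 → E3}

set_option maxHeartbeats 1000000 in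
theorem m_main (h : Red k b L C c R GR d Gd V0 S v e1 e2 φ Gφ u Gu ψ Gψ) (Y W N₀ : ℝ) :
    ∃ Cd Ch L' : ℝ, 1 ≤ Cd ∧ 1 ≤ Ch ∧ 16 ≤ L' ∧ ∀ ρ₀, L' ≤ ρ₀ →
      (Cd + |W|) * Real.log ρ₀ ≤ ρ₀ / 4 ∧ Ch * Real.log ρ₀ + 1 ≤ ρ₀ ^ (1 / 4 : ℝ) ∧
      ∀ z₀ s α z₁ ρ z, (s = 1 ∨ s = -1) → lam ρ₀ ≤ z₀ → z₀ ^ 2 ≤ Y * ρ₀ * Real.log ρ₀ →
      |α - tau u ψ ρ₀ z₀| ≤ 1 → ρ₀ ^ (-12 : ℝ) / 4 ≤ s * (tau u ψ ρ₀ z₀ - α) →
      (z₀ - Ch * Real.log ρ₀ < 3 / 4 * lam ρ₀ → ∀ ρ', ρ₀ / 2 ≤ ρ' → ρ' ≤ 2 * ρ₀ →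
        lv u ψ s α (pt ρ' (3 / 4 * lam ρ₀)) ≤ 0) →
      0 < z₁ → z₁ ≤ lam ρ₀ / 2 →
      (∀ ρ', ρ₀ / 2 ≤ ρ' → ρ' ≤ 2 * ρ₀ →
        lv u ψ s α (pt ρ' z₁) ≤ 0 ∨ ∀ t', 0 ≤ t' → t' ≤ z₁ → 0 < lv u ψ s α (pt ρ' t')) →
      (∀ x, ρ₀ / 2 ≤ cyl x → cyl x ≤ 2 * ρ₀ → z₁ ≤ x 2 → x 2 < lam ρ₀ / 8 →
        pe k (-N₀) ρ₀ (cyl x) ^ 2 ≤ u x ^ 2 + ψ x ^ 2) →
      ρ₀ - (Cd + W) * Real.log ρ₀ ≤ ρ → ρ ≤ ρ₀ - Cd * Real.log ρ₀ →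
      (s = 1 ∧ lam ρ₀ / 2 ≤ z ∧ z ≤ max (z₀ - Ch * Real.log ρ₀) (3 / 4 * lam ρ₀) ∨
        s = -1 ∧ z₀ + Ch * Real.log ρ₀ ≤ z ∧ z ^ 2 ≤ 4 * Y * ρ₀ * Real.log ρ₀) →
      -s * (tau u ψ ρ z - α) < ρ₀ ^ (-12 : ℝ) / 8 := by
  obtain ⟨C', L₀, h0⟩ := m_tau_le h Y
  obtain ⟨N₁, L₁, hN₁, h1⟩ := m_low h (8 * |Y| + 2)
  obtain ⟨N₂, L₂, hN₂, h2⟩ := m_path h (8 * |Y| + 2) (C' + 1) (max N₀ N₁)
  obtain ⟨N₃, L₃, hN₃, h3⟩ := m_concl h (8 * |Y| + 2) (C' + 1)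
  set N := max N₂ N₃ with hN
  have hN2 : N₂ ≤ N := le_max_left _ _
  have hN3 : N₃ ≤ N := le_max_right _ _
  have hN1 : 1 ≤ N := hN₂.trans hN2
  have hW := abs_nonneg W
  have hY := abs_nonneg Y
  set Ch := N * (2 * N + |W| + 3) with hCh
  have hCh1 : 2 * N + |W| + 3 ≤ Ch := by nlinarith
  obtain ⟨L₄, hL₄, h4⟩ := m_large (Ch + 1)
  refine ⟨N, Ch, max (max (max L₀ L₁) (max L₂ L₃)) L₄, hN1, by linarith, le_max_of_le_right hL₄, fun ρ₀ hL => ?_⟩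
  have hL0 : L₀ ≤ ρ₀ := le_trans (by simp) hL
  have hL1 : L₁ ≤ ρ₀ := le_trans (by simp) hL
  have hL2 : L₂ ≤ ρ₀ := le_trans (by simp) hL
  have hL3 : L₃ ≤ ρ₀ := le_trans (by simp) hL
  have hL4 : L₄ ≤ ρ₀ := le_trans (by simp) hL
  have h16 : 16 ≤ ρ₀ := hL₄.trans hL4
  obtain ⟨hl1, hq1, hq2, hq3⟩ := h4 ρ₀ hL4
  set l := Real.log ρ₀ with hl
  set q := ρ₀ ^ (1 / 4 : ℝ) with hq
  have hq4 : q ^ 4 = ρ₀ := by
    rw [hq, ← Real.rpow_natCast, ← Real.rpow_mul (by linarith)]; norm_num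
  have hChl : 0 ≤ Ch * l := by positivity
  have hq5 : Ch * l + 1 ≤ q := by linarith
  have hq6 : q ^ 2 ≤ ρ₀ * l := by
    have : 1 ≤ q := by linarith
    have h5 : q ^ 2 ≤ q ^ 4 := pow_le_pow_right₀ this (by norm_num)
    nlinarith
  have hT1 : (2 * N + |W| + 3) * l ≤ Ch * l := mul_le_mul_of_nonneg_right hCh1 (by linarith)
  have hNl : 1 ≤ N * l := by nlinarith
  have hWl : 0 ≤ |W| * l := by positivity
  have hWl' : W * l ≤ |W| * l := mul_le_mul_of_nonneg_right (le_abs_self W) (by linarith)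
  refine ⟨by linarith, hq5, ?_⟩
  intro z₀ s α z₁ ρ z hs hz₀ hz₀' hα he hbot hz₁ hz₁' hzer hlow hρ1 hρ2 hcase
  have hlam : 0 < lam ρ₀ := lam_pos (by linarith)
  have hlam1 : lam ρ₀ ≤ 1 := lam_le_one (by linarith)
  have hρl : 1 ≤ ρ₀ * l := by nlinarith
  have hYl : Y * ρ₀ * l ≤ |Y| * (ρ₀ * l) := by
    rw [mul_assoc]; exact mul_le_mul_of_nonneg_right (le_abs_self Y) (by linarith)
  have hYl0 : 0 ≤ |Y| * (ρ₀ * l) := by positivity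
  have hα' : |α| ≤ C' + 1 := by
    have h5 := h0 ρ₀ z₀ hL0 hz₀ hz₀'
    have h6 := abs_add_le (α - tau u ψ ρ₀ z₀) (tau u ψ ρ₀ z₀)
    rw [sub_add_cancel] at h6
    linarith
  have hzt : (z₀ + Ch * l + 1) ^ 2 ≤ (8 * |Y| + 2) * ρ₀ * l := by
    have h5 : (Ch * l + 1) ^ 2 ≤ q ^ 2 := pow_le_pow_left₀ (by linarith) hq5 2
    linarith [sq_nonneg (z₀ - (Ch * l + 1))]
  have hb1 : z₀ - Ch * l ≤ max (z₀ - Ch * l) (3 / 4 * lam ρ₀) := le_max_left _ _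
  have hb2 : 3 / 4 * lam ρ₀ ≤ max (z₀ - Ch * l) (3 / 4 * lam ρ₀) := le_max_right _ _
  have hb3 : max (z₀ - Ch * l) (3 / 4 * lam ρ₀) + lam ρ₀ / 8 ≤ z₀ := by
    rcases le_total (z₀ - Ch * l) (3 / 4 * lam ρ₀) with h5 | h5
    · rw [max_eq_right h5]; linarith
    · rw [max_eq_left h5]; linarith
  obtain ⟨r, hr0, hr1, hr2, hJ⟩ := h2 ρ₀ s α z₀ ((2 * N + |W|) * l + 2) (N * l) (Ch * l)
    (max (z₀ - Ch * l) (3 / 4 * lam ρ₀)) z₁ hL2 hs hα' (by linarith) (by linarith)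
    (mul_le_mul_of_nonneg_right hN2 (by linarith)) (by linarith)
    (by
      have h5 : (2 * N + |W|) * l + 2 + l ≤ (2 * N + |W| + 3) * l := by linarith
      calc N₂ * ((2 * N + |W|) * l + 2 + l) ≤ N * ((2 * N + |W| + 3) * l) :=
            mul_le_mul hN2 h5 (by linarith) (by linarith)
        _ = Ch * l := by rw [hCh]; ring)
    hzt hb2 hb1 hb3 he
    (fun h5 => by
      have h6 : z₀ - Ch * l < 3 / 4 * lam ρ₀ := by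
        rcases lt_max_iff.1 h5 with h6 | h6
        · exact absurd h6 (lt_irrefl _)
        · exact h6
      rw [max_eq_right h6.le]
      exact hbot h6)
    hz₁ hz₁' hzer
    (fun x h5 h6 h7 h8 => by
      have hm : ∀ M, M ≤ max N₀ N₁ → pe k (-max N₀ N₁) ρ₀ (cyl x) ^ 2 ≤ pe k (-M) ρ₀ (cyl x) ^ 2 := fun M hM =>
        pow_le_pow_left₀ (pe_pos _ _ (by linarith) _).le (mul_le_mul_of_nonneg_right
          (Real.rpow_le_rpow_of_exponent_le (by linarith) (by linarith)) (Real.exp_pos _).le) 2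
      rcases lt_or_ge (x 2) (lam ρ₀ / 8) with h9 | h9
      · exact (hm _ (le_max_left _ _)).trans (hlow x h5 h6 h7 h9)
      · refine (hm _ (le_max_right _ _)).trans ?_
        have h10 := h1 ρ₀ x hL1 h5 h6 h9 h8
        have h11 := pe_pos k (-N₁) (by linarith : 0 < ρ₀) (cyl x)
        exact (pow_le_pow_left₀ h11.le h10 2).trans (le_add_of_nonneg_right (sq_nonneg _)))
  have hN3l : N₃ * l ≤ N * l := mul_le_mul_of_nonneg_right hN3 (by linarith)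
  refine h3 ρ₀ s α z₀ _ _ _ _ _ r ρ z hL3 hs hα' hr0 hr1 hr2 hJ (by linarith) (by linarith) (by linarith)
    (by linarith) ?_ ?_ hzt ?_
  · rcases hcase with ⟨-, h5, -⟩ | ⟨-, h5, -⟩ <;> linarith
  · rcases hcase with ⟨h5, -, h6⟩ | ⟨h5, h6, -⟩
    · exact Or.inl ⟨h5, h6⟩
    · exact Or.inr ⟨h5, h6⟩
  · rcases hcase with ⟨-, h5, h6⟩ | ⟨-, h5, h6⟩
    · exact le_trans (pow_le_pow_left₀ (by linarith) (by linarith) 2) hzt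
    · have h7 : (z + 1) ^ 2 ≤ 2 * z ^ 2 + 2 := by linarith [sq_nonneg (z - 1)]
      linarith

end Crest.Agent.R335
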