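import Crest.Agent.R335.M_Piece
import Crest.Agent.R335.M_Cut

/-!
# R335/M_PE: the energy of a pocket

`ζ` from `m_cut_cyl`, `ξ, K` from `m_piece_h1` for `f = lv u ψ s α`, `picone` with `u` (`Red.u_pos`), `m_piece`.  On `A ∩ {cyl < ρ₁ - 1}`: `K - (ξ / u) Gu = s • uD`, `‖s • uD‖ = ‖uD‖`.
`∫_A ‖∇ζ‖² f² ≤ M² ∫_{ρ₁ - 1 ≤ cyl} f²`.
-/

set_option autoImplicit false

namespace Crest.Agent.R335

open MeasureTheory Set Filter Topology
open scoped Gradient RealInnerProductSpace ENNReal ContDiff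
open Crest.MathPhysics.ThreeBody

variable {k b L C c e1 e2 : ℝ} {R d V0 S v φ u ψ : E3 → ℝ} {GR Gd Gφ Gu Gψ : E3 → E3}

theorem m_pocket_energy (h : Red k b L C c R GR d Gd V0 S v e1 e2 φ Gφ u Gu ψ Gψ) : ∃ M : ℝ, 0 ≤ M ∧
    ∀ (s α ρ₁ : ℝ) (A : Set E3), (s = 1 ∨ s = -1) → 2 ≤ ρ₁ → IsOpen A →
      (∀ x ∈ A, x ∈ offA ∧ 0 < x 2 ∧ 0 < lv u ψ s α x) →
      (∀ x ∈ offA, cyl x < ρ₁ → 0 < lv u ψ s α x → AoN A x) →
      IntegrableOn (fun x => ‖uD u ψ Gu Gψ x‖ ^ 2) (A ∩ {x | cyl x < ρ₁ - 1}) ∧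
        ∫ x in A ∩ {x | cyl x < ρ₁ - 1}, ‖uD u ψ Gu Gψ x‖ ^ 2 ≤
          M * ∫ x in {x | ρ₁ - 1 ≤ cyl x}, lv u ψ s α x ^ 2 := by
  obtain ⟨M, hM, hcut⟩ := m_cut_cyl
  refine ⟨M ^ 2, sq_nonneg M, fun s α ρ₁ A hs hρ hA hAp haon => ?_⟩
  obtain ⟨ζ, hζ, h0, h1, hsup, hone, hgrad⟩ := hcut ρ₁ hρ
  have hf := h.lv_eig s α
  have hc := h.lv_cont s α
  have hAp' : ∀ x ∈ A, 0 < lv u ψ s α x := fun x hx => (hAp x hx).2.2
  have haon' : ∀ x ∈ offA, x ∈ tsupport ζ → 0 < lv u ψ s α x → AoN A x := fun x hx hx' hp =>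
    haon x hx (by linarith [hsup x hx']) hp
  have hξ := m_piece_h1 hf.h1 hc hζ h0 h1 hA hAp' haon'
  have hE := m_piece h.fb hf hc hζ h0 h1 hA hAp' haon'
  have hup : ∀ x ∈ A, 0 < u x := fun x hx => h.u_pos (hAp x hx).1 (hAp x hx).2.1
  obtain ⟨hI, hP⟩ := picone h.fb h.ou.orb.eig hξ (Eventually.of_forall fun x hx => by
    by_contra hn
    exact hx (indicator_of_notMem (fun hxA => hn (hup x hxA)) _))
  rw [hE] at hP
  have hBm : MeasurableSet (A ∩ {x | cyl x < ρ₁ - 1}) :=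
    (hA.inter (isOpen_lt continuous_cyl continuous_const)).measurableSet
  have hCm : MeasurableSet {x : E3 | ρ₁ - 1 ≤ cyl x} :=
    (isClosed_le continuous_const continuous_cyl).measurableSet
  have heq : EqOn (fun x => ‖(A.indicator fun x => ζ x • lvG Gu Gψ s α x + lv u ψ s α x • ∇ ζ x) x -
      ((A.indicator fun x => ζ x * lv u ψ s α x) x / u x) • Gu x‖ ^ 2)
      (fun x => ‖uD u ψ Gu Gψ x‖ ^ 2) (A ∩ {x | cyl x < ρ₁ - 1}) := by
    intro x hx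
    have hx2 : cyl x < ρ₁ - 1 := hx.2
    have hu := (hup x hx.1).ne'
    have e : (A.indicator fun x => ζ x • lvG Gu Gψ s α x + lv u ψ s α x • ∇ ζ x) x -
        ((A.indicator fun x => ζ x * lv u ψ s α x) x / u x) • Gu x = s • uD u ψ Gu Gψ x := by
      rw [indicator_of_mem hx.1, indicator_of_mem hx.1, hone x hx2.le, hgrad x hx2]
      have e2 : 1 * lv u ψ s α x / u x = s * (ψ x / u x) - s * α := by
        unfold lv; field_simp
      rw [e2]
      unfold lvG uD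
      module
    have hs1 : |s| = 1 := by rcases hs with rfl | rfl <;> simp
    simp only [e, norm_smul, Real.norm_eq_abs, hs1, one_mul]
  refine ⟨(integrableOn_congr_fun heq hBm).1 hI.integrableOn, ?_⟩
  have i2 : Integrable (fun x => lv u ψ s α x ^ 2) := hf.h1.mf.integrable_sq
  have t1 : ∫ x in A ∩ {x | cyl x < ρ₁ - 1}, ‖uD u ψ Gu Gψ x‖ ^ 2 ≤
      ∫ x in A, ‖∇ ζ x‖ ^ 2 * lv u ψ s α x ^ 2 := by
    rw [← setIntegral_congr_fun hBm heq]
    refine (setIntegral_le_integral hI (Eventually.of_forall fun x => by positivity)).trans ?_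
    linarith
  refine t1.trans ?_
  have iJ : Integrable ({x : E3 | ρ₁ - 1 ≤ cyl x}.indicator fun x => M ^ 2 * lv u ψ s α x ^ 2) :=
    (i2.const_mul _).indicator hCm
  have hJ0 : ∀ x, 0 ≤ ({x : E3 | ρ₁ - 1 ≤ cyl x}.indicator fun x => M ^ 2 * lv u ψ s α x ^ 2) x :=
    fun x => indicator_nonneg (fun y _ => by positivity) x
  calc ∫ x in A, ‖∇ ζ x‖ ^ 2 * lv u ψ s α x ^ 2
      ≤ ∫ x in A, ({x : E3 | ρ₁ - 1 ≤ cyl x}.indicator fun x => M ^ 2 * lv u ψ s α x ^ 2) x := by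
        refine integral_mono_of_nonneg (Eventually.of_forall fun x => by positivity)
          iJ.integrableOn (Eventually.of_forall fun x => ?_)
        by_cases hx : x ∈ {x : E3 | ρ₁ - 1 ≤ cyl x}
        · simp only [indicator_of_mem hx]
          exact mul_le_mul_of_nonneg_right (pow_le_pow_left₀ (norm_nonneg _) (h1 x) 2) (sq_nonneg _)
        · simp only [indicator_of_notMem hx]
          rw [hgrad x (not_le.1 hx)]
          simp
    _ ≤ ∫ x, ({x : E3 | ρ₁ - 1 ≤ cyl x}.indicator fun x => M ^ 2 * lv u ψ s α x ^ 2) x :=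
        setIntegral_le_integral iJ (Eventually.of_forall hJ0)
    _ = M ^ 2 * ∫ x in {x | ρ₁ - 1 ≤ cyl x}, lv u ψ s α x ^ 2 := by
        rw [integral_indicator hCm, integral_const_mul]

end Crest.Agent.R335
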