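import Crest.Agent.R335.M_Pocket
import Crest.Agent.R335.M_Confine

/-!
# R335/M_Path: (Path) and (Conclusion)
-/

set_option autoImplicit false

namespace Crest.Agent.R335

open MeasureTheory Set Filter Topology
open scoped Gradient RealInnerProductSpace ENNReal ContDiff
open Crest.MathPhysics.ThreeBody

variable {k b L C c e1 e2 : ℝ} {R d V0 S v φ u ψ : E3 → ℝ} {GR Gd Gφ Gu Gψ : E3 → E3}

theorem m_path (h : Red k b L C c R GR d Gd V0 S v e1 e2 φ Gφ u Gu ψ Gψ) (Y C' N₀ : ℝ) : ∃ N L' : ℝ, 1 ≤ N ∧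
    ∀ ρ₀ s α z₀ T D H zb z₁, L' ≤ ρ₀ → (s = 1 ∨ s = -1) → |α| ≤ C' → 2 ≤ T → T ≤ ρ₀ / 4 → N * Real.log ρ₀ ≤ D →
      D ≤ ρ₀ / 4 → N * (T + Real.log ρ₀) ≤ H → (z₀ + H + 1) ^ 2 ≤ Y * ρ₀ * Real.log ρ₀ → 3 / 4 * lam ρ₀ ≤ zb →
      z₀ - H ≤ zb → zb + lam ρ₀ / 8 ≤ z₀ → ρ₀ ^ (-12 : ℝ) / 4 ≤ s * (tau u ψ ρ₀ z₀ - α) →
      (z₀ - H < zb → ∀ ρ, ρ₀ / 2 ≤ ρ → ρ ≤ 2 * ρ₀ → lv u ψ s α (pt ρ zb) ≤ 0) → 0 < z₁ → z₁ ≤ lam ρ₀ / 2 →
      (∀ ρ, ρ₀ / 2 ≤ ρ → ρ ≤ 2 * ρ₀ →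
        lv u ψ s α (pt ρ z₁) ≤ 0 ∨ ∀ t', 0 ≤ t' → t' ≤ z₁ → 0 < lv u ψ s α (pt ρ t')) →
      (∀ x, ρ₀ / 2 ≤ cyl x → cyl x ≤ 2 * ρ₀ → z₁ ≤ x 2 → x 2 ^ 2 ≤ Y * ρ₀ * Real.log ρ₀ →
        pe k (-N₀) ρ₀ (cyl x) ^ 2 ≤ u x ^ 2 + ψ x ^ 2) →
      ∃ r, 0 < r ∧ r < ρ₀ - T + D + 1 ∧ 0 < s * ψ (pt r 0) ∧
        JoinedIn (posS (lv u ψ s α) ∩ ({p | p.1 < ρ₀ - T + D + 1} ∪ Ioo (ρ₀ - T) (ρ₀ + D) ×ˢ Ioo zb (z₀ + H)))
          (r, 0) (ρ₀, z₀) := by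
  obtain ⟨N₁, L₁, hN₁, h1⟩ := m_confine h Y (C' + 1)
  obtain ⟨N₂, L₂, hN₂, h2⟩ := m_pocket h Y C' N₀
  refine ⟨max N₁ N₂, max (max L₁ L₂) 16, le_max_of_le_left hN₁, ?_⟩
  intro ρ₀ s α z₀ T D H zb z₁ hL hs hα hT hT' hD hD' hH hY hzb hzb1 hzb2 he hbot hz₁ hz₁' hzer hlow
  have hL1 : L₁ ≤ ρ₀ := (le_max_left _ _).trans ((le_max_left _ _).trans hL)
  have hL2 : L₂ ≤ ρ₀ := (le_max_right _ _).trans ((le_max_left _ _).trans hL)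
  have h16 : 16 ≤ ρ₀ := (le_max_right _ _).trans hL
  have hl0 : 0 ≤ Real.log ρ₀ := Real.log_nonneg (by linarith)
  have hlam : 0 < lam ρ₀ := lam_pos (by linarith)
  have hlam1 : lam ρ₀ ≤ 1 := lam_le_one (by linarith)
  have he0 : 0 < ρ₀ ^ (-12 : ℝ) := Real.rpow_pos_of_pos (by linarith) _
  have he1 : ρ₀ ^ (-12 : ℝ) ≤ 1 := Real.rpow_le_one_of_one_le_of_nonpos (by linarith) (by norm_num)
  set e := ρ₀ ^ (-12 : ℝ) with he_def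
  have hss : s * s = 1 := by rcases hs with rfl | rfl <;> norm_num
  have hsa : |s| = 1 := by rcases hs with rfl | rfl <;> simp
  have hD1 : N₁ * Real.log ρ₀ ≤ D := (mul_le_mul_of_nonneg_right (le_max_left _ _) hl0).trans hD
  have hD2 : N₂ * Real.log ρ₀ ≤ D := (mul_le_mul_of_nonneg_right (le_max_right _ _) hl0).trans hD
  have hH1 : N₁ * (T + Real.log ρ₀) ≤ H := (mul_le_mul_of_nonneg_right (le_max_left _ _) (by linarith)).trans hH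
  have hH0 : 0 ≤ H := le_trans (by positivity) hH1
  have hD0 : 0 ≤ D := le_trans (by positivity) hD1
  have hlv : ∀ x, lv u ψ s (α + s * (e / 8)) x = lv u ψ s α x - e / 8 * u x := fun x => by
    unfold lv
    linear_combination (-(e / 8) * u x) * hss
  have hα1 : |α + s * (e / 8)| ≤ C' + 1 := by
    refine (abs_add_le _ _).trans (add_le_add hα ?_)
    rw [abs_mul, hsa, one_mul, abs_of_pos (by positivity)]
    linarith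
  obtain ⟨p, hp1, hp2⟩ := h1 ρ₀ s (α + s * (e / 8)) z₀ T D H zb hL1 hs hα1 hT hT' hD1 hD' hH1
    (le_trans (by nlinarith) hY) (by linarith) hzb1 hzb2
    (by
      have : s * (tau u ψ ρ₀ z₀ - (α + s * (e / 8))) = s * (tau u ψ ρ₀ z₀ - α) - e / 8 := by
        linear_combination (-(e / 8)) * hss
      rw [this]; linarith)
    (fun hz ρ hρ1 hρ2 => by
      have h3 := hbot hz ρ (by linarith) (by linarith)
      have h4 : 0 ≤ u (pt ρ zb) := h.u_nonneg (pt_mem_offA (by linarith) _) (by rw [pt_two]; linarith)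
      rw [hlv]
      have : 0 ≤ e / 8 * u (pt ρ zb) := by positivity
      linarith)
  obtain ⟨⟨hq1, hq2, hq3⟩, ⟨hq4, hq5⟩, hq6, hq7⟩ := hp2.source_mem
  have hpz : 0 < p.2 := by linarith
  have hup : 0 < u (pt p.1 p.2) := h.u_pos (pt_mem_offA hq1 _) (by rwa [pt_two])
  have hτ : e / 8 ≤ s * (tau u ψ p.1 p.2 - α) := by
    rw [h.lv_tau _ _ hq1 hpz] at hq3
    have h5 : 0 < s * (tau u ψ p.1 p.2 - (α + s * (e / 8))) := (pos_iff_pos_of_mul_pos hq3).2 hup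
    have : s * (tau u ψ p.1 p.2 - (α + s * (e / 8))) = s * (tau u ψ p.1 p.2 - α) - e / 8 := by
      linear_combination (-(e / 8)) * hss
    linarith
  obtain ⟨r, hr0, hr1, hr2, hr3⟩ := h2 ρ₀ s α p.1 p.2 (ρ₀ - T + D + 1) z₁ (z₀ + H + 1) hL2 hs hα (by linarith)
    (by linarith) (by linarith) (by linarith) hz₁ (by linarith) (by linarith) hY hτ
    (fun x hx h3 h4 => by
      rw [abs_le] at hx
      exact hlow x (by linarith) (by linarith) h3 (le_trans (by nlinarith) hY))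
    (fun ρ' hρ' => by
      rw [abs_le] at hρ'
      exact ⟨z₁, le_rfl, by linarith, hzer ρ' (by linarith) (by linarith)⟩)
  refine ⟨r, hr0, hr1, hr2, JoinedIn.trans (hr3.mono fun q hq => ⟨hq.1, Or.inl hq.2⟩)
    (hp2.mono fun q hq => ⟨?_, Or.inr hq.2⟩)⟩
  obtain ⟨⟨h3, h4, h5⟩, -⟩ := hq
  refine ⟨h3, h4, ?_⟩
  have h6 : 0 ≤ u (pt q.1 q.2) := h.u_nonneg (pt_mem_offA h3 _) (by rwa [pt_two])
  rw [hlv] at h5
  have : 0 ≤ e / 8 * u (pt q.1 q.2) := by positivity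
  linarith

theorem m_concl (h : Red k b L C c R GR d Gd V0 S v e1 e2 φ Gφ u Gu ψ Gψ) (Y C' : ℝ) : ∃ N L' : ℝ, 1 ≤ N ∧
    ∀ ρ₀ s α z₀ ρ₁ ρl ρr zb zt r ρ z, L' ≤ ρ₀ → (s = 1 ∨ s = -1) → |α| ≤ C' → 0 < r → r < ρ₁ → 0 < s * ψ (pt r 0) →
      JoinedIn (posS (lv u ψ s α) ∩ ({p | p.1 < ρ₁} ∪ Ioo ρl ρr ×ˢ Ioo zb zt)) (r, 0) (ρ₀, z₀) →
      ρ₀ / 2 + 1 ≤ ρ → ρ₁ + 1 / 2 ≤ ρ → ρ + N * Real.log ρ₀ ≤ ρ₀ → lam ρ₀ / 2 ≤ zb → lam ρ₀ / 2 ≤ z →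
      (s = 1 ∧ z ≤ zb ∨ s = -1 ∧ zt ≤ z) → (zt + 1) ^ 2 ≤ Y * ρ₀ * Real.log ρ₀ →
      (z + 1) ^ 2 ≤ Y * ρ₀ * Real.log ρ₀ → -s * (tau u ψ ρ z - α) < ρ₀ ^ (-12 : ℝ) / 8 := by
  obtain ⟨N₁, L₁, hN₁, h1⟩ := m_low h Y
  obtain ⟨N₂, L₂, hN₂, h2⟩ := m_pocket h Y C' N₁
  refine ⟨N₂, max (max L₁ L₂) 16, hN₂, ?_⟩
  intro ρ₀ s α z₀ ρ₁ ρl ρr zb zt r ρ z hL hs hα hr0 hr1 hr2 hJ hρ1 hρ2 hρ3 hzb hz hcase hY1 hY2
  by_contra hcon
  push Not at hcon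
  have hL1 : L₁ ≤ ρ₀ := (le_max_left _ _).trans ((le_max_left _ _).trans hL)
  have hL2 : L₂ ≤ ρ₀ := (le_max_right _ _).trans ((le_max_left _ _).trans hL)
  have h16 : 16 ≤ ρ₀ := (le_max_right _ _).trans hL
  have hl1 : 1 ≤ Real.log ρ₀ := by
    rw [Real.le_log_iff_exp_le (by linarith)]
    linarith [Real.exp_one_lt_three]
  have hlam : 0 < lam ρ₀ := lam_pos (by linarith)
  have hlam1 : lam ρ₀ ≤ 1 := lam_le_one (by linarith)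
  have hρ4 : ρ + 1 ≤ ρ₀ := by nlinarith
  have hneg : ∀ x, lv u ψ (-s) α x = -lv u ψ s α x := fun x => by unfold lv; ring
  have hs' : -s = 1 ∨ -s = -1 := by rcases hs with rfl | rfl <;> simp
  have hY3 : (max zt z + 1) ^ 2 ≤ Y * ρ₀ * Real.log ρ₀ := by
    rcases le_total zt z with h3 | h3
    · rwa [max_eq_right h3]
    · rwa [max_eq_left h3]
  have hz2 : z ≤ max zt z := le_max_right _ _
  have hz3 : zt ≤ max zt z := le_max_left _ _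
  obtain ⟨r', hr0', hr1', hr2', hJ'⟩ := h2 ρ₀ (-s) α ρ z ρ₀ (3 / 8 * lam ρ₀) (max zt z + 1) hL2 hs' hα (by linarith)
    hρ3 (by linarith) (by linarith) (by positivity) (by linarith) (by linarith) hY3 hcon
    (fun x hx h3 h4 => by
      rw [abs_le] at hx
      have h5 := h1 ρ₀ x hL1 (by linarith) (by linarith) (by linarith) (le_trans (by nlinarith) hY3)
      have h6 := pe_pos k (-N₁) (by linarith : 0 < ρ₀) (cyl x)
      nlinarith [sq_nonneg (ψ x)])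
    (fun ρ' hρ' => by
      rw [abs_le] at hρ'
      obtain ⟨t, ⟨-, -, h3⟩, h4⟩ := m_ivt hJ (ρ := ρ') (by show r ≤ ρ'; linarith) (by show ρ' ≤ ρ₀; linarith)
      rcases h4 with h4 | ⟨-, h4, h5⟩
      · exact absurd h4 (by show ¬ρ' < ρ₁; linarith)
      · refine ⟨t, by have : zb < t := h4; linarith, by have : t < zt := h5; linarith, Or.inl ?_⟩
        rw [hneg]
        exact neg_nonpos.2 h3.le)
  have hdis : Disjoint (posS (lv u ψ (-s) α) ∩ {p : ℝ × ℝ | p.1 < ρ₀})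
      (posS (lv u ψ s α) ∩ ({p | p.1 < ρ₁} ∪ Ioo ρl ρr ×ˢ Ioo zb zt)) := by
    rw [Set.disjoint_left]
    rintro q ⟨⟨-, -, h3⟩, -⟩ ⟨⟨-, -, h4⟩, -⟩
    rw [hneg] at h3
    linarith
  rcases hcase with ⟨rfl, hc⟩ | ⟨rfl, hc⟩
  · refine m_cross (fun x hx => hx.1.2.1) (fun x hx => hx.1.2.1) hJ' hJ
      (h.ord r' r hr0' hr0 (by linarith) (by linarith)) (by show r < ρ; linarith) hdis ?_ ?_ (by show ρ ≠ ρ₀; linarith)
    · rintro t - ht ⟨-, h4 | ⟨-, h4, -⟩⟩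
      · exact absurd h4 (by show ¬ρ < ρ₁; linarith)
      · have h5 : zb < t := h4
        have h6 : t ≤ z := ht
        linarith
    · rintro t - ⟨-, h4⟩
      exact lt_irrefl ρ₀ h4
  · refine m_cross (fun x hx => hx.1.2.1) (fun x hx => hx.1.2.1) hJ hJ'
      (h.ord r r' hr0 hr0' (by linarith) (by linarith)) hr1' hdis.symm ?_ ?_ (by show ρ₀ ≠ ρ; linarith)
    · rintro t - - ⟨-, h4⟩
      exact lt_irrefl ρ₀ h4
    · rintro t ht ⟨-, h4 | ⟨-, -, h4⟩⟩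
      · exact absurd h4 (by show ¬ρ < ρ₁; linarith)
      · have h5 : t < zt := h4
        have h6 : z ≤ t := ht
        linarith

end Crest.Agent.R335
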