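import Crest.Agent.R335.M_Piece1

/-!
# R335/M_Piece: pieces of eigenfunctions

`w_n = ζ (f - 1/(n+1))₊ ∈ H¹` (`H1.pos_sub`, `H1.mul_c1_bdd`); `H1loc.piece` on `offA` (where `f x ≤ 0`, or `x ∉ tsupport ζ`, `w_n = 0` near `x` by continuity), `H1loc.h1_offA`,
`H1.of_dominated` (bound `M (|f| + ‖G‖) * 2`; where `ζ x = 0` also `∇ζ x = 0`: `IsLocalMin.fderiv_eq_zero`).  Then test the equation of `f` with `ζ ξ` (`H1.mul_c1_bdd`):
on `A`, `⟪G, ζ K + ξ ∇ζ⟫ = ‖K‖² - f² ‖∇ζ‖²` for `K = ζ G + f ∇ζ`.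
-/

set_option autoImplicit false

namespace Crest.Agent.R335

open MeasureTheory Set Filter Topology
open scoped Gradient RealInnerProductSpace ENNReal ContDiff
open Crest.MathPhysics.ThreeBody

variable {k b L C c e1 e2 : ℝ} {R d V0 S v φ u ψ : E3 → ℝ} {GR Gd Gφ Gu Gψ : E3 → E3}

theorem m_piece (hv : FB v) {e : ℝ} {f ζ : E3 → ℝ} {G : E3 → E3} (hf : Eig v e f G) (hc : ContinuousOn f offA)
    (hζ : ContDiff ℝ 1 ζ) {M : ℝ} (h0 : ∀ x, 0 ≤ ζ x ∧ ζ x ≤ 1) (h1 : ∀ x, ‖∇ ζ x‖ ≤ M) {A : Set E3} (hA : IsOpen A)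
    (hAp : ∀ x ∈ A, 0 < f x) (haon : ∀ x ∈ offA, x ∈ tsupport ζ → 0 < f x → AoN A x) :
    qf v (A.indicator fun x => ζ x * f x) (A.indicator fun x => ζ x • G x + f x • ∇ ζ x) -
        e * nsq (A.indicator fun x => ζ x * f x) = (1 / 2) * ∫ x in A, ‖∇ ζ x‖ ^ 2 * f x ^ 2 := by
  have hξ := m_piece_h1 hf.h1 hc hζ h0 h1 hA hAp haon
  set ξ : E3 → ℝ := A.indicator fun x => ζ x * f x with hξd
  set K : E3 → E3 := A.indicator fun x => ζ x • G x + f x • ∇ ζ x with hKd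
  have hη := hξ.mul_c1_bdd hζ (M := max M 1)
    (fun x => le_max_of_le_right (by rw [abs_of_nonneg (h0 x).1]; exact (h0 x).2))
    (fun x => le_max_of_le_left (h1 x))
  have e1 : ∀ x, f x * (ζ x * ξ x) = ξ x ^ 2 := by
    intro x
    by_cases hx : x ∈ A
    · simp only [hξd, indicator_of_mem hx]
      ring
    · simp only [hξd, indicator_of_notMem hx]
      ring
  have e2 : ∀ x, ⟪G x, ζ x • K x + ξ x • ∇ ζ x⟫ =
      ‖K x‖ ^ 2 - A.indicator (fun x => ‖∇ ζ x‖ ^ 2 * f x ^ 2) x := by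
    intro x
    by_cases hx : x ∈ A
    · simp only [hξd, hKd, indicator_of_mem hx]
      rw [← real_inner_self_eq_norm_sq, ← real_inner_self_eq_norm_sq]
      simp only [inner_add_left, inner_add_right, real_inner_smul_left, real_inner_smul_right,
        real_inner_comm (G x) (∇ ζ x)]
      ring
    · simp only [hξd, hKd, indicator_of_notMem hx]
      simp
  have i1 := hξ.int_grad_sq
  have i2 : Integrable (A.indicator fun x => ‖∇ ζ x‖ ^ 2 * f x ^ 2) := by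
    refine (i1.sub (hf.h1.int_inner hη)).congr (Eventually.of_forall fun x => ?_)
    simp only [Pi.sub_apply, e2]
    ring
  have h := hf.eq _ _ hη
  simp only [bf, ip, e1, e2] at h
  rw [integral_sub i1 i2, integral_indicator hA.measurableSet] at h
  simp only [qf, nsq]
  linarith

end Crest.Agent.R335
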