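import Crest.Agent.R335.M_Defs

/-!
# R335/M_Piece1: pieces of eigenfunctions

`w_n = ζ (f - 1/(n+1))₊ ∈ H¹` (`H1.pos_sub`, `H1.mul_c1_bdd`); `H1loc.piece` on `offA` (where `f x ≤ 0`, or `x ∉ tsupport ζ`, `w_n = 0` near `x` by continuity), `H1loc.h1_offA`,
`H1.of_dominated` (bound `M (|f| + ‖G‖) * 2`; where `ζ x = 0` also `∇ζ x = 0`: `IsLocalMin.fderiv_eq_zero`).  Then test the equation of `f` with `ζ ξ` (`H1.mul_c1_bdd`):
on `A`, `⟪G, ζ K + ξ ∇ζ⟫ = ‖K‖² - f² ‖∇ζ‖²` for `K = ζ G + f ∇ζ`.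
-/

set_option autoImplicit false

namespace Crest.Agent.R335

open MeasureTheory Set Filter Topology
open scoped Gradient RealInnerProductSpace ENNReal ContDiff
open Crest.MathPhysics.ThreeBody

variable {k b L C c e1 e2 : ℝ} {R d V0 S v φ u ψ : E3 → ℝ} {GR Gd Gφ Gu Gψ : E3 → E3}

theorem m_piece1_step {f ζ : E3 → ℝ} {G : E3 → E3} (hf : H1 f G) (hc : ContinuousOn f offA) (hζ : ContDiff ℝ 1 ζ) {M : ℝ}
    (h0 : ∀ x, 0 ≤ ζ x ∧ ζ x ≤ 1) (h1 : ∀ x, ‖∇ ζ x‖ ≤ M) {A : Set E3} (hA : IsOpen A)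
    (haon : ∀ x ∈ offA, x ∈ tsupport ζ → 0 < f x → AoN A x) {δ : ℝ} (hδ : 0 < δ) :
    H1 (A.indicator fun x => ζ x * max (f x - δ) 0)
      (A.indicator fun x => ζ x • (if δ < f x then G x else 0) + max (f x - δ) 0 • ∇ ζ x) := by
  have hw : H1 (fun x => ζ x * max (f x - δ) 0)
      (fun x => ζ x • (if δ < f x then G x else 0) + max (f x - δ) 0 • ∇ ζ x) :=
    (hf.pos_sub hδ.le).mul_c1_bdd hζ (M := max 1 M)
      (fun x => by rw [abs_of_nonneg (h0 x).1]; exact (h0 x).2.trans (le_max_left _ _))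
      (fun x => (h1 x).trans (le_max_right _ _))
  have hp := (hw.loc offA).piece isOpen_offA (A := A) (by
    intro x hx
    by_cases hs : x ∈ tsupport ζ
    · by_cases hfx : 0 < f x
      · rcases haon x hx hs hfx with h | h
        · exact Or.inl (h.mono fun y hy hy' => absurd hy hy')
        · exact Or.inr (h.mono fun y hy hy' => absurd hy' hy)
      · have hca : ContinuousAt f x := hc.continuousAt (isOpen_offA.mem_nhds hx)
        have hlt : f x < δ := lt_of_le_of_lt (not_lt.1 hfx) hδ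
        have := hca.eventually (gt_mem_nhds hlt)
        refine Or.inl (this.mono fun y hy _ => ?_)
        have hy' : f y < δ := hy
        rw [max_eq_right (by linarith), mul_zero]
    · have := notMem_tsupport_iff_eventuallyEq.1 hs
      refine Or.inl (this.mono fun y hy _ => ?_)
      have hy' : ζ y = 0 := hy
      rw [hy', zero_mul])
  refine H1loc.h1_offA (hp.congr ?_) (hw.mf.indicator hA.measurableSet) (hw.mG.indicator hA.measurableSet)
  filter_upwards [hw.level 0] with x hx _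
  refine ⟨rfl, ?_⟩
  by_cases hxA : x ∈ A
  · by_cases hz : ζ x * max (f x - δ) 0 = 0
    · rw [indicator_of_notMem (fun h => h.2 hz), indicator_of_mem hxA]
      exact (hx hz).symm
    · rw [indicator_of_mem (show x ∈ A ∩ {x | ζ x * max (f x - δ) 0 ≠ 0} from ⟨hxA, hz⟩), indicator_of_mem hxA]
  · rw [indicator_of_notMem (fun h => hxA h.1), indicator_of_notMem hxA]

theorem m_piece_h1 {f ζ : E3 → ℝ} {G : E3 → E3} (hf : H1 f G) (hc : ContinuousOn f offA) (hζ : ContDiff ℝ 1 ζ) {M : ℝ}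
    (h0 : ∀ x, 0 ≤ ζ x ∧ ζ x ≤ 1) (h1 : ∀ x, ‖∇ ζ x‖ ≤ M) {A : Set E3} (hA : IsOpen A) (hAp : ∀ x ∈ A, 0 < f x)
    (haon : ∀ x ∈ offA, x ∈ tsupport ζ → 0 < f x → AoN A x) :
    H1 (A.indicator fun x => ζ x * f x) (A.indicator fun x => ζ x • G x + f x • ∇ ζ x) := by
  have hM : 0 ≤ M := (norm_nonneg _).trans (h1 0)
  have hpos : ∀ n : ℕ, (0 : ℝ) < 1 / ((n : ℝ) + 1) := fun n => Nat.one_div_pos_of_nat
  have hmx : ∀ (n : ℕ) (x : E3), |max (f x - 1 / ((n : ℝ) + 1)) 0| ≤ |f x| := by
    intro n x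
    rw [abs_of_nonneg (le_max_right _ _)]
    exact max_le (by linarith [le_abs_self (f x), hpos n]) (abs_nonneg _)
  have hlim : ∀ x ∈ A, Tendsto (fun n : ℕ => max (f x - 1 / ((n : ℝ) + 1)) 0) atTop (𝓝 (f x)) := by
    intro x hx
    have h := ((tendsto_const_nhds (x := f x)).sub (tendsto_one_div_add_atTop_nhds_zero_nat (𝕜 := ℝ))).max
      (tendsto_const_nhds (x := (0 : ℝ)))
    rwa [sub_zero, max_eq_left (hAp x hx).le] at h
  refine H1.of_dominated (b := fun x => ‖f x‖ + ‖G x‖ + M * ‖f x‖)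
    (fun n : ℕ => m_piece1_step hf hc hζ h0 h1 hA haon (hpos n))
    ((hf.mf.norm.add hf.mG.norm).add (hf.mf.norm.const_mul M)) ?_ ?_ ?_
  · intro n
    refine Eventually.of_forall fun x => ?_
    have a1 := abs_nonneg (f x)
    have a2 := norm_nonneg (G x)
    have a3 := mul_nonneg hM a1
    rw [Real.norm_eq_abs]
    by_cases hx : x ∈ A
    · rw [indicator_of_mem hx, indicator_of_mem hx]
      constructor
      · rw [abs_mul, abs_of_nonneg (h0 x).1]
        have := mul_le_mul (h0 x).2 (hmx n x) (abs_nonneg _) zero_le_one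
        linarith
      · refine (norm_add_le _ _).trans ?_
        rw [norm_smul, norm_smul, Real.norm_eq_abs, Real.norm_eq_abs, abs_of_nonneg (h0 x).1]
        have b1 : ‖(if 1 / ((n : ℝ) + 1) < f x then G x else 0)‖ ≤ ‖G x‖ := by
          split_ifs
          · exact le_rfl
          · rw [norm_zero]; exact a2
        have b2 := mul_le_mul (h0 x).2 b1 (norm_nonneg _) zero_le_one
        have b3 := mul_le_mul (hmx n x) (h1 x) (norm_nonneg _) a1
        linarith
    · rw [indicator_of_notMem hx, indicator_of_notMem hx, abs_zero, norm_zero]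
      constructor <;> linarith
  · refine Eventually.of_forall fun x => ?_
    by_cases hx : x ∈ A
    · simp only [indicator_of_mem hx]
      exact (hlim x hx).const_mul _
    · simp only [indicator_of_notMem hx]
      exact tendsto_const_nhds
  · refine Eventually.of_forall fun x => ?_
    by_cases hx : x ∈ A
    · simp only [indicator_of_mem hx]
      refine Tendsto.add ?_ ((hlim x hx).smul_const _)
      refine tendsto_const_nhds.congr' ?_
      filter_upwards [(tendsto_one_div_add_atTop_nhds_zero_nat (𝕜 := ℝ)).eventually (gt_mem_nhds (hAp x hx))] with n hn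
      rw [if_pos hn]
    · simp only [indicator_of_notMem hx]
      exact tendsto_const_nhds

end Crest.Agent.R335
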