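import Crest.Agent.R335.M_Defs

/-!
# R335/M_Vert: the vertical Poincaré inequality for `arctan τ`

On `Ω`: `τ = ψ / u` is continuous and `H1loc` (`H1loc.div`, `Bl.of_continuousOn`; `u` is continuous and positive, so bounded below on compact sets), gradient `u⁻¹ • uD`.
`ε = η / (2 (1 + (C' + 1)²))`, `F₀ = s (arctan τ - arctan α) - ε` (`H1loc.comp_lip`, `Real.deriv_arctan`), `F = A.indicator (max F₀ 0)` (`H1loc.pos`, `H1loc.piece`: where `lv ≤ 0`, i.e.
`s (τ - α) ≤ 0`, `F₀ < 0` near `x`).  `F` is continuous on `Ω` (same case distinction), `F ≥ ε` on the ball (there `s (τ - α) ≥ η`; `arctan` is monotone and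
`arctan t' - arctan t ≥ (t' - t) / (1 + (C' + 1)²)` on `[-C' - 1, C' + 1]`, mean value theorem), `‖∇F‖² ≤ 1_A ‖uD‖² / (u² (1 + τ²)²) ≤ 1_A ‖uD‖² / m²` on the box.
`poincare_vert`; `volume (ball y δ) ≥ δ³` (`EuclideanSpace.volume_ball_fin_three`).
-/

set_option autoImplicit false

namespace Crest.Agent.R335

open MeasureTheory Set Filter Topology
open scoped Gradient RealInnerProductSpace ENNReal ContDiff
open Crest.MathPhysics.ThreeBody

variable {k b L C c e1 e2 : ℝ} {R d V0 S v φ u ψ : E3 → ℝ} {GR Gd Gφ Gu Gψ : E3 → E3}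

theorem m_vert_arctan {B t t' : ℝ} (ht : |t| ≤ B) (ht' : |t'| ≤ B) (h : t ≤ t') :
    (1 + B ^ 2)⁻¹ * (t' - t) ≤ Real.arctan t' - Real.arctan t := by
  refine (convex_Icc (-B) B).mul_sub_le_image_sub_of_le_deriv Real.continuous_arctan.continuousOn
    Real.differentiable_arctan.differentiableOn (fun x hx => ?_) t (abs_le.1 ht) t' (abs_le.1 ht') h
  have hx' := interior_subset hx
  rw [Real.deriv_arctan]
  have : x ^ 2 ≤ B ^ 2 := sq_le_sq' hx'.1 hx'.2
  beta_reduce
  rw [one_div]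
  exact inv_anti₀ (by positivity) (by linarith)

theorem m_vert_low {s α η C' t : ℝ} (hs : s = 1 ∨ s = -1) (hα : |α| ≤ C') (hη : 0 < η) (hη1 : η ≤ 1)
    (ht : 0 ≤ s * (t - (α + s * η))) :
    (1 + (C' + 1) ^ 2)⁻¹ * η ≤ s * (Real.arctan t - Real.arctan α) := by
  have hα' := abs_le.1 hα
  rcases hs with rfl | rfl
  · have h1 := m_vert_arctan (B := C' + 1) (t := α) (t' := α + η) (by linarith)
      (abs_le.2 ⟨by linarith, by linarith⟩) (by linarith)
    have h2 : Real.arctan (α + η) ≤ Real.arctan t := Real.arctan_mono (by linarith)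
    rw [add_sub_cancel_left] at h1
    linarith
  · have h1 := m_vert_arctan (B := C' + 1) (t := α - η) (t' := α)
      (abs_le.2 ⟨by linarith, by linarith⟩) (by linarith) (by linarith)
    have h2 : Real.arctan t ≤ Real.arctan (α - η) := Real.arctan_mono (by linarith)
    rw [sub_sub_cancel] at h1
    linarith

theorem m_vert_neg {s α t : ℝ} (hs : s = 1 ∨ s = -1) (ht : s * (t - α) ≤ 0) :
    s * (Real.arctan t - Real.arctan α) ≤ 0 := by
  rcases hs with rfl | rfl
  · have : Real.arctan t ≤ Real.arctan α := Real.arctan_mono (by linarith)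
    linarith
  · have : Real.arctan α ≤ Real.arctan t := Real.arctan_mono (by linarith)
    linarith

theorem m_vert_cpt (a b : E3) : IsCompact (bx a b) := by
  have : bx a b = WithLp.toLp 2 '' Icc (fun i => a i) (fun i => b i) := by
    ext x
    exact ⟨fun h => ⟨x.ofLp, ⟨fun i => (h i).1, fun i => (h i).2⟩, rfl⟩,
      by rintro ⟨y, h, rfl⟩ i; exact ⟨h.1 i, h.2 i⟩⟩
  rw [this]
  exact isCompact_Icc.image (PiLp.continuous_toLp 2 _)

theorem m_vert_ball (y : E3) {δ : ℝ} (hδ : 0 < δ) : δ ^ 3 ≤ volume.real (Metric.ball y δ) := by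
  rw [Measure.real, EuclideanSpace.volume_ball_fin_three, ENNReal.toReal_mul, ENNReal.toReal_pow,
    ENNReal.toReal_ofReal hδ.le, ENNReal.toReal_ofReal (by positivity)]
  refine le_mul_of_one_le_right (by positivity) ?_
  linarith [Real.pi_gt_three]

theorem m_vert_grad {s p q m : ℝ} (hs : s = 1 ∨ s = -1) (hq : 0 < q) (hm : 0 < m) (hl : m ^ 2 ≤ q ^ 2 + p ^ 2)
    (P Q : E3) : ‖(s * (1 / (1 + (p / q) ^ 2))) • (q⁻¹ • P - (p / q ^ 2) • Q)‖ ^ 2 ≤
      (m ^ 2)⁻¹ * ‖P - (p / q) • Q‖ ^ 2 := by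
  have e : q⁻¹ • P - (p / q ^ 2) • Q = q⁻¹ • (P - (p / q) • Q) := by
    rw [smul_sub, smul_smul]
    congr 2
    field_simp
  have hs2 : s ^ 2 = 1 := by rcases hs with rfl | rfl <;> norm_num
  rw [e, smul_smul, norm_smul, mul_pow, Real.norm_eq_abs, sq_abs]
  refine mul_le_mul_of_nonneg_right ?_ (sq_nonneg _)
  have e2 : (s * (1 / (1 + (p / q) ^ 2)) * q⁻¹) ^ 2 = ((1 + (p / q) ^ 2) * (q ^ 2 + p ^ 2))⁻¹ := by
    rw [mul_pow, mul_pow, hs2]
    field_simp
  rw [e2]
  refine inv_anti₀ (by positivity) (hl.trans (le_mul_of_one_le_left (by positivity) ?_))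
  linarith [sq_nonneg (p / q)]

theorem m_vert (h : Red k b L C c R GR d Gd V0 S v e1 e2 φ Gφ u Gu ψ Gψ) {s α η m δ C' : ℝ} (hs : s = 1 ∨ s = -1)
    (hα : |α| ≤ C') (hη : 0 < η) (hη1 : η ≤ 1) (hm : 0 < m) (hδ : 0 < δ) {Ω A : Set E3} (hΩ : IsOpen Ω)
    (hΩs : ∀ x ∈ Ω, x ∈ offA ∧ 0 < x 2) (hA : IsOpen A) (haon : ∀ x ∈ Ω, 0 < lv u ψ s α x → AoN A x)
    {a a' y : E3} (hab : ∀ i, a i ≤ a' i) (hbox : bx a a' ⊆ Ω)
    (hz : ∀ x ∈ bx a a', ∃ z, a 2 ≤ z ∧ z ≤ a' 2 ∧ (!₂[x 0, x 1, z] : E3) ∉ A)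
    (hlow : ∀ x ∈ bx a a', m ^ 2 ≤ u x ^ 2 + ψ x ^ 2)
    (hball : ∀ x ∈ Metric.ball y δ, x ∈ bx a a' ∧ x ∈ A ∧ 0 ≤ lv u ψ s (α + s * η) x)
    (hint : IntegrableOn (fun x => ‖uD u ψ Gu Gψ x‖ ^ 2) (A ∩ bx a a')) :
    m ^ 2 * δ ^ 3 * η ^ 2 ≤
      8 * (1 + (C' + 1) ^ 2) ^ 2 * (a' 2 - a 2) ^ 2 * ∫ x in A ∩ bx a a', ‖uD u ψ Gu Gψ x‖ ^ 2 := by
  have hupos : ∀ x ∈ Ω, 0 < u x := fun x hx => h.u_pos (hΩs x hx).1 (hΩs x hx).2
  have hcu : ContinuousOn u Ω := h.ou.orb.cont.mono fun x hx => (hΩs x hx).1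
  have hcψ : ContinuousOn ψ Ω := h.oψ.cont.mono fun x hx => (hΩs x hx).1
  have hτ := (h.oψ.eig.h1.loc Ω).div hΩ (h.ou.orb.eig.h1.loc Ω) (Bl.of_continuousOn hcψ)
    (Bl.of_continuousOn hcu) fun K hK hKs => by
      rcases K.eq_empty_or_nonempty with rfl | hne
      · exact ⟨1, one_pos, by simp⟩
      · obtain ⟨x0, hx0, hmin⟩ := hK.exists_isMinOn hne (hcu.mono hKs)
        exact ⟨u x0, hupos x0 (hKs hx0), Eventually.of_forall fun x hx => hmin hx⟩
  have hcτ : ContinuousOn (fun x => ψ x / u x) Ω := hcψ.div hcu fun x hx => (hupos x hx).ne'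
  obtain ⟨Q, hQ⟩ : ∃ Q, Q = 1 + (C' + 1) ^ 2 := ⟨_, rfl⟩
  have hQ0 : 0 < Q := by rw [hQ]; positivity
  obtain ⟨ε, hε⟩ : ∃ ε, ε = Q⁻¹ * η / 2 := ⟨_, rfl⟩
  have hε0 : 0 < ε := by rw [hε]; positivity
  obtain ⟨H, hH⟩ : ∃ H : ℝ → ℝ, H = fun t => s * (Real.arctan t - Real.arctan α) - ε := ⟨_, rfl⟩
  have hHd : ∀ t, deriv H t = s * (1 / (1 + t ^ 2)) := fun t => by
    rw [hH]
    exact ((((Real.hasDerivAt_arctan t).sub_const _).const_mul s).sub_const ε).deriv
  have hHc : ContDiff ℝ 1 H := by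
    rw [hH]
    exact (contDiff_const.mul (Real.contDiff_arctan.sub contDiff_const)).sub contDiff_const
  have hs1 : |s| = 1 := by rcases hs with rfl | rfl <;> simp
  have hF0 := hτ.comp_lip hΩ hHc (L := 1) fun t => by
    rw [hHd, abs_mul, hs1, one_mul, abs_of_pos (by positivity), div_le_one (by positivity)]
    linarith [sq_nonneg t]
  have hcF0 : ContinuousOn (fun x => H (ψ x / u x)) Ω := hHc.continuous.comp_continuousOn hcτ
  have hcase : ∀ x ∈ Ω, (∀ᶠ y in 𝓝 x, y ∉ A → max (H (ψ y / u y)) 0 = 0) ∨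
      ∀ᶠ y in 𝓝 x, y ∈ A → max (H (ψ y / u y)) 0 = 0 := by
    intro x hx
    by_cases hl : 0 < lv u ψ s α x
    · rcases haon x hx hl with h1 | h1
      · exact Or.inl (h1.mono fun y hy hn => absurd hy hn)
      · exact Or.inr (h1.mono fun y hy hn => absurd hn hy)
    · have hu := hupos x hx
      have h1 : s * (ψ x / u x - α) ≤ 0 := by
        have e : s * (ψ x / u x - α) = lv u ψ s α x / u x := by
          unfold lv
          field_simp
        rw [e]
        exact div_nonpos_of_nonpos_of_nonneg (not_lt.1 hl) hu.le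
      have h2 : H (ψ x / u x) < 0 := by
        rw [hH]
        linarith [m_vert_neg hs h1]
      refine Or.inl (((hcF0.continuousAt (hΩ.mem_nhds hx)).eventually (gt_mem_nhds h2)).mono
        fun y hy _ => max_eq_right (le_of_lt hy))
  have hF := (hF0.pos hΩ).piece hΩ hcase
  have hcFp : ContinuousOn (fun x => max (H (ψ x / u x)) 0) Ω := hcF0.sup continuousOn_const
  have hcF : ContinuousOn (A.indicator fun x => max (H (ψ x / u x)) 0) Ω := by
    intro x hx
    refine ContinuousAt.continuousWithinAt ?_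
    rcases hcase x hx with h1 | h1
    · refine (hcFp.continuousAt (hΩ.mem_nhds hx)).congr (h1.mono fun y hy => ?_)
      by_cases hy' : y ∈ A
      · rw [indicator_of_mem hy']
      · rw [indicator_of_notMem hy']
        exact hy hy'
    · refine (continuousAt_const (y := (0 : ℝ))).congr (h1.mono fun y hy => ?_)
      by_cases hy' : y ∈ A
      · rw [indicator_of_mem hy']
        exact (hy hy').symm
      · rw [indicator_of_notMem hy']
  have hP := poincare_vert hΩ hF hcF hab hbox fun x hx => by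
    obtain ⟨z, h1, h2, h3⟩ := hz x hx
    exact ⟨z, h1, h2, indicator_of_notMem h3 _⟩
  change ∫ x in bx a a', _ ≤ _ * ∫ x in bx a a', _ at hP
  have hBk := m_vert_cpt a a'
  have hBm := hBk.isClosed.measurableSet
  -- lower bound
  have hlo : ε ^ 2 * δ ^ 3 ≤ ∫ x in bx a a', (A.indicator (fun x => max (H (ψ x / u x)) 0) x) ^ 2 := by
    have hi : IntegrableOn (fun x => (A.indicator (fun x => max (H (ψ x / u x)) 0) x) ^ 2) (bx a a') :=
      ((hcF.mono hbox).pow 2).integrableOn_compact hBk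
    have hsub : Metric.ball y δ ⊆ bx a a' := fun x hx => (hball x hx).1
    calc ε ^ 2 * δ ^ 3 ≤ ε ^ 2 * volume.real (Metric.ball y δ) :=
          mul_le_mul_of_nonneg_left (m_vert_ball y hδ) (sq_nonneg _)
      _ ≤ ∫ x in Metric.ball y δ, (A.indicator (fun x => max (H (ψ x / u x)) 0) x) ^ 2 := by
          refine setIntegral_ge_of_const_le_real measurableSet_ball measure_ball_lt_top.ne
            (fun x hx => ?_) (hi.mono_set hsub)
          obtain ⟨h1, h2, h3⟩ := hball x hx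
          have hu := hupos x (hbox h1)
          rw [indicator_of_mem h2]
          refine pow_le_pow_left₀ hε0.le (le_max_of_le_left ?_) 2
          have h4 : 0 ≤ s * (ψ x / u x - (α + s * η)) := by
            have e : s * (ψ x / u x - (α + s * η)) = lv u ψ s (α + s * η) x / u x := by
              unfold lv
              field_simp
            rw [e]
            exact div_nonneg h3 hu.le
          have h5 := m_vert_low hs hα hη hη1 h4
          rw [← hQ] at h5
          rw [hH]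
          linarith
      _ ≤ _ := setIntegral_mono_set hi (Eventually.of_forall fun x => sq_nonneg _) hsub.eventuallyLE
  -- upper bound
  have hup : ∫ x in bx a a', ‖(A ∩ {x | max (H (ψ x / u x)) 0 ≠ 0}).indicator
      (fun x => if 0 < H (ψ x / u x) then
        deriv H (ψ x / u x) • ((u x)⁻¹ • Gψ x - (ψ x / u x ^ 2) • Gu x) else 0) x‖ ^ 2 ≤
      (m ^ 2)⁻¹ * ∫ x in A ∩ bx a a', ‖uD u ψ Gu Gψ x‖ ^ 2 := by
    rw [← integral_const_mul, inter_comm A (bx a a'), ← setIntegral_indicator hA.measurableSet]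
    refine integral_mono_of_nonneg (Eventually.of_forall fun x => sq_nonneg _) ?_ ?_
    · rw [integrable_indicator_iff hA.measurableSet, IntegrableOn,
        Measure.restrict_restrict hA.measurableSet]
      exact hint.const_mul _
    · filter_upwards [ae_restrict_mem hBm] with x hx
      have h0 : 0 ≤ A.indicator (fun x => (m ^ 2)⁻¹ * ‖uD u ψ Gu Gψ x‖ ^ 2) x :=
        indicator_nonneg (fun _ _ => by positivity) x
      by_cases hx' : x ∈ A ∩ {x | max (H (ψ x / u x)) 0 ≠ 0}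
      · rw [indicator_of_mem hx', indicator_of_mem hx'.1]
        split_ifs
        · rw [hHd]
          exact m_vert_grad hs (hupos x (hbox hx)) hm (hlow x hx) _ _
        · rw [norm_zero, zero_pow two_ne_zero]
          positivity
      · rw [indicator_of_notMem hx', norm_zero, zero_pow two_ne_zero]
        exact h0
  have h1 := hlo.trans (hP.trans (mul_le_mul_of_nonneg_left hup (by positivity)))
  rw [← hQ]
  have h2 := mul_le_mul_of_nonneg_left h1 (show 0 ≤ 4 * Q ^ 2 * m ^ 2 by positivity)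
  refine (le_of_eq ?_).trans (h2.trans (le_of_eq ?_))
  · rw [hε]
    field_simp
    norm_num
  · field_simp
    ring

end Crest.Agent.R335
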