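import Crest.Agent.R335.M_Top2
import Crest.Agent.R335.M_Bnd2
import Crest.Agent.R335.M_Hold
import Crest.Agent.R335.M_Vert
import Crest.Agent.R335.M_PE

/-!
# R335/M_Pocket: (Pocket)

`f = lv u ψ s α`, `η = ρ₀^(-12) / 16`, `δ = ρ₀^(-N₂)` (`m_hold` for `Y`, `C' + 1`, applied at the level `α + s η`; `lv s α = lv s (α + s η) + η u`, `u > 0`).  `m_pocket_top`: the first alternative is the claim
(`Red.lv_plane`).  Otherwise `m_vert` with `Ω = offA ∩ {0 < z} ∩ {cyl < ρ₁}`, the box with corners `(ρ - 1/4, -1/4, z₁)`, `(ρ + 1/4, 1/4, z₂)` (there `|cyl x - ρ| ≤ 1/2`, `cyl x < ρ₁ - 1`),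
`m = pe k (-N₀) ρ₀ (ρ + 1/2)`, `(z₂ - z₁)² ≤ z₂² ≤ ρ₀²` (`m_large`), `m_pocket_energy`, `m_mass` at `ρ₁ - 1`.  Divide by `exp (-2 k ρ)`:
`c₁ ρ₀^(-P) ≤ C₁ ρ₀^P exp (-2 k (ρ₁ - ρ))` for `P ≥ 2 |N₀| + 3 N₂ + 24`, `P ≥ 2 + P_mass`, which contradicts `m_num`.
-/

set_option autoImplicit false

namespace Crest.Agent.R335

open MeasureTheory Set Filter Topology
open scoped Gradient RealInnerProductSpace ENNReal ContDiff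
open Crest.MathPhysics.ThreeBody

variable {k b L C c e1 e2 : ℝ} {R d V0 S v φ u ψ : E3 → ℝ} {GR Gd Gφ Gu Gψ : E3 → E3}

theorem m_pocket_cyl {x : E3} {ρ : ℝ} (hρ : 1 ≤ ρ) (h0 : |x 0 - ρ| ≤ 1 / 4) (h1 : |x 1| ≤ 1 / 4) :
    |cyl x - ρ| ≤ 1 / 2 := by
  obtain ⟨a0, b0⟩ := abs_le.1 h0
  obtain ⟨a1, b1⟩ := abs_le.1 h1
  have e := cyl_sq x
  have n := cyl_nonneg x
  refine abs_le.2 ⟨?_, ?_⟩
  · have : x 0 ≤ cyl x := abs_le_of_sq_le_sq' (by nlinarith [sq_nonneg (x 1)]) n |>.2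
    linarith
  · have : cyl x ≤ ρ + 1 / 2 := abs_le_of_sq_le_sq' (by nlinarith) (by linarith) |>.2
    linarith

theorem m_pocket_ball {x y : E3} {δ : ℝ} (hx : x ∈ Metric.ball y δ) (i : Fin 3) : |x i - y i| < δ := by
  have h := PiLp.norm_apply_le (x - y) i
  rw [PiLp.sub_apply, Real.norm_eq_abs] at h
  exact h.trans_lt (mem_ball_iff_norm.1 hx)

theorem m_pocket_low {k N₀ N₂ P ρ₀ ρ : ℝ} (h1 : 1 ≤ ρ₀) (hP : 2 * N₀ + 3 * N₂ + 24 ≤ P) :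
    Real.exp (-k) / 256 * ρ₀ ^ (-P) * Real.exp (-2 * k * ρ) ≤
      pe k (-N₀) ρ₀ (ρ + 1 / 2) ^ 2 * (ρ₀ ^ (-N₂)) ^ 3 * (ρ₀ ^ (-12 : ℝ) / 16) ^ 2 := by
  have h0 : 0 < ρ₀ := by linarith
  have e1 : (ρ₀ ^ (-N₀)) ^ 2 * (ρ₀ ^ (-N₂)) ^ 3 * (ρ₀ ^ (-12 : ℝ)) ^ 2 = ρ₀ ^ (-(2 * N₀ + 3 * N₂ + 24)) := by
    rw [← Real.rpow_natCast, ← Real.rpow_natCast, ← Real.rpow_natCast, ← Real.rpow_mul h0.le,
      ← Real.rpow_mul h0.le, ← Real.rpow_mul h0.le, ← Real.rpow_add h0, ← Real.rpow_add h0]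
    congr 1
    push_cast
    ring
  have e2 : Real.exp (-k * (ρ + 1 / 2)) ^ 2 = Real.exp (-k) * Real.exp (-2 * k * ρ) := by
    rw [← Real.exp_nat_mul, ← Real.exp_add]
    congr 1
    push_cast
    ring
  have e3 : ρ₀ ^ (-P) ≤ ρ₀ ^ (-(2 * N₀ + 3 * N₂ + 24)) := Real.rpow_le_rpow_of_exponent_le h1 (by linarith)
  calc _ ≤ Real.exp (-k) / 256 * ρ₀ ^ (-(2 * N₀ + 3 * N₂ + 24)) * Real.exp (-2 * k * ρ) := by gcongr
    _ = _ := by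
      unfold pe
      rw [mul_pow, e2, ← e1]
      ring

theorem m_pocket_up {k K M C₁ P₁ P ρ₀ ρ ρ₁ w I J : ℝ} (h1 : 1 ≤ ρ₀) (hK : 0 ≤ K) (hM : 0 ≤ M) (hC : 0 ≤ C₁)
    (hP : 2 + P₁ ≤ P) (hw : w ^ 2 ≤ ρ₀ ^ 2) (hI : I ≤ M * J)
    (hJ : J ≤ C₁ * ρ₀ ^ P₁ * Real.exp (-2 * k * (ρ₁ - 1))) :
    K * w ^ 2 * I ≤
      K * M * C₁ * Real.exp (2 * k) * ρ₀ ^ P * Real.exp (-2 * k * (ρ₁ - ρ)) * Real.exp (-2 * k * ρ) := by
  have h0 : 0 < ρ₀ := by linarith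
  have e1 : ρ₀ ^ 2 * ρ₀ ^ P₁ ≤ ρ₀ ^ P := by
    rw [← Real.rpow_natCast, ← Real.rpow_add h0]
    exact Real.rpow_le_rpow_of_exponent_le h1 (by push_cast; linarith)
  have e2 : Real.exp (-2 * k * (ρ₁ - 1)) =
      Real.exp (2 * k) * Real.exp (-2 * k * (ρ₁ - ρ)) * Real.exp (-2 * k * ρ) := by
    rw [← Real.exp_add, ← Real.exp_add]
    congr 1
    ring
  calc K * w ^ 2 * I ≤ K * w ^ 2 * (M * (C₁ * ρ₀ ^ P₁ * Real.exp (-2 * k * (ρ₁ - 1)))) :=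
        mul_le_mul_of_nonneg_left (hI.trans (mul_le_mul_of_nonneg_left hJ hM)) (by positivity)
    _ ≤ K * ρ₀ ^ 2 * (M * (C₁ * ρ₀ ^ P₁ * Real.exp (-2 * k * (ρ₁ - 1)))) := by gcongr
    _ = K * M * C₁ * (ρ₀ ^ 2 * ρ₀ ^ P₁) * Real.exp (-2 * k * (ρ₁ - 1)) := by ring
    _ ≤ K * M * C₁ * ρ₀ ^ P * Real.exp (-2 * k * (ρ₁ - 1)) := by gcongr
    _ = _ := by rw [e2]; ring

set_option maxHeartbeats 800000 in
theorem m_pocket (h : Red k b L C c R GR d Gd V0 S v e1 e2 φ Gφ u Gu ψ Gψ) (Y C' N₀ : ℝ) : ∃ N L' : ℝ, 1 ≤ N ∧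
    ∀ ρ₀ s α ρ z ρ₁ z₁ z₂, L' ≤ ρ₀ → (s = 1 ∨ s = -1) → |α| ≤ C' → ρ₀ / 2 ≤ ρ → ρ + N * Real.log ρ₀ ≤ ρ₁ →
      ρ₁ ≤ 2 * ρ₀ → lam ρ₀ / 8 ≤ z → 0 < z₁ → z₁ + lam ρ₀ / 8 ≤ z → z + lam ρ₀ / 8 ≤ z₂ →
      z₂ ^ 2 ≤ Y * ρ₀ * Real.log ρ₀ → ρ₀ ^ (-12 : ℝ) / 8 ≤ s * (tau u ψ ρ z - α) →
      (∀ x, |cyl x - ρ| ≤ 1 / 2 → z₁ ≤ x 2 → x 2 ≤ z₂ → pe k (-N₀) ρ₀ (cyl x) ^ 2 ≤ u x ^ 2 + ψ x ^ 2) →
      (∀ ρ', |ρ' - ρ| ≤ 1 / 2 → ∃ t, z₁ ≤ t ∧ t ≤ z₂ ∧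
        (lv u ψ s α (pt ρ' t) ≤ 0 ∨ ∀ t', 0 ≤ t' → t' ≤ t → 0 < lv u ψ s α (pt ρ' t'))) →
      ∃ r, 0 < r ∧ r < ρ₁ ∧ 0 < s * ψ (pt r 0) ∧
        JoinedIn (posS (lv u ψ s α) ∩ {p | p.1 < ρ₁}) (r, 0) (ρ, z) := by
  obtain ⟨N₂, L₂, hN₂, H⟩ := m_hold h Y (C' + 1)
  obtain ⟨M, hM, HE⟩ := m_pocket_energy h
  obtain ⟨C₁, P₁, hC₁, -, HM⟩ := m_mass h C'
  obtain ⟨L₄, hL₄, HL⟩ := m_large Y
  have hk := h.tail.kpos
  obtain ⟨N₃, L₃, hN₃, HN⟩ := m_num hk (c₁ := Real.exp (-k) / 256) (by positivity)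
    (8 * (1 + (C' + 1) ^ 2) ^ 2 * M * C₁ * Real.exp (2 * k)) (max (2 * N₀ + 3 * N₂ + 24) (2 + P₁))
  refine ⟨N₃ + 1, max (max L₂ L₃) (max L₄ (2 * (L + 1))), by linarith, ?_⟩
  intro ρ₀ s α ρ z ρ₁ z₁ z₂ hL hs hα hρ hρ₁ hρ₁' hz hz₁ hz1 hz2 hz₂ hτ hlow hvert
  simp only [max_le_iff] at hL
  obtain ⟨⟨l2, l3⟩, l4, l5⟩ := hL
  obtain ⟨hlog, -, -, hY⟩ := HL ρ₀ l4
  obtain ⟨hδ, Hb⟩ := H ρ₀ l2
  have h1 : 1 ≤ ρ₀ := by linarith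
  have h0 : 0 < ρ₀ := by linarith
  have hl0 := lam_pos h0
  have hl1 := lam_le_one h1
  have hss : s * s = 1 := by rcases hs with rfl | rfl <;> norm_num
  have hsa : |s| = 1 := by rcases hs with rfl | rfl <;> simp
  set η : ℝ := ρ₀ ^ (-12 : ℝ) / 16 with hηdef
  set δ : ℝ := ρ₀ ^ (-N₂) with hδdef
  have hη0 : 0 < η := by positivity
  have hη1 : η ≤ 1 := by
    have : ρ₀ ^ (-12 : ℝ) ≤ 1 := Real.rpow_le_one_of_one_le_of_nonpos h1 (by norm_num)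
    rw [hηdef]
    linarith
  have hδ0 : 0 < δ := by positivity
  have hN2 : 2 ≤ (N₃ + 1) * Real.log ρ₀ := by
    have := mul_le_mul (by linarith : (2 : ℝ) ≤ N₃ + 1) hlog zero_le_one (by linarith)
    linarith
  have hN3 : N₃ * Real.log ρ₀ ≤ ρ₁ - ρ := by linarith
  have hz0 : 0 < z := by linarith
  have hρ0 : 0 < ρ := by linarith
  have hw : (z₂ - z₁) ^ 2 ≤ ρ₀ ^ 2 := by
    have a1 : (z₂ - z₁) ^ 2 ≤ z₂ ^ 2 := pow_le_pow_left₀ (by linarith) (by linarith) 2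
    have a2 := mul_le_mul_of_nonneg_left hY h0.le
    have a3 := sq_nonneg ρ₀
    linarith
  have hα' : |α + s * η| ≤ C' + 1 := by
    refine (abs_add_le _ _).trans ?_
    rw [abs_mul, hsa, one_mul, abs_of_pos hη0]
    linarith
  have hb := Hb ρ z s (α + s * η) hs hα' hρ (by linarith) hz
    ((pow_le_pow_left₀ hz0.le (by linarith) 2).trans hz₂) (by
      have : s * (tau u ψ ρ z - (α + s * η)) = s * (tau u ψ ρ z - α) - s * s * η := by ring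
      rw [this, hss]
      linarith)
  have hbx : ∀ x ∈ bx !₂[ρ - 1 / 4, -1 / 4, z₁] !₂[ρ + 1 / 4, 1 / 4, z₂],
      |cyl x - ρ| ≤ 1 / 2 ∧ z₁ ≤ x 2 ∧ x 2 ≤ z₂ := fun x hx => by
    have a0 := hx 0
    have a1 := hx 1
    have a2 := hx 2
    simp only [Matrix.cons_val_zero, Matrix.cons_val_one, Matrix.cons_val] at a0 a1 a2
    exact ⟨m_pocket_cyl (by linarith) (abs_le.2 ⟨by linarith, by linarith⟩) (abs_le.2 ⟨by linarith, by linarith⟩),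
      a2⟩
  have hbb : ∀ x ∈ Metric.ball (pt ρ z) δ, x ∈ bx !₂[ρ - 1 / 4, -1 / 4, z₁] !₂[ρ + 1 / 4, 1 / 4, z₂] := by
    intro x hx i
    have a := abs_lt.1 (m_pocket_ball hx i)
    fin_cases i
    · simp only [Fin.zero_eta, pt_zero, Matrix.cons_val_zero] at a ⊢
      constructor <;> linarith
    · simp only [Fin.mk_one, pt_one, Matrix.cons_val_one, Matrix.cons_val_zero] at a ⊢
      constructor <;> linarith
    · simp only [Fin.reduceFinMk, pt_two, Matrix.cons_val] at a ⊢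
      constructor <;> linarith
  have hpos : ∀ x ∈ Metric.ball (pt ρ z) δ, 0 < cyl x ∧ cyl x < ρ₁ ∧ 0 < x 2 ∧ 0 < lv u ψ s α x := by
    intro x hx
    obtain ⟨a1, a2, -⟩ := hbx x (hbb x hx)
    obtain ⟨b1, b2⟩ := abs_le.1 a1
    have c1 : 0 < cyl x := by linarith
    have c2 : 0 < x 2 := by linarith
    refine ⟨c1, by linarith, c2, ?_⟩
    have c3 := (pe_pos k (-N₂) h0 ρ).trans_le (hb x hx)
    have c4 := mul_pos hη0 (h.u_pos c1 c2)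
    have e : lv u ψ s α x = lv u ψ s (α + s * η) x + s * s * (η * u x) := by
      unfold lv
      ring
    rw [e, hss]
    linarith
  rcases m_pocket_top (h.lv_cont s α) (h.lv_rot s α) hρ0 (by linarith : ρ < ρ₁) hz0
    (hpos _ (Metric.mem_ball_self hδ0)).2.2.2 with ⟨r, r0, r1, r2, r3⟩ | ⟨A, hA, A1, A2, A3, A4⟩
  · exact ⟨r, r0, r1, by rwa [h.lv_plane s α r0] at r2, r3⟩
  exfalso
  obtain ⟨I1, I2⟩ := HE s α ρ₁ A hs (by linarith) hA A1 A2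
  have hsub : A ∩ bx !₂[ρ - 1 / 4, -1 / 4, z₁] !₂[ρ + 1 / 4, 1 / 4, z₂] ⊆ A ∩ {x | cyl x < ρ₁ - 1} :=
    fun x hx => ⟨hx.1, by
      have := (abs_le.1 (hbx x hx.2).1).2
      show cyl x < ρ₁ - 1
      linarith⟩
  have hΩ : IsOpen {x : E3 | 0 < cyl x ∧ 0 < x 2 ∧ cyl x < ρ₁} :=
    (isOpen_lt continuous_const continuous_cyl).and
      ((isOpen_lt continuous_const (by fun_prop : Continuous fun x : E3 => x 2)).and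
        (isOpen_lt continuous_cyl continuous_const))
  have V := m_vert h hs hα hη0 hη1 (pe_pos k (-N₀) h0 (ρ + 1 / 2)) hδ0 hΩ (fun x hx => ⟨hx.1, hx.2.1⟩) hA
    (fun x hx => A2 x hx.1 hx.2.2) (a := !₂[ρ - 1 / 4, -1 / 4, z₁]) (a' := !₂[ρ + 1 / 4, 1 / 4, z₂]) (y := pt ρ z)
    (fun i => by fin_cases i <;> simp <;> linarith)
    (fun x hx => by
      obtain ⟨a1, a2, -⟩ := hbx x hx
      obtain ⟨b1, b2⟩ := abs_le.1 a1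
      exact ⟨by linarith, by linarith, by linarith⟩)
    (fun x hx => by
      obtain ⟨a1, -, -⟩ := hbx x hx
      obtain ⟨b1, b2⟩ := abs_le.1 a1
      obtain ⟨t, t1, t2, t3⟩ := hvert (cyl x) a1
      have e1 : cyl (!₂[x 0, x 1, t] : E3) = cyl x := by simp [cyl]
      have e2 : (!₂[x 0, x 1, t] : E3) 2 = t := by simp
      have e3 : (!₂[x 0, x 1, t] : E3) ∈ offA := by
        show 0 < cyl _
        rw [e1]
        linarith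
      refine ⟨t, by simpa using t1, by simpa using t2, A4 _ e3 (by rw [e1]; linarith) ?_⟩
      rw [h.lv_rot s α _ e3, e1, e2]
      exact t3)
    (fun x hx => by
      obtain ⟨a1, a2, a3⟩ := hbx x hx
      refine le_trans (pow_le_pow_left₀ (pe_pos k _ h0 _).le ?_ 2) (hlow x a1 a2 a3)
      unfold pe
      refine mul_le_mul_of_nonneg_left (Real.exp_le_exp.2 ?_) (by positivity)
      exact mul_le_mul_of_nonpos_left (by linarith [(abs_le.1 a1).2]) (by linarith))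
    (fun x hx => ⟨hbb x hx, A3 δ hpos hx, ((pe_pos k (-N₂) h0 ρ).trans_le (hb x hx)).le⟩) (I1.mono_set hsub)
  have I3 : ∫ x in A ∩ bx !₂[ρ - 1 / 4, -1 / 4, z₁] !₂[ρ + 1 / 4, 1 / 4, z₂], ‖uD u ψ Gu Gψ x‖ ^ 2 ≤
      ∫ x in A ∩ {x | cyl x < ρ₁ - 1}, ‖uD u ψ Gu Gψ x‖ ^ 2 :=
    setIntegral_mono_set I1 (Eventually.of_forall fun x => sq_nonneg _) hsub.eventuallyLE
  have U := m_pocket_up (ρ := ρ) (K := 8 * (1 + (C' + 1) ^ 2) ^ 2) h1 (by positivity) hM hC₁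
    (le_max_right (2 * N₀ + 3 * N₂ + 24) (2 + P₁)) hw (I3.trans I2)
    (HM ρ₀ (ρ₁ - 1) s α (by linarith) (by linarith) hs hα)
  have W := m_pocket_low (k := k) (ρ := ρ) h1 (le_max_left (2 * N₀ + 3 * N₂ + 24) (2 + P₁))
  have Z := mul_lt_mul_of_pos_right (HN ρ₀ (ρ₁ - ρ) l3 hN3) (Real.exp_pos (-2 * k * ρ))
  simp only [Matrix.cons_val] at V
  exact absurd (W.trans (V.trans U)) (not_le.2 Z)

end Crest.Agent.R335
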