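import Crest.Agent.R335.M_Defs
import Crest.Agent.R335.Cross

/-!
# R335/M_Top: plane topology for the part `M`
-/

set_option autoImplicit false

namespace Crest.Agent.R335

open MeasureTheory Set Filter Topology
open scoped Gradient RealInnerProductSpace ENNReal ContDiff
open Crest.MathPhysics.ThreeBody

variable {k b L C c e1 e2 : ℝ} {R d V0 S v φ u ψ : E3 → ℝ} {GR Gd Gφ Gu Gψ : E3 → E3}

/-- components of an open subset of the plane: `U = connectedComponentIn W y` (`IsOpen.connectedComponentIn`,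
`IsOpen.isConnected_iff_isPathConnected`, `IsPreconnected.subset_connectedComponentIn`, `connectedComponentIn_eq`) -/
theorem m_comp {W : Set (ℝ × ℝ)} (hW : IsOpen W) {y : ℝ × ℝ} (hy : y ∈ W) : ∃ U : Set (ℝ × ℝ), IsOpen U ∧ U ⊆ W ∧
    y ∈ U ∧ (∀ p ∈ U, JoinedIn U p y) ∧ (∀ p ∈ W, (∀ᶠ q in 𝓝 p, q ∈ U) ∨ ∀ᶠ q in 𝓝 p, q ∉ U) ∧
    ∀ B : Set (ℝ × ℝ), IsPreconnected B → B ⊆ W → y ∈ B → B ⊆ U := by
  have hO : ∀ p, IsOpen (connectedComponentIn W p) := fun p => hW.connectedComponentIn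
  have hy' : y ∈ connectedComponentIn W y := mem_connectedComponentIn hy
  refine ⟨connectedComponentIn W y, hO y, connectedComponentIn_subset _ _, hy', fun p hp => ?_,
    fun p hp => ?_, fun B hB hBW hyB => hB.subset_connectedComponentIn hyB hBW⟩
  · have hc : IsConnected (connectedComponentIn W y) := isConnected_connectedComponentIn_iff.2 hy
    exact (((hO y).isConnected_iff_isPathConnected).1 hc).joinedIn p hp y hy'
  · have hp' : p ∈ connectedComponentIn W p := mem_connectedComponentIn hp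
    by_cases h : p ∈ connectedComponentIn W y
    · exact Or.inl ((hO y).mem_nhds h)
    · refine Or.inr ?_
      filter_upwards [(hO p).mem_nhds hp'] with q hq hq'
      apply h
      rw [connectedComponentIn_eq hq', ← connectedComponentIn_eq hq]
      exact hp'

/-- vertical segments -/
theorem m_vseg {B : Set (ℝ × ℝ)} {ρ z z' : ℝ} (hz : z ≤ z') (h : ∀ t, z ≤ t → t ≤ z' → (ρ, t) ∈ B) :
    JoinedIn B (ρ, z) (ρ, z') := by
  refine JoinedIn.of_segment_subset ?_
  rintro x ⟨s, t, hs, ht, hst, rfl⟩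
  have e : s • ((ρ, z) : ℝ × ℝ) + t • ((ρ, z') : ℝ × ℝ) = (ρ, s * z + t * z') := by
    ext
    · simp only [Prod.fst_add, Prod.smul_fst, smul_eq_mul]
      rw [← add_mul, hst, one_mul]
    · simp only [Prod.snd_add, Prod.smul_snd, smul_eq_mul]
  rw [e]
  have hs' : s = 1 - t := by linarith
  subst hs'
  exact h _ (by nlinarith) (by nlinarith)

/-- intermediate value theorem along a path -/
theorem m_ivt {B : Set (ℝ × ℝ)} {p q : ℝ × ℝ} (h : JoinedIn B p q) {ρ : ℝ} (h1 : p.1 ≤ ρ) (h2 : ρ ≤ q.1) :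
    ∃ z, (ρ, z) ∈ B := by
  obtain ⟨γ, hγ⟩ := h
  have hc : Continuous fun t => (γ t).1 := continuous_fst.comp γ.continuous
  have hm : ρ ∈ Icc ((fun t => (γ t).1) 0) ((fun t => (γ t).1) 1) := by
    simp only [Path.source, Path.target]
    exact ⟨h1, h2⟩
  obtain ⟨t, ht⟩ := intermediate_value_univ 0 1 hc hm
  refine ⟨(γ t).2, ?_⟩
  have : ((ρ, (γ t).2) : ℝ × ℝ) = γ t := Prod.ext ht.symm rfl
  rw [this]
  exact hγ t

/-- `cross` after extending the first path vertically down to the ray and the second one vertically upwards.  Replace `A`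
by the range of a path (compact, so the heights are bounded by some `H > max p.2 q.2`), apply `cross` to
`range ∪ {(p.1, t) | 0 ≤ t ≤ p.2}` and `B ∪ {(q.1, t) | q.2 ≤ t}`, end point `(q.1, H)`. -/
theorem m_cross {A B : Set (ℝ × ℝ)} {a a' : ℝ} {p q : ℝ × ℝ} (hA : ∀ x ∈ A, 0 ≤ x.2) (hB : ∀ x ∈ B, 0 ≤ x.2)
    (h1 : JoinedIn A (a, 0) p) (h2 : JoinedIn B (a', 0) q) (hab : a < a') (hbp : a' < p.1) (hd : Disjoint A B)
    (hdown : ∀ t, 0 ≤ t → t ≤ p.2 → (p.1, t) ∉ B) (hup : ∀ t, q.2 ≤ t → (q.1, t) ∉ A) (hpq : p.1 ≠ q.1) : False := by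
  have hp0 : 0 ≤ p.2 := hA p h1.target_mem
  have hq0 : 0 ≤ q.2 := hB q h2.target_mem
  obtain ⟨γ, hγ⟩ := h1
  have hc : Continuous fun t => (γ t).2 := continuous_snd.comp γ.continuous
  obtain ⟨M, hM⟩ := (isCompact_range hc).bddAbove
  have hM' : ∀ t, (γ t).2 ≤ M := fun t => hM (mem_range_self t)
  have hpM : p.2 ≤ M := by simpa using hM' 1
  set H : ℝ := max M q.2 + 1 with hH
  have hMH : M < H := by have := le_max_left M q.2; linarith
  have hqH : q.2 ≤ H := by have := le_max_right M q.2; linarith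
  let A' : Set (ℝ × ℝ) := range γ ∪ {x | x.1 = p.1 ∧ 0 ≤ x.2 ∧ x.2 ≤ p.2}
  let B' : Set (ℝ × ℝ) := B ∪ {x | x.1 = q.1 ∧ q.2 ≤ x.2}
  have j1 : JoinedIn A' (a, 0) p := ⟨γ, fun t => Or.inl (mem_range_self t)⟩
  have j2 : JoinedIn A' (p.1, 0) (p.1, p.2) := m_vseg hp0 fun t h0 ht => Or.inr ⟨rfl, h0, ht⟩
  have j3 : JoinedIn B' (a', 0) q := h2.mono subset_union_left
  have j4 : JoinedIn B' (q.1, q.2) (q.1, H) := m_vseg hqH fun t h0 _ => Or.inr ⟨rfl, h0⟩
  refine cross (A := A') (B := B') (H := H) (q := (q.1, H)) hab hbp ?_ ?_ (j1.trans j2.symm)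
    (j3.trans j4) le_rfl ?_
  · rintro x (⟨t, rfl⟩ | ⟨-, h0, ht⟩)
    · exact ⟨hA _ (hγ t), (hM' t).trans_lt hMH⟩
    · exact ⟨h0, by linarith⟩
  · rintro x (hx | ⟨-, hx⟩)
    · exact hB x hx
    · exact hq0.trans hx
  · rw [Set.disjoint_left]
    rintro x (⟨t, rfl⟩ | ⟨e, h0, ht⟩) (hx | ⟨e', hx⟩)
    · exact Set.disjoint_left.1 hd (hγ t) hx
    · refine hup _ hx ?_
      rw [← e']
      exact hγ t
    · refine hdown _ h0 ht ?_
      rw [← e]
      exact hx
    · exact hpq (e.symm.trans e')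

end Crest.Agent.R335
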