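import Crest.Agent.R335.M_Top

/-!
# R335/M_Top2: topological parts of (Pocket) and (Confine)
-/

set_option autoImplicit false

namespace Crest.Agent.R335

open MeasureTheory Set Filter Topology
open scoped Gradient RealInnerProductSpace ENNReal ContDiff
open Crest.MathPhysics.ThreeBody

variable {k b L C c e1 e2 : ℝ} {R d V0 S v φ u ψ : E3 → ℝ} {GR Gd Gφ Gu Gψ : E3 → E3}

theorem m_top2_open {f : E3 → ℝ} (hc : ContinuousOn f offA) :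
    IsOpen {p : ℝ × ℝ | 0 < p.1 ∧ 0 < f (pt p.1 p.2)} :=
  (RotI.contOn hc).isOpen_inter_preimage (isOpen_lt continuous_const continuous_fst) isOpen_Ioi

theorem m_top2_aon {U : Set (ℝ × ℝ)} {x : E3}
    (h : (∀ᶠ q in 𝓝 (cz x), q ∈ U) ∨ ∀ᶠ q in 𝓝 (cz x), q ∉ U) : AoN (cz ⁻¹' U) x :=
  h.imp (fun h => continuous_cz.continuousAt.eventually h) fun h => continuous_cz.continuousAt.eventually h

theorem m_top2_ball {W U : Set (ℝ × ℝ)} {ρ z δ : ℝ} (hρ : 0 < ρ)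
    (hU : ∀ B : Set (ℝ × ℝ), IsPreconnected B → B ⊆ W → (ρ, z) ∈ B → B ⊆ U)
    (h : ∀ x ∈ Metric.ball (pt ρ z) δ, cz x ∈ W) : Metric.ball (pt ρ z) δ ⊆ cz ⁻¹' U := by
  intro x hx
  refine hU (cz '' Metric.ball (pt ρ z) δ)
    ((convex_ball _ _).isPreconnected.image _ continuous_cz.continuousOn) ?_ ?_ ⟨x, hx, rfl⟩
  · rintro _ ⟨y, hy, rfl⟩
    exact h y hy
  · exact ⟨pt ρ z, Metric.mem_ball_self (Metric.pos_of_mem_ball hx), cz_pt hρ.le z⟩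

/-- Topological part of (Pocket).  `W = {0 < ρ < ρ₁, 0 < z, 0 < f̃}` is open (`RotI.contOn`), `U` from `m_comp`, `A = cz ⁻¹' U`.
Assume the first alternative fails.  `AoN` at `x`: `z > 0`: `cz x ∈ W` (`RotI`); `z < 0`: nothing; `z = 0`: a small
ball (a square, sup norm) around `(cyl x, 0)` intersected with `{z ≥ 0}` is convex and contained in `posS f ∩ {ρ < ρ₁}`; if it
met `U` then `(cyl x, 0)` would be joined to `y`.  Last item: `m_vseg`. -/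
theorem m_pocket_top {f : E3 → ℝ} (hc : ContinuousOn f offA) (hr : RotI f) {ρ₁ ρ z : ℝ} (hρ : 0 < ρ) (h1 : ρ < ρ₁)
    (hz : 0 < z) (hy : 0 < f (pt ρ z)) :
    (∃ r, 0 < r ∧ r < ρ₁ ∧ 0 < f (pt r 0) ∧ JoinedIn (posS f ∩ {p | p.1 < ρ₁}) (r, 0) (ρ, z)) ∨
    ∃ A : Set E3, IsOpen A ∧ (∀ x ∈ A, x ∈ offA ∧ 0 < x 2 ∧ 0 < f x) ∧
      (∀ x ∈ offA, cyl x < ρ₁ → 0 < f x → AoN A x) ∧
      (∀ δ, (∀ x ∈ Metric.ball (pt ρ z) δ, 0 < cyl x ∧ cyl x < ρ₁ ∧ 0 < x 2 ∧ 0 < f x) →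
        Metric.ball (pt ρ z) δ ⊆ A) ∧
      ∀ x ∈ offA, cyl x < ρ₁ → (f x ≤ 0 ∨ ∀ t, 0 ≤ t → t ≤ x 2 → 0 < f (pt (cyl x) t)) → x ∉ A := by
  rw [or_iff_not_imp_left]
  intro hno
  have hV := m_top2_open hc
  have hV1 : IsOpen ({p : ℝ × ℝ | 0 < p.1 ∧ 0 < f (pt p.1 p.2)} ∩ {p | p.1 < ρ₁}) :=
    hV.inter (isOpen_lt continuous_fst continuous_const)
  obtain ⟨U, hUo, hUW, -, hUj, hUa, hUb⟩ := m_comp
    (hV1.inter (isOpen_lt (continuous_const (y := (0 : ℝ))) continuous_snd)) (y := (ρ, z)) ⟨⟨⟨hρ, hy⟩, h1⟩, hz⟩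
  have hUS : U ⊆ posS f ∩ {p | p.1 < ρ₁} := fun p hp =>
    ⟨⟨(hUW hp).1.1.1, le_of_lt (hUW hp).2, (hUW hp).1.1.2⟩, (hUW hp).1.2⟩
  have key : ∀ r, ∀ q ∈ U, ¬ JoinedIn (posS f ∩ {p | p.1 < ρ₁}) (r, 0) q := fun r q hq hj =>
    hno ⟨r, hj.source_mem.1.1, hj.source_mem.2, hj.source_mem.1.2.2, hj.trans ((hUj q hq).mono hUS)⟩
  refine ⟨cz ⁻¹' U, hUo.preimage continuous_cz, fun x hx => ?_, fun x hx hx1 hf => ?_,
    fun δ h => m_top2_ball hρ hUb fun x hx => ?_, fun x hx hx1 hf hxA => ?_⟩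
  · have h0 : x ∈ offA := (hUW hx).1.1.1
    exact ⟨h0, (hUW hx).2, by rw [hr x h0]; exact (hUW hx).1.1.2⟩
  · rw [hr x hx] at hf
    have hx0 : cz x ∈ {p : ℝ × ℝ | 0 < p.1 ∧ 0 < f (pt p.1 p.2)} ∩ {p | p.1 < ρ₁} := ⟨⟨hx, hf⟩, hx1⟩
    refine m_top2_aon ?_
    rcases lt_trichotomy (x 2) 0 with h | h | h
    · right
      filter_upwards [(isOpen_lt continuous_snd (continuous_const (y := (0 : ℝ)))).mem_nhds
        (x := cz x) h] with q hq hqU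
      exact lt_asymm hq (hUW hqU).2
    · right
      obtain ⟨ε, hε, hb⟩ := Metric.isOpen_iff.1 hV1 _ hx0
      filter_upwards [Metric.ball_mem_nhds _ hε] with q hq hqU
      have hcv : Convex ℝ (Metric.ball (cz x) ε ∩ {p : ℝ × ℝ | 0 ≤ p.2}) :=
        (convex_ball _ _).inter (convex_halfSpace_ge (LinearMap.snd ℝ ℝ ℝ).isLinear 0)
      have e : cz x = (cyl x, 0) := by rw [cz, h]
      have m1 : (cyl x, (0 : ℝ)) ∈ Metric.ball (cz x) ε ∩ {p : ℝ × ℝ | 0 ≤ p.2} :=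
        ⟨e ▸ Metric.mem_ball_self hε, le_refl (0 : ℝ)⟩
      have m2 : q ∈ Metric.ball (cz x) ε ∩ {p : ℝ × ℝ | 0 ≤ p.2} := ⟨hq, (show (0 : ℝ) < q.2 from (hUW hqU).2).le⟩
      refine key (cyl x) q hqU ((JoinedIn.of_segment_subset (hcv.segment_subset m1 m2)).mono
        fun p hp => ?_)
      exact ⟨⟨(hb hp.1).1.1, hp.2, (hb hp.1).1.2⟩, (hb hp.1).2⟩
    · exact hUa _ ⟨hx0, h⟩
  · obtain ⟨a1, a2, a3, a4⟩ := h x hx
    rw [hr x a1] at a4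
    exact ⟨⟨⟨a1, a4⟩, a2⟩, a3⟩
  · rcases hf with hf | hf
    · rw [hr x hx] at hf
      exact absurd (hUW hxA).1.1.2 (not_lt.2 hf)
    · exact key (cyl x) _ hxA (m_vseg (le_of_lt (hUW hxA).2) fun t t0 t1 => ⟨⟨hx, t0, hf t t0 t1⟩, hx1⟩)

/-- Topological part of (Confine).  `W = {ρl < ρ < ρr, zb < z < zt, 0 < f̃}`, `U` from `m_comp`, `A = cz ⁻¹' U`.  If the first
alternative fails then `U ⊆ {ρl + 1 ≤ ρ}`. -/
theorem m_conf_top {f : E3 → ℝ} (hc : ContinuousOn f offA) (hr : RotI f) {ρl ρr zb zt ρ z : ℝ} (hl : 0 < ρl)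
    (hb : 0 ≤ zb) (h1 : ρl < ρ) (h2 : ρ < ρr) (h3 : zb < z) (h4 : z < zt) (hy : 0 < f (pt ρ z)) :
    (∃ p : ℝ × ℝ, p.1 < ρl + 1 ∧ JoinedIn (posS f ∩ Ioo ρl ρr ×ˢ Ioo zb zt) p (ρ, z)) ∨
    ∃ A : Set E3, IsOpen A ∧ (∀ x ∈ A, ρl + 1 ≤ cyl x ∧ cyl x < ρr ∧ zb < x 2 ∧ x 2 < zt ∧ 0 < f x) ∧
      (∀ x ∈ offA, cyl x < ρr → x 2 < zt → (x 2 ≠ zb ∨ cyl x ≤ ρl) → 0 < f x → AoN A x) ∧
      ∀ δ, (∀ x ∈ Metric.ball (pt ρ z) δ, ρl < cyl x ∧ cyl x < ρr ∧ zb < x 2 ∧ x 2 < zt ∧ 0 < f x) →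
        Metric.ball (pt ρ z) δ ⊆ A := by
  rw [or_iff_not_imp_left]
  intro hno
  obtain ⟨U, hUo, hUW, -, hUj, hUa, hUb⟩ := m_comp
    ((m_top2_open hc).inter ((isOpen_Ioo (a := ρl) (b := ρr)).prod (isOpen_Ioo (a := zb) (b := zt))))
    (y := (ρ, z)) ⟨⟨hl.trans h1, hy⟩, ⟨h1, h2⟩, h3, h4⟩
  have hUS : U ⊆ posS f ∩ Ioo ρl ρr ×ˢ Ioo zb zt := fun p hp =>
    ⟨⟨(hUW hp).1.1, hb.trans (hUW hp).2.2.1.le, (hUW hp).1.2⟩, (hUW hp).2⟩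
  have key : ∀ q ∈ U, ρl + 1 ≤ q.1 := fun q hq => not_lt.1 fun h => hno ⟨q, h, (hUj q hq).mono hUS⟩
  refine ⟨cz ⁻¹' U, hUo.preimage continuous_cz, fun x hx => ?_, fun x hx hx1 hx2 hx3 hf => ?_,
    fun δ h => m_top2_ball (hl.trans h1) hUb fun x hx => ?_⟩
  · have h0 : x ∈ offA := (hUW hx).1.1
    exact ⟨key _ hx, (hUW hx).2.1.2, (hUW hx).2.2.1, (hUW hx).2.2.2, by rw [hr x h0]; exact (hUW hx).1.2⟩
  · rw [hr x hx] at hf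
    refine m_top2_aon ?_
    rcases le_or_gt (cyl x) ρl with h | h
    · right
      filter_upwards [(isOpen_lt continuous_fst (continuous_const (y := ρl + 1))).mem_nhds
        (x := cz x) (show cyl x < ρl + 1 by linarith)] with q hq hqU
      exact absurd hq (not_lt.2 (key q hqU))
    · rcases lt_or_gt_of_ne (hx3.resolve_right (not_le.2 h)) with h' | h'
      · right
        filter_upwards [(isOpen_lt continuous_snd (continuous_const (y := zb))).mem_nhds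
          (x := cz x) h'] with q hq hqU
        exact lt_asymm hq (hUW hqU).2.2.1
      · exact hUa _ ⟨⟨hx, hf⟩, ⟨h, hx1⟩, h', hx2⟩
  · obtain ⟨a1, a2, a3, a4, a5⟩ := h x hx
    have a0 : x ∈ offA := hl.trans a1
    rw [hr x a0] at a5
    exact ⟨⟨a0, a5⟩, ⟨a1, a2⟩, a3, a4⟩

end Crest.Agent.R335
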