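import Crest.Agent.R335.Z_Ag

/-!
# R335/Z_One: `φ` is negligible near the plane
-/

set_option autoImplicit false

namespace Crest.Agent.R335

open MeasureTheory Set Filter Topology
open scoped Gradient RealInnerProductSpace ENNReal ContDiff
open Crest.MathPhysics.ThreeBody

variable {k b L C c e1 e2 : ℝ} {R d V0 S v φ u ψ : E3 → ℝ} {GR Gd Gφ Gu Gψ : E3 → E3}

/-- `ρ = cyl x`, `y = pt ρ |x 2|`, `φ x = φ y` (`Even3.eq_pt`), `z_gfun_pt`.  Suppose `φ y > ρ^(-12) g y`.  `holder` with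
`K = 6 C Cg g y` (`z_up`, `z_g_near`) gives `φ ≥ a = ρ^(-12) g y / 2` on the ball of radius `r = ρ^(-39)`.  `z_agmon` with
`C₁ = 72 / α`: `ρ^(-141) (g y)² / 4 ≤ A log⁵ ρ ρ^(-144) Cg² (g y)²`, false for large `ρ` (`z_ev_log`). -/
theorem z_one (h : Red k b L C c R GR d Gd V0 S v e1 e2 φ Gφ u Gu ψ Gψ) (hφ : PhiB k b φ (23 / 10))
    (hτ : ∃ L' : ℝ, ∀ ρ z, L' ≤ ρ → lam ρ / 4 ≤ z → z ≤ Real.log ρ ^ 2 → |tau u ψ ρ z| ≤ ρ⁻¹) :
    ∃ L' : ℝ, ∀ x, L' ≤ cyl x → |x 2| ≤ 1 → φ x ≤ cyl x ^ (-12 : ℝ) * gfun k b x := by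
  obtain ⟨α, hα, hag⟩ := z_agmon h hφ hτ
  obtain ⟨A, L₁, hA, hag⟩ := hag (72 / α) (by positivity)
  obtain ⟨Ch, hCh, hho⟩ := holder h.cls h.sv e1
  obtain ⟨Cg, hCg, hg⟩ := z_g_near k b h.tail.kpos.le
  have hC := h.tail.Cge
  have hL := h.tail.Lge
  obtain ⟨L', hL'⟩ := eventually_atTop.1 ((eventually_ge_atTop L₁).and ((eventually_ge_atTop (L + 1)).and
    ((eventually_ge_atTop 4).and ((eventually_ge_atTop (12 * Ch * C * Cg)).and
      (z_ev_log (8 * A * Cg ^ 2) 5 (p := 3) (by norm_num))))))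
  refine ⟨L', fun x hx hz => ?_⟩
  obtain ⟨r1, r2, r3, r4, r5⟩ := hL' _ hx
  have hxA : x ∈ offA := (show 0 < cyl x by linarith)
  rw [h.evφ.eq_pt hxA, ← z_gfun_pt k b x]
  have hz0 := abs_nonneg (x 2)
  generalize |x 2| = z at hz hz0 ⊢
  generalize cyl x = ρ at r1 r2 r3 r4 r5 ⊢
  have hρ : 0 < ρ := by linarith
  have cy : cyl (pt ρ z) = ρ := cyl_pt hρ.le z
  have ny : 4 ≤ ‖pt ρ z‖ := by linarith [cyl_le_norm (pt ρ z)]
  have gp : 0 < gfun k b (pt ρ z) := gfun_pos k b (norm_pos_iff.1 (by linarith))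
  have g0 : gfun k b (pt ρ 0) ≤ Cg * gfun k b (pt ρ z) := by
    refine (hg _ _ ny ((norm_pt_sub ρ z ρ 0).trans ?_)).1
    rw [sub_self, abs_zero, sub_zero, abs_of_nonneg hz0]; linarith
  have g0' : 0 ≤ gfun k b (pt ρ 0) := by unfold gfun; positivity
  have hK : ∀ y ∈ Metric.ball (pt ρ z) 1, |φ y| ≤ 6 * C * Cg * gfun k b (pt ρ z) := by
    intro y hy
    rw [mem_ball_iff_norm] at hy
    have a1 := abs_le.1 (abs_cyl_sub_le y (pt ρ z))
    rw [cy] at a1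
    have a2 : |y 2 - z| ≤ ‖y - pt ρ z‖ := abs_z_le_norm (y - pt ρ z)
    have a3 : |y 2| ≤ 2 := by
      rw [abs_le] at a2 ⊢
      constructor <;> linarith [a2.1, a2.2]
    have a4 := z_lam_le_one (ρ := cyl y) (by linarith [a1.1])
    have a5 := (hg _ y ny (by rw [norm_sub_rev]; linarith)).1
    have a6 : 0 ≤ gfun k b y := by unfold gfun; positivity
    refine (z_up h (x := y) (by linarith [a1.1])).1.trans ?_
    calc _ ≤ 2 * C * 3 * (Cg * gfun k b (pt ρ z)) :=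
          mul_le_mul (mul_le_mul_of_nonneg_left (by linarith) (by linarith)) a5 a6 (by linarith)
      _ = _ := by ring
  obtain ⟨t, ht⟩ : ∃ t : ℝ, t = ρ⁻¹ := ⟨_, rfl⟩
  have t0 : 0 < t := by rw [ht]; positivity
  have tρ : t * ρ = 1 := by rw [ht]; field_simp
  have t4 : t ≤ 1 / 4 := by nlinarith
  have e12 : ρ ^ (-12 : ℝ) = t ^ 12 := by
    rw [Real.rpow_neg hρ.le, ht, inv_pow]; norm_cast
  have e144 : Real.exp (-2 * α * (72 / α * Real.log ρ)) = t ^ 144 := by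
    have : -2 * α * (72 / α * Real.log ρ) = (144 : ℕ) * Real.log t := by
      rw [ht, Real.log_inv]; push_cast; field_simp; ring
    rw [this, Real.exp_nat_mul, Real.exp_log t0]
  have e3 : ρ ^ (3 : ℝ) = ρ ^ 3 := by norm_cast
  rw [e12]
  by_contra hcon
  replace hcon := not_le.1 hcon
  have rr : t ^ 39 ≤ 1 / 4 := (pow_le_of_le_one t0.le (by linarith) (by norm_num)).trans t4
  have key := hag ρ z (t ^ 39) (t ^ 12 * gfun k b (pt ρ z) / 2) r1 (by rwa [abs_of_nonneg hz0])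
    (by positivity) (by linarith) (by positivity) fun y hy => by
      rw [mem_ball_iff_norm] at hy
      have a1 := hho φ Gφ (pt ρ z) _ h.oφ.eig h.oφ.cont (by linarith) hK y (by linarith)
      have a2 : ‖y - pt ρ z‖ ^ (1 / 3 : ℝ) ≤ t ^ 13 := by
        have e : t ^ 13 = ((t ^ 13) ^ 3) ^ (1 / 3 : ℝ) := by
          have := Real.pow_rpow_inv_natCast (x := t ^ 13) (by positivity) (n := 3) (by norm_num)
          rw [Nat.cast_ofNat] at this
          rw [one_div, this]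
        rw [e]
        exact Real.rpow_le_rpow (norm_nonneg _) (by rw [← pow_mul]; exact hy.le) (by norm_num)
      have a3 := mul_le_mul_of_nonneg_left a2
        (show 0 ≤ Ch * (6 * C * Cg * gfun k b (pt ρ z)) by positivity)
      have a4 : 12 * Ch * C * Cg * t ≤ 1 := by nlinarith
      have a5 := mul_le_mul_of_nonneg_right a4 (show 0 ≤ t ^ 12 * gfun k b (pt ρ z) by positivity)
      have a6 := (abs_le.1 a1).1
      have a7 : Ch * (6 * C * Cg * gfun k b (pt ρ z)) * t ^ 13 =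
          12 * Ch * C * Cg * t * (t ^ 12 * gfun k b (pt ρ z)) / 2 := by ring
      linarith
  rw [e144] at key
  rw [e3] at r5
  have hlog : 0 ≤ Real.log ρ := Real.log_nonneg (by linarith)
  have b1 := mul_le_mul_of_nonneg_left (pow_le_pow_left₀ g0' g0 2)
    (show 0 ≤ A * Real.log ρ ^ 5 * t ^ 144 by positivity)
  have b2 := mul_le_mul_of_nonneg_right r5 (show 0 ≤ t ^ 144 * gfun k b (pt ρ z) ^ 2 by positivity)
  have b3 : ρ ^ 3 * (t ^ 144 * gfun k b (pt ρ z) ^ 2) = t ^ 141 * gfun k b (pt ρ z) ^ 2 := by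
    calc _ = (t * ρ) ^ 3 * (t ^ 141 * gfun k b (pt ρ z) ^ 2) := by ring
      _ = _ := by rw [tρ]; ring
  have b4 : 0 < t ^ 141 * gfun k b (pt ρ z) ^ 2 := by positivity
  have b5 : (t ^ 12 * gfun k b (pt ρ z) / 2) ^ 2 * (t ^ 39) ^ 3 = t ^ 141 * gfun k b (pt ρ z) ^ 2 / 4 := by
    ring
  have b6 : A * Real.log ρ ^ 5 * t ^ 144 * (Cg * gfun k b (pt ρ z)) ^ 2 =
      8 * A * Cg ^ 2 * Real.log ρ ^ 5 * (t ^ 144 * gfun k b (pt ρ z) ^ 2) / 8 := by ring
  linarith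

end Crest.Agent.R335
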