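import Crest.Agent.R335.Z_Bas2

/-!
# R335/Z_Post: lower bound of `ψ` on the plane
-/

set_option autoImplicit false

namespace Crest.Agent.R335

open MeasureTheory Set Filter Topology
open scoped Gradient RealInnerProductSpace ENNReal ContDiff
open Crest.MathPhysics.ThreeBody

variable {k b L C c e1 e2 : ℝ} {R d V0 S v φ u ψ : E3 → ℝ} {GR Gd Gφ Gu Gψ : E3 → E3}

/-- `le_of_ae_le` on `offA ∩ far L` for `c / ‖x‖³ g ≤ √(2 φ² + u² + ψ²)` (`Tail.low`, `Red.dens`, `Tail.R0`,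
`continuousOn_gfun`); `u (pt r 0) = 0` (`z_refl`, `refl (pt r 0) = pt r 0`), `0 < φ ≤ r^(-12) g`, `Red.farp`;
`c' = c / 2`, `2 r^(-24) ≤ (3/4) c² r^(-6)` for large `r` (`z_ev_rpow`). -/
theorem z_post (h : Red k b L C c R GR d Gd V0 S v e1 e2 φ Gφ u Gu ψ Gψ)
    (hz : ∃ L' : ℝ, ∀ x, L' ≤ cyl x → |x 2| ≤ 1 → φ x ≤ cyl x ^ (-12 : ℝ) * gfun k b x) : Post k b φ ψ := by
  obtain ⟨L1, hL1⟩ := hz
  have hc := h.tail.cpos
  have hL := h.tail.Lge
  obtain ⟨L2, hL2⟩ := eventually_atTop.1 (z_ev_rpow (8 / (3 * c ^ 2)) (p := -24) (q := -6) (by norm_num))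
  have key : ∀ x ∈ offA ∩ far L, c / ‖x‖ ^ 3 * gfun k b x ≤ √(2 * φ x ^ 2 + u x ^ 2 + ψ x ^ 2) := by
    have hne : ∀ x ∈ offA ∩ far L, x ≠ 0 := fun x hx h0 => by
      have : L < ‖x‖ := hx.2
      rw [h0, norm_zero] at this
      linarith
    refine le_of_ae_le (isOpen_offA.inter (isOpen_far L)) ?_ ?_ ?_
    · refine ContinuousOn.mul (continuousOn_const.div (continuous_norm.pow 3).continuousOn fun x hx =>
        pow_ne_zero _ (norm_ne_zero_iff.2 (hne x hx))) ((continuousOn_gfun k b).mono hne)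
    · exact ((((continuousOn_const.mul ((h.oφ.cont.mono inter_subset_left).pow 2)).add
        ((h.ou.orb.cont.mono inter_subset_left).pow 2)).add ((h.oψ.cont.mono inter_subset_left).pow 2))).sqrt
    · filter_upwards [h.tail.low, h.dens] with x h1 h2 hx
      rw [← h2, Real.sqrt_sq (h.tail.R0 x)]
      exact h1 hx.2
  refine ⟨max (max L1 L2) (L + 1), c / 2, by positivity, fun r hr => ?_, fun x hx hx2 =>
    hL1 x ((le_max_left _ _).trans ((le_max_left _ _).trans hx)) hx2⟩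
  have h1 : L1 ≤ r := (le_max_left _ _).trans ((le_max_left _ _).trans hr)
  have h2 : L2 ≤ r := (le_max_right _ _).trans ((le_max_left _ _).trans hr)
  have h3 : L + 1 ≤ r := (le_max_right _ _).trans hr
  have hr0 : 0 < r := by linarith
  have hcyl : cyl (pt r 0) = r := cyl_pt hr0.le 0
  have hnorm : ‖pt r 0‖ = r := by
    have := norm_sq_cyl (pt r 0)
    rw [hcyl, pt_2] at this
    exact (pow_left_inj₀ (norm_nonneg _) hr0.le two_ne_zero).1 (by rw [this]; ring)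
  have hoff : pt r 0 ∈ offA := by
    show 0 < cyl (pt r 0)
    rwa [hcyl]
  have hfar : pt r 0 ∈ far L := by
    show L < ‖pt r 0‖
    rw [hnorm]; linarith
  have hu : u (pt r 0) = 0 := by
    have e : refl (pt r 0) = pt r 0 := by
      ext i
      fin_cases i <;> simp [refl, pt]
    have := (z_refl h hoff).2
    rw [e] at this
    linarith
  have hk := key _ ⟨hoff, hfar⟩
  have hφ := hL1 (pt r 0) (by rwa [hcyl]) (by simp)
  have hφ0 := h.posφ _ hoff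
  have hψ := h.farp r (by linarith)
  have hg : 0 < gfun k b (pt r 0) := gfun_pos k b (norm_pos_iff.1 (by rwa [hnorm]))
  rw [hnorm, hu] at hk
  rw [hcyl] at hφ
  have hrp := hL2 r h2
  obtain ⟨g, hgd⟩ : ∃ g, g = gfun k b (pt r 0) := ⟨_, rfl⟩
  rw [← hgd] at hk hφ hg ⊢
  obtain ⟨p, hp⟩ : ∃ p, p = φ (pt r 0) := ⟨_, rfl⟩
  obtain ⟨s, hs⟩ : ∃ s, s = ψ (pt r 0) := ⟨_, rfl⟩
  rw [← hp, ← hs] at hk
  rw [← hp] at hφ hφ0
  rw [← hs] at hψ ⊢
  have e24 : r ^ (-24 : ℝ) = (r ^ (-12 : ℝ)) ^ 2 := by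
    rw [← Real.rpow_natCast, ← Real.rpow_mul hr0.le]; norm_num
  have e6 : r ^ (-6 : ℝ) = (1 / r ^ 3) ^ 2 := by
    rw [Real.rpow_neg hr0.le, show (6 : ℝ) = (6 : ℕ) by norm_num, Real.rpow_natCast]
    field_simp
  rw [e24, e6] at hrp
  obtain ⟨t, ht⟩ : ∃ t, t = r ^ (-12 : ℝ) := ⟨_, rfl⟩
  rw [← ht] at hrp hφ
  obtain ⟨w, hw⟩ : ∃ w, w = 1 / r ^ 3 := ⟨_, rfl⟩
  rw [← hw] at hrp
  have hw0 : 0 < w := by rw [hw]; positivity
  have ea : c / r ^ 3 * g = c * w * g := by rw [hw]; ring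
  have eb : c / 2 / r ^ 3 * g = c * w * g / 2 := by rw [hw]; ring
  rw [ea] at hk
  rw [eb]
  have ha : 0 ≤ c * w * g := by positivity
  have hk2 : (c * w * g) ^ 2 ≤ 2 * p ^ 2 + 0 ^ 2 + s ^ 2 := (Real.le_sqrt ha (by positivity)).1 hk
  have hp2 : p ^ 2 ≤ (t * g) ^ 2 := pow_le_pow_left₀ hφ0.le hφ 2
  have ht2 : 8 * t ^ 2 ≤ 3 * c ^ 2 * w ^ 2 := by
    have := mul_le_mul_of_nonneg_left hrp (show 0 ≤ 3 * c ^ 2 by positivity)
    refine le_of_eq_of_le ?_ this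
    field_simp
  have ht3 : 8 * (t * g) ^ 2 ≤ 3 * (c * w * g) ^ 2 := by
    have := mul_le_mul_of_nonneg_right ht2 (sq_nonneg g)
    nlinarith
  refine (pow_le_pow_iff_left₀ (by positivity) hψ two_ne_zero).1 ?_
  nlinarith

end Crest.Agent.R335
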