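import Crest.Agent.R335.Z_Pre
import Crest.Agent.R335.Z_Post
import Crest.Agent.R335.Z_One

/-!
# R335/Z: the ground state orbital is negligible (SUB-LEAD part)

`δ = e2 - e1`, `s = φ/u` on the region of `Red.ulow`, where `c z g ≤ u ≤ C' z g` and `s ≤ C'`.
(Z2) `∫ u² ⟪∇s, ∇ξ⟫ + 2 δ ∫ u² s ξ = 0`.  Test with `ξ = s^(2n-1) F²`: `2 δ (2n-1) ∫ u² s^(2n) F² ≤ ∫ u² s^(2n) ‖∇F‖²`.  `F = e^(-α √(1 + ‖x - x₀‖²))` times cut-offs at the heights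
  `z ∈ [λ₀/12, λ₀/10]` and at `‖x - x₀‖ ~ ρ₀/10`, `α = 4 k + 1`, `n` large.  With `gfun_le` and `holder` (pointwise value from the `L^(2n)` norm on a ball of radius `ρ₀^(-N)`; choose `n ≫ N`):
  for every `κ > 0`:  `s x₀ ≤ ρ₀^κ sup {s x | cyl x ≥ ρ₀/2, lam(cyl x)/16 ≤ z ≤ lam (cyl x)} + ρ₀^(-12)` for `λ₀/8 ≤ z₀ ≤ ρ₀/5`.
`phi_pre`: `Ω(ρ) = sup_{cyl ≥ ρ}` of `φ/(lam g)` on `|z| ≤ 4 lam` and of `s` on the sector.  `ss` with `s = ρ^(-3/10)`, `Tail.plane_le`: `φ/(lam g) ≤ C ρ^(-12/5) + C ρ^(-3/10) Ω(ρ/2)`; with (Z2):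
  `Ω(4ρ) ≤ ρ^(-47/20) + ρ^(-1/4) Ω(ρ)`, `Ω ≤ C`; induction on the exponent.
`zone1`: `V = v - e2 - V0 + C/r⁴`.  For `0 ≤ ξ ≤ m`: `-∫ 2 V R ξ ≤ ν_KS(ξ) ≤ ν_KS(m)`, `ν_KS(ξ) = -∫ ⟪∇R,∇ξ⟫ - 2 ∫ (v - e2) R ξ ≥ 0` (`Red.kato`, `Tail.sub`), and
  `ν_KS(m) = ∫ (R - u)(lap m - 2 (v - e2) m)` (`H1.green`, equation of `u`).  `m = e^(k x) χ`, `χ` a cut-off of `{z ≥ λ₀} ∩ ball x₀ Z`, `Z = C₁ log ρ₀`, supported in `z ≥ λ₀/2`; `R - u ≤ (2φ² + ψ²)/u ≤ C ρ^(-2) z g`;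
  `exists_tst_indicator` gives `∫ V₋ → 0` on that set, by symmetry also for `z ≤ -λ₀`.  With `sumClass_far` and the small measure of the strip: `‖V₋‖_{L^(3/2)(ball x₀ Z)} → 0`, so (`exists_sob32`)
  `qf ξ - e2 nsq ξ ≥ (k²/2 - o(1)) nsq ξ` for `ξ` supported in the ball.  `Eig.loc` for `φ` with `χ = e^(k x - α √(1 + ‖x - x₀‖²))` × cut-off, `(k + α)² < k² + δ`; `e^(k x) g ≤ C ρ₀^(b-2)`; `holder`.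
`phi_post`: (Z2).  `post_of`: `le_of_ae_le` for `c r^(-3) g ≤ √(2φ² + u² + ψ²)`, `u = 0` on the plane, `Red.farp`.
-/

set_option autoImplicit false

namespace Crest.Agent.R335

open MeasureTheory Set Filter Topology
open scoped Gradient RealInnerProductSpace ENNReal ContDiff
open Crest.MathPhysics.ThreeBody

variable {k b L C c e1 e2 : ℝ} {R d V0 S v φ u ψ : E3 → ℝ} {GR Gd Gφ Gu Gψ : E3 → E3}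


theorem phi_pre (h : Red k b L C c R GR d Gd V0 S v e1 e2 φ Gφ u Gu ψ Gψ) : PhiB k b φ (23 / 10) :=
  z_pre h

theorem zone1 (h : Red k b L C c R GR d Gd V0 S v e1 e2 φ Gφ u Gu ψ Gψ) (hφ : PhiB k b φ (23 / 10))
    (hτ : ∃ L' : ℝ, ∀ ρ z, L' ≤ ρ → lam ρ / 4 ≤ z → z ≤ Real.log ρ ^ 2 → |tau u ψ ρ z| ≤ ρ⁻¹) :
    ∃ L' : ℝ, ∀ x, L' ≤ cyl x → |x 2| ≤ 1 → φ x ≤ cyl x ^ (-12 : ℝ) * gfun k b x :=
  z_one h hφ hτ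

theorem phi_post (h : Red k b L C c R GR d Gd V0 S v e1 e2 φ Gφ u Gu ψ Gψ)
    (hz : ∃ L' : ℝ, ∀ x, L' ≤ cyl x → |x 2| ≤ 1 → φ x ≤ cyl x ^ (-12 : ℝ) * gfun k b x) : PhiB k b φ 11 :=
  z_phi_post h hz

theorem post_of (h : Red k b L C c R GR d Gd V0 S v e1 e2 φ Gφ u Gu ψ Gψ)
    (hz : ∃ L' : ℝ, ∀ x, L' ≤ cyl x → |x 2| ≤ 1 → φ x ≤ cyl x ^ (-12 : ℝ) * gfun k b x) : Post k b φ ψ :=
  z_post h hz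

end Crest.Agent.R335
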