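import Crest.Agent.R335.A1
import Crest.Agent.R335.A2
import Crest.Agent.R335.A3
import Crest.Agent.R335.A4
import Crest.Agent.R335.B
import Crest.Agent.R335.C
import Crest.Agent.R335.K1
import Crest.Agent.R335.K3
import Crest.Agent.R335.Z
import Crest.Agent.R335.G

/-!
# R335/Main: assembly
-/

set_option autoImplicit false

namespace Crest.Agent.R335

open MeasureTheory Set Filter Topology
open scoped Gradient RealInnerProductSpace ENNReal ContDiff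
open Crest.MathPhysics.ThreeBody

variable {k b L C c e1 e2 : ℝ} {R d V0 S v φ u ψ : E3 → ℝ} {GR Gd Gφ Gu Gψ : E3 → E3}


theorem red_false (h : Red k b L C c R GR d Gd V0 S v e1 e2 φ Gφ u Gu ψ Gψ) : False :=
  have h1 := phi_pre h
  have h2 := zone1 h h1 (tau_small h h1)
  final h (phi_post h h2) (post_of h h2)

theorem no_ks (h : Tail k b L C c R GR d Gd V0 S) {ψ : ℕ → E3 → ℝ} {Gψ : ℕ → E3 → E3}
    (hk : KS v e1 e2 φ Gφ ψ Gψ R) : False := by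
  obtain ⟨φ', u, Gu, ψ', Gψ', h2⟩ := ks2_of_ks h hk
  obtain ⟨L', c', ψ₀, G₀, h3⟩ := red_of_ks2 h h2
  exact red_false h3

theorem main : ∃ D₀ : ℝ, ∀ D : ℝ, D₀ ≤ D → ∃ Z₀ : ℕ, ∀ Z : ℕ, Z₀ ≤ Z →
    ∃ Ψ : Wave3, IsGroundState (coulombPotential Z (EuclideanSpace.single 2 (D / Z))
      (EuclideanSpace.single 2 (-(D / Z)))) Ψ ∧ ¬ HasEnsembleRep Ψ := by
  obtain ⟨D₀, hD⟩ := oneB
  refine ⟨D₀, fun D hD' => ?_⟩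
  obtain ⟨eg, eu, e3, g, Gg, u, Gu, h1⟩ := hD D hD'
  obtain ⟨γ, a, C, hγ, ha, haγ, hC, h2⟩ := spec h1
  obtain ⟨C₂, hC₂, h3⟩ := scal h1 hγ ha haγ hC
  obtain ⟨η, hη, hη1, h4⟩ := tail_of_scal h1 hγ ha hC₂
  obtain ⟨Z₀, h5⟩ := h2 η hη
  refine ⟨⌈Z₀⌉₊ + 1, fun Z hZ => ?_⟩
  have hZ0 : 0 < Z := by omega
  have hZ1 : Z₀ ≤ (Z : ℝ) := (Nat.le_ceil Z₀).trans (by exact_mod_cast (by omega : ⌈Z₀⌉₊ ≤ Z))
  obtain ⟨E0, ES, E, Φ, GΦ, Θ, GΘ, F, GF, hs⟩ := h5 Z hZ1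
  obtain ⟨I, γS, C', μ, GR, d, Gd, q, Gq, yw, Gw, yo, Go, ye, dS, GS, W, S, σ, hsc⟩ :=
    h3 η Z E0 ES E Φ GΦ Θ GΘ F GF hη hη1 hs
  obtain ⟨k, b, L, C₁, c, V0, S', ht⟩ := h4 _ _ _ _ _ _ _ _ _ _ _ _ _ _ _ _ _ _ _ _ _ hsc
  obtain ⟨Ψ, hΨ, hd⟩ := bridge hZ0 hs.min
  refine ⟨Ψ, hΨ, fun hr => ?_⟩
  obtain ⟨v, e1, e2, φ, Gφ, ψ, Gψ, hk⟩ :=
    ks_of_rep hr (by exact_mod_cast hZ0 : (0 : ℝ) < Z) ht.hR.mf.aestronglyMeasurable hd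
  exact no_ks ht hk

end Crest.Agent.R335
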