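import Crest.Agent.R335.Defs
import Crest.Agent.R83.Newt

/-!
# R335/P1_a: the radial kernel (aux file of `P1`)

`T = 1` on `t ≤ 1/4`, `T = 0` on `t ≥ 3/4`; `H t = (1 - T t) t^(-1/2)`; `lap (H (‖·‖²)) = - c0 K (‖·‖²)`.
-/

set_option autoImplicit false

namespace Crest.Agent.R335

open MeasureTheory Set Filter Topology
open scoped Gradient RealInnerProductSpace ENNReal ContDiff
open Crest.Agent.R83 (newtD newt_lap c0 c0_pos newt_green newt_zero)

theorem p1_two : (2 : WithTop ℕ∞) ≤ ((⊤ : ℕ∞) : WithTop ℕ∞) := WithTop.coe_le_coe.2 (le_top : (2 : ℕ∞) ≤ ⊤)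

theorem p1_hasF (a y : E3) : HasFDerivAt (fun y : E3 => ‖a - y‖ ^ 2)
    ((2 : ℝ) • innerSL ℝ (y - a)) y := by
  have h := ((hasFDerivAt_id (𝕜 := ℝ) y).sub_const a).norm_sq
  have e : (fun y : E3 => ‖a - y‖ ^ 2) = fun y : E3 => ‖id y - a‖ ^ 2 := by
    funext z; rw [norm_sub_rev]; rfl
  rw [e]
  refine h.congr_fderiv ?_
  ext v
  simp

theorem p1_sm (a : E3) : ContDiff ℝ ∞ fun y : E3 => ‖a - y‖ ^ 2 :=
  (contDiff_norm_sq ℝ).comp (contDiff_const.sub contDiff_id)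

theorem p1_D {H : ℝ → ℝ} (hH : Differentiable ℝ H) (a : E3) (i : Fin 3) :
    newtD i (fun y => H (‖a - y‖ ^ 2)) = fun y => deriv H (‖a - y‖ ^ 2) * (2 * (y i - a i)) := by
  funext y
  have h := (hH (‖a - y‖ ^ 2)).hasDerivAt.comp_hasFDerivAt y (p1_hasF a y)
  rw [newtD]
  refine (congrArg (fun L : E3 →L[ℝ] ℝ => L (Crest.Agent.R83.e i)) h.fderiv).trans ?_
  simp [EuclideanSpace.inner_single_right]

theorem p1_lap_rad {H : ℝ → ℝ} (hH : ContDiff ℝ ∞ H) (a y : E3) :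
    lap (fun y => H (‖a - y‖ ^ 2)) y =
      6 * deriv H (‖a - y‖ ^ 2) + 4 * ‖a - y‖ ^ 2 * deriv (deriv H) (‖a - y‖ ^ 2) := by
  have h2 : ContDiff ℝ 2 fun y : E3 => H (‖a - y‖ ^ 2) :=
    (hH.comp (p1_sm a)).of_le p1_two
  have hd : Differentiable ℝ H := hH.differentiable (by simp)
  have hd' : Differentiable ℝ (deriv H) := (hH.iterate_deriv 1).differentiable (by simp)
  have h : ∀ i : Fin 3, newtD i (newtD i fun y => H (‖a - y‖ ^ 2)) y =
      deriv (deriv H) (‖a - y‖ ^ 2) * (4 * (a i - y i) ^ 2) + 2 * deriv H (‖a - y‖ ^ 2) := by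
    intro i
    rw [p1_D hd, newtD]
    have h1 := (hd' (‖a - y‖ ^ 2)).hasDerivAt.comp_hasFDerivAt y (p1_hasF a y)
    have h3 := (((EuclideanSpace.proj i : E3 →L[ℝ] ℝ).hasFDerivAt (x := y)).sub_const (a i)).const_mul 2
    have h4 := h1.mul h3
    refine (congrArg (fun L : E3 →L[ℝ] ℝ => L (Crest.Agent.R83.e i)) h4.fderiv).trans ?_
    simp [EuclideanSpace.inner_single_right]
    ring
  have e4 : ‖a - y‖ ^ 2 = (a 0 - y 0) ^ 2 + (a 1 - y 1) ^ 2 + (a 2 - y 2) ^ 2 := by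
    rw [EuclideanSpace.norm_sq_eq, Fin.sum_univ_three]
    simp
  show Crest.Agent.R83.lap _ _ = _
  rw [newt_lap h2, Fin.sum_univ_three, h, h, h]
  generalize deriv (deriv H) (‖a - y‖ ^ 2) = u
  generalize deriv H (‖a - y‖ ^ 2) = v
  rw [e4]; ring

noncomputable def p1T (t : ℝ) : ℝ := Real.smoothTransition (3 / 2 - 2 * t)
noncomputable def p1H (t : ℝ) : ℝ := (1 - p1T t) * t ^ (-(1 / 2) : ℝ)
noncomputable def p1K (t : ℝ) : ℝ := -(6 * deriv p1H t + 4 * t * deriv (deriv p1H) t) / c0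

theorem p1T_sm : ContDiff ℝ ∞ p1T :=
  Real.smoothTransition.contDiff.comp (contDiff_const.sub (contDiff_const.mul contDiff_id))

theorem p1T_one {t : ℝ} (h : t ≤ 1 / 4) : p1T t = 1 := Real.smoothTransition.one_of_one_le (by linarith)

theorem p1T_zero {t : ℝ} (h : 3 / 4 ≤ t) : p1T t = 0 := Real.smoothTransition.zero_of_nonpos (by linarith)

theorem p1T_anti {t t' : ℝ} (h : t ≤ t') : p1T t' ≤ p1T t :=
  Real.smoothTransition.monotone (by linarith)

theorem p1T_nonneg (t : ℝ) : 0 ≤ p1T t := Real.smoothTransition.nonneg _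

theorem p1T_le_one (t : ℝ) : p1T t ≤ 1 := Real.smoothTransition.le_one _

theorem p1H_sm : ContDiff ℝ ∞ p1H := by
  refine contDiff_iff_contDiffAt.2 fun t => ?_
  rcases lt_or_ge t (1 / 4) with ht | ht
  · refine (contDiffAt_const (c := (0 : ℝ))).congr_of_eventuallyEq ?_
    filter_upwards [Iio_mem_nhds ht] with y hy
    rw [p1H, p1T_one (le_of_lt hy)]; simp
  · exact (contDiffAt_const.sub p1T_sm.contDiffAt).mul
      (Real.contDiffAt_rpow_const_of_ne (by linarith : (0 : ℝ) < t).ne')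

theorem p1K_sm : ContDiff ℝ ∞ p1K :=
  ((contDiff_const.mul (p1H_sm.iterate_deriv 1)).add
    ((contDiff_const.mul contDiff_id).mul (p1H_sm.iterate_deriv 2))).neg.div_const _

theorem p1K_zero {t : ℝ} (h : 3 / 4 < t) : p1K t = 0 := by
  have d1 : ∀ u : ℝ, 3 / 4 < u → deriv p1H u = -(1 / 2) * u ^ (-(1 / 2) - 1 : ℝ) := by
    intro u hu
    have e : p1H =ᶠ[𝓝 u] fun t => t ^ (-(1 / 2) : ℝ) := by
      filter_upwards [Ioi_mem_nhds hu] with y hy
      rw [p1H, p1T_zero (le_of_lt hy)]; simp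
    rw [e.deriv_eq, (Real.hasDerivAt_rpow_const (Or.inl (by linarith : (0 : ℝ) < u).ne')).deriv]
  have e : deriv p1H =ᶠ[𝓝 t] fun u => -(1 / 2) * u ^ (-(1 / 2) - 1 : ℝ) := by
    filter_upwards [Ioi_mem_nhds h] with y hy using d1 y hy
  have ht : 0 < t := by linarith
  have d2 := ((Real.hasDerivAt_rpow_const (p := -(1 / 2) - 1) (Or.inl ht.ne')).const_mul (-(1 / 2))).deriv
  rw [p1K, e.deriv_eq, d2, d1 t h]
  have e3 : t ^ (-(1 / 2) - 1 : ℝ) = t ^ (-(1 / 2) - 1 - 1 : ℝ) * t := by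
    rw [← Real.rpow_add_one ht.ne']; norm_num
  rw [e3]; ring

theorem p1_sq (r : ℝ) (hr : 0 ≤ r) : (r ^ 2) ^ (-(1 / 2) : ℝ) = r⁻¹ := by
  rw [← Real.rpow_natCast, ← Real.rpow_mul hr, ← Real.rpow_neg_one]
  norm_num

/-- the scaled profile -/
noncomputable def p1Hs (s t : ℝ) : ℝ := s⁻¹ * p1H (t / s ^ 2)

theorem p1Hs_sm (s : ℝ) : ContDiff ℝ ∞ (p1Hs s) :=
  contDiff_const.mul (p1H_sm.comp (contDiff_id.div_const _))

theorem p1Hs_eq {s r : ℝ} (hs : 0 < s) (hr : 0 ≤ r) : p1Hs s (r ^ 2) = (1 - p1T (r ^ 2 / s ^ 2)) * r⁻¹ := by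
  rw [p1Hs, p1H, ← div_pow, p1_sq _ (div_nonneg hr hs.le), inv_div]
  field_simp

theorem p1_deriv_scale {F : ℝ → ℝ} (hF : Differentiable ℝ F) (c d : ℝ) :
    deriv (fun t => c * F (t / d)) = fun t => c / d * deriv F (t / d) := by
  funext t
  have h := (((hF (t / d)).hasDerivAt.comp t ((hasDerivAt_id t).div_const d)).const_mul c).deriv
  refine Eq.trans h ?_
  ring

theorem p1Hs_lap {s : ℝ} (hs : 0 < s) (t : ℝ) :
    6 * deriv (p1Hs s) t + 4 * t * deriv (deriv (p1Hs s)) t = -(c0 * ((s ^ 3)⁻¹ * p1K (t / s ^ 2))) := by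
  have hd : Differentiable ℝ p1H := p1H_sm.differentiable (by simp)
  have hd' : Differentiable ℝ (deriv p1H) := (p1H_sm.iterate_deriv 1).differentiable (by simp)
  have e1 : deriv (p1Hs s) = fun t => s⁻¹ / s ^ 2 * deriv p1H (t / s ^ 2) := p1_deriv_scale hd _ _
  rw [e1, p1_deriv_scale hd', p1K]
  have := c0_pos.ne'
  field_simp

/-- the kernel -/
noncomputable def p1k (y : E3) : ℝ := p1K (‖y‖ ^ 2)

theorem p1k_sm : ContDiff ℝ ∞ p1k := p1K_sm.comp (contDiff_norm_sq ℝ)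

theorem p1k_zero {y : E3} (h : 1 ≤ ‖y‖) : p1k y = 0 := p1K_zero (by nlinarith)

theorem p1k_cpt : HasCompactSupport p1k :=
  HasCompactSupport.intro (isCompact_closedBall (0 : E3) 1) fun y hy =>
    p1k_zero (by simpa using (not_le.1 (by simpa using hy)).le)

theorem p1k_scale {s : ℝ} (hs : 0 < s) (z : E3) : p1k (s⁻¹ • z) = p1K (‖z‖ ^ 2 / s ^ 2) := by
  rw [p1k, norm_smul, Real.norm_of_nonneg (inv_nonneg.2 hs.le)]
  congr 1
  field_simp

theorem p1_lap_Hs {s : ℝ} (hs : 0 < s) (a y : E3) :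
    lap (fun y => p1Hs s (‖a - y‖ ^ 2)) y = -(c0 * ((s ^ 3)⁻¹ * p1k (s⁻¹ • (a - y)))) := by
  rw [p1_lap_rad (p1Hs_sm s), p1Hs_lap hs, p1k_scale hs]

theorem p1k_int : ∫ y, p1k y = 1 := by
  have hT : ContDiff ℝ ∞ fun t : ℝ => p1T (t / 4) := p1T_sm.comp (contDiff_id.div_const _)
  have hg : ContDiff ℝ 2 fun y : E3 => p1T (‖0 - y‖ ^ 2 / 4) :=
    (hT.comp (p1_sm 0)).of_le p1_two
  have hc : HasCompactSupport fun y : E3 => p1T (‖0 - y‖ ^ 2 / 4) :=
    HasCompactSupport.intro (isCompact_closedBall (0 : E3) 2) fun y hy => by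
      have : 2 < ‖y‖ := by simpa using hy
      refine p1T_zero ?_
      rw [zero_sub, norm_neg]; nlinarith
  have hh : ContDiff ℝ 2 fun y : E3 => p1Hs 1 (‖0 - y‖ ^ 2) :=
    ((p1Hs_sm 1).comp (p1_sm 0)).of_le p1_two
  have h1 := newt_green hh hg hc
  have h2 := newt_zero hg hc
  have h3 : ∀ y : E3, p1Hs 1 (‖0 - y‖ ^ 2) * Crest.Agent.R83.lap (fun y : E3 => p1T (‖0 - y‖ ^ 2 / 4)) y =
      ‖y‖⁻¹ * Crest.Agent.R83.lap (fun y : E3 => p1T (‖0 - y‖ ^ 2 / 4)) y := by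
    intro y
    rcases lt_or_ge (‖0 - y‖ ^ 2) 1 with hy | hy
    · have e0 := p1_lap_rad hT 0 y
      have e1 : ∀ u : ℝ, u < 1 → deriv (fun t : ℝ => p1T (t / 4)) u = 0 := by
        intro u hu
        have e : (fun t : ℝ => p1T (t / 4)) =ᶠ[𝓝 u] fun _ => 1 := by
          filter_upwards [Iio_mem_nhds hu] with t ht using p1T_one (by linarith [mem_Iio.1 ht])
        rw [e.deriv_eq, deriv_const]
      have e2 : deriv (fun t : ℝ => p1T (t / 4)) =ᶠ[𝓝 (‖0 - y‖ ^ 2)] fun _ => 0 := by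
        filter_upwards [Iio_mem_nhds hy] with t ht using e1 t ht
      rw [e1 _ hy, e2.deriv_eq, deriv_const] at e0
      have e3 : Crest.Agent.R83.lap (fun y : E3 => p1T (‖0 - y‖ ^ 2 / 4)) y = 0 := e0.trans (by ring)
      rw [e3, mul_zero, mul_zero]
    · rw [p1Hs_eq one_pos (norm_nonneg _), p1T_zero (by linarith), zero_sub, norm_neg]
      simp
  have h4 : ∀ y : E3, Crest.Agent.R83.lap (fun y : E3 => p1Hs 1 (‖0 - y‖ ^ 2)) y * p1T (‖0 - y‖ ^ 2 / 4) =
      -(c0 * p1k y) := by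
    intro y
    have e0 : Crest.Agent.R83.lap (fun y : E3 => p1Hs 1 (‖0 - y‖ ^ 2)) y = -(c0 * p1k y) := by
      refine (p1_lap_Hs one_pos 0 y).trans ?_
      simp [p1k]
    rw [e0]
    rcases le_or_gt 1 ‖y‖ with hy | hy
    · rw [p1k_zero hy]; simp
    · rw [p1T_one, mul_one]
      rw [zero_sub, norm_neg]; nlinarith [norm_nonneg y]
  simp only [h3, h4] at h1
  rw [h2, integral_neg, integral_const_mul, p1T_one (by simp)] at h1
  have := c0_pos.ne'
  have h5 : c0 * ∫ y, p1k y = c0 * 1 := by linarith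
  exact mul_left_cancel₀ this h5

/-- Lebesgue points -/
theorem p1_leb {v : E3 → ℝ} (hv : LocallyIntegrable v volume) : ∀ᵐ x,
    Tendsto (fun ε : ℝ => ∫ y, (ε ^ 3)⁻¹ * p1k (ε⁻¹ • (x - y)) * v y) (𝓝[>] 0) (𝓝 (v x)) := by
  obtain ⟨M, hM⟩ := p1k_sm.continuous.bounded_above_of_compact_support p1k_cpt
  filter_upwards [(Besicovitch.vitaliFamily (volume : Measure E3)).ae_tendsto_average_norm_sub hv] with x h₀
  have := h₀.comp (Besicovitch.tendsto_filterAt volume x)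
  refine tendsto_integral_smul_of_tendsto_average_norm_sub
    (g := fun (ε : ℝ) y => (ε ^ 3)⁻¹ * p1k (ε⁻¹ • (x - y)))
    (M * (volume : Measure E3).real (Metric.closedBall 0 1)) this ?_ ?_ ?_ ?_
  · filter_upwards with i using hv.integrableOn_isCompact (isCompact_closedBall _ _)
  · refine tendsto_const_nhds.congr' ?_
    filter_upwards [self_mem_nhdsWithin] with ε (hε : 0 < ε)
    rw [integral_const_mul, integral_sub_left_eq_self (fun z : E3 => p1k (ε⁻¹ • z)),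
      Measure.integral_comp_inv_smul_of_nonneg _ _ hε.le, p1k_int, finrank_euclideanSpace_fin, smul_eq_mul]
    field_simp
  · filter_upwards [self_mem_nhdsWithin] with ε (hε : 0 < ε) y hy
    by_contra hn
    have h1 : ε < ‖x - y‖ := by
      rw [Metric.mem_closedBall, dist_eq_norm, norm_sub_rev] at hn; exact not_le.1 hn
    refine hy ?_
    show (ε ^ 3)⁻¹ * p1k (ε⁻¹ • (x - y)) = 0
    rw [p1k_zero, mul_zero]
    rw [norm_smul, Real.norm_of_nonneg (inv_nonneg.2 hε.le), ← div_eq_inv_mul, le_div_iff₀ hε]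
    linarith
  · filter_upwards [self_mem_nhdsWithin] with ε (hε : 0 < ε) y
    have hpos : 0 < (volume : Measure E3).real (Metric.closedBall 0 1) :=
      ENNReal.toReal_pos (Metric.measure_closedBall_pos _ _ one_pos).ne' measure_closedBall_lt_top.ne
    rw [Measure.addHaar_real_closedBall' _ _ hε.le, finrank_euclideanSpace_fin, abs_mul,
      abs_of_pos (by positivity : 0 < (ε ^ 3)⁻¹), mul_div_mul_right _ _ hpos.ne', div_eq_inv_mul]
    exact mul_le_mul_of_nonneg_left (hM _) (by positivity)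

end Crest.Agent.R335
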