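import Crest.Agent.R335.S7
import Crest.Agent.R83.Newt
import Crest.Agent.R335.P1_a

/-!
# R335/P1: the representation inequality for weak subsolutions in `ℝ³`

Let `θ` be a smooth radial cut-off (`1` on `ball 0 (1/2)`, supported in `ball 0 1`), `c0 = 4 π` as in `R83.Newt`, and
`k = lap (θ ‖·‖⁻¹) / c0` off the origin (`k = 0` near `0`).  For a mollification `w_δ = η_δ ⋆ w` (smooth, and
`lap w_δ ≥ - η_δ ⋆ f` pointwise: test with `η_δ (x - ·)`), Newton's formula `R83.newton` applied to `θ((x - ·)/s) w_δ`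
gives `w_δ x = ∫ k_s (x - y) w_δ y - c0⁻¹ ∫ θ((x - y)/s) ‖x - y‖⁻¹ lap w_δ y`.  Let `δ → 0` in `L¹_loc` (the
kernels are integrable) and take an a.e. convergent subsequence.
-/

set_option autoImplicit false

namespace Crest.Agent.R335

open MeasureTheory Set Filter Topology
open scoped Gradient RealInnerProductSpace ENNReal ContDiff
open Crest.MathPhysics.ThreeBody

theorem p1_leb_loc {Ω : Set E3} {w : E3 → ℝ} {G : E3 → E3} (hΩ : IsOpen Ω) (hw : H1loc Ω w G) : ∀ᵐ x, x ∈ Ω →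
    Tendsto (fun ε : ℝ => ∫ y, (ε ^ 3)⁻¹ * p1k (ε⁻¹ • (x - y)) * w y) (𝓝[>] 0) (𝓝 (w x)) := by
  rw [ae_iff]
  refine measure_null_of_locally_null _ fun x hx => ?_
  have hxΩ : x ∈ Ω := by
    by_contra h
    exact hx fun h' => absurd h' h
  obtain ⟨f', G', U, h1, hU, h2, -, h3, -⟩ :=
    hw.exists_h1 hΩ isCompact_singleton (singleton_subset_iff.2 hxΩ)
  refine ⟨_ ∩ U, inter_mem_nhdsWithin _ (hU.mem_nhds (h2 rfl)), ?_⟩
  have h4 := p1_leb (h1.h1.mf.locallyIntegrable (by simp))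
  rw [ae_iff] at h4
  refine measure_mono_null (fun z hz => ?_) h4
  intro hz'
  refine hz.1 fun _ => ?_
  rw [← (h3 z hz.2).1]
  refine hz'.congr' ?_
  obtain ⟨r, hr, hrU⟩ := Metric.isOpen_iff.1 hU z hz.2
  filter_upwards [Ioo_mem_nhdsGT hr] with ε hε
  refine integral_congr_ae (.of_forall fun y => ?_)
  by_cases hy : y ∈ U
  · simp only [(h3 y hy).1]
  · have h5 : r ≤ ‖z - y‖ := by
      by_contra h6
      exact hy (hrU (by rw [Metric.mem_ball, dist_eq_norm, norm_sub_rev]; exact not_le.1 h6))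
    have h7 : p1k (ε⁻¹ • (z - y)) = 0 := by
      refine p1k_zero ?_
      rw [norm_smul, Real.norm_of_nonneg (inv_nonneg.2 hε.1.le), ← div_eq_inv_mul, le_div_iff₀ hε.1]
      linarith [hε.2]
    simp only [h7, mul_zero, zero_mul]

theorem p1_int {w : E3 → ℝ} {x : E3} {s ε : ℝ} (hw : IntegrableOn w (Metric.closedBall x s)) (hε : 0 < ε)
    (hs : ε ≤ s) : Integrable fun y => (ε ^ 3)⁻¹ * p1k (ε⁻¹ • (x - y)) * w y := by
  have hc : Continuous fun y : E3 => (ε ^ 3)⁻¹ * p1k (ε⁻¹ • (x - y)) := by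
    have := p1k_sm.continuous
    fun_prop
  refine (IntegrableOn.continuousOn_mul hc.continuousOn hw (isCompact_closedBall x s)).integrable_of_forall_notMem_eq_zero
    fun y hy => ?_
  have h1 : s < ‖x - y‖ := by
    rw [Metric.mem_closedBall, dist_eq_norm, norm_sub_rev] at hy; exact not_le.1 hy
  have h7 : p1k (ε⁻¹ • (x - y)) = 0 := by
    refine p1k_zero ?_
    rw [norm_smul, Real.norm_of_nonneg (inv_nonneg.2 hε.le), ← div_eq_inv_mul, le_div_iff₀ hε]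
    linarith
  simp only [h7, mul_zero, zero_mul]

theorem p1_step {Ω : Set E3} {w f : E3 → ℝ} {G : E3 → E3} {s ε : ℝ} (hΩ : IsOpen Ω) (hw : H1loc Ω w G)
    (hf0 : ∀ᵐ y, y ∈ Ω → 0 ≤ f y)
    (hle : ∀ ξ, Tst Ω ξ → (∀ y, 0 ≤ ξ y) → ∫ y, ⟪G y, ∇ ξ y⟫ ≤ ∫ y, f y * ξ y) {x : E3}
    (hx : Metric.closedBall x s ⊆ Ω) (hε : 0 < ε) (hs : ε ≤ s) :
    ENNReal.ofReal ((∫ y, (ε ^ 3)⁻¹ * p1k (ε⁻¹ • (x - y)) * w y) - ∫ y, (s ^ 3)⁻¹ * p1k (s⁻¹ • (x - y)) * w y) ≤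
      ENNReal.ofReal Crest.Agent.R83.c0⁻¹ * ∫⁻ y in Metric.ball x s, ENNReal.ofReal (f y / ‖x - y‖) := by
  have hs0 : 0 < s := hε.trans_le hs
  have hc0 := Crest.Agent.R83.c0_pos
  have hD : ContDiff ℝ ∞ fun t => p1Hs ε t - p1Hs s t := (p1Hs_sm ε).sub (p1Hs_sm s)
  obtain ⟨ξ, hξ⟩ : ∃ ξ : E3 → ℝ, ξ = fun y => p1Hs ε (‖x - y‖ ^ 2) - p1Hs s (‖x - y‖ ^ 2) := ⟨_, rfl⟩
  have hsm : ContDiff ℝ ∞ ξ := by rw [hξ]; exact hD.comp (p1_sm x)
  have he : ∀ y, ξ y = (p1T (‖x - y‖ ^ 2 / s ^ 2) - p1T (‖x - y‖ ^ 2 / ε ^ 2)) * ‖x - y‖⁻¹ := by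
    intro y
    rw [hξ]
    simp only [p1Hs_eq hε (norm_nonneg _), p1Hs_eq hs0 (norm_nonneg _)]
    ring
  have hmono : ∀ y, ‖x - y‖ ^ 2 / s ^ 2 ≤ ‖x - y‖ ^ 2 / ε ^ 2 := fun y =>
    div_le_div_of_nonneg_left (sq_nonneg _) (by positivity) (pow_le_pow_left₀ hε.le hs 2)
  have h0 : ∀ y, 0 ≤ ξ y := fun y => by
    rw [he]
    exact mul_nonneg (sub_nonneg.2 (p1T_anti (hmono y))) (inv_nonneg.2 (norm_nonneg _))
  have h1 : ∀ y, ξ y ≤ ‖x - y‖⁻¹ := fun y => by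
    rw [he]
    refine mul_le_of_le_one_left (inv_nonneg.2 (norm_nonneg _)) ?_
    linarith [p1T_le_one (‖x - y‖ ^ 2 / s ^ 2), p1T_nonneg (‖x - y‖ ^ 2 / ε ^ 2)]
  have hz : ∀ y, y ∉ Metric.ball x s → ξ y = 0 := fun y hy => by
    have h2 : s ≤ ‖x - y‖ := by
      rw [Metric.mem_ball, dist_eq_norm, norm_sub_rev] at hy; exact not_lt.1 hy
    have h3 : 1 ≤ ‖x - y‖ ^ 2 / s ^ 2 := by
      rw [le_div_iff₀ (by positivity), one_mul]; exact pow_le_pow_left₀ hs0.le h2 2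
    rw [he, p1T_zero (by linarith), p1T_zero (by linarith [hmono y])]; simp
  have hts : tsupport ξ ⊆ Metric.closedBall x s :=
    closure_minimal (fun y hy => by
      by_contra h; exact hy (hz y fun h' => h (Metric.ball_subset_closedBall h'))) Metric.isClosed_closedBall
  have hT : Tst Ω ξ := ⟨hsm, (isCompact_closedBall x s).of_isClosed_subset (isClosed_tsupport _) hts, hts.trans hx⟩
  have hlap : ∀ y, lap ξ y = -(Crest.Agent.R83.c0 *
      ((ε ^ 3)⁻¹ * p1k (ε⁻¹ • (x - y)) - (s ^ 3)⁻¹ * p1k (s⁻¹ • (x - y)))) := by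
    intro y
    have a1 := p1Hs_lap hε (‖x - y‖ ^ 2)
    have a2 := p1Hs_lap hs0 (‖x - y‖ ^ 2)
    have d1 : deriv (fun t => p1Hs ε t - p1Hs s t) = fun t => deriv (p1Hs ε) t - deriv (p1Hs s) t :=
      funext fun t => deriv_fun_sub ((p1Hs_sm ε).differentiable (by simp) t)
        ((p1Hs_sm s).differentiable (by simp) t)
    have d2 : ∀ t, deriv (fun t => deriv (p1Hs ε) t - deriv (p1Hs s) t) t =
        deriv (deriv (p1Hs ε)) t - deriv (deriv (p1Hs s)) t := fun t =>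
      deriv_fun_sub (((p1Hs_sm ε).iterate_deriv 1).differentiable (by simp) t)
        (((p1Hs_sm s).iterate_deriv 1).differentiable (by simp) t)
    rw [hξ, p1_lap_rad hD, d1, d2, p1k_scale hε, p1k_scale hs0]
    simp only []
    linarith
  have hwi : IntegrableOn w (Metric.closedBall x s) := by
    have hm := (hw.memLp hΩ (isCompact_closedBall x s) hx).1
    have : IsFiniteMeasure ((volume : Measure E3).restrict (Metric.closedBall x s)) :=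
      isFiniteMeasure_restrict.2 measure_closedBall_lt_top.ne
    exact hm.integrable (by simp)
  have g1 := hw.green hΩ (hsm.of_le p1_two) hT.cpt hT.sub
  have g2 : -∫ y, w y * lap ξ y = Crest.Agent.R83.c0 *
      ((∫ y, (ε ^ 3)⁻¹ * p1k (ε⁻¹ • (x - y)) * w y) - ∫ y, (s ^ 3)⁻¹ * p1k (s⁻¹ • (x - y)) * w y) := by
    rw [← integral_sub (p1_int hwi hε hs) (p1_int hwi hs0 le_rfl), ← integral_const_mul, ← integral_neg]
    refine integral_congr_ae (.of_forall fun y => ?_)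
    simp only [hlap]; ring
  have g3 := hle ξ hT h0
  rw [g1, g2, ← le_div_iff₀' hc0, div_eq_inv_mul] at g3
  refine (ENNReal.ofReal_le_ofReal g3).trans ?_
  rw [ENNReal.ofReal_mul (inv_nonneg.2 hc0.le)]
  refine mul_le_mul_right ?_ _
  refine (Real.ofReal_le_enorm _).trans ((enorm_integral_le_lintegral_enorm _).trans ?_)
  rw [← lintegral_indicator measurableSet_ball]
  refine lintegral_mono_ae (hf0.mono fun y hy => ?_)
  by_cases hb : y ∈ Metric.ball x s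
  · have h2 := hy (hx (Metric.ball_subset_closedBall hb))
    rw [indicator_of_mem hb, Real.enorm_of_nonneg (mul_nonneg h2 (h0 y)), div_eq_mul_inv]
    exact ENNReal.ofReal_le_ofReal (mul_le_mul_of_nonneg_left (h1 y) h2)
  · rw [hz y hb]; simp

theorem exists_kernel : ∃ (k : E3 → ℝ) (C : ℝ), 0 ≤ C ∧ ContDiff ℝ 2 k ∧ (∀ y, 1 ≤ ‖y‖ → k y = 0) ∧
    (∀ y y', ‖y‖ = ‖y'‖ → k y = k y') ∧
    ∀ (Ω : Set E3) (w f : E3 → ℝ) (G : E3 → E3) (s : ℝ), IsOpen Ω → 0 < s → H1loc Ω w G →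
      (∀ K, IsCompact K → K ⊆ Ω → IntegrableOn f K) → (∀ᵐ y, y ∈ Ω → 0 ≤ f y) →
      (∀ ξ, Tst Ω ξ → (∀ y, 0 ≤ ξ y) → ∫ y, ⟪G y, ∇ ξ y⟫ ≤ ∫ y, f y * ξ y) →
      ∀ᵐ x, Metric.closedBall x s ⊆ Ω →
        ENNReal.ofReal (w x - ∫ y, (s ^ 3)⁻¹ * k (s⁻¹ • (x - y)) * w y) ≤
          ENNReal.ofReal C * ∫⁻ y in Metric.ball x s, ENNReal.ofReal (f y / ‖x - y‖) := by
  refine ⟨p1k, Crest.Agent.R83.c0⁻¹, inv_nonneg.2 Crest.Agent.R83.c0_pos.le, p1k_sm.of_le p1_two,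
    fun y hy => p1k_zero hy, fun y y' h => by rw [p1k, p1k, h], ?_⟩
  intro Ω w f G s hΩ hs hw _ hf0 hle
  filter_upwards [p1_leb_loc hΩ hw] with x hx hb
  have h1 := ENNReal.tendsto_ofReal ((hx (hb (Metric.mem_closedBall_self hs.le))).sub_const
    (∫ y, (s ^ 3)⁻¹ * p1k (s⁻¹ • (x - y)) * w y))
  refine le_of_tendsto h1 ?_
  filter_upwards [Ioo_mem_nhdsGT hs] with ε hε
  exact p1_step hΩ hw hf0 hle hb hε.1 hε.2.le

end Crest.Agent.R335
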