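import Crest.Agent.R335.P2a

/-!
# R335/P2: rotation invariant potentials are in the Kato class off the axis
-/

set_option autoImplicit false

namespace Crest.Agent.R335

open MeasureTheory Set Filter Topology
open scoped Gradient RealInnerProductSpace ENNReal ContDiff
open Crest.MathPhysics.ThreeBody

theorem p2_dy {r s : ℝ} (hr : 0 < r) (hs : r < s) : ∃ n : ℕ, s * (1 / 2) ^ (n + 1) ≤ r ∧ r < s * (1 / 2) ^ n := by
  by_contra h
  push Not at h
  have key : ∀ n : ℕ, r < s * (1 / 2) ^ n := by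
    intro n
    induction n with
    | zero => simpa using hs
    | succ n ih =>
      by_contra h'
      exact absurd ih (not_lt.2 (h n (not_lt.1 h')))
  have hs0 : 0 < s := hr.trans hs
  obtain ⟨n, hn⟩ := exists_pow_lt_of_lt_one (div_pos hr hs0) (by norm_num : (1 / 2 : ℝ) < 1)
  have := key n
  rw [lt_div_iff₀ hs0] at hn
  linarith

theorem p2_ball {w : E3 → ℝ} (hw : MemLp w (3 / 2) volume) (hs : ∀ T, SymP T → ∀ᵐ y, w (T y) = w y) :
    ∃ K : ℝ, 0 ≤ K ∧ ∀ (x : E3) (t : ℝ), 0 < t → t ≤ cyl x →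
      ∫⁻ y in Metric.ball x t, ENNReal.ofReal (w y) ≤ ENNReal.ofReal (K * (t * (t / cyl x) ^ (2 / 3 : ℝ))) := by
  obtain ⟨C, hC0, hC⟩ := lintegral_ball_le_of_inv
  have hI : Integrable (fun x => ‖w x‖ ^ (3 / 2 : ℝ)) := by
    have := (integrable_norm_rpow_iff hw.1 s8b_ne_zero s8b_ne_top).2 hw
    rwa [s8b_toReal] at this
  obtain ⟨A, hA⟩ : ∃ A, A = ∫ x, ‖w x‖ ^ (3 / 2 : ℝ) := ⟨_, rfl⟩
  have hA0 : 0 ≤ A := hA ▸ integral_nonneg fun x => by positivity
  have hAl : ∫⁻ x, ENNReal.ofReal (‖w x‖ ^ (3 / 2 : ℝ)) = ENNReal.ofReal A := by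
    rw [hA, ofReal_integral_eq_lintegral_ofReal hI (Eventually.of_forall fun x => by positivity)]
  have hm : AEMeasurable (fun x => ENNReal.ofReal (‖w x‖ ^ (3 / 2 : ℝ))) volume :=
    hI.1.aemeasurable.ennreal_ofReal
  have hπ : 0 < Real.pi * 4 / 3 := by positivity
  refine ⟨C * A + Real.pi * 4 / 3, by positivity, fun x t ht htx => ?_⟩
  have hρ : 0 < cyl x := ht.trans_le htx
  have hq : 0 < t / cyl x := div_pos ht hρ
  obtain ⟨θ, hθ⟩ : ∃ θ : ℝ, θ = (t / cyl x) ^ (1 / 3 : ℝ) := ⟨_, rfl⟩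
  have hθ0 : 0 < θ := hθ ▸ Real.rpow_pos_of_pos hq _
  have h3 : t / cyl x = θ ^ 3 := by
    rw [hθ, ← Real.rpow_natCast, ← Real.rpow_mul hq.le]
    norm_num
  have h2 : (t / cyl x) ^ (2 / 3 : ℝ) = θ ^ 2 := by
    rw [hθ, ← Real.rpow_natCast, ← Real.rpow_mul hq.le]
    norm_num
  have hl : 0 < t / θ := div_pos ht hθ0
  have h4 := hC _ hm (fun T hT => by
    filter_upwards [hs T hT] with y hy
    rw [hy]) x t ht htx
  rw [hAl, h3] at h4
  calc ∫⁻ y in Metric.ball x t, ENNReal.ofReal (w y)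
      ≤ ∫⁻ y in Metric.ball x t, (ENNReal.ofReal (t / θ) * ENNReal.ofReal (‖w y‖ ^ (3 / 2 : ℝ)) +
          ENNReal.ofReal ((t / θ) ^ 2)⁻¹) := by
        refine lintegral_mono fun y => ?_
        rw [← ENNReal.ofReal_mul hl.le, ← ENNReal.ofReal_add (by positivity) (by positivity)]
        exact ENNReal.ofReal_le_ofReal ((le_abs_self _).trans (s8b_young hl (w y)))
    _ = ENNReal.ofReal (t / θ) * (∫⁻ y in Metric.ball x t, ENNReal.ofReal (‖w y‖ ^ (3 / 2 : ℝ))) +
          ENNReal.ofReal ((t / θ) ^ 2)⁻¹ * ENNReal.ofReal (t ^ 3 * (Real.pi * 4 / 3)) := by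
        rw [lintegral_add_right _ measurable_const, lintegral_const_mul' _ _ ENNReal.ofReal_ne_top,
          setLIntegral_const, EuclideanSpace.volume_ball_fin_three, ENNReal.ofReal_mul (pow_pos ht 3).le,
          ENNReal.ofReal_pow ht.le]
    _ ≤ ENNReal.ofReal (t / θ) * (ENNReal.ofReal (C * θ ^ 3) * ENNReal.ofReal A) +
          ENNReal.ofReal ((t / θ) ^ 2)⁻¹ * ENNReal.ofReal (t ^ 3 * (Real.pi * 4 / 3)) := by gcongr
    _ = ENNReal.ofReal ((C * A + Real.pi * 4 / 3) * (t * (t / cyl x) ^ (2 / 3 : ℝ))) := by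
        rw [← ENNReal.ofReal_mul (by positivity), ← ENNReal.ofReal_mul hl.le, ← ENNReal.ofReal_mul (by positivity),
          ← ENNReal.ofReal_add (by positivity) (by positivity), h2]
        congr 1
        field_simp

theorem p2_shell {w : E3 → ℝ} (hw : MemLp w (3 / 2) volume) (h0 : ∀ y, 0 ≤ w y)
    (hs : ∀ T, SymP T → ∀ᵐ y, w (T y) = w y) :
    ∃ K : ℝ, 0 ≤ K ∧ ∀ (x : E3) (s : ℝ), 0 < s → s ≤ cyl x →
      ∫⁻ y in Metric.ball x s, ENNReal.ofReal (w y / ‖x - y‖) ≤ ENNReal.ofReal (K * (s / cyl x) ^ (2 / 3 : ℝ)) := by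
  obtain ⟨K, hK0, hK⟩ := p2_ball hw hs
  obtain ⟨q, hq⟩ : ∃ q : ℝ, q = (1 / 2 : ℝ) ^ (2 / 3 : ℝ) := ⟨_, rfl⟩
  have hq0 : 0 ≤ q := hq ▸ Real.rpow_nonneg (by norm_num) _
  have hq1 : q < 1 := hq ▸ Real.rpow_lt_one (by norm_num) (by norm_num) (by norm_num)
  have hq2 : 0 ≤ (1 - q)⁻¹ := inv_nonneg.2 (sub_nonneg.2 hq1.le)
  have hm : AEMeasurable (fun y => ENNReal.ofReal (w y)) volume := hw.1.aemeasurable.ennreal_ofReal
  refine ⟨2 * K * (1 - q)⁻¹, by positivity, fun x s hs0 hsx => ?_⟩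
  have hρ : 0 < cyl x := hs0.trans_le hsx
  have hθ : 0 ≤ (s / cyl x) ^ (2 / 3 : ℝ) := Real.rpow_nonneg (div_pos hs0 hρ).le _
  have ht : ∀ n : ℕ, 0 < s * (1 / 2) ^ n := fun n => by positivity
  have hts : ∀ n : ℕ, s * (1 / 2) ^ n ≤ s := fun n =>
    mul_le_of_le_one_right hs0.le (pow_le_one₀ (by norm_num) (by norm_num))
  calc ∫⁻ y in Metric.ball x s, ENNReal.ofReal (w y / ‖x - y‖)
      ≤ ∫⁻ y in Metric.ball x s, ∑' n : ℕ, (Metric.ball x (s * (1 / 2) ^ n)).indicator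
          (fun y => ENNReal.ofReal (2 / (s * (1 / 2) ^ n)) * ENNReal.ofReal (w y)) y := by
        refine setLIntegral_mono' measurableSet_ball fun y hy => ?_
        rcases (norm_nonneg (x - y)).eq_or_lt with h | h
        · rw [← h, div_zero, ENNReal.ofReal_zero]
          exact zero_le
        · rw [Metric.mem_ball, dist_comm, dist_eq_norm] at hy
          obtain ⟨n, h1, h2⟩ := p2_dy h hy
          refine le_trans ?_ (ENNReal.le_tsum n)
          rw [indicator_of_mem (by rwa [Metric.mem_ball, dist_comm, dist_eq_norm]),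
            ← ENNReal.ofReal_mul (by have := ht n; positivity)]
          refine ENNReal.ofReal_le_ofReal ?_
          rw [div_eq_inv_mul]
          refine mul_le_mul_of_nonneg_right ?_ (h0 y)
          rw [← one_div, div_le_div_iff₀ h (ht n)]
          rw [pow_succ] at h1
          linarith
    _ ≤ ∫⁻ y, ∑' n : ℕ, (Metric.ball x (s * (1 / 2) ^ n)).indicator
          (fun y => ENNReal.ofReal (2 / (s * (1 / 2) ^ n)) * ENNReal.ofReal (w y)) y :=
        setLIntegral_le_lintegral _ _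
    _ = ∑' n : ℕ, ENNReal.ofReal (2 / (s * (1 / 2) ^ n)) *
          ∫⁻ y in Metric.ball x (s * (1 / 2) ^ n), ENNReal.ofReal (w y) := by
        rw [lintegral_tsum fun n => (hm.const_mul _).indicator measurableSet_ball]
        refine tsum_congr fun n => ?_
        rw [lintegral_indicator measurableSet_ball, lintegral_const_mul' _ _ ENNReal.ofReal_ne_top]
    _ ≤ ∑' n : ℕ, ENNReal.ofReal (2 * K * (s / cyl x) ^ (2 / 3 : ℝ) * q ^ n) := by
        refine ENNReal.tsum_le_tsum fun n => ?_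
        refine (mul_le_mul_right (hK x _ (ht n) ((hts n).trans hsx)) _).trans (le_of_eq ?_)
        rw [← ENNReal.ofReal_mul (by have := ht n; positivity)]
        congr 1
        have h1 : (s * (1 / 2) ^ n / cyl x) ^ (2 / 3 : ℝ) = (s / cyl x) ^ (2 / 3 : ℝ) * q ^ n := by
          rw [mul_div_right_comm, Real.mul_rpow (div_pos hs0 hρ).le (by positivity), hq,
            ← Real.rpow_natCast, ← Real.rpow_natCast, ← Real.rpow_mul (by norm_num), ← Real.rpow_mul (by norm_num),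
            mul_comm (n : ℝ)]
        rw [h1]
        have := (ht n).ne'
        field_simp
    _ = ENNReal.ofReal (2 * K * (1 - q)⁻¹ * (s / cyl x) ^ (2 / 3 : ℝ)) := by
        rw [← ENNReal.ofReal_tsum_of_nonneg (fun n => by positivity)
          ((summable_geometric_of_lt_one hq0 hq1).mul_left _), tsum_mul_left, tsum_geometric_of_lt_one hq0 hq1]
        congr 1
        ring

/-- `|v| ≤ M + w` (`sumClass_split`, `w` is rotation invariant); dyadic shells `t/2 ≤ ‖x - y‖ < t`, Hölder and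
`lintegral_ball_le_of_inv` for `w ^ (3/2)` give the terms `t⁻¹ * t * (t / cyl x) ^ (2/3)` -/
theorem kato_modulus {v : E3 → ℝ} (hv : IsSumClassPotential v) (hs : SymV v) (e : ℝ) : ∃ C : ℝ, 0 ≤ C ∧
    ∀ (x : E3) (s : ℝ), 0 < s → s ≤ cyl x →
      ∫⁻ y in Metric.ball x s, ENNReal.ofReal (|v y - e| / ‖x - y‖) ≤
        ENNReal.ofReal (C * (s ^ 2 + (s / cyl x) ^ (2 / 3 : ℝ))) := by
  obtain ⟨M, hM0, hw⟩ := sumClass_split (sumClass_sub_const hv e)
  obtain ⟨K, hK0, hK⟩ := p2_shell hw (fun y => le_max_right _ _) fun T hT => by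
    filter_upwards [hs T (Or.inl hT)] with y hy
    rw [hy]
  obtain ⟨C, hC0, hC⟩ := lintegral_inv_norm_ball
  refine ⟨M * C + K, by positivity, fun x s hs0 hsx => ?_⟩
  have hρ : 0 < cyl x := hs0.trans_le hsx
  have hθ : 0 ≤ (s / cyl x) ^ (2 / 3 : ℝ) := Real.rpow_nonneg (div_pos hs0 hρ).le _
  have hm : Measurable fun y : E3 => ENNReal.ofReal M * ENNReal.ofReal (1 / ‖x - y‖) :=
    ((measurable_const.div (measurable_const.sub measurable_id).norm).ennreal_ofReal).const_mul _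
  calc ∫⁻ y in Metric.ball x s, ENNReal.ofReal (|v y - e| / ‖x - y‖)
      ≤ ∫⁻ y in Metric.ball x s, (ENNReal.ofReal M * ENNReal.ofReal (1 / ‖x - y‖) +
          ENNReal.ofReal (max (|v y - e| - M) 0 / ‖x - y‖)) := by
        refine lintegral_mono fun y => ?_
        have h1 : 0 ≤ max (|v y - e| - M) 0 := le_max_right _ _
        rw [← ENNReal.ofReal_mul hM0, ← ENNReal.ofReal_add (by positivity) (by positivity)]
        refine ENNReal.ofReal_le_ofReal ?_
        rw [mul_one_div, ← add_div]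
        refine div_le_div_of_nonneg_right ?_ (norm_nonneg _)
        have := le_max_left (|v y - e| - M) 0
        linarith
    _ ≤ ENNReal.ofReal M * ENNReal.ofReal (C * s ^ 2) + ENNReal.ofReal (K * (s / cyl x) ^ (2 / 3 : ℝ)) := by
        rw [lintegral_add_left hm, lintegral_const_mul' _ _ ENNReal.ofReal_ne_top]
        exact add_le_add (mul_le_mul_right (hC x s hs0).1 _) (hK x s hs0 hsx)
    _ ≤ _ := by
        rw [← ENNReal.ofReal_mul hM0, ← ENNReal.ofReal_add (by positivity) (by positivity)]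
        refine ENNReal.ofReal_le_ofReal ?_
        have h1 : 0 ≤ M * C * (s / cyl x) ^ (2 / 3 : ℝ) := by positivity
        have h2 : 0 ≤ K * s ^ 2 := by positivity
        nlinarith

/-- the `L^(3/2)` part is small far out -/
theorem sumClass_far {v : E3 → ℝ} (hv : IsSumClassPotential v) (e : ℝ) : ∃ M : ℝ, 0 ≤ M ∧ ∀ ε : ℝ, 0 < ε →
    ∃ L : ℝ, eLpNorm ((far L).indicator fun x => max (|v x - e| - M) 0) (3 / 2) volume ≤ ENNReal.ofReal ε := by
  obtain ⟨M, hM0, hw⟩ := sumClass_split (sumClass_sub_const hv e)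
  refine ⟨M, hM0, fun ε hε => ?_⟩
  obtain ⟨w, hw'⟩ : ∃ w : E3 → ℝ, w = fun x => max (|v x - e| - M) 0 := ⟨_, rfl⟩
  rw [← hw'] at hw ⊢
  have hfar : ∀ L, MeasurableSet (far L) := fun L => measurableSet_lt measurable_const measurable_norm
  obtain ⟨ν, hν⟩ : ∃ ν : Measure E3, ν = volume.withDensity fun x => ‖w x‖ₑ ^ (3 / 2 : ℝ≥0∞).toReal := ⟨_, rfl⟩
  have hfin : ν univ ≠ ⊤ := by
    rw [hν, withDensity_apply _ MeasurableSet.univ, Measure.restrict_univ]
    exact (lintegral_rpow_enorm_lt_top_of_eLpNorm_lt_top s8b_ne_zero s8b_ne_top hw.2).ne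
  have h1 : Tendsto (fun n : ℕ => ν (far n)) atTop (𝓝 (ν (⋂ n : ℕ, far n))) :=
    tendsto_measure_iInter_atTop (fun n => (hfar _).nullMeasurableSet)
      (fun m n hmn x (hx : (n : ℝ) < ‖x‖) => show (m : ℝ) < ‖x‖ from lt_of_le_of_lt (Nat.cast_le.2 hmn) hx)
      ⟨0, ne_top_of_le_ne_top hfin (measure_mono (subset_univ _))⟩
  have h2 : (⋂ n : ℕ, far n) = ∅ := by
    refine eq_empty_of_forall_notMem fun x hx => ?_
    obtain ⟨n, hn⟩ := exists_nat_ge ‖x‖
    exact absurd (mem_iInter.1 hx n) (not_lt.2 hn)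
  rw [h2, measure_empty] at h1
  have h3 := (ENNReal.continuous_rpow_const (y := 1 / (3 / 2 : ℝ≥0∞).toReal)).tendsto 0 |>.comp h1
  rw [ENNReal.zero_rpow_of_pos (by rw [s8b_toReal]; norm_num)] at h3
  obtain ⟨n, hn⟩ := ((tendsto_order.1 h3).2 _ (ENNReal.ofReal_pos.2 hε)).exists
  refine ⟨n, ?_⟩
  rw [eLpNorm_indicator_eq_eLpNorm_restrict (hfar _), eLpNorm_eq_lintegral_rpow_enorm_toReal s8b_ne_zero s8b_ne_top,
    ← withDensity_apply _ (hfar _), ← hν]
  exact hn.le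

end Crest.Agent.R335
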