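import Crest.Agent.R335.S8

/-!
# R335/P2: rotation invariant potentials are in the Kato class off the axis
-/

set_option autoImplicit false

namespace Crest.Agent.R335

open MeasureTheory Set Filter Topology
open scoped Gradient RealInnerProductSpace ENNReal ContDiff
open Crest.MathPhysics.ThreeBody

theorem p2a_dist {T : ℝ → E3 ≃ₗᵢ[ℝ] E3} (hT : ∀ α x, T α x =
    !₂[Real.cos α * x 0 - Real.sin α * x 1, Real.sin α * x 0 + Real.cos α * x 1, x 2]) (a b : ℝ) (x : E3) :
    ‖T a x - T b x‖ ^ 2 = cyl x ^ 2 * (2 - 2 * Real.cos (a - b)) := by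
  rw [geob_norm_sq, cyl_sq, Real.cos_sub, hT, hT]
  simp
  linear_combination (x 0 ^ 2 + x 1 ^ 2) * (Real.cos_sq_add_sin_sq a + Real.cos_sq_add_sin_sq b)

theorem p2a_int (s : ℝ) : IntegrableOn (fun y : E3 => 1 / ‖y‖ ^ 2) (Metric.ball 0 s) := by
  refine integrableOn_ball_of_norm_le_rpow (C := 1) (α := 2) (by simp) (by simp; norm_num)
    (ae_of_all _ fun y => ?_) (Measurable.aestronglyMeasurable (by fun_prop))
  rw [Real.norm_of_nonneg (by positivity), Real.rpow_neg (norm_nonneg _), Real.rpow_two, one_mul, one_div]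

/-- about `cyl x / t` rotated copies of `ball x t` are disjoint -/
theorem lintegral_ball_le_of_inv : ∃ C : ℝ, 0 ≤ C ∧ ∀ F : E3 → ℝ≥0∞, AEMeasurable F →
    (∀ T, SymP T → ∀ᵐ y, F (T y) = F y) → ∀ (x : E3) (t : ℝ), 0 < t → t ≤ cyl x →
      ∫⁻ y in Metric.ball x t, F y ≤ ENNReal.ofReal (C * (t / cyl x)) * ∫⁻ y, F y := by
  refine ⟨1, zero_le_one, fun F _ hF x t ht htx => ?_⟩
  have hρ : 0 < cyl x := ht.trans_le htx
  set r : ℝ := t / cyl x with hr
  have hr0 : 0 < r := div_pos ht hρ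
  have hrt : r * cyl x = t := div_mul_cancel₀ _ hρ.ne'
  choose T hT1 hT2 using exists_rot
  set N : ℕ := ⌊r⁻¹⌋₊ + 1 with hN
  have hN1 : r⁻¹ < N := by rw [hN]; push_cast; exact Nat.lt_floor_add_one _
  have hN2 : ∀ k ∈ Finset.range N, (k : ℝ) * r ≤ 1 := fun k hk => by
    have h1 : k ≤ ⌊r⁻¹⌋₊ := Nat.lt_succ_iff.1 (Finset.mem_range.1 hk)
    have h2 : (k : ℝ) ≤ r⁻¹ := (Nat.cast_le.2 h1).trans (Nat.floor_le (inv_pos.2 hr0).le)
    rwa [← one_div, le_div_iff₀ hr0] at h2
  have hd : ∀ j ∈ Finset.range N, ∀ k ∈ Finset.range N, k < j →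
      Disjoint (Metric.ball (T (j * (Real.pi * r)) x) t) (Metric.ball (T (k * (Real.pi * r)) x) t) := by
    intro j hj k _ hjk
    refine Metric.ball_disjoint_ball ?_
    have h1 : (k : ℝ) + 1 ≤ j := by exact_mod_cast hjk
    have hk0 : (0 : ℝ) ≤ k := Nat.cast_nonneg k
    have hj1 := hN2 j hj
    have hπ := Real.pi_pos
    set φ : ℝ := j * (Real.pi * r) - k * (Real.pi * r) with hφ
    have hφ1 : Real.pi * r ≤ φ := by rw [hφ]; nlinarith [mul_pos hπ hr0]
    have hφ0 : 0 ≤ φ := (mul_pos hπ hr0).le.trans hφ1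
    have hφ2 : φ ≤ Real.pi := by rw [hφ]; nlinarith [mul_pos hπ hr0]
    have hc := Real.cos_le_one_sub_mul_cos_sq (x := φ) (by rwa [abs_of_nonneg hφ0])
    have h3 : 2 * r ^ 2 ≤ 2 / Real.pi ^ 2 * φ ^ 2 := by
      have : (Real.pi * r) ^ 2 ≤ φ ^ 2 := pow_le_pow_left₀ (mul_pos hπ hr0).le hφ1 2
      rw [div_mul_eq_mul_div, le_div_iff₀ (by positivity)]
      nlinarith
    rw [dist_eq_norm]
    refine le_of_sq_le_sq ?_ (norm_nonneg _)
    rw [p2a_dist hT2, ← hφ, ← hrt]
    nlinarith [sq_nonneg (cyl x)]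
  have hdisj : Set.PairwiseDisjoint (↑(Finset.range N) : Set ℕ)
      fun k : ℕ => Metric.ball (T (k * (Real.pi * r)) x) t := by
    intro j hj k hk hjk
    rcases lt_or_gt_of_ne hjk with h | h
    · exact (hd k hk j hj h).symm
    · exact hd j hj k hk h
  have hI : ∀ α, ∫⁻ y in Metric.ball (T α x) t, F y = ∫⁻ y in Metric.ball x t, F y := fun α => by
    rw [← (T α).measurePreserving.setLIntegral_comp_preimage_emb
      (T α).toHomeomorph.measurableEmbedding, (T α).isometry.preimage_ball]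
    exact lintegral_congr_ae (ae_restrict_of_ae (hF _ (hT1 α)))
  have hsum : (N : ℝ≥0∞) * ∫⁻ y in Metric.ball x t, F y ≤ ∫⁻ y, F y := by
    have h1 := lintegral_biUnion_finset (μ := (volume : Measure E3)) hdisj
      (fun _ _ => Metric.isOpen_ball.measurableSet) F
    simp only [hI, Finset.sum_const, Finset.card_range, nsmul_eq_mul] at h1
    rw [← h1]
    exact setLIntegral_le_lintegral _ _
  have h2 : (1 : ℝ≥0∞) ≤ ENNReal.ofReal (1 * r) * N := by
    rw [one_mul, ← ENNReal.ofReal_natCast, ← ENNReal.ofReal_mul hr0.le, ENNReal.one_le_ofReal]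
    rw [← one_div, div_lt_iff₀ hr0] at hN1
    linarith
  calc ∫⁻ y in Metric.ball x t, F y = 1 * ∫⁻ y in Metric.ball x t, F y := (one_mul _).symm
    _ ≤ ENNReal.ofReal (1 * r) * N * ∫⁻ y in Metric.ball x t, F y := by gcongr
    _ ≤ ENNReal.ofReal (1 * r) * ∫⁻ y, F y := by rw [mul_assoc]; gcongr

theorem lintegral_inv_norm_ball : ∃ C : ℝ, 0 ≤ C ∧ ∀ (x : E3) (s : ℝ), 0 < s →
    (∫⁻ y in Metric.ball x s, ENNReal.ofReal (1 / ‖x - y‖) ≤ ENNReal.ofReal (C * s ^ 2)) ∧
    ∫⁻ y in Metric.ball x s, ENNReal.ofReal (1 / ‖x - y‖ ^ 2) ≤ ENNReal.ofReal (C * s) := by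
  set C : ℝ := ∫ y in Metric.ball (0 : E3) 1, 1 / ‖y‖ ^ 2 with hC
  have hC0 : 0 ≤ C := integral_nonneg fun y => by positivity
  have key : ∀ (x : E3) (s : ℝ), 0 < s →
      ∫⁻ y in Metric.ball x s, ENNReal.ofReal (1 / ‖x - y‖ ^ 2) = ENNReal.ofReal (C * s) := by
    intro x s hs
    have h1 := (Measure.measurePreserving_sub_left (volume : Measure E3) x).setLIntegral_comp_preimage_emb
      (Homeomorph.subLeft x).measurableEmbedding (fun y : E3 => ENNReal.ofReal (1 / ‖y‖ ^ 2)) (Metric.ball 0 s)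
    have h2 : (fun y : E3 => x - y) ⁻¹' Metric.ball 0 s = Metric.ball x s := by
      ext y
      simp only [mem_preimage, Metric.mem_ball, dist_eq_norm, sub_zero, norm_sub_rev x y]
    rw [h2] at h1
    rw [h1, ← ofReal_integral_eq_lintegral_ofReal (p2a_int s) (ae_of_all _ fun y => by positivity)]
    congr 1
    have h3 := Measure.setIntegral_comp_smul_of_pos (volume : Measure E3) (fun y : E3 => 1 / ‖y‖ ^ 2)
      (Metric.ball (0 : E3) 1) hs
    rw [smul_unitBall_of_pos hs, finrank_euclideanSpace_fin, smul_eq_mul] at h3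
    have h4 : ∫ y in Metric.ball (0 : E3) 1, 1 / ‖s • y‖ ^ 2 = (s ^ 2)⁻¹ * C := by
      rw [hC, ← integral_const_mul]
      refine integral_congr_ae (ae_of_all _ fun y => ?_)
      simp only [norm_smul, Real.norm_of_nonneg hs.le, mul_pow, one_div, mul_inv]
    rw [h4] at h3
    field_simp at h3
    linarith
  refine ⟨C, hC0, fun x s hs => ⟨?_, (key x s hs).le⟩⟩
  calc ∫⁻ y in Metric.ball x s, ENNReal.ofReal (1 / ‖x - y‖)
      ≤ ∫⁻ y in Metric.ball x s, ENNReal.ofReal s * ENNReal.ofReal (1 / ‖x - y‖ ^ 2) := by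
        refine setLIntegral_mono' Metric.isOpen_ball.measurableSet fun y hy => ?_
        rw [← ENNReal.ofReal_mul hs.le]
        refine ENNReal.ofReal_le_ofReal ?_
        rw [Metric.mem_ball, dist_eq_norm, norm_sub_rev] at hy
        rcases (norm_nonneg (x - y)).eq_or_lt with h | h
        · rw [← h]; simp
        · rw [mul_one_div, div_le_div_iff₀ h (by positivity)]
          nlinarith
    _ = ENNReal.ofReal (C * s ^ 2) := by
        rw [lintegral_const_mul' _ _ ENNReal.ofReal_ne_top, key x s hs, ← ENNReal.ofReal_mul hs.le]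
        congr 1
        ring

end Crest.Agent.R335
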