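import Crest.Agent.R335.P3c
import Crest.Agent.R335.Geob

/-!
# R335/P3: continuity, Hölder estimate, even solutions near the plane

Apply `exists_kernel` to `± w` with `f = 2 |v - e| |w|`: a.e. `|w - k_s ⋆ w| ≤ C K (s² + (s / cyl) ^ (2/3))`, where
`|w| ≤ K`.  The functions `k_s ⋆ w` are `C²` with `‖D^j (k_s ⋆ w)‖ ≤ C K s^(-j)`.
-/

set_option autoImplicit false

namespace Crest.Agent.R335

open MeasureTheory Set Filter Topology
open scoped Gradient RealInnerProductSpace ENNReal ContDiff
open Crest.MathPhysics.ThreeBody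

variable {v : E3 → ℝ}

theorem p3_le_of_ae {U : Set E3} (hU : IsOpen U) {f : E3 → ℝ} (hf : ContinuousOn f U) {c : ℝ}
    (h : ∀ᵐ x, x ∈ U → f x ≤ c) : ∀ x ∈ U, f x ≤ c := by
  intro x hx
  by_contra hc
  have ho : IsOpen (U ∩ f ⁻¹' Ioi c) := hf.isOpen_inter_preimage hU isOpen_Ioi
  have h0 : volume (U ∩ f ⁻¹' Ioi c) = 0 := by
    refine measure_mono_null (fun y hy => ?_) (ae_iff.1 h)
    exact fun h' => absurd (h' hy.1) (not_le.2 hy.2)
  exact (ho.measure_pos volume ⟨x, hx, not_le.1 hc⟩).ne' h0

/-- second differences of a `C²` function with compact support -/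
theorem p3_second {k : E3 → ℝ} (hk : ContDiff ℝ 2 k) (hc : HasCompactSupport k) :
    ∃ L : ℝ, 0 ≤ L ∧ ∀ u h : E3, |k (u + h) + k (u - h) - 2 * k u| ≤ L * ‖h‖ ^ 2 := by
  have h1 : ContDiff ℝ 1 (fderiv ℝ k) := hk.fderiv_right (by norm_num)
  obtain ⟨L, hL⟩ := h1.lipschitzWith_of_hasCompactSupport (hc.fderiv ℝ) (by norm_num)
  refine ⟨2 * L, by positivity, fun u h => ?_⟩
  have hd : Differentiable ℝ k := hk.differentiable (by norm_num)
  have d1 : ∀ t : ℝ, HasDerivAt (fun t : ℝ => k (u + t • h)) (fderiv ℝ k (u + t • h) h) t := by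
    intro t
    have : HasDerivAt (fun t : ℝ => u + t • h) h t := by
      simpa using ((hasDerivAt_id t).smul_const h).const_add u
    exact (hd _).hasFDerivAt.comp_hasDerivAt t this
  have d2 : ∀ t : ℝ, HasDerivAt (fun t : ℝ => k (u - t • h)) (-fderiv ℝ k (u - t • h) h) t := by
    intro t
    have : HasDerivAt (fun t : ℝ => u - t • h) (-h) t := by
      simpa using ((hasDerivAt_id t).smul_const h).const_sub u
    have := (hd _).hasFDerivAt.comp_hasDerivAt t this
    rwa [map_neg] at this
  have key := norm_image_sub_le_of_norm_deriv_le_segment_01'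
    (f := fun t : ℝ => k (u + t • h) + k (u - t • h))
    (f' := fun t => fderiv ℝ k (u + t • h) h + -fderiv ℝ k (u - t • h) h) (C := 2 * L * ‖h‖ ^ 2)
    (fun t _ => ((d1 t).add (d2 t)).hasDerivWithinAt) (fun t ht => by
      rw [← sub_eq_add_neg, ← sub_apply]
      refine (ContinuousLinearMap.le_opNorm _ _).trans ?_
      have e1 := hL.dist_le_mul (u + t • h) (u - t • h)
      rw [dist_eq_norm, dist_eq_norm] at e1
      have e2 : ‖u + t • h - (u - t • h)‖ ≤ 2 * ‖h‖ := by
        have : u + t • h - (u - t • h) = (2 * t) • h := by rw [mul_smul, two_smul]; abel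
        rw [this, norm_smul, Real.norm_of_nonneg (by linarith [ht.1])]
        exact mul_le_mul_of_nonneg_right (by linarith [ht.2]) (norm_nonneg _)
      calc ‖fderiv ℝ k (u + t • h) - fderiv ℝ k (u - t • h)‖ * ‖h‖ ≤ L * (2 * ‖h‖) * ‖h‖ := by
            gcongr
            exact e1.trans (by gcongr)
        _ = 2 * L * ‖h‖ ^ 2 := by ring)
  simp only [one_smul, zero_smul, add_zero, sub_zero, Real.norm_eq_abs] at key
  rwa [two_mul (k u)]

/-- (SS) the smooth part is even, so its increment is a second difference -/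
theorem ss (hv : IsSumClassPotential v) (hs : SymV v) (e : ℝ) : ∃ C : ℝ, 0 ≤ C ∧
    ∀ (w : E3 → ℝ) (G : E3 → E3) (ρ z s K : ℝ), Eig v e w G → ContinuousOn w offA →
      (∀ x ∈ offA, w (refl x) = w x) → 2 ≤ ρ → 0 < s → s ≤ 1 / 2 → |z| ≤ s →
      (∀ y ∈ Metric.ball (pt ρ 0) (3 * s), |w y| ≤ K) →
        |w (pt ρ z) - w (pt ρ 0)| ≤ C * ((z / s) ^ 2 + s ^ 2 + (s / ρ) ^ (2 / 3 : ℝ)) * K := by
  obtain ⟨k, C, hC, hk, hk0, hkr, H⟩ := exists_smooth_part hv hs e
  have hkc : HasCompactSupport k := HasCompactSupport.intro (isCompact_closedBall (0 : E3) 1) fun y hy =>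
    hk0 y (not_le.1 fun h => hy (mem_closedBall_zero_iff.2 h)).le
  obtain ⟨L, hL, hL2⟩ := p3_second hk hkc
  set V : ℝ := volume.real (Metric.ball (0 : E3) 1) with hV
  have hV0 : 0 ≤ V := measureReal_nonneg
  refine ⟨4 * C + 4 * V * L, by positivity, fun w G ρ z s K hw hc hev hρ hs0 hs1 hz hK => ?_⟩
  set a : E3 := pt ρ 0 with ha
  have hK0 : 0 ≤ K := (abs_nonneg _).trans (hK a (Metric.mem_ball_self (by positivity)))
  set ks : E3 → ℝ := fun y => (s ^ 3)⁻¹ * k (s⁻¹ • y) with hks
  have hksc : Continuous ks := continuous_const.mul (hk.continuous.comp (continuous_const_smul _))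
  have hks0 : ∀ y, s ≤ ‖y‖ → k (s⁻¹ • y) = 0 := fun y hy => hk0 _ (by
    rw [norm_smul, Real.norm_of_nonneg (inv_pos.2 hs0).le, ← div_eq_inv_mul]
    exact (one_le_div hs0).2 hy)
  have hksk : HasCompactSupport ks := HasCompactSupport.intro (isCompact_closedBall (0 : E3) s) fun y hy => by
    have : s ≤ ‖y‖ := (not_le.1 fun h => hy (mem_closedBall_zero_iff.2 h)).le
    simp only [hks, hks0 y this, mul_zero]
  have hwl : LocallyIntegrable w volume := hw.h1.mf.locallyIntegrable (by norm_num)
  set W : E3 → ℝ := fun x => ∫ y, ks (x - y) * w y with hW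
  have hWc : Continuous W :=
    hksk.continuous_convolution_right (ContinuousLinearMap.mul ℝ ℝ).flip hwl hksc
  have hWi : ∀ x, Integrable fun y => ks (x - y) * w y := fun x =>
    hksk.convolutionExists_right (ContinuousLinearMap.mul ℝ ℝ).flip hwl hksc x
  have hcyl : ∀ x ∈ Metric.ball a (2 * s), ρ / 2 ≤ cyl x := by
    intro x hx
    have h1 := abs_cyl_sub_le x a
    rw [ha, cyl_pt (by linarith), ← ha] at h1
    have h2 : ‖x - a‖ < 2 * s := by rwa [← dist_eq_norm]
    linarith [(abs_le.1 h1).1]
  set q : ℝ := (s / ρ) ^ (2 / 3 : ℝ) with hq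
  have hq0 : 0 ≤ q := by positivity
  have hnear : ∀ x ∈ Metric.ball a (2 * s), |w x - W x| ≤ C * (s ^ 2 + 2 * q) * K := by
    refine p3_le_of_ae Metric.isOpen_ball ?_ ?_
    · refine ContinuousOn.abs ((hc.mono fun x hx => ?_).sub hWc.continuousOn)
      exact lt_of_lt_of_le (by linarith) (hcyl x hx)
    · filter_upwards [H w G (Metric.ball a (3 * s)) K s hw Metric.isOpen_ball
        (Eventually.of_forall hK) hs0] with x hx hx2
      have h1 := hcyl x hx2
      refine (hx (Metric.closedBall_subset_ball' ?_) (by linarith)).trans ?_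
      · have : dist x a < 2 * s := hx2
        linarith
      · have h2 : (s / cyl x) ^ (2 / 3 : ℝ) ≤ 2 * q := by
          have h3 : s / cyl x ≤ 2 * (s / ρ) := by
            rw [div_le_iff₀ (by linarith)]
            have : 2 * (s / ρ) * (ρ / 2) = s := by field_simp
            nlinarith [mul_le_mul_of_nonneg_left h1 (by positivity : 0 ≤ 2 * (s / ρ))]
          refine (Real.rpow_le_rpow (div_nonneg hs0.le (cyl_nonneg x)) h3 (by norm_num)).trans ?_
          rw [Real.mul_rpow (by norm_num) (by positivity)]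
          refine mul_le_mul_of_nonneg_right ?_ hq0
          calc (2 : ℝ) ^ (2 / 3 : ℝ) ≤ 2 ^ (1 : ℝ) :=
                Real.rpow_le_rpow_of_exponent_le (by norm_num) (by norm_num)
            _ = 2 := Real.rpow_one 2
        gcongr
  -- the smooth part is even
  set h : E3 := EuclideanSpace.single 2 z with hh
  have hhn : ‖h‖ = |z| := by simp [hh]
  have e1 : pt ρ z = a + h := by
    ext i; fin_cases i <;> simp [ha, hh, pt]
  obtain ⟨T, -, hT, -⟩ := exists_refl_z
  have e2 : T (a - h) = a + h := by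
    rw [hT]; ext i; fin_cases i <;> simp [ha, hh, pt, refl]
  have heven : W (a + h) = W (a - h) := by
    have := T.measurePreserving.integral_comp T.toHomeomorph.measurableEmbedding
      fun y => ks (a + h - y) * w y
    refine this.symm.trans (integral_congr_ae ?_)
    filter_upwards [ae_offA] with y hy
    have r1 : a + h - T y = T (a - h - y) := by rw [map_sub T (a - h), e2]
    have r2 : k (s⁻¹ • T (a - h - y)) = k (s⁻¹ • (a - h - y)) :=
      hkr _ _ (by rw [norm_smul, norm_smul, T.norm_map])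
    simp only [hks]
    rw [r1, r2, hT y, hev y hy]
  have hsec : |W (a + h) + W (a - h) - 2 * W a| ≤ 8 * V * L * (z / s) ^ 2 * K := by
    have e3 : W (a + h) + W (a - h) - 2 * W a =
        ∫ y, (ks (a + h - y) * w y + ks (a - h - y) * w y - 2 * (ks (a - y) * w y)) := by
      have i1 : Integrable fun y => ks (a + h - y) * w y + ks (a - h - y) * w y := (hWi _).add (hWi _)
      rw [integral_sub i1 ((hWi _).const_mul 2), integral_add (hWi _) (hWi _), integral_const_mul]
    rw [e3, ← setIntegral_eq_integral_of_forall_compl_eq_zero (s := Metric.ball a (2 * s))]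
    · rw [← Real.norm_eq_abs]
      refine (norm_setIntegral_le_of_norm_le_const (C := (s ^ 3)⁻¹ * (L * (z / s) ^ 2) * K)
        measure_ball_lt_top fun y hy => ?_).trans (le_of_eq ?_)
      · have e4 : ks (a + h - y) * w y + ks (a - h - y) * w y - 2 * (ks (a - y) * w y) =
            (s ^ 3)⁻¹ * (k (s⁻¹ • (a - y) + s⁻¹ • h) + k (s⁻¹ • (a - y) - s⁻¹ • h) - 2 * k (s⁻¹ • (a - y))) *
              w y := by
          have r1 : a + h - y = a - y + h := by abel
          have r2 : a - h - y = a - y - h := by abel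
          simp only [hks, r1, r2, smul_add, smul_sub s⁻¹ (a - y) h]
          ring
        have e5 := hL2 (s⁻¹ • (a - y)) (s⁻¹ • h)
        have e6 : ‖s⁻¹ • h‖ ^ 2 = (z / s) ^ 2 := by
          rw [norm_smul, hhn, Real.norm_eq_abs, ← abs_mul, sq_abs]; ring
        rw [e6] at e5
        rw [e4, Real.norm_eq_abs, abs_mul, abs_mul, abs_of_pos (by positivity : 0 < (s ^ 3)⁻¹)]
        have e7 := hK y (Metric.ball_subset_ball (by linarith) hy)
        gcongr
      · rw [measureReal_def, Measure.addHaar_ball _ _ (by positivity : 0 ≤ 2 * s), ENNReal.toReal_mul,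
          ENNReal.toReal_ofReal (by positivity), ← measureReal_def, ← hV]
        simp only [finrank_euclideanSpace, Fintype.card_fin]
        field_simp
        ring
    · intro y hy
      have h1 : 2 * s ≤ ‖a - y‖ := by
        rw [norm_sub_rev, ← dist_eq_norm]; exact not_lt.1 hy
      have h2 : s ≤ ‖a + h - y‖ := by
        have := norm_sub_le (a + h - y) h
        rw [show a + h - y - h = a - y by abel, hhn] at this
        linarith
      have h3 : s ≤ ‖a - h - y‖ := by
        have := norm_add_le (a - h - y) h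
        rw [show a - h - y + h = a - y by abel, hhn] at this
        linarith
      simp only [hks, hks0 _ h2, hks0 _ h3, hks0 _ (by linarith : s ≤ ‖a - y‖), mul_zero, zero_mul, add_zero,
        sub_zero]
  have m1 : a + h ∈ Metric.ball a (2 * s) := by
    rw [Metric.mem_ball, dist_eq_norm, add_sub_cancel_left, hhn]; linarith
  have n1 := abs_le.1 (hnear _ m1)
  have n2 := abs_le.1 (hnear a (Metric.mem_ball_self (by positivity)))
  rw [← heven] at hsec
  have n3 := abs_le.1 hsec
  rw [e1]
  have p1 : 0 ≤ C * (z / s) ^ 2 * K := by positivity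
  have p2 : 0 ≤ C * s ^ 2 * K := by positivity
  have p3 : 0 ≤ V * L * s ^ 2 * K := by positivity
  have p4 : 0 ≤ V * L * q * K := by positivity
  rw [abs_le]
  constructor <;> nlinarith [n1.1, n1.2, n2.1, n2.2, n3.1, n3.2]

end Crest.Agent.R335
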