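import Crest.Agent.R335.P1
import Crest.Agent.R335.P2

/-!
# R335/P3: continuity, Hölder estimate, even solutions near the plane

Apply `exists_kernel` to `± w` with `f = 2 |v - e| |w|`: a.e. `|w - k_s ⋆ w| ≤ C K (s² + (s / cyl) ^ (2/3))`, where
`|w| ≤ K`.  The functions `k_s ⋆ w` are `C²` with `‖D^j (k_s ⋆ w)‖ ≤ C K s^(-j)`.
-/

set_option autoImplicit false

namespace Crest.Agent.R335

open MeasureTheory Set Filter Topology
open scoped Gradient RealInnerProductSpace ENNReal ContDiff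
open Crest.MathPhysics.ThreeBody

variable {v : E3 → ℝ}

theorem p3a_int (hv : IsSumClassPotential v) (e : ℝ) {B : Set E3} (hB : IsCompact B) :
    IntegrableOn (fun y => v y - e) B := by
  obtain ⟨C, -, h⟩ := sumClass_ball (sumClass_sub_const hv e)
  obtain ⟨r, hr, hs⟩ := hB.isBounded.subset_ball_lt 0 0
  exact (h 0 r hr).1.mono_set hs

theorem p3a_weak (hv : IsSumClassPotential v) {e K : ℝ} {w ξ : E3 → ℝ} {G : E3 → E3} {U : Set E3}
    (hw : Eig v e w G) (hK : ∀ᵐ y, y ∈ U → |w y| ≤ K) (hξ : Tst U ξ) (h0 : ∀ y, 0 ≤ ξ y) :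
    |∫ y, ⟪G y, ∇ ξ y⟫| ≤ ∫ y, 2 * K * |v y - e| * ξ y := by
  have i1 : Integrable fun y => (v y - e) * ξ y := by
    refine (integrableOn_iff_integrable_of_support_subset (s := tsupport ξ) fun y hy => ?_).1
      ((p3a_int hv e hξ.cpt).mul_continuousOn hξ.sm.continuous.continuousOn hξ.cpt)
    exact subset_tsupport _ fun h => hy (by simp [h])
  have i2 : Integrable fun y => 2 * K * |v y - e| * ξ y :=
    (i1.abs.const_mul (2 * K)).congr (.of_forall fun y => by
      simp only [abs_mul, abs_of_nonneg (h0 y), mul_assoc])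
  have hb : ∀ᵐ y, ‖-2 * ((v y - e) * ξ y * w y)‖ ≤ 2 * K * |v y - e| * ξ y := by
    filter_upwards [hK] with y hy
    by_cases hU : y ∈ U
    · rw [Real.norm_eq_abs, abs_mul, abs_mul, abs_mul, abs_neg, abs_two, abs_of_nonneg (h0 y)]
      have := mul_le_mul_of_nonneg_left (hy hU) (mul_nonneg (abs_nonneg (v y - e)) (h0 y))
      linarith
    · simp [image_eq_zero_of_notMem_tsupport fun h => hU (hξ.sub h)]
  have i3 : Integrable fun y => -2 * ((v y - e) * ξ y * w y) :=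
    i2.mono' ((i1.1.mul hw.h1.mf.1).const_mul _) hb
  have i4 := hw.h1.int_mul hξ.h1
  have e1 : ∫ y, v y * (w y * ξ y) = -(1 / 2) * (∫ y, -2 * ((v y - e) * ξ y * w y)) + e * ∫ y, w y * ξ y := by
    rw [← integral_const_mul, ← integral_const_mul, ← integral_add (i3.const_mul _) (i4.const_mul _)]
    exact integral_congr_ae (.of_forall fun y => by ring)
  have e2 := hw.eq ξ _ hξ.h1
  rw [bf, ip, e1] at e2
  have e3 : ∫ y, ⟪G y, ∇ ξ y⟫ = ∫ y, -2 * ((v y - e) * ξ y * w y) := by linarith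
  rw [e3]
  exact norm_integral_le_of_norm_le i2 hb

/-- the basic two sided estimate -/
theorem exists_smooth_part (hv : IsSumClassPotential v) (hs : SymV v) (e : ℝ) : ∃ (k : E3 → ℝ) (C : ℝ), 0 ≤ C ∧
    ContDiff ℝ 2 k ∧ (∀ y, 1 ≤ ‖y‖ → k y = 0) ∧ (∀ y y', ‖y‖ = ‖y'‖ → k y = k y') ∧
    ∀ (w : E3 → ℝ) (G : E3 → E3) (U : Set E3) (K s : ℝ), Eig v e w G → IsOpen U → (∀ᵐ y, y ∈ U → |w y| ≤ K) →
      0 < s → ∀ᵐ x, Metric.closedBall x s ⊆ U → s ≤ cyl x →
        |w x - ∫ y, (s ^ 3)⁻¹ * k (s⁻¹ • (x - y)) * w y| ≤ C * (s ^ 2 + (s / cyl x) ^ (2 / 3 : ℝ)) * K := by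
  obtain ⟨k, C, hC, hk, hk0, hkr, H⟩ := exists_kernel
  obtain ⟨C', hC', H'⟩ := kato_modulus hv hs e
  refine ⟨k, C * 2 * C', by positivity, hk, hk0, hkr, fun w G U K s hw hU hK hs0 => ?_⟩
  by_cases hK0 : 0 ≤ K
  swap
  · have h0 : volume U = 0 := by
      refine measure_mono_null (fun y hy => ?_) (ae_iff.1 hK)
      exact fun h => hK0 ((abs_nonneg _).trans (h hy))
    rw [hU.eq_empty_of_measure_zero h0]
    exact .of_forall fun x hx => (hx (Metric.mem_closedBall_self hs0.le)).elim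
  have hint : ∀ B, IsCompact B → B ⊆ U → IntegrableOn (fun y => 2 * K * |v y - e|) B := fun B hB _ =>
    (p3a_int hv e hB).abs.const_mul _
  have hpos : ∀ᵐ y, y ∈ U → 0 ≤ 2 * K * |v y - e| := .of_forall fun y _ => by positivity
  have h1 := H U w _ G s hU hs0 (hw.h1.loc U) hint hpos fun ξ hξ h0 =>
    (le_abs_self _).trans (p3a_weak hv hw hK hξ h0)
  have h2 := H U (fun y => -w y) _ (fun y => -G y) s hU hs0 (hw.h1.neg.loc U) hint hpos fun ξ hξ h0 => by
    simp only [inner_neg_left, integral_neg]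
    exact (neg_le_abs _).trans (p3a_weak hv hw hK hξ h0)
  filter_upwards [h1, h2] with x h1 h2 hx hc
  have hρ : 0 ≤ s ^ 2 + (s / cyl x) ^ (2 / 3 : ℝ) := by
    have : 0 ≤ s / cyl x := div_nonneg hs0.le (hs0.le.trans hc)
    positivity
  have h3 : ENNReal.ofReal C * ∫⁻ y in Metric.ball x s, ENNReal.ofReal (2 * K * |v y - e| / ‖x - y‖) ≤
      ENNReal.ofReal (C * 2 * C' * (s ^ 2 + (s / cyl x) ^ (2 / 3 : ℝ)) * K) := by
    have e1 : ∀ y, ENNReal.ofReal (2 * K * |v y - e| / ‖x - y‖) =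
        ENNReal.ofReal (2 * K) * ENNReal.ofReal (|v y - e| / ‖x - y‖) := fun y => by
      rw [← ENNReal.ofReal_mul (by positivity), mul_div_assoc]
    simp only [e1]
    rw [lintegral_const_mul' _ _ ENNReal.ofReal_ne_top]
    calc _ ≤ ENNReal.ofReal C * (ENNReal.ofReal (2 * K) *
          ENNReal.ofReal (C' * (s ^ 2 + (s / cyl x) ^ (2 / 3 : ℝ)))) := by
          gcongr
          exact H' x s hs0 hc
      _ = _ := by
          rw [← ENNReal.ofReal_mul (by positivity), ← ENNReal.ofReal_mul hC]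
          congr 1
          ring
  have h4 := (ENNReal.ofReal_le_ofReal_iff (by positivity)).1 ((h1 hx).trans h3)
  have h5 := (ENNReal.ofReal_le_ofReal_iff (by positivity)).1 ((h2 hx).trans h3)
  simp only [mul_neg, integral_neg] at h5
  exact abs_le.2 ⟨by linarith, h4⟩

end Crest.Agent.R335
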