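import Crest.Agent.R335.P3a

/-!
# R335/P3: continuity, Hölder estimate, even solutions near the plane

Apply `exists_kernel` to `± w` with `f = 2 |v - e| |w|`: a.e. `|w - k_s ⋆ w| ≤ C K (s² + (s / cyl) ^ (2/3))`, where
`|w| ≤ K`.  The functions `k_s ⋆ w` are `C²` with `‖D^j (k_s ⋆ w)‖ ≤ C K s^(-j)`.
-/

set_option autoImplicit false

namespace Crest.Agent.R335

open MeasureTheory Set Filter Topology
open scoped Gradient RealInnerProductSpace ENNReal ContDiff
open Crest.MathPhysics.ThreeBody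

variable {v : E3 → ℝ}

/-- a locally uniform a.e. limit of continuous functions has a continuous representative -/
theorem p3b_lim {Ω : Set E3} {A : ℕ → E3 → ℝ} (hA : ∀ n, Continuous (A n)) {w : E3 → ℝ}
    (h : ∀ x0 ∈ Ω, ∃ r : ℝ, 0 < r ∧ Metric.ball x0 r ⊆ Ω ∧ ∀ ε : ℝ, 0 < ε → ∃ N : ℕ, ∀ n, N ≤ n →
      ∀ᵐ x, x ∈ Metric.ball x0 r → |w x - A n x| ≤ ε) :
    ∃ w', w' =ᵐ[volume] w ∧ ContinuousOn w' Ω := by
  classical
  set L : E3 → ℝ := fun x => limUnder atTop fun n => A n x with hL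
  refine ⟨fun x => if x ∈ Ω then L x else w x, ?_, ?_⟩
  · have h0 : volume {x | x ∈ Ω ∧ L x ≠ w x} = 0 := by
      refine measure_null_of_locally_null _ fun x0 hx0 => ?_
      obtain ⟨r, hr, -, H⟩ := h x0 hx0.1
      refine ⟨_, inter_mem_nhdsWithin _ (Metric.ball_mem_nhds x0 hr), ?_⟩
      choose N hN using fun j : ℕ => H (1 / ((j : ℝ) + 1)) Nat.one_div_pos_of_nat
      have h1 : ∀ᵐ x, ∀ j n, N j ≤ n → x ∈ Metric.ball x0 r → |w x - A n x| ≤ 1 / ((j : ℝ) + 1) := by
        refine ae_all_iff.2 fun j => ae_all_iff.2 fun n => ?_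
        by_cases hn : N j ≤ n
        · filter_upwards [hN j n hn] with x hx _ using hx
        · exact Eventually.of_forall fun x h => absurd h hn
      refine measure_eq_zero_iff_ae_notMem.2 ?_
      filter_upwards [h1] with x hx hm
      refine hm.1.2 (Tendsto.limUnder_eq (Metric.tendsto_atTop.2 fun ε hε => ?_))
      obtain ⟨j, hj⟩ := exists_nat_one_div_lt hε
      refine ⟨N j, fun n hn => ?_⟩
      rw [Real.dist_eq, abs_sub_comm]
      exact (hx j n hn hm.2).trans_lt hj
    filter_upwards [measure_eq_zero_iff_ae_notMem.1 h0] with x hx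
    split_ifs with hΩ
    · by_contra hne
      exact hx ⟨hΩ, hne⟩
    · rfl
  · refine ContinuousOn.congr (f := L) (fun x0 hx0 => ContinuousAt.continuousWithinAt ?_) fun x hx => if_pos hx
    obtain ⟨r, hr, -, H⟩ := h x0 hx0
    have hc : UniformCauchySeqOn A atTop (Metric.ball x0 r) := by
      refine Metric.uniformCauchySeqOn_iff.2 fun ε hε => ?_
      obtain ⟨N, hN⟩ := H (ε / 3) (by positivity)
      refine ⟨N, fun m hm n hn x hx => ?_⟩
      have ho : IsOpen (Metric.ball x0 r ∩ {x | 2 * (ε / 3) < |A m x - A n x|}) :=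
        Metric.isOpen_ball.inter (isOpen_lt continuous_const ((hA m).sub (hA n)).abs)
      have he : Metric.ball x0 r ∩ {x | 2 * (ε / 3) < |A m x - A n x|} = ∅ := by
        refine ho.eq_empty_of_measure_zero (μ := volume) (measure_eq_zero_iff_ae_notMem.2 ?_)
        filter_upwards [hN m hm, hN n hn] with y h1 h2 hy
        have h3 := abs_le.1 (h1 hy.1)
        have h4 := abs_le.1 (h2 hy.1)
        have h5 : 2 * (ε / 3) < |A m y - A n y| := hy.2
        exact absurd h5 (not_lt.2 (abs_le.2 ⟨by linarith [h3.1, h3.2, h4.1, h4.2],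
          by linarith [h3.1, h3.2, h4.1, h4.2]⟩))
      rw [Real.dist_eq]
      by_contra hlt
      have : x ∈ Metric.ball x0 r ∩ {x | 2 * (ε / 3) < |A m x - A n x|} :=
        ⟨hx, lt_of_lt_of_le (by linarith) (not_lt.1 hlt)⟩
      rw [he] at this
      exact this
    have ht := hc.tendstoUniformlyOn_of_tendsto (f := L) fun x hx => (hc.cauchySeq hx).tendsto_limUnder
    exact (ht.continuousOn (Frequently.of_forall fun n => (hA n).continuousOn)).continuousAt
      (Metric.ball_mem_nhds x0 hr)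

theorem p3b_cont {k w : E3 → ℝ} (hk : Continuous k) (h0 : ∀ y, 1 ≤ ‖y‖ → k y = 0) (hw : MemLp w 2 volume) {s : ℝ}
    (hs : 0 < s) : Continuous fun x => ∫ y, (s ^ 3)⁻¹ * k (s⁻¹ • (x - y)) * w y := by
  have hc : HasCompactSupport fun y : E3 => (s ^ 3)⁻¹ * k (s⁻¹ • y) := by
    refine HasCompactSupport.intro (isCompact_closedBall 0 s) fun y hy => ?_
    rw [mem_closedBall_zero_iff, not_le] at hy
    rw [h0, mul_zero]
    rw [norm_smul, norm_inv, Real.norm_of_nonneg hs.le, ← div_eq_inv_mul, le_div_iff₀ hs, one_mul]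
    exact hy.le
  have h := hc.continuous_convolution_right (ContinuousLinearMap.mul ℝ ℝ) (hw.locallyIntegrable (by norm_num))
    (by fun_prop)
  refine h.congr fun x => ?_
  rw [convolution_def]
  refine integral_congr_ae (Eventually.of_forall fun y => ?_)
  simp only [ContinuousLinearMap.mul_apply']
  ring

/-- the continuous representative is the locally uniform limit of `k_s ⋆ w`, `s = 1 / n` -/
theorem exists_cont (hv : IsSumClassPotential v) (hs : SymV v) {e : ℝ} {w : E3 → ℝ} {G : E3 → E3} (hw : Eig v e w G)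
    (hb : Bl offA w) : ∃ w', w' =ᵐ[volume] w ∧ ContinuousOn w' offA := by
  obtain ⟨k, C, hC, hk, h0, -, H⟩ := exists_smooth_part hv hs e
  refine p3b_lim (A := fun n x => ∫ y, ((1 / ((n : ℝ) + 1)) ^ 3)⁻¹ * k ((1 / ((n : ℝ) + 1))⁻¹ • (x - y)) * w y)
    (fun n => p3b_cont hk.continuous h0 hw.h1.mf Nat.one_div_pos_of_nat) fun x0 hx0 => ?_
  have hρ : 0 < cyl x0 := hx0
  set r := cyl x0 / 4 with hr
  have hr0 : 0 < r := by positivity
  have hcy : ∀ y ∈ Metric.closedBall x0 (2 * r), r ≤ cyl y := fun y hy => by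
    rw [mem_closedBall_iff_norm] at hy
    have := (abs_le.1 ((abs_cyl_sub_le y x0).trans hy)).1
    linarith
  have hsub : Metric.closedBall x0 (2 * r) ⊆ offA := fun y hy => hr0.trans_le (hcy y hy)
  have hb1 : Metric.ball x0 r ⊆ Metric.closedBall x0 (2 * r) :=
    Metric.ball_subset_closedBall.trans (Metric.closedBall_subset_closedBall (by linarith))
  obtain ⟨K, hK⟩ := hb _ (isCompact_closedBall x0 (2 * r)) hsub
  have hK' : ∀ᵐ y, y ∈ Metric.ball x0 (2 * r) → |w y| ≤ |K| := by
    filter_upwards [hK] with y hy hy' using (hy (Metric.ball_subset_closedBall hy')).trans (le_abs_self K)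
  refine ⟨r, hr0, hb1.trans hsub, fun ε hε => ?_⟩
  have hc : Continuous fun t : ℝ => C * (t ^ 2 + (t / r) ^ (2 / 3 : ℝ)) * |K| :=
    (continuous_const.mul ((continuous_id.pow 2).add
      ((Real.continuous_rpow_const (by norm_num)).comp (continuous_id.div_const r)))).mul continuous_const
  have ht := (hc.tendsto' 0 0 (by simp)).comp (tendsto_one_div_add_atTop_nhds_zero_nat (𝕜 := ℝ))
  obtain ⟨N, hN⟩ := eventually_atTop.1 ((ht.eventually (ge_mem_nhds hε)).and
    ((tendsto_one_div_add_atTop_nhds_zero_nat (𝕜 := ℝ)).eventually (ge_mem_nhds hr0)))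
  refine ⟨N, fun n hn => ?_⟩
  obtain ⟨h1, h2⟩ := hN n hn
  have hs0 : (0 : ℝ) < 1 / ((n : ℝ) + 1) := Nat.one_div_pos_of_nat
  filter_upwards [H w G _ |K| _ hw Metric.isOpen_ball hK' hs0] with x hx hxb
  have h3 := hcy x (hb1 hxb)
  refine (hx (fun y hy => ?_) (h2.trans h3)).trans (le_trans ?_ h1)
  · rw [Metric.mem_ball] at hxb ⊢
    rw [Metric.mem_closedBall] at hy
    have := dist_triangle y x x0
    linarith
  · refine mul_le_mul_of_nonneg_right (mul_le_mul_of_nonneg_left (add_le_add le_rfl ?_) hC) (abs_nonneg K)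
    exact Real.rpow_le_rpow (div_nonneg hs0.le (hr0.le.trans h3)) (div_le_div_of_nonneg_left hs0.le hr0 h3)
      (by norm_num)

end Crest.Agent.R335
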