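import Crest.Agent.R335.P3b

/-!
# R335/P3: continuity, Hölder estimate, even solutions near the plane

Apply `exists_kernel` to `± w` with `f = 2 |v - e| |w|`: a.e. `|w - k_s ⋆ w| ≤ C K (s² + (s / cyl) ^ (2/3))`, where
`|w| ≤ K`.  The functions `k_s ⋆ w` are `C²` with `‖D^j (k_s ⋆ w)‖ ≤ C K s^(-j)`.
-/

set_option autoImplicit false

namespace Crest.Agent.R335

open MeasureTheory Set Filter Topology
open scoped Gradient RealInnerProductSpace ENNReal ContDiff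
open Crest.MathPhysics.ThreeBody

variable {v : E3 → ℝ}

theorem p3c_le_of_ae {U : Set E3} (hU : IsOpen U) {f : E3 → ℝ} {c : ℝ} (hf : ContinuousOn f U)
    (h : ∀ᵐ x, x ∈ U → f x ≤ c) : ∀ x ∈ U, f x ≤ c := by
  intro x hx
  by_contra hc
  have ho : IsOpen (U ∩ f ⁻¹' Ioi c) := hf.isOpen_inter_preimage hU isOpen_Ioi
  have hpos := ho.measure_pos volume ⟨x, hx, not_le.1 hc⟩
  refine hpos.ne' (measure_mono_null ?_ h)
  rintro y ⟨hy1, hy2⟩ hy
  exact absurd (hy hy1) (not_le.2 hy2)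

theorem p3c_lip {k : E3 → ℝ} (hk : ContDiff ℝ 2 k) (h0 : ∀ y, 1 ≤ ‖y‖ → k y = 0) :
    ∃ L : ℝ, 0 ≤ L ∧ ∀ a b, |k a - k b| ≤ L * ‖a - b‖ := by
  have hc : HasCompactSupport k := by
    refine HasCompactSupport.intro (isCompact_closedBall (0 : E3) 1) fun y hy => h0 y ?_
    rw [mem_closedBall_zero_iff] at hy
    exact (not_le.1 hy).le
  obtain ⟨L, hL⟩ := ContDiff.lipschitzWith_of_hasCompactSupport hc hk (by norm_num)
  refine ⟨L, L.2, fun a b => ?_⟩
  have := hL.dist_le_mul a b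
  rwa [Real.dist_eq, dist_eq_norm] at this

theorem p3c_zero {k : E3 → ℝ} (h0 : ∀ y, 1 ≤ ‖y‖ → k y = 0) {s : ℝ} (hs : 0 < s) {z y : E3}
    (hy : y ∉ Metric.closedBall z s) : k (s⁻¹ • (z - y)) = 0 := by
  apply h0
  rw [Metric.mem_closedBall, dist_comm, dist_eq_norm, not_le] at hy
  rw [norm_smul, norm_inv, Real.norm_eq_abs, abs_of_pos hs, ← div_eq_inv_mul, le_div_iff₀ hs]
  linarith

theorem p3c_int {k : E3 → ℝ} (hk : Continuous k) (h0 : ∀ y, 1 ≤ ‖y‖ → k y = 0) {s : ℝ} (hs : 0 < s)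
    {w : E3 → ℝ} (hw : MemLp w 2 volume) (z : E3) :
    Integrable fun y => (s ^ 3)⁻¹ * k (s⁻¹ • (z - y)) * w y := by
  have hc : Continuous fun y => (s ^ 3)⁻¹ * k (s⁻¹ • (z - y)) := by fun_prop
  have hs' : HasCompactSupport fun y => (s ^ 3)⁻¹ * k (s⁻¹ • (z - y)) :=
    HasCompactSupport.intro (isCompact_closedBall z s) fun y hy => by rw [p3c_zero h0 hs hy, mul_zero]
  exact (hc.memLp_of_hasCompactSupport (p := 2) hs').integrable_mul hw

theorem p3c_diff {k : E3 → ℝ} (hk : Continuous k) (h0 : ∀ y, 1 ≤ ‖y‖ → k y = 0) {L : ℝ} (hL0 : 0 ≤ L)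
    (hL : ∀ a b, |k a - k b| ≤ L * ‖a - b‖) {s : ℝ} (hs : 0 < s) {w : E3 → ℝ} (hw : MemLp w 2 volume) {K : ℝ}
    (hK : 0 ≤ K) {z z' : E3} (hz : ∀ y ∈ Metric.closedBall z s, |w y| ≤ K)
    (hz' : ∀ y ∈ Metric.closedBall z' s, |w y| ≤ K) :
    |(∫ y, (s ^ 3)⁻¹ * k (s⁻¹ • (z - y)) * w y) - ∫ y, (s ^ 3)⁻¹ * k (s⁻¹ • (z' - y)) * w y| ≤
      2 * (volume.real (Metric.ball (0 : E3) 1)) * L * K * (‖z - z'‖ / s) := by
  rw [← integral_sub (p3c_int hk h0 hs hw z) (p3c_int hk h0 hs hw z')]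
  set c : ℝ := (s ^ 3)⁻¹ * (L * (‖z - z'‖ / s)) * K with hc
  have hc0 : 0 ≤ c := by positivity
  have i1 : ∀ a : E3, Integrable ((Metric.closedBall a s).indicator fun _ => c) := fun a =>
    (integrable_indicator_iff measurableSet_closedBall).2
      (integrableOn_const (isCompact_closedBall a s).measure_lt_top.ne)
  have hb : ∀ y, |w y| ≤ K → |(s ^ 3)⁻¹ * k (s⁻¹ • (z - y)) * w y - (s ^ 3)⁻¹ * k (s⁻¹ • (z' - y)) * w y| ≤ c := by
    intro y hy
    have e : (s ^ 3)⁻¹ * k (s⁻¹ • (z - y)) * w y - (s ^ 3)⁻¹ * k (s⁻¹ • (z' - y)) * w y =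
        (s ^ 3)⁻¹ * (k (s⁻¹ • (z - y)) - k (s⁻¹ • (z' - y))) * w y := by ring
    have h1 := hL (s⁻¹ • (z - y)) (s⁻¹ • (z' - y))
    have e2 : ‖s⁻¹ • (z - y) - s⁻¹ • (z' - y)‖ = ‖z - z'‖ / s := by
      rw [← smul_sub, sub_sub_sub_cancel_right, norm_smul, norm_inv, Real.norm_eq_abs, abs_of_pos hs,
        div_eq_inv_mul]
    rw [e2] at h1
    rw [e, abs_mul, abs_mul, abs_of_pos (by positivity : 0 < (s ^ 3)⁻¹), hc]
    gcongr
  have key := norm_integral_le_of_norm_le ((i1 z).add (i1 z'))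
    (f := fun y => (s ^ 3)⁻¹ * k (s⁻¹ • (z - y)) * w y - (s ^ 3)⁻¹ * k (s⁻¹ • (z' - y)) * w y)
    (Eventually.of_forall fun y => by
      rw [Real.norm_eq_abs]
      have n1 : 0 ≤ (Metric.closedBall z s).indicator (fun _ => c) y := indicator_nonneg (fun _ _ => hc0) y
      have n2 : 0 ≤ (Metric.closedBall z' s).indicator (fun _ => c) y := indicator_nonneg (fun _ _ => hc0) y
      simp only [Pi.add_apply]
      by_cases h1 : y ∈ Metric.closedBall z s
      · rw [indicator_of_mem h1]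
        linarith [hb y (hz y h1)]
      · by_cases h2 : y ∈ Metric.closedBall z' s
        · rw [indicator_of_mem h2]
          linarith [hb y (hz' y h2)]
        · rw [p3c_zero h0 hs h1, p3c_zero h0 hs h2]
          simp only [mul_zero, zero_mul, sub_zero, abs_zero]
          linarith)
  rw [Real.norm_eq_abs] at key
  refine key.trans (le_of_eq ?_)
  have hv : ∀ a : E3, ∫ y, (Metric.closedBall a s).indicator (fun _ => c) y =
      s ^ 3 * volume.real (Metric.ball (0 : E3) 1) * c := fun a => by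
    rw [integral_indicator measurableSet_closedBall, setIntegral_const, Measure.addHaar_real_closedBall _ _ hs.le]
    simp
  rw [integral_add' (i1 z) (i1 z'), hv, hv, hc]
  field_simp
  ring

/-- take `s = √‖x - x'‖` -/
theorem holder (hv : IsSumClassPotential v) (hs : SymV v) (e : ℝ) : ∃ C : ℝ, 0 ≤ C ∧
    ∀ (w : E3 → ℝ) (G : E3 → E3) (x : E3) (K : ℝ), Eig v e w G → ContinuousOn w offA → 2 ≤ cyl x →
      (∀ y ∈ Metric.ball x 1, |w y| ≤ K) → ∀ x', ‖x' - x‖ ≤ 1 / 4 →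
        |w x' - w x| ≤ C * K * ‖x' - x‖ ^ (1 / 3 : ℝ) := by
  obtain ⟨k, C, hC, hk, h0, -, hmain⟩ := exists_smooth_part hv hs e
  obtain ⟨L, hL0, hL⟩ := p3c_lip hk h0
  set B : ℝ := volume.real (Metric.ball (0 : E3) 1) with hB
  have hB0 : 0 ≤ B := measureReal_nonneg
  refine ⟨4 * C + 2 * B * L, by positivity, fun w G x K hw hc hx hK x' hx' => ?_⟩
  have hK0 : 0 ≤ K := (abs_nonneg _).trans (hK x (Metric.mem_ball_self one_pos))
  rcases (norm_nonneg (x' - x)).eq_or_lt with hd | hd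
  · have : x' = x := sub_eq_zero.1 (norm_eq_zero.1 hd.symm)
    subst this
    simp
  set d := ‖x' - x‖ with hdd
  set s := √d with hsd
  have hs0 : 0 < s := Real.sqrt_pos.2 hd
  have hss : s ^ 2 = d := Real.sq_sqrt hd.le
  have hs2 : s ≤ 1 / 2 := by nlinarith
  set V : Set E3 := Metric.ball x (1 / 3) with hV
  have hsub : ∀ z ∈ V, Metric.closedBall z s ⊆ Metric.ball x 1 := fun z hz y hy => by
    rw [Metric.mem_ball] at hz ⊢
    rw [Metric.mem_closedBall] at hy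
    linarith [dist_triangle y z x]
  have hcyl : ∀ z ∈ V, 1 ≤ cyl z := fun z hz => by
    have h1 := abs_cyl_sub_le z x
    rw [Metric.mem_ball, dist_eq_norm] at hz
    linarith [(abs_le.1 h1).1]
  set J : E3 → ℝ := fun z => ∫ y, (s ^ 3)⁻¹ * k (s⁻¹ • (z - y)) * w y with hJ
  have hJd : ∀ z ∈ V, ∀ z' ∈ V, |J z - J z'| ≤ 2 * B * L * K * (‖z - z'‖ / s) := fun z hz z' hz' =>
    p3c_diff hk.continuous h0 hL0 hL hs0 hw.h1.mf hK0 (fun y hy => hK y (hsub z hz hy))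
      (fun y hy => hK y (hsub z' hz' hy))
  have hJc : ContinuousOn J V := by
    refine (LipschitzOnWith.of_dist_le_mul (K := ⟨2 * B * L * K / s, by positivity⟩) fun z hz z' hz' => ?_).continuousOn
    rw [Real.dist_eq, dist_eq_norm]
    refine (hJd z hz z' hz').trans (le_of_eq ?_)
    change _ = 2 * B * L * K / s * ‖z - z'‖
    ring
  have hwc : ContinuousOn w V := hc.mono fun z hz => lt_of_lt_of_le one_pos (hcyl z hz)
  have e3 : s ^ (2 / 3 : ℝ) = d ^ (1 / 3 : ℝ) := by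
    rw [← hss, ← Real.rpow_natCast, ← Real.rpow_mul hs0.le]
    norm_num
  have hd1 : d ≤ 1 := by linarith
  have hsle : s ≤ d ^ (1 / 3 : ℝ) := by
    rw [hsd, Real.sqrt_eq_rpow]
    exact Real.rpow_le_rpow_of_exponent_ge hd hd1 (by norm_num)
  have hall : ∀ z ∈ V, |w z - J z| ≤ 2 * C * K * d ^ (1 / 3 : ℝ) := by
    refine p3c_le_of_ae Metric.isOpen_ball (hwc.sub hJc).abs ?_
    filter_upwards [hmain w G (Metric.ball x 1) K s hw Metric.isOpen_ball
      (Eventually.of_forall fun y hy => hK y hy) hs0] with z hz hzV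
    have h1 := hcyl z hzV
    refine (hz (hsub z hzV) (by linarith)).trans ?_
    have h2 : (s / cyl z) ^ (2 / 3 : ℝ) ≤ d ^ (1 / 3 : ℝ) := by
      rw [← e3]
      exact Real.rpow_le_rpow (by positivity) (div_le_self hs0.le h1) (by norm_num)
    have h3 : s ^ 2 ≤ d ^ (1 / 3 : ℝ) := by nlinarith
    calc C * (s ^ 2 + (s / cyl z) ^ (2 / 3 : ℝ)) * K ≤ C * (d ^ (1 / 3 : ℝ) + d ^ (1 / 3 : ℝ)) * K := by gcongr
      _ = _ := by ring
  have hxV : x ∈ V := Metric.mem_ball_self (by norm_num)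
  have hx'V : x' ∈ V := by
    rw [hV, Metric.mem_ball, dist_eq_norm]
    linarith
  have h1 := hall x hxV
  have h2 := hall x' hx'V
  have h3 := hJd x' hx'V x hxV
  have e4 : ‖x' - x‖ / s = s := by
    rw [← hdd, ← hss]
    field_simp
  rw [e4] at h3
  have h4 : 2 * B * L * K * s ≤ 2 * B * L * K * d ^ (1 / 3 : ℝ) := by gcongr
  have e5 : w x' - w x = (w x' - J x') + (J x' - J x) - (w x - J x) := by ring
  rw [e5]
  have h5 := abs_sub (w x' - J x' + (J x' - J x)) (w x - J x)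
  have h6 := abs_add_le (w x' - J x') (J x' - J x)
  nlinarith

end Crest.Agent.R335
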