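import Crest.Agent.R335.P4a

/-!
# R335/P4: positivity

`ℓ = - log (w / m + ε)` satisfies `lap ℓ ≥ - 2 |v - e|` weakly (test the equation with `ξ / (w + ε m)`), and
`log_energy` + `poincare_sub` bound its positive part in `L²` uniformly in `ε`; `exists_kernel` and `kato_modulus` give
an a.e. upper bound for `ℓ`.
-/

set_option autoImplicit false

namespace Crest.Agent.R335

open MeasureTheory Set Filter Topology
open scoped Gradient RealInnerProductSpace ENNReal ContDiff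
open Crest.MathPhysics.ThreeBody

variable {v : E3 → ℝ}

/-- strong maximum principle -/
theorem pos_of_nonneg (hv : IsSumClassPotential v) (hs : SymV v) {e : ℝ} {w : E3 → ℝ} {G : E3 → E3}
    (hw : Eig v e w G) (hc : ContinuousOn w offA) {Ω : Set E3} (hΩ : IsOpen Ω) (hcv : Convex ℝ Ω) (hA : Ω ⊆ offA)
    (h0 : ∀ x ∈ Ω, 0 ≤ w x) : (∀ x ∈ Ω, w x = 0) ∨ ∀ x ∈ Ω, 0 < w x := by
  have hc' := hc.mono hA
  have h1 : IsOpen (Ω ∩ w ⁻¹' Ioi 0) := hc'.isOpen_inter_preimage hΩ isOpen_Ioi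
  have h2 : IsOpen {x | x ∈ Ω ∧ w x = 0} := by
    refine Metric.isOpen_iff.2 fun x0 hx0 => ?_
    obtain ⟨R, hR, hRs⟩ := Metric.isOpen_iff.1 hΩ x0 hx0.1
    have hcy : 0 < cyl x0 := hA hx0.1
    have hr : 0 < min R (cyl x0) / 9 := by positivity
    have hb : Metric.ball x0 (9 * (min R (cyl x0) / 9)) ⊆ Ω :=
      (Metric.ball_subset_ball (by linarith [min_le_left R (cyl x0)])).trans hRs
    refine ⟨_, hr, fun y0 hy0 => ?_⟩
    have hy : y0 ∈ Ω := hb (Metric.ball_subset_ball (by linarith) hy0)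
    refine ⟨hy, le_antisymm (not_lt.1 fun hp => ?_) (h0 y0 hy)⟩
    have h3 : ∀ᶠ y in 𝓝 y0, w y0 / 2 < w y ∧ y ∈ Metric.ball x0 (min R (cyl x0) / 9) :=
      ((hc'.continuousAt (hΩ.mem_nhds hy)).eventually (lt_mem_nhds (by linarith))).and
        (Metric.isOpen_ball.mem_nhds hy0)
    obtain ⟨a, ha, h4⟩ := Metric.eventually_nhds_iff_ball.1 h3
    obtain ⟨c, hc0, h5⟩ := p4_core hv hs e hr ha
    have h6 := h5 w G x0 y0 (w y0 / 2) hw hc (by linarith [min_le_right R (cyl x0)]) (by linarith)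
      (fun y hy => h0 y (hb hy))
      (fun y hy => Metric.ball_subset_closedBall (Metric.ball_subset_ball (by linarith) (h4 y hy).2))
      fun y hy => (h4 y hy).1.le
    rw [hx0.2] at h6
    exact absurd h6 (not_le.2 (by positivity))
  have h3 := hcv.isPreconnected.subset_or_subset h2 h1 (Set.disjoint_left.2 fun x hx hx' => hx'.2.ne' hx.2)
    fun x hx => (h0 x hx).eq_or_lt.imp (fun h => ⟨hx, h.symm⟩) fun h => ⟨hx, h⟩
  exact h3.imp (fun h x hx => (h hx).2) fun h x hx => (h hx).2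

end Crest.Agent.R335
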