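import Crest.Agent.R335.S13d

/-!
# R335/S13: variational lemmas
-/

set_option autoImplicit false

namespace Crest.Agent.R335

open MeasureTheory Set Filter Topology
open scoped Gradient RealInnerProductSpace ENNReal ContDiff
open Crest.MathPhysics.ThreeBody

variable {E : Type} [NormedAddCommGroup E] [InnerProductSpace ℝ E] [FiniteDimensional ℝ E]
  [MeasurableSpace E] [BorelSpace E]

variable {V f : E → ℝ} {G : E → E}

/-- the regularised logarithm -/
noncomputable def s13_h (ε t : ℝ) : ℝ := Real.log (1 + (t / ε) ^ 2)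

theorem s13_hasDerivAt {ε : ℝ} (hε : 0 < ε) (t : ℝ) :
    HasDerivAt (s13_h ε) (2 * t / (ε ^ 2 + t ^ 2)) t := by
  have h1 : HasDerivAt (fun t : ℝ => 1 + (t / ε) ^ 2) (2 * (t / ε) * (1 / ε)) t := by
    simpa using (((hasDerivAt_id t).div_const ε).pow 2).const_add 1
  have h2 : (1 + (t / ε) ^ 2) ≠ 0 := by positivity
  have h3 : 2 * t / (ε ^ 2 + t ^ 2) = 2 * (t / ε) * (1 / ε) / (1 + (t / ε) ^ 2) := by
    have : ε ^ 2 + t ^ 2 ≠ 0 := by positivity
    field_simp
  rw [h3]
  exact h1.log h2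

theorem s13_contDiff {ε : ℝ} : ContDiff ℝ 1 (s13_h ε) := by
  unfold s13_h
  refine ContDiff.log (by fun_prop) fun t => by positivity

theorem s13_deriv_le {ε : ℝ} (hε : 0 < ε) (t : ℝ) : |deriv (s13_h ε) t| ≤ 1 / ε := by
  rw [(s13_hasDerivAt hε t).deriv, abs_div, abs_of_pos (by positivity : 0 < ε ^ 2 + t ^ 2),
    div_le_div_iff₀ (by positivity) hε, abs_mul, abs_two]
  nlinarith [sq_nonneg (|t| - ε), sq_abs t]

theorem s13_deriv_le' {ε : ℝ} (hε : 0 < ε) {t : ℝ} (ht : 0 ≤ t) :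
    |deriv (s13_h ε) t| ≤ 4 / (t + ε) := by
  rw [(s13_hasDerivAt hε t).deriv, abs_of_nonneg (by positivity),
    div_le_div_iff₀ (by positivity) (by positivity)]
  nlinarith [sq_nonneg (t - ε), sq_nonneg t, sq_nonneg ε]

/-- uniform energy bound for the regularised logarithm on a compact subset -/
theorem s13_energy (hV : FB V) {e : ℝ} {w : E → ℝ} {Gw : E → E} (hw : Eig V e w Gw) {Ω U : Set E}
    (hΩ : IsOpen Ω) (hU : IsCompact U) (hs : U ⊆ Ω) (h0 : ∀ᵐ x, x ∈ Ω → 0 ≤ w x) :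
    ∃ C : ℝ, ∀ ε : ℝ, 0 < ε → ∫ x in U, ‖deriv (s13_h ε) (w x) • Gw x‖ ^ 2 ≤ C := by
  obtain ⟨χ, hχ, hχ01, hχ1⟩ := exists_tst_one hΩ hU hs
  have hχU : ∀ x ∈ U, χ x = 1 := fun x hx => hχ1.self_of_nhdsSet x hx
  have h0' : ∀ᵐ x, x ∈ tsupport χ → 0 ≤ w x := h0.mono fun x hx h => hx (hχ.sub h)
  refine ⟨16 * (4 * (∫ x, ‖∇ χ x‖ ^ 2) + 4 * ∫ x, |V x - e| * χ x ^ 2), fun ε hε => ?_⟩
  have h1 := log_energy hV hw (hχ.sm.of_le (by exact_mod_cast le_top)) hχ.cpt h0' hε
  have hint : Integrable fun x => χ x ^ 2 * (‖Gw x‖ / (w x + ε)) ^ 2 := by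
    refine Integrable.mono' (hw.h1.int_grad_sq.const_mul (1 / ε ^ 2)) ?_ ?_
    · have h2 := hw.h1.mf.1.aemeasurable
      have h3 := hw.h1.mG.1.norm.aemeasurable
      have h4 : AEMeasurable χ volume := hχ.sm.continuous.measurable.aemeasurable
      exact ((h4.pow_const 2).mul ((h3.div (h2.add_const ε)).pow_const 2)).aestronglyMeasurable
    · filter_upwards [h0'] with x hx
      rw [Real.norm_eq_abs, abs_of_nonneg (by positivity)]
      by_cases hx' : x ∈ tsupport χ
      · have h2 := hx hx'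
        have h3 : χ x ^ 2 ≤ 1 := pow_le_one₀ (hχ01 x).1 (hχ01 x).2
        have h4 : (‖Gw x‖ / (w x + ε)) ^ 2 ≤ (‖Gw x‖ / ε) ^ 2 := by
          gcongr; linarith
        calc χ x ^ 2 * (‖Gw x‖ / (w x + ε)) ^ 2 ≤ 1 * (‖Gw x‖ / ε) ^ 2 := by gcongr
          _ = 1 / ε ^ 2 * ‖Gw x‖ ^ 2 := by ring
      · rw [image_eq_zero_of_notMem_tsupport hx']
        have : (0 : ℝ) ^ 2 * (‖Gw x‖ / (w x + ε)) ^ 2 = 0 := by ring
        rw [this]; positivity
  have hH := hw.h1.comp (s13_contDiff (ε := ε)) (by simp [s13_h]) (s13_deriv_le hε)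
  calc ∫ x in U, ‖deriv (s13_h ε) (w x) • Gw x‖ ^ 2
      ≤ ∫ x in U, 16 * (χ x ^ 2 * (‖Gw x‖ / (w x + ε)) ^ 2) := by
        refine setIntegral_mono_ae_restrict hH.int_grad_sq.integrableOn
          (hint.const_mul 16).integrableOn ?_
        rw [EventuallyLE, ae_restrict_iff' hU.measurableSet]
        filter_upwards [h0] with x hx hxU
        have h2 := hx (hs hxU)
        have h3 := s13_deriv_le' hε h2
        rw [norm_smul, Real.norm_eq_abs, hχU x hxU]
        calc (|deriv (s13_h ε) (w x)| * ‖Gw x‖) ^ 2 ≤ (4 / (w x + ε) * ‖Gw x‖) ^ 2 := by gcongr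
          _ = 16 * (1 ^ 2 * (‖Gw x‖ / (w x + ε)) ^ 2) := by ring
    _ ≤ ∫ x, 16 * (χ x ^ 2 * (‖Gw x‖ / (w x + ε)) ^ 2) :=
        setIntegral_le_integral (hint.const_mul 16) (Eventually.of_forall fun x => by positivity)
    _ ≤ _ := by rw [integral_const_mul]; gcongr

/-- a nonnegative eigenfunction on a convex open set is zero or positive: `log_energy`, `poincare_sub` for
`log (1 + w / ε) / log (1 / ε)`-type functions on an exhaustion by compact convex sets -/
theorem pos_or_zero (hV : FB V) {e : ℝ} {w : E → ℝ} {Gw : E → E} (hw : Eig V e w Gw) {Ω : Set E} (hΩ : IsOpen Ω)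
    (hc : Convex ℝ Ω) (h0 : ∀ᵐ x, x ∈ Ω → 0 ≤ w x) : (∀ᵐ x, x ∈ Ω → w x = 0) ∨ ∀ᵐ x, x ∈ Ω → 0 < w x := by
  by_contra hcon
  obtain ⟨hn1, hn2⟩ := not_or.1 hcon
  set w' := hw.h1.mf.1.mk w with hw'
  have hm : Measurable w' := hw.h1.mf.1.stronglyMeasurable_mk.measurable
  have hww : w =ᵐ[volume] w' := hw.h1.mf.1.ae_eq_mk
  have hZ : volume {x | x ∈ Ω ∧ w' x = 0} ≠ 0 := by
    intro h
    apply hn2
    filter_upwards [measure_eq_zero_iff_ae_notMem.1 h, h0, hww] with x h1 h2 h3 hx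
    exact lt_of_le_of_ne (h2 hx) fun h4 => h1 ⟨hx, h3 ▸ h4.symm⟩
  have hP : volume {x | x ∈ Ω ∧ 0 < w' x} ≠ 0 := by
    intro h
    apply hn1
    filter_upwards [measure_eq_zero_iff_ae_notMem.1 h, h0, hww] with x h1 h2 h3 hx
    exact le_antisymm (not_lt.1 fun h4 => h1 ⟨hx, h3 ▸ h4⟩) (h2 hx)
  obtain ⟨a, ha, ha'⟩ := exists_mem_forall_mem_nhdsWithin_pos_measure hZ
  obtain ⟨b, hb, hb'⟩ := exists_mem_forall_mem_nhdsWithin_pos_measure hP
  have hK : IsCompact (convexHull ℝ ({a, b} : Set E)) :=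
    (Set.toFinite _).isCompact_convexHull ℝ
  have hKs : convexHull ℝ ({a, b} : Set E) ⊆ Ω :=
    convexHull_min (insert_subset ha.1 (singleton_subset_iff.2 hb.1)) hc
  obtain ⟨δ, hδ, hU⟩ := hK.exists_cthickening_subset_open hΩ hKs
  set U := Metric.cthickening δ (convexHull ℝ ({a, b} : Set E)) with hUdef
  have hUc : IsCompact U := hK.cthickening
  have hUv : Convex ℝ U := (convex_convexHull ℝ _).cthickening δ
  have hUn : ∀ x ∈ ({a, b} : Set E), U ∈ 𝓝 x := fun x hx =>
    mem_of_superset (Metric.closedBall_mem_nhds x hδ)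
      (Metric.closedBall_subset_cthickening (subset_convexHull ℝ _ hx) δ)
  have hUf : volume U ≠ ⊤ := hUc.measure_lt_top.ne
  set A := U ∩ {x | w' x = 0} with hA
  have hAm : MeasurableSet A := hUc.measurableSet.inter (hm (measurableSet_singleton 0))
  have hApos : 0 < volume A := by
    refine lt_of_lt_of_le (ha' _ (inter_mem_nhdsWithin _ (hUn a (by simp)))) (measure_mono ?_)
    exact fun x hx => ⟨hx.2, hx.1.2⟩
  have hBpos : ∃ n : ℕ, 0 < volume (U ∩ {x | 1 / ((n : ℝ) + 1) ≤ w' x}) := by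
    by_contra h
    push Not at h
    have h1 : volume (⋃ n : ℕ, U ∩ {x | 1 / ((n : ℝ) + 1) ≤ w' x}) = 0 :=
      measure_iUnion_null fun n => nonpos_iff_eq_zero.1 (h n)
    refine (hb' _ (inter_mem_nhdsWithin _ (hUn b (by simp)))).ne' (measure_mono_null ?_ h1)
    intro x hx
    obtain ⟨n, hn⟩ := exists_nat_one_div_lt hx.1.2
    exact mem_iUnion.2 ⟨n, hx.2, hn.le⟩
  obtain ⟨n, hn⟩ := hBpos
  set η : ℝ := 1 / ((n : ℝ) + 1) with hη
  have hη0 : 0 < η := by positivity
  set B := U ∩ {x | η ≤ w' x} with hB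
  have hBm : MeasurableSet B := hUc.measurableSet.inter (measurableSet_le measurable_const hm)
  have hAf : volume A ≠ ⊤ := ne_top_of_le_ne_top hUf (measure_mono inter_subset_left)
  have hBf : volume B ≠ ⊤ := ne_top_of_le_ne_top hUf (measure_mono inter_subset_left)
  have hα : 0 < (volume A).toReal := ENNReal.toReal_pos hApos.ne' hAf
  have hβ : 0 < (volume B).toReal := ENNReal.toReal_pos hn.ne' hBf
  obtain ⟨C, hC⟩ := s13_energy hV hw hΩ hUc hU h0
  obtain ⟨D, hD⟩ := Metric.isBounded_iff.1 hUc.isBounded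
  set C1 : ℝ := 2 ^ (Module.finrank ℝ E + 2) * D ^ 2 * (volume U).toReal * C with hC1
  set T : ℝ := |C1| / ((volume A).toReal * (volume B).toReal) + 1 with hT
  have hT1 : 1 ≤ T := by
    rw [hT]; exact le_add_of_nonneg_left (by positivity)
  set ε : ℝ := η * Real.exp (-T / 2) with hεdef
  have hε : 0 < ε := by positivity
  have hH := hw.h1.comp (s13_contDiff (ε := ε)) (by simp [s13_h]) (s13_deriv_le hε)
  have h1 := poincare_sub hΩ hUv hUc hU (D := D)
    (fun x hx y hy => by rw [← dist_eq_norm]; exact hD hx hy) hAm inter_subset_left (hH.loc Ω)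
    (m := 0) (by
      filter_upwards [hww] with x h1 hx
      rw [h1, hx.2]; simp [s13_h])
  have h2 : (volume B).toReal * T ^ 2 ≤ ∫ x in U, s13_h ε (w x) ^ 2 := by
    calc (volume B).toReal * T ^ 2 = ∫ _ in B, T ^ 2 := by
          rw [setIntegral_const, smul_eq_mul]; rfl
      _ ≤ ∫ x in B, s13_h ε (w x) ^ 2 := by
          refine setIntegral_mono_ae_restrict (integrableOn_const hBf) hH.int_sq.integrableOn ?_
          rw [EventuallyLE, ae_restrict_iff' hBm]
          filter_upwards [hww] with x h1 hx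
          have h3 : η ≤ w x := h1 ▸ hx.2
          have h4 : T ≤ s13_h ε (w x) := by
            rw [s13_h, Real.le_log_iff_exp_le (by positivity)]
            have h5 : (η / ε) ^ 2 = Real.exp T := by
              rw [hεdef, ← div_div, div_self hη0.ne', one_div, ← Real.exp_neg, ← Real.exp_nat_mul]
              congr 1; push_cast; ring
            have h6 : (η / ε) ^ 2 ≤ (w x / ε) ^ 2 := by gcongr
            linarith
          gcongr
      _ ≤ _ := setIntegral_mono_set hH.int_sq.integrableOn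
          (Eventually.of_forall fun x => sq_nonneg _) (HasSubset.Subset.eventuallyLE inter_subset_left)
  have h3 : (volume A).toReal * ((volume B).toReal * T ^ 2) ≤ |C1| := by
    refine le_trans (by gcongr) (h1.trans (le_trans ?_ (le_abs_self C1)))
    rw [hC1]
    have := hC ε hε
    have h4 : 2 * (volume A).toReal * (volume U).toReal * (0 : ℝ) ^ 2 = 0 := by ring
    rw [h4, zero_add]
    gcongr
  have h4 : (volume A).toReal * (volume B).toReal * T = |C1| +
      (volume A).toReal * (volume B).toReal := by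
    rw [hT]; field_simp
  have h5 : (volume A).toReal * (volume B).toReal * T ≤
      (volume A).toReal * ((volume B).toReal * T ^ 2) := by
    have : T ≤ T ^ 2 := by nlinarith
    rw [← mul_assoc]; gcongr
  have h6 : 0 < (volume A).toReal * (volume B).toReal := mul_pos hα hβ
  linarith

end Crest.Agent.R335
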