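import Crest.Agent.R335.P3
import Crest.Agent.R335.S13

/-!
# R335/P4x: the weak Harnack inequality used in `P4a` and `P4`

`ℓ = h (w)` with `h t = (log (t + δ + m) - log (t + δ)) / 2` is nonnegative, at most `1` where `w ≥ m`, and satisfies
`lap ℓ ≥ - |v - e|` weakly.
-/

set_option autoImplicit false

namespace Crest.Agent.R335

open MeasureTheory Set Filter Topology
open scoped Gradient RealInnerProductSpace ENNReal ContDiff
open Crest.MathPhysics.ThreeBody

noncomputable def p4h (m δ t : ℝ) : ℝ := (Real.log (t + δ + m) - Real.log (t + δ)) / 2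

noncomputable def p4g (m δ t : ℝ) : ℝ := ((t + δ)⁻¹ - (t + δ + m)⁻¹) / 2

section scalar

variable {m δ t : ℝ}

theorem p4_dh (hm : 0 < m) (ht : -δ < t) : deriv (p4h m δ) t = -p4g m δ t := by
  have h1 : t + δ ≠ 0 := by linarith
  have h2 : t + δ + m ≠ 0 := by linarith
  have h3 : HasDerivAt (fun t : ℝ => t + δ) 1 t := (hasDerivAt_id t).add_const δ
  have h := (((h3.add_const m).log h2).sub (h3.log h1)).div_const 2
  refine h.deriv.trans ?_
  unfold p4g
  ring

theorem p4_dg (hm : 0 < m) (ht : -δ < t) : deriv (p4g m δ) t ≤ 0 := by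
  have h1 : 0 < t + δ := by linarith
  have h2 : 0 < t + δ + m := by linarith
  have h3 : HasDerivAt (fun t : ℝ => t + δ) 1 t := (hasDerivAt_id t).add_const δ
  have h := ((h3.inv h1.ne').sub ((h3.add_const m).inv h2.ne')).div_const 2
  refine h.deriv.trans_le ?_
  have h4 : 1 / (t + δ + m) ^ 2 ≤ 1 / (t + δ) ^ 2 :=
    one_div_le_one_div_of_le (by positivity) (pow_le_pow_left₀ h1.le (by linarith) 2)
  rw [neg_div, neg_div]
  linarith

theorem p4_ch (hm : 0 < m) : ContDiffOn ℝ 1 (p4h m δ) (Ioi (-δ)) := by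
  unfold p4h
  refine ContDiffOn.div_const (ContDiffOn.sub (ContDiffOn.log (by fun_prop) fun t ht => ?_)
    (ContDiffOn.log (by fun_prop) fun t ht => ?_)) 2
  · have : -δ < t := ht
    linarith
  · have : -δ < t := ht
    linarith

theorem p4_cg (hm : 0 < m) : ContDiffOn ℝ 1 (p4g m δ) (Ioi (-δ)) := by
  unfold p4g
  refine ContDiffOn.div_const (ContDiffOn.sub (ContDiffOn.inv (by fun_prop) fun t ht => ?_)
    (ContDiffOn.inv (by fun_prop) fun t ht => ?_)) 2
  · have : -δ < t := ht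
    linarith
  · have : -δ < t := ht
    linarith

theorem p4_g_bd (hm : 0 < m) (hδ : 0 < δ) (ht : 0 ≤ t) :
    0 ≤ p4g m δ t ∧ p4g m δ t ≤ (t + δ)⁻¹ ∧ p4g m δ t ≤ δ⁻¹ ∧ t * p4g m δ t ≤ 1 / 2 := by
  have h1 : 0 < t + δ := by linarith
  have h2 : (t + δ + m)⁻¹ ≤ (t + δ)⁻¹ := inv_anti₀ h1 (by linarith)
  have h3 : 0 < (t + δ + m)⁻¹ := by positivity
  have h4 : (t + δ)⁻¹ ≤ δ⁻¹ := inv_anti₀ hδ (by linarith)
  have h5 : t * (t + δ)⁻¹ ≤ 1 := by
    rw [← div_eq_mul_inv, div_le_one h1]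
    linarith
  have h6 := mul_nonneg ht h3.le
  unfold p4g
  refine ⟨by linarith, by linarith, by linarith, ?_⟩
  rw [← mul_div_assoc, mul_sub]
  linarith

theorem p4_h_bd (hm : 0 < m) (hδ : 0 < δ) (ht : m ≤ t) : |p4h m δ t| ≤ 1 := by
  have h1 : 0 < t + δ := by linarith
  have h2 : Real.log (t + δ) ≤ Real.log (t + δ + m) := Real.log_le_log h1 (by linarith)
  have h3 : Real.log (t + δ + m) ≤ Real.log (2 * (t + δ)) := Real.log_le_log (by linarith) (by linarith)
  rw [Real.log_mul two_ne_zero h1.ne'] at h3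
  have h4 := Real.log_two_lt_d9
  unfold p4h
  exact abs_le.2 ⟨by linarith, by linarith⟩

theorem p4_h_le (hm : 0 < m) (hδ : 0 < δ) (ht : 0 ≤ t) {B : ℝ} (h : p4h m δ t ≤ B) :
    Real.exp (-(2 * B)) * m ≤ t + δ := by
  have h1 : 0 < t + δ := by linarith
  have h2 : Real.log m ≤ Real.log (t + δ + m) := Real.log_le_log hm (by linarith)
  unfold p4h at h
  rw [← Real.exp_log hm, ← Real.exp_add, ← Real.exp_log h1, Real.exp_le_exp]
  linarith

end scalar

variable {v : E3 → ℝ} {e m δ : ℝ} {w : E3 → ℝ} {G : E3 → E3} {Ω : Set E3}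

theorem p4_loc (hw : H1 w G) (hΩ : IsOpen Ω) (hc : ContinuousOn w Ω) (h0 : ∀ x ∈ Ω, 0 ≤ w x) (hδ : 0 < δ)
    {h : ℝ → ℝ} (hh : ContDiffOn ℝ 1 h (Ioi (-δ))) :
    H1loc Ω (fun x => h (w x)) (fun x => deriv h (w x) • G x) ∧ ContinuousOn (fun x => h (w x)) Ω := by
  have h1 : ∀ x ∈ Ω, w x ∈ Ioi (-δ) := fun x hx => lt_of_lt_of_le (neg_lt_zero.2 hδ) (h0 x hx)
  refine ⟨(hw.loc Ω).comp hΩ isOpen_Ioi hh fun C hC hs => ⟨w '' C, hC.image_of_continuousOn (hc.mono hs), ?_,
    Eventually.of_forall fun x hx => mem_image_of_mem _ hx⟩, hh.continuousOn.comp hc h1⟩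
  rintro _ ⟨x, hx, rfl⟩
  exact h1 x (hs hx)

theorem p4_int {f ξ : E3 → ℝ} (hf : IntegrableOn f Ω) (hξ : Tst Ω ξ) : Integrable fun y => f y * ξ y := by
  obtain ⟨M, hM⟩ := hξ.sm.continuous.bounded_above_of_compact_support hξ.cpt
  have h1 : IntegrableOn (fun y => f y * ξ y) Ω :=
    Integrable.mul_bdd hf hξ.sm.continuous.aestronglyMeasurable (Eventually.of_forall hM)
  refine h1.integrable_of_forall_notMem_eq_zero fun x hx => ?_
  rw [(s6a_out fun h => hx (hξ.sub h)).1, mul_zero]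

/-- the weak inequality -/
theorem p4_sub (hv : FB v) (hw : Eig v e w G) (hΩ : IsOpen Ω) (hc : ContinuousOn w Ω) (h0 : ∀ x ∈ Ω, 0 ≤ w x)
    (hm : 0 < m) (hδ : 0 < δ) (hi : IntegrableOn (fun y => |v y - e|) Ω) (ξ : E3 → ℝ) (hξ : Tst Ω ξ)
    (hξ0 : ∀ y, 0 ≤ ξ y) : ∫ y, ⟪deriv (p4h m δ) (w y) • G y, ∇ ξ y⟫ ≤ ∫ y, |v y - e| * ξ y := by
  obtain ⟨g1, g2⟩ := p4_loc hw.h1 hΩ hc h0 hδ (p4_cg (δ := δ) hm)
  have hη := hξ.th.mul_loc hΩ g1 (Bl.of_continuousOn hξ.sm.continuous.continuousOn) (Bl.of_continuousOn g2)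
  have heq := hw.eqS hv Ω _ _ hη
  have hI := p4_int hi hξ
  have hout : ∀ y, y ∉ Ω → ξ y = 0 ∧ ∇ ξ y = 0 := fun y hy => s6a_out fun h => hy (hξ.sub h)
  have hpos : ∀ y ∈ Ω, -δ < w y := fun y hy => lt_of_lt_of_le (neg_lt_zero.2 hδ) (h0 y hy)
  have h1 : |∫ y, ((v y - e) * w y - (0 : E3 → ℝ) y) * (ξ y * p4g m δ (w y))| ≤ ∫ y, 1 / 2 * (|v y - e| * ξ y) := by
    refine norm_integral_le_of_norm_le (f := fun y => ((v y - e) * w y - (0 : E3 → ℝ) y) * (ξ y * p4g m δ (w y)))
      (hI.const_mul _) (Eventually.of_forall fun y => ?_)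
    by_cases hy : y ∈ Ω
    · obtain ⟨a1, -, -, a2⟩ := p4_g_bd hm hδ (h0 y hy)
      have e1 : ((v y - e) * w y - (0 : E3 → ℝ) y) * (ξ y * p4g m δ (w y)) =
          (v y - e) * (ξ y * (w y * p4g m δ (w y))) := by
        rw [Pi.zero_apply]
        ring
      have a3 := mul_nonneg (h0 y hy) a1
      rw [e1, Real.norm_eq_abs, abs_mul, abs_of_nonneg (mul_nonneg (hξ0 y) a3)]
      have := mul_le_mul_of_nonneg_left a2 (mul_nonneg (abs_nonneg (v y - e)) (hξ0 y))
      linarith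
    · simp [(hout y hy).1]
  rw [integral_const_mul] at h1
  have hGξ := hw.h1.int_inner hξ.h1
  have h2 : ∫ y, ⟪deriv (p4h m δ) (w y) • G y, ∇ ξ y⟫ ≤
      ∫ y, -⟪G y, ξ y • deriv (p4g m δ) (w y) • G y + p4g m δ (w y) • ∇ ξ y⟫ := by
    refine integral_mono ?_ (hw.h1.int_inner hη.h1).neg fun y => ?_
    · simp only [real_inner_smul_left]
      refine (hGξ.norm.const_mul δ⁻¹).mono' ?_ (Eventually.of_forall fun y => ?_)
      · exact ((measurable_deriv _).comp_aemeasurable hw.h1.mf.1.aemeasurable).aestronglyMeasurable.mul hGξ.1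
      · by_cases hy : y ∈ Ω
        · obtain ⟨a1, -, a2, -⟩ := p4_g_bd hm hδ (h0 y hy)
          rw [norm_mul, p4_dh hm (hpos y hy), norm_neg, Real.norm_of_nonneg a1]
          exact mul_le_mul_of_nonneg_right a2 (norm_nonneg _)
        · simp [(hout y hy).2]
    · by_cases hy : y ∈ Ω
      · simp only [inner_add_right, real_inner_smul_left, real_inner_smul_right, real_inner_self_eq_norm_sq,
          p4_dh hm (hpos y hy)]
        have := mul_nonneg (hξ0 y) (mul_nonneg (neg_nonneg.2 (p4_dg hm (hpos y hy))) (sq_nonneg ‖G y‖))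
        linarith
      · simp [(hout y hy).1, (hout y hy).2]
  rw [integral_neg] at h2
  have h3 := le_abs_self (∫ y, ((v y - e) * w y - (0 : E3 → ℝ) y) * (ξ y * p4g m δ (w y)))
  linarith

theorem p4_ball {x0 : E3} {R : ℝ} (h : R ≤ cyl x0) : Metric.ball x0 R ⊆ offA := fun y hy => by
  have h1 := (abs_le.1 (abs_cyl_sub_le y x0)).1
  have h2 : ‖y - x0‖ < R := mem_ball_iff_norm.1 hy
  change 0 < cyl y
  linarith

/-- the energy bound -/
theorem p4_energy (hv : IsSumClassPotential v) (e : ℝ) {r : ℝ} (hr : 0 < r) : ∃ B : ℝ, 0 ≤ B ∧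
    ∀ (w : E3 → ℝ) (G : E3 → E3) (x0 : E3) (m δ : ℝ), Eig v e w G → 0 < m → 0 < δ →
      (∀ y ∈ Metric.ball x0 (9 * r), 0 ≤ w y) →
      ∫ x in Metric.closedBall x0 (4 * r), ‖deriv (p4h m δ) (w x) • G x‖ ^ 2 ≤ B := by
  obtain ⟨M, hM0, hM⟩ := exists_cut (E := E3)
  obtain ⟨C, hC0, hC⟩ := sumClass_ball (sumClass_sub_const hv e)
  refine ⟨4 * ((M / (17 / 4 * r)) ^ 2 * volume.real (Metric.ball (0 : E3) (9 * r))) + 4 * (C * (9 * r + (9 * r) ^ 3)),
    by positivity, fun w G x0 m δ hw hm hδ h0 => ?_⟩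
  obtain ⟨χ, hχ, h01, h1, hg⟩ := hM x0 (17 / 4 * r) (by positivity)
  obtain ⟨c1, c2⟩ := hC x0 (9 * r) (by positivity)
  have hs : tsupport χ ⊆ Metric.ball x0 (9 * r) := hχ.sub.trans (Metric.closedBall_subset_ball (by linarith))
  have hout : ∀ y, y ∉ Metric.ball x0 (9 * r) → χ y = 0 ∧ ∇ χ y = 0 := fun y hy => s6a_out fun h => hy (hs h)
  have key := log_energy (FB.of_sumClass hv) hw (hχ.sm.of_le (by simp)) hχ.cpt
    (Eventually.of_forall fun x hx => h0 x (hs hx)) hδ
  have a1 : ∫ x, ‖∇ χ x‖ ^ 2 ≤ (M / (17 / 4 * r)) ^ 2 * volume.real (Metric.ball (0 : E3) (9 * r)) := by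
    rw [← setIntegral_eq_integral_of_forall_compl_eq_zero (s := Metric.ball x0 (9 * r))
      fun y hy => by simp [(hout y hy).2], measureReal_def, ← Measure.addHaar_ball_center volume x0]
    refine (Real.le_norm_self _).trans (norm_setIntegral_le_of_norm_le_const measure_ball_lt_top fun x _ => ?_)
    rw [Real.norm_of_nonneg (sq_nonneg _)]
    exact pow_le_pow_left₀ (norm_nonneg _) (hg x) 2
  have a2 : ∫ x, |v x - e| * χ x ^ 2 ≤ C * (9 * r + (9 * r) ^ 3) := by
    rw [← setIntegral_eq_integral_of_forall_compl_eq_zero (s := Metric.ball x0 (9 * r))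
      fun y hy => by simp [(hout y hy).1]]
    refine le_trans (integral_mono_of_nonneg (Eventually.of_forall fun x => by positivity) c1.abs
      (Eventually.of_forall fun x => ?_)) c2
    exact mul_le_of_le_one_right (abs_nonneg _) (pow_le_one₀ (h01 x).1 (h01 x).2)
  have hI : Integrable fun x => χ x ^ 2 * (‖G x‖ / (w x + δ)) ^ 2 := by
    refine (hw.h1.int_grad_sq.const_mul (δ⁻¹ ^ 2)).mono' ?_ (Eventually.of_forall fun x => ?_)
    · exact ((hχ.sm.continuous.pow 2).aemeasurable.mul ((hw.h1.mG.1.norm.aemeasurable.div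
        (hw.h1.mf.1.aemeasurable.add_const δ)).pow_const 2)).aestronglyMeasurable
    · by_cases hx : x ∈ Metric.ball x0 (9 * r)
      · have b1 := h0 x hx
        rw [Real.norm_of_nonneg (by positivity)]
        refine (mul_le_of_le_one_left (sq_nonneg _) (pow_le_one₀ (h01 x).1 (h01 x).2)).trans ?_
        rw [div_eq_inv_mul, mul_pow]
        exact mul_le_mul_of_nonneg_right (pow_le_pow_left₀ (by positivity) (inv_anti₀ hδ (by linarith)) 2)
          (sq_nonneg _)
      · rw [(hout x hx).1]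
        simp only [ne_eq, OfNat.ofNat_ne_zero, not_false_eq_true, zero_pow, zero_mul, norm_zero]
        positivity
  have a3 : ∫ x in Metric.closedBall x0 (4 * r), ‖deriv (p4h m δ) (w x) • G x‖ ^ 2 ≤
      ∫ x, χ x ^ 2 * (‖G x‖ / (w x + δ)) ^ 2 := by
    refine le_trans (integral_mono_of_nonneg (Eventually.of_forall fun x => by positivity) hI.integrableOn ?_)
      (setIntegral_le_integral hI (Eventually.of_forall fun x => by positivity))
    refine (ae_restrict_iff' Metric.isClosed_closedBall.measurableSet).2 (Eventually.of_forall fun x hx => ?_)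
    have b1 := h0 x (Metric.closedBall_subset_ball (by linarith) hx)
    obtain ⟨b2, b3, -, -⟩ := p4_g_bd hm hδ b1
    dsimp only
    rw [h1 x (Metric.closedBall_subset_ball (by linarith) hx), one_pow, one_mul, norm_smul,
      p4_dh hm (by linarith), norm_neg, Real.norm_of_nonneg b2, div_eq_inv_mul]
    exact pow_le_pow_left₀ (by positivity) (mul_le_mul_of_nonneg_right b3 (norm_nonneg _)) 2
  linarith

/-- the `L²` bound -/
theorem p4_l2 (hv : IsSumClassPotential v) (e : ℝ) {r a : ℝ} (hr : 0 < r) (ha : 0 < a) : ∃ B : ℝ, 0 ≤ B ∧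
    ∀ (w : E3 → ℝ) (G : E3 → E3) (x0 y0 : E3) (m δ : ℝ), Eig v e w G → ContinuousOn w (Metric.ball x0 (9 * r)) →
      0 < m → 0 < δ → (∀ y ∈ Metric.ball x0 (9 * r), 0 ≤ w y) → Metric.ball y0 a ⊆ Metric.closedBall x0 (4 * r) →
      (∀ y ∈ Metric.ball y0 a, m ≤ w y) → ∫ x in Metric.closedBall x0 (4 * r), p4h m δ (w x) ^ 2 ≤ B := by
  obtain ⟨B, hB0, hB⟩ := p4_energy hv e hr
  have hA : 0 < (volume (Metric.ball (0 : E3) a)).toReal :=
    ENNReal.toReal_pos (Metric.measure_ball_pos _ _ ha).ne' measure_ball_lt_top.ne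
  refine ⟨(2 * (volume (Metric.ball (0 : E3) a)).toReal * (volume (Metric.closedBall (0 : E3) (4 * r))).toReal * 1 ^ 2 +
      2 ^ (Module.finrank ℝ E3 + 2) * (8 * r) ^ 2 * (volume (Metric.closedBall (0 : E3) (4 * r))).toReal * B) /
      (volume (Metric.ball (0 : E3) a)).toReal, by positivity, fun w G x0 y0 m δ hw hc hm hδ h0 hs h1 => ?_⟩
  have key := poincare_sub Metric.isOpen_ball (convex_closedBall x0 (4 * r)) (isCompact_closedBall _ _)
    (Metric.closedBall_subset_ball (by linarith)) (D := 8 * r) (fun x hx y hy => by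
      have a1 : dist x x0 ≤ 4 * r := hx
      have a2 : dist y x0 ≤ 4 * r := hy
      have a3 := dist_triangle_right x y x0
      rw [← dist_eq_norm]
      linarith) measurableSet_ball hs (p4_loc hw.h1 Metric.isOpen_ball hc h0 hδ (p4_ch (δ := δ) hm)).1 (m := 1)
    (Eventually.of_forall fun x hx => p4_h_bd hm hδ (h1 x hx))
  rw [Measure.addHaar_ball_center volume y0, Measure.addHaar_closedBall_center volume x0] at key
  rw [le_div_iff₀' hA]
  refine key.trans ?_
  have := hB w G x0 m δ hw hm hδ h0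
  gcongr

/-- weak Harnack inequality -/
theorem p4_core (hv : IsSumClassPotential v) (hs : SymV v) (e : ℝ) {r a : ℝ} (hr : 0 < r) (ha : 0 < a) :
    ∃ c : ℝ, 0 < c ∧ ∀ (w : E3 → ℝ) (G : E3 → E3) (x0 y0 : E3) (m : ℝ), Eig v e w G → ContinuousOn w offA →
      9 * r ≤ cyl x0 → 0 ≤ m → (∀ y ∈ Metric.ball x0 (9 * r), 0 ≤ w y) →
      Metric.ball y0 a ⊆ Metric.closedBall x0 (4 * r) → (∀ y ∈ Metric.ball y0 a, m ≤ w y) → c * m ≤ w x0 := by
  obtain ⟨B, hB0, hB⟩ := p4_l2 hv e hr ha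
  obtain ⟨k, C, hC0, hk, hk0, -, hker⟩ := exists_kernel
  obtain ⟨C', hC'0, hkato⟩ := kato_modulus hv hs e
  obtain ⟨C'', -, hball⟩ := sumClass_ball (sumClass_sub_const hv e)
  obtain ⟨Kb, hKb⟩ := hk.continuous.bounded_above_of_compact_support
    (HasCompactSupport.intro (isCompact_closedBall (0 : E3) 1) fun y hy =>
      hk0 y (le_of_lt (by simpa using hy)))
  have hKb0 : 0 ≤ Kb := (norm_nonneg _).trans (hKb 0)
  refine ⟨Real.exp (-(2 * (C * (C' * (r ^ 2 + 1)) +
      (r ^ 3)⁻¹ * Kb * ((volume (Metric.closedBall (0 : E3) (4 * r))).toReal + B)))), Real.exp_pos _,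
    fun w G x0 y0 m hw hc hx0 hm h0 hsub h1 => ?_⟩
  have hx00 : x0 ∈ Metric.ball x0 (9 * r) := Metric.mem_ball_self (by positivity)
  rcases hm.eq_or_lt with rfl | hm
  · rw [mul_zero]
    exact h0 x0 hx00
  have hc' := hc.mono (p4_ball hx0)
  refine le_of_forall_pos_le_add fun δ hδ => ?_
  obtain ⟨l1, l2⟩ := p4_loc hw.h1 Metric.isOpen_ball hc' h0 hδ (p4_ch (δ := δ) hm)
  have hi : IntegrableOn (fun y => |v y - e|) (Metric.ball x0 (9 * r)) := (hball x0 (9 * r) (by positivity)).1.abs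
  have key := hker _ _ (fun y => |v y - e|) _ r Metric.isOpen_ball hr l1 (fun K _ hK => hi.mono_set hK)
    (Eventually.of_forall fun y _ => abs_nonneg _)
    (p4_sub (FB.of_sumClass hv) hw Metric.isOpen_ball hc' h0 hm hδ hi)
  have hU : Metric.closedBall x0 (4 * r) ⊆ Metric.ball x0 (9 * r) := Metric.closedBall_subset_ball (by linarith)
  have hI : IntegrableOn (fun y => p4h m δ (w y) ^ 2) (Metric.closedBall x0 (4 * r)) :=
    ((l2.mono hU).pow 2).integrableOn_compact (isCompact_closedBall _ _)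
  have hI1 : IntegrableOn (fun _ : E3 => (1 : ℝ)) (Metric.closedBall x0 (4 * r)) :=
    continuousOn_const.integrableOn_compact (isCompact_closedBall _ _)
  have hae : ∀ᵐ x, x ∈ Metric.ball x0 r → Real.exp (-(2 * (C * (C' * (r ^ 2 + 1)) +
      (r ^ 3)⁻¹ * Kb * ((volume (Metric.closedBall (0 : E3) (4 * r))).toReal + B)))) * m ≤ w x + δ := by
    filter_upwards [key] with x hx hxb
    have d1 : dist x x0 < r := hxb
    have hsb : Metric.closedBall x r ⊆ Metric.closedBall x0 (4 * r) :=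
      Metric.closedBall_subset_closedBall' (by linarith)
    have d2 : r ≤ cyl x := by
      have := (abs_le.1 (abs_cyl_sub_le x x0)).1
      rw [← dist_eq_norm] at this
      linarith
    have a1 := (hx (hsb.trans hU)).trans (mul_le_mul_right (hkato x r hr d2) _)
    rw [← ENNReal.ofReal_mul hC0, ENNReal.ofReal_le_ofReal_iff (by have := cyl_nonneg x; positivity)] at a1
    have a2 : (r / cyl x) ^ (2 / 3 : ℝ) ≤ 1 :=
      Real.rpow_le_one (div_nonneg hr.le (cyl_nonneg x)) ((div_le_one (hr.trans_le d2)).2 d2) (by norm_num)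
    have a3 : C * (C' * (r ^ 2 + (r / cyl x) ^ (2 / 3 : ℝ))) ≤ C * (C' * (r ^ 2 + 1)) := by gcongr
    have a4 : ∫ y, (r ^ 3)⁻¹ * k (r⁻¹ • (x - y)) * p4h m δ (w y) ≤
        ∫ y in Metric.closedBall x0 (4 * r), (r ^ 3)⁻¹ * Kb * (1 + p4h m δ (w y) ^ 2) := by
      rw [← setIntegral_eq_integral_of_forall_compl_eq_zero (s := Metric.closedBall x0 (4 * r)) fun y hy => ?_]
      · refine (Real.le_norm_self _).trans (norm_integral_le_of_norm_le ((hI1.add hI).const_mul _)
          (Eventually.of_forall fun y => ?_))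
        rw [norm_mul, norm_mul, Real.norm_of_nonneg (by positivity)]
        refine mul_le_mul (mul_le_mul_of_nonneg_left (hKb _) (by positivity)) ?_ (norm_nonneg _) (by positivity)
        rw [Real.norm_eq_abs, ← sq_abs]
        nlinarith [sq_nonneg (|p4h m δ (w y)| - 1), abs_nonneg (p4h m δ (w y))]
      · have b1 : r < dist y x := not_le.1 fun h => hy (hsb h)
        rw [hk0, mul_zero, zero_mul]
        rw [norm_smul, Real.norm_of_nonneg (by positivity), ← dist_eq_norm, dist_comm, ← div_eq_inv_mul,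
          one_le_div hr]
        exact b1.le
    rw [integral_const_mul, integral_add hI1 hI, setIntegral_const, smul_eq_mul, mul_one, measureReal_def,
      Measure.addHaar_closedBall_center volume x0] at a4
    have a5 := hB w G x0 y0 m δ hw hc' hm hδ h0 hsub h1
    have a6 : (r ^ 3)⁻¹ * Kb * ((volume (Metric.closedBall (0 : E3) (4 * r))).toReal +
        ∫ y in Metric.closedBall x0 (4 * r), p4h m δ (w y) ^ 2) ≤
        (r ^ 3)⁻¹ * Kb * ((volume (Metric.closedBall (0 : E3) (4 * r))).toReal + B) := by gcongr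
    exact p4_h_le hm hδ (h0 x (Metric.ball_subset_ball (by linarith) hxb)) (by linarith)
  have hfr := mem_closure_iff_frequently.1 (Measure.dense_of_ae hae x0)
  have hcx : ContinuousAt (fun x => w x + δ) x0 :=
    (hc'.continuousAt (Metric.isOpen_ball.mem_nhds hx00)).add continuousAt_const
  by_contra hlt
  have h2 := hcx.eventually (gt_mem_nhds (not_le.1 hlt))
  obtain ⟨x, b1, b2, b3⟩ := (hfr.and_eventually (h2.and (Metric.ball_mem_nhds x0 hr))).exists
  exact absurd (b1 b3) (not_le.2 b2)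

end Crest.Agent.R335
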