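import Crest.Agent.R335.P3
import Crest.Agent.R335.S13
import Crest.Agent.R335.P4x

/-!
# R335/P4: positivity

`ℓ = - log (w / m + ε)` satisfies `lap ℓ ≥ - 2 |v - e|` weakly (test the equation with `ξ / (w + ε m)`), and
`log_energy` + `poincare_sub` bound its positive part in `L²` uniformly in `ε`; `exists_kernel` and `kato_modulus` give
an a.e. upper bound for `ℓ`.
-/

set_option autoImplicit false

namespace Crest.Agent.R335

open MeasureTheory Set Filter Topology
open scoped Gradient RealInnerProductSpace ENNReal ContDiff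
open Crest.MathPhysics.ThreeBody

variable {v : E3 → ℝ}

/-- uniform lower bound across the plane -/
theorem lower_plane (hv : IsSumClassPotential v) (hs : SymV v) (e : ℝ) : ∃ c : ℝ, 0 < c ∧
    ∀ (w : E3 → ℝ) (G : E3 → E3) (ρ m : ℝ), Eig v e w G → ContinuousOn w offA → 10 ≤ ρ → 0 ≤ m →
      (∀ y ∈ Metric.ball (pt ρ 0) 9, 0 ≤ w y) → (∀ y ∈ Metric.ball (pt ρ 3) (1 / 2), m ≤ w y) →
        c * m ≤ w (pt ρ 0) := by
  obtain ⟨c, hc, h⟩ := p4_core hv hs e one_pos (by norm_num : (0 : ℝ) < 1 / 2)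
  refine ⟨c, hc, fun w G ρ m hw hcw hρ hm h0 h1 => h w G (pt ρ 0) (pt ρ 3) m hw hcw ?_ hm ?_ ?_ h1⟩
  · rw [cyl_pt (by linarith)]
    linarith
  · rwa [mul_one]
  · refine Metric.ball_subset_closedBall.trans (Metric.closedBall_subset_closedBall' ?_)
    have := norm_pt_sub ρ 3 ρ 0
    rw [sub_self, abs_zero, sub_zero, abs_of_pos (by norm_num : (0 : ℝ) < 3)] at this
    rw [dist_eq_norm]
    linarith

end Crest.Agent.R335
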