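import Crest.Agent.R335.P5d

/-!
# R335/P5: comparison with explicit barriers
-/

set_option autoImplicit false

namespace Crest.Agent.R335

open MeasureTheory Set Filter Topology
open scoped Gradient RealInnerProductSpace ENNReal ContDiff
open Crest.MathPhysics.ThreeBody

variable {Ω : Set E3}

theorem p5_int {y κ s t ξ : E3 → ℝ} (hy : MemLp y 2 volume) (hκ : LB Ω κ)
    (hs : MemLp (Ω.indicator s) 2 volume) (ht : MemLp (Ω.indicator t) 2 volume) (hξ : Tst Ω ξ) {ε : ℝ}
    (hε : 0 < ε) : Integrable fun x => ξ x * ((κ x * y x ^ 2 - s x * y x - t x ^ 2) / √(y x ^ 2 + ε ^ 2)) := by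
  obtain ⟨M, hM⟩ := hκ.2 _ hξ.cpt hξ.sub
  obtain ⟨B, hB⟩ := hξ.sm.continuous.bounded_above_of_compact_support hξ.cpt
  have e : (fun x => ξ x * ((κ x * y x ^ 2 - s x * y x - t x ^ 2) / √(y x ^ 2 + ε ^ 2))) = fun x =>
      ξ x * ((κ x * y x ^ 2 - Ω.indicator s x * y x - Ω.indicator t x ^ 2) / √(y x ^ 2 + ε ^ 2)) := by
    funext x
    by_cases hx : x ∈ Ω
    · simp only [indicator_of_mem hx]
    · have : ξ x = 0 := image_eq_zero_of_notMem_tsupport fun h => hx (hξ.sub h)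
      simp only [this, zero_mul]
  rw [e]
  have i1 : Integrable fun x => y x ^ 2 := hy.integrable_sq
  have i2 : Integrable fun x => Ω.indicator s x * y x := hs.integrable_mul hy
  have i3 : Integrable fun x => Ω.indicator t x ^ 2 := ht.integrable_sq
  have i4 : Integrable fun x => B / ε * (|M| * y x ^ 2 + |Ω.indicator s x * y x| + Ω.indicator t x ^ 2) :=
    (((i1.const_mul _).add i2.abs).add i3).const_mul _
  refine i4.mono' ?_ ?_
  · have m1 : AEMeasurable y volume := hy.1.aemeasurable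
    have m2 : AEMeasurable κ volume := hκ.1.aemeasurable
    have m3 : AEMeasurable (Ω.indicator s) volume := hs.1.aemeasurable
    have m4 : AEMeasurable (Ω.indicator t) volume := ht.1.aemeasurable
    have m5 : AEMeasurable ξ volume := hξ.sm.continuous.aemeasurable
    exact (m5.mul ((((m2.mul (m1.pow_const 2)).sub (m3.mul m1)).sub (m4.pow_const 2)).div
      (((m1.pow_const 2).add_const _).sqrt))).aestronglyMeasurable
  · filter_upwards [hM] with x hx
    have hB0 : 0 ≤ B := (norm_nonneg _).trans (hB x)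
    by_cases hxs : x ∈ tsupport ξ
    · have h1 : |κ x| ≤ |M| := (hx hxs).trans (le_abs_self M)
      have h2 : ε ≤ √(y x ^ 2 + ε ^ 2) := Real.le_sqrt_of_sq_le (by nlinarith [sq_nonneg (y x)])
      have h3 : |κ x * y x ^ 2 - Ω.indicator s x * y x - Ω.indicator t x ^ 2| ≤
          |M| * y x ^ 2 + |Ω.indicator s x * y x| + Ω.indicator t x ^ 2 := by
        have a1 : |κ x * y x ^ 2| ≤ |M| * y x ^ 2 := by
          rw [abs_mul, abs_of_nonneg (sq_nonneg (y x))]
          exact mul_le_mul_of_nonneg_right h1 (sq_nonneg _)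
        have a2 := abs_le.1 a1
        have a3 := le_abs_self (Ω.indicator s x * y x)
        have a4 := neg_abs_le (Ω.indicator s x * y x)
        have a5 := sq_nonneg (Ω.indicator t x)
        rw [abs_le]
        constructor <;> linarith [a2.1, a2.2]
      rw [norm_mul, Real.norm_eq_abs (_ / _), abs_div, abs_of_pos (hε.trans_le h2), div_mul_eq_mul_div,
        mul_div_assoc]
      refine mul_le_mul (hB x) ?_ (by positivity) hB0
      exact div_le_div₀ ((abs_nonneg _).trans h3) h3 hε h2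
    · rw [image_eq_zero_of_notMem_tsupport hxs, zero_mul, norm_zero]
      positivity

theorem KI.mono {Ω' : Set E3} {y κ κ' s s' t t' : E3 → ℝ} {G : E3 → E3} (h : KI Ω y G κ s t) (hΩ : MeasurableSet Ω')
    (hs : Ω' ⊆ Ω) (h1 : LB Ω' κ') (h2 : MemLp (Ω'.indicator s') 2 volume) (h3 : MemLp (Ω'.indicator t') 2 volume)
    (hle : ∀ᵐ x, x ∈ Ω' → κ' x ≤ κ x ∧ s x ≤ s' x ∧ |t x| ≤ |t' x|) : KI Ω' y G κ' s' t' := by
  refine ⟨h.h1, h.nn, h1, h2, h3, fun ε hε ξ hξ h0 => ?_⟩
  have hξ' : Tst Ω ξ := ⟨hξ.sm, hξ.cpt, hξ.sub.trans hs⟩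
  refine le_trans ?_ (h.le ε hε ξ hξ' h0)
  gcongr ?_ + ?_
  · exact le_rfl
  refine integral_mono_ae (p5_int h.h1.mf h1 h2 h3 hξ hε) (p5_int h.h1.mf h.bκ h.ms h.mt hξ' hε) ?_
  filter_upwards [hle] with x hx
  by_cases hxs : x ∈ Ω'
  · obtain ⟨a1, a2, a3⟩ := hx hxs
    refine mul_le_mul_of_nonneg_left (div_le_div_of_nonneg_right ?_ (Real.sqrt_nonneg _)) (h0 x)
    have b1 := mul_le_mul_of_nonneg_right a1 (sq_nonneg (y x))
    have b2 := mul_le_mul_of_nonneg_right a2 (h.nn x)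
    have b3 : t x ^ 2 ≤ t' x ^ 2 := sq_le_sq.2 a3
    linarith
  · have : ξ x = 0 := image_eq_zero_of_notMem_tsupport fun h => hxs (hξ.sub h)
    simp only [this, zero_mul, le_refl]

theorem EqS.subS {V f w : E3 → ℝ} {G : E3 → E3} (h : EqS Ω V f w G) : SubS Ω V f w G := by
  exact fun ξ K hξ _ => (h ξ K hξ).le

theorem EqS.neg {V f w : E3 → ℝ} {G : E3 → E3} (h : EqS Ω V f w G) :
    EqS Ω V (fun x => -f x) (fun x => -w x) fun x => -G x := by
  intro ξ K hξ
  have h1 := h ξ K hξ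
  have e1 : ∫ x, ⟪-G x, K x⟫ = -∫ x, ⟪G x, K x⟫ := by
    simp only [inner_neg_left, integral_neg]
  have e2 : ∫ x, (V x * -w x - -f x) * ξ x = -∫ x, (V x * w x - f x) * ξ x := by
    rw [← integral_neg]
    refine integral_congr_ae (Eventually.of_forall fun x => ?_)
    simp only
    ring
  rw [e1, e2]
  linarith

theorem SubS.mono {Ω' : Set E3} {V f w : E3 → ℝ} {G : E3 → E3} (h : SubS Ω V f w G) (hs : Ω' ⊆ Ω) :
    SubS Ω' V f w G := by
  exact fun ξ K hξ h0 => h ξ K (hξ.mono hs) h0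

theorem EqS.mono {Ω' : Set E3} {V f w : E3 → ℝ} {G : E3 → E3} (h : EqS Ω V f w G) (hs : Ω' ⊆ Ω) :
    EqS Ω' V f w G := by
  exact fun ξ K hξ => h ξ K (hξ.mono hs)

end Crest.Agent.R335
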