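import Crest.Agent.R335.S7

/-!
# R335/P5: comparison with explicit barriers
-/

set_option autoImplicit false

namespace Crest.Agent.R335

open MeasureTheory Set Filter Topology
open scoped Gradient RealInnerProductSpace ENNReal ContDiff
open Crest.MathPhysics.ThreeBody

variable {Ω : Set E3}

theorem p5a_int {h ξ : E3 → ℝ} (hh : ∀ C, IsCompact C → C ⊆ Ω → MemLp h 2 (volume.restrict C)) (hξ : Tst Ω ξ) :
    Integrable fun x => h x * ξ x := by
  have h1 : MemLp ξ 2 (volume.restrict (tsupport ξ)) :=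
    (hξ.sm.continuous.memLp_of_hasCompactSupport hξ.cpt).restrict _
  have h2 : IntegrableOn (fun x => h x * ξ x) (tsupport ξ) := (hh _ hξ.cpt hξ.sub).integrable_mul h1
  refine (integrableOn_iff_integrable_of_support_subset fun x hx => ?_).1 h2
  exact subset_tsupport _ (right_ne_zero_of_mul hx)

theorem p5a_bdd {κ y : E3 → ℝ} (hκ : LB Ω κ) (hy : MemLp y 2 volume) {C : Set E3} (hC : IsCompact C)
    (hs : C ⊆ Ω) : MemLp (fun x => κ x * y x) 2 (volume.restrict C) := by
  obtain ⟨M, hM⟩ := hκ.2 C hC hs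
  refine ((hy.restrict C).const_mul M).of_le (hκ.1.restrict.mul hy.1.restrict) ?_
  filter_upwards [(ae_restrict_iff' hC.measurableSet).2 hM] with x hx
  rw [Real.norm_eq_abs, Real.norm_eq_abs, abs_mul, abs_mul]
  exact mul_le_mul_of_nonneg_right (hx.trans (le_abs_self M)) (abs_nonneg _)

theorem p5a_ind {s : E3 → ℝ} (hs : MemLp (Ω.indicator s) 2 volume) {C : Set E3} (hC : IsCompact C)
    (hCΩ : C ⊆ Ω) : MemLp s 2 (volume.restrict C) := by
  refine (hs.restrict C).ae_eq ?_
  filter_upwards [ae_restrict_mem hC.measurableSet] with x hx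
  exact indicator_of_mem (hCΩ hx) s

theorem p5a_max {μ : Measure E3} {s : E3 → ℝ} (hs : MemLp s 2 μ) : MemLp (fun x => max (s x) 0) 2 μ := by
  refine hs.of_le (hs.1.aemeasurable.max aemeasurable_const).aestronglyMeasurable
    (Eventually.of_forall fun x => ?_)
  rw [Real.norm_eq_abs, Real.norm_eq_abs, abs_of_nonneg (le_max_right _ _)]
  exact max_le (le_abs_self _) (abs_nonneg _)

theorem p5a_dct {y F : E3 → ℝ} (hy : AEStronglyMeasurable y volume) (h0 : ∀ x, 0 ≤ y x) (hF : Integrable F) :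
    Tendsto (fun n : ℕ => ∫ x, y x / √(y x ^ 2 + (1 / ((n : ℝ) + 1)) ^ 2) * F x) atTop
      (𝓝 (∫ x, (if 0 < y x then 1 else 0) * F x)) := by
  refine tendsto_integral_of_dominated_convergence (fun x => ‖F x‖) (fun n => ?_) hF.norm
    (fun n => Eventually.of_forall fun x => ?_) (Eventually.of_forall fun x => ?_)
  · have := hy.aemeasurable
    exact (AEMeasurable.aestronglyMeasurable (by fun_prop)).mul hF.1
  · rw [norm_mul]
    exact mul_le_of_le_one_left (norm_nonneg _) (s4_div_le _ (le_add_of_nonneg_right (sq_nonneg _)))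
  · refine Tendsto.mul_const _ ?_
    split_ifs with hx
    · have h1 : Tendsto (fun n : ℕ => y x / √(y x ^ 2 + (1 / ((n : ℝ) + 1)) ^ 2)) atTop
          (𝓝 (y x / √(y x ^ 2 + 0 ^ 2))) := by
        refine tendsto_const_nhds.div
          ((tendsto_const_nhds.add (tendsto_one_div_add_atTop_nhds_zero_nat.pow 2)).sqrt) ?_
        positivity
      simpa [Real.sqrt_sq hx.le, hx.ne'] using h1
    · have : y x = 0 := le_antisymm (not_lt.1 hx) (h0 x)
      simp [this]

theorem p5a_ite {y F : E3 → ℝ} (hy : AEStronglyMeasurable y volume) (hF : Integrable F) :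
    Integrable fun x => (if 0 < y x then (1 : ℝ) else 0) * F x := by
  refine hF.bdd_mul (c := 1) ?_ (Eventually.of_forall fun x => ?_)
  · have h1 : Measurable fun t : ℝ => if 0 < t then (1 : ℝ) else 0 :=
      Measurable.ite measurableSet_Ioi measurable_const measurable_const
    exact (h1.comp_aemeasurable hy.aemeasurable).aestronglyMeasurable
  · split_ifs <;> simp

/-- linear form of the Kato inequality (`ε → 0`, then `TH.ext_le`) -/
theorem KI.subS (hΩ : IsOpen Ω) {y κ s : E3 → ℝ} {G : E3 → E3} (h : KI Ω y G κ s 0) :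
    SubS Ω κ (fun x => max (s x) 0) y G := by
  have l1 : ∀ C, IsCompact C → C ⊆ Ω → MemLp (fun x => κ x * y x - s x) 2 (volume.restrict C) :=
    fun C hC hs => (p5a_bdd h.bκ h.h1.mf hC hs).sub (p5a_ind h.ms hC hs)
  have l2 : ∀ C, IsCompact C → C ⊆ Ω → MemLp (fun x => κ x * y x - max (s x) 0) 2 (volume.restrict C) :=
    fun C hC hs => (p5a_bdd h.bκ h.h1.mf hC hs).sub (p5a_max (p5a_ind h.ms hC hs))
  have hy := h.h1.mf.1
  intro ξ K hξ hξ0
  have key := TH.ext_le hΩ (J := fun x => (1 / 2 : ℝ) • G x) (h := fun x => κ x * y x - max (s x) 0)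
    (fun C _ _ => (h.h1.mG.const_smul (1 / 2 : ℝ)).restrict C) l2 (fun φ hφ hφ0 => ?_) hξ hξ0
  · simpa only [real_inner_smul_left, integral_const_mul] using key
  simp only [real_inner_smul_left, integral_const_mul]
  have i1 : Integrable fun x => ⟪G x, ∇ φ x⟫ := h.h1.int_inner hφ.h1
  have i2 := p5a_int l1 hφ
  have i3 := p5a_int l2 hφ
  have lim := ((p5a_dct hy h.nn i1).const_mul (1 / 2)).add (p5a_dct hy h.nn i2)
  have le0 := le_of_tendsto' lim (b := 0) fun n => by
    have := h.le (1 / ((n : ℝ) + 1)) (by positivity) φ hφ hφ0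
    refine le_of_eq_of_le ?_ this
    congr 1
    refine integral_congr_ae (Eventually.of_forall fun x => ?_)
    simp only [Pi.zero_apply]
    ring
  have e1 : ∫ x, (if 0 < y x then 1 else 0) * ⟪G x, ∇ φ x⟫ = ∫ x, ⟪G x, ∇ φ x⟫ := by
    refine integral_congr_ae ?_
    filter_upwards [h.h1.level 0] with x hx
    split_ifs with h1
    · rw [one_mul]
    · simp [hx (le_antisymm (not_lt.1 h1) (h.nn x))]
  have e2 : ∫ x, (κ x * y x - max (s x) 0) * φ x ≤ ∫ x, (if 0 < y x then 1 else 0) * ((κ x * y x - s x) * φ x) := by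
    refine integral_mono i3 (p5a_ite hy i2) fun x => ?_
    have a1 := hφ0 x
    dsimp only
    split_ifs with h1
    · rw [one_mul]
      exact mul_le_mul_of_nonneg_right (by linarith [le_max_left (s x) 0]) a1
    · rw [le_antisymm (not_lt.1 h1) (h.nn x), zero_mul]
      exact mul_nonpos_of_nonpos_of_nonneg (by linarith [le_max_right (s x) 0]) a1
  rw [e1] at le0
  linarith

end Crest.Agent.R335
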