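import Crest.Agent.R335.P5a

/-!
# R335/P5: comparison with explicit barriers
-/

set_option autoImplicit false

namespace Crest.Agent.R335

open MeasureTheory Set Filter Topology
open scoped Gradient RealInnerProductSpace ENNReal ContDiff
open Crest.MathPhysics.ThreeBody

variable {Ω : Set E3}

theorem p5b_int {F : Type} [NormedAddCommGroup F] [InnerProductSpace ℝ F] {C : Set E3}
    (hC : MeasurableSet C) {a b : E3 → F} (ha : MemLp a 2 (volume.restrict C)) (hb : MemLp b 2 volume)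
    (h0 : ∀ᵐ x, x ∉ C → b x = 0) : Integrable fun x => ⟪a x, b x⟫ := by
  have h1 : IntegrableOn (fun x => ⟪a x, b x⟫) C :=
    (ha.norm.integrable_mul (hb.restrict C).norm).mono' (ha.1.inner (hb.restrict C).1)
      (Eventually.of_forall fun x => norm_inner_le_norm _ _)
  refine ((integrable_indicator_iff hC).2 h1).congr (h0.mono fun x hx => ?_)
  by_cases h : x ∈ C
  · simp [h]
  · simp [h, hx h]

theorem p5b_int' {C : Set E3} (hC : MeasurableSet C) {a b : E3 → ℝ} (ha : MemLp a 2 (volume.restrict C))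
    (hb : MemLp b 2 volume) (h0 : ∀ᵐ x, x ∉ C → b x = 0) : Integrable fun x => a x * b x := by
  simpa [mul_comm] using p5b_int hC ha hb h0

theorem p5b_lb {V : E3 → ℝ} (hV : LB Ω V) {C : Set E3} (hC : IsCompact C) (hs : C ⊆ Ω) :
    MemLp V ⊤ (volume.restrict C) := by
  obtain ⟨M, hM⟩ := hV.2 C hC hs
  exact memLp_top_of_bound hV.1.restrict M ((ae_restrict_iff' hC.measurableSet).2 hM)

theorem p5b_lap (hΩ : IsOpen Ω) {B : E3 → ℝ} (hB : ContDiffOn ℝ 2 B Ω) {C : Set E3} (hC : IsCompact C)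
    (hs : C ⊆ Ω) : MemLp (lap B) ⊤ (volume.restrict C) := by
  have h1 : ContDiffOn ℝ 1 (∇ B) Ω :=
    (InnerProductSpace.toDual ℝ E3).symm.toContinuousLinearEquiv.contDiff.comp_contDiffOn
      (hB.fderiv_of_isOpen hΩ (by norm_num))
  have h2 : ContinuousOn (lap B) C := by
    unfold lap R83.lap R83.dvg
    exact ContinuousOn.mono (continuousOn_finsetSum _ fun i _ =>
      (EuclideanSpace.proj i : E3 →L[ℝ] ℝ).continuous.comp_continuousOn
        ((h1.continuousOn_fderiv_of_isOpen hΩ le_rfl).clm_apply continuousOn_const)) hs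
  obtain ⟨M, hM⟩ := hC.exists_bound_of_continuousOn h2
  exact memLp_top_of_bound (h2.aestronglyMeasurable hC.measurableSet) M
    ((ae_restrict_iff' hC.measurableSet).2 (Eventually.of_forall hM))

theorem p5b_mul {f χ : E3 → ℝ} {G : E3 → E3} (hf : H1loc Ω f G) (hχ : ContDiff ℝ ∞ χ) :
    H1loc Ω (fun x => χ x * f x) fun x => χ x • G x + f x • ∇ χ x := fun φ hφ => by
  refine (hf (fun x => φ x * χ x) ⟨hφ.sm.mul hχ, hφ.cpt.mul_right,
    (tsupport_mul_subset_left).trans hφ.sub⟩).congr (Eventually.of_forall fun x => mul_assoc _ _ _)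
    (Eventually.of_forall fun x => ext_inner_right ℝ fun a => ?_)
  simp only [inner_add_left, real_inner_smul_left, inner_gradient_left]
  rw [fderiv_fun_mul (hφ.sm.differentiable (by simp) x) (hχ.differentiable (by simp) x)]
  simp
  ring

theorem p5b_step (hΩ : IsOpen Ω) {V f w B : E3 → ℝ} {G : E3 → E3} (hw : H1loc Ω w G) (hV : LB Ω V)
    (hf : LB Ω f) (h : SubS Ω V f w G) (hB : ContDiffOn ℝ 2 B Ω) {κ₀ : ℝ}
    (hV0 : ∀ᵐ x, x ∈ Ω → κ₀ ≤ V x)
    (hsup : ∀ᵐ x, x ∈ Ω → f x ≤ -(1 / 2) * lap B x + V x * B x) {A : Set E3} (hA : IsClosed A) (hAΩ : A ⊆ Ω)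
    (hout : ∀ᵐ x, x ∈ Ω → x ∉ A → w x ≤ B x) {p : E3 → ℝ}
    (hp : p = A.indicator fun x => max (w x - B x) 0) {χ : E3 → ℝ} (hχ : ContDiff ℝ ∞ χ)
    (hc : HasCompactSupport χ) {g : E3 → ℝ} (hg : Integrable g)
    (hle : ∀ x, κ₀ * (χ x * p x) ^ 2 - 1 / 2 * (‖∇ χ x‖ ^ 2 * p x ^ 2) = g x) : ∫ x, g x ≤ 0 := by
  have hB1 := H1loc.of_c1 hΩ (hB.of_le (by norm_num))
  have t1 := (p5b_mul ((hw.sub hB1).pos hΩ) hχ).th hΩ (hc.isCompact.inter_left hA)
    (inter_subset_left.trans hAΩ) (hout.mono fun x hx h1 h2 => by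
      by_cases h3 : x ∈ A
      · rw [image_eq_zero_of_notMem_tsupport fun h4 => h2 ⟨h3, h4⟩, zero_mul]
      · rw [max_eq_right (sub_nonpos.2 (hx h1 h3)), mul_zero])
  have t2 := t1.mul_c1 hΩ (hχ.of_le (by simp)).contDiffOn
  have e1 := h _ _ t2 (Eventually.of_forall fun x => by
    by_cases h1 : x ∈ Ω
    · simp only [indicator_of_mem h1, ← mul_assoc]
      exact mul_nonneg (mul_self_nonneg _) (le_max_right _ _)
    · simp [h1])
  have e2 := t2.green hΩ hB
  obtain ⟨C, hC, hCΩ, h0⟩ := t2.cpt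
  have : IsFiniteMeasure (volume.restrict C) := isFiniteMeasure_restrict.2 hC.measure_lt_top.ne
  have i1 := p5b_int hC.measurableSet (hw.memLp hΩ hC hCΩ).2 t2.h1.mG (h0.mono fun x hx h1 => (hx h1).2)
  have i2 := p5b_int hC.measurableSet (hB1.memLp hΩ hC hCΩ).2 t2.h1.mG (h0.mono fun x hx h1 => (hx h1).2)
  have i3 := p5b_int' (a := fun x => V x * w x - f x) hC.measurableSet
    (((hw.memLp hΩ hC hCΩ).1.mul' (p5b_lb hV hC hCΩ)).sub ((p5b_lb hf hC hCΩ).mono_exponent le_top))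
    t2.h1.mf (h0.mono fun x hx h1 => (hx h1).1)
  have i4 := p5b_int' hC.measurableSet ((p5b_lap hΩ hB hC hCΩ).mono_exponent le_top)
    t2.h1.mf (h0.mono fun x hx h1 => (hx h1).1)
  have i5 := (i1.const_mul (1 / 2)).add i3
  have i6 := (i2.add i4).const_mul (1 / 2)
  refine (integral_mono_ae hg (i5.sub i6) ?_).trans ?_
  · filter_upwards [hV0, hsup, hout] with x h1 h2 h3
    rw [← hle, hp]
    by_cases h4 : x ∈ Ω
    · simp only [Pi.sub_apply, Pi.add_apply, indicator_of_mem h4]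
      by_cases h5 : 0 < w x - B x
      · have h6 : x ∈ A := by_contra fun h6 => (sub_pos.1 h5).not_ge (h3 h4 h6)
        rw [indicator_of_mem h6, if_pos h5, max_eq_left h5.le]
        obtain ⟨U, hU⟩ : ∃ U, G x = U + ∇ B x := ⟨G x - ∇ B x, by abel⟩
        have k1 := norm_add_sq_real (χ x • U) ((w x - B x) • ∇ χ x)
        have k2 := mul_le_mul_of_nonneg_right (h1 h4) (sq_nonneg (χ x * (w x - B x)))
        have k3 := mul_le_mul_of_nonneg_right (h2 h4) (mul_nonneg (sq_nonneg (χ x)) h5.le)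
        simp only [hU, add_sub_cancel_right, inner_add_left, inner_add_right, real_inner_smul_left,
          real_inner_smul_right, norm_smul, mul_pow, Real.norm_eq_abs, sq_abs,
          real_inner_self_eq_norm_sq] at k1 k2 ⊢
        nlinarith [sq_nonneg ‖χ x • U + (w x - B x) • ∇ χ x‖]
      · have h6 : max (w x - B x) 0 = 0 := max_eq_right (not_lt.1 h5)
        have h7 : A.indicator (fun x => max (w x - B x) 0) x = 0 := by simp [indicator_apply, h6]
        rw [h7, if_neg h5, h6]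
        simp
    · simp [h4, indicator_of_notMem fun h5 => h4 (hAΩ h5)]
  · have k1 := integral_add (i1.const_mul (1 / 2)) i3
    have k2 := integral_add i2 i4
    refine (integral_sub i5 i6).trans_le ?_
    simp only [Pi.add_apply]
    rw [k1, integral_const_mul, integral_const_mul, k2, e2]
    linarith

/-- Comparison principle.  `w` is a subsolution, `B` a classical supersolution, the potential is at least `κ₀ > 0`.
Outside the closed set `A ⊆ Ω` the inequality is known.  Test with `χ_n² (w - B)₊`, `χ_n` from `exists_cut`;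
`(w - B)₊ ≤ |w| + (-B)₊ ∈ L²(A)`. -/
theorem cmp_sub (hΩ : IsOpen Ω) {V f w B : E3 → ℝ} {G : E3 → E3} (hw : H1loc Ω w G) (hV : LB Ω V) (hf : LB Ω f)
    (h : SubS Ω V f w G) (hB : ContDiffOn ℝ 2 B Ω) {κ₀ : ℝ} (hκ : 0 < κ₀) (hV0 : ∀ᵐ x, x ∈ Ω → κ₀ ≤ V x)
    (hsup : ∀ᵐ x, x ∈ Ω → f x ≤ -(1 / 2) * lap B x + V x * B x) {A : Set E3} (hA : IsClosed A) (hAΩ : A ⊆ Ω)
    (hout : ∀ᵐ x, x ∈ Ω → x ∉ A → w x ≤ B x)
    (hL2 : MemLp (A.indicator fun x => max (w x - B x) 0) 2 volume) : ∀ᵐ x, x ∈ Ω → w x ≤ B x := by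
  obtain ⟨p, hp⟩ : ∃ p, p = A.indicator fun x => max (w x - B x) 0 := ⟨_, rfl⟩
  rw [← hp] at hL2
  obtain ⟨M, hM, hcut⟩ := exists_cut (E := E3)
  choose χ h1 h2 h3 h4 using fun n : ℕ => hcut 0 (n + 1) n.cast_add_one_pos
  have i0 : Integrable fun x => p x ^ 2 := hL2.integrable_sq
  have m1 : ∀ n, AEStronglyMeasurable (fun x => κ₀ * (χ n x * p x) ^ 2 - 1 / 2 * (‖∇ (χ n) x‖ ^ 2 * p x ^ 2))
      volume := fun n =>
    ((((h1 n).sm.continuous.aestronglyMeasurable.mul hL2.1).pow 2).const_mul _).sub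
      ((((s1a_grad_cont ((h1 n).sm.of_le (by simp))).norm.pow 2).aestronglyMeasurable.mul i0.1).const_mul _)
  have b0 : ∀ n x, ‖∇ (χ n) x‖ ≤ M := fun n x =>
    (h4 n x).trans (div_le_self hM (le_add_of_nonneg_left n.cast_nonneg))
  have b1 : ∀ n, ∀ᵐ x, ‖κ₀ * (χ n x * p x) ^ 2 - 1 / 2 * (‖∇ (χ n) x‖ ^ 2 * p x ^ 2)‖ ≤
      (κ₀ + M ^ 2) * p x ^ 2 := fun n => Eventually.of_forall fun x => by
    have k1 := mul_le_mul_of_nonneg_right (pow_le_pow_left₀ (norm_nonneg _) (b0 n x) 2) (sq_nonneg (p x))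
    have k2 := mul_le_mul_of_nonneg_left (mul_le_of_le_one_left (sq_nonneg (p x))
      (pow_le_one₀ (n := 2) (h2 n x).1 (h2 n x).2)) hκ.le
    have k3 : 0 ≤ κ₀ * (χ n x ^ 2 * p x ^ 2) := by positivity
    have k4 : 0 ≤ ‖∇ (χ n) x‖ ^ 2 * p x ^ 2 := by positivity
    rw [Real.norm_eq_abs, mul_pow, add_mul, abs_le]
    constructor <;> linarith
  have l1 := tendsto_integral_of_dominated_convergence (f := fun x => κ₀ * p x ^ 2) _ m1
    (i0.const_mul _) b1 (Eventually.of_forall fun x => by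
      have k1 : Tendsto (fun n => χ n x) atTop (𝓝 1) := tendsto_const_nhds.congr' (by
        filter_upwards [eventually_ge_atTop ⌈‖x‖⌉₊] with n hn
        exact (h3 n x (mem_ball_zero_iff.2 (by linarith [Nat.ceil_le.1 hn]))).symm)
      have k2 : Tendsto (fun n => ‖∇ (χ n) x‖) atTop (𝓝 0) := squeeze_zero (fun _ => norm_nonneg _)
        (fun n => h4 n x) (tendsto_const_nhds.div_atTop
          (tendsto_atTop_add_const_right _ 1 tendsto_natCast_atTop_atTop))
      simpa using (((k1.mul_const (p x)).pow 2).const_mul κ₀).sub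
        (((k2.pow 2).mul_const (p x ^ 2)).const_mul 2⁻¹))
  have l2 := le_of_tendsto' l1 fun n => p5b_step hΩ hw hV hf h hB hV0 hsup hA hAΩ hout hp (h1 n).sm
    (h1 n).cpt ((i0.const_mul _).mono' (m1 n) (b1 n)) fun _ => rfl
  have l3 := (integral_eq_zero_iff_of_nonneg (fun x => mul_nonneg hκ.le (sq_nonneg (p x)))
    (i0.const_mul _)).1 (l2.antisymm (integral_nonneg fun x => mul_nonneg hκ.le (sq_nonneg (p x))))
  filter_upwards [l3, hout] with x k1 k2 k3
  by_cases k4 : x ∈ A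
  · have k5 : p x = 0 := by simpa [hκ.ne'] using k1
    rw [hp, indicator_of_mem k4] at k5
    exact sub_nonpos.1 ((le_max_left _ _).trans k5.le)
  · exact k2 k3 k4

end Crest.Agent.R335
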