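import Crest.Agent.R335.P5b

/-!
# R335/P5: comparison with explicit barriers
-/

set_option autoImplicit false

namespace Crest.Agent.R335

open MeasureTheory Set Filter Topology
open scoped Gradient RealInnerProductSpace ENNReal ContDiff
open Crest.MathPhysics.ThreeBody

variable {Ω : Set E3}

/-- locally square integrable -/
def p5c_L {F : Type} [NormedAddCommGroup F] (Ω : Set E3) (g : E3 → F) : Prop :=
  ∀ C, IsCompact C → C ⊆ Ω → MemLp g 2 (volume.restrict C)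

theorem p5c_fin {C : Set E3} (hC : IsCompact C) : IsFiniteMeasure ((volume : Measure E3).restrict C) :=
  ⟨by simpa using hC.measure_lt_top⟩

theorem p5c_L_cont {F : Type} [NormedAddCommGroup F] {g : E3 → F} (hg : ContinuousOn g Ω) : p5c_L Ω g := by
  intro C hC hs
  have := p5c_fin hC
  obtain ⟨M, hM⟩ := hC.exists_bound_of_continuousOn (hg.mono hs)
  exact MemLp.of_bound ((hg.mono hs).aestronglyMeasurable hC.measurableSet) M
    ((ae_restrict_iff' hC.measurableSet).2 (Eventually.of_forall hM))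

theorem p5c_L_LB {f : E3 → ℝ} (hf : LB Ω f) : p5c_L Ω f := by
  intro C hC hs
  have := p5c_fin hC
  obtain ⟨M, hM⟩ := hf.2 C hC hs
  exact MemLp.of_bound hf.1.restrict M ((ae_restrict_iff' hC.measurableSet).2 hM)

theorem p5c_L_mul {V g : E3 → ℝ} (hV : LB Ω V) (hg : p5c_L Ω g) : p5c_L Ω fun x => V x * g x := by
  intro C hC hs
  obtain ⟨M, hM⟩ := hV.2 C hC hs
  exact s5a_smul hV.1.restrict ((ae_restrict_iff' hC.measurableSet).2 hM) (hg C hC hs)

theorem p5c_L_sub {F : Type} [NormedAddCommGroup F] {f g : E3 → F} (hf : p5c_L Ω f) (hg : p5c_L Ω g) :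
    p5c_L Ω fun x => f x - g x := fun C hC hs => (hf C hC hs).sub (hg C hC hs)

theorem p5c_L_mono {F : Type} [NormedAddCommGroup F] {f : E3 → F} {Ω' : Set E3} (hf : p5c_L Ω f) (h : Ω' ⊆ Ω) :
    p5c_L Ω' f := fun C hC hs => hf C hC (hs.trans h)

theorem p5c_glob {F : Type} [NormedAddCommGroup F] {g : E3 → F} (hg : p5c_L Ω g) {D : Set E3} (hD : IsCompact D)
    (hs : D ⊆ Ω) (h0 : ∀ x, x ∉ D → g x = 0) : MemLp g 2 volume := by
  have h1 : MemLp (D.indicator g) 2 volume := (memLp_indicator_iff_restrict hD.measurableSet).2 (hg D hD hs)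
  have e : D.indicator g = g := by
    funext x
    by_cases hx : x ∈ D
    · exact indicator_of_mem hx _
    · rw [indicator_of_notMem hx, h0 x hx]
  rwa [e] at h1

theorem p5c_ii {J K : E3 → E3} (hJ : MemLp J 2 volume) (hK : MemLp K 2 volume) :
    Integrable fun x => ⟪J x, K x⟫ :=
  (hJ.norm.integrable_mul hK.norm).mono' (hJ.1.inner hK.1) (Eventually.of_forall fun _ => norm_inner_le_norm _ _)

theorem p5c_int_inner {J K : E3 → E3} {ξ : E3 → ℝ} (hJ : p5c_L Ω J) (hξ : TH Ω ξ K) :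
    Integrable fun x => ⟪J x, K x⟫ := by
  obtain ⟨C, hC, hs, h0⟩ := hξ.cpt
  have h1 : MemLp (C.indicator J) 2 volume := (memLp_indicator_iff_restrict hC.measurableSet).2 (hJ C hC hs)
  refine (p5c_ii h1 hξ.h1.mG).congr (h0.mono fun x hx => ?_)
  by_cases hxC : x ∈ C
  · simp [hxC]
  · simp [(hx hxC).2]

theorem p5c_int_mul {K : E3 → E3} {g ξ : E3 → ℝ} (hg : p5c_L Ω g) (hξ : TH Ω ξ K) :
    Integrable fun x => g x * ξ x := by
  obtain ⟨C, hC, hs, h0⟩ := hξ.cpt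
  have h1 : MemLp (C.indicator g) 2 volume := (memLp_indicator_iff_restrict hC.measurableSet).2 (hg C hC hs)
  refine (h1.integrable_mul hξ.h1.mf).congr (h0.mono fun x hx => ?_)
  by_cases hxC : x ∈ C
  · simp [hxC]
  · simp [(hx hxC).1]

theorem p5c_grad_cont (hΩ : IsOpen Ω) {B : E3 → ℝ} (hB : ContDiffOn ℝ 1 B Ω) : ContinuousOn (∇ B) Ω :=
  (InnerProductSpace.toDual ℝ E3).symm.continuous.comp_continuousOn
    (hB.continuousOn_fderiv_of_isOpen hΩ le_rfl)

theorem p5c_lap_cont (hΩ : IsOpen Ω) {B : E3 → ℝ} (hB : ContDiffOn ℝ 2 B Ω) : ContinuousOn (lap B) Ω := by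
  have h1 : ContDiffOn ℝ 1 (∇ B) Ω :=
    (InnerProductSpace.toDual ℝ E3).symm.toContinuousLinearEquiv.contDiff.comp_contDiffOn
      (hB.fderiv_of_isOpen (m := 1) hΩ (by norm_num))
  have h2 := h1.continuousOn_fderiv_of_isOpen hΩ le_rfl
  have h3 : ∀ i : Fin 3, ContinuousOn (fun x => fderiv ℝ (∇ B) x (Crest.Agent.R83.e i) i) Ω := fun i =>
    (EuclideanSpace.proj i : E3 →L[ℝ] ℝ).continuous.comp_continuousOn (h2.clm_apply continuousOn_const)
  exact continuousOn_finsetSum Finset.univ fun i _ => h3 i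

theorem p5c_open : IsOpen {x : E3 | 0 < x 2} :=
  isOpen_lt continuous_const (EuclideanSpace.proj (2 : Fin 3) : E3 →L[ℝ] ℝ).continuous

/-- the supersolution property in weak form, inside the half space -/
theorem p5c_green0 (hΩ : IsOpen Ω) {g B : E3 → ℝ} (hg : p5c_L Ω g) (hB : ContDiffOn ℝ 2 B Ω)
    (hsup : ∀ᵐ x, x ∈ Ω → g x ≤ -(1 / 2) * lap B x) {ξ : E3 → ℝ} {K : E3 → E3} (hξ : TH Ω ξ K)
    (h0 : ∀ᵐ x, 0 ≤ ξ x) : ∫ x, g x * ξ x ≤ (1 / 2) * ∫ x, ⟪∇ B x, K x⟫ := by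
  rw [hξ.green hΩ hB]
  have i1 := p5c_int_mul hg hξ
  have i2 := p5c_int_mul (p5c_L_cont (p5c_lap_cont hΩ hB)) hξ
  have e : (1 / 2 : ℝ) * -∫ x, lap B x * ξ x = ∫ x, -(1 / 2) * (lap B x * ξ x) := by
    rw [integral_const_mul]; ring
  rw [e]
  obtain ⟨C, -, hs, hC⟩ := hξ.cpt
  refine integral_mono_ae i1 (i2.const_mul _) ?_
  filter_upwards [hsup, h0, hC] with x h1 h2 h3
  by_cases hx : x ∈ C
  · have := mul_le_mul_of_nonneg_right (h1 (hs hx)) h2
    linarith
  · simp [(h3 hx).1]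

/-- the supersolution property in weak form, up to the plane -/
theorem p5c_green (hΩ : IsOpen Ω) {g B : E3 → ℝ} (hg : p5c_L Ω g) (hB1 : ContDiffOn ℝ 1 B Ω)
    (hB : ContDiffOn ℝ 2 B (Ω ∩ {x | 0 < x 2}))
    (hsup : ∀ᵐ x, x ∈ Ω → 0 < x 2 → g x ≤ -(1 / 2) * lap B x) {ξ : E3 → ℝ} {K : E3 → E3} (hξ : TH Ω ξ K)
    (h0 : ∀ᵐ x, 0 ≤ ξ x) (hz : ∀ᵐ x, x 2 ≤ 0 → ξ x = 0) :
    ∫ x, g x * ξ x ≤ (1 / 2) * ∫ x, ⟪∇ B x, K x⟫ := by
  obtain ⟨C, hC, hs, hC0⟩ := hξ.cpt
  obtain ⟨κ, hκ, hκ0, hκ1⟩ := exists_tst_one hΩ hC hs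
  obtain ⟨φ, X, hφ, t1, t2, hp⟩ := hξ.h1.half_dense 2 hz
  have hκc : ContDiff ℝ 1 κ := hκ.sm.of_le (by norm_cast)
  have hgB := p5c_grad_cont hΩ hB1
  have hLκ : LB Ω κ := ⟨hκc.continuous.aestronglyMeasurable, fun _ _ _ => ⟨1, Eventually.of_forall fun x _ =>
    abs_le.2 ⟨by linarith [(hκ0 x).1], (hκ0 x).2⟩⟩⟩
  have ma : MemLp (fun x => κ x • ∇ B x) 2 volume :=
    p5c_glob (p5c_L_cont (hκc.continuous.continuousOn.smul hgB)) hκ.cpt hκ.sub fun x hx => by
      simp [(s6a_out hx).1]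
  have mb : MemLp (fun x => ⟪∇ B x, ∇ κ x⟫) 2 volume :=
    p5c_glob (p5c_L_cont (hgB.inner (s1a_grad_cont hκc).continuousOn)) hκ.cpt hκ.sub fun x hx => by
      simp [(s6a_out hx).2]
  have mc : MemLp (fun x => κ x * g x) 2 volume :=
    p5c_glob (p5c_L_mul hLκ hg) hκ.cpt hκ.sub fun x hx => by simp [(s6a_out hx).1]
  have key : ∀ n, ∫ x, κ x * g x * φ n x ≤
      (1 / 2) * ((∫ x, ⟪κ x • ∇ B x, X n x⟫) + ∫ x, ⟪∇ B x, ∇ κ x⟫ * φ n x) := by
    intro n
    obtain ⟨D, hD, hDs, hD0⟩ := (hφ n).cpt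
    have hth : TH (Ω ∩ {x | 0 < x 2}) (fun x => κ x * φ n x) fun x => κ x • X n x + φ n x • ∇ κ x := by
      refine TH.of_h1 ((hφ n).h1.mul_c1_cpt hκc hκ.cpt) (hκ.cpt.isCompact.inter hD) (inter_subset_inter hκ.sub hDs) ?_
      filter_upwards [hD0] with x hx hx'
      by_cases h1 : x ∈ D
      · have h2 : x ∉ tsupport κ := fun h2 => hx' ⟨h2, h1⟩
        simp [(s6a_out h2).1]
      · simp [(hx h1).1]
    have := p5c_green0 (hΩ.inter p5c_open) (p5c_L_mono hg inter_subset_left) hB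
      (hsup.mono fun x hx hx' => hx hx'.1 hx'.2) hth
      ((hp h0 n).mono fun x hx => mul_nonneg (hκ0 x).1 hx)
    have ib : Integrable fun x => ⟪∇ B x, ∇ κ x⟫ * φ n x := mb.integrable_mul (hφ n).h1.mf
    have e1 : ∀ x, κ x * g x * φ n x = g x * (κ x * φ n x) := fun x => by ring
    have e2 : ∀ x, ⟪κ x • ∇ B x, X n x⟫ + ⟪∇ B x, ∇ κ x⟫ * φ n x = ⟪∇ B x, κ x • X n x + φ n x • ∇ κ x⟫ := by
      intro x
      simp only [inner_add_right, real_inner_smul_left, real_inner_smul_right]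
      ring
    rw [← integral_add (p5c_ii ma (hφ n).h1.mG) ib]
    simp only [e1, e2]
    exact this
  have l1 := s3a_tendsto_mul (fun _ => mc) (fun n => (hφ n).h1.mf) mc hξ.h1.mf (s3a_tendsto_const _) t1
  have l2 := s3a_tendsto_inner (fun _ => ma) (fun n => (hφ n).h1.mG) ma hξ.h1.mG (s3a_tendsto_const _) t2
  have l3 := s3a_tendsto_mul (fun _ => mb) (fun n => (hφ n).h1.mf) mb hξ.h1.mf (s3a_tendsto_const _) t1
  have := le_of_tendsto_of_tendsto' l1 ((l2.add l3).const_mul (1 / 2)) key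
  have e1 : ∫ x, κ x * g x * ξ x = ∫ x, g x * ξ x := by
    refine integral_congr_ae (hC0.mono fun x hx => ?_)
    by_cases h1 : x ∈ C
    · simp [(s6b_one hκ1 h1).1]
    · simp [(hx h1).1]
  have e2 : ∫ x, ⟪κ x • ∇ B x, K x⟫ = ∫ x, ⟪∇ B x, K x⟫ := by
    refine integral_congr_ae (hC0.mono fun x hx => ?_)
    by_cases h1 : x ∈ C
    · simp [(s6b_one hκ1 h1).1]
    · simp [(hx h1).2]
  have e3 : ∫ x, ⟪∇ B x, ∇ κ x⟫ * ξ x = 0 := by
    refine integral_eq_zero_of_ae (hC0.mono fun x hx => ?_)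
    by_cases h1 : x ∈ C
    · simp [(s6b_one hκ1 h1).2]
    · simp [(hx h1).1]
  rwa [e1, e2, e3, add_zero] at this

/-- the restriction of an odd function to the half space -/
theorem p5c_half (hΩ : IsOpen Ω) (hr : ∀ x ∈ Ω, refl x ∈ Ω) {w : E3 → ℝ} {G : E3 → E3} (hw : H1loc Ω w G)
    (hwo : ∀ᵐ x, x ∈ Ω → w (refl x) = -w x) :
    H1loc Ω ({x : E3 | 0 < x 2}.indicator w) ({x : E3 | 0 < x 2}.indicator G) := by
  intro φ hφ
  obtain ⟨T, -, hT, hT'⟩ := exists_refl_z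
  have hTT : ∀ x, T (T x) = x := fun x => by rw [hT (T x), ← hT' (T x), T.symm_apply_apply]
  have hTf : ∀ x j, T x j = if j = 2 then -x j else x j := by
    intro x j
    rw [hT]
    fin_cases j <;> simp [refl]
  have hC : IsCompact (tsupport φ ∪ T '' tsupport φ) := hφ.cpt.isCompact.union (hφ.cpt.isCompact.image T.continuous)
  have hs : tsupport φ ∪ T '' tsupport φ ⊆ Ω := by
    rintro x (hx | ⟨y, hy, rfl⟩)
    · exact hφ.sub hx
    · rw [hT]; exact hr y (hφ.sub hy)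
  obtain ⟨f', G', U, hf', hU, hCU, hUΩ, heq, -⟩ := hw.exists_h1 hΩ hC hs
  have h2 := (hf'.h1.sub (hf'.h1.comp_iso T)).const_mul (1 / 2)
  have hU' : IsOpen (U ∩ T ⁻¹' U) := hU.inter (hU.preimage T.continuous)
  have e1 : ∀ᵐ x, x ∈ U ∩ T ⁻¹' U → (1 / 2) * (f' x - f' (T x)) = f' x := by
    filter_upwards [hwo] with x hx hx'
    rw [(heq _ hx'.2).1, hT, hx (hUΩ hx'.1), (heq _ hx'.1).1]
    ring
  have e2 := h2.unique_on hf'.h1 hU' e1
  have h3 := h2.half 2 hTf (Eventually.of_forall fun x => by simp only [hTT]; ring)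
  have h4 := h3.mul_c1_cpt (hφ.sm.of_le (by norm_cast)) hφ.cpt
  have hin : ∀ x ∈ tsupport φ, x ∈ U ∩ T ⁻¹' U := fun x hx =>
    ⟨hCU (Or.inl hx), hCU (Or.inr ⟨x, hx, rfl⟩)⟩
  have e3 : ∀ᵐ x, x ∈ tsupport φ →
      {x : E3 | 0 < x 2}.indicator (fun x => (1 / 2) * (f' x - f' (T x))) x = {x : E3 | 0 < x 2}.indicator w x ∧
      {x : E3 | 0 < x 2}.indicator (fun x => (1 / 2 : ℝ) • (G' x - T.symm (G' (T x)))) x =
        {x : E3 | 0 < x 2}.indicator G x := by
    filter_upwards [e1, e2] with x h1 h2 hx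
    by_cases hz : x ∈ {x : E3 | 0 < x 2}
    · simp only [indicator_of_mem hz]
      rw [h1 (hin x hx), h2 (hin x hx)]
      exact heq x (hin x hx).1
    · simp only [indicator_of_notMem hz, and_self]
  refine h4.congr (e3.mono fun x hx => ?_) (e3.mono fun x hx => ?_)
  · by_cases h1 : x ∈ tsupport φ
    · simp only [(hx h1).1]
    · simp [(s6a_out h1).1]
  · by_cases h1 : x ∈ tsupport φ
    · simp only [(hx h1).1, (hx h1).2]
    · simp [(s6a_out h1).1, (s6a_out h1).2]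

theorem p5c_lower (hΩ : IsOpen Ω) {B : E3 → ℝ} (hB1 : ContDiffOn ℝ 1 B Ω) (hB0 : ∀ x ∈ Ω, x 2 = 0 → 0 ≤ B x)
    {D : Set E3} (hD : IsCompact D) (hs : D ⊆ Ω) : ∃ L : ℝ, ∀ x ∈ D, -(L * |x 2|) ≤ B x := by
  obtain ⟨δ, hδ, hδs⟩ := hD.exists_cthickening_subset_open hΩ hs
  obtain ⟨M, hM⟩ := (hD.cthickening (r := δ)).exists_bound_of_continuousOn
    ((hB1.continuousOn_fderiv_of_isOpen hΩ le_rfl).mono hδs)
  obtain ⟨M', hM'⟩ := hD.exists_bound_of_continuousOn (hB1.continuousOn.mono hs)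
  refine ⟨|M| + |M'| / δ, fun x hx => ?_⟩
  have a0 := abs_nonneg (x 2)
  have a1 : 0 ≤ |M'| / δ * |x 2| := by positivity
  have a2 : 0 ≤ |M| * |x 2| := by positivity
  by_cases hz : |x 2| ≤ δ
  · have hb : Metric.closedBall x δ ⊆ Metric.cthickening δ D := Metric.closedBall_subset_cthickening hx δ
    set y : E3 := x - EuclideanSpace.single 2 (x 2) with hy
    have hn : ‖x - y‖ = |x 2| := by simp [hy]
    have hyb : y ∈ Metric.closedBall x δ := by
      rw [Metric.mem_closedBall, dist_comm, dist_eq_norm, hn]; exact hz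
    have h1 := (convex_closedBall x δ).norm_image_sub_le_of_norm_fderiv_le (𝕜 := ℝ) (f := B) (C := |M|)
      (fun u hu => (hB1.contDiffAt (hΩ.mem_nhds (hδs (hb hu)))).differentiableAt (by norm_num))
      (fun u hu => (hM u (hb hu)).trans (le_abs_self M)) hyb (Metric.mem_closedBall_self hδ.le)
    rw [hn, Real.norm_eq_abs] at h1
    have h2 := hB0 y (hδs (hb hyb)) (by simp [hy])
    have h3 := (abs_le.1 h1).1
    nlinarith
  · have h1 := (abs_le.1 ((hM' x hx).trans (le_abs_self M'))).1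
    have h2 : |M'| ≤ |M'| / δ * |x 2| := by
      rw [div_mul_eq_mul_div, le_div_iff₀ hδ]
      exact mul_le_mul_of_nonneg_left (not_le.1 hz).le (abs_nonneg _)
    nlinarith

/-- the positive part of `w - B` on the half space, extended by zero -/
theorem p5c_pos (hΩ : IsOpen Ω) (hr : ∀ x ∈ Ω, refl x ∈ Ω) {w B : E3 → ℝ} {G : E3 → E3} (hw : H1loc Ω w G)
    (hB1 : ContDiffOn ℝ 1 B Ω) (hwo : ∀ᵐ x, x ∈ Ω → w (refl x) = -w x) (hB0 : ∀ x ∈ Ω, x 2 = 0 → 0 ≤ B x) :
    H1loc Ω ({x : E3 | 0 < x 2}.indicator fun x => max (w x - B x) 0)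
      ({x : E3 | 0 < x 2}.indicator fun x => if 0 < w x - B x then G x - ∇ B x else 0) := by
  refine H1loc.of_local hΩ fun a ha => ?_
  obtain ⟨r, hr0, hrs⟩ := Metric.nhds_basis_closedBall.mem_iff.1 (hΩ.mem_nhds ha)
  obtain ⟨L, hL⟩ := p5c_lower hΩ hB1 hB0 (isCompact_closedBall a r) hrs
  refine ⟨Metric.ball a r, Metric.isOpen_ball, Metric.mem_ball_self hr0, ?_⟩
  have hz : H1loc Ω (fun x : E3 => -x 2) (∇ fun x : E3 => -x 2) :=
    H1loc.of_c1 hΩ (EuclideanSpace.proj (2 : Fin 3) : E3 →L[ℝ] ℝ).contDiff.neg.contDiffOn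
  have h1 := ((((p5c_half hΩ hr hw hwo).sub (H1loc.of_c1 hΩ hB1)).sub ((hz.pos hΩ).const_mul L)).pos hΩ).mono
    (Metric.ball_subset_closedBall.trans hrs)
  refine h1.congr (Eventually.of_forall fun x hx => ?_)
  by_cases h2 : x ∈ {x : E3 | 0 < x 2}
  · have h3 : 0 < x 2 := h2
    have h4 : max (-x 2) 0 = 0 := max_eq_right (by linarith)
    have h5 : ¬0 < -x 2 := by linarith
    simp only [indicator_of_mem h2, h4, h5, if_false, mul_zero, sub_zero, smul_zero, and_self]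
  · have h3 : x 2 ≤ 0 := not_lt.1 h2
    have h4 : max (-x 2) 0 = -x 2 := max_eq_left (by linarith)
    have h5 := hL x (Metric.ball_subset_closedBall hx)
    rw [abs_of_nonpos h3] at h5
    have h6 : 0 - B x - L * -x 2 ≤ 0 := by linarith
    simp only [indicator_of_notMem h2, h4, max_eq_right h6, not_lt.2 h6, if_false, and_self]

/-- a function whose localised norms are small vanishes -/
theorem p5c_zero {n : E3 → ℝ} (hn : MemLp n 2 volume) {c : ℝ}
    (h : ∀ s : ℝ, 0 < s → ∫ x in Metric.ball (0 : E3) s, n x ^ 2 ≤ c / s ^ 2) : ∀ᵐ x, n x = 0 := by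
  have hi : Integrable fun x => n x ^ 2 := hn.integrable_sq
  have h1 : ∀ R : ℕ, ∀ᵐ x, x ∈ Metric.ball (0 : E3) R → n x = 0 := by
    intro R
    have h2 : ∫ x in Metric.ball (0 : E3) R, n x ^ 2 ≤ 0 := by
      have t : Tendsto (fun s : ℝ => c / s ^ 2) atTop (𝓝 0) :=
        tendsto_const_nhds.div_atTop (tendsto_pow_atTop two_ne_zero)
      refine ge_of_tendsto t ?_
      filter_upwards [eventually_gt_atTop (0 : ℝ), eventually_ge_atTop (R : ℝ)] with s hs hs'
      refine le_trans ?_ (h s hs)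
      exact setIntegral_mono_set hi.integrableOn (Eventually.of_forall fun x => sq_nonneg _)
        (Metric.ball_subset_ball hs').eventuallyLE
    have h3 := (setIntegral_eq_zero_iff_of_nonneg_ae (Eventually.of_forall fun x => sq_nonneg (n x))
      hi.integrableOn).1 (le_antisymm h2 (integral_nonneg fun x => sq_nonneg _))
    have h4 := (ae_restrict_iff' measurableSet_ball).1 h3
    filter_upwards [h4] with x hx hx'
    exact pow_eq_zero_iff two_ne_zero |>.1 (hx hx')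
  filter_upwards [ae_all_iff.2 h1] with x hx
  obtain ⟨R, hR⟩ := exists_nat_gt ‖x‖
  exact hx R (by simpa using hR)

theorem p5c_pt {a V κ₀ χ m : ℝ} {g d : E3} (hV : κ₀ ≤ V) (hd : ‖d‖ ≤ a) :
    κ₀ * (χ * m) ^ 2 - (1 / 2) * a ^ 2 * m ^ 2 ≤
      (1 / 2) * ⟪g, χ ^ 2 • g + (2 * χ * m) • d⟫ + V * m * (χ ^ 2 * m) := by
  have h1 : 0 ≤ ‖χ • g + m • d‖ ^ 2 := sq_nonneg _
  rw [norm_add_sq_real, norm_smul, norm_smul, real_inner_smul_left, real_inner_smul_right, mul_pow, mul_pow,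
    Real.norm_eq_abs, Real.norm_eq_abs, sq_abs, sq_abs] at h1
  rw [inner_add_right, real_inner_smul_right, real_inner_smul_right, real_inner_self_eq_norm_sq]
  have h2 : ‖d‖ ^ 2 ≤ a ^ 2 := pow_le_pow_left₀ (norm_nonneg _) hd 2
  have h3 := mul_le_mul_of_nonneg_left h2 (sq_nonneg m)
  have h4 := mul_le_mul_of_nonneg_right hV (sq_nonneg (χ * m))
  nlinarith

/-- The same on `Ω ∩ {z > 0}` for odd `w` and `B ≥ 0` on the plane: `A ⊆ Ω` may meet the plane.  Test with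
`χ² θ(z / ε) m`, `m = (w - B)₊`.  On the slab `0 < z < ε` one has `m ≤ |w| + C z`, so `‖m‖_{L²(slab)} ≤ C ε` by
`H1.thin` (for `κ w` with an even cut-off `κ`), while `‖∇ m‖_{L²(slab)} → 0`: the term with `∇ θ(z / ε)` tends to `0`. -/
theorem cmp_sub_odd (hΩ : IsOpen Ω) (hr : ∀ x ∈ Ω, refl x ∈ Ω) {V f w B : E3 → ℝ} {G : E3 → E3}
    (hw : H1loc Ω w G) (hV : LB Ω V) (hf : LB Ω f) (h : SubS Ω V f w G) (hB1 : ContDiffOn ℝ 1 B Ω)
    (hB : ContDiffOn ℝ 2 B (Ω ∩ {x | 0 < x 2})) (hwo : ∀ᵐ x, x ∈ Ω → w (refl x) = -w x)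
    (hB0 : ∀ x ∈ Ω, x 2 = 0 → 0 ≤ B x) {κ₀ : ℝ} (hκ : 0 < κ₀) (hV0 : ∀ᵐ x, x ∈ Ω → κ₀ ≤ V x)
    (hsup : ∀ᵐ x, x ∈ Ω → 0 < x 2 → f x ≤ -(1 / 2) * lap B x + V x * B x) {A : Set E3} (hA : IsClosed A)
    (hAΩ : A ⊆ Ω) (hout : ∀ᵐ x, x ∈ Ω → 0 < x 2 → x ∉ A → w x ≤ B x)
    (hL2 : MemLp (A.indicator fun x => max (w x - B x) 0) 2 (volume.restrict {x : E3 | 0 < x 2})) :
    ∀ᵐ x, x ∈ Ω → 0 < x 2 → w x ≤ B x := by
  have hH : MeasurableSet {x : E3 | 0 < x 2} := p5c_open.measurableSet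
  set n : E3 → ℝ := {x : E3 | 0 < x 2}.indicator (A.indicator fun x => max (w x - B x) 0) with hn
  set Gn : E3 → E3 := {x : E3 | 0 < x 2}.indicator
    (A.indicator fun x => if 0 < w x - B x then G x - ∇ B x else 0) with hGn
  have mn : MemLp n 2 volume := (memLp_indicator_iff_restrict hH).2 hL2
  have hcase : ∀ x, (n x = 0 ∧ Gn x = 0) ∨ (x ∈ A ∧ 0 < x 2 ∧ n x = w x - B x ∧ Gn x = G x - ∇ B x) := by
    intro x
    by_cases h1 : x ∈ {x : E3 | 0 < x 2}
    · by_cases h2 : x ∈ A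
      · by_cases h3 : 0 < w x - B x
        · refine Or.inr ⟨h2, h1, ?_, ?_⟩
          · simp only [hn, indicator_of_mem h1, indicator_of_mem h2, max_eq_left h3.le]
          · simp only [hGn, indicator_of_mem h1, indicator_of_mem h2, if_pos h3]
        · refine Or.inl ⟨?_, ?_⟩
          · simp only [hn, indicator_of_mem h1, indicator_of_mem h2, max_eq_right (not_lt.1 h3)]
          · simp only [hGn, indicator_of_mem h1, indicator_of_mem h2, if_neg h3]
      · exact Or.inl ⟨by simp only [hn, indicator_of_mem h1, indicator_of_notMem h2],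
          by simp only [hGn, indicator_of_mem h1, indicator_of_notMem h2]⟩
    · exact Or.inl ⟨by simp only [hn, indicator_of_notMem h1], by simp only [hGn, indicator_of_notMem h1]⟩
  have n0 : ∀ x, 0 ≤ n x := fun x =>
    indicator_nonneg (fun y _ => indicator_nonneg (fun _ _ => le_max_right _ _) y) x
  have hloc : H1loc Ω n Gn := by
    refine (p5c_pos hΩ hr hw hB1 hwo hB0).congr ?_
    filter_upwards [hout] with x hx hxΩ
    by_cases h1 : x ∈ {x : E3 | 0 < x 2}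
    · by_cases h2 : x ∈ A
      · simp only [hn, hGn, indicator_of_mem h1, indicator_of_mem h2, and_self]
      · have h3 : w x - B x ≤ 0 := sub_nonpos.2 (hx hxΩ h1 h2)
        simp only [hn, hGn, indicator_of_mem h1, indicator_of_notMem h2, max_eq_right h3, not_lt.2 h3, if_false,
          and_self]
    · simp only [hn, hGn, indicator_of_notMem h1, and_self]
  have Lw : p5c_L Ω w := fun C hC hs => (hw.memLp hΩ hC hs).1
  have LG : p5c_L Ω G := fun C hC hs => (hw.memLp hΩ hC hs).2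
  have LB' : p5c_L Ω B := p5c_L_cont hB1.continuousOn
  have LgB : p5c_L Ω (∇ B) := p5c_L_cont (p5c_grad_cont hΩ hB1)
  have Lg : p5c_L Ω fun x => f x - V x * B x := p5c_L_sub (p5c_L_LB hf) (p5c_L_mul hV LB')
  have Lg' : p5c_L Ω fun x => V x * w x - f x := p5c_L_sub (p5c_L_mul hV Lw) (p5c_L_LB hf)
  obtain ⟨M, hM0, hM⟩ := exists_cut (E := E3)
  have hi : Integrable fun x => n x ^ 2 := mn.integrable_sq
  have hz : ∀ᵐ x, n x = 0 := by
    refine p5c_zero mn (c := (1 / 2) * M ^ 2 * (∫ x, n x ^ 2) / κ₀) fun s hs => ?_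
    obtain ⟨χ, hχ, hχ0, hχ1, hχ2⟩ := hM 0 s hs
    have hC : IsCompact (Metric.closedBall (0 : E3) (2 * s) ∩ A) := (isCompact_closedBall _ _).inter_right hA
    have hCs : Metric.closedBall (0 : E3) (2 * s) ∩ A ⊆ Ω := inter_subset_right.trans hAΩ
    obtain ⟨κ, hκt, -, hκ1⟩ := exists_tst_one hΩ hC hCs
    have hχc : ContDiff ℝ 1 χ := hχ.sm.of_le (by norm_cast)
    have hχa : ∀ x, |χ x| ≤ 1 := fun x => abs_le.2 ⟨by linarith [(hχ0 x).1], (hχ0 x).2⟩
    have h1 := s5b_h1 (hloc κ hκt) hχc (M := max 1 (M / s)) (fun x => (hχa x).trans (le_max_left _ _))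
      fun x => (hχ2 x).trans (le_max_right _ _)
    have hout' : ∀ x, x ∉ Metric.closedBall (0 : E3) (2 * s) ∩ A → χ x = 0 ∨ (n x = 0 ∧ Gn x = 0) := by
      intro x hx
      rcases hcase x with h2 | h2
      · exact Or.inr h2
      · exact Or.inl (s6a_out fun h3 => hx ⟨hχ.sub h3, h2.1⟩).1
    have h2 : H1 (fun x => χ x ^ 2 * n x) fun x => χ x ^ 2 • Gn x + (2 * χ x * n x) • ∇ χ x := by
      refine h1.congr (Eventually.of_forall fun x => ?_) (Eventually.of_forall fun x => ?_)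
      · by_cases hx : x ∈ Metric.closedBall (0 : E3) (2 * s) ∩ A
        · simp [(s6b_one hκ1 hx).1]
        · rcases hout' x hx with h3 | h3
          · simp [h3]
          · simp [h3.1]
      · by_cases hx : x ∈ Metric.closedBall (0 : E3) (2 * s) ∩ A
        · simp [(s6b_one hκ1 hx).1, (s6b_one hκ1 hx).2]
        · rcases hout' x hx with h3 | h3
          · simp [h3]
          · simp [h3.1, h3.2]
    have hth : TH Ω (fun x => χ x ^ 2 * n x) fun x => χ x ^ 2 • Gn x + (2 * χ x * n x) • ∇ χ x := by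
      refine TH.of_h1 h2 hC hCs (Eventually.of_forall fun x hx => ?_)
      rcases hout' x hx with h3 | h3
      · simp [h3]
      · simp [h3.1]
    have hp : ∀ᵐ x, 0 ≤ χ x ^ 2 * n x := Eventually.of_forall fun x => mul_nonneg (sq_nonneg _) (n0 x)
    have k1 := h _ _ hth hp
    have k2 := p5c_green hΩ Lg hB1 hB (hsup.mono fun x hx h3 h4 => by linarith [hx h3 h4]) hth hp
      (Eventually.of_forall fun x hx => by
        rcases hcase x with h3 | h3
        · simp [h3.1]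
        · exact absurd h3.2.1 (not_lt.2 hx))
    have i1 := p5c_int_inner LG hth
    have i2 := p5c_int_inner LgB hth
    have i3 := p5c_int_mul Lg' hth
    have i4 := p5c_int_mul Lg hth
    have mχ : MemLp (fun x => χ x * n x) 2 volume :=
      s5a_smul hχc.continuous.aestronglyMeasurable (Eventually.of_forall hχa) mn
    have i5 : Integrable fun x => (χ x * n x) ^ 2 := mχ.integrable_sq
    have k3 := integral_mono_ae ((i5.const_mul κ₀).sub (hi.const_mul ((1 / 2) * (M / s) ^ 2)))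
      (((i1.const_mul (1 / 2)).add i3).add (i4.sub (i2.const_mul (1 / 2)))) (by
        filter_upwards [hV0] with x hx
        simp only [Pi.sub_apply, Pi.add_apply]
        rcases hcase x with h3 | h3
        · simp [h3.1, h3.2]
        · have h4 := p5c_pt (χ := χ x) (m := n x) (g := Gn x) (hx (hAΩ h3.1)) (hχ2 x)
          have h5 : ∀ K : E3, ⟪Gn x, K⟫ = ⟪G x, K⟫ - ⟪∇ B x, K⟫ := fun K => by rw [h3.2.2.2, inner_sub_left]
          rw [h5] at h4
          have h6 : V x * n x * (χ x ^ 2 * n x) = (V x * w x - f x) * (χ x ^ 2 * n x) +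
              (f x - V x * B x) * (χ x ^ 2 * n x) := by
            rw [← add_mul]
            congr 1
            rw [h3.2.2.1]
            ring
          linarith)
    rw [integral_sub' (i5.const_mul _) (hi.const_mul _), integral_add' ((i1.const_mul _).add i3)
      (i4.sub (i2.const_mul _)), integral_add' (i1.const_mul _) i3, integral_sub' i4 (i2.const_mul _)] at k3
    simp only [integral_const_mul] at k3
    have k4 : ∫ x in Metric.ball (0 : E3) s, n x ^ 2 ≤ ∫ x, (χ x * n x) ^ 2 := by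
      refine le_trans (le_of_eq ?_) (setIntegral_le_integral (s := Metric.ball (0 : E3) s) i5
        (Eventually.of_forall fun x => sq_nonneg _))
      refine setIntegral_congr_fun measurableSet_ball fun x hx => ?_
      simp [hχ1 x hx]
    have k5 : κ₀ * ∫ x in Metric.ball (0 : E3) s, n x ^ 2 ≤ (1 / 2) * (M / s) ^ 2 * ∫ x, n x ^ 2 := by
      have := mul_le_mul_of_nonneg_left k4 hκ.le
      linarith
    rw [div_div, le_div_iff₀ (by positivity)]
    have k6 := mul_le_mul_of_nonneg_right k5 (sq_nonneg s)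
    have e : (1 / 2) * (M / s) ^ 2 * (∫ x, n x ^ 2) * s ^ 2 = (1 / 2) * M ^ 2 * ∫ x, n x ^ 2 := by
      field_simp
    linarith
  filter_upwards [hz, hout] with x h1 h2 hxΩ hx
  by_cases h3 : x ∈ A
  · have h4 : x ∈ {x : E3 | 0 < x 2} := hx
    simp only [hn, indicator_of_mem h4, indicator_of_mem h3] at h1
    have := le_max_left (w x - B x) 0
    linarith
  · exact h2 hxΩ hx h3

end Crest.Agent.R335
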