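import Crest.Agent.R335.P5c
import Crest.Agent.R83.Tst

/-!
# R335/P5: comparison with explicit barriers
-/

set_option autoImplicit false

namespace Crest.Agent.R335

open MeasureTheory Set Filter Topology
open scoped Gradient RealInnerProductSpace ENNReal ContDiff
open Crest.MathPhysics.ThreeBody

variable {Ω : Set E3}

theorem p5d_lap (hΩ : IsOpen Ω) {B : E3 → ℝ} (hB : ContDiffOn ℝ 2 B Ω) : ContinuousOn (lap B) Ω := by
  have h := (R83.contDiffOn_grad hΩ hB).continuousOn_fderiv_of_isOpen hΩ le_rfl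
  unfold lap R83.lap R83.dvg
  refine continuousOn_finsetSum _ fun i _ => ?_
  exact (EuclideanSpace.proj i : E3 →L[ℝ] ℝ).continuous.comp_continuousOn (h.clm_apply continuousOn_const)

theorem p5d_ind {F : Type} [NormedAddCommGroup F] {a : E3 → F} (ha : ContinuousOn a Ω) {C : Set E3}
    (hC : IsCompact C) (hs : C ⊆ Ω) : MemLp (C.indicator a) 2 volume := by
  rw [memLp_indicator_iff_restrict hC.measurableSet]
  obtain ⟨M, hM⟩ := hC.exists_bound_of_continuousOn (ha.mono hs)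
  have : IsFiniteMeasure (volume.restrict C) := isFiniteMeasure_restrict.2 hC.measure_lt_top.ne
  exact MemLp.of_bound ((ha.mono hs).aestronglyMeasurable_of_isCompact hC hC.measurableSet) M
    ((ae_restrict_iff' hC.measurableSet).2 (Eventually.of_forall hM))

theorem p5d_mul {f χ : E3 → ℝ} {G : E3 → E3} (hf : H1loc Ω f G) (hχ : ContDiff ℝ ∞ χ) :
    H1loc Ω (fun x => χ x * f x) fun x => χ x • G x + f x • ∇ χ x := by
  intro φ hφ
  have h1 : Tst Ω fun x => φ x * χ x :=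
    ⟨hφ.sm.mul hχ, hφ.cpt.mul_right, (tsupport_mul_subset_left).trans hφ.sub⟩
  refine (hf _ h1).congr (ae_of_all _ fun x => by ring) (ae_of_all _ fun x => ?_)
  simp only
  rw [R83.grad_mul (hφ.sm.differentiable (by simp) x) (hχ.differentiable (by simp) x)]
  module

theorem p5d_theta {a ε : ℝ} (ha : 0 ≤ a) (hε : 0 < ε) :
    0 ≤ a / √(a ^ 2 + ε ^ 2) ∧ a / √(a ^ 2 + ε ^ 2) ≤ 1 ∧ ε ≤ √(a ^ 2 + ε ^ 2) := by
  have h0 : 0 < √(a ^ 2 + ε ^ 2) := Real.sqrt_pos.2 (by positivity)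
  refine ⟨by positivity, (div_le_one h0).2 (Real.le_sqrt_of_sq_le (by nlinarith)),
    Real.le_sqrt_of_sq_le (by nlinarith)⟩

theorem p5d_mθ {y : E3 → ℝ} {μ : Measure E3} (hy : AEStronglyMeasurable y μ) (ε : ℝ) :
    AEMeasurable (fun x => √(y x ^ 2 + ε ^ 2)) μ :=
  ((hy.aemeasurable.pow_const 2).add_const _).sqrt

/-- the limit `ε → 0` -/
theorem p5d_lim {y Φ : E3 → ℝ} (hy : AEStronglyMeasurable y volume) (h0 : ∀ x, 0 ≤ y x) (hΦ : Integrable Φ)
    (hz : ∀ x, y x = 0 → Φ x = 0) (h : ∀ ε : ℝ, 0 < ε → ∫ x, y x / √(y x ^ 2 + ε ^ 2) * Φ x ≤ 0) :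
    ∫ x, Φ x ≤ 0 := by
  have hε : ∀ n : ℕ, (0 : ℝ) < 1 / ((n : ℝ) + 1) := fun n => by positivity
  have hε0 : Tendsto (fun n : ℕ => 1 / ((n : ℝ) + 1)) atTop (𝓝 0) := tendsto_one_div_add_atTop_nhds_zero_nat
  refine le_of_tendsto' (tendsto_integral_of_dominated_convergence
    (F := fun (n : ℕ) x => y x / √(y x ^ 2 + (1 / ((n : ℝ) + 1)) ^ 2) * Φ x) (fun x => ‖Φ x‖)
    (fun n => ((hy.aemeasurable.div (p5d_mθ hy _)).aestronglyMeasurable.mul hΦ.1)) hΦ.norm
    (fun n => Eventually.of_forall fun x => ?_) (Eventually.of_forall fun x => ?_)) fun n => h _ (hε n)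
  · obtain ⟨a1, a2, -⟩ := p5d_theta (h0 x) (hε n)
    rw [norm_mul, Real.norm_of_nonneg a1]
    exact mul_le_of_le_one_left (norm_nonneg _) a2
  · rcases (h0 x).eq_or_lt with hx | hx
    · simp [hz x hx.symm]
    · have h1 : Tendsto (fun n : ℕ => √(y x ^ 2 + (1 / ((n : ℝ) + 1)) ^ 2)) atTop (𝓝 (√(y x ^ 2 + 0 ^ 2))) :=
        (tendsto_const_nhds.add (hε0.pow 2)).sqrt
      have h2 : √(y x ^ 2 + 0 ^ 2) = y x := by simp [Real.sqrt_sq hx.le]
      rw [h2] at h1
      have h3 := ((tendsto_const_nhds (x := y x)).div h1 hx.ne').mul_const (Φ x)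
      rwa [div_self hx.ne', one_mul] at h3

theorem p5d_h (hΩ : IsOpen Ω) {y κ s t : E3 → ℝ} {G : E3 → E3} (h : KI Ω y G κ s t) (ht : Bl Ω t) {ε : ℝ}
    (hε : 0 < ε) {C : Set E3} (hC : IsCompact C) (hs : C ⊆ Ω) :
    MemLp (fun x => (κ x * y x ^ 2 - s x * y x - t x ^ 2) / √(y x ^ 2 + ε ^ 2)) 2 (volume.restrict C) := by
  obtain ⟨M, hM⟩ := h.bκ.2 C hC hs
  obtain ⟨N, hN⟩ := ht C hC hs
  have hy : MemLp y 2 (volume.restrict C) := h.h1.mf.restrict C
  have hs' : MemLp s 2 (volume.restrict C) :=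
    ((memLp_indicator_iff_restrict hΩ.measurableSet).1 h.ms).mono_measure (Measure.restrict_mono hs le_rfl)
  have ht' : MemLp t 2 (volume.restrict C) :=
    ((memLp_indicator_iff_restrict hΩ.measurableSet).1 h.mt).mono_measure (Measure.restrict_mono hs le_rfl)
  have hb : MemLp (fun x => M * ‖y x‖ + ‖s x‖ + N / ε * ‖t x‖) 2 (volume.restrict C) :=
    ((hy.norm.const_mul M).add hs'.norm).add (ht'.norm.const_mul _)
  refine hb.of_le ?_ ?_
  · exact ((((h.bκ.1.restrict.aemeasurable.mul (hy.1.aemeasurable.pow_const 2)).sub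
      (hs'.1.aemeasurable.mul hy.1.aemeasurable)).sub (ht'.1.aemeasurable.pow_const 2)).div
      (p5d_mθ hy.1 ε)).aestronglyMeasurable
  · filter_upwards [(ae_restrict_iff' hC.measurableSet).2 hM, (ae_restrict_iff' hC.measurableSet).2 hN]
      with x h1 h2
    obtain ⟨a1, a2, a3⟩ := p5d_theta (h.nn x) hε
    refine le_trans ?_ (le_abs_self _)
    set r := √(y x ^ 2 + ε ^ 2) with hr
    have hr0 : 0 < r := hε.trans_le a3
    have e : (κ x * y x ^ 2 - s x * y x - t x ^ 2) / r =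
        y x / r * (κ x * y x) - y x / r * s x - t x * t x / r := by
      field_simp
    have b1 : |y x / r * (κ x * y x)| ≤ M * |y x| := by
      rw [abs_mul, abs_mul, abs_of_nonneg a1]
      exact (mul_le_of_le_one_left (by positivity) a2).trans (mul_le_mul_of_nonneg_right h1 (abs_nonneg _))
    have b2 : |y x / r * s x| ≤ |s x| := by
      rw [abs_mul, abs_of_nonneg a1]
      exact mul_le_of_le_one_left (abs_nonneg _) a2
    have b3 : |t x * t x / r| ≤ N / ε * |t x| := by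
      rw [abs_div, abs_mul, abs_of_pos hr0, div_mul_eq_mul_div]
      exact div_le_div₀ (mul_nonneg ((abs_nonneg _).trans h2) (abs_nonneg _))
        (mul_le_mul_of_nonneg_right h2 (abs_nonneg _)) hε a3
    simp only [Real.norm_eq_abs]
    rw [e]
    obtain ⟨c1, d1⟩ := abs_le.1 b1
    obtain ⟨c2, d2⟩ := abs_le.1 b2
    obtain ⟨c3, d3⟩ := abs_le.1 b3
    exact abs_le.2 ⟨by linarith, by linarith⟩

/-- the Kato inequality for `TH` test functions -/
theorem p5d_ext (hΩ : IsOpen Ω) {y κ s t : E3 → ℝ} {G : E3 → E3} (h : KI Ω y G κ s t) (ht : Bl Ω t) {ε : ℝ}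
    (hε : 0 < ε) {ξ : E3 → ℝ} {K : E3 → E3} (hξ : TH Ω ξ K) (h0 : ∀ᵐ x, 0 ≤ ξ x) :
    (∫ x, y x / √(y x ^ 2 + ε ^ 2) * (1 / 2 * ⟪G x, K x⟫)) +
      ∫ x, (κ x * y x ^ 2 - s x * y x - t x ^ 2) / √(y x ^ 2 + ε ^ 2) * ξ x ≤ 0 := by
  have h1 := TH.ext_le hΩ (J := fun x => (1 / 2 * (y x / √(y x ^ 2 + ε ^ 2))) • G x)
    (h := fun x => (κ x * y x ^ 2 - s x * y x - t x ^ 2) / √(y x ^ 2 + ε ^ 2)) (fun C _ _ => ?_)
    (fun C hC hs => p5d_h hΩ h ht hε hC hs) (fun φ hφ hφ0 => ?_) hξ h0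
  · refine le_trans (le_of_eq ?_) h1
    congr 2
    funext x
    rw [real_inner_smul_left]
    ring
  · refine MemLp.restrict C (h.h1.mG.of_le ?_ (Eventually.of_forall fun x => ?_))
    · exact ((h.h1.mf.1.aemeasurable.div (p5d_mθ h.h1.mf.1 ε)).const_mul _).aestronglyMeasurable.smul h.h1.mG.1
    · obtain ⟨a1, a2, -⟩ := p5d_theta (h.nn x) hε
      rw [norm_smul, Real.norm_of_nonneg (by positivity)]
      exact mul_le_of_le_one_left (norm_nonneg _) (by linarith)
  · refine le_trans (le_of_eq ?_) (h.le ε hε φ hφ hφ0)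
    rw [← integral_const_mul]
    congr 2
    · funext x
      rw [real_inner_smul_left]
      ring
    · funext x
      ring

theorem p5d_m (hΩ : IsOpen Ω) {y B : E3 → ℝ} (hy : MemLp y 2 volume) (hB : ContinuousOn B Ω)
    (hB0 : ∀ x ∈ Ω, 0 < B x) : MemLp (Ω.indicator fun x => max (y x - B x) 0) 2 volume := by
  refine hy.of_le ?_ (Eventually.of_forall fun x => ?_)
  · rw [aestronglyMeasurable_indicator_iff hΩ.measurableSet]
    exact ((hy.1.restrict.sub (hB.aestronglyMeasurable hΩ.measurableSet)).aemeasurable.max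
      aemeasurable_const).aestronglyMeasurable
  · by_cases hx : x ∈ Ω
    · rw [indicator_of_mem hx, Real.norm_of_nonneg (le_max_right _ _), Real.norm_eq_abs]
      exact max_le (by linarith [le_abs_self (y x), hB0 x hx]) (abs_nonneg _)
    · rw [indicator_of_notMem hx, norm_zero]
      exact norm_nonneg _

theorem p5d_alg (c p : ℝ) (u v : E3) : -(‖v‖ ^ 2 * p ^ 2) ≤ ⟪u, c ^ 2 • u + p • (2 * c) • v⟫ := by
  have h : 0 ≤ ‖c • u + p • v‖ ^ 2 := sq_nonneg _
  rw [norm_add_sq_real, norm_smul, norm_smul, mul_pow, mul_pow, Real.norm_eq_abs, Real.norm_eq_abs, sq_abs, sq_abs,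
    real_inner_smul_left, real_inner_smul_right] at h
  rw [inner_add_right, real_inner_smul_right, real_inner_smul_right, real_inner_smul_right,
    real_inner_self_eq_norm_sq]
  linarith

/-- the Caccioppoli inequality for `(y - B)₊` -/
theorem p5d_step (hΩ : IsOpen Ω) {y κ s t B : E3 → ℝ} {G : E3 → E3} (h : KI Ω y G κ s t) (ht : Bl Ω t)
    (hB : ContDiffOn ℝ 2 B Ω) (hB0 : ∀ x ∈ Ω, 0 < B x) {κ' : E3 → ℝ} {κ₀ : ℝ}
    (hV0 : ∀ᵐ x, x ∈ Ω → κ₀ ≤ κ' x ∧ κ' x ≤ κ x ∧ t x ^ 2 ≤ (κ x - κ' x) * B x ^ 2)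
    (hsup : ∀ᵐ x, x ∈ Ω → s x ≤ -(1 / 2) * lap B x + κ' x * B x) {A : Set E3} (hA : IsClosed A) (hAΩ : A ⊆ Ω)
    (hout : ∀ᵐ x, x ∈ Ω → x ∉ A → y x ≤ B x) {χ : E3 → ℝ} (hχ : Tst univ χ) {N : ℝ} (hN : ∀ x, ‖∇ χ x‖ ≤ N) :
    κ₀ * ∫ x, χ x ^ 2 * (Ω.indicator (fun x => max (y x - B x) 0) x) ^ 2 ≤
      1 / 2 * N ^ 2 * ∫ x, (Ω.indicator (fun x => max (y x - B x) 0) x) ^ 2 := by
  have hB1 : ContDiffOn ℝ 1 B Ω := hB.of_le (by norm_num)
  have hm := p5d_m hΩ h.h1.mf hB.continuousOn hB0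
  have hp := ((h.h1.loc Ω).sub (H1loc.of_c1 hΩ hB1)).pos hΩ
  set p : E3 → ℝ := fun x => max (y x - B x) 0 with hpdef
  set Kp : E3 → E3 := fun x => if 0 < y x - B x then G x - ∇ B x else 0 with hKp
  have hq := p5d_mul hp (hχ.sm.pow 2)
  have hg2 : ∀ x, ∇ (fun x => χ x ^ 2) x = (2 * χ x) • ∇ χ x := fun x => by
    have := R83.grad_comp (f := χ) (x := x) (hasDerivAt_pow 2 (χ x)) (hχ.sm.differentiable (by simp) x)
    simpa using this
  simp only [hg2] at hq
  have hT := hq.th hΩ (hχ.cpt.inter_left hA) (inter_subset_left.trans hAΩ) (by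
    filter_upwards [hout] with x hx hxΩ hxC
    by_cases hxA : x ∈ A
    · rw [image_eq_zero_of_notMem_tsupport fun h' => hxC ⟨hxA, h'⟩]
      simp
    · have : p x = 0 := max_eq_right (by linarith [hx hxΩ hxA])
      rw [this, mul_zero])
  set ξ : E3 → ℝ := Ω.indicator fun x => χ x ^ 2 * p x with hξ
  set K : E3 → E3 := Ω.indicator fun x => χ x ^ 2 • Kp x + p x • (2 * χ x) • ∇ χ x with hK
  have hξ0 : ∀ x, 0 ≤ ξ x := fun x =>
    indicator_nonneg (fun x _ => mul_nonneg (sq_nonneg _) (le_max_right _ _)) x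
  obtain ⟨C, hC, hCΩ, hz⟩ := hT.cpt
  have hpC : MemLp (C.indicator p) 2 volume :=
    (memLp_indicator_iff_restrict hC.measurableSet).2 (hp.memLp hΩ hC hCΩ).1
  have hlC := p5d_ind (p5d_lap hΩ hB) hC hCΩ
  have hgC := p5d_ind (R83.continuousOn_grad hΩ hB1) hC hCΩ
  have i1 : Integrable fun x => 1 / 2 * ⟪G x, K x⟫ := (h.h1.int_inner hT.h1).const_mul _
  have i2 : Integrable fun x => (κ₀ * C.indicator p x + 1 / 2 * C.indicator (lap B) x) * ξ x :=
    ((hpC.const_mul κ₀).add (hlC.const_mul _)).integrable_mul hT.h1.mf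
  have i3 : Integrable fun x => ⟪C.indicator (∇ B) x, K x⟫ :=
    (hgC.norm.integrable_mul hT.h1.mG.norm).mono' (hgC.1.inner hT.h1.mG.1)
      (Eventually.of_forall fun x => norm_inner_le_norm _ _)
  have i4 : Integrable fun x => C.indicator (lap B) x * ξ x := hlC.integrable_mul hT.h1.mf
  have hzero : ∀ x, ¬ 0 < y x - B x → ξ x = 0 ∧ K x = 0 := fun x hx => by
    have e1 : p x = 0 := max_eq_right (not_lt.1 hx)
    have e2 : Kp x = 0 := if_neg hx
    by_cases hxΩ : x ∈ Ω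
    · simp [hξ, hK, indicator_of_mem hxΩ, e1, e2]
    · simp [hξ, hK, indicator_of_notMem hxΩ]
  have main : ∫ x, (1 / 2 * ⟪G x, K x⟫ + (κ₀ * C.indicator p x + 1 / 2 * C.indicator (lap B) x) * ξ x) ≤ 0 := by
    refine p5d_lim h.h1.mf.1 h.nn (i1.add i2) (fun x hx => ?_) fun ε hε => ?_
    · by_cases hxΩ : x ∈ Ω
      · obtain ⟨e1, e2⟩ := hzero x (by linarith [hB0 x hxΩ])
        simp [e1, e2]
      · simp [hξ, hK, indicator_of_notMem hxΩ]
    · have hθm : AEStronglyMeasurable (fun x => y x / √(y x ^ 2 + ε ^ 2)) volume :=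
        (h.h1.mf.1.aemeasurable.div (p5d_mθ h.h1.mf.1 ε)).aestronglyMeasurable
      have hθb : ∀ᵐ x, ‖y x / √(y x ^ 2 + ε ^ 2)‖ ≤ 1 := Eventually.of_forall fun x => by
        obtain ⟨a1, a2, -⟩ := p5d_theta (h.nn x) hε
        rwa [Real.norm_of_nonneg a1]
      have j1 := i1.bdd_mul hθm hθb
      have j2 := i2.bdd_mul hθm hθb
      have j3 : Integrable fun x => (κ x * y x ^ 2 - s x * y x - t x ^ 2) / √(y x ^ 2 + ε ^ 2) * ξ x := by
        refine (((memLp_indicator_iff_restrict hC.measurableSet).2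
          (p5d_h hΩ h ht hε hC hCΩ)).integrable_mul hT.h1.mf).congr ?_
        filter_upwards [hz] with x hx
        by_cases hxC : x ∈ C
        · simp [indicator_of_mem hxC]
        · simp [(hx hxC).1]
      refine le_trans ?_ (p5d_ext hΩ h ht hε hT (Eventually.of_forall hξ0))
      simp only [mul_add (y _ / _)]
      rw [integral_add j1 j2]
      refine add_le_add le_rfl (integral_mono_ae j2 j3 ?_)
      filter_upwards [hz, hV0, hsup] with x hx h1 h2
      by_cases hxC : x ∈ C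
      · by_cases hy : 0 < y x - B x
        · obtain ⟨k1, k2, k3⟩ := h1 (hCΩ hxC)
          have k4 := h2 (hCΩ hxC)
          have k5 := hB0 x (hCΩ hxC)
          have e1 : p x = y x - B x := max_eq_left hy.le
          obtain ⟨-, -, a3⟩ := p5d_theta (h.nn x) hε
          rw [indicator_of_mem hxC, indicator_of_mem hxC, e1, ← mul_assoc, div_mul_eq_mul_div]
          refine mul_le_mul_of_nonneg_right (div_le_div_of_nonneg_right ?_ (hε.le.trans a3)) (hξ0 x)
          have k6 : B x ^ 2 ≤ y x ^ 2 := pow_le_pow_left₀ k5.le (by linarith) 2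
          have k7 := mul_le_mul_of_nonneg_left k6 (sub_nonneg.2 k2)
          have k8 : κ₀ * (y x - B x) + 1 / 2 * lap B x ≤ κ' x * y x - s x := by
            have := mul_le_mul_of_nonneg_right k1 hy.le
            linarith
          have k9 := mul_le_mul_of_nonneg_left k8 (h.nn x)
          linarith
        · simp [(hzero x hy).1]
      · simp [(hx hxC).1]
  have green : ∫ x, ⟪C.indicator (∇ B) x, K x⟫ = -∫ x, C.indicator (lap B) x * ξ x := by
    have e1 : ∫ x, ⟪C.indicator (∇ B) x, K x⟫ = ∫ x, ⟪∇ B x, K x⟫ := by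
      refine integral_congr_ae ?_
      filter_upwards [hz] with x hx
      by_cases hxC : x ∈ C
      · rw [indicator_of_mem hxC]
      · simp [(hx hxC).2]
    have e2 : ∫ x, C.indicator (lap B) x * ξ x = ∫ x, lap B x * ξ x := by
      refine integral_congr_ae ?_
      filter_upwards [hz] with x hx
      by_cases hxC : x ∈ C
      · rw [indicator_of_mem hxC]
      · simp [(hx hxC).1]
    rw [e1, e2, hT.green hΩ hB]
  obtain ⟨Mχ, hMχ⟩ := hχ.sm.continuous.bounded_above_of_compact_support hχ.cpt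
  have i5 : Integrable fun x => χ x ^ 2 * (Ω.indicator p x) ^ 2 :=
    hm.integrable_sq.bdd_mul (c := Mχ ^ 2) (hχ.sm.continuous.pow 2).aestronglyMeasurable
      (Eventually.of_forall fun x => by
        rw [norm_pow]
        exact pow_le_pow_left₀ (norm_nonneg _) (hMχ x) 2)
  have last : ∫ x, (κ₀ * (χ x ^ 2 * (Ω.indicator p x) ^ 2) - 1 / 2 * N ^ 2 * (Ω.indicator p x) ^ 2) ≤
      ∫ x, ((1 / 2 * ⟪G x, K x⟫ + (κ₀ * C.indicator p x + 1 / 2 * C.indicator (lap B) x) * ξ x) -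
        1 / 2 * (⟪C.indicator (∇ B) x, K x⟫ + C.indicator (lap B) x * ξ x)) := by
    refine integral_mono_ae ((i5.const_mul _).sub (hm.integrable_sq.const_mul _))
      ((i1.add i2).sub ((i3.add i4).const_mul _)) ?_
    filter_upwards [hz] with x hx
    have hn : 0 ≤ 1 / 2 * N ^ 2 * (Ω.indicator p x) ^ 2 := by positivity
    have e0 : χ x ^ 2 * (Ω.indicator p x) ^ 2 = ξ x * Ω.indicator p x := by
      by_cases hxΩ : x ∈ Ω
      · rw [hξ, indicator_of_mem hxΩ, indicator_of_mem hxΩ]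
        ring
      · simp [indicator_of_notMem hxΩ]
    by_cases hxC : x ∈ C
    · by_cases hy : 0 < y x - B x
      · have hxΩ := hCΩ hxC
        have e2 : K x = χ x ^ 2 • (G x - ∇ B x) + p x • (2 * χ x) • ∇ χ x := by
          rw [hK, indicator_of_mem hxΩ, hKp]
          simp only [if_pos hy]
        have k1 := p5d_alg (χ x) (p x) (G x - ∇ B x) (∇ χ x)
        rw [← e2, inner_sub_left] at k1
        have k2 : ‖∇ χ x‖ ^ 2 * p x ^ 2 ≤ N ^ 2 * p x ^ 2 :=
          mul_le_mul_of_nonneg_right (pow_le_pow_left₀ (norm_nonneg _) (hN x) 2) (sq_nonneg _)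
        rw [e0]
        simp only [indicator_of_mem hxC, indicator_of_mem hxΩ]
        linarith
      · rw [e0, (hzero x hy).1, (hzero x hy).2]
        simp only [inner_zero_right]
        linarith
    · rw [e0, (hx hxC).1, (hx hxC).2]
      simp only [inner_zero_right]
      linarith
  have i12 : Integrable fun x =>
      1 / 2 * ⟪G x, K x⟫ + (κ₀ * C.indicator p x + 1 / 2 * C.indicator (lap B) x) * ξ x := i1.add i2
  have i34 : Integrable fun x => 1 / 2 * (⟪C.indicator (∇ B) x, K x⟫ + C.indicator (lap B) x * ξ x) :=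
    (i3.add i4).const_mul _
  rw [integral_sub (i5.const_mul _) (hm.integrable_sq.const_mul _), integral_const_mul, integral_const_mul,
    integral_sub i12 i34, integral_const_mul, integral_add i3 i4, green] at last
  linarith

/-- Comparison for `KI` with a quadratic source: on `{y > B}` one has `t² / y ≤ κ y / 2`.  (Extend `KI.le` to `TH`
test functions by `TH.ext_le`, test with `χ_n² (y - B)₊`, let `ε → 0`.) -/
theorem KI.cmp (hΩ : IsOpen Ω) {y κ s t B : E3 → ℝ} {G : E3 → E3} (h : KI Ω y G κ s t) (hs : Bl Ω s) (ht : Bl Ω t)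
    (hB : ContDiffOn ℝ 2 B Ω) (hB0 : ∀ x ∈ Ω, 0 < B x) {κ' : E3 → ℝ} (hκ' : LB Ω κ') {κ₀ : ℝ} (hκ : 0 < κ₀)
    (hV0 : ∀ᵐ x, x ∈ Ω → κ₀ ≤ κ' x ∧ κ' x ≤ κ x ∧ t x ^ 2 ≤ (κ x - κ' x) * B x ^ 2)
    (hsup : ∀ᵐ x, x ∈ Ω → s x ≤ -(1 / 2) * lap B x + κ' x * B x) {A : Set E3} (hA : IsClosed A) (hAΩ : A ⊆ Ω)
    (hout : ∀ᵐ x, x ∈ Ω → x ∉ A → y x ≤ B x) : ∀ᵐ x, x ∈ Ω → y x ≤ B x := by
  have hm := p5d_m hΩ h.h1.mf hB.continuousOn hB0
  have step := fun (χ : E3 → ℝ) (hχ : Tst univ χ) (N : ℝ) (hN : ∀ x, ‖∇ χ x‖ ≤ N) =>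
    p5d_step hΩ h ht hB hB0 hV0 hsup hA hAΩ hout hχ hN
  set m : E3 → ℝ := Ω.indicator fun x => max (y x - B x) 0 with hmdef
  obtain ⟨M, hM0, hM⟩ := exists_cut (E := E3)
  have hI := hm.integrable_sq
  have key : ∀ R : ℕ, ∀ᵐ x, x ∈ Metric.ball (0 : E3) R → m x ^ 2 = 0 := by
    intro R
    have h1 : κ₀ * ∫ x in Metric.ball (0 : E3) R, m x ^ 2 ≤ 0 := by
      have hl : Tendsto (fun r : ℝ => 1 / 2 * (M / r) ^ 2 * ∫ x, m x ^ 2) atTop
          (𝓝 (1 / 2 * 0 ^ 2 * ∫ x, m x ^ 2)) :=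
        (((tendsto_const_nhds.div_atTop tendsto_id).pow 2).const_mul _).mul_const _
      rw [show 1 / 2 * (0 : ℝ) ^ 2 * ∫ x, m x ^ 2 = 0 by simp] at hl
      refine ge_of_tendsto hl ?_
      filter_upwards [eventually_gt_atTop (0 : ℝ), eventually_ge_atTop (R : ℝ)] with r hr hR
      obtain ⟨χ, hχ, h01, h1, h2⟩ := hM 0 r hr
      refine le_trans (mul_le_mul_of_nonneg_left ?_ hκ.le) (step χ ⟨hχ.sm, hχ.cpt, subset_univ _⟩ _ h2)
      rw [← integral_indicator Metric.isOpen_ball.measurableSet]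
      refine integral_mono (hI.indicator Metric.isOpen_ball.measurableSet)
        (hI.bdd_mul (c := 1) (hχ.sm.continuous.pow 2).aestronglyMeasurable (Eventually.of_forall fun x => ?_))
        fun x => ?_
      · rw [Real.norm_of_nonneg (sq_nonneg _)]
        exact pow_le_one₀ (h01 x).1 (h01 x).2
      · by_cases hx : x ∈ Metric.ball (0 : E3) R
        · simp [indicator_of_mem hx, h1 x (Metric.ball_subset_ball hR hx)]
        · rw [indicator_of_notMem hx]
          positivity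
    have h2 : ∫ x in Metric.ball (0 : E3) R, m x ^ 2 = 0 :=
      le_antisymm (nonpos_of_mul_nonpos_right h1 hκ) (integral_nonneg fun x => sq_nonneg _)
    have h3 := (integral_eq_zero_iff_of_nonneg (fun x => sq_nonneg (m x)) hI.integrableOn).1 h2
    exact (ae_restrict_iff' Metric.isOpen_ball.measurableSet).1 h3
  filter_upwards [ae_all_iff.2 key] with x hx hxΩ
  obtain ⟨R, hR⟩ := exists_nat_gt ‖x‖
  have h1 := pow_eq_zero_iff (two_ne_zero) |>.1 (hx R (mem_ball_zero_iff.2 hR))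
  rw [hmdef, indicator_of_mem hxΩ] at h1
  linarith [le_max_left (y x - B x) 0]

end Crest.Agent.R335
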