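import Crest.Agent.R335.P6a

/-!
# R335/P6: local sup bounds for bounded coefficients (`‖x - ·‖⁻¹ ∈ L²(ball)`)
-/

set_option autoImplicit false

namespace Crest.Agent.R335

open MeasureTheory Set Filter Topology
open scoped Gradient RealInnerProductSpace ENNReal ContDiff
open Crest.MathPhysics.ThreeBody

theorem p6_lap (c0 c1 c2 b0 b1 b2 d : ℝ) (x : E3) :
    lap (fun y : E3 => c0 * (y 0 * y 0) + c1 * (y 1 * y 1) + c2 * (y 2 * y 2) + b0 * y 0 + b1 * y 1 + b2 * y 2 + d) x =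
      2 * (c0 + c1 + c2) := by
  let L : E3 →L[ℝ] E3 := ((2 * c0) • EuclideanSpace.proj (𝕜 := ℝ) (0 : Fin 3)).smulRight (R83.e 0) +
    ((2 * c1) • EuclideanSpace.proj (𝕜 := ℝ) (1 : Fin 3)).smulRight (R83.e 1) +
    ((2 * c2) • EuclideanSpace.proj (𝕜 := ℝ) (2 : Fin 3)).smulRight (R83.e 2)
  let v : E3 := b0 • R83.e 0 + b1 • R83.e 1 + b2 • R83.e 2
  have e1 : ∇ (fun y : E3 => c0 * (y 0 * y 0) + c1 * (y 1 * y 1) + c2 * (y 2 * y 2) + b0 * y 0 + b1 * y 1 +
      b2 * y 2 + d) = fun y => L y + v := by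
    funext y
    rw [R83.grad_add (by fun_prop) (by fun_prop), R83.grad_add (by fun_prop) (by fun_prop),
      R83.grad_add (by fun_prop) (by fun_prop), R83.grad_add (by fun_prop) (by fun_prop),
      R83.grad_add (by fun_prop) (by fun_prop), R83.grad_add (by fun_prop) (by fun_prop),
      R83.grad_const_mul _ (by fun_prop), R83.grad_const_mul _ (by fun_prop), R83.grad_const_mul _ (by fun_prop),
      R83.grad_const_mul _ (by fun_prop), R83.grad_const_mul _ (by fun_prop), R83.grad_const_mul _ (by fun_prop),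
      R83.grad_mul (by fun_prop) (by fun_prop), R83.grad_mul (by fun_prop) (by fun_prop),
      R83.grad_mul (by fun_prop) (by fun_prop), gradient_fun_const]
    simp only [R83.grad_coord, L, v, ContinuousLinearMap.add_apply, ContinuousLinearMap.smulRight_apply,
      ContinuousLinearMap.smul_apply, PiLp.proj_apply, smul_eq_mul]
    module
  rw [lap, R83.lap, R83.dvg, e1, fderiv_add_const, L.fderiv, Fin.sum_univ_three]
  simp [L]
  ring

theorem p6_int {Ω : Set E3} {ξ g : E3 → ℝ} {K : E3 → E3} (hξ : TH Ω ξ K)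
    (hg : ∀ C, IsCompact C → C ⊆ Ω → AEStronglyMeasurable g (volume.restrict C)) {L : ℝ}
    (hb : ∀ᵐ x, x ∈ Ω → |g x| ≤ L) : Integrable fun x => g x * ξ x := by
  obtain ⟨C, hC, hCΩ, h0⟩ := hξ.cpt
  haveI : IsFiniteMeasure (volume.restrict C) := isFiniteMeasure_restrict.2 hC.measure_lt_top.ne
  have h1 : Integrable ξ (volume.restrict C) := (hξ.h1.mf.restrict C).integrable (by norm_num)
  have h2 : IntegrableOn (fun x => g x * ξ x) C := by
    refine h1.bdd_mul (c := L) (hg C hC hCΩ) ?_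
    filter_upwards [ae_restrict_of_ae hb, ae_restrict_mem hC.measurableSet] with x hx hxC
    exact hx (hCΩ hxC)
  refine h2.integrable_of_ae_notMem_eq_zero ?_
  filter_upwards [h0] with x hx hxC
  rw [(hx hxC).1, mul_zero]

/-- one sided bound on the upper half of a unit ball -/
theorem p6_ball {M N p q : ℝ} (hM : 0 ≤ M) (hN : 0 ≤ N) {V f w : E3 → ℝ} {G : E3 → E3}
    (hw : H1loc (Metric.ball (!₂[p, q, 0] : E3) 1) w G) (hV : AEStronglyMeasurable V volume)
    (hf : AEStronglyMeasurable f volume)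
    (hb : ∀ᵐ x, x ∈ Metric.ball (!₂[p, q, 0] : E3) 1 → |V x| ≤ M ∧ |w x| ≤ N ∧ |f x| ≤ N ∧ w (refl x) = -w x)
    (he : EqS (Metric.ball (!₂[p, q, 0] : E3) 1) V f w G) :
    ∀ᵐ x, x ∈ Metric.ball (!₂[p, q, 0] : E3) 1 → 0 < x 2 →
      w x ≤ N * (2 * (M + 14) * x 2 + 4 * ‖x - !₂[p, q, 0]‖ ^ 2) := by
  set a : E3 := !₂[p, q, 0] with ha
  have hn : ∀ x : E3, ‖x - a‖ ^ 2 = (x 0 - p) ^ 2 + (x 1 - q) ^ 2 + x 2 ^ 2 := by
    intro x
    rw [EuclideanSpace.real_norm_sq_eq, Fin.sum_univ_three]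
    simp [ha]
  have hz : ∀ x ∈ Metric.ball a 1, |x 2| < 1 := by
    intro x hx
    rw [mem_ball_iff_norm] at hx
    have h1 := hn x
    have h2 : ‖x - a‖ ^ 2 < 1 := by nlinarith [norm_nonneg (x - a)]
    rw [← sq_lt_one_iff_abs_lt_one]
    nlinarith [sq_nonneg (x 0 - p), sq_nonneg (x 1 - q)]
  set B : E3 → ℝ := fun y => 4 * N * (y 0 * y 0) + 4 * N * (y 1 * y 1) + (4 * N - N * (M + 14)) * (y 2 * y 2) +
    -(8 * N * p) * y 0 + -(8 * N * q) * y 1 + 2 * N * (M + 14) * y 2 + 4 * N * (p ^ 2 + q ^ 2) with hB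
  have hBe : ∀ y, B y = N * ((M + 14) * (y 2 * (2 - y 2)) + 4 * ‖y - a‖ ^ 2) := by
    intro y; rw [hn, hB]; ring
  have hBl : ∀ y, lap B y = 2 * (4 * N + 4 * N + (4 * N - N * (M + 14))) := fun y => p6_lap _ _ _ _ _ _ _ y
  have hBc : ContDiff ℝ 2 B := by rw [hB]; fun_prop
  have hB0 : ∀ y ∈ Metric.ball a 1, 0 ≤ y 2 → 4 * N * ‖y - a‖ ^ 2 ≤ B y := by
    intro y hy h0
    have h1 := (abs_lt.1 (hz y hy)).2
    have : 0 ≤ N * ((M + 14) * (y 2 * (2 - y 2))) :=
      mul_nonneg hN (mul_nonneg (by linarith) (mul_nonneg h0 (by linarith)))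
    rw [hBe]; nlinarith
  have hwm : ∀ C, IsCompact C → C ⊆ Metric.ball a 1 → AEStronglyMeasurable w (volume.restrict C) :=
    fun C hC hs => (hw.memLp Metric.isOpen_ball hC hs).1.aestronglyMeasurable
  have hsub : SubS (Metric.ball a 1) (fun _ => 1) (fun _ => N * (M + 2)) w G := by
    intro ξ K hξ h0
    have e := he ξ K hξ
    have i1 : Integrable fun x => (1 * w x - N * (M + 2)) * ξ x := by
      refine p6_int hξ (fun C hC hs => ((hwm C hC hs).const_mul 1).sub aestronglyMeasurable_const)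
        (L := N + N * (M + 2)) ?_
      filter_upwards [hb] with x hx hxΩ
      obtain ⟨-, h2, -⟩ := hx hxΩ
      have : 0 ≤ N * (M + 2) := by positivity
      rw [abs_le] at h2 ⊢
      constructor <;> linarith [h2.1, h2.2]
    have hVw : ∀ᵐ x, x ∈ Metric.ball a 1 → |V x * w x| ≤ M * N := by
      filter_upwards [hb] with x hx hxΩ
      obtain ⟨h1, h2, -⟩ := hx hxΩ
      rw [abs_mul]
      exact mul_le_mul h1 h2 (abs_nonneg _) hM
    have i2 : Integrable fun x => (V x * w x - f x) * ξ x := by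
      refine p6_int hξ (fun C hC hs => (hV.restrict.mul (hwm C hC hs)).sub hf.restrict) (L := M * N + N) ?_
      filter_upwards [hb, hVw] with x hx h4 hxΩ
      obtain ⟨-, -, h3, -⟩ := hx hxΩ
      exact (abs_sub _ _).trans (add_le_add (h4 hxΩ) h3)
    have : ∫ x, (1 * w x - N * (M + 2)) * ξ x ≤ ∫ x, (V x * w x - f x) * ξ x := by
      refine integral_mono_ae i1 i2 ?_
      obtain ⟨C, -, hCΩ, hC0⟩ := hξ.cpt
      filter_upwards [hb, hVw, h0, hC0] with x hx h4 h5 h6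
      by_cases hxC : x ∈ C
      · obtain ⟨-, h2, h3, -⟩ := hx (hCΩ hxC)
        have h4 := h4 (hCΩ hxC)
        rw [abs_le] at h2 h3 h4
        refine mul_le_mul_of_nonneg_right ?_ h5
        nlinarith [h2.2, h3.2, h4.1]
      · simp only [(h6 hxC).1, mul_zero, le_refl]
    linarith
  have hA : IsCompact (Metric.closedBall a (1 / 2)) := isCompact_closedBall _ _
  have hAΩ : Metric.closedBall a (1 / 2) ⊆ Metric.ball a 1 := Metric.closedBall_subset_ball (by norm_num)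
  have key := cmp_sub_odd (Ω := Metric.ball a 1) Metric.isOpen_ball (B := B) (κ₀ := 1)
    (A := Metric.closedBall a (1 / 2)) ?_ hw
    ⟨aestronglyMeasurable_const, fun _ _ _ => ⟨|1|, Eventually.of_forall fun _ _ => le_rfl⟩⟩
    ⟨aestronglyMeasurable_const, fun _ _ _ => ⟨|N * (M + 2)|, Eventually.of_forall fun _ _ => le_rfl⟩⟩ hsub
    (hBc.of_le (by norm_num)).contDiffOn hBc.contDiffOn ?_ ?_ one_pos (Eventually.of_forall fun _ _ => le_rfl) ?_
    hA.isClosed hAΩ ?_ ?_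
  · filter_upwards [key] with x hx hxΩ h0
    refine (hx hxΩ h0).trans ?_
    rw [hBe]
    refine mul_le_mul_of_nonneg_left ?_ hN
    have : 0 ≤ (M + 14) * (x 2 * x 2) := by positivity
    nlinarith
  · intro x hx
    rw [mem_ball_iff_norm] at hx ⊢
    have h1 := hn x
    have h2 := hn (refl x)
    have h3 : ‖refl x - a‖ ^ 2 = ‖x - a‖ ^ 2 := by
      rw [h1, h2]; simp [refl]
    rwa [(pow_left_inj₀ (norm_nonneg _) (norm_nonneg _) two_ne_zero).1 h3]
  · filter_upwards [hb] with x hx hxΩ using (hx hxΩ).2.2.2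
  · intro x hx h0
    exact le_trans (by positivity) (hB0 x hx h0.ge)
  · refine Eventually.of_forall fun x hx h0 => ?_
    have h1 : 0 ≤ B x := le_trans (by positivity) (hB0 x hx h0.le)
    rw [hBl]
    nlinarith
  · filter_upwards [hb] with x hx hxΩ h0 hxA
    have h1 := hB0 x hxΩ h0.le
    have h2 := (abs_le.1 (hx hxΩ).2.1).2
    rw [mem_closedBall_iff_norm, not_le] at hxA
    have h3 : 1 / 4 ≤ ‖x - a‖ ^ 2 := by nlinarith
    nlinarith
  · refine MemLp.restrict _ ?_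
    rw [memLp_indicator_iff_restrict hA.measurableSet]
    exact ((hw.memLp Metric.isOpen_ball hA hAΩ).1.sub ((H1loc.of_c1 Metric.isOpen_ball
      (hBc.of_le (by norm_num)).contDiffOn).memLp Metric.isOpen_ball hA hAΩ).1).pos_part

/-- odd solutions with bounded right hand side are Lipschitz at the plane.  Write the equation as
`-Δ w / 2 + w = f - V w + w`.  For a rational point `a'` of the plane near `a` apply `cmp_sub_odd` to `± w` on the cylinder
`Ω = {‖x_h - a'‖ < 1, |z| < 1}`, `A = {‖x_h - a'‖ ≤ 1/2, |z| ≤ 1/2}`, with `B = N ((M + 10) z (2 - z) + 4 ‖x_h - a'‖²)`;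
for a given `x` choose `a'` with `‖x_h - a'‖² ≤ z`. -/
theorem lip_odd (M : ℝ) : ∃ C : ℝ, 0 ≤ C ∧ ∀ (a : E3) (V f w : E3 → ℝ) (G : E3 → E3) (N : ℝ), a 2 = 0 →
    H1loc (Metric.ball a 2) w G → AEStronglyMeasurable V volume → AEStronglyMeasurable f volume →
    (∀ᵐ x, x ∈ Metric.ball a 2 → |V x| ≤ M ∧ |w x| ≤ N ∧ |f x| ≤ N ∧ w (refl x) = -w x) →
    EqS (Metric.ball a 2) V f w G → ∀ᵐ x, x ∈ Metric.ball a (1 / 2) → |w x| ≤ C * N * |x 2| := by
  refine ⟨2 * (|M| + 14) + 4, by positivity, fun a V f w G N ha hw hV hf hb he => ?_⟩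
  rcases lt_or_ge N 0 with hN | hN
  · filter_upwards [hb] with x hx hxa
    have := (hx (Metric.ball_subset_ball (by norm_num) hxa)).2.1
    linarith [abs_nonneg (w x)]
  obtain ⟨T, -, hT, -⟩ := exists_refl_z
  have hsub : ∀ p q : ℝ, ‖(!₂[p, q, 0] : E3) - a‖ ≤ 1 →
      Metric.ball (!₂[p, q, 0] : E3) 1 ⊆ Metric.ball a 2 := fun p q h =>
    Metric.ball_subset_ball' (by rw [dist_eq_norm]; linarith)
  have key : ∀ p q : ℚ, ∀ᵐ x : E3, ‖(!₂[(p : ℝ), (q : ℝ), 0] : E3) - a‖ ≤ 1 →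
      x ∈ Metric.ball (!₂[(p : ℝ), (q : ℝ), 0] : E3) 1 → 0 < x 2 →
        |w x| ≤ N * (2 * (|M| + 14) * x 2 + 4 * ‖x - !₂[(p : ℝ), (q : ℝ), 0]‖ ^ 2) := by
    intro p q
    by_cases h : ‖(!₂[(p : ℝ), (q : ℝ), 0] : E3) - a‖ ≤ 1
    · have hs := hsub _ _ h
      have k1 := p6_ball (abs_nonneg M) hN (hw.mono hs) hV hf (by
        filter_upwards [hb] with x hx hxΩ
        obtain ⟨h1, h2, h3, h4⟩ := hx (hs hxΩ)
        exact ⟨h1.trans (le_abs_self M), h2, h3, h4⟩) (he.mono hs)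
      have hw' : H1loc (Metric.ball a 2) (fun x => -w x) fun x => -G x := by
        simpa using hw.const_mul (-1)
      have k2 := p6_ball (abs_nonneg M) hN (hw'.mono hs) hV hf.neg (by
        filter_upwards [hb] with x hx hxΩ
        obtain ⟨h1, h2, h3, h4⟩ := hx (hs hxΩ)
        refine ⟨h1.trans (le_abs_self M), by rwa [abs_neg], by rwa [Pi.neg_apply, abs_neg], by rw [h4]⟩)
        (he.neg.mono hs)
      filter_upwards [k1, k2] with x h1 h2 _ hx h0
      exact abs_le.2 ⟨by linarith [h2 hx h0], h1 hx h0⟩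
    · exact Eventually.of_forall fun _ h' => absurd h' h
  have key2 : ∀ᵐ x : E3, x ∈ Metric.ball a (1 / 2) → 0 < x 2 → |w x| ≤ (2 * (|M| + 14) + 4) * N * x 2 := by
    filter_upwards [ae_all_iff.2 fun p => ae_all_iff.2 (key p)] with x hx hxa h0
    rw [mem_ball_iff_norm] at hxa
    have hn : ‖x - a‖ ^ 2 = (x 0 - a 0) ^ 2 + (x 1 - a 1) ^ 2 + x 2 ^ 2 := by
      rw [EuclideanSpace.real_norm_sq_eq, Fin.sum_univ_three]
      simp [ha]
    have hn2 : ‖x - a‖ ^ 2 < 1 / 4 := by nlinarith [norm_nonneg (x - a)]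
    have hz : x 2 < 1 / 2 := by nlinarith [sq_nonneg (x 0 - a 0), sq_nonneg (x 1 - a 1)]
    obtain ⟨p, hp1, hp2⟩ := exists_rat_btwn (show x 0 < x 0 + x 2 / 2 by linarith)
    obtain ⟨q, hq1, hq2⟩ := exists_rat_btwn (show x 1 < x 1 + x 2 / 2 by linarith)
    have h1 : ‖x - !₂[(p : ℝ), (q : ℝ), 0]‖ ^ 2 = (x 0 - p) ^ 2 + (x 1 - q) ^ 2 + x 2 ^ 2 := by
      rw [EuclideanSpace.real_norm_sq_eq, Fin.sum_univ_three]
      simp
    have h2 : ‖(!₂[(p : ℝ), (q : ℝ), 0] : E3) - a‖ ^ 2 = (p - a 0) ^ 2 + (q - a 1) ^ 2 := by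
      rw [EuclideanSpace.real_norm_sq_eq, Fin.sum_univ_three]
      simp [ha]
    have h3 : (x 0 - p) ^ 2 ≤ x 2 ^ 2 / 4 := by nlinarith
    have h4 : (x 1 - q) ^ 2 ≤ x 2 ^ 2 / 4 := by nlinarith
    have h5 : ‖x - !₂[(p : ℝ), (q : ℝ), 0]‖ ^ 2 ≤ x 2 := by nlinarith
    have h6 : ‖(!₂[(p : ℝ), (q : ℝ), 0] : E3) - a‖ ≤ 1 := by
      refine abs_le_of_sq_le_sq' ?_ zero_le_one |>.2
      nlinarith [sq_nonneg (2 * x 0 - p - a 0), sq_nonneg (2 * x 1 - q - a 1)]
    have h7 := hx p q h6 (by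
      rw [mem_ball_iff_norm]
      nlinarith [norm_nonneg (x - !₂[(p : ℝ), (q : ℝ), 0])]) h0
    refine h7.trans ?_
    nlinarith [mul_le_mul_of_nonneg_left h5 hN]
  have key3 := T.measurePreserving.quasiMeasurePreserving.ae key2
  filter_upwards [key2, key3, hb, ae_coord_ne 2 0] with x h1 h2 h3 h4 hxa
  rcases lt_or_gt_of_ne h4 with h | h
  · have e1 : T x 2 = -x 2 := by rw [hT]; simp [refl]
    have e2 : T x ∈ Metric.ball a (1 / 2) := by
      have e3 : T a = a := by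
        rw [hT]; ext i; fin_cases i <;> simp [refl, ha]
      rw [mem_ball_iff_norm] at hxa ⊢
      rwa [← e3, ← map_sub, T.norm_map]
    have h5 := h2 e2 (by rw [e1]; linarith)
    rw [e1, hT, (h3 (Metric.ball_subset_ball (by norm_num) hxa)).2.2.2, abs_neg] at h5
    rwa [abs_of_neg h]
  · rw [abs_of_pos h]
    exact h1 hxa h

end Crest.Agent.R335
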