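import Crest.Agent.R335.P1
import Crest.Agent.R335.P2
import Crest.Agent.R335.P5

/-!
# R335/P6: local sup bounds for bounded coefficients (`‖x - ·‖⁻¹ ∈ L²(ball)`)
-/

set_option autoImplicit false

namespace Crest.Agent.R335

open MeasureTheory Set Filter Topology
open scoped Gradient RealInnerProductSpace ENNReal ContDiff
open Crest.MathPhysics.ThreeBody

theorem p6a_neg_le {u g : E3 → ℝ} (hg : Integrable g) (h0 : ∀ᵐ x, 0 ≤ g x) (h : ∀ᵐ x, -u x ≤ g x) :
    -∫ x, u x ≤ ∫ x, g x := by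
  by_cases hu : Integrable u
  · rw [← integral_neg]
    exact integral_mono_ae hu.neg hg h
  · rw [integral_undef hu, neg_zero]
    exact integral_nonneg_of_ae h0

theorem p6a_out {Ω : Set E3} {ξ : E3 → ℝ} (hξ : Tst Ω ξ) {x : E3} (hx : x ∉ Ω) : ξ x = 0 :=
  image_eq_zero_of_notMem_tsupport fun h => hx (hξ.sub h)

theorem p6a_int {Ω : Set E3} {F ξ : E3 → ℝ} (hF : MemLp F 2 (volume.restrict Ω)) (hξ : Tst Ω ξ) :
    Integrable fun x => F x * ξ x := by
  have h1 : IntegrableOn (fun x => F x * ξ x) Ω := hF.integrable_mul ((s1a_mφ hξ).restrict Ω)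
  refine (integrableOn_iff_integrable_of_support_subset ?_).1 h1
  intro x hx
  by_contra hx'
  exact hx (by simp [p6a_out hξ hx'])

theorem p6a_amgm {N : ℝ} (hN : 0 < N) (a b : ℝ) : a * b ≤ a ^ 2 / (2 * N) + N / 2 * b ^ 2 := by
  have h : a ^ 2 / (2 * N) + N / 2 * b ^ 2 - a * b = (a - N * b) ^ 2 / (2 * N) := by
    field_simp
    ring
  have h2 : 0 ≤ (a - N * b) ^ 2 / (2 * N) := by positivity
  linarith

/-- the singular part -/
theorem p6a_sing {C1 : ℝ} (hC1 : 0 ≤ C1) {Ω : Set E3} {F : E3 → ℝ} (hF : MemLp F 2 (volume.restrict Ω)) {N s : ℝ}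
    (hN : 0 < N) (hs : 0 < s) (hFN : ∫ x in Ω, F x ^ 2 ≤ N ^ 2) {x : E3} (hx : Metric.closedBall x s ⊆ Ω)
    (h1 : ∫⁻ y in Metric.ball x s, ENNReal.ofReal (1 / ‖x - y‖ ^ 2) ≤ ENNReal.ofReal (C1 * s)) :
    ∫⁻ y in Metric.ball x s, ENNReal.ofReal (F y / ‖x - y‖) ≤ ENNReal.ofReal ((1 / 2 + C1 * s / 2) * N) := by
  have hm : Measurable fun y : E3 => ENNReal.ofReal (1 / ‖x - y‖ ^ 2) := by
    refine ENNReal.measurable_ofReal.comp ?_
    exact measurable_const.div ((measurable_const.sub measurable_id).norm.pow_const 2)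
  have hi : Integrable (fun y => F y ^ 2 / (2 * N)) (volume.restrict Ω) := hF.integrable_sq.div_const _
  calc ∫⁻ y in Metric.ball x s, ENNReal.ofReal (F y / ‖x - y‖)
      ≤ ∫⁻ y in Metric.ball x s, (ENNReal.ofReal (F y ^ 2 / (2 * N)) +
          ENNReal.ofReal (N / 2) * ENNReal.ofReal (1 / ‖x - y‖ ^ 2)) := by
        refine lintegral_mono fun y => ?_
        rw [← ENNReal.ofReal_mul (by positivity), ← ENNReal.ofReal_add (by positivity) (by positivity)]
        refine ENNReal.ofReal_le_ofReal ?_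
        have := p6a_amgm hN (F y) (‖x - y‖⁻¹)
        rw [div_eq_mul_inv (F y), one_div, ← inv_pow]
        exact this
    _ = (∫⁻ y in Metric.ball x s, ENNReal.ofReal (F y ^ 2 / (2 * N))) +
          ENNReal.ofReal (N / 2) * ∫⁻ y in Metric.ball x s, ENNReal.ofReal (1 / ‖x - y‖ ^ 2) := by
        rw [lintegral_add_right _ (hm.const_mul _), lintegral_const_mul _ hm]
    _ ≤ ENNReal.ofReal (N / 2) + ENNReal.ofReal (N / 2) * ENNReal.ofReal (C1 * s) := by
        refine add_le_add ?_ (by gcongr)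
        calc ∫⁻ y in Metric.ball x s, ENNReal.ofReal (F y ^ 2 / (2 * N))
            ≤ ∫⁻ y in Ω, ENNReal.ofReal (F y ^ 2 / (2 * N)) :=
              lintegral_mono_set (Metric.ball_subset_closedBall.trans hx)
          _ = ENNReal.ofReal (∫ y in Ω, F y ^ 2 / (2 * N)) :=
              (ofReal_integral_eq_lintegral_ofReal hi (Eventually.of_forall fun y => by positivity)).symm
          _ ≤ ENNReal.ofReal (N / 2) := by
              refine ENNReal.ofReal_le_ofReal ?_
              rw [integral_div, div_le_iff₀ (by positivity)]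
              nlinarith
    _ = ENNReal.ofReal ((1 / 2 + C1 * s / 2) * N) := by
        rw [← ENNReal.ofReal_mul (by positivity), ← ENNReal.ofReal_add (by positivity) (by positivity)]
        congr 1
        ring

/-- the smooth part -/
theorem p6a_smooth {k : E3 → ℝ} {K0 : ℝ} (hK0 : ∀ y, |k y| ≤ K0) (hk : ∀ y, 1 ≤ ‖y‖ → k y = 0) {Ω : Set E3}
    {w : E3 → ℝ} (hw : MemLp w 2 (volume.restrict Ω)) {N s : ℝ} (hN : 0 < N) (hs : 0 < s)
    (hwN : ∫ x in Ω, w x ^ 2 ≤ N ^ 2) {x : E3} (hx : Metric.closedBall x s ⊆ Ω) :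
    ∫ y, (s ^ 3)⁻¹ * k (s⁻¹ • (x - y)) * w y ≤
      (s ^ 3)⁻¹ * K0 * (1 / 2 + volume.real (Metric.closedBall (0 : E3) s) / 2) * N := by
  have hK : 0 ≤ K0 := (abs_nonneg _).trans (hK0 0)
  have hB : MeasurableSet (Metric.closedBall x s) := Metric.isClosed_closedBall.measurableSet
  have hfin : volume (Metric.closedBall x s) ≠ ⊤ := (isCompact_closedBall x s).measure_lt_top.ne
  have hi : IntegrableOn (fun y => w y ^ 2) Ω := hw.integrable_sq
  have hi1 : IntegrableOn (fun y => w y ^ 2 / (2 * N)) (Metric.closedBall x s) := (hi.mono_set hx).div_const _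
  have hi2 : IntegrableOn (fun _ : E3 => N / 2) (Metric.closedBall x s) := integrableOn_const hfin
  have hi3 : IntegrableOn (fun y => (s ^ 3)⁻¹ * K0 * (w y ^ 2 / (2 * N) + N / 2)) (Metric.closedBall x s) :=
    (hi1.add hi2).const_mul _
  have h1 := norm_integral_le_of_norm_le (f := fun y => (s ^ 3)⁻¹ * k (s⁻¹ • (x - y)) * w y)
    ((integrable_indicator_iff hB).2 hi3) (Eventually.of_forall fun y => ?_)
  · rw [integral_indicator hB, integral_const_mul, integral_add hi1 hi2, integral_div, setIntegral_const,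
      smul_eq_mul] at h1
    have h2 : ∫ y in Metric.closedBall x s, w y ^ 2 ≤ N ^ 2 :=
      (setIntegral_mono_set hi (Eventually.of_forall fun y => sq_nonneg _) hx.eventuallyLE).trans hwN
    have h3 : volume.real (Metric.closedBall x s) = volume.real (Metric.closedBall (0 : E3) s) := by
      rw [measureReal_def, measureReal_def, Measure.addHaar_closedBall_center]
    have h4 : (∫ y in Metric.closedBall x s, w y ^ 2) / (2 * N) ≤ N / 2 := by
      rw [div_le_iff₀ (by positivity)]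
      nlinarith
    rw [h3] at h1
    refine (le_abs_self _).trans ((Real.norm_eq_abs _).symm.le.trans (h1.trans ?_))
    rw [mul_assoc ((s ^ 3)⁻¹ * K0)]
    refine mul_le_mul_of_nonneg_left ?_ (by positivity)
    nlinarith
  · by_cases hy : y ∈ Metric.closedBall x s
    · rw [indicator_of_mem hy, Real.norm_eq_abs, abs_mul, abs_mul, abs_of_pos (by positivity : (0 : ℝ) < (s ^ 3)⁻¹)]
      have h5 := p6a_amgm hN |w y| 1
      rw [sq_abs] at h5
      refine mul_le_mul (mul_le_mul_of_nonneg_left (hK0 _) (by positivity)) (by linarith) (abs_nonneg _)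
        (by positivity)
    · rw [indicator_of_notMem hy, hk, mul_zero, zero_mul, norm_zero]
      rw [Metric.mem_closedBall, not_le, dist_comm, dist_eq_norm] at hy
      rw [norm_smul, norm_inv, Real.norm_eq_abs, abs_of_pos hs, ← div_eq_inv_mul, le_div_iff₀ hs, one_mul]
      exact hy.le

theorem p6a_core (s : ℝ) (hs : 0 < s) : ∃ C : ℝ, 0 ≤ C ∧ ∀ (Ω : Set E3) (F w : E3 → ℝ) (G : E3 → E3) (N : ℝ),
    IsOpen Ω → H1loc Ω w G → MemLp w 2 (volume.restrict Ω) → MemLp F 2 (volume.restrict Ω) →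
    (∀ᵐ y, y ∈ Ω → 0 ≤ F y) → (∀ ξ, Tst Ω ξ → (∀ y, 0 ≤ ξ y) → ∫ y, ⟪G y, ∇ ξ y⟫ ≤ ∫ y, F y * ξ y) →
    ∫ x in Ω, w x ^ 2 ≤ N ^ 2 → ∫ x in Ω, F x ^ 2 ≤ N ^ 2 → 0 < N →
    ∀ᵐ x, Metric.closedBall x s ⊆ Ω → w x ≤ C * N := by
  obtain ⟨k, C, hC, hk2, hk0, -, H⟩ := exists_kernel
  obtain ⟨C1, hC1, H1⟩ := lintegral_inv_norm_ball
  have hcs : HasCompactSupport k := by
    refine HasCompactSupport.intro (isCompact_closedBall (0 : E3) 1) fun y hy => hk0 y ?_
    rw [mem_closedBall_zero_iff, not_le] at hy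
    exact hy.le
  obtain ⟨K0, hK0⟩ := hk2.continuous.bounded_above_of_compact_support hcs
  have hK : 0 ≤ K0 := (norm_nonneg _).trans (hK0 0)
  have hv : 0 ≤ volume.real (Metric.closedBall (0 : E3) s) := measureReal_nonneg
  refine ⟨(s ^ 3)⁻¹ * K0 * (1 / 2 + volume.real (Metric.closedBall (0 : E3) s) / 2) + C * (1 / 2 + C1 * s / 2),
    by positivity, ?_⟩
  intro Ω F w G N hΩ hw hw2 hF hF0 hsub hwN hFN hN
  have hloc : ∀ K, IsCompact K → K ⊆ Ω → IntegrableOn F K := by
    intro K hK hKΩ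
    have : IsFiniteMeasure (volume.restrict K) := isFiniteMeasure_restrict.2 hK.measure_lt_top.ne
    exact (hF.mono_measure (Measure.restrict_mono hKΩ le_rfl)).integrable one_le_two
  filter_upwards [H Ω w F G s hΩ hs hw hloc hF0 hsub] with x hx hxs
  have h1 := (hx hxs).trans (mul_le_mul_right (p6a_sing hC1 hF hN hs hFN hxs (H1 x s hs).2) _)
  rw [← ENNReal.ofReal_mul hC, ENNReal.ofReal_le_ofReal_iff (by positivity)] at h1
  have h2 := p6a_smooth (fun y => (Real.norm_eq_abs _).symm.le.trans (hK0 y)) hk0 hw2 hN hs hwN hxs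
  nlinarith

/-- subsolutions; the constant depends on `M` and the radius only -/
theorem sup_sub (M s : ℝ) (hs : 0 < s) : ∃ C : ℝ, 0 ≤ C ∧ ∀ (Ω : Set E3) (V f w : E3 → ℝ) (G : E3 → E3) (N : ℝ),
    IsOpen Ω → H1loc Ω w G → AEStronglyMeasurable V volume → (∀ᵐ x, x ∈ Ω → |V x| ≤ M) →
    MemLp w 2 (volume.restrict Ω) → MemLp f 2 (volume.restrict Ω) → SubS Ω V f w G →
    ∫ x in Ω, w x ^ 2 ≤ N ^ 2 → ∫ x in Ω, f x ^ 2 ≤ N ^ 2 → 0 ≤ N →
    ∀ᵐ x, Metric.closedBall x s ⊆ Ω → w x ≤ C * N := by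
  obtain ⟨C, hC, H⟩ := p6a_core s hs
  refine ⟨C * (3 * (1 + |M|)), by positivity, ?_⟩
  intro Ω V f w G N hΩ hw _ hVM hw2 hf2 hsub hwN hfN hN
  rcases hN.eq_or_lt with rfl | hN
  · have h0 : ∫ x in Ω, w x ^ 2 = 0 :=
      le_antisymm (by simpa using hwN) (integral_nonneg fun _ => sq_nonneg _)
    rw [integral_eq_zero_iff_of_nonneg (fun _ => sq_nonneg _) hw2.integrable_sq] at h0
    have h1 := (ae_restrict_iff' hΩ.measurableSet).1 h0
    filter_upwards [h1] with x hx hxs
    have h2 : w x ^ 2 = 0 := hx (hxs (Metric.mem_closedBall_self hs.le))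
    rw [pow_eq_zero_iff two_ne_zero] at h2
    simp [h2]
  have hM : 0 ≤ |M| := abs_nonneg M
  have hF : MemLp (fun y => 2 * (|f y| + |M| * |w y|)) 2 (volume.restrict Ω) :=
    (hf2.abs.add (hw2.abs.const_mul _)).const_mul _
  have key := H Ω (fun y => 2 * (|f y| + |M| * |w y|)) w G (3 * (1 + |M|) * N) hΩ hw hw2 hF
    (Eventually.of_forall fun y _ => by positivity) ?_ ?_ ?_ (by positivity)
  · filter_upwards [key] with x hx hxs
    have := hx hxs
    nlinarith
  · intro ξ hξ h0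
    have h1 := hsub ξ (∇ ξ) hξ.th (Eventually.of_forall h0)
    have h2 := p6a_neg_le (u := fun x => 2 * ((V x * w x - f x) * ξ x)) (p6a_int hF hξ)
      (Eventually.of_forall fun y => mul_nonneg (by positivity) (h0 y)) ?_
    · rw [integral_const_mul] at h2
      linarith
    · filter_upwards [hVM] with y hy
      by_cases hyΩ : y ∈ Ω
      · have h3 : |V y * w y| ≤ |M| * |w y| := by
          rw [abs_mul]
          exact mul_le_mul_of_nonneg_right ((hy hyΩ).trans (le_abs_self M)) (abs_nonneg _)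
        have h4 : -(V y * w y - f y) ≤ |f y| + |M| * |w y| := by
          have := neg_abs_le (V y * w y)
          have := le_abs_self (f y)
          linarith
        have := mul_le_mul_of_nonneg_right h4 (h0 y)
        linarith
      · simp [p6a_out hξ hyΩ]
  · refine hwN.trans (pow_le_pow_left₀ hN.le ?_ 2)
    nlinarith
  · have h1 : ∫ y in Ω, (2 * (|f y| + |M| * |w y|)) ^ 2 ≤ ∫ y in Ω, (8 * f y ^ 2 + 8 * |M| ^ 2 * w y ^ 2) := by
      refine integral_mono hF.integrable_sq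
        ((hf2.integrable_sq.const_mul _).add (hw2.integrable_sq.const_mul _)) fun y => ?_
      have e1 := sq_abs (f y)
      have e2 := sq_abs (w y)
      have := sq_nonneg (|f y| - |M| * |w y|)
      simp only
      rw [← e1, ← e2]
      nlinarith
    rw [integral_add (hf2.integrable_sq.const_mul _) (hw2.integrable_sq.const_mul _), integral_const_mul,
      integral_const_mul] at h1
    have h2 : 8 * |M| ^ 2 * ∫ y in Ω, w y ^ 2 ≤ 8 * |M| ^ 2 * N ^ 2 :=
      mul_le_mul_of_nonneg_left hwN (by positivity)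
    have h3 : 0 ≤ |M| * N ^ 2 := by positivity
    have h4 : 0 ≤ |M| ^ 2 * N ^ 2 := by positivity
    have h5 : 0 ≤ N ^ 2 := by positivity
    nlinarith

/-- `KI` with bounded `κ` and `t` (use `ε = 1`, `w = √(y² + 1) - 1`) -/
theorem KI.bl {Ω : Set E3} (hΩ : IsOpen Ω) {y κ s t : E3 → ℝ} {G : E3 → E3} (h : KI Ω y G κ s t) (ht : Bl Ω t) :
    Bl Ω y := by
  intro K hK hKΩ
  obtain ⟨δ, hδ, hδΩ⟩ := hK.exists_cthickening_subset_open hΩ hKΩ
  have hK' : IsCompact (Metric.cthickening δ K) := hK.cthickening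
  obtain ⟨Mκ, hMκ⟩ := h.bκ.2 _ hK' hδΩ
  obtain ⟨Mt, hMt⟩ := ht _ hK' hδΩ
  obtain ⟨C, hC, H⟩ := p6a_core (δ / 2) (by positivity)
  set U := Metric.thickening δ K with hU
  have hUo : IsOpen U := Metric.isOpen_thickening
  have hUc : U ⊆ Metric.cthickening δ K := Metric.thickening_subset_cthickening δ K
  have hUΩ : U ⊆ Ω := hUc.trans hδΩ
  have : IsFiniteMeasure (volume.restrict U) :=
    isFiniteMeasure_restrict.2 ((measure_mono hUc).trans_lt hK'.measure_lt_top).ne
  have hw := h.h1.sqrt_sq_add one_pos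
  have hF : MemLp (fun x => 2 * (|Mκ| * |y x| + |Ω.indicator s x| + Mt ^ 2)) 2 (volume.restrict U) :=
    ((((h.h1.mf.restrict U).abs.const_mul _).add (h.ms.restrict U).abs).add (memLp_const _)).const_mul _
  set A := ∫ x in U, (√(y x ^ 2 + 1 ^ 2) - 1) ^ 2 with hA
  set B := ∫ x in U, (2 * (|Mκ| * |y x| + |Ω.indicator s x| + Mt ^ 2)) ^ 2 with hB
  have hA0 : 0 ≤ A := integral_nonneg fun _ => sq_nonneg _
  have hB0 : 0 ≤ B := integral_nonneg fun _ => sq_nonneg _
  have key := H U _ _ _ (A + B + 1) hUo (hw.loc U) (hw.mf.restrict U) hF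
    (Eventually.of_forall fun x _ => by positivity) ?_ (by nlinarith) (by nlinarith) (by positivity)
  · refine ⟨C * (A + B + 1) + 1, ?_⟩
    filter_upwards [key] with x hx hxK
    have h1 := hx ((Metric.closedBall_subset_ball (by linarith)).trans (Metric.ball_subset_thickening hxK δ))
    have h2 : |y x| ≤ √(y x ^ 2 + 1 ^ 2) := Real.abs_le_sqrt (by linarith)
    linarith
  · intro ξ hξ h0
    have hξ' : Tst Ω ξ := ⟨hξ.sm, hξ.cpt, hξ.sub.trans hUΩ⟩
    have h1 := h.le 1 one_pos ξ hξ' h0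
    have h2 := p6a_neg_le
      (u := fun x => 2 * (ξ x * ((κ x * y x ^ 2 - s x * y x - t x ^ 2) / √(y x ^ 2 + 1 ^ 2)))) (p6a_int hF hξ)
      (Eventually.of_forall fun x => mul_nonneg (by positivity) (h0 x)) ?_
    · rw [integral_const_mul] at h2
      simp only [inner_smul_left, conj_trivial]
      linarith
    · filter_upwards [hMκ, hMt] with x hx1 hx2
      by_cases hxU : x ∈ U
      · have a1 : |κ x| ≤ |Mκ| := (hx1 (hUc hxU)).trans (le_abs_self _)
        have a2 : t x ^ 2 ≤ Mt ^ 2 := by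
          rw [← sq_abs (t x)]
          exact pow_le_pow_left₀ (abs_nonneg _) (hx2 (hUc hxU)) 2
        have y0 := h.nn x
        have r1 : 1 ≤ √(y x ^ 2 + 1 ^ 2) := Real.le_sqrt_of_sq_le (by nlinarith)
        have r2 : y x ≤ √(y x ^ 2 + 1 ^ 2) := Real.le_sqrt_of_sq_le (by linarith)
        rw [indicator_of_mem (hUΩ hxU), abs_of_nonneg y0]
        have a3 : -((κ x * y x ^ 2 - s x * y x - t x ^ 2) / √(y x ^ 2 + 1 ^ 2)) ≤
            |Mκ| * y x + |s x| + Mt ^ 2 := by
          rw [← neg_div, div_le_iff₀ (by linarith)]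
          have b1 : -(κ x * y x ^ 2) ≤ |Mκ| * y x * √(y x ^ 2 + 1 ^ 2) := by
            have c1 : -κ x ≤ |Mκ| := (neg_le_abs _).trans a1
            have c2 : -κ x * y x ^ 2 ≤ |Mκ| * y x ^ 2 := mul_le_mul_of_nonneg_right c1 (sq_nonneg _)
            have c3 : |Mκ| * y x * y x ≤ |Mκ| * y x * √(y x ^ 2 + 1 ^ 2) :=
              mul_le_mul_of_nonneg_left r2 (by positivity)
            nlinarith
          have b2 : s x * y x ≤ |s x| * √(y x ^ 2 + 1 ^ 2) :=
            mul_le_mul (le_abs_self _) r2 y0 (abs_nonneg _)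
          have b3 : t x ^ 2 ≤ Mt ^ 2 * √(y x ^ 2 + 1 ^ 2) := a2.trans (le_mul_of_one_le_right (sq_nonneg _) r1)
          nlinarith
        have := mul_le_mul_of_nonneg_right a3 (h0 x)
        nlinarith
      · simp [p6a_out hξ hxU]

end Crest.Agent.R335
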