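import Crest.Agent.R335.P7a

/-!
# R335/P7: what `Tail` says about orbitals
-/

set_option autoImplicit false

namespace Crest.Agent.R335

open MeasureTheory Set Filter Topology
open scoped Gradient RealInnerProductSpace ENNReal ContDiff
open Crest.MathPhysics.ThreeBody

variable {k b L C c : ℝ} {R d V0 S v : E3 → ℝ} {GR Gd : E3 → E3}

theorem p7b_box (a w : Fin 3 → ℝ) (hw : ∀ i, 0 ≤ w i) :
    MeasurableSet {x : E3 | ∀ i, |x i - a i| < w i} ∧
      volume {x : E3 | ∀ i, |x i - a i| < w i} = ENNReal.ofReal (8 * w 0 * w 1 * w 2) := by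
  have h1 : {x : E3 | ∀ i, |x i - a i| < w i} =
      WithLp.ofLp ⁻¹' Set.pi univ fun i => Ioo (a i - w i) (a i + w i) := by
    ext x
    simp only [mem_ofPred_eq, mem_preimage, Set.mem_pi, mem_univ, true_imp_iff, mem_Ioo, abs_lt]
    exact forall_congr' fun i => ⟨fun h => ⟨by linarith [h.1], by linarith [h.2]⟩,
      fun h => ⟨by linarith [h.1], by linarith [h.2]⟩⟩
  have h2 : MeasurableSet (Set.pi univ fun i => Ioo (a i - w i) (a i + w i)) :=
    MeasurableSet.univ_pi fun _ => measurableSet_Ioo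
  have h3 := PiLp.volume_preserving_ofLp (Fin 3)
  rw [h1]
  refine ⟨h3.measurable h2, ?_⟩
  rw [h3.measure_preimage h2.nullMeasurableSet, Real.volume_pi_Ioo, Fin.prod_univ_three,
    ← ENNReal.ofReal_mul (by linarith [hw 0]), ← ENNReal.ofReal_mul (by nlinarith [hw 0, hw 1])]
  congr 1
  ring

/-- the sharp bound on the plane: average `f²` over thin slabs `{‖(x, y) - x₀‖ < δ, |z| < ε}`, `ε → 0`, `δ → 0` -/
theorem Tail.plane_le (h : Tail k b L C c R GR d Gd V0 S) {f : E3 → ℝ} (hf : ContinuousOn f offA) {M : ℝ}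
    (hM : 0 ≤ M) (hd : ∀ᵐ x, |f x| ≤ M * R x) :
    ∀ r, L < r → |f (pt r 0)| ≤ M * C / r ^ 3 * gfun k b (pt r 0) := by
  intro r hr
  obtain ⟨Ro, Re, M', hRe, hpy, hRo, hthin⟩ := h.plane
  have hr0 : 0 < r := by linarith [h.Lge]
  have hC : 0 ≤ C := by linarith [h.Cge]
  have hn : ‖pt r 0‖ = r := by
    have := norm_sq_cyl (pt r 0)
    rw [cyl_pt hr0.le, show pt r 0 2 = 0 from rfl] at this
    exact (pow_left_inj₀ (norm_nonneg _) hr0.le two_ne_zero).1 (by linarith)
  have hne : pt r 0 ≠ 0 := norm_pos_iff.1 (by rwa [hn])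
  set B : E3 → ℝ := fun x => M * (C * (1 + x 2 ^ 2) / ‖x‖ ^ 3 * gfun k b x) with hB
  have hB0 : B (pt r 0) = M * C / r ^ 3 * gfun k b (pt r 0) := by
    simp only [hB, hn, show pt r 0 2 = 0 from rfl]
    ring
  have hg := gfun_pos k b hne
  rw [← hB0]
  by_contra hlt
  have hBn : 0 ≤ B (pt r 0) := by rw [hB0]; positivity
  have hpos : 0 < f (pt r 0) ^ 2 - B (pt r 0) ^ 2 := by
    rw [← sq_abs (f _)]
    exact sub_pos.2 (pow_lt_pow_left₀ (not_le.1 hlt) hBn two_ne_zero)
  have hfc : ContinuousAt f (pt r 0) :=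
    hf.continuousAt (isOpen_offA.mem_nhds (show 0 < cyl (pt r 0) by rwa [cyl_pt hr0.le]))
  have hgc : ContinuousAt (gfun k b) (pt r 0) :=
    (continuousOn_gfun k b).continuousAt (isOpen_ne.mem_nhds hne)
  have hBc : ContinuousAt B (pt r 0) := by
    refine continuousAt_const.mul (ContinuousAt.mul (ContinuousAt.div (by fun_prop) (by fun_prop) ?_) hgc)
    rw [hn]
    positivity
  set η := (f (pt r 0) ^ 2 - B (pt r 0) ^ 2) / 2 with hη
  have hη0 : 0 < η := by positivity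
  have e1 : ∀ᶠ x in 𝓝 (pt r 0), η < f x ^ 2 - B x ^ 2 :=
    ((hfc.pow 2).sub (hBc.pow 2)).eventually 
      (lt_mem_nhds (show η < f (pt r 0) ^ 2 - B (pt r 0) ^ 2 by linarith))
  have e2 : ∀ᶠ x in 𝓝 (pt r 0), L < ‖x‖ :=
    continuous_norm.continuousAt.eventually (lt_mem_nhds (show L < ‖pt r 0‖ by rwa [hn]))
  obtain ⟨δ, hδ, hball⟩ := Metric.eventually_nhds_iff.1 (e1.and e2)
  have key : ∀ ε, 0 < ε → ε ≤ δ / 2 → η * (2 * δ ^ 2) ≤ M ^ 2 * |M'| * ε := by
    intro ε hε hεδ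
    obtain ⟨a1, a2⟩ := p7b_box (pt r 0) ![δ / 2, δ / 2, ε] (by
      intro i
      fin_cases i <;> simp <;> positivity)
    set Q := {x : E3 | ∀ i, |x i - pt r 0 i| < ![δ / 2, δ / 2, ε] i} with hQ
    have a3 : ∀ x ∈ Q, dist x (pt r 0) < δ := by
      intro x hx
      have b0 : |x 0 - pt r 0 0| < δ / 2 := hx 0
      have b1 : |x 1 - pt r 0 1| < δ / 2 := hx 1
      have b2 : |x 2 - pt r 0 2| < ε := hx 2
      rw [EuclideanSpace.dist_eq, Real.sqrt_lt' hδ, Fin.sum_univ_three, Real.dist_eq, Real.dist_eq,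
        Real.dist_eq]
      nlinarith [abs_nonneg (x 0 - pt r 0 0), abs_nonneg (x 1 - pt r 0 1), abs_nonneg (x 2 - pt r 0 2)]
    have a4 : Q ⊆ {x : E3 | |x 2| < ε} := fun x hx => by
      have b2 : |x 2 - pt r 0 2| < ε := hx 2
      rwa [show pt r 0 2 = 0 from rfl, sub_zero] at b2
    have hi : Integrable fun x => Re x ^ 2 := hRe.integrable_sq
    have a5 : ∫ _ in Q, η ≤ ∫ x in Q, M ^ 2 * Re x ^ 2 := by
      refine setIntegral_mono_on_ae (integrableOn_const (by rw [a2]; exact ENNReal.ofReal_ne_top))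
        (hi.const_mul _).integrableOn a1 ?_
      filter_upwards [hd, hpy, hRo] with x b1 b2 b3 hx
      obtain ⟨b4, b5⟩ := hball (a3 x hx)
      have b6 : f x ^ 2 ≤ (M * R x) ^ 2 := by
        rw [← sq_abs (f x)]
        exact pow_le_pow_left₀ (abs_nonneg _) b1 2
      have b7 : (M * Ro x) ^ 2 ≤ B x ^ 2 := by
        rw [← sq_abs (M * Ro x), abs_mul, abs_of_nonneg hM]
        exact pow_le_pow_left₀ (by positivity) (mul_le_mul_of_nonneg_left (b3 b5) hM) 2
      rw [mul_pow, b2] at b6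
      rw [mul_pow] at b7
      linarith
    have a6 : ∫ x in Q, Re x ^ 2 ≤ |M'| * ε ^ 2 :=
      (setIntegral_mono_set hi.integrableOn (Eventually.of_forall fun x => sq_nonneg _)
        a4.eventuallyLE).trans ((hthin ε hε).trans (by gcongr; exact le_abs_self _))
    rw [integral_const_mul, setIntegral_const, measureReal_def, a2, ENNReal.toReal_ofReal (by
      simp; positivity), smul_eq_mul] at a5
    simp only [Matrix.cons_val_zero, Matrix.cons_val_one, Matrix.cons_val] at a5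
    have a7 := a5.trans (mul_le_mul_of_nonneg_left a6 (sq_nonneg M))
    refine le_of_mul_le_mul_right ?_ hε
    nlinarith
  have hK : 0 ≤ M ^ 2 * |M'| := by positivity
  have hp : 0 < η * δ ^ 2 := by positivity
  have a1 := key (min (δ / 2) (η * δ ^ 2 / (M ^ 2 * |M'| + 1))) (by positivity) (min_le_left _ _)
  have a2 : M ^ 2 * |M'| * min (δ / 2) (η * δ ^ 2 / (M ^ 2 * |M'| + 1)) ≤ η * δ ^ 2 := by
    refine (mul_le_mul_of_nonneg_left (min_le_right _ _) hK).trans ?_
    rw [← mul_div_assoc, div_le_iff₀ (by positivity)]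
    nlinarith
  linarith

end Crest.Agent.R335
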