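import Crest.Agent.R335.S1b

/-!
# R335/S1: algebra of `H1`, changes of variables
-/

set_option autoImplicit false

namespace Crest.Agent.R335

open MeasureTheory Set Filter Topology
open scoped Gradient RealInnerProductSpace ENNReal ContDiff
open Crest.MathPhysics.ThreeBody

variable {E : Type} [NormedAddCommGroup E] [InnerProductSpace ℝ E] [FiniteDimensional ℝ E]
  [MeasurableSpace E] [BorelSpace E]

variable {f g : E → ℝ} {G K : E → E}

/-- `|V f g| ≤ (|V| f² + |V| g²) / 2` -/
theorem FB.int_mul {V : E → ℝ} (hV : FB V) (hf : H1 f G) (hg : H1 g K) :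
    Integrable fun x => V x * (f x * g x) := by
  have h := (((hV.int _ _ (hf.add hg)).sub (hV.int _ _ hf)).sub (hV.int _ _ hg)).const_mul (1 / 2 : ℝ)
  refine h.congr (Eventually.of_forall fun x => ?_)
  simp only [Pi.sub_apply]
  ring

theorem s1_abs_int {V : E → ℝ} (hV : FB V) (hf : H1 f G) : Integrable fun x => |V x| * f x ^ 2 := by
  refine (hV.int _ _ hf).abs.congr (Eventually.of_forall fun x => ?_)
  simp only [abs_mul, abs_of_nonneg (sq_nonneg (f x))]

theorem s1_kin_nonneg (G : E → E) : 0 ≤ ∫ x, ‖G x‖ ^ 2 := integral_nonneg fun _ => sq_nonneg _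

theorem FB.add {V W : E → ℝ} (hV : FB V) (hW : FB W) : FB fun x => V x + W x := by
  refine ⟨hV.meas.add hW.meas, fun f G hf => ?_, fun ε hε => ?_⟩
  · refine ((hV.int _ _ hf).add (hW.int _ _ hf)).congr (Eventually.of_forall fun x => ?_)
    simp only [Pi.add_apply]
    ring
  · obtain ⟨C1, h1, H1'⟩ := hV.small (ε / 2) (half_pos hε)
    obtain ⟨C2, h2, H2'⟩ := hW.small (ε / 2) (half_pos hε)
    refine ⟨C1 + C2, add_nonneg h1 h2, fun f G hf => ?_⟩
    have h3 : ∫ x, |V x + W x| * f x ^ 2 ≤ ∫ x, (|V x| * f x ^ 2 + |W x| * f x ^ 2) := by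
      refine integral_mono_of_nonneg (Eventually.of_forall fun x => mul_nonneg (abs_nonneg _) (sq_nonneg _))
        ((s1_abs_int hV hf).add (s1_abs_int hW hf)) (Eventually.of_forall fun x => ?_)
      have := mul_le_mul_of_nonneg_right (abs_add_le (V x) (W x)) (sq_nonneg (f x))
      simp only
      linarith
    rw [integral_add (s1_abs_int hV hf) (s1_abs_int hW hf)] at h3
    have h4 := H1' f G hf
    have h5 := H2' f G hf
    linarith

theorem FB.of_le {V W : E → ℝ} (hV : FB V) (hW : AEStronglyMeasurable W volume) (h : ∀ᵐ x, |W x| ≤ |V x|) :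
    FB W := by
  refine ⟨hW, fun f G hf => ?_, fun ε hε => ?_⟩
  · refine (s1_abs_int hV hf).mono' (hW.mul (hf.mf.1.pow 2)) ?_
    filter_upwards [h] with x hx
    rw [Real.norm_eq_abs, abs_mul, abs_of_nonneg (sq_nonneg (f x))]
    exact mul_le_mul_of_nonneg_right hx (sq_nonneg _)
  · obtain ⟨C, h1, H⟩ := hV.small ε hε
    refine ⟨C, h1, fun f G hf => le_trans ?_ (H f G hf)⟩
    refine integral_mono_of_nonneg (Eventually.of_forall fun x => mul_nonneg (abs_nonneg _) (sq_nonneg _))
      (s1_abs_int hV hf) ?_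
    filter_upwards [h] with x hx
    exact mul_le_mul_of_nonneg_right hx (sq_nonneg _)

theorem FB.const (c : ℝ) : FB fun _ : E => c := by
  refine ⟨aestronglyMeasurable_const, fun f G hf => hf.int_sq.const_mul c, fun ε hε =>
    ⟨|c|, abs_nonneg c, fun f G _ => ?_⟩⟩
  rw [integral_const_mul]
  have := mul_nonneg hε.le (s1_kin_nonneg G)
  unfold nsq
  linarith

theorem FB.const_mul {V : E → ℝ} (hV : FB V) (c : ℝ) : FB fun x => c * V x := by
  refine ⟨hV.meas.const_mul c, fun f G hf => ?_, fun ε hε => ?_⟩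
  · refine ((hV.int _ _ hf).const_mul c).congr (Eventually.of_forall fun x => ?_)
    simp only
    ring
  · have hc : 0 < |c| + 1 := by positivity
    obtain ⟨C, h1, H⟩ := hV.small (ε / (|c| + 1)) (div_pos hε hc)
    refine ⟨|c| * C, mul_nonneg (abs_nonneg c) h1, fun f G hf => ?_⟩
    have h2 : ∫ x, |c * V x| * f x ^ 2 = |c| * ∫ x, |V x| * f x ^ 2 := by
      rw [← integral_const_mul]
      refine integral_congr_ae (Eventually.of_forall fun x => ?_)
      simp only [abs_mul]
      ring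
    have h3 := mul_le_mul_of_nonneg_left (H f G hf) (abs_nonneg c)
    have h4 : |c| * (ε / (|c| + 1)) ≤ ε := by
      rw [← mul_div_assoc, div_le_iff₀ hc]
      nlinarith [abs_nonneg c]
    have h5 := mul_le_mul_of_nonneg_right h4 (s1_kin_nonneg G)
    rw [h2]
    nlinarith

theorem FB.sub_const {V : E → ℝ} (hV : FB V) (c : ℝ) : FB fun x => V x - c := by
  simpa only [sub_eq_add_neg] using hV.add (FB.const (-c))

theorem s1_int_iso (T : E ≃ₗᵢ[ℝ] E) (F : E → ℝ) : ∫ x, F (T x) = ∫ x, F x :=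
  T.measurePreserving.integral_comp T.toHomeomorph.measurableEmbedding F

theorem FB.comp_iso {V : E → ℝ} (hV : FB V) (T : E ≃ₗᵢ[ℝ] E) : FB fun x => V (T x) := by
  refine ⟨hV.meas.comp_measurePreserving T.measurePreserving, fun f G hf => ?_, fun ε hε => ?_⟩
  · have h := T.measurePreserving.integrable_comp_of_integrable (hV.int _ _ (hf.comp_iso T.symm))
    refine h.congr (Eventually.of_forall fun x => ?_)
    simp
  · obtain ⟨C, h1, H⟩ := hV.small ε hε
    refine ⟨C, h1, fun f G hf => ?_⟩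
    have h := H _ _ (hf.comp_iso T.symm)
    unfold nsq at h ⊢
    rw [← s1_int_iso T, ← s1_int_iso T fun x => ‖_‖ ^ 2, ← s1_int_iso T fun x => f _ ^ 2] at h
    simpa using h

theorem s1_bf_lin {V ξ : E → ℝ} {X : E → E} (hV : FB V) (hf : H1 f G) (hg : H1 g K) (hξ : H1 ξ X) (a b : ℝ) :
    bf V (fun x => a * f x + b * g x) (fun x => a • G x + b • K x) ξ X =
      a * bf V f G ξ X + b * bf V g K ξ X := by
  have h1 : ∫ x, ⟪a • G x + b • K x, X x⟫ = a * (∫ x, ⟪G x, X x⟫) + b * ∫ x, ⟪K x, X x⟫ := by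
    rw [← integral_const_mul, ← integral_const_mul,
      ← integral_add ((hf.int_inner hξ).const_mul a) ((hg.int_inner hξ).const_mul b)]
    refine integral_congr_ae (Eventually.of_forall fun x => ?_)
    simp only [inner_add_left, real_inner_smul_left]
  have h2 : ∫ x, V x * ((a * f x + b * g x) * ξ x) =
      a * (∫ x, V x * (f x * ξ x)) + b * ∫ x, V x * (g x * ξ x) := by
    rw [← integral_const_mul, ← integral_const_mul,
      ← integral_add ((hV.int_mul hf hξ).const_mul a) ((hV.int_mul hg hξ).const_mul b)]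
    refine integral_congr_ae (Eventually.of_forall fun x => ?_)
    simp only
    ring
  unfold bf
  rw [h1, h2]
  ring

/-- expansion of the quadratic form -/
theorem qf_lin {V : E → ℝ} (hV : FB V) (hf : H1 f G) (hg : H1 g K) (a b : ℝ) :
    qf V (fun x => a * f x + b * g x) (fun x => a • G x + b • K x) =
      a ^ 2 * qf V f G + 2 * a * b * bf V f G g K + b ^ 2 * qf V g K := by
  have h := (hf.const_mul a).add (hg.const_mul b)
  rw [← bf_self, s1_bf_lin hV hf hg h, bf_comm (f := f), bf_comm (f := g), s1_bf_lin hV hf hg hf,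
    s1_bf_lin hV hf hg hg, bf_self, bf_self, bf_comm (f := g)]
  ring

theorem bf_lin {V ξ : E → ℝ} {X : E → E} (hV : FB V) (hf : H1 f G) (hg : H1 g K) (hξ : H1 ξ X) (a b : ℝ) :
    bf V (fun x => a * f x + b * g x) (fun x => a • G x + b • K x) ξ X =
      a * bf V f G ξ X + b * bf V g K ξ X := by
  exact s1_bf_lin hV hf hg hξ a b

theorem nsq_lin (hf : MemLp f 2 volume) (hg : MemLp g 2 volume) (a b : ℝ) :
    nsq (fun x => a * f x + b * g x) = a ^ 2 * nsq f + 2 * a * b * ip f g + b ^ 2 * nsq g := by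
  have h1 : Integrable fun x => f x ^ 2 := hf.integrable_sq
  have h2 : Integrable fun x => g x ^ 2 := hg.integrable_sq
  have h3 : Integrable fun x => f x * g x := hf.integrable_mul hg
  have h4 : Integrable fun x => a ^ 2 * f x ^ 2 + 2 * a * b * (f x * g x) := (h1.const_mul _).add (h3.const_mul _)
  unfold nsq ip
  rw [← integral_const_mul, ← integral_const_mul, ← integral_const_mul,
    ← integral_add (h1.const_mul _) (h3.const_mul _), ← integral_add h4 (h2.const_mul _)]
  refine integral_congr_ae (Eventually.of_forall fun x => ?_)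
  simp only
  ring

theorem qf_congr {V : E → ℝ} (h1 : f =ᵐ[volume] g) (h2 : G =ᵐ[volume] K) : qf V f G = qf V g K := by
  unfold qf
  congr 1
  · congr 1
    refine integral_congr_ae ?_
    filter_upwards [h2] with x hx
    rw [hx]
  · refine integral_congr_ae ?_
    filter_upwards [h1] with x hx
    rw [hx]

/-- the kinetic energy is controlled by the form -/
theorem FB.kin_le {V : E → ℝ} (hV : FB V) :
    ∃ C : ℝ, 0 ≤ C ∧ ∀ f G, H1 f G → ∫ x, ‖G x‖ ^ 2 ≤ 4 * qf V f G + C * nsq f := by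
  obtain ⟨C, h1, H⟩ := hV.small (1 / 4) (by norm_num)
  refine ⟨4 * C, by positivity, fun f G hf => ?_⟩
  have h2 := H f G hf
  have h3 : ∫ x, -(V x * f x ^ 2) ≤ ∫ x, |V x| * f x ^ 2 := by
    refine integral_mono (hV.int _ _ hf).neg (s1_abs_int hV hf) fun x => ?_
    have := mul_le_mul_of_nonneg_right (neg_le_abs (V x)) (sq_nonneg (f x))
    simp only
    linarith
  rw [integral_neg] at h3
  unfold qf
  linarith

theorem Eig.lin {V : E → ℝ} {e : ℝ} (hV : FB V) (hf : Eig V e f G) (hg : Eig V e g K) (a b : ℝ) :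
    Eig V e (fun x => a * f x + b * g x) fun x => a • G x + b • K x := by
  refine ⟨(hf.h1.const_mul a).add (hg.h1.const_mul b), fun ξ X hξ => ?_⟩
  have h : ip (fun x => a * f x + b * g x) ξ = a * ip f ξ + b * ip g ξ := by
    unfold ip
    rw [← integral_const_mul, ← integral_const_mul,
      ← integral_add ((hf.h1.int_mul hξ).const_mul a) ((hg.h1.int_mul hξ).const_mul b)]
    refine integral_congr_ae (Eventually.of_forall fun x => ?_)
    simp only
    ring
  rw [bf_lin hV hf.h1 hg.h1 hξ, hf.eq ξ X hξ, hg.eq ξ X hξ, h]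
  ring

theorem Eig.congr {V : E → ℝ} {e : ℝ} (hf : Eig V e f G) (h1 : f =ᵐ[volume] g) (h2 : G =ᵐ[volume] K) :
    Eig V e g K := by
  refine ⟨hf.h1.congr h1 h2, fun ξ X hξ => ?_⟩
  have h := hf.eq ξ X hξ
  have e1 : ∫ x, ⟪G x, X x⟫ = ∫ x, ⟪K x, X x⟫ := by
    refine integral_congr_ae ?_
    filter_upwards [h2] with x hx
    rw [hx]
  have e2 : ∫ x, V x * (f x * ξ x) = ∫ x, V x * (g x * ξ x) := by
    refine integral_congr_ae ?_
    filter_upwards [h1] with x hx
    rw [hx]
  have e3 : ∫ x, f x * ξ x = ∫ x, g x * ξ x := by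
    refine integral_congr_ae ?_
    filter_upwards [h1] with x hx
    rw [hx]
  unfold bf ip at h ⊢
  rw [← e1, ← e2, ← e3, h]

theorem Eig.comp_iso {V : E → ℝ} {e : ℝ} (hf : Eig V e f G) (T : E ≃ₗᵢ[ℝ] E) (hV : ∀ᵐ x, V (T x) = V x) :
    Eig V e (fun x => f (T x)) fun x => T.symm (G (T x)) := by
  refine ⟨hf.h1.comp_iso T, fun ξ X hξ => ?_⟩
  have h := hf.eq _ _ (hξ.comp_iso T.symm)
  unfold bf ip at h ⊢
  rw [← s1_int_iso T, ← s1_int_iso T fun x => V x * _, ← s1_int_iso T fun x => f x * _] at h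
  have e1 : ∫ x, ⟪T.symm (G (T x)), X x⟫ = ∫ x, ⟪G (T x), T.symm.symm (X (T.symm (T x)))⟫ := by
    refine integral_congr_ae (Eventually.of_forall fun x => ?_)
    simp only [LinearIsometryEquiv.symm_symm, LinearIsometryEquiv.symm_apply_apply]
    rw [← T.inner_map_map, LinearIsometryEquiv.apply_symm_apply]
  have e2 : ∫ x, V x * (f (T x) * ξ x) = ∫ x, V (T x) * (f (T x) * ξ (T.symm (T x))) := by
    refine integral_congr_ae ?_
    filter_upwards [hV] with x hx
    rw [hx, LinearIsometryEquiv.symm_apply_apply]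
  rw [e1, e2, h]
  simp only [LinearIsometryEquiv.symm_apply_apply]

theorem Eig.qf_eq {V : E → ℝ} {e : ℝ} (hf : Eig V e f G) : qf V f G = e * nsq f := by
  rw [← bf_self, hf.eq f G hf.h1, ip_self]

theorem Eig.orth {V : E → ℝ} {e e' : ℝ} (hf : Eig V e f G) (hg : Eig V e' g K) (h : e ≠ e') : ip f g = 0 := by
  have h1 := hf.eq g K hg.h1
  have h2 := hg.eq f G hf.h1
  rw [bf_comm, h1, ip_comm (f := g)] at h2
  have h3 : (e - e') * ip f g = 0 := by linarith
  exact (mul_eq_zero.1 h3).resolve_left (sub_ne_zero.2 h)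

theorem Eig.eqS {V : E → ℝ} {e : ℝ} (hV : FB V) (hf : Eig V e f G) (Ω : Set E) :
    EqS Ω (fun x => V x - e) 0 f G := by
  intro ξ X hξ
  have h := hf.eq ξ X hξ.h1
  have e1 : ∫ x, ((V x - e) * f x - (0 : E → ℝ) x) * ξ x = (∫ x, V x * (f x * ξ x)) - e * ∫ x, f x * ξ x := by
    rw [← integral_const_mul, ← integral_sub (hV.int_mul hf.h1 hξ.h1) ((hf.h1.int_mul hξ.h1).const_mul e)]
    refine integral_congr_ae (Eventually.of_forall fun x => ?_)
    simp only [Pi.zero_apply]
    ring
  unfold bf ip at h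
  rw [e1]
  linarith

end Crest.Agent.R335
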