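import Crest.Agent.R335.S11b

/-!
# R335/S11: splittings, slices, tensor products
-/

set_option autoImplicit false

namespace Crest.Agent.R335

open MeasureTheory Set Filter Topology
open scoped Gradient RealInnerProductSpace ENNReal ContDiff
open Crest.MathPhysics.ThreeBody

variable {A B E : Type} [NormedAddCommGroup A] [InnerProductSpace ℝ A] [FiniteDimensional ℝ A]
  [MeasurableSpace A] [BorelSpace A] [NormedAddCommGroup B] [InnerProductSpace ℝ B] [FiniteDimensional ℝ B]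
  [MeasurableSpace B] [BorelSpace B] [NormedAddCommGroup E] [InnerProductSpace ℝ E] [FiniteDimensional ℝ E]
  [MeasurableSpace E] [BorelSpace E] (s : Spl A B E)


/-- the splitting as a homeomorphism -/
noncomputable def s11_homeo : A × B ≃ₜ E where
  toFun p := s.j p.1 p.2
  invFun x := (s.p1 x, s.p2 x)
  left_inv p := by simp only [s.p1_j, s.p2_j]
  right_inv x := s.j_p x
  continuous_toFun := s.continuous_j
  continuous_invFun := s.p1.continuous.prodMk s.p2.continuous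

theorem s11_mq : MeasurePreserving (fun x : E => (s.p1 x, s.p2 x)) volume (volume.prod volume) :=
  MeasurePreserving.symm (s11_homeo s).toMeasurableEquiv s.mp

theorem s11_emb : MeasurableEmbedding (fun x : E => (s.p1 x, s.p2 x)) :=
  (s11_homeo s).symm.measurableEmbedding

theorem s11_embj : MeasurableEmbedding (fun p : A × B => s.j p.1 p.2) :=
  (s11_homeo s).measurableEmbedding

theorem s11_memLp {F : Type} [NormedAddCommGroup F] [NormedSpace ℝ F] {f : A → ℝ} {g : B → F}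
    (hf : MemLp f 2 volume) (hg : MemLp g 2 volume) :
    MemLp (fun x => f (s.p1 x) • g (s.p2 x)) 2 volume := by
  have hm : AEStronglyMeasurable (fun p : A × B => f p.1 • g p.2) (volume.prod volume) :=
    hf.1.comp_fst.smul hg.1.comp_snd
  have h1 : MemLp (fun p : A × B => f p.1 • g p.2) 2 (volume.prod volume) := by
    refine (memLp_two_iff_integrable_sq_norm hm).2 ?_
    have := ((memLp_two_iff_integrable_sq_norm hf.1).1 hf).mul_prod
      ((memLp_two_iff_integrable_sq_norm hg.1).1 hg)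
    simpa only [norm_smul, mul_pow] using this
  exact h1.comp_measurePreserving (s11_mq s)

theorem s11_inner {K : E → E} (hK : MemLp K 2 volume) (v : E) :
    MemLp (fun x => ⟪K x, v⟫) 2 volume := hK.inner_const v

theorem s11_int {h c : E → ℝ} (hh : MemLp h 2 volume) (hc : Continuous c)
    (hs : HasCompactSupport c) : Integrable fun x => h x * c x :=
  (hh.locallyIntegrable (by norm_num)).integrable_smul_right_of_hasCompactSupport hc hs

theorem s11_slice_tst {φ : E → ℝ} (hφ : Tst univ φ) (a : A) : Tst univ fun b => φ (s.j a b) := by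
  refine ⟨hφ.sm.comp (contDiff_const.add s.i2.contDiff), ?_, subset_univ _⟩
  refine HasCompactSupport.intro (hφ.cpt.isCompact.image s.p2.continuous) fun b hb => ?_
  by_contra h
  exact hb ⟨s.j a b, subset_tsupport _ h, s.p2_j a b⟩

omit [FiniteDimensional ℝ A] [MeasurableSpace A] [BorelSpace A] [FiniteDimensional ℝ B]
  [MeasurableSpace B] [BorelSpace B] [FiniteDimensional ℝ E] [MeasurableSpace E] [BorelSpace E] in
theorem s11_slice_fderiv {φ : E → ℝ} (hφ : Tst univ φ) (a : A) (b v : B) :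
    fderiv ℝ (fun b => φ (s.j a b)) b v = fderiv ℝ φ (s.j a b) (s.i2 v) := by
  have h1 : HasFDerivAt (fun b => s.j a b) s.i2 b := s.i2.hasFDerivAt.const_add (s.i1 a)
  have h2 := ((hφ.sm.differentiable (by simp)) (s.j a b)).hasFDerivAt.comp b h1
  rw [show fderiv ℝ (fun b => φ (s.j a b)) b = _ from h2.fderiv]
  rfl

theorem s11_half {f : A → ℝ} {g : B → ℝ} {K : B → B} (hf : MemLp f 2 volume) (hg : H1 g K)
    {φ : E → ℝ} (hφ : Tst univ φ) (v : B) :
    ∫ x, f (s.p1 x) * g (s.p2 x) * fderiv ℝ φ x (s.i2 v)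
      = -∫ x, f (s.p1 x) * ⟪K (s.p2 x), v⟫ * φ x := by
  have c1 : Continuous fun x => fderiv ℝ φ x (s.i2 v) :=
    (hφ.sm.continuous_fderiv (by simp)).clm_apply continuous_const
  have c2 : HasCompactSupport fun x => fderiv ℝ φ x (s.i2 v) := hφ.cpt.fderiv_apply ℝ _
  have i1 : Integrable fun x => f (s.p1 x) * g (s.p2 x) * fderiv ℝ φ x (s.i2 v) :=
    s11_int (s11_memLp s hf hg.mf) c1 c2
  have i2 : Integrable fun x => f (s.p1 x) * ⟪K (s.p2 x), v⟫ * φ x :=
    s11_int (s11_memLp s hf (s11_inner hg.mG v)) hφ.sm.continuous hφ.cpt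
  rw [s.integral_eq i1, s.integral_eq i2, ← integral_neg]
  congr 1
  funext a
  simp only [s.p1_j, s.p2_j, mul_assoc, integral_const_mul]
  have h := hg.wg _ (s11_slice_tst s hφ a) v
  simp only [s11_slice_fderiv s hφ] at h
  rw [h, mul_neg]

theorem s11_p2_le (x : E) : ‖s.p2 x‖ ^ 2 ≤ ‖x‖ ^ 2 := by
  rw [s.norm_sq x]
  linarith [sq_nonneg ‖s.p1 x‖]

theorem s11_meas {V : B → ℝ} (hV : AEStronglyMeasurable V volume) :
    AEStronglyMeasurable (fun x => V (s.p2 x)) volume :=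
  hV.comp_snd.comp_measurePreserving (s11_mq s)

theorem s11_key {V : B → ℝ} (hV : FB V) {ε C : ℝ} (hε : 0 ≤ ε)
    (h : ∀ f G, H1 f G → ∫ x, |V x| * f x ^ 2 ≤ ε * (∫ x, ‖G x‖ ^ 2) + C * nsq f)
    {F : E → ℝ} {G : E → E} (hF : H1 F G) :
    Integrable (fun x => |V (s.p2 x)| * F x ^ 2) ∧
      ∫ x, |V (s.p2 x)| * F x ^ 2 ≤ ε * (∫ x, ‖G x‖ ^ 2) + C * nsq F := by
  have iF : Integrable fun x => F x ^ 2 := hF.mf.integrable_sq
  have iG : Integrable fun x => ‖G x‖ ^ 2 := (memLp_two_iff_integrable_sq_norm hF.mG.1).1 hF.mG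
  have mG2 : MemLp (fun x => s.p2 (G x)) 2 volume := s.p2.comp_memLp' hF.mG
  have iG2 : Integrable fun x => ‖s.p2 (G x)‖ ^ 2 :=
    (memLp_two_iff_integrable_sq_norm mG2.1).1 mG2
  have hm : AEStronglyMeasurable (fun x => |V (s.p2 x)| * F x ^ 2) volume :=
    (s11_meas s hV.meas).norm.mul (hF.mf.1.pow 2)
  have hm2 : AEStronglyMeasurable (fun p : A × B => |V p.2| * F (s.j p.1 p.2) ^ 2)
      (volume.prod volume) := by
    have := hm.comp_measurePreserving s.mp
    simpa only [Function.comp_def, s.p2_j] using this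
  have j1 := (s.integrable_fibre iF).2
  have j2 := (s.integrable_fibre iG2).2
  have hb : ∀ᵐ a, ∫ b, |V b| * F (s.j a b) ^ 2
      ≤ ε * (∫ b, ‖s.p2 (G (s.j a b))‖ ^ 2) + C * ∫ b, F (s.j a b) ^ 2 :=
    (hF.slice s).mono fun a ha => h _ _ ha
  have e0 : ∀ (a : A) (b : B), ‖|V b| * F (s.j a b) ^ 2‖ = |V b| * F (s.j a b) ^ 2 := fun a b =>
    Real.norm_of_nonneg (by positivity)
  have i3 : Integrable fun a => ∫ b, |V b| * F (s.j a b) ^ 2 := by
    refine Integrable.mono' ((j2.const_mul ε).add (j1.const_mul C)) hm2.integral_prod_right'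
      (hb.mono fun a ha => ?_)
    rw [Real.norm_of_nonneg (integral_nonneg fun b => by positivity)]
    exact ha
  have i4 : Integrable (fun p : A × B => |V p.2| * F (s.j p.1 p.2) ^ 2) (volume.prod volume) := by
    refine (integrable_prod_iff hm2).2 ⟨(hF.slice s).mono fun a ha => ?_, ?_⟩
    · have := (hV.int _ _ ha).abs
      simpa only [abs_mul, abs_pow, sq_abs] using this
    · simpa only [e0] using i3
  have i5 : Integrable (fun x => |V (s.p2 x)| * F x ^ 2) := by
    have := (s11_mq s).integrable_comp_of_integrable i4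
    simpa only [Function.comp_def, s.j_p] using this
  refine ⟨i5, ?_⟩
  rw [s.integral_eq i5]
  simp only [s.p2_j]
  have j3 : Integrable fun a =>
      ε * (∫ b, ‖s.p2 (G (s.j a b))‖ ^ 2) + C * ∫ b, F (s.j a b) ^ 2 :=
    (j2.const_mul ε).add (j1.const_mul C)
  refine (integral_mono_ae i3 j3 hb).trans ?_
  rw [integral_add (j2.const_mul ε) (j1.const_mul C), integral_const_mul, integral_const_mul,
    ← s.integral_eq iG2, ← s.integral_eq iF]
  have a1 : ∫ x, ‖s.p2 (G x)‖ ^ 2 ≤ ∫ x, ‖G x‖ ^ 2 :=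
    integral_mono iG2 iG fun x => s11_p2_le s (G x)
  have a2 := mul_le_mul_of_nonneg_left a1 hε
  unfold nsq
  linarith

theorem H1.tensor {f : A → ℝ} {G : A → A} {g : B → ℝ} {K : B → B} (hf : H1 f G) (hg : H1 g K) :
    H1 (fun x => f (s.p1 x) * g (s.p2 x)) fun x =>
      g (s.p2 x) • s.i1 (G (s.p1 x)) + f (s.p1 x) • s.i2 (K (s.p2 x)) := by
  have m1 : MemLp (fun x => g (s.p2 x) • s.i1 (G (s.p1 x))) 2 volume :=
    s11_memLp s.swap hg.mf (s.i1.comp_memLp' hf.mG)
  have m2 : MemLp (fun x => f (s.p1 x) • s.i2 (K (s.p2 x))) 2 volume :=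
    s11_memLp s hf.mf (s.i2.comp_memLp' hg.mG)
  have m0 : MemLp (fun x => f (s.p1 x) * g (s.p2 x)) 2 volume := s11_memLp s hf.mf hg.mf
  refine ⟨m0, m1.add m2, fun φ hφ a => ?_⟩
  have h1 := s11_half s hf.mf hg hφ (s.p2 a)
  have h2 : ∫ x, g (s.p2 x) * f (s.p1 x) * fderiv ℝ φ x (s.i1 (s.p1 a))
      = -∫ x, g (s.p2 x) * ⟪G (s.p1 x), s.p1 a⟫ * φ x := s11_half s.swap hg.mf hf hφ (s.p1 a)
  have c1 : ∀ v, Continuous fun x => fderiv ℝ φ x v := fun v =>
    (hφ.sm.continuous_fderiv (by simp)).clm_apply continuous_const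
  have c2 : ∀ v, HasCompactSupport fun x => fderiv ℝ φ x v := fun v => hφ.cpt.fderiv_apply ℝ _
  have e1 : ∀ x, f (s.p1 x) * g (s.p2 x) * fderiv ℝ φ x a
      = g (s.p2 x) * f (s.p1 x) * fderiv ℝ φ x (s.i1 (s.p1 a))
        + f (s.p1 x) * g (s.p2 x) * fderiv ℝ φ x (s.i2 (s.p2 a)) := fun x => by
    conv_lhs => rw [← s.sum a, map_add]
    ring
  have e2 : ∀ x, ⟪g (s.p2 x) • s.i1 (G (s.p1 x)) + f (s.p1 x) • s.i2 (K (s.p2 x)), a⟫ * φ x
      = g (s.p2 x) * ⟪G (s.p1 x), s.p1 a⟫ * φ x + f (s.p1 x) * ⟪K (s.p2 x), s.p2 a⟫ * φ x :=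
    fun x => by
    rw [inner_add_left, real_inner_smul_left, real_inner_smul_left, s.inn (s.i1 _), s.inn (s.i2 _),
      s.p1_i1, s.p1_i2, s.p2_i1, s.p2_i2, inner_zero_left, inner_zero_left]
    ring
  have i1 : Integrable fun x => g (s.p2 x) * f (s.p1 x) * fderiv ℝ φ x (s.i1 (s.p1 a)) :=
    s11_int (s11_memLp s.swap hg.mf hf.mf) (c1 _) (c2 _)
  have i2 : Integrable fun x => f (s.p1 x) * g (s.p2 x) * fderiv ℝ φ x (s.i2 (s.p2 a)) :=
    s11_int m0 (c1 _) (c2 _)
  have i3 : Integrable fun x => g (s.p2 x) * ⟪G (s.p1 x), s.p1 a⟫ * φ x :=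
    s11_int (s11_memLp s.swap hg.mf (s11_inner hf.mG (s.p1 a))) hφ.sm.continuous hφ.cpt
  have i4 : Integrable fun x => f (s.p1 x) * ⟪K (s.p2 x), s.p2 a⟫ * φ x :=
    s11_int (s11_memLp s hf.mf (s11_inner hg.mG (s.p2 a))) hφ.sm.continuous hφ.cpt
  simp only [e1, e2]
  rw [integral_add i1 i2, integral_add i3 i4, h1, h2]
  ring

theorem Spl.integral_mul {f : A → ℝ} {g : B → ℝ} : ∫ x, f (s.p1 x) * g (s.p2 x) = (∫ a, f a) * ∫ b, g b := by
  rw [← integral_prod_mul f g]
  exact (s11_mq s).integral_comp (s11_emb s) fun p : A × B => f p.1 * g p.2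

theorem Spl.memLp_tensor {f : A → ℝ} {g : B → ℝ} (hf : MemLp f 2 volume) (hg : MemLp g 2 volume) :
    MemLp (fun x => f (s.p1 x) * g (s.p2 x)) 2 volume := by
  exact s11_memLp s hf hg

/-- a form bounded potential of the second factor -/
theorem FB.comp_p2 {V : B → ℝ} (hV : FB V) : FB fun x => V (s.p2 x) := by
  refine ⟨s11_meas s hV.meas, fun F G hF => ?_, fun ε hε => ?_⟩
  · obtain ⟨C, -, h⟩ := hV.small 1 one_pos
    refine Integrable.mono' (s11_key s hV zero_le_one h hF).1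
      ((s11_meas s hV.meas).mul (hF.mf.1.pow 2)) (Eventually.of_forall fun x => ?_)
    rw [Real.norm_eq_abs, abs_mul, abs_pow, sq_abs]
  · obtain ⟨C, hC, h⟩ := hV.small ε hε
    exact ⟨C, hC, fun F G hF => (s11_key s hV hε.le h hF).2⟩

theorem FB.comp_p1 {V : A → ℝ} (hV : FB V) : FB fun x => V (s.p1 x) := by
  exact FB.comp_p2 s.swap hV

end Crest.Agent.R335
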