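import Crest.Agent.R335.S11a

/-!
# R335/S11: splittings, slices, tensor products
-/

set_option autoImplicit false

namespace Crest.Agent.R335

open MeasureTheory Set Filter Topology
open scoped Gradient RealInnerProductSpace ENNReal ContDiff
open Crest.MathPhysics.ThreeBody

variable {A B E : Type} [NormedAddCommGroup A] [InnerProductSpace ℝ A] [FiniteDimensional ℝ A]
  [MeasurableSpace A] [BorelSpace A] [NormedAddCommGroup B] [InnerProductSpace ℝ B] [FiniteDimensional ℝ B]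
  [MeasurableSpace B] [BorelSpace B] [NormedAddCommGroup E] [InnerProductSpace ℝ E] [FiniteDimensional ℝ E]
  [MeasurableSpace E] [BorelSpace E] (s : Spl A B E)


theorem s11b_ae_sub {α : Type*} [MeasurableSpace α] {μ : Measure α} {g : ℕ → α → ℝ≥0∞}
    (hg : ∀ n, AEMeasurable (g n) μ) (h : Tendsto (fun n => ∫⁻ a, g n a ∂μ) atTop (𝓝 0)) :
    ∃ ns : ℕ → ℕ, StrictMono ns ∧ ∀ᵐ a ∂μ, Tendsto (fun k => g (ns k) a) atTop (𝓝 0) := by
  have h1 : ∀ k : ℕ, ∀ᶠ n in atTop, ∫⁻ a, g n a ∂μ ≤ (2⁻¹ : ℝ≥0∞) ^ k := fun k =>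
    h.eventually (ge_mem_nhds (ENNReal.pow_pos (by simp) k))
  obtain ⟨ns, hns, h2⟩ := extraction_forall_of_eventually h1
  refine ⟨ns, hns, ?_⟩
  have h3 : ∫⁻ a, ∑' k, g (ns k) a ∂μ ≠ ⊤ := by
    rw [lintegral_tsum fun k => hg _]
    refine ne_top_of_le_ne_top ?_ (ENNReal.tsum_le_tsum h2)
    simp
  filter_upwards [ae_lt_top' (AEMeasurable.ennreal_tsum fun k => hg _) h3] with a ha
  exact ENNReal.tendsto_atTop_zero_of_tsum_ne_top ha.ne

theorem s11b_eLp {α X : Type*} [MeasurableSpace α] {μ : Measure α} [NormedAddCommGroup X]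
    (u : α → X) : eLpNorm u 2 μ = (∫⁻ x, ‖u x‖ₑ ^ (2 : ℝ) ∂μ) ^ (1 / 2 : ℝ) := by
  rw [eLpNorm_eq_lintegral_rpow_enorm_toReal two_ne_zero ENNReal.ofNat_ne_top]
  simp

theorem s11b_eLp' {α X : Type*} [MeasurableSpace α] {μ : Measure α} [NormedAddCommGroup X]
    (u : α → X) : ∫⁻ x, ‖u x‖ₑ ^ (2 : ℝ) ∂μ = eLpNorm u 2 μ ^ (2 : ℝ) := by
  rw [s11b_eLp, ← ENNReal.rpow_mul]
  simp

theorem s11b_sub {X : Type*} [NormedAddCommGroup X] (u : ℕ → E → X)
    (hu : ∀ n, AEStronglyMeasurable (u n) volume)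
    (h : Tendsto (fun n => eLpNorm (u n) 2 volume) atTop (𝓝 0)) :
    ∃ ns : ℕ → ℕ, StrictMono ns ∧
      ∀ᵐ a, Tendsto (fun k => eLpNorm (fun b => u (ns k) (s.j a b)) 2 volume) atTop (𝓝 0) := by
  have hm : ∀ n, AEMeasurable (fun x => ‖u n x‖ₑ ^ (2 : ℝ)) volume := fun n =>
    (hu n).enorm.pow_const _
  have h1 : Tendsto (fun n => ∫⁻ a, ∫⁻ b, ‖u n (s.j a b)‖ₑ ^ (2 : ℝ)) atTop (𝓝 0) := by
    have h2 := ((ENNReal.continuous_rpow_const (y := (2 : ℝ))).tendsto 0).comp h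
    rw [ENNReal.zero_rpow_of_pos two_pos] at h2
    refine h2.congr fun n => ?_
    rw [← s.lintegral_eq (hm n), s11b_eLp']
    rfl
  obtain ⟨ns, hns, h3⟩ := s11b_ae_sub (g := fun n a => ∫⁻ b, ‖u n (s.j a b)‖ₑ ^ (2 : ℝ))
    (fun n => ((hm n).comp_quasiMeasurePreserving
      s.mp.quasiMeasurePreserving).lintegral_prod_right') h1
  refine ⟨ns, hns, ?_⟩
  filter_upwards [h3] with a ha
  have h2 := ((ENNReal.continuous_rpow_const (y := (1 / 2 : ℝ))).tendsto 0).comp ha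
  rw [ENNReal.zero_rpow_of_pos (by norm_num)] at h2
  refine h2.congr fun n => ?_
  rw [s11b_eLp]
  rfl

theorem s11b_memLp {X : Type*} [NormedAddCommGroup X] {f : E → X} (hf : MemLp f 2 volume) :
    ∀ᵐ a, MemLp (fun b => f (s.j a b)) 2 volume := by
  have h1 : MemLp (fun p : A × B => f (s.j p.1 p.2)) 2 (volume.prod volume) :=
    hf.comp_measurePreserving s.mp
  have h2 := ((memLp_two_iff_integrable_sq_norm h1.1).1 h1).prod_right_ae
  filter_upwards [h1.1.prodMk_left, h2] with a ha1 ha2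
  exact (memLp_two_iff_integrable_sq_norm ha1).2 ha2

theorem s11b_norm_p2 (x : E) : ‖s.p2 x‖ ≤ ‖x‖ := by
  have h := s.norm_sq x
  exact le_of_sq_le_sq (by nlinarith [sq_nonneg ‖s.p1 x‖]) (norm_nonneg _)

theorem s11b_tst {φ : E → ℝ} (hφ : Tst univ φ) (a : A) :
    H1 (fun b => φ (s.j a b)) fun b => s.p2 (∇ φ (s.j a b)) := by
  have hj : ∀ b, HasFDerivAt (fun b => s.j a b) s.i2 b := fun b =>
    s.i2.hasFDerivAt.const_add (s.i1 a)
  have hc : ContDiff ℝ 1 (fun b => φ (s.j a b)) :=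
    (hφ.sm.of_le (by exact_mod_cast le_top)).comp (contDiff_const.add s.i2.contDiff)
  have hs : HasCompactSupport (fun b => φ (s.j a b)) := by
    refine HasCompactSupport.intro (hφ.cpt.isCompact.image s.p2.continuous) fun b hb => ?_
    refine image_eq_zero_of_notMem_tsupport fun h => hb ⟨_, h, s.p2_j a b⟩
  have hg : ∇ (fun b => φ (s.j a b)) = fun b => s.p2 (∇ φ (s.j a b)) := by
    funext b
    have h1 : HasGradientAt φ (∇ φ (s.j a b)) (s.j a b) :=
      (hφ.sm.differentiable (by simp) _).hasGradientAt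
    refine HasGradientAt.gradient ?_
    rw [hasGradientAt_iff_hasFDerivAt] at h1 ⊢
    refine (h1.comp b (hj b)).congr_fderiv ?_
    ext v
    simp only [ContinuousLinearMap.comp_apply, InnerProductSpace.toDual_apply_apply]
    rw [s.inn, s.p1_i2, s.p2_i2, inner_zero_right, zero_add]
  rw [← hg]
  exact H1.of_c1_cpt hc hs


/-- slices: along a fast subsequence of `H1.dense` almost all slices converge in `H¹` -/
theorem H1.slice {F : E → ℝ} {G : E → E} (hF : H1 F G) :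
    ∀ᵐ a, H1 (fun b => F (s.j a b)) fun b => s.p2 (G (s.j a b)) := by
  obtain ⟨φ, hφ, hap, -⟩ := hF.dense
  have hm1 : ∀ n, AEStronglyMeasurable (fun x => φ n x - F x) volume := fun n =>
    (hφ n).h1.mf.1.sub hF.mf.1
  have hm2 : ∀ n, AEStronglyMeasurable (fun x => ∇ (φ n) x - G x) volume := fun n =>
    (hφ n).h1.mG.1.sub hF.mG.1
  obtain ⟨n1, hn1, h1⟩ := s11b_sub s (fun n x => φ n x - F x) hm1 hap.l2
  obtain ⟨n2, hn2, h2⟩ := s11b_sub s (fun n x => ∇ (φ (n1 n)) x - G x) (fun n => hm2 _)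
    (hap.l2G.comp hn1.tendsto_atTop)
  filter_upwards [h1, h2, s11b_memLp s hF.mf, s11b_memLp s hF.mG] with a ha1 ha2 ha3 ha4
  refine H1.of_tendsto (φ := fun k b => φ (n1 (n2 k)) (s.j a b))
    (K := fun k b => s.p2 (∇ (φ (n1 (n2 k))) (s.j a b))) (fun k => s11b_tst s (hφ _) a) ha3
    (s.p2.comp_memLp' ha4) (ha1.comp hn2.tendsto_atTop) ?_
  refine tendsto_of_tendsto_of_tendsto_of_le_of_le tendsto_const_nhds ha2 (fun _ => bot_le)
    fun k => eLpNorm_mono fun b => ?_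
  rw [← map_sub]
  exact s11b_norm_p2 s _
end Crest.Agent.R335
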