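import Crest.Agent.R335.S12c

/-!
# R335/S12: fibre integrals
-/

set_option autoImplicit false

namespace Crest.Agent.R335

open MeasureTheory Set Filter Topology
open scoped Gradient RealInnerProductSpace ENNReal ContDiff
open Crest.MathPhysics.ThreeBody

variable {A B E : Type} [NormedAddCommGroup A] [InnerProductSpace ℝ A] [FiniteDimensional ℝ A]
  [MeasurableSpace A] [BorelSpace A] [NormedAddCommGroup B] [InnerProductSpace ℝ B] [FiniteDimensional ℝ B]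
  [MeasurableSpace B] [BorelSpace B] [NormedAddCommGroup E] [InnerProductSpace ℝ E] [FiniteDimensional ℝ E]
  [MeasurableSpace E] [BorelSpace E] (s : Spl A B E)


theorem s12_aesm {F : Type} [NormedAddCommGroup F] {g : A → F} (hg : AEStronglyMeasurable g volume) :
    AEStronglyMeasurable (fun x => g (s.p1 x)) volume := by
  refine ⟨fun x => hg.mk g (s.p1 x), hg.stronglyMeasurable_mk.comp_measurable s.p1.continuous.measurable, ?_⟩
  exact s.ae_p1 hg.ae_eq_mk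

theorem s12_fibre_int {F : Type} [NormedAddCommGroup F] {f : E → F} (hf : Integrable f) :
    ∀ᵐ a, Integrable fun b => f (s.j a b) :=
  ((s.mp.integrable_comp hf.1).2 hf).prod_right_ae

/-- a product `F x • K (p1 x)` is square integrable if `‖K‖² ∫ F²` is integrable -/
theorem s12_memLp {F : E → ℝ} (hF : MemLp F 2 volume) {K : A → A} (hK : AEStronglyMeasurable K volume)
    (h : Integrable fun a => ‖K a‖ ^ 2 * ∫ b, F (s.j a b) ^ 2) :
    MemLp (fun x => F x • K (s.p1 x)) 2 volume := by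
  have hm : AEStronglyMeasurable (fun x => F x • K (s.p1 x)) volume := hF.1.smul (s12_aesm s hK)
  rw [memLp_two_iff_integrable_sq_norm hm]
  have hm2 : AEStronglyMeasurable (fun x => ‖F x • K (s.p1 x)‖ ^ 2) volume := hm.norm.pow 2
  rw [← s.mp.integrable_comp hm2]
  have e : ∀ a b, ‖F (s.j a b) • K (s.p1 (s.j a b))‖ ^ 2 = ‖K a‖ ^ 2 * F (s.j a b) ^ 2 := by
    intro a b
    rw [s.p1_j, norm_smul, mul_pow, Real.norm_eq_abs, sq_abs, mul_comm]
  refine (integrable_prod_iff (hm2.comp_quasiMeasurePreserving s.mp.quasiMeasurePreserving)).2 ⟨?_, ?_⟩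
  · filter_upwards [s12_fibre_int s hF.integrable_sq] with a ha
    simp only [Function.comp_apply, e]
    exact ha.const_mul _
  · refine h.congr (Eventually.of_forall fun a => ?_)
    simp only [Function.comp_apply, e]
    rw [← integral_const_mul]
    refine integral_congr_ae (Eventually.of_forall fun b => ?_)
    simp only
    rw [Real.norm_of_nonneg (by positivity)]

theorem s12_int_inner {X : Type} [MeasurableSpace X] {μ : Measure X} {f g : X → A} (hf : MemLp f 2 μ)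
    (hg : MemLp g 2 μ) : Integrable (fun x => ⟪f x, g x⟫) μ := by
  refine Integrable.mono' (hf.norm.integrable_mul hg.norm) (hf.1.inner hg.1) (Eventually.of_forall fun x => ?_)
  exact norm_inner_le_norm _ _

/-- one term of the sum as an integral over the first factor -/
theorem s12_term {Y : E → ℝ} {G : E → E} (hY : H1 Y G) {φ : A → ℝ} {K : A → A}
    (hφ : AEStronglyMeasurable φ volume) {M : ℝ} (hM : ∀ a, |φ a| ≤ M)
    (hK : MemLp (fun x => Y x • K (s.p1 x)) 2 volume) :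
    Integrable (fun a => φ a * (∫ b, ‖s.p1 (G (s.j a b))‖ ^ 2) +
      ⟪∫ b, Y (s.j a b) • s.p1 (G (s.j a b)), K a⟫) ∧
    ∫ x, (φ (s.p1 x) * ‖s.p1 (G x)‖ ^ 2 + Y x * ⟪s.p1 (G x), K (s.p1 x)⟫) =
      ∫ a, (φ a * (∫ b, ‖s.p1 (G (s.j a b))‖ ^ 2) + ⟪∫ b, Y (s.j a b) • s.p1 (G (s.j a b)), K a⟫) := by
  have hG : MemLp (fun x => s.p1 (G x)) 2 volume := s.p1.comp_memLp' hY.mG
  have i1 : Integrable fun x => ‖s.p1 (G x)‖ ^ 2 := (memLp_two_iff_integrable_sq_norm hG.1).1 hG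
  have i2 : Integrable fun x => φ (s.p1 x) * ‖s.p1 (G x)‖ ^ 2 :=
    i1.bdd_mul (c := M) (s12_aesm s hφ) (Eventually.of_forall fun x => hM _)
  have i3 : Integrable fun x => Y x * ⟪s.p1 (G x), K (s.p1 x)⟫ := by
    refine (s12_int_inner hG hK).congr (Eventually.of_forall fun x => ?_)
    simp only [real_inner_smul_right]
  have i4 : Integrable fun x => Y x • s.p1 (G x) := by
    refine Integrable.mono' (hY.mf.norm.integrable_mul hG.norm) (hY.mf.1.smul hG.1)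
      (Eventually.of_forall fun x => ?_)
    exact (norm_smul _ _).le
  have i5 : Integrable fun x => φ (s.p1 x) * ‖s.p1 (G x)‖ ^ 2 + Y x * ⟪s.p1 (G x), K (s.p1 x)⟫ := i2.add i3
  have e : ∀ᵐ a, ∫ b, (φ (s.p1 (s.j a b)) * ‖s.p1 (G (s.j a b))‖ ^ 2 +
      Y (s.j a b) * ⟪s.p1 (G (s.j a b)), K (s.p1 (s.j a b))⟫) =
      φ a * (∫ b, ‖s.p1 (G (s.j a b))‖ ^ 2) + ⟪∫ b, Y (s.j a b) • s.p1 (G (s.j a b)), K a⟫ := by
    filter_upwards [s12_fibre_int s i1, s12_fibre_int s i4] with a h1 h4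
    simp only [s.p1_j]
    have h5 : ∀ b, Y (s.j a b) * ⟪s.p1 (G (s.j a b)), K a⟫ = ⟪K a, Y (s.j a b) • s.p1 (G (s.j a b))⟫ := by
      intro b
      rw [real_inner_smul_right, real_inner_comm]
    simp only [h5]
    rw [integral_add (h1.const_mul _) (h4.const_inner _), integral_const_mul, integral_inner h4,
      real_inner_comm]
  exact ⟨(s.integrable_fibre i5).2.congr e, (s.integral_eq i5).trans (integral_congr_ae e)⟩

/-- `t ↦ 1 / √(t² + ε²)` -/
noncomputable def s12h (ε t : ℝ) : ℝ := (√(t ^ 2 + ε ^ 2))⁻¹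

theorem s12_pos {ε : ℝ} (hε : 0 < ε) (t : ℝ) : 0 < √(t ^ 2 + ε ^ 2) := Real.sqrt_pos.2 (by positivity)

theorem s12_ge {ε : ℝ} (hε : 0 < ε) (t : ℝ) : ε ≤ √(t ^ 2 + ε ^ 2) ∧ |t| ≤ √(t ^ 2 + ε ^ 2) :=
  ⟨Real.le_sqrt_of_sq_le (by nlinarith [sq_nonneg t]),
    Real.le_sqrt_of_sq_le (by rw [sq_abs]; nlinarith [sq_nonneg ε])⟩

theorem s12h_cd {ε : ℝ} (hε : 0 < ε) : ContDiff ℝ 1 (s12h ε) := by
  refine ContDiff.inv (ContDiff.sqrt (by fun_prop) fun t => by positivity) fun t => (s12_pos hε t).ne'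

theorem s12h_deriv {ε : ℝ} (hε : 0 < ε) (t : ℝ) : deriv (s12h ε) t = -t * s12h ε t ^ 3 := by
  have h1 : HasDerivAt (fun t : ℝ => t ^ 2 + ε ^ 2) (2 * t) t := by
    simpa using (hasDerivAt_pow 2 t).add_const (ε ^ 2)
  have h2 := (h1.sqrt (by positivity)).inv (s12_pos hε t).ne'
  have h3 : HasDerivAt (s12h ε) (-t * s12h ε t ^ 3) t := by
    refine HasDerivAt.congr_deriv h2 ?_
    have := (s12_pos hε t).ne'
    unfold s12h
    field_simp
  exact h3.deriv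

theorem s12h_bd {ε : ℝ} (hε : 0 < ε) (t : ℝ) :
    0 < s12h ε t ∧ s12h ε t ≤ ε⁻¹ ∧ |t| * s12h ε t ≤ 1 := by
  have h0 := s12_pos hε t
  obtain ⟨h1, h2⟩ := s12_ge hε t
  refine ⟨inv_pos.2 h0, inv_anti₀ hε h1, ?_⟩
  unfold s12h
  rw [← div_eq_mul_inv]
  exact (div_le_one h0).2 h2

/-- the abstract Kato inequality.  `Y i` are the components of a vector valued function, `y` its length.  The
hypothesis `H` is what the eigenvalue equation gives when it is tested with `φ (p1 x) * Y i x`.  Take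
`φ = ξ / √(y² + ε²)` and use `φ ‖K‖² + y ⟪K, ∇ φ⟫ ≥ y / √(y² + ε²) * ⟪K, ∇ ξ⟫`. -/
theorem ki_of_test {n : ℕ} (s : Fin n → Spl A B E) {Y : Fin n → E → ℝ} {G : Fin n → E → E}
    (hY : ∀ i, H1 (Y i) (G i)) {Ω : Set A} (hΩ : IsOpen Ω) {κ σ t : A → ℝ} (hκ : LB Ω κ)
    (hσ : MemLp (Ω.indicator σ) 2 volume) (ht : MemLp (Ω.indicator t) 2 volume)
    (H : ∀ φ K, TH Ω φ K → (∀ a, 0 ≤ φ a) → (∃ M : ℝ, ∀ a, φ a ≤ M) →
      (∀ i, H1 (fun x => φ ((s i).p1 x) * Y i x)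
        fun x => φ ((s i).p1 x) • G i x + Y i x • (s i).i1 (K ((s i).p1 x))) →
      (1 / 2) * (∑ i, ∫ x, (φ ((s i).p1 x) * ‖(s i).p1 (G i x)‖ ^ 2 + Y i x * ⟪(s i).p1 (G i x), K ((s i).p1 x)⟫)) +
        ∫ a, φ a * (κ a * (∑ i, ∫ b, Y i ((s i).j a b) ^ 2) - σ a * √(∑ i, ∫ b, Y i ((s i).j a b) ^ 2) - t a ^ 2)
          ≤ 0) :
    ∃ K, KI Ω (fun a => √(∑ i, ∫ b, Y i ((s i).j a b) ^ 2)) K κ σ t := by
  obtain ⟨K0, h1, h2, h3⟩ := H1.fibre_norm s hY
  set y : A → ℝ := fun a => √(∑ i, ∫ b, Y i ((s i).j a b) ^ 2) with hy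
  have hy0 : ∀ a, 0 ≤ y a := fun a => Real.sqrt_nonneg _
  have hnn : ∀ a i, 0 ≤ ∫ b, Y i ((s i).j a b) ^ 2 := fun a i => integral_nonneg fun b => sq_nonneg _
  have hy2 : ∀ a, y a ^ 2 = ∑ i, ∫ b, Y i ((s i).j a b) ^ 2 := fun a =>
    Real.sq_sqrt (Finset.sum_nonneg fun i _ => hnn a i)
  refine ⟨K0, h1, hy0, hκ, hσ, ht, fun ε hε ξ hξ hξ0 => ?_⟩
  have hL : ∀ t, |deriv (s12h ε) t| ≤ ε⁻¹ ^ 2 := by
    intro t
    obtain ⟨b0, b1, b2⟩ := s12h_bd hε t
    rw [s12h_deriv hε, abs_mul, abs_neg, abs_of_pos (pow_pos b0 3)]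
    calc |t| * s12h ε t ^ 3 = (|t| * s12h ε t) * s12h ε t ^ 2 := by ring
      _ ≤ 1 * ε⁻¹ ^ 2 := by gcongr
      _ = ε⁻¹ ^ 2 := one_mul _
  have hT := ((h1.loc Ω).comp_lip hΩ (s12h_cd hε) hL).th_mul hΩ (hξ.sm.of_le (by simp)) hξ.cpt hξ.sub
  obtain ⟨M, hM⟩ := hξ.sm.continuous.bounded_above_of_compact_support hξ.cpt
  have hM' : ∀ a, ξ a ≤ M := fun a => (le_abs_self _).trans (hM a)
  have hM0 : 0 ≤ M := (norm_nonneg _).trans (hM 0)
  set φ : A → ℝ := fun a => ξ a * s12h ε (y a) with hφ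
  set K : A → A := fun a => ξ a • deriv (s12h ε) (y a) • K0 a + s12h ε (y a) • ∇ ξ a with hK
  have hφ0 : ∀ a, 0 ≤ φ a := fun a => mul_nonneg (hξ0 a) (s12h_bd hε _).1.le
  have hφ1 : ∀ a, φ a ≤ M * ε⁻¹ := fun a =>
    mul_le_mul (hM' a) (s12h_bd hε _).2.1 (s12h_bd hε _).1.le hM0
  have hφ2 : ∀ a, |φ a| ≤ M * ε⁻¹ := fun a => by rw [abs_of_nonneg (hφ0 a)]; exact hφ1 a
  have hgξ : MemLp (∇ ξ) 2 volume := hξ.h1.mG
  -- `y K` is square integrable
  have hyK : MemLp (fun a => y a • K a) 2 volume := by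
    have hb : MemLp (fun a => M * ε⁻¹ * ‖K0 a‖ + ‖∇ ξ a‖) 2 volume := (h1.mG.norm.const_mul _).add hgξ.norm
    refine hb.of_le (h1.mf.1.smul hT.h1.mG.1) (Eventually.of_forall fun a => ?_)
    obtain ⟨b0, b1, b2⟩ := s12h_bd hε (y a)
    rw [abs_of_nonneg (hy0 a)] at b2
    have b3 : 0 ≤ y a * s12h ε (y a) := mul_nonneg (hy0 a) b0.le
    have e : y a • K a = (-(φ a * (y a * s12h ε (y a)) ^ 2)) • K0 a + (y a * s12h ε (y a)) • ∇ ξ a := by
      simp only [hK, hφ, s12h_deriv hε, smul_add, smul_smul]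
      congr 2; ring
    rw [e, Real.norm_of_nonneg (by positivity)]
    refine (norm_add_le _ _).trans (add_le_add ?_ ?_)
    · rw [norm_smul, norm_neg, Real.norm_of_nonneg (mul_nonneg (hφ0 a) (sq_nonneg _))]
      refine mul_le_mul_of_nonneg_right ?_ (norm_nonneg _)
      exact (mul_le_of_le_one_right (hφ0 a) (pow_le_one₀ b3 b2)).trans (hφ1 a)
    · rw [norm_smul, Real.norm_of_nonneg b3]
      exact mul_le_of_le_one_left (norm_nonneg _) b2
  have hYK : ∀ i, MemLp (fun x => Y i x • K ((s i).p1 x)) 2 volume := by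
    intro i
    refine s12_memLp (s i) (hY i).mf hT.h1.mG.1 ?_
    refine Integrable.mono' ((memLp_two_iff_integrable_sq_norm hyK.1).1 hyK)
      ((hT.h1.mG.1.norm.pow 2).mul ((s i).integrable_fibre (hY i).mf.integrable_sq).2.1)
      (Eventually.of_forall fun a => ?_)
    rw [Real.norm_of_nonneg (mul_nonneg (sq_nonneg _) (hnn a i)), norm_smul, mul_pow, Real.norm_eq_abs, sq_abs,
      hy2, mul_comm]
    exact mul_le_mul_of_nonneg_right (Finset.single_le_sum (fun i _ => hnn a i) (Finset.mem_univ i))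
      (sq_nonneg _)
  have hH := H φ K hT hφ0 ⟨_, hφ1⟩ fun i => by
    refine H1.mul_p1 (s i) (hY i) hT.h1 (Eventually.of_forall hφ2) ?_
    refine ((s i).i1.comp_memLp' (hYK i)).ae_eq (Eventually.of_forall fun x => ?_)
    simp only [Function.comp_apply, map_smul]
  have hterm := fun i => s12_term (s i) (hY i) hT.h1.mf.1 hφ2 (hYK i)
  rw [Finset.sum_congr rfl fun i _ => (hterm i).2, ← integral_finsetSum _ fun i _ => (hterm i).1] at hH
  have hle : ∫ a, y a / √(y a ^ 2 + ε ^ 2) * ⟪K0 a, ∇ ξ a⟫ ≤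
      ∫ a, ∑ i, (φ a * (∫ b, ‖(s i).p1 (G i ((s i).j a b))‖ ^ 2) +
        ⟪∫ b, Y i ((s i).j a b) • (s i).p1 (G i ((s i).j a b)), K a⟫) := by
    refine integral_mono_ae ?_ (integrable_finsetSum _ fun i _ => (hterm i).1) ?_
    · refine (s12_int_inner h1.mG hgξ).bdd_mul (c := 1) ?_ (Eventually.of_forall fun a => ?_)
      · exact h1.mf.1.mul ((s12h_cd hε).continuous.comp_aestronglyMeasurable h1.mf.1)
      · have := (s12h_bd hε (y a)).2.2
        rw [Real.norm_eq_abs, abs_div, abs_of_pos (s12_pos hε _)]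
        exact this
    · filter_upwards [h2, h3] with a e2 e3
      rw [Finset.sum_add_distrib, ← Finset.mul_sum, ← sum_inner, ← e3]
      obtain ⟨b0, b1, b2⟩ := s12h_bd hε (y a)
      rw [abs_of_nonneg (hy0 a)] at b2
      have b3 : 0 ≤ y a * s12h ε (y a) := mul_nonneg (hy0 a) b0.le
      have e : ⟪y a • K0 a, K a⟫ = -(φ a * (y a * s12h ε (y a)) ^ 2 * ‖K0 a‖ ^ 2) +
          y a * s12h ε (y a) * ⟪K0 a, ∇ ξ a⟫ := by
        simp only [hK, hφ, s12h_deriv hε, inner_add_right, real_inner_smul_left, real_inner_smul_right,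
          real_inner_self_eq_norm_sq]
        ring
      have b4 : φ a * (y a * s12h ε (y a)) ^ 2 * ‖K0 a‖ ^ 2 ≤ φ a * ‖K0 a‖ ^ 2 :=
        mul_le_mul_of_nonneg_right (mul_le_of_le_one_right (hφ0 a) (pow_le_one₀ b3 b2)) (sq_nonneg _)
      have b5 := mul_le_mul_of_nonneg_left e2 (hφ0 a)
      change y a * s12h ε (y a) * ⟪K0 a, ∇ ξ a⟫ ≤ _ + ⟪y a • K0 a, K a⟫
      rw [e]
      linarith
  have e2 : ∫ a, ξ a * ((κ a * y a ^ 2 - σ a * y a - t a ^ 2) / √(y a ^ 2 + ε ^ 2)) =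
      ∫ a, φ a * (κ a * (∑ i, ∫ b, Y i ((s i).j a b) ^ 2) - σ a * y a - t a ^ 2) := by
    refine integral_congr_ae (Eventually.of_forall fun a => ?_)
    simp only [hφ, s12h, ← hy2 a]
    ring
  rw [e2]
  linarith

end Crest.Agent.R335
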