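import Crest.Agent.R335.S11
import Crest.Agent.R335.S6

/-!
# R335/S12: fibre integrals
-/

set_option autoImplicit false

namespace Crest.Agent.R335

open MeasureTheory Set Filter Topology
open scoped Gradient RealInnerProductSpace ENNReal ContDiff
open Crest.MathPhysics.ThreeBody

variable {A B E : Type} [NormedAddCommGroup A] [InnerProductSpace ℝ A] [FiniteDimensional ℝ A]
  [MeasurableSpace A] [BorelSpace A] [NormedAddCommGroup B] [InnerProductSpace ℝ B] [FiniteDimensional ℝ B]
  [MeasurableSpace B] [BorelSpace B] [NormedAddCommGroup E] [InnerProductSpace ℝ E] [FiniteDimensional ℝ E]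
  [MeasurableSpace E] [BorelSpace E] (s : Spl A B E)


theorem s12a_slice {V : Type} [NormedAddCommGroup V] {H : A × B → V} (hH : MemLp H 2 (volume.prod volume)) :
    ∀ᵐ a, MemLp (fun b => H (a, b)) 2 volume := by
  have h1 := (memLp_two_iff_integrable_sq_norm hH.1).1 hH
  filter_upwards [h1.prod_right_ae, hH.1.prodMk_left] with a h2 h3
  exact (memLp_two_iff_integrable_sq_norm h3).2 h2

theorem s12a_memLp {V : Type} [NormedAddCommGroup V] [NormedSpace ℝ V] {H : A × B → V}
    (hH : MemLp H 2 (volume.prod volume)) {Φ : B → ℝ} (hΦ : MemLp Φ 2 volume) :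
    MemLp (fun a => ∫ b, Φ b • H (a, b)) 2 volume := by
  have h0 : AEStronglyMeasurable (fun a => ∫ b, Φ b • H (a, b)) volume :=
    (hΦ.1.comp_snd.smul hH.1).integral_prod_right'
  have h1 := (memLp_two_iff_integrable_sq_norm hH.1).1 hH
  refine (memLp_two_iff_integrable_sq_norm h0).2
    ((h1.integral_prod_left.const_mul (nsq fun b => ‖Φ b‖)).mono' (h0.norm.pow 2) ?_)
  filter_upwards [s12a_slice hH] with a ha
  rw [Real.norm_of_nonneg (sq_nonneg _)]
  refine le_trans ?_ (ip_sq_le hΦ.norm ha.norm)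
  refine pow_le_pow_left₀ (norm_nonneg _) ((norm_integral_le_integral_norm _).trans (le_of_eq ?_)) 2
  simp only [ip, norm_smul]

theorem s12a_swap {h : A × B → ℝ} (hh : MemLp h 2 (volume.prod volume)) {Φ : B → ℝ} (hΦ : MemLp Φ 2 volume)
    {ψ : A → ℝ} (hψ : MemLp ψ 2 volume) :
    ∫ a, (∫ b, Φ b * h (a, b)) * ψ a = ∫ b, Φ b * ∫ a, h (a, b) * ψ a := by
  have h1 : MemLp (fun z : A × B => ψ z.1 * Φ z.2) 2 (volume.prod volume) := by
    refine (memLp_two_iff_integrable_sq (hψ.1.comp_fst.mul hΦ.1.comp_snd)).2 ?_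
    simpa only [Pi.mul_apply, mul_pow] using hψ.integrable_sq.mul_prod hΦ.integrable_sq
  have h2 : Integrable (Function.uncurry fun a b => Φ b * h (a, b) * ψ a) (volume.prod volume) := by
    refine (h1.integrable_mul hh).congr (Eventually.of_forall fun z => ?_)
    simp only [Function.uncurry, Pi.mul_apply]
    ring
  simp only [← integral_mul_const, ← integral_const_mul]
  rw [integral_integral_swap h2]
  simp only [mul_assoc]

/-- scalar product with a fixed function of the second variable -/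
theorem H1.fibre_ip {F : E → ℝ} {G : E → E} (hF : H1 F G) {Φ : B → ℝ} (hΦ : MemLp Φ 2 volume) :
    H1 (fun a => ∫ b, Φ b * F (s.j a b)) fun a => ∫ b, Φ b • s.p1 (G (s.j a b)) := by
  have h1 : MemLp (fun z : A × B => F (s.j z.1 z.2)) 2 (volume.prod volume) :=
    hF.mf.comp_measurePreserving s.mp
  have h2 : MemLp (fun z : A × B => s.p1 (G (s.j z.1 z.2))) 2 (volume.prod volume) :=
    s.p1.comp_memLp' (hF.mG.comp_measurePreserving s.mp)
  refine ⟨s12a_memLp h1 hΦ, s12a_memLp h2 hΦ, fun φ hφ v => ?_⟩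
  have h3 : MemLp φ 2 volume := hφ.sm.continuous.memLp_of_hasCompactSupport hφ.cpt
  have h4 : MemLp (fun a => fderiv ℝ φ a v) 2 volume :=
    ((hφ.sm.continuous_fderiv (by simp)).clm_apply continuous_const).memLp_of_hasCompactSupport
      (hφ.cpt.fderiv_apply ℝ v)
  have h5 : MemLp (fun z : A × B => ⟪s.p1 (G (s.j z.1 z.2)), v⟫) 2 (volume.prod volume) := h2.inner_const v
  have h6 : ∫ a, ⟪∫ b, Φ b • s.p1 (G (s.j a b)), v⟫ * φ a =
      ∫ a, (∫ b, Φ b * ⟪s.p1 (G (s.j a b)), v⟫) * φ a := by
    refine integral_congr_ae ?_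
    filter_upwards [s12a_slice h2] with a ha
    have h7 : Integrable fun b => Φ b • s.p1 (G (s.j a b)) := memLp_one_iff_integrable.1 (ha.smul hΦ)
    rw [real_inner_comm, ← integral_inner h7]
    simp only [inner_smul_right, real_inner_comm v]
  rw [h6, s12a_swap h1 hΦ h4, s12a_swap h5 hΦ h3, ← integral_neg]
  refine integral_congr_ae ?_
  filter_upwards [H1.slice s.swap hF] with b hb
  have h8 := hb.wg φ hφ v
  simp only [s.swap_j] at h8
  rw [h8, mul_neg]
  rfl

end Crest.Agent.R335
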