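import Crest.Agent.R335.S12a

/-!
# R335/S12: fibre integrals
-/

set_option autoImplicit false

namespace Crest.Agent.R335

open MeasureTheory Set Filter Topology
open scoped Gradient RealInnerProductSpace ENNReal ContDiff
open Crest.MathPhysics.ThreeBody

variable {A B E : Type} [NormedAddCommGroup A] [InnerProductSpace ℝ A] [FiniteDimensional ℝ A]
  [MeasurableSpace A] [BorelSpace A] [NormedAddCommGroup B] [InnerProductSpace ℝ B] [FiniteDimensional ℝ B]
  [MeasurableSpace B] [BorelSpace B] [NormedAddCommGroup E] [InnerProductSpace ℝ E] [FiniteDimensional ℝ E]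
  [MeasurableSpace E] [BorelSpace E] (s : Spl A B E)


theorem s12b_count {H ι : Type} [NormedAddCommGroup H] [InnerProductSpace ℝ H]
    [TopologicalSpace.SeparableSpace H] {v : ι → H} (hv : Orthonormal ℝ v) : Countable ι := by
  refine Pairwise.countable_of_isOpen_disjoint (s := fun i => Metric.ball (v i) (1 / 2)) (fun i j hij => ?_)
    (fun _ => Metric.isOpen_ball) fun _ => Metric.nonempty_ball.2 (by norm_num)
  refine Metric.ball_disjoint_ball ?_
  have h := norm_sub_sq_real (v i) (v j)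
  rw [hv.1 i, hv.1 j, hv.2 hij] at h
  rw [dist_eq_norm]
  nlinarith [norm_nonneg (v i - v j)]

theorem s12b_abs {H ι X : Type} [NormedAddCommGroup H] [InnerProductSpace ℝ H] [CompleteSpace H]
    [NormedAddCommGroup X] [NormedSpace ℝ X] (b : HilbertBasis ι ℝ H) (T : H →L[ℝ] X) {M : ℝ} (hM : 0 ≤ M)
    (hT : ∀ φ, ‖T φ‖ ≤ ‖φ‖ * M) (x : H) :
    HasSum (fun k => ⟪b k, x⟫ ^ 2) (‖x‖ ^ 2) ∧ HasSum (fun k => ⟪b k, x⟫ • T (b k)) (T x) ∧
      ∀ u : Finset ι, ‖∑ k ∈ u, ⟪b k, x⟫ • T (b k)‖ ≤ √(∑ k ∈ u, ⟪b k, x⟫ ^ 2) * M := by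
  refine ⟨?_, ?_, fun u => ?_⟩
  · have := b.hasSum_inner_mul_inner x x
    rw [real_inner_self_eq_norm_sq] at this
    simpa only [real_inner_comm x, sq] using this
  · have := (b.hasSum_repr x).mapL T
    simpa only [map_smul, b.repr_apply_apply] using this
  · have e : ∑ k ∈ u, ⟪b k, x⟫ • T (b k) = T (∑ k ∈ u, ⟪b k, x⟫ • b k) := by
      simp only [map_sum, map_smul]
    rw [e]
    refine (hT _).trans (mul_le_mul_of_nonneg_right (Real.le_sqrt_of_sq_le (le_of_eq ?_)) hM)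
    rw [← real_inner_self_eq_norm_sq, b.orthonormal.inner_sum]
    simp only [conj_trivial, sq]

theorem s12b_norm {X : Type} [NormedAddCommGroup X] [InnerProductSpace ℝ X] {w : B → X}
    (hw : MemLp w 2 volume) : ‖hw.toLp w‖ ^ 2 = ∫ y, ‖w y‖ ^ 2 := by
  rw [← real_inner_self_eq_norm_sq, L2.inner_def]
  refine integral_congr_ae ?_
  filter_upwards [hw.coeFn_toLp] with y hy
  rw [hy, real_inner_self_eq_norm_sq]

theorem s12b_fib {ι : Type} (b : HilbertBasis ι ℝ (Lp ℝ 2 (volume : Measure B))) {u : B → ℝ} {w : B → A}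
    (hu : MemLp u 2 volume) (hw : MemLp w 2 volume) :
    HasSum (fun k => (∫ y, b k y * u y) ^ 2) (∫ y, u y ^ 2) ∧
      HasSum (fun k => (∫ y, b k y * u y) • ∫ y, b k y • w y) (∫ y, u y • w y) ∧
      ∀ v : Finset ι, ‖∑ k ∈ v, (∫ y, b k y * u y) • ∫ y, b k y • w y‖ ≤
        √(∑ k ∈ v, (∫ y, b k y * u y) ^ 2) * √(∫ y, ‖w y‖ ^ 2) := by
  let L : ℝ →L[ℝ] A →L[ℝ] A := ContinuousLinearMap.lsmul ℝ ℝ
  let T : Lp ℝ 2 (volume : Measure B) →L[ℝ] A := (L.lpPairing volume 2 2).flip (hw.toLp w)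
  have hT : ∀ φ, T φ = ∫ y, φ y • w y := fun φ => by
    simp only [T, ContinuousLinearMap.flip_apply, ContinuousLinearMap.lpPairing_eq_integral]
    refine integral_congr_ae ?_
    filter_upwards [hw.coeFn_toLp] with y hy
    rw [hy]
    rfl
  have hn : ∀ φ, ‖T φ‖ ≤ ‖φ‖ * ‖hw.toLp w‖ := fun φ => by
    have e : T φ = L1.integral (L.holder 1 φ (hw.toLp w)) := by
      simp [T, ContinuousLinearMap.lpPairing, ← L1.integral_eq']
    rw [e]
    refine (L1.norm_integral_le _).trans ((L.norm_holder_apply_apply_le _ _).trans ?_)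
    have : ‖L‖ ≤ 1 := ContinuousLinearMap.opNorm_lsmul_le
    rw [mul_assoc]
    exact mul_le_of_le_one_left (by positivity) this
  have h := s12b_abs b T (norm_nonneg _) hn (hu.toLp u)
  have e1 : ∀ k, ⟪b k, hu.toLp u⟫ = ∫ y, b k y * u y := fun k => by
    rw [L2.inner_def]
    refine integral_congr_ae ?_
    filter_upwards [hu.coeFn_toLp] with y hy
    rw [hy, real_inner_comm]
    rfl
  have e2 : T (hu.toLp u) = ∫ y, u y • w y := by
    rw [hT]
    refine integral_congr_ae ?_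
    filter_upwards [hu.coeFn_toLp] with y hy
    rw [hy]
  have e3 : ‖hw.toLp w‖ = √(∫ y, ‖w y‖ ^ 2) := by
    rw [← s12b_norm hw, Real.sqrt_sq (norm_nonneg _)]
  rw [s12b_norm hu, e2, e3] at h
  simpa only [e1, hT, Real.norm_eq_abs, sq_abs] using h

theorem s12b_slice {X : Type} [NormedAddCommGroup X] {F : E → X} (hF : MemLp F 2 volume) :
    (∀ᵐ a, MemLp (fun b => F (s.j a b)) 2 volume) ∧ Integrable fun a => ∫ b, ‖F (s.j a b)‖ ^ 2 := by
  have h1 := s.integrable_fibre ((memLp_two_iff_integrable_sq_norm hF.1).1 hF)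
  refine ⟨?_, h1.2⟩
  filter_upwards [h1.1, (hF.comp_measurePreserving s.mp).1.prodMk_left] with a a1 a2
  exact (memLp_two_iff_integrable_sq_norm a2).2 a1

theorem s12b_sqrt {h : A → ℝ} (hh : Integrable h) (h0 : ∀ a, 0 ≤ h a) : MemLp (fun a => √(h a)) 2 volume := by
  refine (memLp_two_iff_integrable_sq (Real.continuous_sqrt.comp_aestronglyMeasurable hh.1)).2 ?_
  simpa only [Real.sq_sqrt (h0 _)] using hh

/-- the length of a finite family of functions in the fibres (different splittings are allowed): approximate by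
test functions, `√(∑ ∫ F² + ε²) - ε`, `H1.of_bdd` -/
theorem H1.fibre_norm {n : ℕ} (s : Fin n → Spl A B E) {F : Fin n → E → ℝ} {G : Fin n → E → E}
    (hF : ∀ i, H1 (F i) (G i)) :
    ∃ K, H1 (fun a => √(∑ i, ∫ b, F i ((s i).j a b) ^ 2)) K ∧
      (∀ᵐ a, ‖K a‖ ^ 2 ≤ ∑ i, ∫ b, ‖(s i).p1 (G i ((s i).j a b))‖ ^ 2) ∧
      ∀ᵐ a, √(∑ i, ∫ b, F i ((s i).j a b) ^ 2) • K a =
        ∑ i, ∫ b, F i ((s i).j a b) • (s i).p1 (G i ((s i).j a b)) := by
  classical
  obtain ⟨w, b, -⟩ := exists_hilbertBasis ℝ (Lp ℝ 2 (volume : Measure B))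
  have : Fact ((2 : ℝ≥0∞) ≠ ⊤) := ⟨ENNReal.ofNat_ne_top⟩
  have : Countable w := s12b_count b.orthonormal
  obtain ⟨u, hu⟩ := exists_seq_tendsto (atTop : Filter (Finset w))
  have hG : ∀ i, MemLp (fun x => (s i).p1 (G i x)) 2 volume := fun i => (s i).p1.comp_memLp' (hF i).mG
  have hf := fun (N : ℕ) => H1.norm_sum (Finset.univ ×ˢ u N)
    (f := fun (p : Fin n × w) a => ∫ y, b p.2 y * F p.1 ((s p.1).j a y))
    (G := fun (p : Fin n × w) a => ∫ y, b p.2 y • (s p.1).p1 (G p.1 ((s p.1).j a y)))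
    fun p _ => (hF p.1).fibre_ip (s p.1) (Lp.memLp _)
  choose K hK _ hK2 using hf
  simp only [Finset.sum_product] at hK hK2
  set Y : A → ℝ := fun a => √(∑ i, ∫ b, F i ((s i).j a b) ^ 2) with hY
  set Z : A → ℝ := fun a => √(∑ i, ∫ b, ‖(s i).p1 (G i ((s i).j a b))‖ ^ 2) with hZ
  set D : A → A := fun a => ∑ i, ∫ b, F i ((s i).j a b) • (s i).p1 (G i ((s i).j a b)) with hD
  have z0 : ∀ a, 0 ≤ ∑ i, ∫ b, ‖(s i).p1 (G i ((s i).j a b))‖ ^ 2 := fun a =>
    Finset.sum_nonneg fun i _ => integral_nonneg fun _ => sq_nonneg _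
  have mY : MemLp Y 2 volume := s12b_sqrt (integrable_finsetSum _ fun i _ => by
    simpa only [Real.norm_eq_abs, sq_abs] using (s12b_slice (s i) (hF i).mf).2)
    fun a => Finset.sum_nonneg fun i _ => integral_nonneg fun _ => sq_nonneg _
  have mZ : MemLp Z 2 volume := s12b_sqrt (integrable_finsetSum _ fun i _ => (s12b_slice (s i) (hG i)).2) z0
  have key : ∀ᵐ a, (∀ N, √(∑ i, ∑ k ∈ u N, (∫ y, b k y * F i ((s i).j a y)) ^ 2) ≤ Y a ∧ ‖K N a‖ ≤ Z a) ∧
      Tendsto (fun N => √(∑ i, ∑ k ∈ u N, (∫ y, b k y * F i ((s i).j a y)) ^ 2)) atTop (𝓝 (Y a)) ∧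
      Tendsto (fun N => K N a) atTop (𝓝 ((Y a)⁻¹ • D a)) ∧ Y a • (Y a)⁻¹ • D a = D a := by
    filter_upwards [ae_all_iff.2 fun i => (s12b_slice (s i) (hF i).mf).1,
      ae_all_iff.2 fun i => (s12b_slice (s i) (hG i)).1, ae_all_iff.2 hK2,
      ae_all_iff.2 fun N => (hK N).level 0] with a a1 a2 a3 a4
    have hb := fun i => s12b_fib b (a1 i) (a2 i)
    set y : ℕ → ℝ := fun N => √(∑ i, ∑ k ∈ u N, (∫ y, b k y * F i ((s i).j a y)) ^ 2) with hy
    have y0 : ∀ N, 0 ≤ y N := fun N => Real.sqrt_nonneg _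
    have b1 : ∀ N, y N ≤ Y a := fun N => Real.sqrt_le_sqrt (Finset.sum_le_sum fun i _ =>
      sum_le_hasSum _ (fun _ _ => sq_nonneg _) (hb i).1)
    have b2 : ∀ N, ‖K N a‖ ≤ Z a := fun N => by
      rcases (y0 N).eq_or_lt with h0 | h0
      · rw [a4 N h0.symm, norm_zero]
        exact Real.sqrt_nonneg _
      refine le_of_mul_le_mul_left ?_ h0
      have c1 : y N * ‖K N a‖ = ‖y N • K N a‖ := by rw [norm_smul, Real.norm_of_nonneg h0.le]
      rw [c1, a3 N]
      refine (norm_sum_le _ _).trans ((Finset.sum_le_sum fun i _ => (hb i).2.2 (u N)).trans ?_)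
      exact Real.sum_sqrt_mul_sqrt_le _ (fun i => Finset.sum_nonneg fun _ _ => sq_nonneg _)
        fun i => integral_nonneg fun _ => sq_nonneg _
    have t1 : Tendsto y atTop (𝓝 (Y a)) :=
      (tendsto_finsetSum _ fun i _ => Tendsto.comp (hb i).1 hu).sqrt
    have t2 : Tendsto (fun N => y N • K N a) atTop (𝓝 (D a)) := by
      simp only [hy, a3]
      refine tendsto_finsetSum _ fun i _ => ?_
      have := Tendsto.comp (hb i).2.1 hu
      exact this
    refine ⟨fun N => ⟨b1 N, b2 N⟩, t1, ?_⟩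
    rcases eq_or_ne (Y a) 0 with h0 | h0
    · have c1 : ∀ N, K N a = 0 := fun N => a4 N (le_antisymm (h0 ▸ b1 N) (y0 N))
      simp only [c1, smul_zero] at t2 ⊢
      rw [h0, inv_zero, zero_smul, smul_zero]
      exact ⟨tendsto_const_nhds, tendsto_nhds_unique tendsto_const_nhds t2⟩
    · refine ⟨((t1.inv₀ h0).smul t2).congr' ?_, smul_inv_smul₀ h0 _⟩
      filter_upwards [t1.eventually_ne h0] with N hN using inv_smul_smul₀ hN _
  refine ⟨fun a => (Y a)⁻¹ • D a, H1.of_dominated hK (mY.add mZ) (fun N => ?_) (key.mono fun a h => h.2.1)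
    (key.mono fun a h => h.2.2.1), key.mono fun a h => ?_, key.mono fun a h => h.2.2.2⟩
  · filter_upwards [key] with a h
    have := (h.1 N)
    have y0 : 0 ≤ Y a := Real.sqrt_nonneg _
    have z0 : 0 ≤ Z a := Real.sqrt_nonneg _
    rw [abs_of_nonneg (Real.sqrt_nonneg _), Pi.add_apply]
    exact ⟨by linarith [this.1], by linarith [this.2]⟩
  · rw [← Real.sq_sqrt (z0 a)]
    exact pow_le_pow_left₀ (norm_nonneg _) (le_of_tendsto' h.2.2.1.norm fun N => (h.1 N).2) 2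

end Crest.Agent.R335
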