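import Crest.Agent.R335.S12b

/-!
# R335/S12: fibre integrals
-/

set_option autoImplicit false

namespace Crest.Agent.R335

open MeasureTheory Set Filter Topology
open scoped Gradient RealInnerProductSpace ENNReal ContDiff
open Crest.MathPhysics.ThreeBody

variable {A B E : Type} [NormedAddCommGroup A] [InnerProductSpace ℝ A] [FiniteDimensional ℝ A]
  [MeasurableSpace A] [BorelSpace A] [NormedAddCommGroup B] [InnerProductSpace ℝ B] [FiniteDimensional ℝ B]
  [MeasurableSpace B] [BorelSpace B] [NormedAddCommGroup E] [InnerProductSpace ℝ E] [FiniteDimensional ℝ E]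
  [MeasurableSpace E] [BorelSpace E] (s : Spl A B E)


/-- multiplication with a bounded `H¹` function of the first variable -/
theorem H1.mul_p1 {F : E → ℝ} {G : E → E} (hF : H1 F G) {φ : A → ℝ} {K : A → A} (hφ : H1 φ K) {M : ℝ}
    (hb : ∀ᵐ a, |φ a| ≤ M) (h2 : MemLp (fun x => F x • s.i1 (K (s.p1 x))) 2 volume) :
    H1 (fun x => φ (s.p1 x) * F x) fun x => φ (s.p1 x) • G x + F x • s.i1 (K (s.p1 x)) := by
  have hb' := s.ae_p1 hb
  have mp1 : ∀ {u : A → ℝ}, AEStronglyMeasurable u volume → AEStronglyMeasurable (fun x => u (s.p1 x)) volume := by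
    intro u hu
    refine ⟨fun x => hu.mk u (s.p1 x), hu.stronglyMeasurable_mk.comp_measurable s.p1.continuous.measurable, ?_⟩
    exact s.ae_p1 hu.ae_eq_mk
  have mφ := mp1 hφ.mf.1
  have bm : ∀ {X : Type} [NormedAddCommGroup X] [NormedSpace ℝ X] {u : E → ℝ} {w : E → X} {c : ℝ},
      AEStronglyMeasurable u volume → (∀ᵐ x, |u x| ≤ c) → MemLp w 2 volume →
      MemLp (fun x => u x • w x) 2 volume := by
    intro X _ _ u w c hu hc hw
    refine (hw.norm.const_mul c).of_le (hu.smul hw.1) ?_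
    filter_upwards [hc] with x hx
    rw [norm_smul, Real.norm_eq_abs, Real.norm_eq_abs]
    exact (mul_le_mul_of_nonneg_right hx (norm_nonneg _)).trans (le_abs_self _)
  refine ⟨bm mφ hb' hF.mf, (bm mφ hb' hF.mG).add h2, fun ξ hξ a => ?_⟩
  obtain ⟨χ, hχ, hχ1, hχe⟩ := exists_tst_one (Ω := univ) isOpen_univ
    (hξ.cpt.isCompact.image s.p2.continuous) (subset_univ _)
  have hg := H1.tensor s hφ hχ.h1
  have cχ : Continuous fun x => χ (s.p2 x) := hχ.sm.continuous.comp s.p2.continuous
  have bχ : ∀ x, |χ (s.p2 x)| ≤ 1 := fun x => by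
    rw [abs_of_nonneg (hχ1 _).1]; exact (hχ1 _).2
  have cgr : Continuous (∇ χ) :=
    (InnerProductSpace.toDual ℝ B).symm.continuous.comp (hχ.sm.continuous_fderiv (by simp))
  have sgr : HasCompactSupport (∇ χ) :=
    (hχ.cpt.fderiv ℝ).comp_left (g := fun L => (InnerProductSpace.toDual ℝ B).symm L) (by simp)
  obtain ⟨N, hN⟩ := (s.i2.continuous.comp cgr).bounded_above_of_compact_support
    (sgr.comp_left (g := s.i2) (by simp))
  have mg : AEStronglyMeasurable (fun x => φ (s.p1 x) * χ (s.p2 x)) volume := mφ.mul cχ.aestronglyMeasurable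
  have bg : ∀ᵐ x, |φ (s.p1 x) * χ (s.p2 x)| ≤ M := by
    filter_upwards [hb'] with x hx
    rw [abs_mul]
    have := mul_le_mul_of_nonneg_left (bχ x) (abs_nonneg (φ (s.p1 x)))
    linarith
  have m1 : MemLp (fun x => F x * (φ (s.p1 x) * χ (s.p2 x))) 2 volume := by
    simpa only [smul_eq_mul, mul_comm] using bm mg bg hF.mf
  have m2 : MemLp (fun x => F x • s.i2 (∇ χ (s.p2 x))) 2 volume := by
    refine (hF.mf.const_mul N).of_le
      (hF.mf.1.smul ((s.i2.continuous.comp cgr).comp s.p2.continuous).aestronglyMeasurable)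
      (Eventually.of_forall fun x => ?_)
    have e := hN (s.p2 x)
    rw [norm_smul, norm_mul, mul_comm]
    exact mul_le_mul_of_nonneg_right (e.trans (le_abs_self _)) (norm_nonneg _)
  have m3 : MemLp (fun x => F x • (χ (s.p2 x) • s.i1 (K (s.p1 x)) + φ (s.p1 x) • s.i2 (∇ χ (s.p2 x))) +
      (φ (s.p1 x) * χ (s.p2 x)) • G x) 2 volume := by
    have := ((bm cχ.aestronglyMeasurable (Eventually.of_forall bχ) h2).add (bm mφ hb' m2)).add (bm mg bg hF.mG)
    refine (memLp_congr_ae (Eventually.of_forall fun x => ?_)).1 this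
    simp only [Pi.add_apply, smul_add, smul_comm (F x)]
  have key := (hF.mul hg m1 m3).wg ξ hξ a
  have loc : ∀ x ∈ tsupport ξ, χ (s.p2 x) = 1 ∧ ∇ χ (s.p2 x) = 0 := by
    intro x hx
    have e : χ =ᶠ[𝓝 (s.p2 x)] fun _ => (1 : ℝ) :=
      (eventually_nhdsSet_iff_forall.1 hχe) _ (mem_image_of_mem _ hx)
    refine ⟨e.eq_of_nhds, ?_⟩
    rw [e.gradient_eq]
    simp
  have e1 : ∫ x, φ (s.p1 x) * F x * fderiv ℝ ξ x a = ∫ x, F x * (φ (s.p1 x) * χ (s.p2 x)) * fderiv ℝ ξ x a := by
    refine integral_congr_ae (Eventually.of_forall fun x => ?_)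
    by_cases hx : x ∈ tsupport ξ
    · simp only [(loc x hx).1]; ring
    · have : fderiv ℝ ξ x = 0 := by
        by_contra h0
        exact hx (support_fderiv_subset ℝ h0)
      simp [this]
  rw [e1, key]
  congr 1
  refine integral_congr_ae (Eventually.of_forall fun x => ?_)
  by_cases hx : x ∈ tsupport ξ
  · simp only [(loc x hx).1, (loc x hx).2, one_smul, map_zero, smul_zero, add_zero, mul_one]
    rw [add_comm]
  · simp [image_eq_zero_of_notMem_tsupport hx]

end Crest.Agent.R335
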