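import Crest.Agent.R335.S3b

/-!
# R335/S3: limits
-/

set_option autoImplicit false

namespace Crest.Agent.R335

open MeasureTheory Set Filter Topology
open scoped Gradient RealInnerProductSpace ENNReal ContDiff
open Crest.MathPhysics.ThreeBody

variable {E : Type} [NormedAddCommGroup E] [InnerProductSpace ℝ E] [FiniteDimensional ℝ E]
  [MeasurableSpace E] [BorelSpace E]

theorem s3_int_abs {V f : E → ℝ} {G : E → E} (hV : FB V) (hf : H1 f G) :
    Integrable fun x => |V x| * f x ^ 2 := by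
  refine (hV.int f G hf).abs.congr (Eventually.of_forall fun x => ?_)
  simp only [abs_mul, abs_pow, sq_abs]

/-- `|∫ W u g| ≤ δ ∫ |V| u² + δ⁻¹ ∫ |W| g²` for `|W| ≤ |V|` -/
theorem s3_bound {V W u g : E → ℝ} {G J : E → E} (hV : FB V) (hW : AEStronglyMeasurable W volume)
    (hle : ∀ x, |W x| ≤ |V x|) (hu : H1 u G) (hg : H1 g J) {δ : ℝ} (hδ : 0 < δ) :
    |∫ x, W x * (u x * g x)| ≤ δ * (∫ x, |V x| * u x ^ 2) + δ⁻¹ * ∫ x, |W x| * g x ^ 2 := by
  have hW' : FB W := hV.of_le hW (Eventually.of_forall hle)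
  have i1 := (s3_int_abs hV hu).const_mul δ
  have i2 := (s3_int_abs hW' hg).const_mul δ⁻¹
  rw [← integral_const_mul, ← integral_const_mul, ← integral_add i1 i2]
  refine abs_integral_le_integral_abs.trans (integral_mono (hW'.int_mul hu hg).abs (i1.add i2) fun x => ?_)
  have e1 : |u x * g x| ≤ δ * u x ^ 2 + δ⁻¹ * g x ^ 2 := by
    have e0 : δ * δ⁻¹ = 1 := mul_inv_cancel₀ hδ.ne'
    have e2 : 0 < δ⁻¹ := inv_pos.2 hδ
    have e3 : 0 ≤ δ⁻¹ * (δ * u x - g x) ^ 2 := by positivity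
    have e4 : 0 ≤ δ⁻¹ * (δ * u x + g x) ^ 2 := by positivity
    have e5 : δ⁻¹ * (δ * u x - g x) ^ 2 = δ * u x ^ 2 - 2 * (u x * g x) + δ⁻¹ * g x ^ 2 := by
      field_simp; ring
    have e6 : δ⁻¹ * (δ * u x + g x) ^ 2 = δ * u x ^ 2 + 2 * (u x * g x) + δ⁻¹ * g x ^ 2 := by
      field_simp; ring
    have e7 : 0 ≤ δ * u x ^ 2 + δ⁻¹ * g x ^ 2 := by positivity
    rw [abs_le]
    constructor <;> linarith
  have e8 : |W x| * (δ * u x ^ 2) ≤ |V x| * (δ * u x ^ 2) :=
    mul_le_mul_of_nonneg_right (hle x) (by positivity)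
  have e9 := mul_le_mul_of_nonneg_left e1 (abs_nonneg (W x))
  simp only
  rw [abs_mul]
  nlinarith

/-- the truncation of the potential -/
noncomputable def s3_cl (N : ℕ) (t : ℝ) : ℝ := max (-(N : ℝ)) (min t N)

theorem s3_cl_cont (N : ℕ) : Continuous (s3_cl N) := by
  unfold s3_cl; fun_prop

theorem s3_cl_abs (N : ℕ) (t : ℝ) : |s3_cl N t| ≤ N := by
  have : (0 : ℝ) ≤ N := N.cast_nonneg
  unfold s3_cl
  rw [abs_le]
  exact ⟨le_max_left _ _, max_le (by linarith) (min_le_right _ _)⟩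

theorem s3_cl_sub (N : ℕ) (t : ℝ) : |t - s3_cl N t| ≤ |t| := by
  have : (0 : ℝ) ≤ N := N.cast_nonneg
  unfold s3_cl
  rcases le_total t N with h | h
  · rw [min_eq_left h]
    rcases le_total (-(N : ℝ)) t with h' | h'
    · rw [max_eq_right h']; simp
    · rw [max_eq_left h', abs_of_nonpos (by linarith), abs_of_nonpos (by linarith)]; linarith
  · rw [min_eq_right h, max_eq_right (by linarith), abs_of_nonneg (by linarith), abs_of_nonneg (by linarith)]
    linarith

theorem s3_cl_ev (t : ℝ) : ∀ᶠ N : ℕ in atTop, s3_cl N t = t := by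
  filter_upwards [tendsto_natCast_atTop_atTop.eventually_ge_atTop |t|] with N hN
  have := abs_le.1 hN
  unfold s3_cl
  rw [min_eq_left this.2, max_eq_right this.1]

theorem s3_tail {V g : E → ℝ} {J : E → E} (hV : FB V) (hg : H1 g J) :
    Tendsto (fun N : ℕ => ∫ x, |V x - s3_cl N (V x)| * g x ^ 2) atTop (𝓝 0) := by
  have := tendsto_integral_of_dominated_convergence (μ := volume)
    (F := fun (N : ℕ) x => |V x - s3_cl N (V x)| * g x ^ 2)
    (f := fun _ => (0 : ℝ)) (fun x => |V x| * g x ^ 2) (fun N => ?_) (s3_int_abs hV hg) (fun N => ?_) ?_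
  · simpa using this
  · exact (continuous_abs.comp_aestronglyMeasurable
      (hV.meas.sub ((s3_cl_cont N).comp_aestronglyMeasurable hV.meas))).mul (hg.mf.1.pow 2)
  · refine Eventually.of_forall fun x => ?_
    rw [Real.norm_eq_abs, abs_of_nonneg (by positivity)]
    exact mul_le_mul_of_nonneg_right (s3_cl_sub N _) (by positivity)
  · refine Eventually.of_forall fun x => tendsto_const_nhds.congr' ?_
    filter_upwards [s3_cl_ev (V x)] with N hN
    simp [hN]

theorem s3_small {V f : E → ℝ} {G : E → E} (hV : FB V) {φ : ℕ → E → ℝ} {K : ℕ → E → E}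
    (h : ∀ n, H1 (φ n) (K n)) (hf : H1 f G)
    (h1 : Tendsto (fun n => eLpNorm (fun x => φ n x - f x) 2 volume) atTop (𝓝 0))
    (h2 : Tendsto (fun n => eLpNorm (fun x => K n x - G x) 2 volume) atTop (𝓝 0)) :
    Tendsto (fun n => ∫ x, |V x| * (φ n x - f x) ^ 2) atTop (𝓝 0) := by
  obtain ⟨C, -, hC⟩ := hV.small 1 one_pos
  have t1 := (s3a_tendsto_iff (u := fun n x => φ n x - f x) fun n => (h n).mf.sub hf.mf).1 h1
  have t2 := (s3a_tendsto_iff (u := fun n x => K n x - G x) fun n => (h n).mG.sub hf.mG).1 h2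
  have t3 := (t2.const_mul 1).add (t1.const_mul C)
  simp only [mul_zero, add_zero] at t3
  refine squeeze_zero (fun n => integral_nonneg fun x => by positivity) (fun n => ?_) t3
  have := hC _ _ ((h n).sub hf)
  simpa only [nsq, Real.norm_eq_abs, sq_abs] using this

theorem s3_wt {V a f : E → ℝ} {G : E → E} (hV : FB V) (ha : AEStronglyMeasurable a volume)
    (e : ∀ x, a x ^ 2 = |V x|) (hf : H1 f G) : MemLp (fun x => a x * f x) 2 volume := by
  refine (memLp_two_iff_integrable_sq (ha.mul hf.mf.1)).2 ?_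
  refine (s3_int_abs hV hf).congr (Eventually.of_forall fun x => ?_)
  simp only [Pi.mul_apply, mul_pow, e x]

theorem s3_wt_tendsto {V a f : E → ℝ} {G : E → E} (hV : FB V) (ha : AEStronglyMeasurable a volume)
    (e : ∀ x, a x ^ 2 = |V x|) {φ : ℕ → E → ℝ} {K : ℕ → E → E} (h : ∀ n, H1 (φ n) (K n)) (hf : H1 f G)
    (h1 : Tendsto (fun n => eLpNorm (fun x => φ n x - f x) 2 volume) atTop (𝓝 0))
    (h2 : Tendsto (fun n => eLpNorm (fun x => K n x - G x) 2 volume) atTop (𝓝 0)) :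
    Tendsto (fun n => eLpNorm (fun x => a x * φ n x - a x * f x) 2 volume) atTop (𝓝 0) := by
  refine (s3a_tendsto_iff (u := fun n x => a x * φ n x - a x * f x) fun n =>
    (s3_wt hV ha e (h n)).sub (s3_wt hV ha e hf)).2 ((s3_small hV h hf h1 h2).congr fun n => ?_)
  refine integral_congr_ae (Eventually.of_forall fun x => ?_)
  simp only [Real.norm_eq_abs, sq_abs, ← e x]
  ring

/-- the form is continuous for weak convergence in `H¹` against a fixed function: approximate `g` in `H¹` by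
`Tst` functions and `V` by `V 1_{|V| ≤ N}`, using `FB.small` and dominated convergence for `|V| g²` -/
theorem FB.bf_weak {V f g : E → ℝ} {G J : E → E} (hV : FB V) {φ : ℕ → E → ℝ} {K : ℕ → E → E}
    (h : ∀ n, H1 (φ n) (K n)) (hf : H1 f G) (hg : H1 g J) {M : ℝ}
    (hM : ∀ n, nsq (φ n) ≤ M ∧ ∫ x, ‖K n x‖ ^ 2 ≤ M)
    (h1 : ∀ g : E → ℝ, MemLp g 2 volume → Tendsto (fun n => ip (φ n) g) atTop (𝓝 (ip f g)))
    (h2 : ∀ J : E → E, MemLp J 2 volume → Tendsto (fun n => ∫ x, ⟪K n x, J x⟫) atTop (𝓝 (∫ x, ⟪G x, J x⟫))) :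
    Tendsto (fun n => bf V (φ n) (K n) g J) atTop (𝓝 (bf V f G g J)) := by
  unfold bf
  refine ((h2 J hg.mG).const_mul _).add ?_
  obtain ⟨C, hC0, hC⟩ := hV.small 1 one_pos
  set B : ℝ := M + C * M + ∫ x, |V x| * f x ^ 2 with hB
  have hM0 : 0 ≤ M := nsq_nonneg.trans (hM 0).1
  have hf0 : 0 ≤ ∫ x, |V x| * f x ^ 2 := integral_nonneg fun x => by positivity
  have hB0 : 0 ≤ B := by positivity
  have b1 : ∀ n, ∫ x, |V x| * φ n x ^ 2 ≤ M + C * M := fun n => by
    have e1 := hC _ _ (h n)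
    have e2 := mul_le_mul_of_nonneg_left (hM n).1 hC0
    linarith [(hM n).2]
  rw [Metric.tendsto_nhds]
  intro ε hε
  obtain ⟨δ, hδ, hδ'⟩ : ∃ δ : ℝ, 0 < δ ∧ δ * B ≤ ε / 4 := by
    refine ⟨ε / 4 / (B + 1), by positivity, ?_⟩
    rw [div_mul_eq_mul_div, div_le_iff₀ (by positivity)]
    nlinarith
  have t0 := (s3_tail hV hg).const_mul δ⁻¹
  rw [mul_zero] at t0
  obtain ⟨N, hN⟩ := (t0.eventually_lt_const (show (0 : ℝ) < ε / 8 by positivity)).exists
  have mN : AEStronglyMeasurable (fun x => s3_cl N (V x)) volume := (s3_cl_cont N).comp_aestronglyMeasurable hV.meas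
  have mW : AEStronglyMeasurable (fun x => V x - s3_cl N (V x)) volume := hV.meas.sub mN
  have hW : FB fun x => V x - s3_cl N (V x) := hV.of_le mW (Eventually.of_forall fun x => s3_cl_sub N _)
  have hgN : MemLp (fun x => s3_cl N (V x) * g x) 2 volume := by
    refine (hg.mf.const_mul (N : ℝ)).of_le (mN.mul hg.mf.1) (Eventually.of_forall fun x => ?_)
    simp only [Real.norm_eq_abs, abs_mul, Nat.abs_cast]
    exact mul_le_mul_of_nonneg_right (s3_cl_abs N _) (abs_nonneg _)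
  have split : ∀ u G', H1 u G' → ∫ x, V x * (u x * g x) =
      ip u (fun x => s3_cl N (V x) * g x) + ∫ x, (V x - s3_cl N (V x)) * (u x * g x) := by
    intro u G' hu
    unfold ip
    have i1 : Integrable fun x => u x * (s3_cl N (V x) * g x) := hu.mf.integrable_mul hgN
    rw [← integral_add i1 (hW.int_mul hu hg)]
    refine integral_congr_ae (Eventually.of_forall fun x => ?_)
    simp only
    ring
  have t1 := Metric.tendsto_nhds.1 (h1 _ hgN) (ε / 4) (by positivity)
  filter_upwards [t1] with n hn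
  rw [Real.dist_eq] at hn ⊢
  rw [split _ _ (h n), split _ _ hf]
  have e1 := abs_le.1 (s3_bound hV mW (fun x => s3_cl_sub N _) (h n) hg hδ)
  have e2 := abs_le.1 (s3_bound hV mW (fun x => s3_cl_sub N _) hf hg hδ)
  have e3 := mul_le_mul_of_nonneg_left (b1 n) hδ.le
  have e4 := abs_lt.1 hn
  have e5 : δ * B = δ * (M + C * M) + δ * ∫ x, |V x| * f x ^ 2 := by rw [hB]; ring
  rw [abs_lt]
  constructor <;> linarith [e1.1, e1.2, e2.1, e2.2, e4.1, e4.2]

/-- the forms are continuous in `H¹` -/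
theorem FB.bf_tendsto {V f g : E → ℝ} {G J : E → E} (hV : FB V) {φ ψ : ℕ → E → ℝ} {K X : ℕ → E → E}
    (h : ∀ n, H1 (φ n) (K n)) (h' : ∀ n, H1 (ψ n) (X n)) (hf : H1 f G) (hg : H1 g J)
    (h1 : Tendsto (fun n => eLpNorm (fun x => φ n x - f x) 2 volume) atTop (𝓝 0))
    (h2 : Tendsto (fun n => eLpNorm (fun x => K n x - G x) 2 volume) atTop (𝓝 0))
    (h3 : Tendsto (fun n => eLpNorm (fun x => ψ n x - g x) 2 volume) atTop (𝓝 0))
    (h4 : Tendsto (fun n => eLpNorm (fun x => X n x - J x) 2 volume) atTop (𝓝 0)) :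
    Tendsto (fun n => bf V (φ n) (K n) (ψ n) (X n)) atTop (𝓝 (bf V f G g J)) := by
  unfold bf
  refine ((s3a_tendsto_inner (fun n => (h n).mG) (fun n => (h' n).mG) hf.mG hg.mG h2 h4).const_mul _).add ?_
  have ma : AEStronglyMeasurable (fun x => √|V x|) volume :=
    (Real.continuous_sqrt.comp continuous_abs).comp_aestronglyMeasurable hV.meas
  have mb : AEStronglyMeasurable (fun x => √(max (V x) 0) - √(max (-V x) 0)) volume :=
    (show Continuous fun t : ℝ => √(max t 0) - √(max (-t) 0) by fun_prop).comp_aestronglyMeasurable hV.meas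
  have ea : ∀ x, √|V x| ^ 2 = |V x| := fun x => Real.sq_sqrt (abs_nonneg _)
  have eb : ∀ x, (√(max (V x) 0) - √(max (-V x) 0)) ^ 2 = |V x| ∧
      √|V x| * (√(max (V x) 0) - √(max (-V x) 0)) = V x := fun x => by
    rcases le_total 0 (V x) with h0 | h0
    · rw [max_eq_left h0, max_eq_right (by linarith), abs_of_nonneg h0, Real.sqrt_zero, sub_zero]
      exact ⟨Real.sq_sqrt h0, Real.mul_self_sqrt h0⟩
    · rw [max_eq_right h0, max_eq_left (by linarith), abs_of_nonpos h0, Real.sqrt_zero, zero_sub, neg_sq,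
        mul_neg, Real.mul_self_sqrt (by linarith), neg_neg]
      exact ⟨Real.sq_sqrt (by linarith), rfl⟩
  have t := s3a_tendsto_mul (fun n => s3_wt hV ma ea (h n)) (fun n => s3_wt hV mb (fun x => (eb x).1) (h' n))
    (s3_wt hV ma ea hf) (s3_wt hV mb (fun x => (eb x).1) hg) (s3_wt_tendsto hV ma ea h hf h1 h2)
    (s3_wt_tendsto hV mb (fun x => (eb x).1) h' hg h3 h4)
  have key : ∀ u w : E → ℝ, ∫ x, √|V x| * u x * ((√(max (V x) 0) - √(max (-V x) 0)) * w x) =
      ∫ x, V x * (u x * w x) := fun u w => by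
    refine integral_congr_ae (Eventually.of_forall fun x => ?_)
    simp only
    rw [mul_mul_mul_comm, (eb x).2]
  simpa only [key] using t

theorem FB.qf_tendsto {V f : E → ℝ} {G : E → E} (hV : FB V) {φ : ℕ → E → ℝ} {K : ℕ → E → E}
    (h : ∀ n, H1 (φ n) (K n)) (hf : H1 f G)
    (h1 : Tendsto (fun n => eLpNorm (fun x => φ n x - f x) 2 volume) atTop (𝓝 0))
    (h2 : Tendsto (fun n => eLpNorm (fun x => K n x - G x) 2 volume) atTop (𝓝 0)) :
    Tendsto (fun n => qf V (φ n) (K n)) atTop (𝓝 (qf V f G)) := by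
  simpa only [bf_self] using hV.bf_tendsto h h hf hf h1 h2 h1 h2

/-- dominated convergence in `L²` -/
theorem tendsto_eLpNorm_of_dominated {F : Type} [NormedAddCommGroup F] {φ : ℕ → E → F} {f : E → F} {b : E → ℝ}
    (hφ : ∀ n, AEStronglyMeasurable (φ n) volume) (hb : MemLp b 2 volume) (h1 : ∀ n, ∀ᵐ x, ‖φ n x‖ ≤ b x)
    (h2 : ∀ᵐ x, Tendsto (fun n => φ n x) atTop (𝓝 (f x))) :
    MemLp f 2 volume ∧ Tendsto (fun n => eLpNorm (fun x => φ n x - f x) 2 volume) atTop (𝓝 0) := by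
  exact s3a_dominated hφ hb h1 h2

end Crest.Agent.R335
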