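import Crest.Agent.R335.S9
import Crest.Agent.R335.S3

/-!
# R335/S13: variational lemmas
-/

set_option autoImplicit false

namespace Crest.Agent.R335

open MeasureTheory Set Filter Topology
open scoped Gradient RealInnerProductSpace ENNReal ContDiff
open Crest.MathPhysics.ThreeBody

variable {E : Type} [NormedAddCommGroup E] [InnerProductSpace ℝ E] [FiniteDimensional ℝ E]
  [MeasurableSpace E] [BorelSpace E]

variable {V f : E → ℝ} {G : E → E}

/-- linear subspaces of `H¹` which are defined by the function only and closed under weak `L²` limits -/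
structure Cls (P : (E → ℝ) → Prop) : Prop where
  lin : ∀ f g (a b : ℝ), P f → P g → P fun x => a * f x + b * g x
  lim : ∀ (φ : ℕ → E → ℝ) (f : E → ℝ), (∀ n, P (φ n) ∧ MemLp (φ n) 2 volume) → MemLp f 2 volume →
    (∀ g : E → ℝ, MemLp g 2 volume → Tendsto (fun n => ip (φ n) g) atTop (𝓝 (ip f g))) → P f

theorem s13a_quad {A B : ℝ} (h : ∀ t : ℝ, 0 ≤ 2 * t * B + t ^ 2 * A) : B = 0 := by
  have := discrim_le_zero (a := A) (b := 2 * B) (c := 0) fun t => by nlinarith [h t]
  rw [discrim] at this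
  nlinarith [sq_nonneg B]

theorem s13a_ip_lin {f g k : E → ℝ} (hk : MemLp k 2 volume) (hf : MemLp f 2 volume) (hg : MemLp g 2 volume)
    (a b : ℝ) : ip k (fun x => a * f x + b * g x) = a * ip k f + b * ip k g := by
  have i1 : Integrable fun x => k x * f x := hk.integrable_mul hf
  have i2 : Integrable fun x => k x * g x := hk.integrable_mul hg
  simp only [ip]
  rw [← integral_const_mul, ← integral_const_mul, ← integral_add (i1.const_mul a) (i2.const_mul b)]
  congr 1
  funext x
  ring

theorem cls_univ : Cls fun _ : E → ℝ => True := by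
  exact ⟨fun _ _ _ _ _ _ => trivial, fun _ _ _ _ _ => trivial⟩

theorem Cls.inter {P Q : (E → ℝ) → Prop} (hP : Cls P) (hQ : Cls Q) : Cls fun f => P f ∧ Q f := by
  exact ⟨fun f g a b hf hg => ⟨hP.lin f g a b hf.1 hg.1, hQ.lin f g a b hf.2 hg.2⟩,
    fun φ f h1 h2 h3 => ⟨hP.lim φ f (fun n => ⟨(h1 n).1.1, (h1 n).2⟩) h2 h3,
      hQ.lim φ f (fun n => ⟨(h1 n).1.2, (h1 n).2⟩) h2 h3⟩⟩

/-- symmetry classes -/
theorem cls_sym (T : E ≃ₗᵢ[ℝ] E) (c : ℝ) : Cls fun f => ∀ᵐ x, f (T x) = c * f x := by
  refine ⟨fun f g a b hf hg => ?_, fun φ f h1 hf h3 => ?_⟩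
  · filter_upwards [hf, hg] with x h1 h2
    rw [h1, h2]
    ring
  · have mT : ∀ {u : E → ℝ}, MemLp u 2 volume → MemLp (fun x => u (T x)) 2 volume := fun hu =>
      hu.comp_measurePreserving T.measurePreserving
    set h : E → ℝ := fun x => 1 * f (T x) + (-c) * f x with hh
    have mh : MemLp h 2 volume := ((mT hf).const_mul 1).add (hf.const_mul (-c))
    have mh' : MemLp (fun y => h (T.symm y)) 2 volume := mh.comp_measurePreserving T.symm.measurePreserving
    have key : ∀ u : E → ℝ, MemLp u 2 volume →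
        ip h (fun x => 1 * u (T x) + (-c) * u x) = ip u (fun y => h (T.symm y)) - c * ip u h := by
      intro u hu
      have e : ip h (fun x => u (T x)) = ip u fun y => h (T.symm y) := by
        have := T.measurePreserving.integral_comp T.toHomeomorph.measurableEmbedding
          fun y => u y * h (T.symm y)
        simp only [LinearIsometryEquiv.symm_apply_apply] at this
        rw [ip_comm]
        exact this
      rw [s13a_ip_lin mh (mT hu) hu, e, ip_comm (f := h)]
      ring
    have t1 := (h3 _ mh').sub ((h3 _ mh).const_mul c)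
    have t2 : ∀ n, ip (φ n) (fun y => h (T.symm y)) - c * ip (φ n) h = 0 := by
      intro n
      rw [← key _ (h1 n).2]
      refine integral_eq_zero_of_ae ?_
      filter_upwards [(h1 n).1] with x hx
      rw [hx]
      simp
    simp only [t2] at t1
    have t3 := tendsto_nhds_unique t1 tendsto_const_nhds
    rw [← key f hf, ← hh, ip_self] at t3
    filter_upwards [nsq_eq_zero mh t3] with x hx
    simp only [hh] at hx
    linarith

theorem cls_orth {g : E → ℝ} (hg : MemLp g 2 volume) : Cls fun f => MemLp f 2 volume ∧ ip g f = 0 := by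
  refine ⟨fun f k a b hf hk => ⟨(hf.1.const_mul a).add (hk.1.const_mul b), ?_⟩, fun φ f h1 hf h3 => ⟨hf, ?_⟩⟩
  · rw [s13a_ip_lin hg hf.1 hk.1, hf.2, hk.2]
    ring
  · have t1 := h3 g hg
    have t2 : ∀ n, ip (φ n) g = 0 := fun n => by rw [ip_comm]; exact (h1 n).1.2
    simp only [t2] at t1
    rw [ip_comm]
    exact tendsto_nhds_unique t1 tendsto_const_nhds

/-- Euler-Lagrange equation in a class -/
theorem euler (hV : FB V) {P : (E → ℝ) → Prop} (hP : Cls P) {e : ℝ}
    (hmin : ∀ g K, H1 g K → P g → e * nsq g ≤ qf V g K) (hf : H1 f G) (hPf : P f) (he : qf V f G ≤ e * nsq f) :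
    ∀ g K, H1 g K → P g → bf V f G g K = e * ip f g := by
  intro g K hg hPg
  refine sub_eq_zero.1 (s13a_quad (A := qf V g K - e * nsq g) fun t => ?_)
  have h1 := hmin _ _ ((hf.const_mul 1).add (hg.const_mul t)) (hP.lin f g 1 t hPf hPg)
  rw [qf_lin hV hf hg, nsq_lin hf.mf hg.mf] at h1
  nlinarith

/-- Euler-Lagrange equation for a nonnegative form `qf V - e nsq + δ ip φ ²` -/
theorem euler_rank_one (hV : FB V) {φ : E → ℝ} (hφ : MemLp φ 2 volume) {e δ : ℝ}
    (hmin : ∀ g K, H1 g K → e * nsq g - δ * ip φ g ^ 2 ≤ qf V g K) (hf : H1 f G) (h0 : ip φ f = 0)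
    (he : qf V f G ≤ e * nsq f) : Eig V e f G := by
  refine ⟨hf, fun g K hg => ?_⟩
  refine sub_eq_zero.1 (s13a_quad (A := qf V g K - e * nsq g + δ * ip φ g ^ 2) fun t => ?_)
  have h1 := hmin _ _ ((hf.const_mul 1).add (hg.const_mul t))
  rw [qf_lin hV hf hg, nsq_lin hf.mf hg.mf, s13a_ip_lin hφ hf.mf hg.mf, h0] at h1
  nlinarith

end Crest.Agent.R335
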