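import Crest.Agent.R335.S13a

/-!
# R335/S13: variational lemmas
-/

set_option autoImplicit false

namespace Crest.Agent.R335

open MeasureTheory Set Filter Topology
open scoped Gradient RealInnerProductSpace ENNReal ContDiff
open Crest.MathPhysics.ThreeBody

variable {E : Type} [NormedAddCommGroup E] [InnerProductSpace ℝ E] [FiniteDimensional ℝ E]
  [MeasurableSpace E] [BorelSpace E]

variable {V f : E → ℝ} {G : E → E}

theorem s13b_ip_lin {a f g : E → ℝ} (ha : MemLp a 2 volume) (hf : MemLp f 2 volume) (hg : MemLp g 2 volume)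
    (c d : ℝ) : ip a (fun x => c * f x + d * g x) = c * ip f a + d * ip g a := by
  have h1 : Integrable (fun x => f x * a x) volume := hf.integrable_mul ha
  have h2 : Integrable (fun x => g x * a x) volume := hg.integrable_mul ha
  unfold ip
  rw [← integral_const_mul, ← integral_const_mul, ← integral_add (h1.const_mul c) (h2.const_mul d)]
  congr 1
  funext x
  ring

/-- normalisation -/
theorem s13b_norm (hV : FB V) {P : (E → ℝ) → Prop} (hP : Cls P) (hf : H1 f G) (hPf : P f) (h0 : 0 < nsq f) :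
    ∃ g K, H1 g K ∧ P g ∧ nsq g = 1 ∧ qf V g K * nsq f = qf V f G := by
  have hc : ((√(nsq f))⁻¹) ^ 2 * nsq f = 1 := by
    rw [inv_pow, Real.sq_sqrt h0.le, inv_mul_cancel₀ h0.ne']
  refine ⟨fun x => (√(nsq f))⁻¹ * f x + 0 * f x, fun x => (√(nsq f))⁻¹ • G x + (0 : ℝ) • G x,
    (hf.const_mul _).add (hf.const_mul _), hP.lin _ _ _ _ hPf hPf, ?_, ?_⟩
  · rw [nsq_lin hf.mf hf.mf]
    linear_combination hc
  · rw [qf_lin hV hf hf]
    linear_combination qf V f G * hc

/-- existence of a minimiser below a threshold which holds up to a finite rank form.  The form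
`qf V - e nsq + M ∑ ip (a i) ²` is nonnegative on the class, hence weakly lower semicontinuous (expand around the weak limit
and use `FB.bf_weak`). -/
theorem exists_min (hV : FB V) {P : (E → ℝ) → Prop} (hP : Cls P) {n : ℕ} {a : Fin n → E → ℝ}
    (ha : ∀ i, MemLp (a i) 2 volume) {e M : ℝ}
    (hlow : ∀ g K, H1 g K → P g → e * nsq g - M * ∑ i, ip (a i) g ^ 2 ≤ qf V g K)
    (hf : H1 f G) (hPf : P f) (he : qf V f G < e * nsq f) :
    ∃ g K, H1 g K ∧ P g ∧ nsq g = 1 ∧ qf V g K < e ∧ ∀ g' K', H1 g' K' → P g' → qf V g K * nsq g' ≤ qf V g' K' := by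
  obtain ⟨C, hC0, hC⟩ := hV.kin_le
  have hlb : ∀ g K, H1 g K → -(C / 4) * nsq g ≤ qf V g K := fun g K h => by
    have h1 := hC g K h
    have h2 : 0 ≤ ∫ x, ‖K x‖ ^ 2 := integral_nonneg fun x => by positivity
    linarith
  set S : Set ℝ := {r | ∃ g K, H1 g K ∧ P g ∧ nsq g = 1 ∧ qf V g K = r} with hS
  have hbd : BddBelow S := ⟨-(C / 4), by
    rintro r ⟨g, K, h1, -, h2, rfl⟩
    have := hlb g K h1
    rwa [h2, mul_one] at this⟩
  have hf0 : 0 < nsq f := by
    refine lt_of_le_of_ne nsq_nonneg fun h0 => ?_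
    have := hlb f G hf
    rw [← h0] at this he
    linarith
  obtain ⟨g0, K0, h01, h02, h03, h04⟩ := s13b_norm hV hP hf hPf hf0
  have hne : S.Nonempty := ⟨_, g0, K0, h01, h02, h03, rfl⟩
  have hl : sInf S < e := by
    have h1 : sInf S ≤ qf V g0 K0 := csInf_le hbd ⟨g0, K0, h01, h02, h03, rfl⟩
    rw [← h04] at he
    exact h1.trans_lt (lt_of_mul_lt_mul_right he hf0.le)
  have hall : ∀ g K, H1 g K → P g → sInf S * nsq g ≤ qf V g K := fun g K h1 h2 => by
    rcases (nsq_nonneg (f := g)).eq_or_lt with h0 | h0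
    · have := hlb g K h1
      rw [← h0] at this ⊢
      linarith
    · obtain ⟨g', K', h3, h4, h5, h6⟩ := s13b_norm hV hP h1 h2 h0
      rw [← h6]
      exact mul_le_mul_of_nonneg_right (csInf_le hbd ⟨g', K', h3, h4, h5, rfl⟩) h0.le
  obtain ⟨u, hu1, hu2, hu3⟩ := exists_seq_tendsto_sInf hne hbd
  choose φ K hφ hPφ hn hq using hu3
  have hM : ∀ n, nsq (φ n) ≤ max 1 (4 * u 0 + C) ∧ ∫ x, ‖K n x‖ ^ 2 ≤ max 1 (4 * u 0 + C) := fun n => by
    refine ⟨(hn n).le.trans (le_max_left _ _), le_trans ?_ (le_max_right _ _)⟩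
    have h1 := hC _ _ (hφ n)
    have h2 : u n ≤ u 0 := hu1 (Nat.zero_le n)
    rw [hn n, hq n] at h1
    linarith
  obtain ⟨g, J, s, hs, hg, hw1, hw2⟩ := H1.exists_weak hφ hM
  have hPg : P g := hP.lim (fun n => φ (s n)) g (fun n => ⟨hPφ _, (hφ _).mf⟩) hg.mf hw1
  have hb := hV.bf_weak (fun n => hφ (s n)) hg hg (fun n => hM (s n)) hw1 hw2
  rw [bf_self] at hb
  have hi := hw1 g hg.mf
  rw [ip_self] at hi
  have hus : Tendsto (fun n => u (s n)) atTop (𝓝 (sInf S)) := hu2.comp hs.tendsto_atTop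
  have t1 : Tendsto (fun n => nsq fun x => 1 * φ (s n) x + (-1) * g x) atTop (𝓝 (1 - nsq g)) := by
    have h1 : Tendsto (fun n => (1 : ℝ) ^ 2 * 1 + 2 * 1 * (-1) * ip (φ (s n)) g + (-1) ^ 2 * nsq g) atTop
        (𝓝 ((1 : ℝ) ^ 2 * 1 + 2 * 1 * (-1) * nsq g + (-1) ^ 2 * nsq g)) :=
      (tendsto_const_nhds.add (hi.const_mul _)).add tendsto_const_nhds
    convert h1 using 2
    · rw [nsq_lin (hφ _).mf hg.mf, hn]
    · ring
  have t2 : Tendsto (fun n => qf V (fun x => 1 * φ (s n) x + (-1) * g x)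
      fun x => (1 : ℝ) • K (s n) x + (-1 : ℝ) • J x) atTop (𝓝 (sInf S - qf V g J)) := by
    have h1 : Tendsto (fun n => (1 : ℝ) ^ 2 * u (s n) + 2 * 1 * (-1) * bf V (φ (s n)) (K (s n)) g J +
        (-1) ^ 2 * qf V g J) atTop
        (𝓝 ((1 : ℝ) ^ 2 * sInf S + 2 * 1 * (-1) * qf V g J + (-1) ^ 2 * qf V g J)) :=
      ((hus.const_mul _).add (hb.const_mul _)).add tendsto_const_nhds
    convert h1 using 2
    · rw [qf_lin hV (hφ _) hg, hq]
    · ring
  have t3 : Tendsto (fun n => ∑ i, ip (a i) (fun x => 1 * φ (s n) x + (-1) * g x) ^ 2) atTop (𝓝 0) := by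
    have h1 : Tendsto (fun n => ∑ i, (1 * ip (φ (s n)) (a i) + (-1) * ip g (a i)) ^ 2) atTop
        (𝓝 (∑ i, (1 * ip g (a i) + (-1) * ip g (a i)) ^ 2)) :=
      tendsto_finsetSum _ fun i _ => (((hw1 _ (ha i)).const_mul _).add tendsto_const_nhds).pow 2
    convert h1 using 2
    · exact Finset.sum_congr rfl fun i _ => by rw [s13b_ip_lin (ha i) (hφ _).mf hg.mf]
    · simp
  have k1 : 0 ≤ 1 - nsq g := ge_of_tendsto' t1 fun n => nsq_nonneg
  have k2 : e * (1 - nsq g) - M * 0 ≤ sInf S - qf V g J :=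
    le_of_tendsto_of_tendsto' ((t1.const_mul e).sub (t3.const_mul M)) t2 fun n =>
      hlow _ _ (((hφ _).const_mul _).add (hg.const_mul _)) (hP.lin _ _ _ _ (hPφ _) hPg)
  have k3 := hall g J hg hPg
  have k4 : nsq g = 1 := by
    by_contra hne1
    have h1 : 0 < 1 - nsq g := lt_of_le_of_ne k1 fun h => hne1 (by linarith)
    nlinarith [mul_pos (sub_pos.2 hl) h1]
  have k5 : qf V g J = sInf S := by
    rw [k4] at k2 k3
    linarith
  exact ⟨g, J, hg, hPg, k4, k5 ▸ hl, fun g' K' h1 h2 => k5 ▸ hall g' K' h1 h2⟩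

end Crest.Agent.R335
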