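import Crest.Agent.R335.S13b

/-!
# R335/S13: variational lemmas
-/

set_option autoImplicit false

namespace Crest.Agent.R335

open MeasureTheory Set Filter Topology
open scoped Gradient RealInnerProductSpace ENNReal ContDiff
open Crest.MathPhysics.ThreeBody

variable {E : Type} [NormedAddCommGroup E] [InnerProductSpace ℝ E] [FiniteDimensional ℝ E]
  [MeasurableSpace E] [BorelSpace E]

variable {V f : E → ℝ} {G : E → E}

/-- the saturation `t ↦ t / (|t| + c)` is differentiable -/
theorem s13c_hasDeriv {c : ℝ} (hc : 0 < c) (t : ℝ) :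
    HasDerivAt (fun s : ℝ => s / (|s| + c)) (c / (|t| + c) ^ 2) t := by
  rcases lt_trichotomy t 0 with ht | ht | ht
  · have h1 : HasDerivAt (fun s : ℝ => s / (-s + c)) (c / (|t| + c) ^ 2) t := by
      have hne : -t + c ≠ 0 := by linarith
      have := (hasDerivAt_id' t).fun_div (((hasDerivAt_id' t).fun_neg).add_const c) hne
      refine this.congr_deriv ?_
      rw [abs_of_neg ht]
      congr 1
      ring
    refine h1.congr_of_eventuallyEq ?_
    filter_upwards [Iio_mem_nhds ht] with s hs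
    rw [abs_of_neg hs]
  · subst ht
    rw [hasDerivAt_iff_tendsto_slope_zero]
    have h2 : Tendsto (fun s : ℝ => 1 / (|s| + c)) (𝓝 0) (𝓝 (1 / (|0| + c))) := by
      apply ContinuousAt.tendsto (f := fun s : ℝ => 1 / (|s| + c))
      refine ContinuousAt.div continuousAt_const (by fun_prop) ?_
      simp [hc.ne']
    have h3 : (1 : ℝ) / (|0| + c) = c / (|0| + c) ^ 2 := by
      simp only [abs_zero, zero_add]
      field_simp
    rw [← h3]
    refine (h2.mono_left nhdsWithin_le_nhds).congr' ?_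
    filter_upwards [self_mem_nhdsWithin] with s hs
    have hs' : s ≠ 0 := hs
    simp only [zero_add, zero_div, sub_zero, smul_eq_mul]
    field_simp
  · have h1 : HasDerivAt (fun s : ℝ => s / (s + c)) (c / (|t| + c) ^ 2) t := by
      have hne : t + c ≠ 0 := by linarith
      have := (hasDerivAt_id' t).fun_div ((hasDerivAt_id' t).add_const c) hne
      refine this.congr_deriv ?_
      rw [abs_of_pos ht]
      congr 1
      ring
    refine h1.congr_of_eventuallyEq ?_
    filter_upwards [Ioi_mem_nhds ht] with s hs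
    rw [abs_of_pos hs]

theorem s13c_sat (hf : H1 f G) {c : ℝ} (hc : 0 < c) :
    H1 (fun x => f x / (|f x| + c)) fun x => (c / (|f x| + c) ^ 2) • G x := by
  have hd : deriv (fun s : ℝ => s / (|s| + c)) = fun t => c / (|t| + c) ^ 2 :=
    funext fun t => (s13c_hasDeriv hc t).deriv
  have hcd : ContDiff ℝ 1 (fun s : ℝ => s / (|s| + c)) := by
    rw [contDiff_one_iff_deriv, hd]
    refine ⟨fun t => (s13c_hasDeriv hc t).differentiableAt, ?_⟩
    refine Continuous.div continuous_const (by fun_prop) fun t => ?_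
    have := abs_nonneg t
    positivity
  have := hf.comp hcd (by simp) (L := 1 / c) (fun t => by
    rw [hd]
    have h0 := abs_nonneg t
    rw [abs_of_nonneg (by positivity), div_le_div_iff₀ (by positivity) hc]
    nlinarith)
  simpa only [hd] using this

/-- Fatou's lemma for nonnegative real functions -/
theorem s13c_fatou {F : ℕ → E → ℝ} {g : E → ℝ} {L : ℝ} (hF : ∀ n, Integrable (F n))
    (h0 : ∀ n x, 0 ≤ F n x) (hlim : ∀ᵐ x, Tendsto (fun n => F n x) atTop (𝓝 (g x)))
    (hL : Tendsto (fun n => ∫ x, F n x) atTop (𝓝 L)) : Integrable g ∧ ∫ x, g x ≤ L := by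
  have hgm : AEStronglyMeasurable g volume :=
    aestronglyMeasurable_of_tendsto_ae _ (fun n => (hF n).1) hlim
  have hg0 : ∀ᵐ x, 0 ≤ g x := by
    filter_upwards [hlim] with x hx using ge_of_tendsto' hx fun n => h0 n x
  have hL0 : 0 ≤ L := ge_of_tendsto' hL fun n => integral_nonneg (h0 n)
  have h1 : ∫⁻ x, ENNReal.ofReal (g x) ≤ ENNReal.ofReal L := by
    have e1 : ∫⁻ x, ENNReal.ofReal (g x) = ∫⁻ x, liminf (fun n => ENNReal.ofReal (F n x)) atTop := by
      refine lintegral_congr_ae ?_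
      filter_upwards [hlim] with x hx
      exact ((ENNReal.continuous_ofReal.tendsto _).comp hx).liminf_eq.symm
    rw [e1]
    refine (lintegral_liminf_le' fun n => (hF n).1.aemeasurable.ennreal_ofReal).trans ?_
    have e2 : (fun n => ∫⁻ x, ENNReal.ofReal (F n x)) = fun n => ENNReal.ofReal (∫ x, F n x) :=
      funext fun n => (ofReal_integral_eq_lintegral_ofReal (hF n) (Eventually.of_forall (h0 n))).symm
    rw [e2]
    exact ((ENNReal.continuous_ofReal.tendsto _).comp hL).liminf_eq.le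
  have hint : Integrable g := by
    refine ⟨hgm, ?_⟩
    rw [hasFiniteIntegral_iff_ofReal hg0]
    exact h1.trans_lt ENNReal.ofReal_lt_top
  refine ⟨hint, ?_⟩
  rw [← ofReal_integral_eq_lintegral_ofReal hint hg0] at h1
  exact (ENNReal.ofReal_le_ofReal_iff hL0).1 h1

/-- the identity for a bounded function and a fixed `ε` -/
theorem s13c_ident {e : ℝ} {u ζ : E → ℝ} {Gu Z : E → E} (hu : Eig V e u Gu) (hζ : H1 ζ Z) {M : ℝ}
    (hM : ∀ x, |ζ x| ≤ M) (h0 : ∀ᵐ x, ζ x ≠ 0 → 0 < u x) {ε : ℝ} (hε : 0 < ε) :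
    Integrable (fun x => ‖Z x - (ζ x / (|u x| + ε)) • Gu x‖ ^ 2) ∧
      (1 / 2) * ∫ x, ‖Z x - (ζ x / (|u x| + ε)) • Gu x‖ ^ 2 =
        (1 / 2) * (∫ x, ‖Z x‖ ^ 2) + (∫ x, V x * (ζ x ^ 2 * (u x / (|u x| + ε)))) -
          e * ∫ x, ζ x ^ 2 * (u x / (|u x| + ε)) := by
  have hM0 : 0 ≤ M := (abs_nonneg _).trans (hM 0)
  have h1 := hζ.mul_bdd hζ (M := M) (Eventually.of_forall hM) (Eventually.of_forall hM)
  have h2 := s13c_sat hu.h1 hε
  have h3 := h1.mul_bdd h2 (M := M * M + 1) (Eventually.of_forall fun x => by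
      rw [abs_mul]
      have := mul_le_mul (hM x) (hM x) (abs_nonneg _) hM0
      linarith) (Eventually.of_forall fun x => by
      have h4 := abs_nonneg (u x)
      have : |u x / (|u x| + ε)| ≤ 1 := by
        rw [abs_div, abs_of_pos (show 0 < |u x| + ε by positivity), div_le_one (by positivity)]
        linarith
      nlinarith)
  have h4 := (h1.sub h3).const_mul ε⁻¹
  have h5 := hu.eq _ _ h4
  -- pointwise identities
  have p1 : ∀ᵐ x, ⟪Gu x, ε⁻¹ • (ζ x • Z x + ζ x • Z x - ((ζ x * ζ x) • (ε / (|u x| + ε) ^ 2) • Gu x +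
      (u x / (|u x| + ε)) • (ζ x • Z x + ζ x • Z x)))⟫ =
      ‖Z x‖ ^ 2 - ‖Z x - (ζ x / (|u x| + ε)) • Gu x‖ ^ 2 := by
    filter_upwards [h0] with x hx
    by_cases hz : ζ x = 0
    · simp [hz]
    · have hp := hx hz
      rw [norm_sub_sq_real, norm_smul, mul_pow, Real.norm_eq_abs, sq_abs]
      simp only [inner_smul_right, inner_sub_right, inner_add_right, real_inner_self_eq_norm_sq,
        real_inner_comm (Gu x) (Z x), abs_of_pos hp]
      field_simp
      ring
  have p2 : ∀ᵐ x, u x * (ε⁻¹ * (ζ x * ζ x - ζ x * ζ x * (u x / (|u x| + ε)))) =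
      ζ x ^ 2 * (u x / (|u x| + ε)) := by
    filter_upwards [h0] with x hx
    by_cases hz : ζ x = 0
    · simp [hz]
    · have hp := hx hz
      simp only [abs_of_pos hp]
      field_simp
      ring
  have i1 := hu.h1.int_inner h4
  have i2 := hζ.int_grad_sq
  have i3 : Integrable (fun x => ‖Z x - (ζ x / (|u x| + ε)) • Gu x‖ ^ 2) := by
    refine (i2.sub i1).congr ?_
    filter_upwards [p1] with x hx
    simp only [Pi.sub_apply]
    rw [hx]
    ring
  refine ⟨i3, ?_⟩
  unfold bf ip at h5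
  rw [integral_congr_ae p1, integral_congr_ae p2, integral_sub i2 i3] at h5
  have e3 : ∫ x, V x * (u x * (ε⁻¹ * (ζ x * ζ x - ζ x * ζ x * (u x / (|u x| + ε))))) =
      ∫ x, V x * (ζ x ^ 2 * (u x / (|u x| + ε))) := by
    refine integral_congr_ae ?_
    filter_upwards [p2] with x hx
    rw [hx]
  rw [e3] at h5
  linarith

/-- Picone's inequality.  `u ≥ 0` on `A`; `ξ` vanishes where `u` is not positive.  Test the equation of `u` with
`min(|ξ|, M)² / (u₊ + ε)`, let `ε → 0` (Fatou on the left, dominated convergence on the right), then `M → ∞`. -/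
theorem picone (hV : FB V) {e : ℝ} {u ξ : E → ℝ} {Gu K : E → E} (hu : Eig V e u Gu) (hξ : H1 ξ K)
    (h0 : ∀ᵐ x, ξ x ≠ 0 → 0 < u x) :
    Integrable (fun x => ‖K x - (ξ x / u x) • Gu x‖ ^ 2) ∧
      (1 / 2) * ∫ x, ‖K x - (ξ x / u x) • Gu x‖ ^ 2 ≤ qf V ξ K - e * nsq ξ := by
  set ε : ℕ → ℝ := fun n => 1 / ((n : ℝ) + 1) with hεdef
  have hε : ∀ n, 0 < ε n := fun n => Nat.one_div_pos_of_nat
  have hε0 : Tendsto ε atTop (𝓝 0) := tendsto_one_div_add_atTop_nhds_zero_nat
  set ζ : ℕ → E → ℝ := fun n x => ξ x / (ε n * |ξ x| + 1) with hζdef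
  set Z : ℕ → E → E := fun n x => (1 / (ε n * |ξ x| + 1) ^ 2) • K x with hZdef
  have hden : ∀ n x, 1 ≤ ε n * |ξ x| + 1 := fun n x => by
    have := mul_nonneg (hε n).le (abs_nonneg (ξ x))
    linarith
  have hζ : ∀ n, H1 (ζ n) (Z n) := fun n => by
    have h1 := (s13c_sat hξ (inv_pos.2 (hε n))).const_mul (ε n)⁻¹
    have hn := (hε n).ne'
    refine h1.congr (Eventually.of_forall fun x => ?_) (Eventually.of_forall fun x => ?_)
    · have := hden n x
      simp only [hζdef]
      field_simp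
    · have := hden n x
      simp only [hZdef, smul_smul]
      congr 1
      field_simp
  have hζM : ∀ n x, |ζ n x| ≤ (ε n)⁻¹ := fun n x => by
    have := hden n x
    simp only [hζdef]
    rw [abs_div, abs_of_pos (show 0 < ε n * |ξ x| + 1 by linarith), div_le_iff₀ (by linarith), mul_add,
      ← mul_assoc, inv_mul_cancel₀ (hε n).ne']
    have := inv_pos.2 (hε n)
    linarith
  have hζξ : ∀ n x, |ζ n x| ≤ |ξ x| := fun n x => by
    have := hden n x
    simp only [hζdef]
    rw [abs_div, abs_of_pos (show 0 < ε n * |ξ x| + 1 by linarith)]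
    exact div_le_self (abs_nonneg _) this
  have hZK : ∀ n x, ‖Z n x‖ ≤ ‖K x‖ := fun n x => by
    have h1 := hden n x
    simp only [hZdef]
    rw [norm_smul, Real.norm_eq_abs, abs_of_pos (by positivity)]
    refine mul_le_of_le_one_left (norm_nonneg _) ?_
    rw [div_le_one (by positivity)]
    nlinarith
  have h0' : ∀ n, ∀ᵐ x, ζ n x ≠ 0 → 0 < u x := fun n => by
    filter_upwards [h0] with x hx hz
    refine hx fun h => hz ?_
    simp [hζdef, h]
  have hid := fun n => s13c_ident hu (hζ n) (hζM n) (h0' n) (hε n)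
  -- limits
  have ld : ∀ x, Tendsto (fun n => ε n * |ξ x| + 1) atTop (𝓝 1) := fun x => by
    simpa using (hε0.mul_const |ξ x|).add_const 1
  have lζ : ∀ x, Tendsto (fun n => ζ n x) atTop (𝓝 (ξ x)) := fun x => by
    have := (tendsto_const_nhds (x := ξ x)).div (ld x) one_ne_zero
    rw [div_one] at this
    exact this
  have lZ : ∀ x, Tendsto (fun n => Z n x) atTop (𝓝 (K x)) := fun x => by
    have := ((tendsto_const_nhds (x := (1 : ℝ))).div ((ld x).pow 2) (by norm_num)).smul_const (K x)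
    simpa [hZdef] using this
  have lw : ∀ᵐ x, Tendsto (fun n => ζ n x / (|u x| + ε n)) atTop (𝓝 (ξ x / u x)) := by
    filter_upwards [h0] with x hx
    by_cases hz : ξ x = 0
    · simp [hζdef, hz]
    · have hp := hx hz
      have h1 : Tendsto (fun n => |u x| + ε n) atTop (𝓝 (u x)) := by
        simpa [abs_of_pos hp] using hε0.const_add (u x)
      exact (lζ x).div h1 hp.ne'
  have lq : ∀ᵐ x, Tendsto (fun n => ζ n x ^ 2 * (u x / (|u x| + ε n))) atTop (𝓝 (ξ x ^ 2)) := by
    filter_upwards [h0] with x hx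
    by_cases hz : ξ x = 0
    · simp [hζdef, hz]
    · have hp := hx hz
      have h1 : Tendsto (fun n => |u x| + ε n) atTop (𝓝 (u x)) := by
        simpa [abs_of_pos hp] using hε0.const_add (u x)
      have h2 := ((lζ x).pow 2).mul ((tendsto_const_nhds (x := u x)).div h1 hp.ne')
      simpa [div_self hp.ne'] using h2
  have bq : ∀ n x, |ζ n x ^ 2 * (u x / (|u x| + ε n))| ≤ ξ x ^ 2 := fun n x => by
    have h4 := abs_nonneg (u x)
    have h5 := hε n
    have h1 : |u x / (|u x| + ε n)| ≤ 1 := by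
      rw [abs_div, abs_of_pos (show 0 < |u x| + ε n by positivity), div_le_one (by positivity)]
      linarith
    have h2 : ζ n x ^ 2 ≤ ξ x ^ 2 := sq_le_sq.2 (hζξ n x)
    rw [abs_mul, abs_of_nonneg (sq_nonneg _)]
    exact (mul_le_of_le_one_right (sq_nonneg _) h1).trans h2
  have mq : ∀ n, AEStronglyMeasurable (fun x => ζ n x ^ 2 * (u x / (|u x| + ε n))) volume := fun n =>
    ((hζ n).mf.1.pow 2).mul (s13c_sat hu.h1 (hε n)).mf.1
  have t1 : Tendsto (fun n => ∫ x, ‖Z n x‖ ^ 2) atTop (𝓝 (∫ x, ‖K x‖ ^ 2)) := by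
    refine tendsto_integral_of_dominated_convergence (fun x => ‖K x‖ ^ 2)
      (fun n => (hζ n).int_grad_sq.1) hξ.int_grad_sq (fun n => Eventually.of_forall fun x => ?_)
      (Eventually.of_forall fun x => ((lZ x).norm).pow 2)
    rw [Real.norm_eq_abs, abs_of_nonneg (sq_nonneg _)]
    exact pow_le_pow_left₀ (norm_nonneg _) (hZK n x) 2
  have t2 : Tendsto (fun n => ∫ x, V x * (ζ n x ^ 2 * (u x / (|u x| + ε n)))) atTop
      (𝓝 (∫ x, V x * ξ x ^ 2)) := by
    refine tendsto_integral_of_dominated_convergence (fun x => ‖V x * ξ x ^ 2‖)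
      (fun n => hV.meas.mul (mq n)) (hV.int ξ K hξ).norm (fun n => Eventually.of_forall fun x => ?_) ?_
    · rw [norm_mul, norm_mul (V x), Real.norm_eq_abs (ξ x ^ 2), abs_of_nonneg (sq_nonneg (ξ x))]
      exact mul_le_mul_of_nonneg_left (bq n x) (norm_nonneg _)
    · filter_upwards [lq] with x hx using hx.const_mul (V x)
  have t3 : Tendsto (fun n => ∫ x, ζ n x ^ 2 * (u x / (|u x| + ε n))) atTop (𝓝 (∫ x, ξ x ^ 2)) :=
    tendsto_integral_of_dominated_convergence (fun x => ξ x ^ 2) mq hξ.int_sq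
      (fun n => Eventually.of_forall fun x => bq n x) lq
  have t4 : Tendsto (fun n => ∫ x, ‖Z n x - (ζ n x / (|u x| + ε n)) • Gu x‖ ^ 2) atTop
      (𝓝 (2 * (qf V ξ K - e * nsq ξ))) := by
    have := (((t1.const_mul (1 / 2)).add t2).sub (t3.const_mul e)).const_mul 2
    refine this.congr fun n => ?_
    rw [← (hid n).2]
    ring
  have := s13c_fatou (g := fun x => ‖K x - (ξ x / u x) • Gu x‖ ^ 2) (fun n => (hid n).1)
    (fun n x => sq_nonneg _) (by
      filter_upwards [lw] with x hx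
      exact (((lZ x).sub (hx.smul_const (Gu x))).norm).pow 2) t4
  exact ⟨this.1, by linarith [this.2]⟩

end Crest.Agent.R335
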