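import Crest.Agent.R335.S13c

/-!
# R335/S13: variational lemmas
-/

set_option autoImplicit false

namespace Crest.Agent.R335

open MeasureTheory Set Filter Topology
open scoped Gradient RealInnerProductSpace ENNReal ContDiff
open Crest.MathPhysics.ThreeBody

variable {E : Type} [NormedAddCommGroup E] [InnerProductSpace ℝ E] [FiniteDimensional ℝ E]
  [MeasurableSpace E] [BorelSpace E]

variable {V f : E → ℝ} {G : E → E}

theorem s13d_exists {ε : ℝ} (hε : 0 < ε) : ∃ k : ℝ → ℝ, ContDiff ℝ 1 k ∧ k 0 = 0 ∧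
    (∀ t, |deriv k t| ≤ (ε ^ 2)⁻¹) ∧ ∀ t, 0 ≤ t → k t + ε⁻¹ = (t + ε)⁻¹ ∧ deriv k t = -((t + ε) ^ 2)⁻¹ := by
  have hp : ∀ s : ℝ, 0 < max s 0 + ε := fun s => add_pos_of_nonneg_of_pos (le_max_right _ _) hε
  have hc : Continuous fun s : ℝ => -((max s 0 + ε) ^ 2)⁻¹ :=
    (Continuous.inv₀ (by fun_prop) fun s => (pow_pos (hp s) 2).ne').neg
  have hd : ∀ t, HasDerivAt (fun t => ∫ s in (0 : ℝ)..t, -((max s 0 + ε) ^ 2)⁻¹) (-((max t 0 + ε) ^ 2)⁻¹) t :=
    fun t => (hc.integral_hasStrictDerivAt 0 t).hasDerivAt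
  have hd' : deriv (fun t => ∫ s in (0 : ℝ)..t, -((max s 0 + ε) ^ 2)⁻¹) = fun t => -((max t 0 + ε) ^ 2)⁻¹ :=
    funext fun t => (hd t).deriv
  refine ⟨fun t => ∫ s in (0 : ℝ)..t, -((max s 0 + ε) ^ 2)⁻¹,
    contDiff_one_iff_deriv.2 ⟨fun t => (hd t).differentiableAt, by rw [hd']; exact hc⟩, by simp, fun t => ?_, fun t ht => ⟨?_, ?_⟩⟩
  · rw [hd', abs_neg, abs_of_pos (inv_pos.2 (pow_pos (hp t) 2))]
    exact inv_anti₀ (by positivity) (pow_le_pow_left₀ hε.le (by linarith [le_max_right t 0]) 2)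
  · have : ∫ s in (0 : ℝ)..t, -((max s 0 + ε) ^ 2)⁻¹ = (t + ε)⁻¹ - (0 + ε)⁻¹ := by
      refine intervalIntegral.integral_eq_sub_of_hasDerivAt (f := fun s => (s + ε)⁻¹) (fun s hs => ?_)
        (hc.intervalIntegrable _ _)
      rw [uIcc_of_le ht] at hs
      have h1 : s + ε ≠ 0 := by linarith [hs.1]
      have := ((hasDerivAt_id s).add_const ε).inv h1
      rw [max_eq_left hs.1]
      refine this.congr_deriv ?_
      rw [neg_div, one_div]
      rfl
    simp only [this]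
    simp
  · rw [hd']
    simp only [max_eq_left ht]

omit [MeasurableSpace E] [BorelSpace E] in
theorem s13d_grad_sq {χ : E → ℝ} (hχ : ContDiff ℝ 1 χ) (x : E) :
    ∇ (fun x => χ x ^ 2) x = (2 * χ x) • ∇ χ x := by
  have h := (hχ.differentiable one_ne_zero x).hasFDerivAt
  have h2 := h.pow 2
  unfold gradient
  rw [show fderiv ℝ (fun x => χ x ^ 2) x = _ from h2.fderiv]
  simp

/-- logarithmic energy estimate: test with `χ² / (w₊ + ε)` -/
theorem log_energy (hV : FB V) {e : ℝ} {w χ : E → ℝ} {Gw : E → E} (hw : Eig V e w Gw) (hχ : ContDiff ℝ 1 χ)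
    (hc : HasCompactSupport χ) (h0 : ∀ᵐ x, x ∈ tsupport χ → 0 ≤ w x) {ε : ℝ} (hε : 0 < ε) :
    ∫ x, χ x ^ 2 * (‖Gw x‖ / (w x + ε)) ^ 2 ≤ 4 * (∫ x, ‖∇ χ x‖ ^ 2) + 4 * ∫ x, |V x - e| * χ x ^ 2 := by
  obtain ⟨k, hk, k0, kL, hk2⟩ := s13d_exists hε
  have hχ2 : ContDiff ℝ 1 fun x => χ x ^ 2 := hχ.pow 2
  have hc2 : HasCompactSupport fun x => χ x ^ 2 := hc.comp_left (g := fun t : ℝ => t ^ 2) (by simp)
  have h1 := ((hw.h1.comp hk k0 kL).mul_c1_cpt hχ2 hc2).add ((H1.of_c1_cpt hχ2 hc2).const_mul ε⁻¹)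
  have heq := hw.eq _ _ h1
  have hχ1 := H1.of_c1_cpt hχ hc
  have i1 := hw.h1.int_inner h1
  have i2 := hV.int_mul hw.h1 h1
  have i3 := hw.h1.int_mul h1
  have i4 := hχ1.int_grad_sq
  have i5 : Integrable fun x => |V x - e| * χ x ^ 2 := by
    have := ((hV.sub_const e).int _ _ hχ1).abs
    simpa only [abs_mul, abs_pow, sq_abs] using this
  have h0' : ∀ᵐ x, χ x = 0 ∨ 0 ≤ w x := by
    filter_upwards [h0] with x hx
    by_cases h : χ x = 0
    · exact Or.inl h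
    · exact Or.inr (hx (subset_tsupport _ h))
  obtain ⟨M, hM⟩ := hχ.continuous.bounded_above_of_compact_support hc
  have i6 : Integrable fun x => χ x ^ 2 * (‖Gw x‖ / (w x + ε)) ^ 2 := by
    refine (hw.h1.int_grad_sq.const_mul (M ^ 2 * (ε ^ 2)⁻¹)).mono' ?_ ?_
    · have m1 := hw.h1.mf.1.aemeasurable
      have m2 := hw.h1.mG.1.norm.aemeasurable
      have m3 := hχ.continuous.measurable
      exact AEMeasurable.aestronglyMeasurable (by fun_prop)
    · filter_upwards [h0'] with x hx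
      rw [Real.norm_eq_abs, abs_of_nonneg (by positivity)]
      rcases hx with hx | hx
      · rw [hx, zero_pow two_ne_zero, zero_mul]
        positivity
      · have a1 : χ x ^ 2 ≤ M ^ 2 := by
          rw [← sq_abs]
          exact pow_le_pow_left₀ (abs_nonneg _) (hM x) 2
        have a2 : ((w x + ε) ^ 2)⁻¹ ≤ (ε ^ 2)⁻¹ :=
          inv_anti₀ (by positivity) (pow_le_pow_left₀ hε.le (by linarith) 2)
        rw [div_pow, div_eq_mul_inv, mul_assoc, mul_comm (‖Gw x‖ ^ 2)]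
        gcongr
  have key := integral_mono_ae (((i1.const_mul (1 / 2)).add i2).sub (i3.const_mul e))
    (((i6.const_mul (-(1 / 4))).add i4).add i5) (by
      filter_upwards [h0'] with x hx
      simp only [Pi.add_apply, Pi.sub_apply, s13d_grad_sq hχ]
      rcases hx with hx | hx
      · simp [hx]
      obtain ⟨e1, e2⟩ := hk2 _ hx
      have hp : 0 < w x + ε := by linarith
      have e3 : χ x ^ 2 * k (w x) + ε⁻¹ * χ x ^ 2 = χ x ^ 2 * (w x + ε)⁻¹ := by rw [← e1]; ring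
      have e4 : ⟪Gw x, χ x ^ 2 • deriv k (w x) • Gw x + k (w x) • (2 * χ x) • ∇ χ x + ε⁻¹ • (2 * χ x) • ∇ χ x⟫ =
          -(χ x ^ 2 * (‖Gw x‖ / (w x + ε)) ^ 2) + 2 * χ x * (w x + ε)⁻¹ * ⟪Gw x, ∇ χ x⟫ := by
        simp only [inner_add_right, inner_smul_right, real_inner_self_eq_norm_sq, e2]
        rw [← e1, div_pow]
        ring
      rw [e3, e4]
      have b1 : χ x * (w x + ε)⁻¹ * ⟪Gw x, ∇ χ x⟫ ≤ |χ x| * (‖Gw x‖ / (w x + ε)) * ‖∇ χ x‖ := by
        refine (le_abs_self _).trans ?_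
        rw [abs_mul, abs_mul, abs_of_pos (inv_pos.2 hp), div_eq_mul_inv]
        calc _ ≤ |χ x| * (w x + ε)⁻¹ * (‖Gw x‖ * ‖∇ χ x‖) :=
              mul_le_mul_of_nonneg_left (abs_real_inner_le_norm _ _) (by positivity)
          _ = _ := by ring
      have b2 : (V x - e) * (χ x ^ 2 * (w x * (w x + ε)⁻¹)) ≤ |V x - e| * χ x ^ 2 := by
        have c1 : w x * (w x + ε)⁻¹ ≤ 1 := by rw [← div_eq_mul_inv, div_le_one hp]; linarith
        calc _ ≤ |V x - e| * (χ x ^ 2 * (w x * (w x + ε)⁻¹)) :=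
              mul_le_mul_of_nonneg_right (le_abs_self _) (by positivity)
          _ ≤ |V x - e| * (χ x ^ 2 * 1) := by gcongr
          _ = _ := by ring
      have b3 := sq_nonneg (|χ x| * (‖Gw x‖ / (w x + ε)) / 2 - ‖∇ χ x‖)
      have b4 : (|χ x| * (‖Gw x‖ / (w x + ε))) ^ 2 = χ x ^ 2 * (‖Gw x‖ / (w x + ε)) ^ 2 := by
        rw [mul_pow, sq_abs]
      nlinarith)
  rw [integral_sub' ((i1.const_mul (1 / 2)).add i2) (i3.const_mul e), integral_add' (i1.const_mul (1 / 2)) i2,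
    integral_add' ((i6.const_mul (-(1 / 4))).add i4) i5, integral_add' (i6.const_mul (-(1 / 4))) i4,
    integral_const_mul, integral_const_mul, integral_const_mul] at key
  unfold bf ip at heq
  linarith

end Crest.Agent.R335
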