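import Crest.Agent.R335.S8b

/-!
# R335/S8: Sobolev and Hardy inequalities, form bounded potentials
-/

set_option autoImplicit false

namespace Crest.Agent.R335

open MeasureTheory Set Filter Topology
open scoped Gradient RealInnerProductSpace ENNReal ContDiff
open Crest.MathPhysics.ThreeBody

theorem s8_div (a : E3) {δ : ℝ} (hδ : 0 < δ) (x : E3) :
    LinearMap.trace ℝ E3 (fderiv ℝ (fun y : E3 => (‖y - a‖ ^ 2 + δ)⁻¹ • (y - a)) x : E3 →ₗ[ℝ] E3) =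
      3 * (‖x - a‖ ^ 2 + δ)⁻¹ - 2 * ‖x - a‖ ^ 2 * (‖x - a‖ ^ 2 + δ)⁻¹ ^ 2 := by
  have h0 : ‖x - a‖ ^ 2 + δ ≠ 0 := by positivity
  have h1 : HasFDerivAt (fun y : E3 => y - a) (ContinuousLinearMap.id ℝ E3) x := (hasFDerivAt_id x).sub_const a
  have h2 := (hasDerivAt_inv h0).comp_hasFDerivAt x (h1.norm_sq.add_const δ)
  have h3 := (h2.smul h1).fderiv
  have e : fderiv ℝ (fun y : E3 => (‖y - a‖ ^ 2 + δ)⁻¹ • (y - a)) x = _ := h3
  rw [e]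
  have e2 : ∀ (L : E3 →L[ℝ] ℝ) (c : ℝ) (v : E3),
      LinearMap.trace ℝ E3 ((c • ContinuousLinearMap.id ℝ E3 + L.smulRight v : E3 →L[ℝ] E3) : E3 →ₗ[ℝ] E3) =
        3 * c + L v := fun L c v => by
    have e3 : ((c • ContinuousLinearMap.id ℝ E3 + L.smulRight v : E3 →L[ℝ] E3) : E3 →ₗ[ℝ] E3) =
        c • LinearMap.id + (L : E3 →ₗ[ℝ] ℝ).smulRight v := rfl
    rw [e3, map_add, map_smul, LinearMap.trace_id, LinearMap.trace_smulRight, finrank_euclideanSpace_fin]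
    simp [mul_comm]
  rw [e2]
  simp only [Function.comp_apply, ContinuousLinearMap.smul_apply, ContinuousLinearMap.comp_apply,
    ContinuousLinearMap.id_apply, innerSL_apply_apply, real_inner_self_eq_norm_sq, smul_eq_mul, nsmul_eq_mul,
    Nat.cast_ofNat, inv_pow]
  ring

theorem s8_w (a : E3) {δ : ℝ} (hδ : 0 < δ) : Continuous fun x : E3 => (‖x - a‖ ^ 2 + δ)⁻¹ :=
  Continuous.inv₀ (by fun_prop) fun x => by positivity

theorem s8_int {f : E3 → ℝ} {G : E3 → E3} (hf : H1 f G) (a : E3) {δ : ℝ} (hδ : 0 < δ) :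
    Integrable fun x => (‖x - a‖ ^ 2 + δ)⁻¹ * f x ^ 2 := by
  refine hf.int_sq.bdd_mul (c := δ⁻¹) (s8_w a hδ).aestronglyMeasurable (Eventually.of_forall fun x => ?_)
  rw [Real.norm_of_nonneg (by positivity)]
  exact inv_anti₀ hδ (le_add_of_nonneg_left (by positivity))

theorem s8_eps {f : E3 → ℝ} {G : E3 → E3} (hf : TH univ f G) (a : E3) {δ : ℝ} (hδ : 0 < δ) :
    ∫ x, (‖x - a‖ ^ 2 + δ)⁻¹ * f x ^ 2 ≤ 4 * ∫ x, ‖G x‖ ^ 2 := by
  have hY : ContDiff ℝ 1 fun y : E3 => (‖y - a‖ ^ 2 + δ)⁻¹ • (y - a) := by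
    have h1 : ContDiff ℝ 1 fun y : E3 => y - a := contDiff_id.sub contDiff_const
    have h2 : ContDiff ℝ 1 fun y : E3 => ‖y - a‖ ^ 2 + δ := (h1.norm_sq ℝ).add contDiff_const
    have h3 : ContDiff ℝ 1 fun y : E3 => (‖y - a‖ ^ 2 + δ)⁻¹ := h2.inv fun y => by positivity
    exact h3.smul h1
  have h := hf.sq_div isOpen_univ hY.contDiffOn
  simp only [s8_div a hδ] at h
  have hI := s8_int hf.h1 a hδ
  have hG := hf.h1.int_grad_sq
  have hw := s8_w a hδ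
  have hp : ∀ x : E3, 0 < (‖x - a‖ ^ 2 + δ)⁻¹ ∧ ‖x - a‖ ^ 2 * (‖x - a‖ ^ 2 + δ)⁻¹ ^ 2 ≤ (‖x - a‖ ^ 2 + δ)⁻¹ :=
    fun x => by
      have h0 : 0 < ‖x - a‖ ^ 2 + δ := by positivity
      refine ⟨inv_pos.2 h0, ?_⟩
      rw [sq (_⁻¹), ← mul_assoc]
      refine mul_le_of_le_one_left (inv_pos.2 h0).le ?_
      rw [← div_eq_mul_inv, div_le_one h0]
      linarith
  have hb : ∀ x, |2 * f x * ⟪G x, (‖x - a‖ ^ 2 + δ)⁻¹ • (x - a)⟫| ≤
      2 * ‖G x‖ ^ 2 + 1 / 2 * ((‖x - a‖ ^ 2 + δ)⁻¹ * f x ^ 2) := fun x => by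
    obtain ⟨h1, h2⟩ := hp x
    have h3 := abs_real_inner_le_norm (G x) ((‖x - a‖ ^ 2 + δ)⁻¹ • (x - a))
    rw [norm_smul, Real.norm_of_nonneg h1.le] at h3
    rw [abs_mul, abs_mul, abs_two]
    have h4 := mul_le_mul_of_nonneg_left h3 (by positivity : 0 ≤ 2 * |f x|)
    have h5 := mul_le_mul_of_nonneg_right h2 (sq_nonneg (f x))
    rw [← sq_abs (f x)] at h5 ⊢
    nlinarith [sq_nonneg (2 * ‖G x‖ - |f x| * ((‖x - a‖ ^ 2 + δ)⁻¹ * ‖x - a‖))]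
  have hB : Integrable fun x => 2 * ‖G x‖ ^ 2 + 1 / 2 * ((‖x - a‖ ^ 2 + δ)⁻¹ * f x ^ 2) :=
    (hG.const_mul 2).add (hI.const_mul _)
  have h1 : |∫ x, 2 * f x * ⟪G x, (‖x - a‖ ^ 2 + δ)⁻¹ • (x - a)⟫| ≤
      ∫ x, (2 * ‖G x‖ ^ 2 + 1 / 2 * ((‖x - a‖ ^ 2 + δ)⁻¹ * f x ^ 2)) :=
    norm_integral_le_of_norm_le (f := fun x => 2 * f x * ⟪G x, (‖x - a‖ ^ 2 + δ)⁻¹ • (x - a)⟫) hB
      (Eventually.of_forall hb)
  rw [integral_add (hG.const_mul 2) (hI.const_mul _), integral_const_mul, integral_const_mul] at h1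
  have h2 : ∫ x, (‖x - a‖ ^ 2 + δ)⁻¹ * f x ^ 2 ≤
      ∫ x, (3 * (‖x - a‖ ^ 2 + δ)⁻¹ - 2 * ‖x - a‖ ^ 2 * (‖x - a‖ ^ 2 + δ)⁻¹ ^ 2) * f x ^ 2 := by
    refine integral_mono hI ?_ fun x => ?_
    · refine (hI.const_mul 3).mono' ?_ (Eventually.of_forall fun x => ?_)
      · refine AEStronglyMeasurable.mul (Continuous.aestronglyMeasurable ?_) hf.h1.int_sq.1
        exact (continuous_const.mul hw).sub (Continuous.mul (by fun_prop) (hw.pow 2))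
      · obtain ⟨h1, h2⟩ := hp x
        have h3 : 0 ≤ ‖x - a‖ ^ 2 * (‖x - a‖ ^ 2 + δ)⁻¹ ^ 2 := by positivity
        rw [Real.norm_of_nonneg (mul_nonneg (by linarith) (sq_nonneg _)), ← mul_assoc]
        exact mul_le_mul_of_nonneg_right (by linarith) (sq_nonneg _)
    · obtain ⟨h1, h2⟩ := hp x
      exact mul_le_mul_of_nonneg_right (by linarith) (sq_nonneg _)
  have h3 := neg_abs_le (∫ x, 2 * f x * ⟪G x, (‖x - a‖ ^ 2 + δ)⁻¹ • (x - a)⟫)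
  linarith
/-- Hardy's inequality: `TH.sq_div` with the field `Y = (x - a) / (‖x - a‖² + ε²)` -/
theorem hardy {f : E3 → ℝ} {G : E3 → E3} (hf : H1 f G) (a : E3) :
    Integrable (fun x => f x ^ 2 / ‖x - a‖ ^ 2) ∧ ∫ x, f x ^ 2 / ‖x - a‖ ^ 2 ≤ 4 * ∫ x, ‖G x‖ ^ 2 := by
  obtain ⟨φ, hφ, hA, -⟩ := hf.dense
  have hδ : ∀ n : ℕ, (0 : ℝ) < 1 / ((n : ℝ) + 1) := fun n => by positivity
  have hG : Tendsto (fun n => 4 * ∫ x, ‖∇ (φ n) x‖ ^ 2) atTop (𝓝 (4 * ∫ x, ‖G x‖ ^ 2)) := by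
    have h := ((FB.const (E := E3) 0).qf_tendsto (fun n => (hφ n).h1) hf hA.l2 hA.l2G).const_mul 8
    simp only [qf, zero_mul, integral_zero, add_zero] at h
    have e : ∀ t : ℝ, 8 * (1 / 2 * t) = 4 * t := fun t => by ring
    simpa only [e] using h
  have hlim : ∀ᵐ x, Tendsto (fun n : ℕ => ENNReal.ofReal ((‖x - a‖ ^ 2 + 1 / ((n : ℝ) + 1))⁻¹ * φ n x ^ 2)) atTop
      (𝓝 (ENNReal.ofReal (f x ^ 2 / ‖x - a‖ ^ 2))) := by
    have hne : ∀ᵐ x : E3, x ≠ a := by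
      rw [ae_iff]
      simp
    filter_upwards [hA.ae, hne] with x h1 h2
    refine ENNReal.tendsto_ofReal ?_
    have h3 : ‖x - a‖ ^ 2 + 0 ≠ 0 := by
      rw [add_zero]
      exact pow_ne_zero _ (norm_ne_zero_iff.2 (sub_ne_zero.2 h2))
    have h4 := ((tendsto_const_nhds.add tendsto_one_div_add_atTop_nhds_zero_nat).inv₀ h3).mul (h1.pow 2)
    rwa [add_zero, ← div_eq_inv_mul] at h4
  have hm : AEStronglyMeasurable (fun x => f x ^ 2 / ‖x - a‖ ^ 2) volume :=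
    ((hf.mf.1.aemeasurable.pow_const 2).div (by fun_prop)).aestronglyMeasurable
  have h0 : 0 ≤ᵐ[volume] fun x => f x ^ 2 / ‖x - a‖ ^ 2 := Eventually.of_forall fun x => by positivity
  have key : ∫⁻ x, ENNReal.ofReal (f x ^ 2 / ‖x - a‖ ^ 2) ≤ ENNReal.ofReal (4 * ∫ x, ‖G x‖ ^ 2) := by
    calc ∫⁻ x, ENNReal.ofReal (f x ^ 2 / ‖x - a‖ ^ 2)
        = ∫⁻ x, liminf (fun n : ℕ => ENNReal.ofReal ((‖x - a‖ ^ 2 + 1 / ((n : ℝ) + 1))⁻¹ * φ n x ^ 2)) atTop :=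
          lintegral_congr_ae (hlim.mono fun x hx => hx.liminf_eq.symm)
      _ ≤ liminf (fun n : ℕ => ∫⁻ x, ENNReal.ofReal ((‖x - a‖ ^ 2 + 1 / ((n : ℝ) + 1))⁻¹ * φ n x ^ 2)) atTop :=
          lintegral_liminf_le' fun n =>
            (s8_int (hφ n).h1 a (hδ n)).aemeasurable.ennreal_ofReal
      _ ≤ liminf (fun n : ℕ => ENNReal.ofReal (4 * ∫ x, ‖∇ (φ n) x‖ ^ 2)) atTop := by
          refine liminf_le_liminf (Eventually.of_forall fun n => ?_)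
          rw [← ofReal_integral_eq_lintegral_ofReal (s8_int (hφ n).h1 a (hδ n))
            (Eventually.of_forall fun x => by have := hδ n; positivity)]
          exact ENNReal.ofReal_le_ofReal (s8_eps (hφ n).th a (hδ n))
      _ = ENNReal.ofReal (4 * ∫ x, ‖G x‖ ^ 2) := (ENNReal.tendsto_ofReal hG).liminf_eq
  have hint : Integrable fun x => f x ^ 2 / ‖x - a‖ ^ 2 :=
    ⟨hm, (hasFiniteIntegral_iff_ofReal h0).2 (key.trans_lt ENNReal.ofReal_lt_top)⟩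
  refine ⟨hint, ?_⟩
  rw [← ofReal_integral_eq_lintegral_ofReal hint h0] at key
  exact (ENNReal.ofReal_le_ofReal_iff (by positivity)).1 key

end Crest.Agent.R335
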