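import Crest.Agent.R335.S11
import Crest.Agent.R335.S8

/-!
# R335/S15: the Coulomb potentials on `ℝ⁶` and `ℝ⁹`
-/

set_option autoImplicit false

namespace Crest.Agent.R335

open MeasureTheory Set Filter Topology
open scoped Gradient RealInnerProductSpace ENNReal ContDiff
open Crest.MathPhysics.ThreeBody

theorem s15a_gen {A E : Type} [NormedAddCommGroup A] [InnerProductSpace ℝ A] [FiniteDimensional ℝ A]
    [MeasurableSpace A] [BorelSpace A] [NormedAddCommGroup E] [InnerProductSpace ℝ E] [FiniteDimensional ℝ E]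
    [MeasurableSpace E] [BorelSpace E] (s : Spl A E3 E) {c : A → E3} (hc : Continuous c)
    {f : E → ℝ} {G : E → E} (hf : H1 f G) :
    Integrable (fun x => f x ^ 2 / ‖s.p2 x - c (s.p1 x)‖ ^ 2) ∧
      ∫ x, f x ^ 2 / ‖s.p2 x - c (s.p1 x)‖ ^ 2 ≤ 4 * ∫ x, ‖G x‖ ^ 2 := by
  have hm : AEMeasurable (fun x => f x ^ 2 / ‖s.p2 x - c (s.p1 x)‖ ^ 2) volume := by
    refine AEMeasurable.div (hf.mf.1.aemeasurable.pow_const 2) ?_
    have : Continuous fun x : E => ‖s.p2 x - c (s.p1 x)‖ ^ 2 := by fun_prop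
    exact this.measurable.aemeasurable
  have hnn : ∀ x, 0 ≤ f x ^ 2 / ‖s.p2 x - c (s.p1 x)‖ ^ 2 := fun x => by positivity
  have hG := hf.int_grad_sq
  have hG4 : Integrable fun x => 4 * ‖G x‖ ^ 2 := hG.const_mul 4
  have hfib := s.integrable_fibre hG4
  have key : ∫⁻ x, ENNReal.ofReal (f x ^ 2 / ‖s.p2 x - c (s.p1 x)‖ ^ 2) ≤
      ENNReal.ofReal (4 * ∫ x, ‖G x‖ ^ 2) := by
    rw [s.lintegral_eq (hm.ennreal_ofReal), ← integral_const_mul, s.integral_eq hG4,
      ofReal_integral_eq_lintegral_ofReal hfib.2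
        (Eventually.of_forall fun a => integral_nonneg fun b => by positivity)]
    refine lintegral_mono_ae ?_
    filter_upwards [H1.slice s hf, hfib.1] with a ha ha2
    obtain ⟨h1, h2⟩ := hardy ha (c a)
    simp only [s.p1_j, s.p2_j]
    rw [← ofReal_integral_eq_lintegral_ofReal h1 (Eventually.of_forall fun b => by positivity)]
    refine ENNReal.ofReal_le_ofReal (h2.trans ?_)
    rw [← integral_const_mul]
    refine integral_mono (ha.int_grad_sq.const_mul 4) ha2 fun b => ?_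
    have := s.norm_sq (G (s.j a b))
    have h3 : 0 ≤ ‖s.p1 (G (s.j a b))‖ ^ 2 := by positivity
    simp only
    linarith
  have hint : Integrable (fun x => f x ^ 2 / ‖s.p2 x - c (s.p1 x)‖ ^ 2) := by
    refine ⟨hm.aestronglyMeasurable, ?_⟩
    rw [hasFiniteIntegral_iff_ofReal (Eventually.of_forall hnn)]
    exact key.trans_lt ENNReal.ofReal_lt_top
  refine ⟨hint, ?_⟩
  rw [← ofReal_integral_eq_lintegral_ofReal hint (Eventually.of_forall hnn)] at key
  exact (ENNReal.ofReal_le_ofReal_iff (mul_nonneg (by norm_num) (integral_nonneg fun x => by positivity))).1 key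

theorem s15a_cont_pos2 (k : Fin 2) : Continuous (pos2 k) := by
  unfold pos2
  fun_prop

/-- Hardy's inequality in one electron of the ion (slices) -/
theorem hardy2 {f : E6 → ℝ} {G : E6 → E6} (hf : H1 f G) (i : Fin 2) (a : E3) :
    Integrable (fun y => f y ^ 2 / ‖a - pos2 i y‖ ^ 2) ∧
      ∫ y, f y ^ 2 / ‖a - pos2 i y‖ ^ 2 ≤ 4 * ∫ y, ‖G y‖ ^ 2 := by
  obtain ⟨s, h1, h2, -⟩ := exists_spl2 i
  have := s15a_gen s.swap (c := fun _ => a) continuous_const hf
  have e : ∀ y, ‖s.swap.p2 y - a‖ = ‖a - pos2 i y‖ := fun y => by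
    rw [norm_sub_rev]; exact congrArg (fun t => ‖a - t‖) (h1 y)
  simpa only [e] using this

theorem hardy2' {f : E6 → ℝ} {G : E6 → E6} (hf : H1 f G) :
    Integrable (fun y => f y ^ 2 / ‖pos2 0 y - pos2 1 y‖ ^ 2) ∧
      ∫ y, f y ^ 2 / ‖pos2 0 y - pos2 1 y‖ ^ 2 ≤ 4 * ∫ y, ‖G y‖ ^ 2 := by
  obtain ⟨s, h1, h2, -⟩ := exists_spl2 0
  have := s15a_gen s (c := fun a => a) continuous_id hf
  have e : ∀ y, ‖s.p2 y - s.p1 y‖ = ‖pos2 0 y - pos2 1 y‖ := fun y => by
    rw [norm_sub_rev, h1, h2]; rfl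
  simpa only [e] using this

theorem hardy3 {f : E9 → ℝ} {G : E9 → E9} (hf : H1 f G) {i j : Fin 3} (h : i ≠ j) :
    Integrable (fun X => f X ^ 2 / ‖elPos i X - elPos j X‖ ^ 2) ∧
      ∫ X, f X ^ 2 / ‖elPos i X - elPos j X‖ ^ 2 ≤ 4 * ∫ X, ‖G X‖ ^ 2 := by
  obtain ⟨s, h1, h2, -⟩ := exists_spl3 i
  obtain ⟨k, rfl⟩ := Fin.exists_succAbove_eq h.symm
  have := s15a_gen s.swap (c := pos2 k) (s15a_cont_pos2 k) hf
  have e : ∀ X, ‖s.swap.p2 X - pos2 k (s.swap.p1 X)‖ = ‖elPos i X - elPos (i.succAbove k) X‖ := fun X => by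
    have e1 : s.swap.p2 X = elPos i X := h1 X
    have e2 : s.swap.p1 X = mk2 (elPos (i.succAbove 0) X) (elPos (i.succAbove 1) X) := h2 X
    rw [e1, e2]
    fin_cases k <;> rfl
  simpa only [e] using this

end Crest.Agent.R335
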