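import Crest.Agent.R335.Defs

/-!
# R335/S1: algebra of `H1`, changes of variables
-/

set_option autoImplicit false

namespace Crest.Agent.R335

open MeasureTheory Set Filter Topology
open scoped Gradient RealInnerProductSpace ENNReal ContDiff
open Crest.MathPhysics.ThreeBody

variable {E : Type} [NormedAddCommGroup E] [InnerProductSpace ℝ E] [FiniteDimensional ℝ E]
  [MeasurableSpace E] [BorelSpace E]

variable {f g : E → ℝ} {G K : E → E}

theorem s1a_mφ {Ω : Set E} {φ : E → ℝ} (h : Tst Ω φ) : MemLp φ 2 volume :=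
  h.sm.continuous.memLp_of_hasCompactSupport h.cpt

theorem s1a_mD {Ω : Set E} {φ : E → ℝ} (h : Tst Ω φ) (a : E) : MemLp (fun x => fderiv ℝ φ x a) 2 volume :=
  ((h.sm.continuous_fderiv (by simp)).clm_apply continuous_const).memLp_of_hasCompactSupport
    (h.cpt.fderiv_apply ℝ a)

theorem s1a_i1 {Ω : Set E} {φ : E → ℝ} (hf : MemLp f 2 volume) (h : Tst Ω φ) (a : E) :
    Integrable fun x => f x * fderiv ℝ φ x a := hf.integrable_mul (s1a_mD h a)

theorem s1a_i2 {Ω : Set E} {φ : E → ℝ} (hG : MemLp G 2 volume) (h : Tst Ω φ) (a : E) :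
    Integrable fun x => ⟪G x, a⟫ * φ x := (hG.inner_const (𝕜 := ℝ) a).integrable_mul (s1a_mφ h)

theorem s1a_grad_cont (hf : ContDiff ℝ 1 f) : Continuous (∇ f) :=
  (InnerProductSpace.toDual ℝ E).symm.continuous.comp (hf.continuous_fderiv one_ne_zero)

theorem s1a_grad_zero {x : E} (hx : x ∉ tsupport f) : ∇ f x = 0 := by
  have h : fderiv ℝ f x = 0 := by
    by_contra hn
    exact hx (support_fderiv_subset ℝ (f := f) hn)
  rw [gradient, h, map_zero]

theorem s1a_unique_on (hf : H1 f G) (hg : H1 g K) {U : Set E} (hU : IsOpen U) (h : ∀ᵐ x, x ∈ U → f x = g x) :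
    ∀ᵐ x, x ∈ U → G x = K x := by
  have key : ∀ a : E, ∀ᵐ x, x ∈ U → ⟪G x - K x, a⟫ = 0 := fun a => by
    refine hU.ae_eq_zero_of_integral_contDiff_smul_eq_zero
      ((((hf.mG.sub hg.mG).inner_const (𝕜 := ℝ) a).locallyIntegrable (by simp)).locallyIntegrableOn U)
      fun φ h1 h2 h3 => ?_
    have hφ : Tst univ φ := ⟨h1, h2, subset_univ _⟩
    have e1 : ∫ x, f x * fderiv ℝ φ x a = ∫ x, g x * fderiv ℝ φ x a := by
      refine integral_congr_ae ?_
      filter_upwards [h] with x hx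
      by_cases hxU : x ∈ U
      · rw [hx hxU]
      · have h0 : fderiv ℝ φ x = 0 := by
          by_contra hn
          exact hxU (h3 (support_fderiv_subset ℝ (f := φ) hn))
        simp [h0]
    rw [hf.wg φ hφ a, hg.wg φ hφ a, neg_inj] at e1
    have e2 : ∀ x, φ x • ⟪G x - K x, a⟫ = ⟪G x, a⟫ * φ x - ⟪K x, a⟫ * φ x := fun x => by
      rw [inner_sub_left, smul_eq_mul]
      ring
    simp only [e2]
    rw [integral_sub (s1a_i2 hf.mG hφ a) (s1a_i2 hg.mG hφ a), e1, sub_self]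
  have h2 := ae_all_iff.2 fun i => key (stdOrthonormalBasis ℝ E i)
  filter_upwards [h2] with x hx hxU
  rw [← sub_eq_zero, ← (stdOrthonormalBasis ℝ E).sum_repr' (G x - K x)]
  exact Finset.sum_eq_zero fun i _ => by rw [real_inner_comm, hx i hxU, zero_smul]

theorem H1.zero : H1 (fun _ : E => (0 : ℝ)) fun _ => 0 := by
  exact ⟨MemLp.zero, MemLp.zero, fun φ _ a => by simp⟩

theorem H1.add (hf : H1 f G) (hg : H1 g K) : H1 (fun x => f x + g x) fun x => G x + K x := by
  refine ⟨hf.mf.add hg.mf, hf.mG.add hg.mG, fun φ hφ a => ?_⟩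
  simp only [add_mul, inner_add_left]
  rw [integral_add (s1a_i1 hf.mf hφ a) (s1a_i1 hg.mf hφ a), integral_add (s1a_i2 hf.mG hφ a) (s1a_i2 hg.mG hφ a),
    hf.wg φ hφ a, hg.wg φ hφ a, neg_add]

theorem H1.const_mul (c : ℝ) (hf : H1 f G) : H1 (fun x => c * f x) fun x => c • G x := by
  refine ⟨hf.mf.const_mul c, hf.mG.const_smul c, fun φ hφ a => ?_⟩
  simp only [mul_assoc, real_inner_smul_left]
  rw [integral_const_mul, integral_const_mul, hf.wg φ hφ a, mul_neg]

theorem H1.neg (hf : H1 f G) : H1 (fun x => -f x) fun x => -G x := by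
  simpa using hf.const_mul (-1)

theorem H1.sub (hf : H1 f G) (hg : H1 g K) : H1 (fun x => f x - g x) fun x => G x - K x := by
  simpa only [sub_eq_add_neg] using hf.add hg.neg

theorem H1.sum {ι : Type} (s : Finset ι) {f : ι → E → ℝ} {G : ι → E → E} (h : ∀ i ∈ s, H1 (f i) (G i)) :
    H1 (fun x => ∑ i ∈ s, f i x) fun x => ∑ i ∈ s, G i x := by
  classical
  induction s using Finset.induction_on with
  | empty => simpa using H1.zero
  | insert i s hi ih =>
    simp only [Finset.sum_insert hi]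
    exact (h i (Finset.mem_insert_self i s)).add (ih fun j hj => h j (Finset.mem_insert_of_mem hj))

theorem H1.congr (hf : H1 f G) (h1 : f =ᵐ[volume] g) (h2 : G =ᵐ[volume] K) : H1 g K := by
  refine ⟨hf.mf.ae_eq h1, hf.mG.ae_eq h2, fun φ hφ a => ?_⟩
  have e1 : ∫ x, g x * fderiv ℝ φ x a = ∫ x, f x * fderiv ℝ φ x a :=
    integral_congr_ae (by filter_upwards [h1] with x hx; rw [hx])
  have e2 : ∫ x, ⟪K x, a⟫ * φ x = ∫ x, ⟪G x, a⟫ * φ x :=
    integral_congr_ae (by filter_upwards [h2] with x hx; rw [hx])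
  rw [e1, e2, hf.wg φ hφ a]

/-- `ae_eq_zero_of_integral_contDiff_smul_eq_zero` applied to `⟪G - K, a⟫`, `a` in an orthonormal basis -/
theorem H1.unique (hf : H1 f G) (hg : H1 g K) (h : f =ᵐ[volume] g) : G =ᵐ[volume] K := by
  have h1 := s1a_unique_on hf hg isOpen_univ (by filter_upwards [h] with x hx _ using hx)
  filter_upwards [h1] with x hx using hx (mem_univ x)

/-- local uniqueness (`IsOpen.ae_eq_zero_of_integral_contDiff_smul_eq_zero`) -/
theorem H1.unique_on (hf : H1 f G) (hg : H1 g K) {U : Set E} (hU : IsOpen U) (h : ∀ᵐ x, x ∈ U → f x = g x) :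
    ∀ᵐ x, x ∈ U → G x = K x := by
  exact s1a_unique_on hf hg hU h

/-- `integral_mul_fderiv_eq_neg_fderiv_mul_of_integrable` -/
theorem H1.of_c1 (hf : ContDiff ℝ 1 f) (h2 : MemLp f 2 volume) (h3 : MemLp (∇ f) 2 volume) : H1 f (∇ f) := by
  refine ⟨h2, h3, fun φ hφ a => ?_⟩
  have h4 := s1a_i2 h3 hφ a
  simp only [inner_gradient_left] at h4 ⊢
  exact integral_mul_fderiv_eq_neg_fderiv_mul_of_integrable h4 (s1a_i1 h2 hφ a) (h2.integrable_mul (s1a_mφ hφ))
    (fun x _ => hf.differentiable one_ne_zero x) fun x _ => hφ.sm.differentiable (by simp) x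

theorem H1.of_c1_cpt (hf : ContDiff ℝ 1 f) (hc : HasCompactSupport f) : H1 f (∇ f) := by
  refine H1.of_c1 hf (hf.continuous.memLp_of_hasCompactSupport hc)
    ((s1a_grad_cont hf).memLp_of_hasCompactSupport ?_)
  exact HasCompactSupport.intro hc fun x hx => s1a_grad_zero hx

theorem Tst.h1 {Ω : Set E} (hf : Tst Ω f) : H1 f (∇ f) := by
  exact H1.of_c1_cpt (hf.sm.of_le (by simp)) hf.cpt

theorem TH.of_c1 {Ω : Set E} (hf : ContDiff ℝ 1 f) (hc : HasCompactSupport f) (hs : tsupport f ⊆ Ω) :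
    TH Ω f (∇ f) := by
  exact ⟨H1.of_c1_cpt hf hc, tsupport f, hc, hs, Eventually.of_forall fun x hx =>
    ⟨image_eq_zero_of_notMem_tsupport hx, s1a_grad_zero hx⟩⟩

theorem Tst.th {Ω : Set E} (hf : Tst Ω f) : TH Ω f (∇ f) := by
  exact TH.of_c1 (hf.sm.of_le (by simp)) hf.cpt hf.sub

theorem TH.mono {Ω Ω' : Set E} (hf : TH Ω f G) (h : Ω ⊆ Ω') : TH Ω' f G := by
  obtain ⟨C, h1, h2, h3⟩ := hf.cpt
  exact ⟨hf.h1, C, h1, h2.trans h, h3⟩

theorem TH.add {Ω : Set E} (hf : TH Ω f G) (hg : TH Ω g K) : TH Ω (fun x => f x + g x) fun x => G x + K x := by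
  obtain ⟨C, h1, h2, h3⟩ := hf.cpt
  obtain ⟨C', h1', h2', h3'⟩ := hg.cpt
  refine ⟨hf.h1.add hg.h1, C ∪ C', h1.union h1', union_subset h2 h2', ?_⟩
  filter_upwards [h3, h3'] with x hx hx' hxC
  obtain ⟨a1, a2⟩ := hx fun h => hxC (Or.inl h)
  obtain ⟨b1, b2⟩ := hx' fun h => hxC (Or.inr h)
  rw [a1, a2, b1, b2, add_zero, add_zero]
  exact ⟨rfl, rfl⟩

theorem TH.const_mul {Ω : Set E} (c : ℝ) (hf : TH Ω f G) : TH Ω (fun x => c * f x) fun x => c • G x := by
  obtain ⟨C, h1, h2, h3⟩ := hf.cpt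
  refine ⟨hf.h1.const_mul c, C, h1, h2, ?_⟩
  filter_upwards [h3] with x hx hxC
  obtain ⟨a1, a2⟩ := hx hxC
  rw [a1, a2, mul_zero, smul_zero]
  exact ⟨rfl, rfl⟩

/-- a function in `H¹` which vanishes outside a compact set (the gradient vanishes there by `H1.unique_on`) -/
theorem TH.of_h1 {Ω C : Set E} (hf : H1 f G) (hC : IsCompact C) (hs : C ⊆ Ω) (h0 : ∀ᵐ x, x ∉ C → f x = 0) :
    TH Ω f G := by
  refine ⟨hf, C, hC, hs, ?_⟩
  filter_upwards [h0, hf.unique_on H1.zero hC.isClosed.isOpen_compl h0] with x h1 h2 hx using ⟨h1 hx, h2 hx⟩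

theorem H1.int_sq (hf : H1 f G) : Integrable fun x => f x ^ 2 := by
  exact hf.mf.integrable_sq

theorem H1.int_grad_sq (hf : H1 f G) : Integrable fun x => ‖G x‖ ^ 2 := by
  exact (memLp_two_iff_integrable_sq_norm hf.mG.1).1 hf.mG

theorem H1.int_mul (hf : H1 f G) (hg : H1 g K) : Integrable fun x => f x * g x := by
  exact hf.mf.integrable_mul hg.mf

theorem H1.int_inner (hf : H1 f G) (hg : H1 g K) : Integrable fun x => ⟪G x, K x⟫ := by
  refine (hf.mG.norm.integrable_mul hg.mG.norm).mono' (hf.mG.1.inner hg.mG.1) (Eventually.of_forall fun x => ?_)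
  exact norm_inner_le_norm _ _

end Crest.Agent.R335
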