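import Crest.Agent.R335.S1a

/-!
# R335/S1: algebra of `H1`, changes of variables
-/

set_option autoImplicit false

namespace Crest.Agent.R335

open MeasureTheory Set Filter Topology
open scoped Gradient RealInnerProductSpace ENNReal ContDiff
open Crest.MathPhysics.ThreeBody

variable {E : Type} [NormedAddCommGroup E] [InnerProductSpace ℝ E] [FiniteDimensional ℝ E]
  [MeasurableSpace E] [BorelSpace E]

variable {f g : E → ℝ} {G K : E → E}

theorem s1b_gen {E' : Type} [NormedAddCommGroup E'] [InnerProductSpace ℝ E'] [FiniteDimensional ℝ E']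
    [MeasurableSpace E'] [BorelSpace E'] (hf : H1 f G) (L : E' ≃L[ℝ] E) (b : E) {κ : ℝ≥0∞} (hκ : κ ≠ ⊤)
    (hm : Measure.map (fun x => L x + b) volume = κ • volume) (M : E →L[ℝ] E')
    (hM : ∀ v a, ⟪M v, a⟫ = ⟪v, L a⟫) : H1 (fun x => f (L x + b)) fun x => M (G (L x + b)) := by
  let T : E' ≃ₜ E := L.toHomeomorph.trans (Homeomorph.addRight b)
  have hT : MeasurableEmbedding fun x => L x + b := T.measurableEmbedding
  have h1 : MemLp f 2 (Measure.map (fun x => L x + b) volume) := by
    rw [hm]; exact hf.mf.smul_measure hκ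
  have h2 : MemLp G 2 (Measure.map (fun x => L x + b) volume) := by
    rw [hm]; exact hf.mG.smul_measure hκ
  refine ⟨h1.comp_of_map hT.measurable.aemeasurable,
    M.comp_memLp' (h2.comp_of_map hT.measurable.aemeasurable), fun φ hφ a => ?_⟩
  have hs : ContDiff ℝ ∞ fun y : E => L.symm (y - b) :=
    L.symm.contDiff.comp (contDiff_id.sub contDiff_const)
  have hψ : Tst univ fun y => φ (L.symm (y - b)) :=
    ⟨hφ.sm.comp hs, by
      have := hφ.cpt.comp_homeomorph ((Homeomorph.subRight b).trans L.symm.toHomeomorph)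
      exact this, subset_univ _⟩
  have hd : ∀ x, fderiv ℝ (fun y => φ (L.symm (y - b))) (L x + b) (L a) = fderiv ℝ φ x a := by
    intro x
    have d1 : HasFDerivAt (fun y : E => L.symm (y - b)) (L.symm : E →L[ℝ] E') (L x + b) := by
      have := L.symm.hasFDerivAt.comp (L x + b) ((hasFDerivAt_id (L x + b)).sub_const b)
      rw [ContinuousLinearMap.comp_id] at this
      exact this
    have d2 : HasFDerivAt φ (fderiv ℝ φ x) (L.symm (L x + b - b)) := by
      simpa using (hφ.sm.differentiable (by simp) x).hasFDerivAt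
    have d3 : HasFDerivAt (fun y => φ (L.symm (y - b))) _ (L x + b) := d2.comp (L x + b) d1
    rw [d3.fderiv]
    simp
  have key := hf.wg _ hψ (L a)
  have e1 := hT.integral_map (μ := volume)
    (fun y => f y * fderiv ℝ (fun y => φ (L.symm (y - b))) y (L a))
  have e2 := hT.integral_map (μ := volume) (fun y => ⟪G y, L a⟫ * φ (L.symm (y - b)))
  rw [hm, integral_smul_measure] at e1 e2
  simp only [hd] at e1
  simp only [add_sub_cancel_right, ContinuousLinearEquiv.symm_apply_apply] at e2
  simp only [hM]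
  rw [← e1, ← e2, key, smul_neg]
theorem H1.comp_iso {E' : Type} [NormedAddCommGroup E'] [InnerProductSpace ℝ E'] [FiniteDimensional ℝ E']
    [MeasurableSpace E'] [BorelSpace E'] (hf : H1 f G) (T : E' ≃ₗᵢ[ℝ] E) :
    H1 (fun x => f (T x)) fun x => T.symm (G (T x)) := by
  have h := s1b_gen hf T.toContinuousLinearEquiv 0 (κ := 1) ENNReal.one_ne_top
    (by simpa using T.measurePreserving.map_eq) (T.symm.toContinuousLinearEquiv : E →L[ℝ] E')
    (fun v a => by simpa using (T.inner_map_map (T.symm v) a).symm)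
  simpa using h

theorem H1.comp_add (hf : H1 f G) (a : E) : H1 (fun x => f (x + a)) fun x => G (x + a) := by
  have h := s1b_gen hf (ContinuousLinearEquiv.refl ℝ E) a (κ := 1) ENNReal.one_ne_top
    (by simpa using map_add_right_eq_self volume a) (ContinuousLinearMap.id ℝ E) (fun v a => by simp)
  simpa using h

theorem H1.comp_smul (hf : H1 f G) {c : ℝ} (hc : c ≠ 0) : H1 (fun x => f (c • x)) fun x => c • G (c • x) := by
  let L : E ≃L[ℝ] E := (LinearEquiv.smulOfNeZero ℝ E c hc).toContinuousLinearEquiv
  have hL : ∀ x, L x = c • x := fun x => rfl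
  have h := s1b_gen hf L 0 (κ := ENNReal.ofReal |(c ^ Module.finrank ℝ E)⁻¹|) ENNReal.ofReal_ne_top
    (by simpa only [hL, add_zero] using Measure.map_addHaar_smul volume hc) (c • ContinuousLinearMap.id ℝ E)
    (fun v a => by simp [hL, real_inner_smul_left, real_inner_smul_right])
  simpa [hL] using h

theorem bf_comm (V : E → ℝ) : bf V f G g K = bf V g K f G := by
  simp only [bf, real_inner_comm (G _), mul_comm (f _)]

theorem bf_self (V : E → ℝ) : bf V f G f G = qf V f G := by
  simp only [bf, qf, real_inner_self_eq_norm_sq, sq]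

theorem ip_self : ip f f = nsq f := by
  simp only [ip, nsq, sq]

theorem ip_comm : ip f g = ip g f := by
  simp only [ip, mul_comm]

theorem nsq_nonneg : 0 ≤ nsq f := by
  exact integral_nonneg fun x => sq_nonneg _

theorem ip_sq_le (hf : MemLp f 2 volume) (hg : MemLp g 2 volume) : ip f g ^ 2 ≤ nsq f * nsq g := by
  have e : ∀ {u v : E → ℝ} (hu : MemLp u 2 volume) (hv : MemLp v 2 volume),
      ip u v = ⟪hu.toLp u, hv.toLp v⟫ := by
    intro u v hu hv
    rw [L2.inner_def]
    refine integral_congr_ae ?_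
    filter_upwards [hu.coeFn_toLp, hv.coeFn_toLp] with x h1 h2
    rw [h1, h2]
    simp [mul_comm]
  rw [← ip_self, ← ip_self, e hf hg, e hf hf, e hg hg, sq]
  exact real_inner_mul_inner_self_le _ _

theorem nsq_eq_zero (hf : MemLp f 2 volume) (h : nsq f = 0) : ∀ᵐ x, f x = 0 := by
  filter_upwards [(integral_eq_zero_iff_of_nonneg (fun x => sq_nonneg (f x)) hf.integrable_sq).1 h] with x hx
  simpa using hx

end Crest.Agent.R335
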