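import Crest.Agent.R335.S2c

/-!
# R335/S2: density of smooth functions (cut off, then mollify with `ContDiffBump.normed`)

For `f ∈ H¹` the mollification `η_ε ⋆ f` is smooth with gradient `η_ε ⋆ G` (definition of `H1` with the test function
`η_ε (x - ·)`), and `η_ε ⋆ h → h` in `L²` (density of continuous compactly supported functions + Young/Jensen).
-/

set_option autoImplicit false

namespace Crest.Agent.R335

open MeasureTheory Set Filter Topology
open scoped Gradient RealInnerProductSpace ENNReal ContDiff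
open Crest.MathPhysics.ThreeBody

variable {E : Type} [NormedAddCommGroup E] [InnerProductSpace ℝ E] [FiniteDimensional ℝ E]
  [MeasurableSpace E] [BorelSpace E]

variable {f : E → ℝ} {G : E → E}

/-- smooth cut-off functions -/
theorem exists_tst_one {Ω C : Set E} (hΩ : IsOpen Ω) (hC : IsCompact C) (h : C ⊆ Ω) :
    ∃ χ, Tst Ω χ ∧ (∀ x, 0 ≤ χ x ∧ χ x ≤ 1) ∧ ∀ᶠ x in 𝓝ˢ C, χ x = 1 := by
  obtain ⟨K, hK, hCK, hKΩ⟩ := exists_compact_between hC hΩ h
  obtain ⟨f, h1, h0, h01⟩ := exists_contMDiffMap_one_nhds_of_subset_interior (modelWithCornersSelf ℝ E) (n := (⊤ : ℕ∞))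
    hC.isClosed hCK
  have hs : tsupport f ⊆ K :=
    closure_minimal (fun x hx => by by_contra hx'; exact hx (h0 x hx')) hK.isClosed
  exact ⟨f, ⟨f.contMDiff.contDiff, hK.of_isClosed_subset (isClosed_tsupport _) hs, hs.trans hKΩ⟩,
    fun x => h01 x, h1⟩

/-- cut-off functions at scale `s`: `1` on `ball a s`, supported in `closedBall a (2 s)` -/
theorem exists_cut : ∃ M : ℝ, 0 ≤ M ∧ ∀ (a : E) (s : ℝ), 0 < s → ∃ χ, Tst (Metric.closedBall a (2 * s)) χ ∧
    (∀ x, 0 ≤ χ x ∧ χ x ≤ 1) ∧ (∀ x ∈ Metric.ball a s, χ x = 1) ∧ ∀ x, ‖∇ χ x‖ ≤ M / s := by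
  let b : ContDiffBump (0 : E) := ⟨1, 2, one_pos, one_lt_two⟩
  have hb : ContDiff ℝ ∞ b := b.contDiff
  have hbd : Differentiable ℝ b := hb.differentiable (by simp)
  obtain ⟨M, hM⟩ := (b.hasCompactSupport.fderiv (𝕜 := ℝ)).exists_bound_of_continuous
    (hb.continuous_fderiv (by simp))
  refine ⟨M, (norm_nonneg _).trans (hM 0), fun a s hs => ?_⟩
  have hn : ∀ x : E, ‖s⁻¹ • (x - a)‖ = s⁻¹ * ‖x - a‖ := fun x => by
    rw [norm_smul, Real.norm_of_nonneg (inv_pos.2 hs).le]
  have hsup : tsupport (fun x => b (s⁻¹ • (x - a))) ⊆ Metric.closedBall a (2 * s) := by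
    refine closure_minimal (fun x hx => ?_) Metric.isClosed_closedBall
    have h1 : s⁻¹ • (x - a) ∈ Function.support b := hx
    rw [b.support_eq, mem_ball_zero_iff, hn] at h1
    have h2 : s⁻¹ * ‖x - a‖ < 2 := h1
    rw [inv_mul_lt_iff₀ hs] at h2
    rw [Metric.mem_closedBall, dist_eq_norm]
    linarith
  refine ⟨fun x => b (s⁻¹ • (x - a)), ⟨hb.comp ((contDiff_id.sub contDiff_const).const_smul _),
    (isCompact_closedBall a (2 * s)).of_isClosed_subset (isClosed_tsupport _) hsup, hsup⟩,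
    fun x => ⟨b.nonneg, b.le_one⟩, fun x hx => ?_, fun x => ?_⟩
  · refine b.one_of_mem_closedBall ?_
    rw [mem_closedBall_zero_iff, hn]
    rw [Metric.mem_ball, dist_eq_norm] at hx
    change _ ≤ (1 : ℝ)
    rw [inv_mul_le_iff₀ hs]
    linarith
  · have h1 : HasFDerivAt (fun x : E => s⁻¹ • (x - a)) (s⁻¹ • ContinuousLinearMap.id ℝ E) x :=
      ((hasFDerivAt_id x).sub_const a).const_smul _
    have h2 : HasFDerivAt (fun x => b (s⁻¹ • (x - a)))
        ((fderiv ℝ b (s⁻¹ • (x - a))).comp (s⁻¹ • ContinuousLinearMap.id ℝ E)) x :=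
      (hbd _).hasFDerivAt.comp x h1
    rw [gradient, LinearIsometryEquiv.norm_map, h2.fderiv, ContinuousLinearMap.comp_smul,
      ContinuousLinearMap.comp_id, norm_smul, Real.norm_of_nonneg (inv_pos.2 hs).le, div_eq_inv_mul]
    exact mul_le_mul_of_nonneg_left (hM _) (inv_pos.2 hs).le

/-- approximation of an indicator function from inside a test function -/
theorem exists_tst_indicator {Ω A : Set E} {χ : E → ℝ} (hχ : Tst Ω χ) (h0 : ∀ x, 0 ≤ χ x) (hA : MeasurableSet A) :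
    ∃ ξ : ℕ → E → ℝ, (∀ n, Tst Ω (ξ n)) ∧ (∀ n x, 0 ≤ ξ n x ∧ ξ n x ≤ χ x) ∧
      ∀ᵐ x, Tendsto (fun n => ξ n x) atTop (𝓝 (A.indicator χ x)) := by
  have hA' : MeasurableSet (A ∩ tsupport χ) := hA.inter (isClosed_tsupport χ).measurableSet
  have hfin : volume (A ∩ tsupport χ) ≠ ⊤ :=
    ((measure_mono inter_subset_right).trans_lt hχ.cpt.isCompact.measure_lt_top).ne
  obtain ⟨ε, hε, hsum⟩ := ENNReal.exists_pos_sum_of_countable' (ε := 1) one_ne_zero ℕ
  choose K hKA hK hKm using fun n => hA'.exists_isCompact_sdiff_lt hfin (hε n).ne'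
  choose U hUA hU _ hUm using fun n => hA'.exists_isOpen_sdiff_lt hfin (hε n).ne'
  choose ψ hψ hψ01 hψ1 using fun n => exists_tst_one (hU n) (hK n) ((hKA n).trans (hUA n))
  refine ⟨fun n x => ψ n x * χ x, fun n => ⟨(hψ n).sm.mul hχ.sm, hχ.cpt.mul_left,
    (tsupport_mul_subset_right).trans hχ.sub⟩, fun n x => ⟨mul_nonneg (hψ01 n x).1 (h0 x),
      mul_le_of_le_one_left (h0 x) (hψ01 n x).2⟩, ?_⟩
  have e1 := ae_eventually_notMem (μ := (volume : Measure E)) (s := fun n => (A ∩ tsupport χ) \ K n)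
    (((ENNReal.tsum_le_tsum fun n => (hKm n).le).trans_lt (hsum.trans ENNReal.one_lt_top)).ne)
  have e2 := ae_eventually_notMem (μ := (volume : Measure E)) (s := fun n => U n \ (A ∩ tsupport χ))
    (((ENNReal.tsum_le_tsum fun n => (hUm n).le).trans_lt (hsum.trans ENNReal.one_lt_top)).ne)
  filter_upwards [e1, e2] with x h1 h2
  refine tendsto_const_nhds.congr' ?_
  filter_upwards [h1, h2] with n h1 h2
  by_cases hx : x ∈ A ∩ tsupport χ
  · have hk : x ∈ K n := by
      by_contra hk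
      exact h1 ⟨hx, hk⟩
    rw [indicator_of_mem hx.1, (hψ1 n).self_of_nhdsSet x hk, one_mul]
  · have hu : x ∉ U n := fun hu => h2 ⟨hu, hx⟩
    have h3 : ψ n x = 0 := image_eq_zero_of_notMem_tsupport fun h => hu ((hψ n).sub h)
    rw [h3, zero_mul]
    by_cases hxA : x ∈ A
    · rw [indicator_of_mem hxA]
      exact image_eq_zero_of_notMem_tsupport fun h => hx ⟨hxA, h⟩
    · exact indicator_of_notMem hxA _

end Crest.Agent.R335
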