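import Crest.Agent.R335.S1

/-!
# R335/S2: density of smooth functions (cut off, then mollify with `ContDiffBump.normed`)

For `f ∈ H¹` the mollification `η_ε ⋆ f` is smooth with gradient `η_ε ⋆ G` (definition of `H1` with the test function
`η_ε (x - ·)`), and `η_ε ⋆ h → h` in `L²` (density of continuous compactly supported functions + Young/Jensen).
-/

set_option autoImplicit false

namespace Crest.Agent.R335

open MeasureTheory Set Filter Topology
open scoped Gradient RealInnerProductSpace ENNReal ContDiff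
open Crest.MathPhysics.ThreeBody

variable {E : Type} [NormedAddCommGroup E] [InnerProductSpace ℝ E] [FiniteDimensional ℝ E]
  [MeasurableSpace E] [BorelSpace E]

variable {f : E → ℝ} {G : E → E}

/-- approximation in `L²` and a.e. of both the function and the gradient -/
structure Appr (φ : ℕ → E → ℝ) (f : E → ℝ) (G : E → E) : Prop where
  l2 : Tendsto (fun n => eLpNorm (fun x => φ n x - f x) 2 volume) atTop (𝓝 0)
  l2G : Tendsto (fun n => eLpNorm (fun x => ∇ (φ n) x - G x) 2 volume) atTop (𝓝 0)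
  ae : ∀ᵐ x, Tendsto (fun n => φ n x) atTop (𝓝 (f x))
  aeG : ∀ᵐ x, Tendsto (fun n => ∇ (φ n) x) atTop (𝓝 (G x))

section aux

open scoped Convolution
open ContinuousLinearMap (lsmul)

variable {V : Type} [NormedAddCommGroup V]

theorem s2a_sq {h : E → V} (hh : MemLp h 2 volume) : Integrable fun x => ‖h x‖ ^ 2 :=
  (memLp_two_iff_integrable_sq_norm hh.1).1 hh

theorem s2a_eLp {h : E → V} (hh : MemLp h 2 volume) :
    eLpNorm h 2 volume = ENNReal.ofReal (√(∫ x, ‖h x‖ ^ 2)) := by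
  rw [hh.eLpNorm_eq_integral_rpow_norm two_ne_zero ENNReal.ofNat_ne_top, Real.sqrt_eq_rpow]
  simp

/-- from integrals of squares to `eLpNorm` -/
theorem s2a_tend {h : ℕ → E → V} (hh : ∀ n, MemLp (h n) 2 volume)
    (ht : Tendsto (fun n => ∫ x, ‖h n x‖ ^ 2) atTop (𝓝 0)) :
    Tendsto (fun n => eLpNorm (h n) 2 volume) atTop (𝓝 0) := by
  simp only [fun n => s2a_eLp (hh n)]
  simpa using ENNReal.tendsto_ofReal ht.sqrt

/-- a.e. convergence and no increase of the norm give convergence in `L²` -/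
theorem s2a_scheffe {F : ℕ → E → V} {F₀ : E → V} (hF : ∀ n, MemLp (F n) 2 volume) (h0 : MemLp F₀ 2 volume)
    (hae : ∀ᵐ x, Tendsto (fun n => F n x) atTop (𝓝 (F₀ x)))
    (hle : ∀ n, ∫ x, ‖F n x‖ ^ 2 ≤ ∫ x, ‖F₀ x‖ ^ 2) :
    Tendsto (fun n => eLpNorm (fun x => F n x - F₀ x) 2 volume) atTop (𝓝 0) := by
  refine s2a_tend (fun n => (hF n).sub h0) ?_
  have i0 := s2a_sq h0
  have i1 := fun n => s2a_sq (hF n)
  have i2 : ∀ n, Integrable fun x => ‖F n x - F₀ x‖ ^ 2 := fun n => s2a_sq ((hF n).sub h0)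
  have iH : ∀ n, Integrable fun x => min (‖F n x - F₀ x‖ ^ 2) (4 * ‖F₀ x‖ ^ 2) := fun n =>
    (i2 n).inf (i0.const_mul 4)
  have iK : ∀ n, Integrable fun x => min (‖F n x‖ ^ 2) (‖F₀ x‖ ^ 2) := fun n => (i1 n).inf i0
  have tH := tendsto_integral_of_dominated_convergence (μ := volume)
    (F := fun n x => min (‖F n x - F₀ x‖ ^ 2) (4 * ‖F₀ x‖ ^ 2))
    (f := fun x => min (‖F₀ x - F₀ x‖ ^ 2) (4 * ‖F₀ x‖ ^ 2)) (fun x => 4 * ‖F₀ x‖ ^ 2)
    (fun n => (iH n).1) (i0.const_mul 4) (fun n => Eventually.of_forall fun x => by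
      rw [Real.norm_of_nonneg (le_min (by positivity) (by positivity))]
      exact min_le_right _ _)
    (hae.mono fun x hx => ((hx.sub_const _).norm.pow 2).min tendsto_const_nhds)
  have tK := tendsto_integral_of_dominated_convergence (μ := volume)
    (F := fun n x => min (‖F n x‖ ^ 2) (‖F₀ x‖ ^ 2))
    (f := fun x => min (‖F₀ x‖ ^ 2) (‖F₀ x‖ ^ 2)) (fun x => ‖F₀ x‖ ^ 2)
    (fun n => (iK n).1) i0 (fun n => Eventually.of_forall fun x => by
      rw [Real.norm_of_nonneg (le_min (by positivity) (by positivity))]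
      exact min_le_right _ _)
    (hae.mono fun x hx => (hx.norm.pow 2).min tendsto_const_nhds)
  have e0 : ∀ x, min (‖F₀ x - F₀ x‖ ^ 2) (4 * ‖F₀ x‖ ^ 2) = 0 := fun x => by
    rw [sub_self, norm_zero, zero_pow two_ne_zero]
    exact min_eq_left (by positivity)
  simp only [e0, integral_zero] at tH
  simp only [min_self] at tK
  have t := tH.add ((tK.const_sub (∫ x, ‖F₀ x‖ ^ 2)).const_mul 2)
  simp only [sub_self, mul_zero, add_zero] at t
  refine squeeze_zero (fun n => integral_nonneg fun x => by positivity) (fun n => ?_) t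
  have h1 : ∫ x, ‖F n x - F₀ x‖ ^ 2 ≤ ∫ x, (min (‖F n x - F₀ x‖ ^ 2) (4 * ‖F₀ x‖ ^ 2) +
      2 * (‖F n x‖ ^ 2 - min (‖F n x‖ ^ 2) (‖F₀ x‖ ^ 2))) := by
    refine integral_mono (i2 n) ((iH n).add (((i1 n).sub (iK n)).const_mul 2)) fun x => ?_
    have a1 := min_le_left (‖F n x‖ ^ 2) (‖F₀ x‖ ^ 2)
    have a2 := min_le_right (‖F n x‖ ^ 2) (‖F₀ x‖ ^ 2)
    have a3 : ‖F n x - F₀ x‖ ^ 2 ≤ 2 * ‖F n x‖ ^ 2 + 2 * ‖F₀ x‖ ^ 2 := by
      have b1 := pow_le_pow_left₀ (norm_nonneg _) (norm_sub_le (F n x) (F₀ x)) 2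
      nlinarith [sq_nonneg (‖F n x‖ - ‖F₀ x‖)]
    show ‖F n x - F₀ x‖ ^ 2 ≤ _
    rcases min_cases (‖F n x - F₀ x‖ ^ 2) (4 * ‖F₀ x‖ ^ 2) with ⟨h, -⟩ | ⟨h, -⟩ <;> simp only [h] <;> linarith
  have i3 : Integrable fun x => 2 * (‖F n x‖ ^ 2 - min (‖F n x‖ ^ 2) (‖F₀ x‖ ^ 2)) :=
    ((i1 n).sub (iK n)).const_mul 2
  rw [integral_add (iH n) i3, integral_const_mul, integral_sub (i1 n) (iK n)] at h1
  linarith [hle n]

variable [NormedSpace ℝ V] [CompleteSpace V]

theorem s2a_loc {h : E → V} (hh : MemLp h 2 volume) : LocallyIntegrable h volume :=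
  hh.locallyIntegrable (by simp)

theorem s2a_conv_sm (φ : ContDiffBump (0 : E)) {h : E → V} (hh : MemLp h 2 volume) :
    ContDiff ℝ ∞ (φ.normed volume ⋆[lsmul ℝ ℝ] h) :=
  φ.hasCompactSupport_normed.contDiff_convolution_left _ φ.contDiff_normed (s2a_loc hh)

/-- Jensen's inequality -/
theorem s2a_jensen (φ : ContDiffBump (0 : E)) {h : E → V} (hh : MemLp h 2 volume) (x : E) :
    ‖(φ.normed volume ⋆[lsmul ℝ ℝ] h) x‖ ^ 2 ≤ (φ.normed volume ⋆[lsmul ℝ ℝ] fun y => ‖h y‖ ^ 2) x := by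
  have i0 : Integrable (φ.normed volume) := φ.integrable_normed
  have i1 : Integrable fun t => φ.normed volume t * ‖h (x - t)‖ :=
    (φ.hasCompactSupport_normed.convolutionExists_left (lsmul ℝ ℝ) φ.continuous_normed
      (s2a_loc hh.norm) x).integrable
  have i2 : Integrable fun t => φ.normed volume t * ‖h (x - t)‖ ^ 2 :=
    (φ.hasCompactSupport_normed.convolutionExists_left (lsmul ℝ ℝ) φ.continuous_normed
      (s2a_sq hh).locallyIntegrable x).integrable
  simp only [convolution_lsmul, smul_eq_mul]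
  set A := ∫ t, φ.normed volume t * ‖h (x - t)‖ with hA
  have h1 : ‖∫ t, φ.normed volume t • h (x - t)‖ ≤ A := by
    refine (norm_integral_le_integral_norm _).trans_eq ?_
    simp only [norm_smul, Real.norm_of_nonneg (φ.nonneg_normed _), hA]
  have h2 : ∫ t, 2 * A * (φ.normed volume t * ‖h (x - t)‖) ≤
      ∫ t, (A ^ 2 * φ.normed volume t + φ.normed volume t * ‖h (x - t)‖ ^ 2) := by
    refine integral_mono (i1.const_mul _) ((i0.const_mul _).add i2) fun t => ?_
    have := mul_nonneg (φ.nonneg_normed (μ := volume) t) (sq_nonneg (A - ‖h (x - t)‖))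
    show _ ≤ _
    nlinarith
  rw [integral_const_mul, integral_add (i0.const_mul _) i2, integral_const_mul, φ.integral_normed, ← hA] at h2
  have h3 := pow_le_pow_left₀ (norm_nonneg _) h1 2
  nlinarith

theorem s2a_conv_mem (φ : ContDiffBump (0 : E)) {h : E → V} (hh : MemLp h 2 volume) :
    MemLp (φ.normed volume ⋆[lsmul ℝ ℝ] h) 2 volume := by
  have hm := (s2a_conv_sm φ hh).continuous.aestronglyMeasurable (μ := volume)
  refine (memLp_two_iff_integrable_sq_norm hm).2 ?_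
  refine (φ.integrable_normed.integrable_convolution (lsmul ℝ ℝ) (s2a_sq hh)).mono' (hm.norm.pow 2)
    (Eventually.of_forall fun x => ?_)
  rw [Real.norm_of_nonneg (by positivity)]
  exact s2a_jensen φ hh x

/-- Young's inequality -/
theorem s2a_conv_le (φ : ContDiffBump (0 : E)) {h : E → V} (hh : MemLp h 2 volume) :
    ∫ x, ‖(φ.normed volume ⋆[lsmul ℝ ℝ] h) x‖ ^ 2 ≤ ∫ x, ‖h x‖ ^ 2 := by
  have h1 := integral_convolution (lsmul ℝ ℝ) (φ.integrable_normed (μ := volume)) (s2a_sq hh)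
  rw [φ.integral_normed, ContinuousLinearMap.lsmul_apply, one_smul] at h1
  rw [← h1]
  exact integral_mono (s2a_sq (s2a_conv_mem φ hh))
    (φ.integrable_normed.integrable_convolution (lsmul ℝ ℝ) (s2a_sq hh)) (s2a_jensen φ hh)

/-- the mollifiers -/
noncomputable def s2a_b (E : Type) [NormedAddCommGroup E] (n : ℕ) : ContDiffBump (0 : E) :=
  ⟨1 / ((n : ℝ) + 1) / 2, 1 / ((n : ℝ) + 1), by positivity, half_lt_self (by positivity)⟩

theorem s2a_conv_ae {h : E → V} (hh : MemLp h 2 volume) :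
    ∀ᵐ x, Tendsto (fun n => ((s2a_b E n).normed volume ⋆[lsmul ℝ ℝ] h) x) atTop (𝓝 (h x)) :=
  ContDiffBump.ae_convolution_tendsto_right_of_locallyIntegrable (φ := s2a_b E) (K := 2)
    tendsto_one_div_add_atTop_nhds_zero_nat
    (Eventually.of_forall fun n => by simp only [s2a_b]; linarith) (s2a_loc hh)

/-- mollifications converge in `L²` -/
theorem s2a_conv_l2 {h : E → V} (hh : MemLp h 2 volume) :
    Tendsto (fun n => eLpNorm (fun x => ((s2a_b E n).normed volume ⋆[lsmul ℝ ℝ] h) x - h x) 2 volume)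
      atTop (𝓝 0) :=
  s2a_scheffe (fun _ => s2a_conv_mem _ hh) hh (s2a_conv_ae hh) fun _ => s2a_conv_le _ hh

/-- the gradient of a mollification -/
theorem s2a_grad_conv (hf : H1 f G) {ρ : E → ℝ} (hρ : ContDiff ℝ ∞ ρ) (hc : HasCompactSupport ρ) (x : E) :
    ∇ (ρ ⋆[lsmul ℝ ℝ] f) x = (ρ ⋆[lsmul ℝ ℝ] G) x := by
  refine ext_inner_right ℝ fun v => ?_
  have h1 := hc.hasFDerivAt_convolution_right (lsmul ℝ ℝ : ℝ →L[ℝ] ℝ →L[ℝ] ℝ).flip (s2a_loc hf.mf)
    (hρ.of_le (m := 1) (by simp)) x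
  rw [convolution_flip] at h1
  rw [inner_gradient_left, h1.fderiv, convolution_precompR_apply _ (s2a_loc hf.mf) (hc.fderiv ℝ)
    (hρ.continuous_fderiv (by simp)), convolution_def, convolution_lsmul_swap]
  have hψ : ContDiff ℝ ∞ fun t => ρ (x - t) := hρ.comp (contDiff_const.sub contDiff_id)
  have hψc : HasCompactSupport fun t => ρ (x - t) := hc.comp_homeomorph (Homeomorph.subLeft x)
  have h2 := hf.wg _ ⟨hψ, hψc, subset_univ _⟩ v
  have e : ∀ t, fderiv ℝ (fun t => ρ (x - t)) t v = -fderiv ℝ ρ (x - t) v := fun t => by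
    have h3 := ((hρ.differentiable (by simp)) (x - t)).hasFDerivAt.comp t
      ((hasFDerivAt_id t).const_sub x)
    rw [show fderiv ℝ (fun t => ρ (x - t)) t = _ from h3.fderiv]
    simp
  simp only [e, mul_neg, integral_neg, neg_inj] at h2
  rw [real_inner_comm, ← integral_inner
    ((s2a_loc hf.mG).integrable_smul_left_of_hasCompactSupport hψ.continuous hψc)]
  simp only [ContinuousLinearMap.flip_apply, ContinuousLinearMap.lsmul_apply, smul_eq_mul,
    real_inner_smul_right]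
  simp only [mul_comm (fderiv ℝ ρ _ v), h2]
  simp only [real_inner_comm v, mul_comm]

theorem s2a_conv_ge (φ : ContDiffBump (0 : E)) (hf : MemLp f 2 volume) {a : ℝ} (h : ∀ᵐ x, a ≤ f x) (x : E) :
    a ≤ (φ.normed volume ⋆[lsmul ℝ ℝ] f) x := by
  have i0 : Integrable fun t => φ.normed volume (x - t) := φ.integrable_normed.comp_sub_left x
  have i1 : Integrable fun t => φ.normed volume (x - t) • f t :=
    (φ.hasCompactSupport_normed.convolutionExists_left (lsmul ℝ ℝ) φ.continuous_normed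
      (s2a_loc hf) x).integrable_swap
  have h1 : ∫ t, φ.normed volume (x - t) * a ≤ ∫ t, φ.normed volume (x - t) • f t :=
    integral_mono_ae (i0.mul_const a) i1
      (h.mono fun t ht => mul_le_mul_of_nonneg_left ht (φ.nonneg_normed _))
  rw [integral_mul_const, integral_sub_left_eq_self (φ.normed volume) volume x, φ.integral_normed, one_mul] at h1
  rwa [convolution_lsmul_swap]

theorem s2a_conv_le' (φ : ContDiffBump (0 : E)) (hf : MemLp f 2 volume) {b : ℝ} (h : ∀ᵐ x, f x ≤ b) (x : E) :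
    (φ.normed volume ⋆[lsmul ℝ ℝ] f) x ≤ b := by
  have i0 : Integrable fun t => φ.normed volume (x - t) := φ.integrable_normed.comp_sub_left x
  have i1 : Integrable fun t => φ.normed volume (x - t) • f t :=
    (φ.hasCompactSupport_normed.convolutionExists_left (lsmul ℝ ℝ) φ.continuous_normed
      (s2a_loc hf) x).integrable_swap
  have h1 : ∫ t, φ.normed volume (x - t) • f t ≤ ∫ t, φ.normed volume (x - t) * b :=
    integral_mono_ae i1 (i0.mul_const b)
      (h.mono fun t ht => mul_le_mul_of_nonneg_left ht (φ.nonneg_normed _))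
  rw [integral_mul_const, integral_sub_left_eq_self (φ.normed volume) volume x, φ.integral_normed, one_mul] at h1
  rwa [convolution_lsmul_swap]

end aux

theorem s2a_norm_grad (u : E → ℝ) (x : E) : ‖∇ u x‖ = ‖fderiv ℝ u x‖ := by
  rw [gradient, LinearIsometryEquiv.norm_map]

theorem s2a_grad_mul {u w : E → ℝ} {x : E} (hu : DifferentiableAt ℝ u x) (hw : DifferentiableAt ℝ w x) :
    ∇ (fun y => u y * w y) x = u x • ∇ w x + w x • ∇ u x := by
  refine ext_inner_right ℝ fun v => ?_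
  rw [inner_add_left, real_inner_smul_left, real_inner_smul_left, inner_gradient_left, inner_gradient_left,
    inner_gradient_left, fderiv_fun_mul hu hw]
  simp

theorem s2a_cut : ∃ (χ : ℕ → E → ℝ) (C : ℝ), (∀ n, ContDiff ℝ ∞ (χ n)) ∧
    (∀ n, HasCompactSupport (χ n)) ∧ (∀ n x, 0 ≤ χ n x ∧ χ n x ≤ 1) ∧ (∀ x, ∀ᶠ n in atTop, χ n x = 1) ∧
    ∀ n x, ‖∇ (χ n) x‖ ≤ C * (1 / ((n : ℝ) + 1)) := by
  let b : ContDiffBump (0 : E) := ⟨1, 2, one_pos, one_lt_two⟩
  have hb : ContDiff ℝ ∞ b := b.contDiff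
  obtain ⟨C, hC⟩ := (hb.continuous_fderiv (by simp)).bounded_above_of_compact_support
    (b.hasCompactSupport.fderiv ℝ)
  refine ⟨fun n x => b ((1 / ((n : ℝ) + 1)) • x), C, fun n => hb.comp (contDiff_id.const_smul _),
    fun n => b.hasCompactSupport.comp_smul (by positivity), fun n x => ⟨b.nonneg, b.le_one⟩, fun x => ?_,
    fun n x => ?_⟩
  · have := (tendsto_one_div_add_atTop_nhds_zero_nat (𝕜 := ℝ)).smul_const x
    rw [zero_smul] at this
    exact this.eventually b.eventuallyEq_one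
  · have h1 : HasFDerivAt (fun x : E => (1 / ((n : ℝ) + 1)) • x)
        ((1 / ((n : ℝ) + 1)) • ContinuousLinearMap.id ℝ E) x :=
      (hasFDerivAt_id x).const_smul (1 / ((n : ℝ) + 1))
    have h2 := ((hb.differentiable (by simp)) _).hasFDerivAt.comp x h1
    rw [s2a_norm_grad, show fderiv ℝ (fun x : E => b ((1 / ((n : ℝ) + 1)) • x)) x = _ from h2.fderiv]
    refine (ContinuousLinearMap.opNorm_comp_le _ _).trans ?_
    rw [norm_smul, Real.norm_of_nonneg (by positivity)]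
    have h3 := ContinuousLinearMap.norm_id_le (𝕜 := ℝ) (E := E)
    have h4 : (0 : ℝ) < 1 / ((n : ℝ) + 1) := by positivity
    exact mul_le_mul (hC _) (mul_le_of_le_one_right h4.le h3) (by positivity) ((norm_nonneg _).trans (hC 0))

/-- Meyers-Serrin on the whole space; bounds `a ≤ f ≤ b` with `a ≤ 0 ≤ b` are preserved -/
theorem H1.dense (hf : H1 f G) : ∃ φ : ℕ → E → ℝ, (∀ n, Tst univ (φ n)) ∧ Appr φ f G ∧
    (∀ a : ℝ, a ≤ 0 → (∀ᵐ x, a ≤ f x) → ∀ n x, a ≤ φ n x) ∧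
    (∀ b : ℝ, 0 ≤ b → (∀ᵐ x, f x ≤ b) → ∀ n x, φ n x ≤ b) := by
  obtain ⟨χ, C, h1, h2, h3, h4, h5⟩ := s2a_cut (E := E)
  have hC : Tendsto (fun n : ℕ => C * (1 / ((n : ℝ) + 1))) atTop (𝓝 0) := by
    simpa only [mul_zero] using (tendsto_one_div_add_atTop_nhds_zero_nat (𝕜 := ℝ)).const_mul C
  obtain ⟨u, hu⟩ : ∃ u : ℕ → E → ℝ, u = fun n => convolution ((s2a_b E n).normed volume) f
    (ContinuousLinearMap.lsmul ℝ ℝ) volume := ⟨_, rfl⟩
  obtain ⟨w, hw⟩ : ∃ w : ℕ → E → E, w = fun n => convolution ((s2a_b E n).normed volume) G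
    (ContinuousLinearMap.lsmul ℝ ℝ) volume := ⟨_, rfl⟩
  have su : ∀ n, ContDiff ℝ ∞ (u n) := fun n => hu ▸ s2a_conv_sm _ hf.mf
  have mu : ∀ n, MemLp (u n) 2 volume := fun n => hu ▸ s2a_conv_mem _ hf.mf
  have mw : ∀ n, MemLp (w n) 2 volume := fun n => hw ▸ s2a_conv_mem _ hf.mG
  have lu : ∀ n, ∫ x, ‖u n x‖ ^ 2 ≤ ∫ x, ‖f x‖ ^ 2 := fun n => hu ▸ s2a_conv_le _ hf.mf
  have lw : ∀ n, ∫ x, ‖w n x‖ ^ 2 ≤ ∫ x, ‖G x‖ ^ 2 := fun n => hw ▸ s2a_conv_le _ hf.mG
  have au : ∀ᵐ x, Tendsto (fun n => u n x) atTop (𝓝 (f x)) := hu ▸ s2a_conv_ae hf.mf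
  have aw : ∀ᵐ x, Tendsto (fun n => w n x) atTop (𝓝 (G x)) := hw ▸ s2a_conv_ae hf.mG
  have gu : ∀ n x, ∇ (u n) x = w n x := fun n x => by
    rw [hu, hw]
    exact s2a_grad_conv hf (s2a_b E n).contDiff_normed (s2a_b E n).hasCompactSupport_normed x
  have gφ : ∀ n x, ∇ (fun y => χ n y * u n y) x = χ n x • w n x + u n x • ∇ (χ n) x := fun n x => by
    rw [s2a_grad_mul ((h1 n).differentiable (by simp) x) ((su n).differentiable (by simp) x), gu]
  have key : ∀ {V : Type} [NormedAddCommGroup V] [NormedSpace ℝ V] {F : ℕ → E → V} {F₀ : E → V},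
      (∀ n, MemLp (F n) 2 volume) → MemLp F₀ 2 volume → (∀ᵐ x, Tendsto (fun n => F n x) atTop (𝓝 (F₀ x))) →
      (∀ n, ∫ x, ‖F n x‖ ^ 2 ≤ ∫ x, ‖F₀ x‖ ^ 2) →
      (∀ n, MemLp (fun x => χ n x • F n x) 2 volume) ∧
      (∀ᵐ x, Tendsto (fun n => χ n x • F n x) atTop (𝓝 (F₀ x))) ∧
      Tendsto (fun n => eLpNorm (fun x => χ n x • F n x - F₀ x) 2 volume) atTop (𝓝 0) := by
    intro V _ _ F F₀ hF h0 hae hle
    have b1 : ∀ n x, ‖χ n x • F n x‖ ≤ ‖F n x‖ := fun n x => by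
      rw [norm_smul, Real.norm_of_nonneg (h3 n x).1]
      exact mul_le_of_le_one_left (norm_nonneg _) (h3 n x).2
    have m1 : ∀ n, MemLp (fun x => χ n x • F n x) 2 volume := fun n =>
      (hF n).of_le ((h1 n).continuous.aestronglyMeasurable.smul (hF n).1) (Eventually.of_forall (b1 n))
    have a1 : ∀ᵐ x, Tendsto (fun n => χ n x • F n x) atTop (𝓝 (F₀ x)) :=
      hae.mono fun x hx => hx.congr' ((h4 x).mono fun n hn => by simp [hn])
    exact ⟨m1, a1, s2a_scheffe m1 h0 a1 fun n => (integral_mono (s2a_sq (m1 n)) (s2a_sq (hF n)) fun x =>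
      pow_le_pow_left₀ (norm_nonneg _) (b1 n x) 2).trans (hle n)⟩
  obtain ⟨-, a1, t1⟩ := key mu hf.mf au lu
  obtain ⟨m2, a2, t2⟩ := key mw hf.mG aw lw
  have b3 : ∀ n x, ‖u n x • ∇ (χ n) x‖ ≤ C * (1 / ((n : ℝ) + 1)) * ‖u n x‖ := fun n x => by
    rw [norm_smul, mul_comm]
    exact mul_le_mul_of_nonneg_right (h5 n x) (norm_nonneg _)
  have m3 : ∀ n, MemLp (fun x => u n x • ∇ (χ n) x) 2 volume := fun n =>
    (mu n).of_le_mul ((mu n).1.smul (s1a_grad_cont ((h1 n).of_le (by simp))).aestronglyMeasurable)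
      (Eventually.of_forall (b3 n))
  have t3 : Tendsto (fun n => eLpNorm (fun x => u n x • ∇ (χ n) x) 2 volume) atTop (𝓝 0) := by
    refine s2a_tend m3 (squeeze_zero (fun n => integral_nonneg fun x => by positivity) (fun n => ?_)
      (g := fun n : ℕ => (C * (1 / ((n : ℝ) + 1))) ^ 2 * ∫ x, ‖f x‖ ^ 2)
      (by simpa only [zero_pow two_ne_zero, zero_mul] using (hC.pow 2).mul_const (∫ x, ‖f x‖ ^ 2)))
    refine le_trans ?_ (mul_le_mul_of_nonneg_left (lu n) (sq_nonneg _))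
    rw [← integral_const_mul]
    refine integral_mono (s2a_sq (m3 n)) ((s2a_sq (mu n)).const_mul _) fun x => ?_
    show _ ≤ _
    rw [← mul_pow]
    exact pow_le_pow_left₀ (norm_nonneg _) (b3 n x) 2
  refine ⟨fun n x => χ n x * u n x, fun n => ⟨(h1 n).mul (su n), (h2 n).mul_right, subset_univ _⟩,
    ⟨t1, ?_, a1, ?_⟩, fun a ha h n x => ?_, fun b hb h n x => ?_⟩
  · have t4 := t2.add t3
    rw [add_zero] at t4
    refine tendsto_of_tendsto_of_tendsto_of_le_of_le tendsto_const_nhds t4 (fun n => zero_le) fun n => ?_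
    have e : (fun x => ∇ (fun y => χ n y * u n y) x - G x) =
        (fun x => χ n x • w n x - G x) + fun x => u n x • ∇ (χ n) x := by
      funext x
      rw [gφ, Pi.add_apply, add_sub_right_comm]
    show eLpNorm (fun x => ∇ (fun y => χ n y * u n y) x - G x) 2 volume ≤ _
    rw [e]
    exact eLpNorm_add_le ((m2 n).sub hf.mG).1 (m3 n).1 one_le_two
  · filter_upwards [a2, au] with x hx hx'
    have z : Tendsto (fun n => u n x • ∇ (χ n) x) atTop (𝓝 0) := by
      refine squeeze_zero_norm (fun n => b3 n x) ?_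
      simpa using hC.mul hx'.norm
    simpa only [gφ, add_zero] using hx.add z
  · have h6 : a ≤ u n x := hu ▸ s2a_conv_ge _ hf.mf h x
    obtain ⟨c0, c1⟩ := h3 n x
    nlinarith [mul_nonneg c0 (sub_nonneg.2 h6), mul_nonneg (sub_nonneg.2 c1) (neg_nonneg.2 ha)]
  · have h6 : u n x ≤ b := hu ▸ s2a_conv_le' _ hf.mf h x
    obtain ⟨c0, c1⟩ := h3 n x
    nlinarith [mul_nonneg c0 (sub_nonneg.2 h6), mul_nonneg (sub_nonneg.2 c1) hb]

end Crest.Agent.R335
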