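import Crest.Agent.R335.S2a

/-!
# R335/S2: density of smooth functions (cut off, then mollify with `ContDiffBump.normed`)

For `f ∈ H¹` the mollification `η_ε ⋆ f` is smooth with gradient `η_ε ⋆ G` (definition of `H1` with the test function
`η_ε (x - ·)`), and `η_ε ⋆ h → h` in `L²` (density of continuous compactly supported functions + Young/Jensen).
-/

set_option autoImplicit false

namespace Crest.Agent.R335

open MeasureTheory Set Filter Topology
open scoped Gradient RealInnerProductSpace ENNReal ContDiff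
open Crest.MathPhysics.ThreeBody

variable {E : Type} [NormedAddCommGroup E] [InnerProductSpace ℝ E] [FiniteDimensional ℝ E]
  [MeasurableSpace E] [BorelSpace E]

variable {f : E → ℝ} {G : E → E}

section s2b_aux

open scoped Convolution
open ContinuousLinearMap (lsmul)

theorem s2b_scheffe {F' : Type} [NormedAddCommGroup F'] {F : ℕ → E → F'} {F₀ : E → F'}
    (hF : ∀ n, MemLp (F n) 2 volume) (h0 : MemLp F₀ 2 volume)
    (hae : ∀ᵐ x, Tendsto (fun n => F n x) atTop (𝓝 (F₀ x)))
    (hle : ∀ n, ∫ x, ‖F n x‖ ^ 2 ≤ ∫ x, ‖F₀ x‖ ^ 2) :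
    Tendsto (fun n => eLpNorm (fun x => F n x - F₀ x) 2 volume) atTop (𝓝 0) := by
  have iF : ∀ n, Integrable (fun x => ‖F n x‖ ^ 2) := fun n =>
    (memLp_two_iff_integrable_sq_norm (hF n).1).1 (hF n)
  have i0 : Integrable (fun x => ‖F₀ x‖ ^ 2) := (memLp_two_iff_integrable_sq_norm h0.1).1 h0
  have mD : ∀ n, MemLp (fun x => F n x - F₀ x) 2 volume := fun n => (hF n).sub h0
  have iD : ∀ n, Integrable (fun x => ‖F n x - F₀ x‖ ^ 2) := fun n =>
    (memLp_two_iff_integrable_sq_norm (mD n).1).1 (mD n)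
  set h : ℕ → E → ℝ := fun n x => 2 * ‖F n x‖ ^ 2 + 2 * ‖F₀ x‖ ^ 2 - ‖F n x - F₀ x‖ ^ 2 with hh
  have ih1 : ∀ n, Integrable (fun x => 2 * ‖F n x‖ ^ 2 + 2 * ‖F₀ x‖ ^ 2) := fun n =>
    ((iF n).const_mul 2).add (i0.const_mul 2)
  have ih : ∀ n, Integrable (h n) := fun n => (ih1 n).sub (iD n)
  have h0' : ∀ n x, 0 ≤ h n x := fun n x => by
    have h1 : ‖F n x - F₀ x‖ ≤ ‖F n x‖ + ‖F₀ x‖ := norm_sub_le _ _
    have h2 : ‖F n x - F₀ x‖ ^ 2 ≤ (‖F n x‖ + ‖F₀ x‖) ^ 2 := by gcongr
    simp only [hh]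
    nlinarith [sq_nonneg (‖F n x‖ - ‖F₀ x‖)]
  have i4 : Integrable (fun x => 4 * ‖F₀ x‖ ^ 2) := i0.const_mul 4
  have im : ∀ n, Integrable (fun x => min (h n x) (4 * ‖F₀ x‖ ^ 2)) := fun n => (ih n).inf i4
  have h1 := tendsto_integral_of_dominated_convergence (μ := volume)
    (F := fun n x => min (h n x) (4 * ‖F₀ x‖ ^ 2)) (f := fun x => 4 * ‖F₀ x‖ ^ 2)
    (fun x => 4 * ‖F₀ x‖ ^ 2) (fun n => (im n).aestronglyMeasurable) i4
    (fun n => Eventually.of_forall fun x => by
      rw [Real.norm_of_nonneg (le_min (h0' n x) (by positivity))]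
      exact min_le_right _ _)
    (hae.mono fun x hx => by
      have t1 : Tendsto (fun n => h n x) atTop
          (𝓝 (2 * ‖F₀ x‖ ^ 2 + 2 * ‖F₀ x‖ ^ 2 - ‖F₀ x - F₀ x‖ ^ 2)) :=
        (((hx.norm.pow 2).const_mul 2).add_const _).sub ((hx.sub_const _).norm.pow 2)
      have e : 2 * ‖F₀ x‖ ^ 2 + 2 * ‖F₀ x‖ ^ 2 - ‖F₀ x - F₀ x‖ ^ 2 = 4 * ‖F₀ x‖ ^ 2 := by
        rw [sub_self, norm_zero]; ring
      rw [e] at t1
      have t2 := t1.min (tendsto_const_nhds (x := 4 * ‖F₀ x‖ ^ 2))
      rwa [min_self] at t2)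
  have h2 := h1.const_sub (∫ x, 4 * ‖F₀ x‖ ^ 2)
  rw [sub_self] at h2
  have h3 : Tendsto (fun n => ∫ x, ‖F n x - F₀ x‖ ^ 2) atTop (𝓝 0) := by
    refine squeeze_zero (fun n => integral_nonneg fun x => sq_nonneg _) (fun n => ?_) h2
    have a1 : ∫ x, min (h n x) (4 * ‖F₀ x‖ ^ 2) ≤ ∫ x, h n x :=
      integral_mono (im n) (ih n) fun x => min_le_left _ _
    have a2 : ∫ x, h n x = 2 * (∫ x, ‖F n x‖ ^ 2) + 2 * (∫ x, ‖F₀ x‖ ^ 2)
        - ∫ x, ‖F n x - F₀ x‖ ^ 2 := by
      simp only [hh]
      rw [integral_sub (ih1 n) (iD n), integral_add ((iF n).const_mul 2) (i0.const_mul 2),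
        integral_const_mul, integral_const_mul]
    rw [integral_const_mul]
    linarith [hle n]
  have e : ∀ n, eLpNorm (fun x => F n x - F₀ x) 2 volume
      = ENNReal.ofReal (√(∫ x, ‖F n x - F₀ x‖ ^ 2)) := fun n => by
    rw [(mD n).eLpNorm_eq_integral_rpow_norm (by norm_num) (by norm_num), Real.sqrt_eq_rpow]
    simp
  simp only [e]
  have h4 := h3.sqrt
  rw [Real.sqrt_zero] at h4
  have h5 := ENNReal.tendsto_ofReal h4
  rwa [ENNReal.ofReal_zero] at h5

theorem s2b_conv_sq {F' : Type} [NormedAddCommGroup F'] [NormedSpace ℝ F'] [CompleteSpace F']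
    (b : ContDiffBump (0 : E)) {K : E → F'} (hK : MemLp K 2 volume) :
    MemLp (b.normed volume ⋆[lsmul ℝ ℝ] K) 2 volume ∧
      ∫ x, ‖(b.normed volume ⋆[lsmul ℝ ℝ] K) x‖ ^ 2 ≤ ∫ x, ‖K x‖ ^ 2 := by
  have hloc : LocallyIntegrable K volume := hK.locallyIntegrable (by norm_num)
  have i2 : Integrable (fun x => ‖K x‖ ^ 2) := (memLp_two_iff_integrable_sq_norm hK.1).1 hK
  have hc := b.hasCompactSupport_normed (μ := volume)
  have hcont : Continuous (b.normed volume) := b.continuous_normed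
  have c0 : Continuous (b.normed volume ⋆[lsmul ℝ ℝ] K) :=
    hc.continuous_convolution_left _ hcont hloc
  have ic : Integrable (b.normed volume ⋆[lsmul ℝ ℝ] fun x => ‖K x‖ ^ 2) :=
    b.integrable_normed.integrable_convolution _ i2
  have h1 := integral_convolution (lsmul ℝ ℝ) (b.integrable_normed (μ := volume)) i2
  rw [b.integral_normed, ContinuousLinearMap.lsmul_apply, one_smul] at h1
  have hpt : ∀ x, ‖(b.normed volume ⋆[lsmul ℝ ℝ] K) x‖ ^ 2
      ≤ (b.normed volume ⋆[lsmul ℝ ℝ] fun x => ‖K x‖ ^ 2) x := by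
    intro x
    have j1 : Integrable (fun t => b.normed volume t * ‖K (x - t)‖) :=
      hc.convolutionExists_left (lsmul ℝ ℝ) hcont
        ((hK.norm).locallyIntegrable (by norm_num)) x
    have j2 : Integrable (fun t => b.normed volume t * ‖K (x - t)‖ ^ 2) :=
      hc.convolutionExists_left (lsmul ℝ ℝ) hcont i2.locallyIntegrable x
    simp only [convolution_lsmul, smul_eq_mul]
    set m := ∫ t, b.normed volume t * ‖K (x - t)‖ with hm
    have a1 : ‖∫ t, b.normed volume t • K (x - t)‖ ≤ m := by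
      refine (norm_integral_le_integral_norm _).trans_eq ?_
      simp only [norm_smul, Real.norm_of_nonneg (b.nonneg_normed _), hm]
    have a2 : 0 ≤ ∫ t, b.normed volume t * (‖K (x - t)‖ - m) ^ 2 :=
      integral_nonneg fun t => mul_nonneg (b.nonneg_normed t) (sq_nonneg _)
    have a3 : (fun t => b.normed volume t * (‖K (x - t)‖ - m) ^ 2) = fun t =>
        (b.normed volume t * ‖K (x - t)‖ ^ 2 - b.normed volume t * ‖K (x - t)‖ * (2 * m))
          + b.normed volume t * m ^ 2 := by
      funext t; ring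
    have j3 : Integrable (fun t =>
        b.normed volume t * ‖K (x - t)‖ ^ 2 - b.normed volume t * ‖K (x - t)‖ * (2 * m)) :=
      j2.sub (j1.mul_const _)
    rw [a3, integral_add j3 (b.integrable_normed.mul_const _), integral_sub j2 (j1.mul_const _),
      integral_mul_const, integral_mul_const, b.integral_normed, ← hm] at a2
    have a4 : ‖∫ t, b.normed volume t • K (x - t)‖ ^ 2 ≤ m ^ 2 := by gcongr
    nlinarith
  have i3 : Integrable (fun x => ‖(b.normed volume ⋆[lsmul ℝ ℝ] K) x‖ ^ 2) := by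
    refine Integrable.mono' ic (c0.norm.pow 2).aestronglyMeasurable
      (Eventually.of_forall fun x => ?_)
    rw [Real.norm_of_nonneg (sq_nonneg _)]
    exact hpt x
  refine ⟨(memLp_two_iff_integrable_sq_norm c0.aestronglyMeasurable).2 i3, ?_⟩
  rw [← h1]
  exact integral_mono i3 ic hpt

theorem s2b_grad_conv (hw : H1 f G) {ρ : E → ℝ}
    (hρ : ContDiff ℝ ∞ ρ) (hc : HasCompactSupport ρ) (x : E) :
    ∇ (ρ ⋆[lsmul ℝ ℝ] f) x = (ρ ⋆[lsmul ℝ ℝ] G) x := by
  have lf : LocallyIntegrable f volume := hw.mf.locallyIntegrable (by norm_num)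
  have lG : LocallyIntegrable G volume := hw.mG.locallyIntegrable (by norm_num)
  refine ext_inner_left ℝ fun v => ?_
  have h1 := hc.hasFDerivAt_convolution_right (lsmul ℝ ℝ : ℝ →L[ℝ] ℝ →L[ℝ] ℝ).flip lf
    (hρ.of_le (by exact_mod_cast le_top)) x
  rw [convolution_flip] at h1
  rw [real_inner_comm, gradient, InnerProductSpace.toDual_symm_apply, h1.fderiv,
    convolution_precompR_apply _ lf (hc.fderiv ℝ)
    (hρ.continuous_fderiv (by simp)), convolution_def, convolution_lsmul_swap]
  have hψ : ContDiff ℝ ∞ fun t => ρ (x - t) := hρ.comp (contDiff_const.sub contDiff_id)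
  have hψc : HasCompactSupport fun t => ρ (x - t) := hc.comp_homeomorph (Homeomorph.subLeft x)
  have h2 := hw.wg _ ⟨hψ, hψc, subset_univ _⟩ v
  have e : ∀ t, fderiv ℝ (fun t => ρ (x - t)) t v = -fderiv ℝ ρ (x - t) v := fun t => by
    have h3 := ((hρ.differentiable (by simp)) (x - t)).hasFDerivAt.comp t
      ((hasFDerivAt_id t).const_sub x)
    rw [show fderiv ℝ (fun t => ρ (x - t)) t = _ from h3.fderiv]
    simp
  simp only [e, mul_neg, integral_neg, neg_inj] at h2
  rw [← integral_inner (lG.integrable_smul_left_of_hasCompactSupport hψ.continuous hψc)]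
  simp only [ContinuousLinearMap.flip_apply, ContinuousLinearMap.lsmul_apply, smul_eq_mul,
    real_inner_smul_right]
  simp only [mul_comm (fderiv ℝ ρ _ v), h2]
  simp only [real_inner_comm v, mul_comm]

theorem s2b_ge (b : ContDiffBump (0 : E)) (hf : MemLp f 2 volume) {a : ℝ} (ha : ∀ᵐ x, a ≤ f x)
    (x : E) : a ≤ (b.normed volume ⋆[lsmul ℝ ℝ] f) x := by
  have lf : LocallyIntegrable f volume := hf.locallyIntegrable (by norm_num)
  have hψ : Continuous fun t => b.normed volume (x - t) :=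
    b.continuous_normed.comp (continuous_const.sub continuous_id)
  have hψc : HasCompactSupport fun t => b.normed volume (x - t) :=
    b.hasCompactSupport_normed.comp_homeomorph (Homeomorph.subLeft x)
  have e1 : ∫ t, b.normed volume (x - t) = 1 := by
    rw [integral_sub_left_eq_self (b.normed volume) volume x, b.integral_normed]
  rw [convolution_lsmul_swap]
  calc a = ∫ t, b.normed volume (x - t) * a := by rw [integral_mul_const, e1, one_mul]
    _ ≤ ∫ t, b.normed volume (x - t) • f t :=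
      integral_mono_ae ((hψ.integrable_of_hasCompactSupport hψc).mul_const a)
        (lf.integrable_smul_left_of_hasCompactSupport hψ hψc)
        (ha.mono fun t ht => mul_le_mul_of_nonneg_left ht (b.nonneg_normed _))

theorem s2b_le (b : ContDiffBump (0 : E)) (hf : MemLp f 2 volume) {a : ℝ} (ha : ∀ᵐ x, f x ≤ a)
    (x : E) : (b.normed volume ⋆[lsmul ℝ ℝ] f) x ≤ a := by
  have lf : LocallyIntegrable f volume := hf.locallyIntegrable (by norm_num)
  have hψ : Continuous fun t => b.normed volume (x - t) :=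
    b.continuous_normed.comp (continuous_const.sub continuous_id)
  have hψc : HasCompactSupport fun t => b.normed volume (x - t) :=
    b.hasCompactSupport_normed.comp_homeomorph (Homeomorph.subLeft x)
  have e1 : ∫ t, b.normed volume (x - t) = 1 := by
    rw [integral_sub_left_eq_self (b.normed volume) volume x, b.integral_normed]
  rw [convolution_lsmul_swap]
  calc ∫ t, b.normed volume (x - t) • f t ≤ ∫ t, b.normed volume (x - t) * a :=
      integral_mono_ae (lf.integrable_smul_left_of_hasCompactSupport hψ hψc)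
        ((hψ.integrable_of_hasCompactSupport hψc).mul_const a)
        (ha.mono fun t ht => mul_le_mul_of_nonneg_left ht (b.nonneg_normed _))
    _ = a := by rw [integral_mul_const, e1, one_mul]

theorem s2b_zero (b : ContDiffBump (0 : E)) {C : Set E} {δ : ℝ} (hδ : b.rOut ≤ δ)
    (h0 : ∀ᵐ x, x ∉ C → f x = 0) {x : E} (hx : x ∉ Metric.cthickening δ C) :
    (b.normed volume ⋆[lsmul ℝ ℝ] f) x = 0 := by
  rw [convolution_lsmul_swap]
  refine integral_eq_zero_of_ae (h0.mono fun t ht => ?_)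
  by_cases htC : t ∈ C
  · have h1 : ¬ dist x t ≤ δ := fun h => hx (Metric.mem_cthickening_of_dist_le x t δ C htC h)
    have h2 : x - t ∉ Function.support (b.normed volume) := by
      rw [b.support_normed_eq, Metric.mem_ball, dist_zero_right, ← dist_eq_norm]
      intro h
      exact h1 (h.le.trans hδ)
    simp [Function.notMem_support.1 h2]
  · simp [ht htC]

theorem s2b_unif {b : ℕ → ContDiffBump (0 : E)} (hb : Tendsto (fun n => (b n).rOut) atTop (𝓝 0))
    (hf : AEStronglyMeasurable f volume) {U B : Set E} (hU : IsOpen U) (hc : ContinuousOn f U)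
    (hB : IsCompact B) (hBU : B ⊆ U) :
    TendstoUniformlyOn (fun n => (b n).normed volume ⋆[lsmul ℝ ℝ] f) f atTop B := by
  obtain ⟨δ, hδ, hsub⟩ := hB.exists_cthickening_subset_open hU hBU
  have huc : UniformContinuousOn f (Metric.cthickening δ B) :=
    (hB.cthickening (r := δ)).uniformContinuousOn_of_continuous (hc.mono hsub)
  rw [Metric.uniformContinuousOn_iff] at huc
  rw [Metric.tendstoUniformlyOn_iff]
  intro ε hε
  obtain ⟨δ', hδ', h⟩ := huc (ε / 2) (half_pos hε)
  filter_upwards [hb.eventually (ge_mem_nhds (lt_min hδ hδ'))] with n hn x hx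
  rw [dist_comm]
  refine lt_of_le_of_lt ((b n).dist_normed_convolution_le hf fun y hy => ?_) (half_lt_self hε)
  have h1 : dist y x < min δ δ' := lt_of_lt_of_le hy hn
  exact (h y (Metric.mem_cthickening_of_dist_le y x δ B hx (h1.le.trans (min_le_left _ _))) x
    (Metric.self_subset_cthickening B hx) (h1.trans_le (min_le_right _ _))).le

end s2b_aux

/-- the same with supports in one compact subset of `Ω`; uniform convergence where `f` is continuous -/
theorem TH.dense {Ω : Set E} (hΩ : IsOpen Ω) (hf : TH Ω f G) : ∃ (φ : ℕ → E → ℝ) (C : Set E), IsCompact C ∧ C ⊆ Ω ∧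
    (∀ n, Tst C (φ n)) ∧ Appr φ f G ∧
    (∀ a : ℝ, a ≤ 0 → (∀ᵐ x, a ≤ f x) → ∀ n x, a ≤ φ n x) ∧
    (∀ b : ℝ, 0 ≤ b → (∀ᵐ x, f x ≤ b) → ∀ n x, φ n x ≤ b) ∧
    ∀ U B : Set E, IsOpen U → ContinuousOn f U → IsCompact B → B ⊆ U → TendstoUniformlyOn φ f atTop B := by
  obtain ⟨C, hC, hCΩ, h0⟩ := hf.cpt
  obtain ⟨δ, hδ, hsub⟩ := hC.exists_cthickening_subset_open hΩ hCΩ
  have hw := hf.h1
  have lf : LocallyIntegrable f volume := hw.mf.locallyIntegrable (by norm_num)
  have lG : LocallyIntegrable G volume := hw.mG.locallyIntegrable (by norm_num)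
  let b : ℕ → ContDiffBump (0 : E) := fun n =>
    ⟨δ * (1 / ((n : ℝ) + 1)) / 2, δ * (1 / ((n : ℝ) + 1)), by positivity,
      half_lt_self (by positivity)⟩
  have hb : Tendsto (fun n => (b n).rOut) atTop (𝓝 0) := by
    have := (tendsto_one_div_add_atTop_nhds_zero_nat (𝕜 := ℝ)).const_mul δ
    rwa [mul_zero] at this
  have hb' : ∀ᶠ n in atTop, (b n).rOut ≤ 2 * (b n).rIn :=
    Eventually.of_forall fun n => by simp only [b]; linarith
  have hbδ : ∀ n, (b n).rOut ≤ δ := fun n => by
    refine mul_le_of_le_one_right hδ.le ?_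
    rw [div_le_one (by positivity)]
    linarith [Nat.cast_nonneg (α := ℝ) n]
  have ae1 := ContDiffBump.ae_convolution_tendsto_right_of_locallyIntegrable hb hb' lf
  have ae2 := ContDiffBump.ae_convolution_tendsto_right_of_locallyIntegrable hb hb' lG
  have eG : ∀ n x, ∇ (convolution ((b n).normed volume) f (ContinuousLinearMap.lsmul ℝ ℝ) volume) x
      = convolution ((b n).normed volume) G (ContinuousLinearMap.lsmul ℝ ℝ) volume x := fun n x =>
    s2b_grad_conv hw (b n).contDiff_normed (b n).hasCompactSupport_normed x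
  have hz : ∀ n x, x ∉ Metric.cthickening δ C →
      convolution ((b n).normed volume) f (ContinuousLinearMap.lsmul ℝ ℝ) volume x = 0 :=
    fun n x hx => s2b_zero (b n) (hbδ n) (h0.mono fun x hx hx' => (hx hx').1) hx
  refine ⟨fun n => convolution ((b n).normed volume) f (ContinuousLinearMap.lsmul ℝ ℝ) volume,
    Metric.cthickening δ C, hC.cthickening, hsub, fun n => ⟨?_, ?_, ?_⟩, ⟨?_, ?_, ae1, ?_⟩,
    fun a _ ha n x => s2b_ge (b n) hw.mf ha x, fun a _ ha n x => s2b_le (b n) hw.mf ha x,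
    fun U B hU hc hB hBU => s2b_unif hb hw.mf.1 hU hc hB hBU⟩
  · exact (b n).hasCompactSupport_normed.contDiff_convolution_left _ (b n).contDiff_normed lf
  · exact HasCompactSupport.intro hC.cthickening (hz n)
  · refine closure_minimal (fun x hx => ?_) Metric.isClosed_cthickening
    by_contra h
    exact hx (hz n x h)
  · exact s2b_scheffe (fun n => (s2b_conv_sq (b n) hw.mf).1) hw.mf ae1
      fun n => (s2b_conv_sq (b n) hw.mf).2
  · simp only [eG]
    exact s2b_scheffe (fun n => (s2b_conv_sq (b n) hw.mG).1) hw.mG ae2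
      fun n => (s2b_conv_sq (b n) hw.mG).2
  · simp only [eG]
    exact ae2

end Crest.Agent.R335
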