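import Crest.Agent.R335.S2b

/-!
# R335/S2: density of smooth functions (cut off, then mollify with `ContDiffBump.normed`)

For `f ∈ H¹` the mollification `η_ε ⋆ f` is smooth with gradient `η_ε ⋆ G` (definition of `H1` with the test function
`η_ε (x - ·)`), and `η_ε ⋆ h → h` in `L²` (density of continuous compactly supported functions + Young/Jensen).
-/

set_option autoImplicit false

namespace Crest.Agent.R335

open MeasureTheory Set Filter Topology
open scoped Gradient RealInnerProductSpace ENNReal ContDiff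
open Crest.MathPhysics.ThreeBody

variable {E : Type} [NormedAddCommGroup E] [InnerProductSpace ℝ E] [FiniteDimensional ℝ E]
  [MeasurableSpace E] [BorelSpace E]

variable {f : E → ℝ} {G : E → E}

theorem s2c_lim {F' : Type} [NormedAddCommGroup F'] [InnerProductSpace ℝ F'] {J v : E → F'} {u : ℕ → E → F'}
    (hJ : MemLp J 2 volume) (hu : ∀ n, MemLp (u n) 2 volume) (hv : MemLp v 2 volume)
    (h : Tendsto (fun n => eLpNorm (fun x => u n x - v x) 2 volume) atTop (𝓝 0)) :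
    Tendsto (fun n => ∫ x, ⟪J x, u n x⟫) atTop (𝓝 (∫ x, ⟪J x, v x⟫)) := by
  have h1 : Tendsto (fun n => (hu n).toLp (u n)) atTop (𝓝 (hv.toLp v)) :=
    (Lp.tendsto_Lp_iff_tendsto_eLpNorm'' u hu v hv).2 h
  have h2 := (tendsto_const_nhds (x := hJ.toLp J)).inner (𝕜 := ℝ) h1
  have e : ∀ w : E → F', ∀ hw : MemLp w 2 volume, ⟪hJ.toLp J, hw.toLp w⟫ = ∫ x, ⟪J x, w x⟫ := fun w hw => by
    rw [L2.inner_def]
    refine integral_congr_ae ?_
    filter_upwards [hJ.coeFn_toLp, hw.coeFn_toLp] with x h1 h2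
    rw [h1, h2]
  simpa only [e] using h2

theorem s2c_lim1 {J v : E → ℝ} {u : ℕ → E → ℝ}
    (hJ : MemLp J 2 volume) (hu : ∀ n, MemLp (u n) 2 volume) (hv : MemLp v 2 volume)
    (h : Tendsto (fun n => eLpNorm (fun x => u n x - v x) 2 volume) atTop (𝓝 0)) :
    Tendsto (fun n => ∫ x, J x * u n x) atTop (𝓝 (∫ x, J x * v x)) := by
  have := s2c_lim hJ hu hv h
  simpa only [RCLike.inner_apply, conj_trivial, mul_comm] using this

theorem s2c_main {Ω : Set E} (hΩ : IsOpen Ω) {J : E → E} {h : E → ℝ}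
    (hJ : ∀ C, IsCompact C → C ⊆ Ω → MemLp J 2 (volume.restrict C))
    (hh : ∀ C, IsCompact C → C ⊆ Ω → MemLp h 2 (volume.restrict C)) (hf : TH Ω f G) :
    ∃ φ : ℕ → E → ℝ, (∀ n, Tst Ω (φ n)) ∧ ((∀ᵐ x, 0 ≤ f x) → ∀ n x, 0 ≤ φ n x) ∧
      Tendsto (fun n => (∫ x, ⟪J x, ∇ (φ n) x⟫) + ∫ x, h x * φ n x) atTop
        (𝓝 ((∫ x, ⟪J x, G x⟫) + ∫ x, h x * f x)) := by
  obtain ⟨φ, C, hC, hCΩ, hφ, hA, hpos, -, -⟩ := hf.dense hΩ
  obtain ⟨C0, hC0, hC0Ω, h0⟩ := hf.cpt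
  have hD : IsCompact (C ∪ C0) := hC.union hC0
  have hDΩ : C ∪ C0 ⊆ Ω := union_subset hCΩ hC0Ω
  have mJ : MemLp ((C ∪ C0).indicator J) 2 volume :=
    (memLp_indicator_iff_restrict hD.measurableSet).2 (hJ _ hD hDΩ)
  have mh : MemLp ((C ∪ C0).indicator h) 2 volume :=
    (memLp_indicator_iff_restrict hD.measurableSet).2 (hh _ hD hDΩ)
  refine ⟨φ, fun n => ⟨(hφ n).sm, (hφ n).cpt, (hφ n).sub.trans hCΩ⟩, fun h => hpos 0 le_rfl h, ?_⟩
  have t1 := s2c_lim mJ (fun n => (hφ n).h1.mG) hf.h1.mG hA.l2G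
  have t2 := s2c_lim1 mh (fun n => (hφ n).h1.mf) hf.h1.mf hA.l2
  have e1 : ∀ n, ∫ x, ⟪(C ∪ C0).indicator J x, ∇ (φ n) x⟫ = ∫ x, ⟪J x, ∇ (φ n) x⟫ := fun n => by
    refine integral_congr_ae (Eventually.of_forall fun x => ?_)
    by_cases hx : x ∈ C ∪ C0
    · simp only [indicator_of_mem hx]
    · have : ∇ (φ n) x = 0 := s1a_grad_zero fun h => hx (Or.inl ((hφ n).sub h))
      simp only [this, inner_zero_right]
  have e2 : ∀ n, ∫ x, (C ∪ C0).indicator h x * φ n x = ∫ x, h x * φ n x := fun n => by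
    refine integral_congr_ae (Eventually.of_forall fun x => ?_)
    by_cases hx : x ∈ C ∪ C0
    · simp only [indicator_of_mem hx]
    · have : φ n x = 0 := image_eq_zero_of_notMem_tsupport fun h => hx (Or.inl ((hφ n).sub h))
      simp only [this, mul_zero]
  have e3 : ∫ x, ⟪(C ∪ C0).indicator J x, G x⟫ = ∫ x, ⟪J x, G x⟫ := by
    refine integral_congr_ae (h0.mono fun x hx0 => ?_)
    by_cases hx : x ∈ C ∪ C0
    · simp only [indicator_of_mem hx]
    · simp only [(hx0 fun h => hx (Or.inr h)).2, inner_zero_right]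
  have e4 : ∫ x, (C ∪ C0).indicator h x * f x = ∫ x, h x * f x := by
    refine integral_congr_ae (h0.mono fun x hx0 => ?_)
    by_cases hx : x ∈ C ∪ C0
    · simp only [indicator_of_mem hx]
    · simp only [(hx0 fun h => hx (Or.inr h)).1, mul_zero]
  simp only [e1, e3] at t1
  simp only [e2, e4] at t2
  exact t1.add t2

/-- integration by parts for two `H¹` functions -/
theorem H1.ibp {g : E → ℝ} {K : E → E} (hf : H1 f G) (hg : H1 g K) (a : E) :
    ∫ x, f x * ⟪K x, a⟫ = -∫ x, ⟪G x, a⟫ * g x := by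
  obtain ⟨φ, hφ, hA, -, -⟩ := hg.dense
  have mfa : MemLp (fun x => f x • a) 2 volume := by
    have := (ContinuousLinearMap.toSpanSingleton ℝ a).comp_memLp' hf.mf
    simpa [Function.comp_def] using this
  have t1 := s2c_lim mfa (fun n => (hφ n).h1.mG) hg.mG hA.l2G
  have t2 := (s2c_lim1 (hf.mG.inner_const (𝕜 := ℝ) a) (fun n => (hφ n).h1.mf) hg.mf hA.l2).neg
  have e : ∀ n, ∫ x, ⟪f x • a, ∇ (φ n) x⟫ = -∫ x, ⟪G x, a⟫ * φ n x := fun n => by
    rw [← hf.wg _ (hφ n) a]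
    refine integral_congr_ae (Eventually.of_forall fun x => ?_)
    simp only [real_inner_smul_left]
    rw [real_inner_comm, gradient, InnerProductSpace.toDual_symm_apply]
  simp only [e] at t1
  rw [← tendsto_nhds_unique t1 t2]
  refine integral_congr_ae (Eventually.of_forall fun x => ?_)
  simp only [real_inner_smul_left]
  rw [real_inner_comm]

/-- a continuous linear functional which vanishes on test functions vanishes on `TH` -/
theorem TH.ext_eq {Ω : Set E} (hΩ : IsOpen Ω) {J : E → E} {h : E → ℝ}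
    (hJ : ∀ C, IsCompact C → C ⊆ Ω → MemLp J 2 (volume.restrict C))
    (hh : ∀ C, IsCompact C → C ⊆ Ω → MemLp h 2 (volume.restrict C))
    (H : ∀ ξ, Tst Ω ξ → (∫ x, ⟪J x, ∇ ξ x⟫) + ∫ x, h x * ξ x = 0) (hf : TH Ω f G) :
    (∫ x, ⟪J x, G x⟫) + ∫ x, h x * f x = 0 := by
  obtain ⟨φ, hφ, -, ht⟩ := s2c_main hΩ hJ hh hf
  simp only [fun n => H _ (hφ n)] at ht
  exact (tendsto_nhds_unique tendsto_const_nhds ht).symm

theorem TH.ext_le {Ω : Set E} (hΩ : IsOpen Ω) {J : E → E} {h : E → ℝ}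
    (hJ : ∀ C, IsCompact C → C ⊆ Ω → MemLp J 2 (volume.restrict C))
    (hh : ∀ C, IsCompact C → C ⊆ Ω → MemLp h 2 (volume.restrict C))
    (H : ∀ ξ, Tst Ω ξ → (∀ x, 0 ≤ ξ x) → (∫ x, ⟪J x, ∇ ξ x⟫) + ∫ x, h x * ξ x ≤ 0) (hf : TH Ω f G)
    (h0 : ∀ᵐ x, 0 ≤ f x) : (∫ x, ⟪J x, G x⟫) + ∫ x, h x * f x ≤ 0 := by
  obtain ⟨φ, hφ, hp, ht⟩ := s2c_main hΩ hJ hh hf
  exact le_of_tendsto' ht fun n => H _ (hφ n) (hp h0 n)

end Crest.Agent.R335
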