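import Crest.Agent.R335.S2

/-!
# R335/S3: limits
-/

set_option autoImplicit false

namespace Crest.Agent.R335

open MeasureTheory Set Filter Topology
open scoped Gradient RealInnerProductSpace ENNReal ContDiff
open Crest.MathPhysics.ThreeBody

variable {E : Type} [NormedAddCommGroup E] [InnerProductSpace ℝ E] [FiniteDimensional ℝ E]
  [MeasurableSpace E] [BorelSpace E]

/-- the scalar product is continuous for convergence in `L²` -/
theorem s3a_tendsto_inner {F : Type} [NormedAddCommGroup F] [InnerProductSpace ℝ F] {u w : ℕ → E → F}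
    {u0 w0 : E → F} (hu : ∀ n, MemLp (u n) 2 volume) (hw : ∀ n, MemLp (w n) 2 volume)
    (hu0 : MemLp u0 2 volume) (hw0 : MemLp w0 2 volume)
    (h1 : Tendsto (fun n => eLpNorm (fun x => u n x - u0 x) 2 volume) atTop (𝓝 0))
    (h2 : Tendsto (fun n => eLpNorm (fun x => w n x - w0 x) 2 volume) atTop (𝓝 0)) :
    Tendsto (fun n => ∫ x, ⟪u n x, w n x⟫) atTop (𝓝 (∫ x, ⟪u0 x, w0 x⟫)) := by
  have key : ∀ (a b : E → F) (ha : MemLp a 2 volume) (hb : MemLp b 2 volume),
      ∫ x, ⟪a x, b x⟫ = ⟪ha.toLp a, hb.toLp b⟫ := by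
    intro a b ha hb
    rw [L2.inner_def]
    refine integral_congr_ae ?_
    filter_upwards [ha.coeFn_toLp, hb.coeFn_toLp] with x e1 e2
    rw [e1, e2]
  have t1 := (Lp.tendsto_Lp_iff_tendsto_eLpNorm'' u hu u0 hu0).2 h1
  have t2 := (Lp.tendsto_Lp_iff_tendsto_eLpNorm'' w hw w0 hw0).2 h2
  rw [key u0 w0 hu0 hw0]
  refine (t1.inner t2).congr fun n => ?_
  rw [key _ _ (hu n) (hw n)]

theorem s3a_tendsto_mul {u w : ℕ → E → ℝ} {u0 w0 : E → ℝ} (hu : ∀ n, MemLp (u n) 2 volume)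
    (hw : ∀ n, MemLp (w n) 2 volume) (hu0 : MemLp u0 2 volume) (hw0 : MemLp w0 2 volume)
    (h1 : Tendsto (fun n => eLpNorm (fun x => u n x - u0 x) 2 volume) atTop (𝓝 0))
    (h2 : Tendsto (fun n => eLpNorm (fun x => w n x - w0 x) 2 volume) atTop (𝓝 0)) :
    Tendsto (fun n => ∫ x, u n x * w n x) atTop (𝓝 (∫ x, u0 x * w0 x)) := by
  have := s3a_tendsto_inner hw hu hw0 hu0 h2 h1
  simpa only [real_inner_eq_re_inner, RCLike.inner_apply, conj_trivial, RCLike.re_to_real] using this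

theorem s3a_tendsto_const {F : Type} [NormedAddCommGroup F] (w : E → F) :
    Tendsto (fun _ : ℕ => eLpNorm (fun x => w x - w x) 2 volume) atTop (𝓝 0) := by
  simp

theorem s3a_eLpNorm_eq {F : Type} [NormedAddCommGroup F] {u : E → F} (hu : MemLp u 2 volume) :
    eLpNorm u 2 volume = ENNReal.ofReal (√(∫ x, ‖u x‖ ^ 2)) := by
  rw [hu.eLpNorm_eq_integral_rpow_norm (by norm_num) (by norm_num), Real.sqrt_eq_rpow]
  simp

/-- convergence in `L²` in terms of integrals -/
theorem s3a_tendsto_iff {F : Type} [NormedAddCommGroup F] {u : ℕ → E → F} (hu : ∀ n, MemLp (u n) 2 volume) :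
    Tendsto (fun n => eLpNorm (u n) 2 volume) atTop (𝓝 0) ↔
      Tendsto (fun n => ∫ x, ‖u n x‖ ^ 2) atTop (𝓝 0) := by
  simp only [fun n => s3a_eLpNorm_eq (hu n)]
  constructor
  · intro h
    have h1 : Tendsto (fun n => √(∫ x, ‖u n x‖ ^ 2)) atTop (𝓝 0) := by
      have := (ENNReal.tendsto_toReal (a := 0) (by simp)).comp h
      simpa [Function.comp_def, Real.sqrt_nonneg] using this
    have h2 := h1.pow 2
    simp only [ne_eq, OfNat.ofNat_ne_zero, not_false_eq_true, zero_pow] at h2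
    refine h2.congr fun n => ?_
    exact Real.sq_sqrt (integral_nonneg fun x => by positivity)
  · intro h
    have := ENNReal.tendsto_ofReal (h.sqrt)
    simpa using this

/-- dominated convergence in `L²` -/
theorem s3a_dominated {F : Type} [NormedAddCommGroup F] {φ : ℕ → E → F} {f : E → F} {b : E → ℝ}
    (hφ : ∀ n, AEStronglyMeasurable (φ n) volume) (hb : MemLp b 2 volume) (h1 : ∀ n, ∀ᵐ x, ‖φ n x‖ ≤ b x)
    (h2 : ∀ᵐ x, Tendsto (fun n => φ n x) atTop (𝓝 (f x))) :
    MemLp f 2 volume ∧ Tendsto (fun n => eLpNorm (fun x => φ n x - f x) 2 volume) atTop (𝓝 0) := by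
  have hf : AEStronglyMeasurable f volume := aestronglyMeasurable_of_tendsto_ae atTop hφ h2
  have h1' := ae_all_iff.2 h1
  have hfb : ∀ᵐ x, ‖f x‖ ≤ b x := by
    filter_upwards [h1', h2] with x e1 e2
    exact le_of_tendsto' e2.norm e1
  have hfm : MemLp f 2 volume := hb.of_le hf (hfb.mono fun x hx => hx.trans (le_abs_self _))
  have hφm : ∀ n, MemLp (φ n) 2 volume := fun n =>
    hb.of_le (hφ n) ((h1 n).mono fun x hx => hx.trans (le_abs_self _))
  refine ⟨hfm, (s3a_tendsto_iff (u := fun n x => φ n x - f x) fun n => (hφm n).sub hfm).2 ?_⟩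
  have hb2 : Integrable fun x => 4 * b x ^ 2 := (hb.integrable_sq).const_mul 4
  have := tendsto_integral_of_dominated_convergence (μ := volume) (F := fun n x => ‖φ n x - f x‖ ^ 2)
    (f := fun _ => (0 : ℝ)) (fun x => 4 * b x ^ 2) (fun n => (((hφ n).sub hf).norm.pow 2)) hb2 (fun n => ?_) ?_
  · simpa using this
  · filter_upwards [h1 n, hfb] with x e1 e2
    have e3 := norm_sub_le (φ n x) (f x)
    have e4 := norm_nonneg (φ n x - f x)
    rw [Real.norm_eq_abs, abs_of_nonneg (by positivity)]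
    nlinarith
  · filter_upwards [h2] with x e
    have := ((tendsto_sub_nhds_zero_iff.2 e).norm).pow 2
    simpa using this

theorem s3a_inner_memLp {K : E → E} (hK : MemLp K 2 volume) (a : E) : MemLp (fun x => ⟪K x, a⟫) 2 volume :=
  hK.inner_const a

theorem s3a_inner_tendsto {K : ℕ → E → E} {G : E → E} (hK : ∀ n, MemLp (K n) 2 volume) (hG : MemLp G 2 volume)
    (h : Tendsto (fun n => eLpNorm (fun x => K n x - G x) 2 volume) atTop (𝓝 0)) (a : E) :
    Tendsto (fun n => eLpNorm (fun x => ⟪K n x, a⟫ - ⟪G x, a⟫) 2 volume) atTop (𝓝 0) := by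
  have h' := (s3a_tendsto_iff (u := fun n x => K n x - G x) fun n => (hK n).sub hG).1 h
  refine (s3a_tendsto_iff (u := fun n x => ⟪K n x, a⟫ - ⟪G x, a⟫) fun n =>
    (s3a_inner_memLp (hK n) a).sub (s3a_inner_memLp hG a)).2 ?_
  have h3 := h'.const_mul (‖a‖ ^ 2)
  rw [mul_zero] at h3
  refine squeeze_zero (fun n => integral_nonneg fun x => by positivity) (fun n => ?_) h3
  rw [← integral_const_mul]
  refine integral_mono_of_nonneg (Eventually.of_forall fun x => by positivity)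
    ((((hK n).sub hG).norm.integrable_sq).const_mul _) (Eventually.of_forall fun x => ?_)
  have e := norm_inner_le_norm (𝕜 := ℝ) (K n x - G x) a
  rw [inner_sub_left] at e
  have e2 := pow_le_pow_left₀ (norm_nonneg _) e 2
  simp only
  rw [mul_pow] at e2
  linarith

theorem s3a_tst_memLp {φ : E → ℝ} (h : Tst univ φ) : MemLp φ 2 volume :=
  h.sm.continuous.memLp_of_hasCompactSupport h.cpt

theorem s3a_tst_fderiv_memLp {φ : E → ℝ} (h : Tst univ φ) (a : E) : MemLp (fun x => fderiv ℝ φ x a) 2 volume :=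
  ((h.sm.continuous_fderiv (by simp)).clm_apply continuous_const).memLp_of_hasCompactSupport
    (h.cpt.fderiv_apply ℝ a)

/-- closedness -/
theorem H1.of_tendsto {f : E → ℝ} {G : E → E} {φ : ℕ → E → ℝ} {K : ℕ → E → E} (h : ∀ n, H1 (φ n) (K n))
    (hf : MemLp f 2 volume) (hG : MemLp G 2 volume)
    (h1 : Tendsto (fun n => eLpNorm (fun x => φ n x - f x) 2 volume) atTop (𝓝 0))
    (h2 : Tendsto (fun n => eLpNorm (fun x => K n x - G x) 2 volume) atTop (𝓝 0)) : H1 f G := by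
  refine ⟨hf, hG, fun ξ hξ a => ?_⟩
  have t1 := s3a_tendsto_mul (w := fun _ x => fderiv ℝ ξ x a) (fun n => (h n).mf)
    (fun _ => s3a_tst_fderiv_memLp hξ a) hf (s3a_tst_fderiv_memLp hξ a) h1 (s3a_tendsto_const _)
  have t2 := s3a_tendsto_mul (w := fun _ => ξ) (fun n => s3a_inner_memLp (h n).mG a)
    (fun _ => s3a_tst_memLp hξ) (s3a_inner_memLp hG a) (s3a_tst_memLp hξ)
    (s3a_inner_tendsto (fun n => (h n).mG) hG h2 a) (s3a_tendsto_const _)
  refine tendsto_nhds_unique t1 (t2.neg.congr fun n => ?_)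
  exact ((h n).wg ξ hξ a).symm

/-- closedness under dominated convergence -/
theorem H1.of_dominated {f b : E → ℝ} {G : E → E} {φ : ℕ → E → ℝ} {K : ℕ → E → E} (h : ∀ n, H1 (φ n) (K n))
    (hb : MemLp b 2 volume) (h1 : ∀ n, ∀ᵐ x, |φ n x| ≤ b x ∧ ‖K n x‖ ≤ b x)
    (h2 : ∀ᵐ x, Tendsto (fun n => φ n x) atTop (𝓝 (f x)))
    (h3 : ∀ᵐ x, Tendsto (fun n => K n x) atTop (𝓝 (G x))) : H1 f G := by
  obtain ⟨a1, a2⟩ := s3a_dominated (fun n => (h n).mf.1) hb (fun n => (h1 n).mono fun x hx => hx.1) h2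
  obtain ⟨b1, b2⟩ := s3a_dominated (fun n => (h n).mG.1) hb (fun n => (h1 n).mono fun x hx => hx.2) h3
  exact H1.of_tendsto h a1 b1 a2 b2

end Crest.Agent.R335
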