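import Crest.Agent.R335.S3a

/-!
# R335/S3: limits
-/

set_option autoImplicit false

namespace Crest.Agent.R335

open MeasureTheory Set Filter Topology
open scoped Gradient RealInnerProductSpace ENNReal ContDiff
open Crest.MathPhysics.ThreeBody

variable {E : Type} [NormedAddCommGroup E] [InnerProductSpace ℝ E] [FiniteDimensional ℝ E]
  [MeasurableSpace E] [BorelSpace E]

theorem s3b_hilb {H : Type} [NormedAddCommGroup H] [InnerProductSpace ℝ H] [CompleteSpace H]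
    [TopologicalSpace.SeparableSpace H] {x : ℕ → H} {r : ℝ} (hx : ∀ n, ‖x n‖ ≤ r) :
    ∃ (y : H) (s : ℕ → ℕ), StrictMono s ∧ ‖y‖ ≤ r ∧
      ∀ z, Tendsto (fun n => ⟪x (s n), z⟫) atTop (𝓝 ⟪y, z⟫) := by
  have h := WeakDual.isSeqCompact_closedBall ℝ H 0 r
    (x := fun n => StrongDual.toWeakDual (InnerProductSpace.toDual ℝ H (x n))) (fun n => by
      simpa using hx n)
  obtain ⟨a, ha, s, hs, ht⟩ := h
  refine ⟨(InnerProductSpace.toDual ℝ H).symm (WeakDual.toStrongDual a), s, hs, by simpa using ha,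
    fun z => ?_⟩
  rw [InnerProductSpace.toDual_symm_apply]
  exact ((WeakDual.eval_continuous z).tendsto a).comp ht

section
variable {F : Type} [NormedAddCommGroup F] [InnerProductSpace ℝ F]

theorem s3b_inner {f g : E → F} (hf : MemLp f 2 volume) (hg : MemLp g 2 volume) :
    ⟪hf.toLp f, hg.toLp g⟫ = ∫ x, ⟪f x, g x⟫ := by
  rw [L2.inner_def]
  refine integral_congr_ae ?_
  filter_upwards [hf.coeFn_toLp, hg.coeFn_toLp] with x h1 h2
  rw [h1, h2]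

theorem s3b_norm {f : E → F} (hf : MemLp f 2 volume) : ‖hf.toLp f‖ ^ 2 = ∫ x, ‖f x‖ ^ 2 := by
  rw [← real_inner_self_eq_norm_sq, s3b_inner]
  simp only [real_inner_self_eq_norm_sq]

theorem s3b_fun [FiniteDimensional ℝ F] {φ : ℕ → E → F} (h : ∀ n, MemLp (φ n) 2 volume) {M : ℝ}
    (hM : ∀ n, ∫ x, ‖φ n x‖ ^ 2 ≤ M) :
    ∃ (f : E → F) (s : ℕ → ℕ), StrictMono s ∧ MemLp f 2 volume ∧ ∫ x, ‖f x‖ ^ 2 ≤ M ∧
      ∀ g : E → F, MemLp g 2 volume →
        Tendsto (fun n => ∫ x, ⟪φ (s n) x, g x⟫) atTop (𝓝 (∫ x, ⟪f x, g x⟫)) := by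
  have : CompleteSpace F := FiniteDimensional.complete ℝ F
  have : ProperSpace F := FiniteDimensional.proper_real F
  have : Fact ((2 : ℝ≥0∞) ≠ ⊤) := ⟨by simp⟩
  have hM0 : 0 ≤ M := (integral_nonneg fun x => sq_nonneg _).trans (hM 0)
  obtain ⟨y, s, hs, hy, ht⟩ := s3b_hilb (H := Lp F 2 (volume : Measure E))
    (x := fun n => (h n).toLp (φ n)) (r := √M) fun n => by
      refine Real.le_sqrt_of_sq_le ?_
      rw [s3b_norm]
      exact hM n
  refine ⟨y, s, hs, Lp.memLp y, ?_, fun g hg => ?_⟩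
  · rw [← s3b_norm (Lp.memLp y), Lp.toLp_coeFn]
    calc ‖y‖ ^ 2 ≤ √M ^ 2 := pow_le_pow_left₀ (norm_nonneg _) hy 2
      _ = M := Real.sq_sqrt hM0
  · have h1 := ht (hg.toLp g)
    simp only [s3b_inner] at h1
    rw [← s3b_inner (Lp.memLp y) hg, Lp.toLp_coeFn]
    exact h1

end

theorem s3b_ip (f g : E → ℝ) : ∫ x, ⟪f x, g x⟫ = ip f g := by
  unfold ip
  congr 1
  funext x
  rw [real_inner_comm]
  simp

theorem s3b_h1 {f : E → ℝ} {G : E → E} {φ : ℕ → E → ℝ} {K : ℕ → E → E} (h : ∀ n, H1 (φ n) (K n))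
    (hf : MemLp f 2 volume) (hG : MemLp G 2 volume)
    (h1 : ∀ g : E → ℝ, MemLp g 2 volume → Tendsto (fun n => ip (φ n) g) atTop (𝓝 (ip f g)))
    (h2 : ∀ J : E → E, MemLp J 2 volume →
      Tendsto (fun n => ∫ x, ⟪K n x, J x⟫) atTop (𝓝 (∫ x, ⟪G x, J x⟫))) : H1 f G := by
  refine ⟨hf, hG, fun ψ hψ a => ?_⟩
  have m1 : MemLp (fun x => fderiv ℝ ψ x a) 2 volume :=
    Continuous.memLp_of_hasCompactSupport
      ((hψ.sm.continuous_fderiv (by simp)).clm_apply continuous_const) (hψ.cpt.fderiv_apply ℝ a)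
  have m2 : MemLp (fun x => ψ x • a) 2 volume :=
    Continuous.memLp_of_hasCompactSupport (hψ.sm.continuous.smul continuous_const)
      (hψ.cpt.smul_right (f' := fun _ => a))
  have t1 := h1 _ m1
  have t2 := (h2 _ m2).neg
  have e : ∀ J : E → E, ∫ x, ⟪J x, ψ x • a⟫ = ∫ x, ⟪J x, a⟫ * ψ x := fun J => by
    congr 1
    funext x
    rw [real_inner_smul_right, mul_comm]
  simp only [e] at t2
  refine tendsto_nhds_unique t1 (t2.congr fun n => ?_)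
  exact ((h n).wg ψ hψ a).symm

/-- weak compactness: a bounded sequence in `H¹` has a weakly convergent subsequence (Banach-Alaoglu in the
separable Hilbert spaces `Lp ℝ 2`, `Lp E 2`, or an ultrafilter limit as in `R83.Solve.exists_weak_lim` followed by the
choice of a subsequence with a countable dense set) -/
theorem H1.exists_weak {φ : ℕ → E → ℝ} {K : ℕ → E → E} (h : ∀ n, H1 (φ n) (K n)) {M : ℝ}
    (hM : ∀ n, nsq (φ n) ≤ M ∧ ∫ x, ‖K n x‖ ^ 2 ≤ M) :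
    ∃ (f : E → ℝ) (G : E → E) (s : ℕ → ℕ), StrictMono s ∧ H1 f G ∧
      (∀ g : E → ℝ, MemLp g 2 volume → Tendsto (fun n => ip (φ (s n)) g) atTop (𝓝 (ip f g))) ∧
      ∀ J : E → E, MemLp J 2 volume →
        Tendsto (fun n => ∫ x, ⟪K (s n) x, J x⟫) atTop (𝓝 (∫ x, ⟪G x, J x⟫)) := by
  obtain ⟨f, s, hs, hf, -, t1⟩ := s3b_fun (F := ℝ) (fun n => (h n).mf) (M := M) fun n => by
    simpa only [Real.norm_eq_abs, sq_abs, nsq] using (hM n).1
  obtain ⟨G, s', hs', hG, -, t2⟩ := s3b_fun (F := E) (fun n => (h (s n)).mG) fun n => (hM (s n)).2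
  have t3 : ∀ g : E → ℝ, MemLp g 2 volume →
      Tendsto (fun n => ip (φ (s (s' n))) g) atTop (𝓝 (ip f g)) := fun g hg => by
    have := (t1 g hg).comp hs'.tendsto_atTop
    simp only [s3b_ip] at this
    exact this
  exact ⟨f, G, s ∘ s', hs.comp hs', s3b_h1 (fun n => h (s (s' n))) hf hG t3 t2, t3, t2⟩

/-- an `L²` limit of a bounded sequence in `H¹` is in `H¹`, the gradients converge weakly -/
theorem H1.of_bdd {f : E → ℝ} {φ : ℕ → E → ℝ} {K : ℕ → E → E} (h : ∀ n, H1 (φ n) (K n)) {M : ℝ}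
    (hM : ∀ n, ∫ x, ‖K n x‖ ^ 2 ≤ M) (hf : MemLp f 2 volume)
    (h1 : Tendsto (fun n => eLpNorm (fun x => φ n x - f x) 2 volume) atTop (𝓝 0)) :
    ∃ G, H1 f G ∧ ∫ x, ‖G x‖ ^ 2 ≤ M ∧ ∀ J : E → E, MemLp J 2 volume →
      Tendsto (fun n => ∫ x, ⟪K n x, J x⟫) atTop (𝓝 (∫ x, ⟪G x, J x⟫)) := by
  have t0 : ∀ g : E → ℝ, MemLp g 2 volume → Tendsto (fun n => ip (φ n) g) atTop (𝓝 (ip f g)) := by
    intro g hg
    have a1 := (Lp.tendsto_Lp_iff_tendsto_eLpNorm'' φ (fun n => (h n).mf) f hf).2 h1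
    have a2 := a1.inner (𝕜 := ℝ) (tendsto_const_nhds (x := hg.toLp g))
    simpa only [s3b_inner, s3b_ip] using a2
  have key : ∀ ns : ℕ → ℕ, Tendsto ns atTop atTop → ∃ (G : E → E) (ms : ℕ → ℕ), H1 f G ∧
      ∫ x, ‖G x‖ ^ 2 ≤ M ∧ ∀ J : E → E, MemLp J 2 volume →
        Tendsto (fun n => ∫ x, ⟪K (ns (ms n)) x, J x⟫) atTop (𝓝 (∫ x, ⟪G x, J x⟫)) := by
    intro ns hns
    obtain ⟨G, s, hs, hG, hGM, t2⟩ := s3b_fun (F := E) (fun n => (h (ns n)).mG) fun n => hM (ns n)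
    exact ⟨G, s, s3b_h1 (fun n => h (ns (s n))) hf hG
      (fun g hg => ((t0 g hg).comp hns).comp hs.tendsto_atTop) t2, hGM, t2⟩
  obtain ⟨G, -, hG, hGM, -⟩ := key id tendsto_id
  refine ⟨G, hG, hGM, fun J hJ => tendsto_of_subseq_tendsto fun ns hns => ?_⟩
  obtain ⟨G', ms, hG', -, t⟩ := key ns hns
  refine ⟨ms, ?_⟩
  have e : ∫ x, ⟪G x, J x⟫ = ∫ x, ⟪G' x, J x⟫ := by
    refine integral_congr_ae ?_
    filter_upwards [hG.unique hG' (ae_eq_refl f)] with x hx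
    rw [hx]
  rw [e]
  exact t J hJ

end Crest.Agent.R335
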