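import Crest.Agent.R335.S4b

/-!
# R335/S4: chain rules (see `R83.Chain` for a model proof in `ℝ³`)
-/

set_option autoImplicit false

namespace Crest.Agent.R335

open MeasureTheory Set Filter Topology
open scoped Gradient RealInnerProductSpace ENNReal ContDiff
open Crest.MathPhysics.ThreeBody

variable {E : Type} [NormedAddCommGroup E] [InnerProductSpace ℝ E] [FiniteDimensional ℝ E]
  [MeasurableSpace E] [BorelSpace E]

variable {f g : E → ℝ} {G K : E → E}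

theorem s4_div_le (u : ℝ) {w : ℝ} (hw : u ^ 2 ≤ w) : |u / √w| ≤ 1 := by
  rw [abs_div, abs_of_nonneg (Real.sqrt_nonneg w)]
  exact div_le_one_of_le₀ (Real.abs_le_sqrt hw) (Real.sqrt_nonneg w)

theorem s4_fderiv {ε : ℝ} (hε : 0 < ε) (p a : ℝ × ℝ) :
    fderiv ℝ (fun p : ℝ × ℝ => √(p.1 ^ 2 + p.2 ^ 2 + ε ^ 2) - ε) p a =
      p.1 / √(p.1 ^ 2 + p.2 ^ 2 + ε ^ 2) * a.1 + p.2 / √(p.1 ^ 2 + p.2 ^ 2 + ε ^ 2) * a.2 := by
  have h0 : 0 < p.1 ^ 2 + p.2 ^ 2 + ε ^ 2 := by positivity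
  have h := ((((((hasFDerivAt_fst (𝕜 := ℝ) (p := p)).pow 2).add
    ((hasFDerivAt_snd (𝕜 := ℝ) (p := p)).pow 2)).add_const (ε ^ 2)).sqrt h0.ne').sub_const ε).fderiv
  refine (congrArg (fun L : ℝ × ℝ →L[ℝ] ℝ => L a) h).trans ?_
  have := (Real.sqrt_pos.2 h0).ne'
  simp
  field_simp

theorem s4_eps (hf : H1 f G) (hg : H1 g K) {ε : ℝ} (hε : 0 < ε) :
    H1 (fun x => √(f x ^ 2 + g x ^ 2 + ε ^ 2) - ε) fun x =>
      (f x / √(f x ^ 2 + g x ^ 2 + ε ^ 2)) • G x + (g x / √(f x ^ 2 + g x ^ 2 + ε ^ 2)) • K x := by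
  have hh : ContDiff ℝ 1 fun p : ℝ × ℝ => √(p.1 ^ 2 + p.2 ^ 2 + ε ^ 2) - ε :=
    (ContDiff.sqrt (by fun_prop) fun p => by positivity).sub contDiff_const
  have := hf.comp2 hg hh (by simp [Real.sqrt_sq hε.le]) (L := 2) fun p => by
    refine ContinuousLinearMap.opNorm_le_bound _ (by norm_num) fun a => ?_
    rw [s4_fderiv hε, Real.norm_eq_abs]
    refine (abs_add_le _ _).trans ?_
    rw [abs_mul, abs_mul]
    have h1 := s4_div_le p.1 (w := p.1 ^ 2 + p.2 ^ 2 + ε ^ 2) (by nlinarith [sq_nonneg p.2])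
    have h2 := s4_div_le p.2 (w := p.1 ^ 2 + p.2 ^ 2 + ε ^ 2) (by nlinarith [sq_nonneg p.1])
    have h3 : |a.1| ≤ ‖a‖ := norm_fst_le a
    have h4 : |a.2| ≤ ‖a‖ := norm_snd_le a
    have h5 := mul_le_of_le_one_left (abs_nonneg a.1) h1
    have h6 := mul_le_of_le_one_left (abs_nonneg a.2) h2
    linarith
  simpa only [s4_fderiv hε, mul_one, mul_zero, add_zero, zero_add] using this

theorem s4_two (hf : H1 f G) (hg : H1 g K) :
    H1 (fun x => √(f x ^ 2 + g x ^ 2)) fun x =>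
      (f x / √(f x ^ 2 + g x ^ 2)) • G x + (g x / √(f x ^ 2 + g x ^ 2)) • K x := by
  have hp : ∀ n : ℕ, (0 : ℝ) < 1 / ((n : ℝ) + 1) := fun n => by positivity
  have ht : Tendsto (fun n : ℕ => 1 / ((n : ℝ) + 1)) atTop (𝓝 0) :=
    tendsto_one_div_add_atTop_nhds_zero_nat
  have hs : ∀ x, Tendsto (fun n : ℕ => √(f x ^ 2 + g x ^ 2 + (1 / ((n : ℝ) + 1)) ^ 2)) atTop
      (𝓝 √(f x ^ 2 + g x ^ 2)) := fun x => by
    simpa using ((ht.pow 2).const_add (f x ^ 2 + g x ^ 2)).sqrt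
  refine H1.of_dominated (b := fun x => ‖f x‖ + ‖g x‖ + (‖G x‖ + ‖K x‖))
    (fun n => s4_eps hf hg (hp n)) ((hf.mf.norm.add hg.mf.norm).add (hf.mG.norm.add hg.mG.norm))
    (fun n => Eventually.of_forall fun x => ?_) (Eventually.of_forall fun x => ?_)
    (Eventually.of_forall fun x => ?_)
  · have he := hp n
    set ε := 1 / ((n : ℝ) + 1)
    have h1 := s4_div_le (f x) (w := f x ^ 2 + g x ^ 2 + ε ^ 2) (by nlinarith [sq_nonneg (g x)])
    have h2 := s4_div_le (g x) (w := f x ^ 2 + g x ^ 2 + ε ^ 2) (by nlinarith [sq_nonneg (f x)])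
    have a1 := norm_nonneg (G x)
    have a2 := norm_nonneg (K x)
    have a3 := abs_nonneg (f x)
    have a4 := abs_nonneg (g x)
    simp only [Real.norm_eq_abs]
    constructor
    · have l : ε ≤ √(f x ^ 2 + g x ^ 2 + ε ^ 2) :=
        Real.le_sqrt_of_sq_le (by nlinarith [sq_nonneg (f x), sq_nonneg (g x)])
      have u : √(f x ^ 2 + g x ^ 2 + ε ^ 2) ≤ |f x| + |g x| + ε :=
        Real.sqrt_le_iff.2 ⟨by positivity, by
          nlinarith [sq_abs (f x), sq_abs (g x), mul_nonneg a3 a4, mul_nonneg a3 he.le,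
            mul_nonneg a4 he.le]⟩
      rw [abs_of_nonneg (by linarith)]
      linarith
    · refine (norm_add_le _ _).trans ?_
      rw [norm_smul, norm_smul, Real.norm_eq_abs, Real.norm_eq_abs]
      have h5 := mul_le_of_le_one_left a1 h1
      have h6 := mul_le_of_le_one_left a2 h2
      linarith
  · simpa using (hs x).sub ht
  · by_cases h0 : √(f x ^ 2 + g x ^ 2) = 0
    · have h1 := Real.sqrt_eq_zero'.1 h0
      have hf0 : f x = 0 := by nlinarith [sq_nonneg (f x), sq_nonneg (g x)]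
      have hg0 : g x = 0 := by nlinarith [sq_nonneg (f x), sq_nonneg (g x)]
      simp [hf0, hg0]
    · exact ((tendsto_const_nhds.div (hs x) h0).smul_const _).add
        ((tendsto_const_nhds.div (hs x) h0).smul_const _)

theorem s4_two_norm (a b : ℝ) (u v : E) :
    ‖(a / √(a ^ 2 + b ^ 2)) • u + (b / √(a ^ 2 + b ^ 2)) • v‖ ^ 2 ≤ ‖u‖ ^ 2 + ‖v‖ ^ 2 := by
  set p := a / √(a ^ 2 + b ^ 2) with hp
  set q := b / √(a ^ 2 + b ^ 2) with hq
  have h1 : p ^ 2 + q ^ 2 ≤ 1 := by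
    rw [hp, hq, div_pow, div_pow, ← add_div, Real.sq_sqrt (by positivity)]
    exact div_self_le_one _
  have h2 : ‖p • u + q • v‖ ≤ |p| * ‖u‖ + |q| * ‖v‖ := by
    refine (norm_add_le _ _).trans ?_
    rw [norm_smul, norm_smul, Real.norm_eq_abs, Real.norm_eq_abs]
  have h3 := pow_le_pow_left₀ (norm_nonneg _) h2 2
  have h4 : (|p| * ‖u‖ + |q| * ‖v‖) ^ 2 ≤ (p ^ 2 + q ^ 2) * (‖u‖ ^ 2 + ‖v‖ ^ 2) := by
    rw [← sq_abs p, ← sq_abs q]
    nlinarith [sq_nonneg (|p| * ‖v‖ - |q| * ‖u‖)]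
  have h5 := mul_le_of_le_one_left (by positivity : 0 ≤ ‖u‖ ^ 2 + ‖v‖ ^ 2) h1
  linarith

theorem s4_two_smul (a b : ℝ) (u v : E) :
    √(a ^ 2 + b ^ 2) • ((a / √(a ^ 2 + b ^ 2)) • u + (b / √(a ^ 2 + b ^ 2)) • v) =
      a • u + b • v := by
  by_cases h0 : √(a ^ 2 + b ^ 2) = 0
  · have h1 := Real.sqrt_eq_zero'.1 h0
    have ha : a = 0 := by nlinarith [sq_nonneg a, sq_nonneg b]
    have hb : b = 0 := by nlinarith [sq_nonneg a, sq_nonneg b]
    simp [ha, hb]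
  · rw [smul_add, smul_smul, smul_smul, mul_div_cancel₀ _ h0, mul_div_cancel₀ _ h0]


/-- the length of a finite family -/
theorem H1.norm_sum {ι : Type} (s : Finset ι) {f : ι → E → ℝ} {G : ι → E → E} (hf : ∀ i ∈ s, H1 (f i) (G i)) :
    ∃ K, H1 (fun x => √(∑ i ∈ s, f i x ^ 2)) K ∧ (∀ᵐ x, ‖K x‖ ^ 2 ≤ ∑ i ∈ s, ‖G i x‖ ^ 2) ∧
      ∀ᵐ x, √(∑ i ∈ s, f i x ^ 2) • K x = ∑ i ∈ s, f i x • G i x := by
  classical
  induction s using Finset.induction_on with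
  | empty => exact ⟨fun _ => 0, by simpa using H1.zero, by simp, by simp⟩
  | insert a s ha ih =>
    obtain ⟨K, h1, h2, h3⟩ := ih fun i hi => hf i (Finset.mem_insert_of_mem hi)
    have e : ∀ x, ∑ i ∈ insert a s, f i x ^ 2 = f a x ^ 2 + √(∑ i ∈ s, f i x ^ 2) ^ 2 := fun x => by
      rw [Finset.sum_insert ha, Real.sq_sqrt (Finset.sum_nonneg fun i _ => sq_nonneg _)]
    simp only [e]
    refine ⟨_, s4_two (hf a (Finset.mem_insert_self a s)) h1, ?_, ?_⟩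
    · filter_upwards [h2] with x hx
      rw [Finset.sum_insert ha]
      exact (s4_two_norm _ _ _ _).trans (by linarith)
    · filter_upwards [h3] with x hx
      rw [Finset.sum_insert ha, s4_two_smul, hx]
/-- the regularised modulus -/
theorem H1.sqrt_sq_add (hf : H1 f G) {ε : ℝ} (hε : 0 < ε) :
    H1 (fun x => √(f x ^ 2 + ε ^ 2) - ε) fun x => (f x / √(f x ^ 2 + ε ^ 2)) • G x := by
  simpa using s4_eps hf H1.zero hε
end Crest.Agent.R335
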