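import Crest.Agent.R335.S3

/-!
# R335/S4: chain rules (see `R83.Chain` for a model proof in `ℝ³`)
-/

set_option autoImplicit false

namespace Crest.Agent.R335

open MeasureTheory Set Filter Topology
open scoped Gradient RealInnerProductSpace ENNReal ContDiff
open Crest.MathPhysics.ThreeBody

variable {E : Type} [NormedAddCommGroup E] [InnerProductSpace ℝ E] [FiniteDimensional ℝ E]
  [MeasurableSpace E] [BorelSpace E]

variable {f g : E → ℝ} {G K : E → E}

theorem s4a_le {F F' : Type} [NormedAddCommGroup F] [NormedAddCommGroup F'] {u : ℕ → E → F} {v : ℕ → E → F'} (c : ℝ)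
    (h : ∀ n x, ‖u n x‖ ≤ c * ‖v n x‖) (hv : Tendsto (fun n => eLpNorm (v n) 2 volume) atTop (𝓝 0)) :
    Tendsto (fun n => eLpNorm (u n) 2 volume) atTop (𝓝 0) := by
  have h1 := ENNReal.Tendsto.const_mul (a := ENNReal.ofReal c) hv (Or.inr ENNReal.ofReal_ne_top)
  rw [mul_zero] at h1
  exact tendsto_of_tendsto_of_tendsto_of_le_of_le tendsto_const_nhds h1 (fun _ => zero_le) fun n =>
    eLpNorm_le_mul_eLpNorm_of_ae_le_mul (Eventually.of_forall (h n)) 2

theorem s4a_sum {ι F : Type} [Fintype ι] [NormedAddCommGroup F] {u : ι → ℕ → E → F}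
    (hm : ∀ i n, AEStronglyMeasurable (u i n) volume)
    (h : ∀ i, Tendsto (fun n => eLpNorm (u i n) 2 volume) atTop (𝓝 0)) :
    Tendsto (fun n => eLpNorm (fun x => ∑ i, u i n x) 2 volume) atTop (𝓝 0) := by
  have h1 := tendsto_finsetSum Finset.univ fun i _ => h i
  rw [Finset.sum_const_zero] at h1
  refine tendsto_of_tendsto_of_tendsto_of_le_of_le tendsto_const_nhds h1 (fun _ => zero_le) fun n => ?_
  have := eLpNorm_sum_le (μ := volume) (p := 2) (s := Finset.univ) (f := fun i => u i n) (fun i _ => hm i n)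
    one_le_two
  rwa [Finset.sum_fn] at this

theorem s4a_gen {ι W : Type} [Fintype ι] [NormedAddCommGroup W] [NormedSpace ℝ W] (e : ι → W)
    {f : ι → E → ℝ} {G : ι → E → E} (hf : ∀ i, H1 (f i) (G i)) {h : W → ℝ} (hh : ContDiff ℝ 1 h) (h0 : h 0 = 0)
    {L : ℝ} (hL : ∀ t, ‖fderiv ℝ h t‖ ≤ L) :
    H1 (fun x => h (∑ i, f i x • e i)) fun x => ∑ i, fderiv ℝ h (∑ i, f i x • e i) (e i) • G i x := by
  choose φ ht ha _ using fun i => (hf i).dense
  have hd : Differentiable ℝ h := hh.differentiable one_ne_zero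
  have hD : ∀ i, Continuous fun t => fderiv ℝ h t (e i) := fun i =>
    (hh.continuous_fderiv one_ne_zero).clm_apply continuous_const
  have hDb : ∀ i t, ‖fderiv ℝ h t (e i)‖ ≤ L * ‖e i‖ := fun i t =>
    (ContinuousLinearMap.le_opNorm _ _).trans (mul_le_mul_of_nonneg_right (hL t) (norm_nonneg _))
  have hlip : ∀ s t, ‖h s - h t‖ ≤ L * ‖s - t‖ := fun s t =>
    convex_univ.norm_image_sub_le_of_norm_fderiv_le (fun x _ => hd x) (fun x _ => hL x) (mem_univ t) (mem_univ s)
  have hm : MemLp (fun x => ∑ i, f i x • e i) 2 volume :=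
    memLp_finsetSum _ fun i _ => (hf i).mf.of_le_mul (c := ‖e i‖) ((hf i).mf.1.smul_const _)
      (Eventually.of_forall fun x => by rw [norm_smul, mul_comm])
  have hs : ∀ n, ContDiff ℝ 1 fun x => ∑ i, φ i n x • e i := fun n =>
    ContDiff.sum fun i _ => ((ht i n).sm.of_le (by exact_mod_cast le_top)).smul contDiff_const
  have hg : ∀ n x, ∇ (fun x => h (∑ i, φ i n x • e i)) x =
      ∑ i, fderiv ℝ h (∑ i, φ i n x • e i) (e i) • ∇ (φ i n) x := fun n x => by
    have h1 : HasFDerivAt (fun x => ∑ i, φ i n x • e i) (∑ i, (fderiv ℝ (φ i n) x).smulRight (e i)) x :=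
      HasFDerivAt.fun_sum fun i _ => (((ht i n).sm.differentiable (by simp)) x).hasFDerivAt.smul_const (e i)
    refine ext_inner_right ℝ fun a => ?_
    have h2 : HasFDerivAt (fun x => h (∑ i, φ i n x • e i)) _ x := (hd _).hasFDerivAt.comp x h1
    rw [gradient, InnerProductSpace.toDual_symm_apply, h2.fderiv]
    simp only [sum_inner, inner_smul_left, gradient, InnerProductSpace.toDual_symm_apply,
      ContinuousLinearMap.comp_apply, sum_apply, map_sum, ContinuousLinearMap.smulRight_apply,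
      map_smul, smul_eq_mul, conj_trivial, mul_comm]
  have hH : ∀ n, H1 (fun x => h (∑ i, φ i n x • e i)) fun x =>
      ∑ i, fderiv ℝ h (∑ i, φ i n x • e i) (e i) • ∇ (φ i n) x := fun n => by
    have hc : HasCompactSupport fun x => ∑ i, φ i n x • e i := by
      refine HasCompactSupport.intro (isCompact_iUnion fun i => (ht i n).cpt) fun x hx => ?_
      exact Finset.sum_eq_zero fun i _ => by
        rw [image_eq_zero_of_notMem_tsupport fun hi => hx (mem_iUnion.2 ⟨i, hi⟩), zero_smul]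
    exact (H1.of_c1_cpt (hh.comp (hs n)) (hc.comp_left h0)).congr EventuallyEq.rfl (Eventually.of_forall (hg n))
  have ma : ∀ i, AEStronglyMeasurable (fun x => fderiv ℝ h (∑ i, f i x • e i) (e i)) volume := fun i =>
    (hD i).comp_aestronglyMeasurable hm.1
  have mb : ∀ i n, AEStronglyMeasurable (fun x => fderiv ℝ h (∑ i, φ i n x • e i) (e i)) volume := fun i n =>
    ((hD i).comp (hs n).continuous).aestronglyMeasurable
  refine H1.of_tendsto hH (hm.of_le_mul (c := L) (hh.continuous.comp_aestronglyMeasurable hm.1)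
    (Eventually.of_forall fun x => by simpa [h0] using hlip _ 0))
    (memLp_finsetSum _ fun i _ => (hf i).mG.of_le_mul (c := L * ‖e i‖) ((ma i).smul (hf i).mG.1)
      (Eventually.of_forall fun x => by
        rw [norm_smul]
        exact mul_le_mul_of_nonneg_right (hDb i _) (norm_nonneg _))) ?_ ?_
  · refine s4a_le L (v := fun n x => ∑ i, (φ i n x - f i x) • e i) (fun n x => ?_)
      (s4a_sum (fun i n => ((ht i n).h1.mf.1.sub (hf i).mf.1).smul_const _) fun i =>
        s4a_le ‖e i‖ (fun n x => by rw [norm_smul, mul_comm]) (ha i).l2)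
    simpa only [sub_smul, Finset.sum_sub_distrib] using hlip _ _
  · simp only [← Finset.sum_sub_distrib]
    refine s4a_sum (fun i n => ((mb i n).smul (ht i n).h1.mG.1).sub ((ma i).smul (hf i).mG.1)) fun i => ?_
    have t1 := s4a_le (L * ‖e i‖) (u := fun n x => fderiv ℝ h (∑ i, φ i n x • e i) (e i) • (∇ (φ i n) x - G i x))
      (fun n x => by
        rw [norm_smul]
        exact mul_le_mul_of_nonneg_right (hDb i _) (norm_nonneg _)) (ha i).l2G
    have t2 := (s3a_dominated (φ := fun n x => fderiv ℝ h (∑ i, φ i n x • e i) (e i) • G i x)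
      (f := fun x => fderiv ℝ h (∑ i, f i x • e i) (e i) • G i x) (fun n => (mb i n).smul (hf i).mG.1)
      ((hf i).mG.norm.const_mul (L * ‖e i‖)) (fun n => Eventually.of_forall fun x => by
        rw [norm_smul]
        exact mul_le_mul_of_nonneg_right (hDb i _) (norm_nonneg _))
      ((ae_all_iff.2 fun j => (ha j).ae).mono fun x hx => (((hD i).tendsto _).comp
        (tendsto_finsetSum _ fun j _ => (hx j).smul_const (e j))).smul_const _)).2
    have t3 := t1.add t2
    rw [add_zero] at t3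
    refine tendsto_of_tendsto_of_tendsto_of_le_of_le tendsto_const_nhds t3 (fun _ => zero_le) fun n => ?_
    refine le_of_eq_of_le ?_ (eLpNorm_add_le ((mb i n).smul ((ht i n).h1.mG.1.sub (hf i).mG.1))
      (((mb i n).smul (hf i).mG.1).sub ((ma i).smul (hf i).mG.1)) one_le_two)
    congr 1
    ext1 x
    simp [smul_sub]

theorem H1.comp (hf : H1 f G) {h : ℝ → ℝ} (hh : ContDiff ℝ 1 h) (h0 : h 0 = 0) {L : ℝ}
    (hL : ∀ t, |deriv h t| ≤ L) : H1 (fun x => h (f x)) fun x => deriv h (f x) • G x := by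
  simpa using s4a_gen (ι := Unit) (fun _ => (1 : ℝ)) (fun _ => hf) hh h0 (L := L) fun t => by
    rw [← norm_deriv_eq_norm_fderiv]
    exact hL t

/-- several functions -/
theorem H1.comp_pi {n : ℕ} {f : Fin n → E → ℝ} {G : Fin n → E → E} (hf : ∀ i, H1 (f i) (G i))
    {h : (Fin n → ℝ) → ℝ} (hh : ContDiff ℝ 1 h) (h0 : h 0 = 0) {L : ℝ} (hL : ∀ t, ‖fderiv ℝ h t‖ ≤ L) :
    H1 (fun x => h fun i => f i x) fun x => ∑ i, fderiv ℝ h (fun i => f i x) (Pi.single i 1) • G i x := by
  have e : ∀ x, ∑ i, f i x • (Pi.single i 1 : Fin n → ℝ) = fun i => f i x := fun x =>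
    (pi_eq_sum_univ' fun i => f i x).symm
  simpa only [e] using s4a_gen (fun i => (Pi.single i 1 : Fin n → ℝ)) hf hh h0 hL

/-- two functions -/
theorem H1.comp2 (hf : H1 f G) (hg : H1 g K) {h : ℝ × ℝ → ℝ} (hh : ContDiff ℝ 1 h) (h0 : h 0 = 0) {L : ℝ}
    (hL : ∀ t, ‖fderiv ℝ h t‖ ≤ L) :
    H1 (fun x => h (f x, g x)) fun x =>
      fderiv ℝ h (f x, g x) (1, 0) • G x + fderiv ℝ h (f x, g x) (0, 1) • K x := by
  simpa using s4a_gen (ι := Fin 2) ![((1 : ℝ), (0 : ℝ)), (0, 1)] (f := ![f, g]) (G := ![G, K])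
    (Fin.forall_fin_two.2 ⟨hf, hg⟩) hh h0 hL

end Crest.Agent.R335
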