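import Crest.Agent.R335.S4a

/-!
# R335/S4: chain rules (see `R83.Chain` for a model proof in `ℝ³`)
-/

set_option autoImplicit false

namespace Crest.Agent.R335

open MeasureTheory Set Filter Topology
open scoped Gradient RealInnerProductSpace ENNReal ContDiff
open Crest.MathPhysics.ThreeBody

variable {E : Type} [NormedAddCommGroup E] [InnerProductSpace ℝ E] [FiniteDimensional ℝ E]
  [MeasurableSpace E] [BorelSpace E]

variable {f g : E → ℝ} {G K : E → E}

/-- chain rule for pointwise limits of `C¹` functions with slope at most one -/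
theorem s4b_lim (hf : H1 f G) {h h' : ℕ → ℝ → ℝ} {p ψ : ℝ → ℝ}
    (hd : ∀ n t, HasDerivAt (h n) (h' n t) t) (hc : ∀ n, Continuous (h' n)) (h0 : ∀ n, h n 0 = 0)
    (hb : ∀ n t, |h' n t| ≤ 1) (l1 : ∀ t, Tendsto (fun n => h n t) atTop (𝓝 (p t)))
    (l2 : ∀ t, Tendsto (fun n => h' n t) atTop (𝓝 (ψ t))) :
    H1 (fun x => p (f x)) fun x => ψ (f x) • G x := by
  have hder : ∀ n, deriv (h n) = h' n := fun n => funext fun t => (hd n t).deriv
  have hC : ∀ n, ContDiff ℝ 1 (h n) := fun n =>
    contDiff_one_iff_deriv.2 ⟨fun t => (hd n t).differentiableAt, by rw [hder n]; exact hc n⟩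
  have hH : ∀ n, H1 (fun x => h n (f x)) fun x => h' n (f x) • G x := fun n => by
    have := hf.comp (hC n) (h0 n) (L := 1) (fun t => by rw [hder n]; exact hb n t)
    rwa [hder n] at this
  have hlip : ∀ n t, |h n t| ≤ |t| := fun n t => by
    have := convex_univ.norm_image_sub_le_of_norm_hasDerivWithin_le (C := 1) (f := h n) (f' := h' n)
      (fun x _ => (hd n x).hasDerivWithinAt) (fun x _ => hb n x) (mem_univ 0) (mem_univ t)
    simpa [h0 n] using this
  refine H1.of_dominated hH (b := fun x => ‖f x‖ + ‖G x‖) (hf.mf.norm.add hf.mG.norm) ?_ ?_ ?_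
  · intro n
    refine Eventually.of_forall fun x => ⟨?_, ?_⟩
    · have := hlip n (f x)
      have := norm_nonneg (G x)
      rw [Real.norm_eq_abs]
      linarith
    · rw [norm_smul, Real.norm_eq_abs]
      have h1 := mul_le_of_le_one_left (norm_nonneg (G x)) (hb n (f x))
      have := norm_nonneg (f x)
      linarith
  · exact Eventually.of_forall fun x => l1 (f x)
  · exact Eventually.of_forall fun x => (l2 (f x)).smul_const (G x)

/-- the positive part of `f - c` for an arbitrary constant `c`, normalised to vanish where `f` does -/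
theorem s4b_pos (hf : H1 f G) (c : ℝ) :
    H1 (fun x => max (f x - c) 0 - max (-c) 0) fun x => if c < f x then G x else 0 := by
  set δ : ℕ → ℝ := fun n => 1 / ((n : ℝ) + 1) with hδ
  have δpos : ∀ n, 0 < δ n := fun n => by positivity
  have δlim : Tendsto δ atTop (𝓝 0) := tendsto_one_div_add_atTop_nhds_zero_nat
  have hpos : ∀ n (s : ℝ), 0 < s ^ 2 + δ n ^ 4 := fun n s => by
    have := δpos n
    positivity
  have hq : ∀ s : ℝ, Tendsto (fun n => (s - δ n + √((s - δ n) ^ 2 + δ n ^ 4)) / 2) atTop
      (𝓝 (max s 0)) := by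
    intro s
    have hc : Continuous fun d : ℝ => (s - d + √((s - d) ^ 2 + d ^ 4)) / 2 := by fun_prop
    have := (hc.tendsto 0).comp δlim
    have e : (s - 0 + √((s - 0) ^ 2 + 0 ^ 4)) / 2 = max s 0 := by
      have : (s - 0) ^ 2 + (0 : ℝ) ^ 4 = s ^ 2 := by ring
      rw [this, Real.sqrt_sq_eq_abs]
      rcases le_total s 0 with h | h
      · rw [abs_of_nonpos h, max_eq_right h]
        ring
      · rw [abs_of_nonneg h, max_eq_left h]
        ring
    rw [e] at this
    exact this
  have key := s4b_lim hf
    (h := fun n t => (t - c - δ n + √((t - c - δ n) ^ 2 + δ n ^ 4)) / 2 -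
      (0 - c - δ n + √((0 - c - δ n) ^ 2 + δ n ^ 4)) / 2)
    (h' := fun n t => (1 + (t - c - δ n) / √((t - c - δ n) ^ 2 + δ n ^ 4)) / 2)
    (p := fun t => max (t - c) 0 - max (-c) 0) (ψ := fun t => if c < t then 1 else 0) ?_ ?_ ?_ ?_ ?_ ?_
  · convert key using 2 with x
    split_ifs <;> simp
  · intro n t
    have h1 : HasDerivAt (fun t : ℝ => t - c - δ n) 1 t := ((hasDerivAt_id t).sub_const c).sub_const _
    have h2 : HasDerivAt (fun t : ℝ => (t - c - δ n) ^ 2 + δ n ^ 4) (2 * (t - c - δ n)) t := by
      have := (h1.fun_pow 2).add_const (δ n ^ 4)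
      simpa using this
    have h3 := h2.sqrt (hpos n _).ne'
    have h4 := ((h1.fun_add h3).div_const 2).sub_const
      ((0 - c - δ n + √((0 - c - δ n) ^ 2 + δ n ^ 4)) / 2)
    refine h4.congr_deriv ?_
    have : √((t - c - δ n) ^ 2 + δ n ^ 4) ≠ 0 := (Real.sqrt_pos.2 (hpos n _)).ne'
    field_simp
  · intro n
    refine (continuous_const.add (Continuous.div (by fun_prop) (by fun_prop) fun t => ?_)).div_const 2
    exact (Real.sqrt_pos.2 (hpos n _)).ne'
  · intro n
    exact sub_self _
  · intro n t
    have hs : 0 < √((t - c - δ n) ^ 2 + δ n ^ 4) := Real.sqrt_pos.2 (hpos n _)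
    have h1 : |t - c - δ n| ≤ √((t - c - δ n) ^ 2 + δ n ^ 4) :=
      Real.abs_le_sqrt (by have := δpos n; nlinarith [pow_pos this 4])
    have h2 : |(t - c - δ n) / √((t - c - δ n) ^ 2 + δ n ^ 4)| ≤ 1 := by
      rw [abs_div, abs_of_pos hs, div_le_one hs]
      exact h1
    have h3 := abs_le.1 h2
    rw [abs_le]
    constructor <;> linarith [h3.1, h3.2]
  · intro t
    have := (hq (t - c)).sub (hq (0 - c))
    simpa using this
  · intro t
    by_cases htc : t = c
    · subst htc
      have hc : ContinuousAt (fun d : ℝ => (1 + -1 / √(1 + d ^ 2)) / 2) 0 := by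
        refine (continuousAt_const.add (ContinuousAt.div continuousAt_const (by fun_prop) ?_)).div_const 2
        simp
      have := hc.tendsto.comp δlim
      simp only [lt_irrefl, if_false]
      have e : (1 + -1 / √(1 + (0 : ℝ) ^ 2)) / 2 = 0 := by simp
      rw [e] at this
      refine this.congr fun n => ?_
      have hd := δpos n
      have e1 : (t - t - δ n) ^ 2 + δ n ^ 4 = δ n ^ 2 * (1 + δ n ^ 2) := by ring
      have hs : 0 < √(1 + δ n ^ 2) := Real.sqrt_pos.2 (by positivity)
      simp only [Function.comp]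
      rw [e1, Real.sqrt_mul (sq_nonneg _), Real.sqrt_sq hd.le]
      field_simp
      ring
    · have hne : t - c ≠ 0 := sub_ne_zero.2 htc
      have e0 : √((t - c - 0) ^ 2 + (0 : ℝ) ^ 4) = |t - c| := by
        have : (t - c - 0) ^ 2 + (0 : ℝ) ^ 4 = (t - c) ^ 2 := by ring
        rw [this, Real.sqrt_sq_eq_abs]
      have hc : ContinuousAt (fun d : ℝ => (1 + (t - c - d) / √((t - c - d) ^ 2 + d ^ 4)) / 2) 0 := by
        refine (continuousAt_const.add (ContinuousAt.div (by fun_prop) (by fun_prop) ?_)).div_const 2
        rw [e0]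
        exact abs_ne_zero.2 hne
      have := hc.tendsto.comp δlim
      have e : (1 + (t - c - 0) / √((t - c - 0) ^ 2 + (0 : ℝ) ^ 4)) / 2 = if c < t then 1 else 0 := by
        rw [e0]
        split_ifs with h
        · rw [abs_of_pos (sub_pos.2 h)]
          field_simp
          ring
        · rw [abs_of_nonpos (by linarith [not_lt.1 h])]
          field_simp
          ring
      rw [e] at this
      exact this

/-- `(f - c)₊` for `c ≥ 0`: approximate by `t ↦ √((t - c)₊² + ε²) - ε` -/
theorem H1.pos_sub (hf : H1 f G) {c : ℝ} (hc : 0 ≤ c) :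
    H1 (fun x => max (f x - c) 0) fun x => if c < f x then G x else 0 := by
  have := s4b_pos hf c
  rw [max_eq_right (by linarith : -c ≤ 0)] at this
  simpa using this

theorem H1.pos (hf : H1 f G) : H1 (fun x => max (f x) 0) fun x => if 0 < f x then G x else 0 := by
  simpa using hf.pos_sub (le_refl (0 : ℝ))

/-- the gradient vanishes a.e. on level sets (compare the two approximations of `(f - c)₊`, one with
`{c < f}` and one with `{c ≤ f}`; for `c = 0` use `f = f₊ - (-f)₊`) -/
theorem H1.level (hf : H1 f G) (c : ℝ) : ∀ᵐ x, f x = c → G x = 0 := by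
  have h1 := (s4b_pos hf c).sub (s4b_pos hf.neg (-c))
  have h2 := hf.unique h1 (Eventually.of_forall fun x => by
    have a : ∀ s : ℝ, max s 0 - max (-s) 0 = s := fun s => by
      rcases le_total s 0 with h | h
      · rw [max_eq_right h, max_eq_left (by linarith)]
        ring
      · rw [max_eq_left h, max_eq_right (by linarith)]
        ring
    have a1 := a (f x - c)
    have a2 := a c
    have e : -f x - -c = -(f x - c) := by ring
    simp only [e, neg_neg]
    linarith)
  filter_upwards [h2] with x hx hc
  rw [hx, hc]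
  simp

theorem H1.abs (hf : H1 f G) : H1 (fun x => |f x|) fun x => if 0 ≤ f x then G x else -G x := by
  have h1 := hf.pos.add hf.neg.pos
  refine h1.congr (Eventually.of_forall fun x => ?_) ?_
  · show max (f x) 0 + max (-f x) 0 = |f x|
    rcases le_total (f x) 0 with h | h
    · rw [max_eq_right h, max_eq_left (by linarith), abs_of_nonpos h]
      ring
    · rw [max_eq_left h, max_eq_right (by linarith), abs_of_nonneg h]
      ring
  · filter_upwards [hf.level 0] with x hx
    rcases lt_trichotomy (f x) 0 with h | h | h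
    · rw [if_neg (by linarith), if_pos (by linarith), if_neg (by linarith), zero_add]
    · simp [hx h]
    · rw [if_pos h, if_neg (by linarith), if_pos h.le, add_zero]

theorem H1.min_const (hf : H1 f G) {M : ℝ} (hM : 0 ≤ M) :
    H1 (fun x => min (f x) M) fun x => if f x < M then G x else 0 := by
  have h1 := hf.sub (hf.pos_sub hM)
  refine h1.congr (Eventually.of_forall fun x => ?_) ?_
  · show f x - max (f x - M) 0 = min (f x) M
    rcases le_total (f x) M with h | h
    · rw [max_eq_right (by linarith), min_eq_left h]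
      ring
    · rw [max_eq_left (by linarith), min_eq_right h]
      ring
  · filter_upwards [hf.level M] with x hx
    rcases lt_trichotomy (f x) M with h | h | h
    · rw [if_neg (by linarith), if_pos h, sub_zero]
    · simp [hx h]
    · rw [if_pos h, if_neg (by linarith), sub_self]

theorem H1.grad_eq_on (hf : H1 f G) (hg : H1 g K) : ∀ᵐ x, f x = g x → G x = K x := by
  filter_upwards [(hf.sub hg).level 0] with x hx h
  exact sub_eq_zero.1 (hx (sub_eq_zero.2 h))

end Crest.Agent.R335
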