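import Crest.Agent.R335.S4

/-!
# R335/S5: products
-/

set_option autoImplicit false

namespace Crest.Agent.R335

open MeasureTheory Set Filter Topology
open scoped Gradient RealInnerProductSpace ENNReal ContDiff
open Crest.MathPhysics.ThreeBody

variable {E : Type} [NormedAddCommGroup E] [InnerProductSpace ℝ E] [FiniteDimensional ℝ E]
  [MeasurableSpace E] [BorelSpace E]

variable {f g : E → ℝ} {G K : E → E}

theorem s5a_c1 (hf : H1 f G) {χ : E → ℝ} (hχ : ContDiff ℝ 1 χ) (h1 : MemLp (fun x => χ x * f x) 2 volume)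
    (h2 : MemLp (fun x => χ x • G x + f x • ∇ χ x) 2 volume) :
    H1 (fun x => χ x * f x) fun x => χ x • G x + f x • ∇ χ x := by
  refine ⟨h1, h2, fun φ hφ a => ?_⟩
  have hφ1 : ContDiff ℝ 1 φ := hφ.sm.of_le (by simp)
  have h3 := hf.ibp (H1.of_c1_cpt (hχ.mul hφ1) hφ.cpt.mul_left) a
  have e1 : ∀ x, f x * ⟪∇ (fun x => χ x * φ x) x, a⟫ =
      χ x * f x * fderiv ℝ φ x a + f x * (fderiv ℝ χ x a * φ x) := fun x => by
    rw [inner_gradient_left, fderiv_fun_mul (hχ.differentiable one_ne_zero x)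
      (hφ1.differentiable one_ne_zero x)]
    simp only [ContinuousLinearMap.add_apply, ContinuousLinearMap.smul_apply, smul_eq_mul]
    ring
  have e2 : ∀ x, ⟪χ x • G x + f x • ∇ χ x, a⟫ * φ x =
      ⟪G x, a⟫ * (χ x * φ x) + f x * (fderiv ℝ χ x a * φ x) := fun x => by
    rw [inner_add_left, real_inner_smul_left, real_inner_smul_left, inner_gradient_left]
    ring
  have m1 : MemLp (fun x => fderiv ℝ χ x a * φ x) 2 volume :=
    (((hχ.continuous_fderiv one_ne_zero).clm_apply continuous_const).mul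
      hφ1.continuous).memLp_of_hasCompactSupport hφ.cpt.mul_left
  have m2 : MemLp (fun x => χ x * φ x) 2 volume :=
    (hχ.continuous.mul hφ1.continuous).memLp_of_hasCompactSupport hφ.cpt.mul_left
  have i1 : Integrable fun x => f x * (fderiv ℝ χ x a * φ x) := hf.mf.integrable_mul m1
  have i2 : Integrable fun x => ⟪G x, a⟫ * (χ x * φ x) :=
    (hf.mG.inner_const (𝕜 := ℝ) a).integrable_mul m2
  simp only [e1] at h3
  simp only [e2]
  rw [integral_add (s1a_i1 h1 hφ a) i1] at h3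
  rw [integral_add i2 i1]
  linarith

omit [InnerProductSpace ℝ E] [FiniteDimensional ℝ E] [BorelSpace E] in
theorem s5a_smul {F : Type} [NormedAddCommGroup F] [NormedSpace ℝ F] {μ : Measure E} {χ : E → ℝ} {G : E → F}
    (hχ : AEStronglyMeasurable χ μ) {M : ℝ} (h : ∀ᵐ x ∂μ, |χ x| ≤ M) (hG : MemLp G 2 μ) :
    MemLp (fun x => χ x • G x) 2 μ :=
  MemLp.of_le_mul (c := M) hG (hχ.smul hG.1) (h.mono fun x hx => by
    rw [norm_smul]
    exact mul_le_mul_of_nonneg_right hx (norm_nonneg _))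

theorem s5a_bdd (hf : H1 f G) {χ : E → ℝ} (hχ : ContDiff ℝ 1 χ) {M M' : ℝ} (h1 : ∀ x, |χ x| ≤ M)
    (h2 : ∀ x, ‖∇ χ x‖ ≤ M') : H1 (fun x => χ x * f x) fun x => χ x • G x + f x • ∇ χ x := by
  have hm := hχ.continuous.aestronglyMeasurable (μ := volume)
  refine s5a_c1 hf hχ (s5a_smul hm (Eventually.of_forall h1) hf.mf)
    ((s5a_smul hm (Eventually.of_forall h1) hf.mG).add ?_)
  refine MemLp.of_le_mul (c := M') hf.mf (hf.mf.1.smul (s1a_grad_cont hχ).aestronglyMeasurable)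
    (Eventually.of_forall fun x => ?_)
  rw [norm_smul, mul_comm]
  exact mul_le_mul_of_nonneg_right (h2 x) (norm_nonneg _)

theorem s5a_cpt (hf : H1 f G) {χ : E → ℝ} (hχ : ContDiff ℝ 1 χ) (hc : HasCompactSupport χ) :
    H1 (fun x => χ x * f x) fun x => χ x • G x + f x • ∇ χ x := by
  obtain ⟨M, hM⟩ := hχ.continuous.bounded_above_of_compact_support hc
  obtain ⟨M', hM'⟩ := (s1a_grad_cont hχ).bounded_above_of_compact_support
    (HasCompactSupport.intro hc fun x hx => s1a_grad_zero hx)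
  exact s5a_bdd hf hχ hM hM'

/-- general product rule: the weak identity holds for all `f, g ∈ H¹` (approximate `g`, use `H1.ibp`) -/
theorem H1.mul (hf : H1 f G) (hg : H1 g K) (h1 : MemLp (fun x => f x * g x) 2 volume)
    (h2 : MemLp (fun x => f x • K x + g x • G x) 2 volume) :
    H1 (fun x => f x * g x) fun x => f x • K x + g x • G x := by
  refine ⟨h1, h2, fun φ hφ a => ?_⟩
  have hφ1 : ContDiff ℝ 1 φ := hφ.sm.of_le (by simp)
  have h3 := hf.ibp (s5a_cpt hg hφ1 hφ.cpt) a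
  have e1 : ∀ x, f x * ⟪φ x • K x + g x • ∇ φ x, a⟫ =
      f x * g x * fderiv ℝ φ x a + ⟪K x, a⟫ * (φ x * f x) := fun x => by
    rw [inner_add_left, real_inner_smul_left, real_inner_smul_left, inner_gradient_left]
    ring
  have e2 : ∀ x, ⟪f x • K x + g x • G x, a⟫ * φ x =
      ⟪G x, a⟫ * (φ x * g x) + ⟪K x, a⟫ * (φ x * f x) := fun x => by
    rw [inner_add_left, real_inner_smul_left, real_inner_smul_left]
    ring
  have i1 : Integrable fun x => ⟪K x, a⟫ * (φ x * f x) :=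
    (hg.mG.inner_const (𝕜 := ℝ) a).integrable_mul (s5a_cpt hf hφ1 hφ.cpt).mf
  have i2 : Integrable fun x => ⟪G x, a⟫ * (φ x * g x) :=
    (hf.mG.inner_const (𝕜 := ℝ) a).integrable_mul (s5a_cpt hg hφ1 hφ.cpt).mf
  simp only [e1] at h3
  simp only [e2]
  rw [integral_add (s1a_i1 h1 hφ a) i1] at h3
  rw [integral_add i2 i1]
  linarith

theorem H1.mul_bdd (hf : H1 f G) (hg : H1 g K) {M : ℝ} (h1 : ∀ᵐ x, |f x| ≤ M) (h2 : ∀ᵐ x, |g x| ≤ M) :
    H1 (fun x => f x * g x) fun x => f x • K x + g x • G x := by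
  exact hf.mul hg (s5a_smul hf.mf.1 h1 hg.mf)
    ((s5a_smul hf.mf.1 h1 hg.mG).add (s5a_smul hg.mf.1 h2 hf.mG))

/-- multiplication with a `C¹` function -/
theorem H1.mul_c1 (hf : H1 f G) {χ : E → ℝ} (hχ : ContDiff ℝ 1 χ) (h1 : MemLp (fun x => χ x * f x) 2 volume)
    (h2 : MemLp (fun x => χ x • G x + f x • ∇ χ x) 2 volume) :
    H1 (fun x => χ x * f x) fun x => χ x • G x + f x • ∇ χ x := by
  exact s5a_c1 hf hχ h1 h2

theorem H1.mul_c1_bdd (hf : H1 f G) {χ : E → ℝ} (hχ : ContDiff ℝ 1 χ) {M : ℝ} (h1 : ∀ x, |χ x| ≤ M)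
    (h2 : ∀ x, ‖∇ χ x‖ ≤ M) : H1 (fun x => χ x * f x) fun x => χ x • G x + f x • ∇ χ x := by
  exact s5a_bdd hf hχ h1 h2

theorem H1.mul_c1_cpt (hf : H1 f G) {χ : E → ℝ} (hχ : ContDiff ℝ 1 χ) (hc : HasCompactSupport χ) :
    H1 (fun x => χ x * f x) fun x => χ x • G x + f x • ∇ χ x := by
  exact s5a_cpt hf hχ hc

theorem H1.th_mul (hf : H1 f G) {Ω : Set E} {χ : E → ℝ} (hχ : ContDiff ℝ 1 χ) (hc : HasCompactSupport χ)
    (hs : tsupport χ ⊆ Ω) : TH Ω (fun x => χ x * f x) fun x => χ x • G x + f x • ∇ χ x := by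
  exact TH.of_h1 (s5a_cpt hf hχ hc) hc hs (Eventually.of_forall fun x hx => by
    rw [image_eq_zero_of_notMem_tsupport hx, zero_mul])

/-- multiplication of a compactly supported function with a function which is `C¹` on `Ω` only -/
theorem TH.mul_c1 {Ω : Set E} (hΩ : IsOpen Ω) (hf : TH Ω f G) {χ : E → ℝ} (hχ : ContDiffOn ℝ 1 χ Ω) :
    TH Ω (fun x => χ x * f x) fun x => χ x • G x + f x • ∇ χ x := by
  obtain ⟨C, h1, h2, h3⟩ := hf.cpt
  obtain ⟨ψ, hψ, -, h4⟩ := exists_tst_one hΩ h1 h2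
  have h5 : ContDiff ℝ 1 fun x => χ x * ψ x := contDiff_iff_contDiffAt.2 fun x => by
    by_cases hx : x ∈ Ω
    · exact (hχ.contDiffAt (hΩ.mem_nhds hx)).mul (hψ.sm.of_le (by simp)).contDiffAt
    · refine (contDiffAt_const (c := 0)).congr_of_eventuallyEq ?_
      filter_upwards [notMem_tsupport_iff_eventuallyEq.1 fun h => hx (hψ.sub h)] with y hy
      rw [hy, Pi.zero_apply, mul_zero]
  have h6 : ∀ x ∈ C, (fun x => χ x * ψ x) =ᶠ[𝓝 x] χ := fun x hx => by
    filter_upwards [h4.filter_mono (nhds_le_nhdsSet hx)] with y hy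
    rw [hy, mul_one]
  refine ⟨(s5a_cpt hf.h1 h5 hψ.cpt.mul_left).congr ?_ ?_, C, h1, h2, ?_⟩
  · filter_upwards [h3] with x hx
    by_cases hxC : x ∈ C
    · rw [(h6 x hxC).eq_of_nhds]
    · simp [(hx hxC).1]
  · filter_upwards [h3] with x hx
    by_cases hxC : x ∈ C
    · rw [(h6 x hxC).eq_of_nhds, (h6 x hxC).gradient_eq]
    · simp [(hx hxC).1, (hx hxC).2]
  · filter_upwards [h3] with x hx hxC
    simp [(hx hxC).1, (hx hxC).2]

end Crest.Agent.R335
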