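import Crest.Agent.R335.S5a

/-!
# R335/S5: products
-/

set_option autoImplicit false

namespace Crest.Agent.R335

open MeasureTheory Set Filter Topology
open scoped Gradient RealInnerProductSpace ENNReal ContDiff
open Crest.MathPhysics.ThreeBody

variable {E : Type} [NormedAddCommGroup E] [InnerProductSpace ℝ E] [FiniteDimensional ℝ E]
  [MeasurableSpace E] [BorelSpace E]

variable {f g : E → ℝ} {G K : E → E}

theorem s5b_int (hf : H1 f G) {χ : E → ℝ} (hχ : ContDiff ℝ 1 χ) {M : ℝ} (h2 : ∀ x, ‖∇ χ x‖ ≤ M) :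
    Integrable fun x => ‖∇ χ x‖ ^ 2 * f x ^ 2 := by
  refine hf.int_sq.bdd_mul (c := M ^ 2) ((s1a_grad_cont hχ).norm.pow 2).aestronglyMeasurable
    (Eventually.of_forall fun x => ?_)
  rw [Real.norm_of_nonneg (sq_nonneg _)]
  exact pow_le_pow_left₀ (norm_nonneg _) (h2 x) 2

theorem s5b_h1 (hf : H1 f G) {χ : E → ℝ} (hχ : ContDiff ℝ 1 χ) {M : ℝ} (h1 : ∀ x, |χ x| ≤ M)
    (h2 : ∀ x, ‖∇ χ x‖ ≤ M) :
    H1 (fun x => χ x ^ 2 * f x) fun x => χ x ^ 2 • G x + (2 * χ x * f x) • ∇ χ x := by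
  refine ((hf.mul_c1_bdd hχ h1 h2).mul_c1_bdd hχ h1 h2).congr (Eventually.of_forall fun x => ?_)
    (Eventually.of_forall fun x => ?_)
  · dsimp only
    ring
  · dsimp only
    module

omit [MeasurableSpace E] [BorelSpace E] in
theorem s5b_sum {n : ℕ} {χ : Fin n → E → ℝ} (hχ : ∀ i, ContDiff ℝ 1 (χ i)) (h1 : ∀ x, ∑ i, χ i x ^ 2 = 1)
    (x a : E) : ∑ i, 2 * χ i x * ⟪a, ∇ (χ i) x⟫ = 0 := by
  have h : HasFDerivAt (fun y => ∑ i, χ i y ^ 2) (∑ i, (2 * χ i x) • fderiv ℝ (χ i) x) x := by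
    refine HasFDerivAt.fun_sum fun i _ => ?_
    have h2 := ((hχ i).differentiable one_ne_zero x).hasFDerivAt
    refine (h2.pow 2).congr_fderiv ?_
    simp
  have h0 : HasFDerivAt (fun y => ∑ i, χ i y ^ 2) (0 : E →L[ℝ] ℝ) x := by
    simp only [h1]
    exact hasFDerivAt_const _ _
  have h3 := congrArg (fun L : E →L[ℝ] ℝ => L a) (h.unique h0)
  simp only [ContinuousLinearMap.sum_apply, ContinuousLinearMap.smul_apply, smul_eq_mul,
    ContinuousLinearMap.zero_apply] at h3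
  rw [← h3]
  exact Finset.sum_congr rfl fun i _ => by rw [real_inner_comm, inner_gradient_left]

/-- localisation formula -/
theorem bf_loc {V : E → ℝ} (hV : FB V) (hf : H1 f G) {χ : E → ℝ} (hχ : ContDiff ℝ 1 χ) {M : ℝ}
    (h1 : ∀ x, |χ x| ≤ M) (h2 : ∀ x, ‖∇ χ x‖ ≤ M) :
    bf V f G (fun x => χ x ^ 2 * f x) (fun x => χ x ^ 2 • G x + (2 * χ x * f x) • ∇ χ x) =
      qf V (fun x => χ x * f x) (fun x => χ x • G x + f x • ∇ χ x) -
        (1 / 2) * ∫ x, ‖∇ χ x‖ ^ 2 * f x ^ 2 := by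
  have e1 : ∀ x, ⟪G x, χ x ^ 2 • G x + (2 * χ x * f x) • ∇ χ x⟫ =
      ‖χ x • G x + f x • ∇ χ x‖ ^ 2 - ‖∇ χ x‖ ^ 2 * f x ^ 2 := fun x => by
    rw [norm_add_sq_real, inner_add_right, real_inner_smul_right, real_inner_smul_right, real_inner_smul_left,
      real_inner_smul_right, real_inner_self_eq_norm_sq, norm_smul, norm_smul, mul_pow, mul_pow, Real.norm_eq_abs,
      Real.norm_eq_abs, sq_abs, sq_abs]
    ring
  have e2 : ∀ x, V x * (f x * (χ x ^ 2 * f x)) = V x * (χ x * f x) ^ 2 := fun x => by ring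
  simp only [bf, qf, e1, e2]
  rw [integral_sub (hf.mul_c1_bdd hχ h1 h2).int_grad_sq (s5b_int hf hχ h2)]
  ring

/-- localisation of an eigenfunction -/
theorem Eig.loc {V : E → ℝ} {e : ℝ} (hV : FB V) (hf : Eig V e f G) {χ : E → ℝ} (hχ : ContDiff ℝ 1 χ) {M : ℝ}
    (h1 : ∀ x, |χ x| ≤ M) (h2 : ∀ x, ‖∇ χ x‖ ≤ M) :
    qf V (fun x => χ x * f x) (fun x => χ x • G x + f x • ∇ χ x) - e * nsq (fun x => χ x * f x) =
      (1 / 2) * ∫ x, ‖∇ χ x‖ ^ 2 * f x ^ 2 := by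
  have h3 := hf.eq _ _ (s5b_h1 hf.h1 hχ h1 h2)
  rw [bf_loc hV hf.h1 hχ h1 h2] at h3
  have e1 : ip f (fun x => χ x ^ 2 * f x) = nsq fun x => χ x * f x :=
    integral_congr_ae (Eventually.of_forall fun x => by dsimp only; ring)
  rw [e1] at h3
  linarith

/-- IMS formula -/
theorem qf_ims {V : E → ℝ} (hV : FB V) (hf : H1 f G) {n : ℕ} {χ : Fin n → E → ℝ} (hχ : ∀ i, ContDiff ℝ 1 (χ i))
    {M : ℝ} (h2 : ∀ i x, ‖∇ (χ i) x‖ ≤ M) (h1 : ∀ x, ∑ i, χ i x ^ 2 = 1) :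
    qf V f G = ∑ i, qf V (fun x => χ i x * f x) (fun x => χ i x • G x + f x • ∇ (χ i) x) -
      (1 / 2) * ∫ x, (∑ i, ‖∇ (χ i) x‖ ^ 2) * f x ^ 2 := by
  have a1 : ∀ i x, |χ i x| ≤ max M 1 := fun i x => by
    refine le_trans ?_ (le_max_right _ _)
    rw [← sq_le_one_iff_abs_le_one, ← h1 x]
    exact Finset.single_le_sum (f := fun i => χ i x ^ 2) (fun i _ => sq_nonneg _) (Finset.mem_univ i)
  have a2 : ∀ i x, ‖∇ (χ i) x‖ ≤ max M 1 := fun i x => (h2 i x).trans (le_max_left _ _)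
  have e1 : ∫ x, (∑ i, ‖∇ (χ i) x‖ ^ 2) * f x ^ 2 = ∑ i, ∫ x, ‖∇ (χ i) x‖ ^ 2 * f x ^ 2 := by
    simp only [Finset.sum_mul]
    exact integral_finset_sum _ fun i _ => s5b_int hf (hχ i) (h2 i)
  rw [e1, Finset.mul_sum, ← Finset.sum_sub_distrib]
  simp only [← bf_loc hV hf (hχ _) (a1 _) (a2 _)]
  simp only [bf, qf]
  rw [Finset.sum_add_distrib, ← Finset.mul_sum,
    ← integral_finset_sum _ fun i _ => hf.int_inner (s5b_h1 hf (hχ i) (a1 i) (a2 i)),
    ← integral_finset_sum _ fun i _ => ?_]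
  · congr 1
    · congr 1
      refine integral_congr_ae (Eventually.of_forall fun x => ?_)
      have e2 : ∀ i, ⟪G x, χ i x ^ 2 • G x + (2 * χ i x * f x) • ∇ (χ i) x⟫ =
          χ i x ^ 2 * ‖G x‖ ^ 2 + f x * (2 * χ i x * ⟪G x, ∇ (χ i) x⟫) := fun i => by
        rw [inner_add_right, real_inner_smul_right, real_inner_smul_right, real_inner_self_eq_norm_sq]
        ring
      simp only [e2]
      rw [Finset.sum_add_distrib, ← Finset.sum_mul, ← Finset.mul_sum, h1, s5b_sum hχ h1, one_mul, mul_zero,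
        add_zero]
    · refine integral_congr_ae (Eventually.of_forall fun x => ?_)
      have e3 : ∀ i, V x * (f x * (χ i x ^ 2 * f x)) = χ i x ^ 2 * (V x * f x ^ 2) := fun i => by ring
      simp only [e3]
      rw [← Finset.sum_mul, h1, one_mul]
  · refine (hV.int _ _ (hf.mul_c1_bdd (hχ i) (a1 i) (a2 i))).congr (Eventually.of_forall fun x => ?_)
    dsimp only
    ring

end Crest.Agent.R335
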