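import Crest.Agent.R335.S5

/-!
# R335/S6: local Sobolev functions.  `Ω` is open.
-/

set_option autoImplicit false

namespace Crest.Agent.R335

open MeasureTheory Set Filter Topology
open scoped Gradient RealInnerProductSpace ENNReal ContDiff
open Crest.MathPhysics.ThreeBody

variable {E : Type} [NormedAddCommGroup E] [InnerProductSpace ℝ E] [FiniteDimensional ℝ E]
  [MeasurableSpace E] [BorelSpace E]

variable {Ω : Set E} {f g : E → ℝ} {G K : E → E}

omit [MeasurableSpace E] [BorelSpace E] in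
theorem s6a_out {φ : E → ℝ} {x : E} (hx : x ∉ tsupport φ) : φ x = 0 ∧ ∇ φ x = 0 := by
  refine ⟨image_eq_zero_of_notMem_tsupport hx, ?_⟩
  rw [gradient, fderiv_of_notMem_tsupport ℝ hx, map_zero]

theorem H1.loc (hf : H1 f G) (Ω : Set E) : H1loc Ω f G := by
  exact fun φ hφ => hf.mul_c1_cpt (hφ.sm.of_le (by simp)) hφ.cpt

theorem H1loc.mono {Ω' : Set E} (hf : H1loc Ω f G) (h : Ω' ⊆ Ω) : H1loc Ω' f G := by
  exact fun φ hφ => hf φ ⟨hφ.sm, hφ.cpt, hφ.sub.trans h⟩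

theorem H1loc.of_c1 (hΩ : IsOpen Ω) (hf : ContDiffOn ℝ 1 f Ω) : H1loc Ω f (∇ f) := by
  exact fun φ hφ => (hφ.th.mul_c1 hΩ hf).h1.congr (.of_forall fun x => mul_comm _ _)
    (.of_forall fun x => add_comm _ _)

theorem H1loc.const (c : ℝ) : H1loc Ω (fun _ => c) fun _ => 0 := by
  exact fun φ hφ => (hφ.h1.const_mul c).congr (.of_forall fun x => mul_comm _ _)
    (.of_forall fun x => by simp)

theorem H1loc.add (hf : H1loc Ω f G) (hg : H1loc Ω g K) : H1loc Ω (fun x => f x + g x) fun x => G x + K x := by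
  refine fun φ hφ => ((hf φ hφ).add (hg φ hφ)).congr (.of_forall fun x => ?_) (.of_forall fun x => ?_)
  · simp only [mul_add]
  · simp only [smul_add, add_smul]; abel

theorem H1loc.const_mul (c : ℝ) (hf : H1loc Ω f G) : H1loc Ω (fun x => c * f x) fun x => c • G x := by
  refine fun φ hφ => ((hf φ hφ).const_mul c).congr (.of_forall fun x => ?_) (.of_forall fun x => ?_)
  · simp only [mul_left_comm]
  · simp only [smul_add, smul_smul, mul_comm]

theorem H1loc.sub (hf : H1loc Ω f G) (hg : H1loc Ω g K) : H1loc Ω (fun x => f x - g x) fun x => G x - K x := by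
  refine fun φ hφ => ((hf φ hφ).sub (hg φ hφ)).congr (.of_forall fun x => ?_) (.of_forall fun x => ?_)
  · simp only [mul_sub]
  · simp only [smul_sub, sub_smul]; abel

theorem H1loc.congr (hf : H1loc Ω f G) (h : ∀ᵐ x, x ∈ Ω → f x = g x ∧ G x = K x) : H1loc Ω g K := by
  intro φ hφ
  have key : ∀ᵐ x, φ x * f x = φ x * g x ∧ φ x • G x + f x • ∇ φ x = φ x • K x + g x • ∇ φ x := by
    filter_upwards [h] with x hx
    by_cases hΩ : x ∈ Ω
    · rw [(hx hΩ).1, (hx hΩ).2]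
      exact ⟨rfl, rfl⟩
    · obtain ⟨h1, h2⟩ := s6a_out fun h' => hΩ (hφ.sub h')
      simp [h1, h2]
  exact (hf φ hφ).congr (key.mono fun x hx => hx.1) (key.mono fun x hx => hx.2)

theorem s6a_ex (hΩ : IsOpen Ω) (hf : H1loc Ω f G) {C : Set E} (hC : IsCompact C) (hs : C ⊆ Ω) :
    ∃ f' G' U, TH Ω f' G' ∧ IsOpen U ∧ C ⊆ U ∧ U ⊆ Ω ∧ (∀ x ∈ U, f' x = f x ∧ G' x = G x) ∧
      ∀ x, |f' x| ≤ |f x| := by
  obtain ⟨χ, hχ, h01, h1⟩ := exists_tst_one hΩ hC hs
  refine ⟨_, _, interior {x | χ x = 1}, ⟨hf χ hχ, tsupport χ, hχ.cpt, hχ.sub, .of_forall fun x hx => ?_⟩,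
    isOpen_interior, subset_interior_iff_mem_nhdsSet.2 h1, fun x hx => ?_, fun x hx => ?_, fun x => ?_⟩
  · obtain ⟨h2, h3⟩ := s6a_out hx
    simp [h2, h3]
  · have h2 : χ x = 1 := interior_subset (s := {x | χ x = 1}) hx
    exact hχ.sub (subset_tsupport _ (by simp [h2]))
  · have h2 : χ x = 1 := interior_subset (s := {x | χ x = 1}) hx
    have h3 : χ =ᶠ[𝓝 x] fun _ => 1 := mem_interior_iff_mem_nhds.1 hx
    have h4 : ∇ χ x = 0 := by rw [gradient, h3.fderiv_eq]; simp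
    simp [h2, h4]
  · rw [abs_mul, abs_of_nonneg (h01 x).1]
    exact mul_le_of_le_one_left (abs_nonneg _) (h01 x).2

theorem H1loc.memLp (hΩ : IsOpen Ω) (hf : H1loc Ω f G) {C : Set E} (hC : IsCompact C) (hs : C ⊆ Ω) :
    MemLp f 2 (volume.restrict C) ∧ MemLp G 2 (volume.restrict C) := by
  obtain ⟨f', G', U, h1, -, h2, -, h3, -⟩ := s6a_ex hΩ hf hC hs
  have key : ∀ᵐ x ∂volume.restrict C, f' x = f x ∧ G' x = G x :=
    (ae_restrict_iff' hC.measurableSet).2 (.of_forall fun x hx => h3 x (h2 hx))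
  exact ⟨(h1.h1.mf.restrict C).ae_eq (key.mono fun x hx => hx.1),
    (h1.h1.mG.restrict C).ae_eq (key.mono fun x hx => hx.2)⟩

/-- a global representative near a compact set -/
theorem H1loc.exists_h1 (hΩ : IsOpen Ω) (hf : H1loc Ω f G) {C : Set E} (hC : IsCompact C) (hs : C ⊆ Ω) :
    ∃ f' G' U, TH Ω f' G' ∧ IsOpen U ∧ C ⊆ U ∧ U ⊆ Ω ∧ (∀ x ∈ U, f' x = f x ∧ G' x = G x) ∧
      ∀ x, |f' x| ≤ |f x| := by
  exact s6a_ex hΩ hf hC hs

theorem H1loc.unique (hΩ : IsOpen Ω) (hf : H1loc Ω f G) (hg : H1loc Ω g K) :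
    ∀ᵐ x, x ∈ Ω → f x = g x → G x = K x := by
  rw [ae_iff]
  refine measure_null_of_locally_null _ fun x hx => ?_
  have hxΩ : x ∈ Ω := by
    by_contra h
    exact hx fun h' => absurd h' h
  obtain ⟨f', G', U, h1, hU, h2, -, h3, -⟩ := s6a_ex hΩ hf isCompact_singleton (singleton_subset_iff.2 hxΩ)
  obtain ⟨g', K', U', h1', hU', h2', -, h3', -⟩ :=
    s6a_ex hΩ hg isCompact_singleton (singleton_subset_iff.2 hxΩ)
  refine ⟨_, inter_mem_nhdsWithin _ ((hU.inter hU').mem_nhds ⟨h2 rfl, h2' rfl⟩), ?_⟩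
  refine measure_mono_null (fun y hy => ?_) (ae_iff.1 (h1.h1.grad_eq_on h1'.h1))
  intro h
  refine hy.1 fun _ e => ?_
  rw [← (h3 y hy.2.1).2, ← (h3' y hy.2.2).2]
  exact h (by rw [(h3 y hy.2.1).1, (h3' y hy.2.2).1, e])

end Crest.Agent.R335
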