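import Crest.Agent.R335.S6a

/-!
# R335/S6: local Sobolev functions.  `Ω` is open.
-/

set_option autoImplicit false

namespace Crest.Agent.R335

open MeasureTheory Set Filter Topology
open scoped Gradient RealInnerProductSpace ENNReal ContDiff
open Crest.MathPhysics.ThreeBody

variable {E : Type} [NormedAddCommGroup E] [InnerProductSpace ℝ E] [FiniteDimensional ℝ E]
  [MeasurableSpace E] [BorelSpace E]

variable {Ω : Set E} {f g : E → ℝ} {G K : E → E}

omit [MeasurableSpace E] [BorelSpace E] in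
theorem s6b_grad_add {χ ψ : E → ℝ} {x : E} (h1 : DifferentiableAt ℝ χ x) (h2 : DifferentiableAt ℝ ψ x) :
    ∇ (fun y => χ y + ψ y) x = ∇ χ x + ∇ ψ x := by
  rw [gradient, gradient, gradient, fderiv_fun_add h1 h2, map_add]

omit [MeasurableSpace E] [BorelSpace E] in
theorem s6b_one {χ : E → ℝ} {C : Set E} (h : ∀ᶠ x in 𝓝ˢ C, χ x = 1) {x : E} (hx : x ∈ C) :
    χ x = 1 ∧ ∇ χ x = 0 := by
  have h1 : χ =ᶠ[𝓝 x] fun _ => 1 := h.filter_mono (nhds_le_nhdsSet hx)
  refine ⟨h1.eq_of_nhds, ?_⟩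
  rw [gradient, h1.fderiv_eq]
  simp

theorem s6b_union {U W : Set E} (hU : IsOpen U) (hW : IsOpen W) (h1 : H1loc U f G) (h2 : H1loc W f G) :
    H1loc (U ∪ W) f G := by
  intro φ hφ
  obtain ⟨K1, K2, c1, c2, s1, s2, e⟩ := IsCompact.binary_compact_cover hφ.cpt hU hW hφ.sub
  obtain ⟨χ, hχ, -, hone⟩ := exists_tst_one hU c1 s1
  have t1 : Tst U fun x => χ x * φ x :=
    ⟨hχ.sm.mul hφ.sm, hχ.cpt.mul_right, (tsupport_mul_subset_left (f := χ) (g := φ)).trans hχ.sub⟩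
  have t2 : Tst W fun x => (1 - χ x) * φ x := by
    refine ⟨(contDiff_const.sub hχ.sm).mul hφ.sm, hφ.cpt.mul_left, fun x hx => ?_⟩
    have a1 : x ∈ tsupport φ := tsupport_mul_subset_right (f := fun x => 1 - χ x) (g := φ) hx
    rw [e] at a1
    rcases a1 with a1 | a1
    · exfalso
      refine (notMem_tsupport_iff_eventuallyEq.2 ?_) hx
      filter_upwards [hone.filter_mono (nhds_le_nhdsSet a1)] with y hy
      simp [hy]
    · exact s2 a1
  have e1 : φ = fun x => χ x * φ x + (1 - χ x) * φ x := by funext x; ring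
  have e2 : ∀ x, ∇ φ x = ∇ (fun x => χ x * φ x) x + ∇ (fun x => (1 - χ x) * φ x) x := fun x => by
    rw [← s6b_grad_add (t1.sm.differentiable (by simp) x) (t2.sm.differentiable (by simp) x), ← e1]
  refine ((h1 _ t1).add (h2 _ t2)).congr (Eventually.of_forall fun x => ?_) (Eventually.of_forall fun x => ?_)
  · ring
  · simp only [e2 x]
    module

theorem s6b_bdd {ξ : E → ℝ} {X : E → E} (hξ : TH Ω ξ X) 
    (b : ∀ C, IsCompact C → C ⊆ Ω → ∃ M : ℝ, ∀ᵐ x, x ∈ C → |g x| ≤ M) (h : ∀ x, |ξ x| ≤ |g x|) :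
    ∃ M : ℝ, 0 ≤ M ∧ ∀ᵐ x, |ξ x| ≤ M := by
  obtain ⟨C, c1, c2, c3⟩ := hξ.cpt
  obtain ⟨M, hM⟩ := b C c1 c2
  refine ⟨max M 0, le_max_right _ _, ?_⟩
  filter_upwards [hM, c3] with x a1 a2
  by_cases hx : x ∈ C
  · exact ((h x).trans (a1 hx)).trans (le_max_left _ _)
  · rw [(a2 hx).1, abs_zero]
    exact le_max_right _ _

/-- being in `H¹_loc` is a local property (smooth partition of unity) -/
theorem H1loc.of_local (hΩ : IsOpen Ω) (h : ∀ x ∈ Ω, ∃ U, IsOpen U ∧ x ∈ U ∧ H1loc U f G) : H1loc Ω f G := by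
  intro φ hφ
  have key : ∃ U, IsOpen U ∧ tsupport φ ⊆ U ∧ H1loc U f G := by
    refine IsCompact.induction_on (p := fun s => ∃ U, IsOpen U ∧ s ⊆ U ∧ H1loc U f G) hφ.cpt ?_ ?_ ?_ ?_
    · refine ⟨∅, isOpen_empty, subset_rfl, fun ψ hψ => ?_⟩
      refine H1.zero.congr (Eventually.of_forall fun x => ?_) (Eventually.of_forall fun x => ?_)
      · simp [image_eq_zero_of_notMem_tsupport (f := ψ) (x := x) fun h => hψ.sub h]
      · simp [image_eq_zero_of_notMem_tsupport (f := ψ) (x := x) fun h => hψ.sub h,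
          s1a_grad_zero (f := ψ) (x := x) fun h => hψ.sub h]
    · rintro s t hst ⟨U, h1, h2, h3⟩
      exact ⟨U, h1, hst.trans h2, h3⟩
    · rintro s t ⟨U, h1, h2, h3⟩ ⟨W, g1, g2, g3⟩
      exact ⟨U ∪ W, h1.union g1, union_subset_union h2 g2, s6b_union h1 g1 h3 g3⟩
    · intro x hx
      obtain ⟨U, h1, h2, h3⟩ := h x (hφ.sub hx)
      exact ⟨U, mem_nhdsWithin_of_mem_nhds (h1.mem_nhds h2), U, h1, subset_rfl, h3⟩
  obtain ⟨U, -, h2, h3⟩ := key
  exact h3 φ ⟨hφ.sm, hφ.cpt, h2⟩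

theorem H1loc.th (hΩ : IsOpen Ω) (hf : H1loc Ω f G) {C : Set E} (hC : IsCompact C) (hs : C ⊆ Ω)
    (h0 : ∀ᵐ x, x ∈ Ω → x ∉ C → f x = 0) : TH Ω (Ω.indicator f) (Ω.indicator G) := by
  obtain ⟨χ, hχ, -, hone⟩ := exists_tst_one hΩ hC hs
  have hu := hf.unique hΩ (H1loc.const 0)
  have h1 : H1 (Ω.indicator f) (Ω.indicator G) := by
    refine (hf χ hχ).congr ?_ ?_
    · filter_upwards [h0] with x a1
      by_cases hx : x ∈ Ω
      · rw [indicator_of_mem hx]
        by_cases hxC : x ∈ C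
        · rw [(s6b_one hone hxC).1, one_mul]
        · rw [a1 hx hxC, mul_zero]
      · rw [indicator_of_notMem hx, image_eq_zero_of_notMem_tsupport fun h => hx (hχ.sub h), zero_mul]
    · filter_upwards [h0, hu] with x a1 a2
      by_cases hx : x ∈ Ω
      · rw [indicator_of_mem hx]
        by_cases hxC : x ∈ C
        · rw [(s6b_one hone hxC).1, (s6b_one hone hxC).2, one_smul, smul_zero, add_zero]
        · rw [a2 hx (a1 hx hxC), a1 hx hxC, smul_zero, zero_smul, add_zero]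
      · rw [indicator_of_notMem hx, image_eq_zero_of_notMem_tsupport fun h => hx (hχ.sub h),
          s1a_grad_zero fun h => hx (hχ.sub h), smul_zero, zero_smul, add_zero]
  refine TH.of_h1 h1 hC hs ?_
  filter_upwards [h0] with x a1 hxC
  by_cases hx : x ∈ Ω
  · rw [indicator_of_mem hx, a1 hx hxC]
  · rw [indicator_of_notMem hx]

theorem H1loc.th_mul (hΩ : IsOpen Ω) (hf : H1loc Ω f G) {χ : E → ℝ} (hχ : ContDiff ℝ 1 χ)
    (hc : HasCompactSupport χ) (hs : tsupport χ ⊆ Ω) :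
    TH Ω (fun x => χ x * f x) fun x => χ x • G x + f x • ∇ χ x := by
  obtain ⟨f', G', U, h1, -, h3, -, h5, -⟩ := hf.exists_h1 hΩ hc hs
  have h := h1.h1.th_mul hχ hc hs
  have e1 : (fun x => χ x * f x) = fun x => χ x * f' x := by
    funext x
    by_cases hx : x ∈ U
    · rw [(h5 x hx).1]
    · rw [image_eq_zero_of_notMem_tsupport fun h => hx (h3 h), zero_mul, zero_mul]
  have e2 : (fun x => χ x • G x + f x • ∇ χ x) = fun x => χ x • G' x + f' x • ∇ χ x := by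
    funext x
    by_cases hx : x ∈ U
    · rw [(h5 x hx).1, (h5 x hx).2]
    · rw [image_eq_zero_of_notMem_tsupport fun h => hx (h3 h), s1a_grad_zero fun h => hx (h3 h)]
      simp
  rw [e1, e2]
  exact h

theorem H1loc.h1 (hf : H1loc univ f G) (h1 : MemLp f 2 volume) (h2 : MemLp G 2 volume) : H1 f G := by
  refine ⟨h1, h2, fun φ hφ a => ?_⟩
  obtain ⟨χ, hχ, -, hone⟩ := exists_tst_one isOpen_univ hφ.cpt (subset_univ _)
  have h := (hf χ hχ).wg φ hφ a
  have e1 : (fun x => f x * fderiv ℝ φ x a) = fun x => χ x * f x * fderiv ℝ φ x a := by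
    funext x
    by_cases hx : x ∈ tsupport φ
    · rw [(s6b_one hone hx).1, one_mul]
    · have h0 : fderiv ℝ φ x = 0 := by
        by_contra hn
        exact hx (support_fderiv_subset ℝ (f := φ) hn)
      simp [h0]
  have e2 : (fun x => ⟪G x, a⟫ * φ x) = fun x => ⟪χ x • G x + f x • ∇ χ x, a⟫ * φ x := by
    funext x
    by_cases hx : x ∈ tsupport φ
    · rw [(s6b_one hone hx).1, (s6b_one hone hx).2, one_smul, smul_zero, add_zero]
    · rw [image_eq_zero_of_notMem_tsupport hx, mul_zero, mul_zero]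
  rw [e1, e2]
  exact h

/-- a.e. bounded on compact subsets of `Ω` (no measurability) -/
def Bl (Ω : Set E) (f : E → ℝ) : Prop := ∀ C, IsCompact C → C ⊆ Ω → ∃ M : ℝ, ∀ᵐ x, x ∈ C → |f x| ≤ M

theorem Bl.of_continuousOn (hf : ContinuousOn f Ω) : Bl Ω f := by
  intro C hC hs
  obtain ⟨M, hM⟩ := hC.exists_bound_of_continuousOn (hf.mono hs)
  exact ⟨M, Eventually.of_forall fun x hx => hM x hx⟩

theorem H1loc.mul (hΩ : IsOpen Ω) (hf : H1loc Ω f G) (hg : H1loc Ω g K) (bf : Bl Ω f) (bg : Bl Ω g) :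
    H1loc Ω (fun x => f x * g x) fun x => f x • K x + g x • G x := by
  intro φ hφ
  obtain ⟨g', K', U, h1, -, h3, -, h5, h6⟩ := hg.exists_h1 hΩ hφ.cpt hφ.sub
  obtain ⟨M1, -, hM1⟩ := s6b_bdd h1 bg h6
  obtain ⟨M2, hM2⟩ := bf _ hφ.cpt hφ.sub
  obtain ⟨M3, hM3⟩ := hφ.sm.continuous.bounded_above_of_compact_support hφ.cpt
  have hM30 : 0 ≤ M3 := (norm_nonneg _).trans (hM3 0)
  have b1 : ∀ᵐ x, |φ x * f x| ≤ max (M3 * max M2 0) M1 := by
    filter_upwards [hM2] with x a1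
    refine le_trans ?_ (le_max_left _ _)
    by_cases hx : x ∈ tsupport φ
    · rw [abs_mul]
      exact mul_le_mul (hM3 x) ((a1 hx).trans (le_max_left _ _)) (abs_nonneg _) hM30
    · rw [image_eq_zero_of_notMem_tsupport hx, zero_mul, abs_zero]
      exact mul_nonneg hM30 (le_max_right _ _)
  have b2 : ∀ᵐ x, |g' x| ≤ max (M3 * max M2 0) M1 := by
    filter_upwards [hM1] with x a1 using a1.trans (le_max_right _ _)
  refine ((hf φ hφ).mul_bdd h1.h1 b1 b2).congr (Eventually.of_forall fun x => ?_)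
    (Eventually.of_forall fun x => ?_)
  · by_cases hx : x ∈ U
    · simp only [(h5 x hx).1]
      ring
    · simp [image_eq_zero_of_notMem_tsupport (f := φ) fun h => hx (h3 h)]
  · by_cases hx : x ∈ U
    · simp only [(h5 x hx).1, (h5 x hx).2]
      module
    · simp [image_eq_zero_of_notMem_tsupport (f := φ) fun h => hx (h3 h),
        s1a_grad_zero (f := φ) fun h => hx (h3 h)]

theorem TH.mul_loc (hΩ : IsOpen Ω) (hf : TH Ω f G) (hg : H1loc Ω g K) (bf : Bl Ω f) (bg : Bl Ω g) :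
    TH Ω (fun x => f x * g x) fun x => f x • K x + g x • G x := by
  obtain ⟨M2, -, hM2⟩ := s6b_bdd hf bf fun _ => le_rfl
  obtain ⟨C, c1, c2, c3⟩ := hf.cpt
  obtain ⟨g', K', U, h1, -, h3, -, h5, h6⟩ := hg.exists_h1 hΩ c1 c2
  obtain ⟨M1, -, hM1⟩ := s6b_bdd h1 bg h6
  have b1 : ∀ᵐ x, |f x| ≤ max M1 M2 := by
    filter_upwards [hM2] with x a1 using a1.trans (le_max_right _ _)
  have b2 : ∀ᵐ x, |g' x| ≤ max M1 M2 := by
    filter_upwards [hM1] with x a1 using a1.trans (le_max_left _ _)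
  refine ⟨(hf.h1.mul_bdd h1.h1 b1 b2).congr ?_ ?_, C, c1, c2, ?_⟩
  · filter_upwards [c3] with x a1
    by_cases hx : x ∈ C
    · rw [(h5 x (h3 hx)).1]
    · rw [(a1 hx).1, zero_mul, zero_mul]
  · filter_upwards [c3] with x a1
    by_cases hx : x ∈ C
    · rw [(h5 x (h3 hx)).1, (h5 x (h3 hx)).2]
    · simp [(a1 hx).1, (a1 hx).2]
  · filter_upwards [c3] with x a1 hx
    simp [(a1 hx).1, (a1 hx).2]

end Crest.Agent.R335
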