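import Crest.Agent.R335.S7b

/-!
# R335/S7: the axis is removable; odd functions; half spaces (all in `ℝ³`)
-/

set_option autoImplicit false

namespace Crest.Agent.R335

open MeasureTheory Set Filter Topology
open scoped Gradient RealInnerProductSpace ENNReal ContDiff
open Crest.MathPhysics.ThreeBody

variable {f : E3 → ℝ} {G : E3 → E3}

theorem s7_grad_c1 {φ : E3 → ℝ} (hφ : ContDiff ℝ 2 φ) : ContDiff ℝ 1 (∇ φ) :=
  (InnerProductSpace.toDual ℝ E3).symm.toContinuousLinearEquiv.contDiff.comp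
    (hφ.fderiv_right (m := 1) (by norm_num))

theorem s7_grad_cpt {φ : E3 → ℝ} (hc : HasCompactSupport φ) : HasCompactSupport (∇ φ) :=
  (hc.fderiv ℝ).comp_left (g := fun L => (InnerProductSpace.toDual ℝ E3).symm L) (map_zero _)

theorem s7_inner_grad (g : E3 → ℝ) (x a : E3) : ⟪∇ g x, a⟫ = fderiv ℝ g x a := by
  rw [gradient, InnerProductSpace.toDual_symm_apply]

theorem s7_lap_congr {a b : E3 → ℝ} {x : E3} (h : a =ᶠ[𝓝 x] b) : lap a x = lap b x := by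
  have h1 : ∇ a =ᶠ[𝓝 x] ∇ b := h.eventuallyEq_nhds.mono fun y hy => hy.gradient_eq
  simp only [lap, Crest.Agent.R83.lap, Crest.Agent.R83.dvg, h1.fderiv_eq]

theorem s7_lap_zero (x : E3) : lap (fun _ => (0 : ℝ)) x = 0 := by
  have h1 : ∇ (fun _ : E3 => (0 : ℝ)) = fun _ => 0 := by
    funext y
    simp [gradient]
  simp [lap, Crest.Agent.R83.lap, Crest.Agent.R83.dvg, h1]

theorem s7_grad_zero (x : E3) : ∇ (fun _ : E3 => (0 : ℝ)) x = 0 := by
  simp [gradient]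

/-- Green's formula against a `C²` function with compact support (`R83.Newt.newt_lap`, `H1.ibp`) -/
theorem H1.green (hf : H1 f G) {φ : E3 → ℝ} (hφ : ContDiff ℝ 2 φ) (hc : HasCompactSupport φ) :
    ∫ x, ⟪G x, ∇ φ x⟫ = -∫ x, f x * lap φ x := by
  have h1 := s7_grad_c1 hφ
  have h2 := s7_grad_cpt hc
  let g : Fin 3 → E3 → ℝ := fun i x => ∇ φ x i
  have hg1 : ∀ i, ContDiff ℝ 1 (g i) := fun i =>
    (EuclideanSpace.proj i : E3 →L[ℝ] ℝ).contDiff.comp h1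
  have hg2 : ∀ i, HasCompactSupport (g i) := fun i =>
    h2.comp_left (g := fun v : E3 => v i) rfl
  have hg : ∀ i, H1 (g i) (∇ (g i)) := fun i => H1.of_c1_cpt (hg1 i) (hg2 i)
  have hd : ∀ i x, ⟪∇ (g i) x, Crest.Agent.R83.e i⟫ = fderiv ℝ (∇ φ) x (Crest.Agent.R83.e i) i := by
    intro i x
    rw [s7_inner_grad]
    have := ((EuclideanSpace.proj i : E3 →L[ℝ] ℝ).hasFDerivAt.comp x
      (h1.differentiable (by norm_num) x).hasFDerivAt).fderiv
    have h3 : g i = (EuclideanSpace.proj i : E3 →L[ℝ] ℝ) ∘ ∇ φ := rfl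
    rw [h3, this]
    rfl
  have hi1 : ∀ i, Integrable fun x => f x * ⟪∇ (g i) x, Crest.Agent.R83.e i⟫ := fun i =>
    hf.mf.integrable_mul ((hg i).mG.inner_const (𝕜 := ℝ) (Crest.Agent.R83.e i))
  have hi2 : ∀ i, Integrable fun x => ⟪G x, Crest.Agent.R83.e i⟫ * g i x := fun i =>
    (hf.mG.inner_const (𝕜 := ℝ) (Crest.Agent.R83.e i)).integrable_mul (hg i).mf
  have e1 : ∀ x, ⟪G x, ∇ φ x⟫ = ∑ i, ⟪G x, Crest.Agent.R83.e i⟫ * g i x := by
    intro x
    rw [PiLp.inner_apply]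
    refine Finset.sum_congr rfl fun i _ => ?_
    rw [EuclideanSpace.inner_single_right]
    simp [g, mul_comm]
  have e2 : ∀ x, f x * lap φ x = ∑ i, f x * ⟪∇ (g i) x, Crest.Agent.R83.e i⟫ := by
    intro x
    simp only [hd, lap, Crest.Agent.R83.lap, Crest.Agent.R83.dvg, Finset.mul_sum]
  simp only [e1, e2]
  rw [integral_finsetSum _ fun i _ => hi1 i, integral_finsetSum _ fun i _ => hi2 i, ← Finset.sum_neg_distrib]
  refine Finset.sum_congr rfl fun i _ => ?_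
  rw [hf.ibp (hg i), neg_neg]

theorem s7_cut {Ω : Set E3} (hΩ : IsOpen Ω) {χ B : E3 → ℝ} (hχ : Tst Ω χ) (hB : ContDiffOn ℝ 2 B Ω) :
    ContDiff ℝ 2 fun x => χ x * B x := by
  refine contDiff_iff_contDiffAt.2 fun x => ?_
  by_cases hx : x ∈ Ω
  · exact (hχ.sm.of_le (by norm_cast)).contDiffAt.mul (hB.contDiffAt (hΩ.mem_nhds hx))
  · have h0 : χ =ᶠ[𝓝 x] 0 := notMem_tsupport_iff_eventuallyEq.1 fun h => hx (hχ.sub h)
    refine (contDiffAt_const (c := (0 : ℝ))).congr_of_eventuallyEq ?_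
    filter_upwards [h0] with y hy
    simp [hy]

/-- Green's formula against a function which is `C²` on `Ω` -/
theorem TH.green {Ω : Set E3} (hΩ : IsOpen Ω) (hf : TH Ω f G) {B : E3 → ℝ} (hB : ContDiffOn ℝ 2 B Ω) :
    ∫ x, ⟪∇ B x, G x⟫ = -∫ x, lap B x * f x := by
  obtain ⟨C, hC, hCΩ, h0⟩ := hf.cpt
  obtain ⟨χ, hχ, -, h1⟩ := exists_tst_one hΩ hC hCΩ
  have hloc : ∀ x ∈ C, (fun y => χ y * B y) =ᶠ[𝓝 x] B := by
    intro x hx
    filter_upwards [h1.filter_mono (nhds_le_nhdsSet hx)] with y hy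
    rw [hy, one_mul]
  have key := hf.h1.green (s7_cut hΩ hχ hB) (hχ.cpt.mul_right)
  have e1 : ∫ x, ⟪∇ B x, G x⟫ = ∫ x, ⟪G x, ∇ (fun y => χ y * B y) x⟫ := by
    refine integral_congr_ae ?_
    filter_upwards [h0] with x hx
    by_cases hxC : x ∈ C
    · rw [(hloc x hxC).gradient_eq, real_inner_comm]
    · simp [(hx hxC).2]
  have e2 : ∫ x, lap B x * f x = ∫ x, f x * lap (fun y => χ y * B y) x := by
    refine integral_congr_ae ?_
    filter_upwards [h0] with x hx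
    by_cases hxC : x ∈ C
    · rw [s7_lap_congr (hloc x hxC), mul_comm]
    · simp [(hx hxC).1]
  rw [e1, e2, key]

theorem H1loc.green {Ω : Set E3} (hΩ : IsOpen Ω) (hf : H1loc Ω f G) {φ : E3 → ℝ} (hφ : ContDiff ℝ 2 φ)
    (hc : HasCompactSupport φ) (hs : tsupport φ ⊆ Ω) : ∫ x, ⟪G x, ∇ φ x⟫ = -∫ x, f x * lap φ x := by
  obtain ⟨χ, hχ, -, h1⟩ := exists_tst_one hΩ hc hs
  have key := (hf χ hχ).green hφ hc
  have hin : ∀ x ∈ tsupport φ, χ x = 1 ∧ ∇ χ x = 0 := by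
    intro x hx
    have h2 : χ =ᶠ[𝓝 x] fun _ => 1 := h1.filter_mono (nhds_le_nhdsSet hx)
    refine ⟨h2.eq_of_nhds, ?_⟩
    rw [h2.gradient_eq]
    simp [gradient]
  have hout : ∀ x ∉ tsupport φ, ∇ φ x = 0 ∧ lap φ x = 0 := by
    intro x hx
    have h2 : φ =ᶠ[𝓝 x] fun _ => 0 := notMem_tsupport_iff_eventuallyEq.1 hx
    exact ⟨by rw [h2.gradient_eq, s7_grad_zero], by rw [s7_lap_congr h2, s7_lap_zero]⟩
  have e1 : ∀ x, ⟪G x, ∇ φ x⟫ = ⟪χ x • G x + f x • ∇ χ x, ∇ φ x⟫ := by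
    intro x
    by_cases hx : x ∈ tsupport φ
    · simp [(hin x hx).1, (hin x hx).2]
    · simp [(hout x hx).1]
  have e2 : ∀ x, f x * lap φ x = χ x * f x * lap φ x := by
    intro x
    by_cases hx : x ∈ tsupport φ
    · simp [(hin x hx).1]
    · simp [(hout x hx).2]
  rw [integral_congr_ae (Eventually.of_forall e1), integral_congr_ae (Eventually.of_forall e2), key]

end Crest.Agent.R335
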