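import Crest.Agent.R335.S7a

/-!
# R335/S7: the axis is removable; odd functions; half spaces (all in `ℝ³`)
-/

set_option autoImplicit false

namespace Crest.Agent.R335

open MeasureTheory Set Filter Topology
open scoped Gradient RealInnerProductSpace ENNReal ContDiff
open Crest.MathPhysics.ThreeBody

variable {f : E3 → ℝ} {G : E3 → E3}

/-- continuity of translations in `L²` -/
theorem s7b_transl {F : Type} [NormedAddCommGroup F] {u : ℕ → E3 → F} {v : E3 → F}
    (hu : ∀ n, MemLp (u n) 2 volume) (hv : MemLp v 2 volume)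
    (h : Tendsto (fun n => eLpNorm (fun x => u n x - v x) 2 volume) atTop (𝓝 0))
    {a : ℕ → E3} (ha : Tendsto a atTop (𝓝 0)) :
    Tendsto (fun n => eLpNorm (fun x => u n (x + a n) - v x) 2 volume) atTop (𝓝 0) := by
  have h1 : Tendsto (fun n => (hu n).toLp (u n)) atTop (𝓝 (hv.toLp v)) :=
    (Lp.tendsto_Lp_iff_tendsto_eLpNorm'' u hu v hv).2 h
  let T : C(E3, C(E3, E3)) := (ContinuousMap.mk (fun p : E3 × E3 => p.2 + p.1) (by fun_prop)).curry
  have hT : ∀ b x, T b x = x + b := fun b x => rfl
  have hmp : ∀ b, MeasurePreserving (T b) (volume : Measure E3) volume := fun b =>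
    measurePreserving_add_right volume b
  have h2 : Tendsto (fun n => T (a n)) atTop (𝓝 (T 0)) := (T.continuous.tendsto 0).comp ha
  have h3 := Filter.Tendsto.compMeasurePreservingLp h1 h2 (fun n => hmp (a n)) (hmp 0) (by simp)
  simp only [Lp.toLp_compMeasurePreserving] at h3
  have h4 := (Lp.tendsto_Lp_iff_tendsto_eLpNorm'' _ _ _ _).1 h3
  refine h4.congr fun n => ?_
  congr 1
  funext x
  simp [hT]

/-- a function which vanishes on a half space is a limit of functions with compact support in the other open half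
space: translate by `ε e_i` (continuity of translations in `L²`) and cut off -/
theorem H1.half_dense (hf : H1 f G) (i : Fin 3) (h0 : ∀ᵐ x, x i ≤ 0 → f x = 0) :
    ∃ (φ : ℕ → E3 → ℝ) (K : ℕ → E3 → E3), (∀ n, TH {x : E3 | 0 < x i} (φ n) (K n)) ∧
      Tendsto (fun n => eLpNorm (fun x => φ n x - f x) 2 volume) atTop (𝓝 0) ∧
      Tendsto (fun n => eLpNorm (fun x => K n x - G x) 2 volume) atTop (𝓝 0) ∧
      ((∀ᵐ x, 0 ≤ f x) → ∀ n, ∀ᵐ x, 0 ≤ φ n x) := by
  obtain ⟨M, hM0, hM⟩ := exists_cut (E := E3)
  have hs : ∀ n : ℕ, (0 : ℝ) < (n : ℝ) + 1 := fun n => by positivity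
  choose χ hχ h01 hone hgrad using fun n : ℕ => hM 0 ((n : ℝ) + 1) (hs n)
  have hχ1 : ∀ n, ContDiff ℝ 1 (χ n) := fun n => (hχ n).sm.of_le (by exact_mod_cast le_top)
  have hH : ∀ n, H1 (fun x => χ n x * f x) fun x => χ n x • G x + f x • ∇ (χ n) x := fun n =>
    hf.mul_c1_cpt (hχ1 n) (hχ n).cpt
  have hev : ∀ x : E3, ∀ᶠ n : ℕ in atTop, χ n x = 1 := by
    intro x
    obtain ⟨N, hN⟩ := exists_nat_gt ‖x‖
    filter_upwards [eventually_ge_atTop N] with n hn
    refine hone n x ?_
    have : (N : ℝ) ≤ n := by exact_mod_cast hn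
    rw [mem_ball_zero_iff]
    linarith
  have hg0 : ∀ x : E3, Tendsto (fun n : ℕ => ∇ (χ n) x) atTop (𝓝 0) := by
    intro x
    refine squeeze_zero_norm (fun n => hgrad n x) ?_
    exact tendsto_const_nhds.div_atTop (tendsto_natCast_atTop_atTop.atTop_add tendsto_const_nhds)
  have t1 := (tendsto_eLpNorm_of_dominated (φ := fun n x => χ n x * f x) (f := f) (b := fun x => ‖f x‖)
    (fun n => (hH n).mf.1) hf.mf.norm (fun n => .of_forall fun x => by
      rw [norm_mul]
      refine mul_le_of_le_one_left (norm_nonneg _) ?_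
      rw [Real.norm_of_nonneg (h01 n x).1]
      exact (h01 n x).2) (.of_forall fun x => by
      refine tendsto_const_nhds.congr' ?_
      filter_upwards [hev x] with n hn
      rw [hn, one_mul])).2
  have t2 := (tendsto_eLpNorm_of_dominated (φ := fun n x => χ n x • G x + f x • ∇ (χ n) x) (f := G)
    (b := fun x => ‖G x‖ + M * ‖f x‖)
    (fun n => (hH n).mG.1) (hf.mG.norm.add (hf.mf.norm.const_mul M)) (fun n => .of_forall fun x => by
      refine (norm_add_le _ _).trans (add_le_add ?_ ?_)
      · rw [norm_smul]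
        refine mul_le_of_le_one_left (norm_nonneg _) ?_
        rw [Real.norm_of_nonneg (h01 n x).1]
        exact (h01 n x).2
      · rw [norm_smul, mul_comm]
        refine mul_le_mul_of_nonneg_right ((hgrad n x).trans ?_) (norm_nonneg _)
        exact div_le_self hM0 (by have : (0 : ℝ) ≤ n := n.cast_nonneg; linarith)) (.of_forall fun x => by
      have e1 : Tendsto (fun n => χ n x • G x) atTop (𝓝 (G x)) := by
        refine tendsto_const_nhds.congr' ?_
        filter_upwards [hev x] with n hn
        rw [hn, one_smul]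
      have e2 := e1.add ((hg0 x).const_smul (f x))
      simpa using e2)).2
  let a : ℕ → E3 := fun n => EuclideanSpace.single i (-(1 / ((n : ℝ) + 1)))
  have ha : Tendsto a atTop (𝓝 0) := by
    refine squeeze_zero_norm (a := fun n : ℕ => 1 / ((n : ℝ) + 1)) (fun n => ?_)
      tendsto_one_div_add_atTop_nhds_zero_nat
    simp only [a, EuclideanSpace.norm_single, norm_neg]
    rw [Real.norm_of_nonneg (by positivity)]
  have hq : ∀ n, Measure.QuasiMeasurePreserving (fun x : E3 => x + a n) volume volume := fun n =>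
    (measurePreserving_add_right volume (a n)).quasiMeasurePreserving
  refine ⟨fun n x => χ n (x + a n) * f (x + a n),
    fun n x => χ n (x + a n) • G (x + a n) + f (x + a n) • ∇ (χ n) (x + a n), fun n => ?_,
    s7b_transl (fun n => (hH n).mf) hf.mf t1 ha, s7b_transl (fun n => (hH n).mG) hf.mG t2 ha, ?_⟩
  · refine TH.of_h1 (C := Metric.closedBall (-a n) (2 * ((n : ℝ) + 1)) ∩ {x : E3 | 1 / ((n : ℝ) + 1) ≤ x i})
      ((hH n).comp_add (a n)) ?_ ?_ ?_
    · refine (isCompact_closedBall _ _).inter_right ?_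
      exact isClosed_le continuous_const (by fun_prop)
    · intro x hx
      have h1 : 1 / ((n : ℝ) + 1) ≤ x i := hx.2
      exact lt_of_lt_of_le (by positivity) h1
    · filter_upwards [(hq n).ae h0] with x hx hC
      by_cases h1 : 1 / ((n : ℝ) + 1) ≤ x i
      · have h2 : x + a n ∉ tsupport (χ n) := by
          intro h3
          have h4 := (hχ n).sub h3
          refine hC ⟨?_, h1⟩
          rw [mem_closedBall_zero_iff] at h4
          rw [Metric.mem_closedBall, dist_eq_norm, sub_neg_eq_add]
          exact h4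
        rw [image_eq_zero_of_notMem_tsupport h2, zero_mul]
      · rw [hx ?_, mul_zero]
        have : (x + a n) i = x i - 1 / ((n : ℝ) + 1) := by
          simp [a, sub_eq_add_neg]
        rw [this]
        linarith [not_le.1 h1]
  · intro hpos n
    filter_upwards [(hq n).ae hpos] with x hx
    exact mul_nonneg (h01 n _).1 hx

end Crest.Agent.R335
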