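import Crest.Agent.R335.S5
import Crest.Agent.R335.Geo

/-!
# R335/S8: Sobolev and Hardy inequalities, form bounded potentials
-/

set_option autoImplicit false

namespace Crest.Agent.R335

open MeasureTheory Set Filter Topology
open scoped Gradient RealInnerProductSpace ENNReal ContDiff
open Crest.MathPhysics.ThreeBody

theorem s8a_sq {F : Type} [NormedAddCommGroup F] {G : E3 → F} (hG : MemLp G 2 volume) :
    (eLpNorm G 2 volume).toReal ^ 2 = ∫ x, ‖G x‖ ^ 2 := by
  rw [hG.eLpNorm_eq_integral_rpow_norm (by norm_num) (by norm_num)]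
  have h0 : 0 ≤ ∫ x, ‖G x‖ ^ 2 := integral_nonneg fun _ => by positivity
  simp only [ENNReal.toReal_ofNat, Real.rpow_ofNat]
  rw [ENNReal.toReal_ofReal (by positivity), ← Real.rpow_natCast, ← Real.rpow_mul h0]
  norm_num

theorem s8a_sob : ∃ C : NNReal, ∀ (f : E3 → ℝ) (G : E3 → E3), H1 f G →
    eLpNorm f 6 volume ≤ C * eLpNorm G 2 volume := by
  obtain ⟨C, hC⟩ : ∃ C : NNReal, C = eLpNormLESNormFDerivOfEqInnerConst (volume : Measure E3) 2 := ⟨_, rfl⟩
  refine ⟨C, fun f G h => ?_⟩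
  have key : ∀ φ : E3 → ℝ, Tst univ φ → eLpNorm φ 6 volume ≤ C * eLpNorm (∇ φ) 2 volume := by
    intro φ hφ
    have h1 := eLpNorm_le_eLpNorm_fderiv_of_eq_inner (volume : Measure E3) (hφ.sm.of_le (by simp)) hφ.cpt
      (p := 2) (p' := 6) (by norm_num) (by simp) (by simp; norm_num)
    have h2 : eLpNorm (fderiv ℝ φ) 2 volume = eLpNorm (∇ φ) 2 volume :=
      eLpNorm_congr_norm_ae (Eventually.of_forall fun x => by rw [gradient, LinearIsometryEquiv.norm_map])
    rw [← h2, hC]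
    simpa using h1
  obtain ⟨φ, a1, a2, -⟩ := h.dense
  have hlim : Tendsto (fun n => (C : ℝ≥0∞) * (eLpNorm (fun x => ∇ (φ n) x - G x) 2 volume + eLpNorm G 2 volume))
      atTop (𝓝 (C * (0 + eLpNorm G 2 volume))) :=
    ENNReal.Tendsto.const_mul (a2.l2G.add tendsto_const_nhds) (Or.inr (by simp))
  rw [zero_add] at hlim
  refine (Lp.eLpNorm_lim_le_liminf_eLpNorm (fun n => (a1 n).h1.mf.1) f a2.ae).trans ?_
  rw [← hlim.liminf_eq]
  refine liminf_le_liminf (Eventually.of_forall fun n => (key _ (a1 n)).trans ?_)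
  gcongr
  have e : ∇ (φ n) = (fun x => ∇ (φ n) x - G x) + G := by
    funext x
    simp
  conv_lhs => rw [e]
  exact eLpNorm_add_le ((a1 n).h1.mG.sub h.mG).1 h.mG.1 (by norm_num)

theorem s8a_tr1 : ENNReal.HolderTriple 6 6 3 := by
  constructor
  have h : (6 : ℝ≥0∞) = 2 * 3 := by norm_num
  rw [h, ENNReal.mul_inv (by simp) (by simp), ← add_mul, ENNReal.inv_two_add_inv_two, one_mul]

theorem s8a_tr2 : ENNReal.HolderTriple (3 / 2) 3 1 := by
  constructor
  rw [ENNReal.inv_div (by simp) (by simp), ← one_div, ENNReal.div_add_div_same, inv_one]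
  have h : (2 : ℝ≥0∞) + 1 = 3 := by norm_num
  rw [h, ENNReal.div_self (by simp) (by simp)]

/-- a function which vanishes where a `L^p` function is small -/
theorem s8a_top {v : E3 → ℝ} (h : MemLp v ⊤ volume) : ∃ M : ℝ, 0 ≤ M ∧ ∀ᵐ x, |v x| ≤ M := by
  refine ⟨(eLpNorm v ⊤ volume).toReal, ENNReal.toReal_nonneg, ?_⟩
  filter_upwards [ae_le_eLpNormEssSup (f := v) (μ := volume)] with x hx
  rw [← eLpNorm_exponent_top] at hx
  have := ENNReal.toReal_mono h.2.ne hx
  simpa using this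

/-- `eLpNorm_le_eLpNorm_fderiv_of_eq_inner` for test functions (see `R83.H0a.exists_sobolev`), density, Fatou -/
theorem exists_sobolev : ∃ C : ℝ, 0 ≤ C ∧ ∀ (f : E3 → ℝ) (G : E3 → E3), H1 f G →
    MemLp f 6 volume ∧ (eLpNorm f 6 volume).toReal ^ 2 ≤ C * ∫ x, ‖G x‖ ^ 2 := by
  obtain ⟨C, hC⟩ := s8a_sob
  refine ⟨(C : ℝ) ^ 2, by positivity, fun f G h => ?_⟩
  have h1 := hC f G h
  have hfin : (C : ℝ≥0∞) * eLpNorm G 2 volume ≠ ⊤ := ENNReal.mul_ne_top (by simp) h.mG.2.ne
  refine ⟨⟨h.mf.1, h1.trans_lt hfin.lt_top⟩, ?_⟩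
  have h2 := ENNReal.toReal_mono hfin h1
  rw [ENNReal.toReal_mul, ENNReal.coe_toReal] at h2
  rw [← s8a_sq h.mG, ← mul_pow]
  exact pow_le_pow_left₀ ENNReal.toReal_nonneg h2 2

/-- Hölder and Sobolev -/
theorem exists_sob32 : ∃ C : ℝ, 0 ≤ C ∧ ∀ (V f : E3 → ℝ) (G : E3 → E3), MemLp V (3 / 2) volume → H1 f G →
    Integrable (fun x => V x * f x ^ 2) ∧
      ∫ x, |V x| * f x ^ 2 ≤ C * (eLpNorm V (3 / 2) volume).toReal * ∫ x, ‖G x‖ ^ 2 := by
  obtain ⟨C, hC0, hC⟩ := exists_sobolev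
  refine ⟨C, hC0, fun V f G hV h => ?_⟩
  obtain ⟨h6, hle⟩ := hC f G h
  have := s8a_tr1
  have := s8a_tr2
  have e3 : (fun x => f x ^ 2) = f • f := by
    funext x
    simp [sq]
  have e1 : (fun x => V x * f x ^ 2) = V • (f • f) := by
    funext x
    simp [sq]
  have h3 : MemLp (fun x => f x ^ 2) 3 volume := by
    rw [e3]
    exact h6.smul h6
  have h3' : eLpNorm (fun x => f x ^ 2) 3 volume ≤ eLpNorm f 6 volume * eLpNorm f 6 volume := by
    rw [e3]
    exact eLpNorm_smul_le_mul_eLpNorm h6.1 h6.1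
  have h1 : MemLp (fun x => V x * f x ^ 2) 1 volume := by
    rw [e1, ← e3]
    exact h3.smul hV
  have h1' : eLpNorm (fun x => V x * f x ^ 2) 1 volume ≤
      eLpNorm V (3 / 2) volume * eLpNorm (fun x => f x ^ 2) 3 volume := by
    rw [e1, ← e3]
    exact eLpNorm_smul_le_mul_eLpNorm h3.1 hV.1
  have hi := memLp_one_iff_integrable.1 h1
  refine ⟨hi, ?_⟩
  have e : ∫ x, |V x| * f x ^ 2 = (eLpNorm (fun x => V x * f x ^ 2) 1 volume).toReal := by
    rw [eLpNorm_one_eq_lintegral_enorm, ← integral_norm_eq_lintegral_enorm hi.1]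
    refine integral_congr_ae (Eventually.of_forall fun x => ?_)
    simp [abs_mul]
  have h4 := ENNReal.toReal_mono (ENNReal.mul_ne_top hV.2.ne (ENNReal.mul_ne_top h6.2.ne h6.2.ne))
    (h1'.trans (mul_le_mul_right h3' _))
  rw [ENNReal.toReal_mul, ENNReal.toReal_mul, ← sq] at h4
  rw [e]
  refine h4.trans ?_
  calc _ ≤ (eLpNorm V (3 / 2) volume).toReal * (C * ∫ x, ‖G x‖ ^ 2) :=
        mul_le_mul_of_nonneg_left hle ENNReal.toReal_nonneg
    _ = _ := by ring

/-- split `v₁ = v₁ 1_{|v₁| > N} + v₁ 1_{|v₁| ≤ N}` -/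
theorem FB.of_sumClass {v : E3 → ℝ} (h : IsSumClassPotential v) : FB v := by
  obtain ⟨v₁, v₂, rfl, h1, h2⟩ := h
  obtain ⟨C, hC0, hC⟩ := exists_sob32
  obtain ⟨M, hM0, hM⟩ := s8a_top h2
  have hint : ∀ (f : E3 → ℝ) (G : E3 → E3), H1 f G → Integrable fun x => (v₁ + v₂) x * f x ^ 2 := by
    intro f G hf
    have i2 : Integrable fun x => v₂ x * f x ^ 2 := hf.int_sq.bdd_mul (c := M) h2.1 hM
    refine ((hC v₁ f G h1 hf).1.add i2).congr (Eventually.of_forall fun x => ?_)
    simp [add_mul]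
  refine ⟨(h1.1.add h2.1), hint, fun ε hε => ?_⟩
  have hw : MemLp (h1.1.mk v₁) (3 / 2) volume := h1.ae_eq h1.1.ae_eq_mk
  have hws := h1.1.stronglyMeasurable_mk
  obtain ⟨N, hN0, hN⟩ := hw.eLpNorm_indicator_norm_ge_pos_le hws (ε := ε / (C + 1)) (by positivity)
  set w := h1.1.mk v₁ with hwdef
  set S : Set E3 := {x | N ≤ ‖w x‖₊} with hS
  have hSm : MeasurableSet S := measurableSet_le measurable_const hws.measurable.nnnorm.coe_nnreal_real
  have hwS : MemLp (S.indicator w) (3 / 2) volume := hw.indicator hSm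
  refine ⟨N + M, by positivity, fun f G hf => ?_⟩
  obtain ⟨i1, l1⟩ := hC _ f G hwS hf
  have hG0 : 0 ≤ ∫ x, ‖G x‖ ^ 2 := integral_nonneg fun _ => by positivity
  have hN' : (eLpNorm (S.indicator w) (3 / 2) volume).toReal ≤ ε / (C + 1) :=
    ENNReal.toReal_le_of_le_ofReal (by positivity) hN
  have l2 : C * (eLpNorm (S.indicator w) (3 / 2) volume).toReal ≤ ε := by
    calc _ ≤ (C + 1) * (ε / (C + 1)) := mul_le_mul (by linarith) hN' ENNReal.toReal_nonneg (by positivity)
      _ = ε := by field_simp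
  have i1' : Integrable fun x => |S.indicator w x| * f x ^ 2 := by
    refine i1.norm.congr (Eventually.of_forall fun x => ?_)
    simp
  have i0 : Integrable fun x => |(v₁ + v₂) x| * f x ^ 2 := by
    refine (hint f G hf).norm.congr (Eventually.of_forall fun x => ?_)
    simp
  calc ∫ x, |(v₁ + v₂) x| * f x ^ 2 ≤ ∫ x, (|S.indicator w x| * f x ^ 2 + (N + M) * f x ^ 2) := by
        refine integral_mono_ae i0 (i1'.add (hf.int_sq.const_mul _)) ?_
        filter_upwards [hM, h1.1.ae_eq_mk] with x hx hx'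
        rw [← add_mul]
        refine mul_le_mul_of_nonneg_right ?_ (sq_nonneg _)
        have t := abs_add_le (v₁ x) (v₂ x)
        have t2 : |v₁ x| ≤ |S.indicator w x| + N := by
          rw [hx']
          by_cases hxS : x ∈ S
          · rw [indicator_of_mem hxS]
            linarith
          · have : ¬ N ≤ |w x| := hxS
            rw [indicator_of_notMem hxS, abs_zero]
            linarith
        rw [Pi.add_apply]
        linarith
    _ = (∫ x, |S.indicator w x| * f x ^ 2) + (N + M) * nsq f := by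
        rw [integral_add i1' (hf.int_sq.const_mul _), integral_const_mul, nsq]
    _ ≤ _ := by
        have := mul_le_mul_of_nonneg_right l2 hG0
        linarith

/-- `|v| ≤ M + w` with `w = (|v| - M)₊ ∈ L^(3/2)` -/
theorem sumClass_split {v : E3 → ℝ} (h : IsSumClassPotential v) :
    ∃ M : ℝ, 0 ≤ M ∧ MemLp (fun x => max (|v x| - M) 0) (3 / 2) volume := by
  obtain ⟨v₁, v₂, rfl, h1, h2⟩ := h
  obtain ⟨M, hM0, hM⟩ := s8a_top h2
  refine ⟨M, hM0, h1.of_le ?_ ?_⟩
  · exact (((h1.1.add h2.1).norm.sub aestronglyMeasurable_const).aemeasurable.max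
      aemeasurable_const).aestronglyMeasurable
  · filter_upwards [hM] with x hx
    have t := abs_add_le (v₁ x) (v₂ x)
    rw [Real.norm_of_nonneg (le_max_right _ _), Real.norm_eq_abs, Pi.add_apply]
    exact max_le (by linarith) (abs_nonneg _)

theorem sumClass_sub_const {v : E3 → ℝ} (h : IsSumClassPotential v) (c : ℝ) :
    IsSumClassPotential fun x => v x - c := by
  obtain ⟨v₁, v₂, rfl, h1, h2⟩ := h
  refine ⟨v₁, fun x => v₂ x - c, ?_, h1, h2.sub (memLp_top_const c)⟩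
  funext x
  simp only [Pi.add_apply]
  ring

end Crest.Agent.R335
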