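import Crest.Agent.R335.S8a

/-!
# R335/S8: Sobolev and Hardy inequalities, form bounded potentials
-/

set_option autoImplicit false

namespace Crest.Agent.R335

open MeasureTheory Set Filter Topology
open scoped Gradient RealInnerProductSpace ENNReal ContDiff
open Crest.MathPhysics.ThreeBody

theorem s8b_smul {f : E3 → ℝ} {p : ℝ≥0∞} (h : MemLp f p volume) {c : ℝ} (hc : c ≠ 0) :
    MemLp (fun x => f (c • x)) p volume := by
  have h1 : MemLp f p (Measure.map (fun x : E3 => c • x) volume) := by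
    rw [Measure.map_addHaar_smul volume hc]
    exact h.smul_measure ENNReal.ofReal_ne_top
  exact h1.comp_of_map (measurable_const_smul c).aemeasurable

theorem s8b_add {v w : E3 → ℝ} (hv : IsSumClassPotential v) (hw : IsSumClassPotential w) :
    IsSumClassPotential fun x => v x + w x := by
  obtain ⟨v1, v2, rfl, h1, h2⟩ := hv
  obtain ⟨w1, w2, rfl, h3, h4⟩ := hw
  refine ⟨v1 + w1, v2 + w2, funext fun x => ?_, h1.add h3, h2.add h4⟩
  simp only [Pi.add_apply]
  ring

theorem s8b_toReal : (3 / 2 : ℝ≥0∞).toReal = 3 / 2 := by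
  rw [ENNReal.toReal_div]
  norm_num

theorem s8b_ne_zero : (3 / 2 : ℝ≥0∞) ≠ 0 := by simp

theorem s8b_ne_top : (3 / 2 : ℝ≥0∞) ≠ ⊤ := ENNReal.div_ne_top (by simp) (by simp)

theorem s8b_one_le : (1 : ℝ≥0∞) ≤ 3 / 2 := by
  rw [← ENNReal.toReal_le_toReal (by simp) s8b_ne_top, s8b_toReal]
  norm_num

theorem s8b_coulomb0 : IsSumClassPotential fun x : E3 => 1 / ‖x‖ := by
  have hm : Measurable fun x : E3 => 1 / ‖x‖ := measurable_const.div measurable_norm
  refine ⟨(Metric.ball 0 1).indicator fun x : E3 => 1 / ‖x‖, (Metric.ball 0 1)ᶜ.indicator fun x : E3 => 1 / ‖x‖,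
    (indicator_self_add_compl _ _).symm, ?_, ?_⟩
  · rw [memLp_indicator_iff_restrict measurableSet_ball,
      ← integrable_norm_rpow_iff hm.aestronglyMeasurable s8b_ne_zero s8b_ne_top, s8b_toReal]
    refine integrableOn_ball_of_norm_le_rpow (C := 1) (α := 3 / 2) (by simp) (by simp only [finrank_euclideanSpace, Fintype.card_fin]; norm_num)
      (Eventually.of_forall fun x => ?_) (hm.norm.pow_const _).aestronglyMeasurable
    rw [Real.norm_of_nonneg (by positivity), Real.norm_of_nonneg (by positivity), one_mul, one_div,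
      Real.inv_rpow (norm_nonneg _), Real.rpow_neg (norm_nonneg _)]
  · refine memLp_top_of_bound (hm.indicator measurableSet_ball.compl).aestronglyMeasurable 1
      (Eventually.of_forall fun x => ?_)
    by_cases hx : x ∈ (Metric.ball (0 : E3) 1)ᶜ
    · rw [indicator_of_mem hx, Real.norm_of_nonneg (by positivity)]
      rw [mem_compl_iff, mem_ball_zero_iff, not_lt] at hx
      exact (div_le_one (by linarith)).2 hx
    · rw [indicator_of_notMem hx]
      simp

theorem s8b_young {s : ℝ} (hs : 0 < s) (t : ℝ) : |t| ≤ s * ‖t‖ ^ (3 / 2 : ℝ) + (s ^ 2)⁻¹ := by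
  rw [Real.norm_eq_abs]
  obtain ⟨y, hy0, hy⟩ : ∃ y : ℝ, 0 ≤ y ∧ |t| = y ^ 2 := ⟨√|t|, Real.sqrt_nonneg _, (Real.sq_sqrt (abs_nonneg t)).symm⟩
  have h3 : (y ^ 2) ^ (3 / 2 : ℝ) = y ^ 3 := by
    rw [← Real.rpow_natCast, ← Real.rpow_mul hy0, ← Real.rpow_natCast]
    norm_num
  rw [hy, h3]
  by_cases h : s * y ≤ 1
  · have h1 : y ^ 2 ≤ (s ^ 2)⁻¹ := by
      rw [← one_div, le_div_iff₀ (by positivity)]
      have : 0 ≤ s * y := by positivity
      nlinarith
    have : 0 ≤ s * y ^ 3 := by positivity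
    linarith
  · have h1 : y ^ 2 * 1 ≤ y ^ 2 * (s * y) := mul_le_mul_of_nonneg_left (not_le.1 h).le (sq_nonneg _)
    have : 0 ≤ (s ^ 2)⁻¹ := by positivity
    nlinarith

theorem sumClass_scale {v : E3 → ℝ} (h : IsSumClassPotential v) (a : ℝ) {c : ℝ} (hc : c ≠ 0) :
    IsSumClassPotential fun x => a * v (c • x) := by
  obtain ⟨v1, v2, rfl, h1, h2⟩ := h
  exact ⟨fun x => a * v1 (c • x), fun x => a * v2 (c • x), funext fun x => by simp only [Pi.add_apply, mul_add],
    (s8b_smul h1 hc).const_mul a, (s8b_smul h2 hc).const_mul a⟩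

theorem sumClass_coulomb (a : E3) : IsSumClassPotential fun x => 1 / ‖x - a‖ := by
  obtain ⟨v1, v2, h, h1, h2⟩ := s8b_coulomb0
  exact ⟨fun x => v1 (x - a), fun x => v2 (x - a), funext fun x => congrFun h (x - a),
    h1.comp_measurePreserving (measurePreserving_sub_right volume a),
    h2.comp_measurePreserving (measurePreserving_sub_right volume a)⟩

theorem sumClass_V1 (D : ℝ) : IsSumClassPotential (V1 D) := by
  have h := s8b_add (sumClass_scale (sumClass_coulomb (EuclideanSpace.single 2 D)) (-1) one_ne_zero)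
    (sumClass_scale (sumClass_coulomb (EuclideanSpace.single 2 (-D))) (-1) one_ne_zero)
  convert h using 1
  funext x
  simp only [V1, one_smul]
  ring

/-- integrals over balls are uniformly bounded -/
theorem sumClass_ball {v : E3 → ℝ} (h : IsSumClassPotential v) : ∃ C : ℝ, 0 ≤ C ∧ ∀ (a : E3) (s : ℝ), 0 < s →
    IntegrableOn v (Metric.ball a s) ∧ ∫ x in Metric.ball a s, |v x| ≤ C * (s + s ^ 3) := by
  obtain ⟨v1, v2, rfl, h1, h2⟩ := h
  have hI : Integrable (fun x => ‖v1 x‖ ^ (3 / 2 : ℝ)) := by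
    have := (integrable_norm_rpow_iff h1.1 s8b_ne_zero s8b_ne_top).2 h1
    rwa [s8b_toReal] at this
  obtain ⟨A, hA⟩ : ∃ A, A = ∫ x, ‖v1 x‖ ^ (3 / 2 : ℝ) := ⟨_, rfl⟩
  have hA0 : 0 ≤ A := hA ▸ integral_nonneg fun x => by positivity
  obtain ⟨M, hM0, hM⟩ : ∃ M : ℝ, 0 ≤ M ∧ ∀ᵐ x, |v2 x| ≤ M := by
    refine ⟨(eLpNormEssSup v2 volume).toReal, ENNReal.toReal_nonneg, ?_⟩
    have hlt : eLpNormEssSup v2 volume ≠ ⊤ := by
      have := h2.2
      rw [eLpNorm_exponent_top] at this
      exact this.ne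
    filter_upwards [ae_le_eLpNormEssSup (f := v2) (μ := volume)] with x hx
    have := ENNReal.toReal_mono hlt hx
    rwa [toReal_enorm, Real.norm_eq_abs] at this
  have hπ : 0 < Real.pi * 4 / 3 := by positivity
  refine ⟨A + Real.pi * 4 / 3 + M * (Real.pi * 4 / 3), by positivity, fun a s hs => ?_⟩
  have : IsFiniteMeasure (volume.restrict (Metric.ball a s)) := isFiniteMeasure_restrict.2 measure_ball_lt_top.ne
  have hint : IntegrableOn (v1 + v2) (Metric.ball a s) :=
    ((h1.restrict _).integrable s8b_one_le).add ((h2.restrict _).integrable le_top)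
  refine ⟨hint, ?_⟩
  have hvol : (volume : Measure E3).real (Metric.ball a s) = s ^ 3 * (Real.pi * 4 / 3) := by
    rw [Measure.real, EuclideanSpace.volume_ball_fin_three, ENNReal.toReal_mul, ENNReal.toReal_pow,
      ENNReal.toReal_ofReal hs.le, ENNReal.toReal_ofReal hπ.le]
  have h3 : ∫ x in Metric.ball a s, |(v1 + v2) x| ≤
      ∫ x in Metric.ball a s, (s * ‖v1 x‖ ^ (3 / 2 : ℝ) + ((s ^ 2)⁻¹ + M)) := by
    refine integral_mono_ae hint.abs ((hI.integrableOn.const_mul s).add (integrable_const _)) ?_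
    filter_upwards [ae_restrict_of_ae hM] with x hx
    have := s8b_young hs (v1 x)
    have := abs_add_le (v1 x) (v2 x)
    simp only [Pi.add_apply]
    linarith
  rw [integral_add (hI.integrableOn.const_mul s) (integrable_const _), integral_const_mul, integral_const,
    measureReal_restrict_apply_univ, hvol, smul_eq_mul] at h3
  have h4 : ∫ x in Metric.ball a s, ‖v1 x‖ ^ (3 / 2 : ℝ) ≤ A :=
    hA ▸ setIntegral_le_integral hI (Eventually.of_forall fun x => by positivity)
  have h5 : s ^ 3 * (Real.pi * 4 / 3) * ((s ^ 2)⁻¹ + M) =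
      s * (Real.pi * 4 / 3) + s ^ 3 * (M * (Real.pi * 4 / 3)) := by
    field_simp
  have h6 := mul_le_mul_of_nonneg_left h4 hs.le
  have h7 : 0 ≤ s ^ 3 * (A + Real.pi * 4 / 3) := by positivity
  have h8 : 0 ≤ s * (M * (Real.pi * 4 / 3)) := by positivity
  rw [h5] at h3
  nlinarith

end Crest.Agent.R335
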