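import Crest.Agent.R335.S6
import Crest.Agent.R335.Geo

/-!
# R335/S9: Poincaré inequalities
-/

set_option autoImplicit false
set_option linter.unusedSectionVars false

namespace Crest.Agent.R335

open MeasureTheory Set Filter Topology
open scoped Gradient RealInnerProductSpace ENNReal ContDiff
open Crest.MathPhysics.ThreeBody

variable {E : Type} [NormedAddCommGroup E] [InnerProductSpace ℝ E] [FiniteDimensional ℝ E]
  [MeasurableSpace E] [BorelSpace E]

/-- Cauchy-Schwarz on the unit interval -/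
theorem s9a_sq_integral {g : ℝ → ℝ} (hg : Continuous g) :
    (∫ t in (0 : ℝ)..1, g t) ^ 2 ≤ ∫ t in (0 : ℝ)..1, g t ^ 2 := by
  set c := ∫ t in (0 : ℝ)..1, g t with hc
  have h0 : 0 ≤ ∫ t in (0 : ℝ)..1, (g t - c) ^ 2 :=
    intervalIntegral.integral_nonneg zero_le_one fun t _ => sq_nonneg _
  have h1 : (fun t => (g t - c) ^ 2) = fun t => (g t ^ 2 - 2 * c * g t) + c ^ 2 := by
    funext t
    ring
  rw [h1, intervalIntegral.integral_add (by apply Continuous.intervalIntegrable; fun_prop)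
    (by apply Continuous.intervalIntegrable; fun_prop),
    intervalIntegral.integral_sub (by apply Continuous.intervalIntegrable; fun_prop)
    (by apply Continuous.intervalIntegrable; fun_prop), intervalIntegral.integral_const_mul, ← hc] at h0
  simp only [intervalIntegral.integral_const, sub_zero, smul_eq_mul, one_mul] at h0
  nlinarith

theorem s9a_cont_grad {φ : E → ℝ} (hφ : ContDiff ℝ 1 φ) : Continuous (∇ φ) :=
  (InnerProductSpace.toDual ℝ E).symm.continuous.comp (hφ.continuous_fderiv one_ne_zero)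

/-- the fundamental theorem of calculus along a segment -/
theorem s9a_seg {φ : E → ℝ} (hφ : ContDiff ℝ 1 φ) (x y : E) :
    (φ x - φ y) ^ 2 ≤ ‖x - y‖ ^ 2 * ∫ t in (0 : ℝ)..1, ‖∇ φ (x + t • (y - x))‖ ^ 2 := by
  have hc := s9a_cont_grad hφ
  have hd : ∀ t : ℝ, HasDerivAt (fun t : ℝ => φ (x + t • (y - x))) ⟪∇ φ (x + t • (y - x)), y - x⟫ t := by
    intro t
    have h1 : HasDerivAt (fun t : ℝ => x + t • (y - x)) (y - x) t := by
      simpa using ((hasDerivAt_id' t).smul_const (y - x)).const_add x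
    have h2 := ((hφ.differentiable one_ne_zero) (x + t • (y - x))).hasGradientAt.hasFDerivAt
    have h3 := h2.comp_hasDerivAt t h1
    simpa [Function.comp_def] using h3
  have hcont : Continuous fun t : ℝ => ⟪∇ φ (x + t • (y - x)), y - x⟫ := by fun_prop
  have h1 := intervalIntegral.integral_eq_sub_of_hasDerivAt (a := 0) (b := 1) (fun t _ => hd t)
    (hcont.intervalIntegrable _ _)
  simp only [one_smul, add_sub_cancel, zero_smul, add_zero] at h1
  have h2 := s9a_sq_integral hcont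
  rw [h1] at h2
  have h3 : ∫ t in (0 : ℝ)..1, ⟪∇ φ (x + t • (y - x)), y - x⟫ ^ 2 ≤
      ∫ t in (0 : ℝ)..1, ‖x - y‖ ^ 2 * ‖∇ φ (x + t • (y - x))‖ ^ 2 := by
    refine intervalIntegral.integral_mono_on zero_le_one (by apply Continuous.intervalIntegrable; fun_prop)
      (by apply Continuous.intervalIntegrable; fun_prop) fun t _ => ?_
    have := abs_real_inner_le_norm (∇ φ (x + t • (y - x))) (y - x)
    rw [← sq_abs, ← mul_pow, norm_sub_rev x y, mul_comm]
    exact pow_le_pow_left₀ (abs_nonneg _) this 2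
  rw [intervalIntegral.integral_const_mul] at h3
  calc (φ x - φ y) ^ 2 = (φ y - φ x) ^ 2 := by ring
    _ ≤ _ := h2.trans h3

/-- substitution -/
theorem s9a_scale {U : Set E} (hUm : MeasurableSet U) {H : E → ℝ≥0∞} (hH : Measurable H) (a : E) {t : ℝ}
    (ht : 1 / 2 ≤ t) (hm : ∀ y ∈ U, a + t • y ∈ U) :
    ∫⁻ y in U, H (a + t • y) ≤ 2 ^ Module.finrank ℝ E * ∫⁻ z in U, H z := by
  have ht0 : 0 < t := by linarith
  have h1 : ∫⁻ y in U, H (a + t • y) ≤ ∫⁻ y, U.indicator H (a + t • y) := by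
    rw [← lintegral_indicator hUm]
    refine lintegral_mono fun y => ?_
    by_cases hy : y ∈ U
    · rw [indicator_of_mem hy, indicator_of_mem (hm y hy)]
    · rw [indicator_of_notMem hy]
      exact zero_le
  have hI : Measurable fun z => U.indicator H (a + z) := (hH.indicator hUm).comp (by fun_prop)
  have h2 : ∫⁻ y, U.indicator H (a + t • y) = ∫⁻ z, U.indicator H (a + z) ∂(Measure.map (t • ·) volume) := by
    rw [lintegral_map hI (by fun_prop)]
  rw [Measure.map_addHaar_smul volume ht0.ne', lintegral_smul_measure, lintegral_add_left_eq_self,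
    lintegral_indicator hUm] at h2
  refine h1.trans ?_
  rw [h2, smul_eq_mul]
  refine mul_le_mul_left ?_ _
  have h3 : |(t ^ Module.finrank ℝ E)⁻¹| ≤ (2 : ℝ) ^ Module.finrank ℝ E := by
    rw [abs_of_nonneg (by positivity), ← inv_pow]
    refine pow_le_pow_left₀ (by positivity) ?_ _
    rw [inv_le_comm₀ ht0 two_pos]
    linarith
  refine (ENNReal.ofReal_le_ofReal h3).trans ?_
  rw [ENNReal.ofReal_pow zero_le_two]
  simp

theorem s9a_slice {U : Set E} (hU : Convex ℝ U) (hUm : MeasurableSet U) {H : E → ℝ≥0∞} (hH : Measurable H)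
    {t : ℝ} (h0 : 0 ≤ t) (h1 : t ≤ 1) :
    ∫⁻ p : E × E, H (p.1 + t • (p.2 - p.1)) ∂((volume.restrict U).prod (volume.restrict U)) ≤
      2 ^ Module.finrank ℝ E * (∫⁻ z in U, H z) * volume U := by
  have hm : Measurable fun p : E × E => H (p.1 + t • (p.2 - p.1)) := hH.comp (by fun_prop)
  rcases le_total (1 / 2) t with ht | ht
  · rw [lintegral_prod _ hm.aemeasurable]
    calc _ ≤ ∫⁻ _ in U, 2 ^ Module.finrank ℝ E * (∫⁻ z in U, H z) := by
          refine setLIntegral_mono' hUm fun x hx => ?_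
          have e : ∀ y, x + t • (y - x) = (1 - t) • x + t • y := fun y => by module
          simp only [e]
          exact s9a_scale hUm hH _ ht fun y hy => hU hx hy (by linarith) h0 (by ring)
      _ = _ := by rw [setLIntegral_const]
  · rw [lintegral_prod_symm _ hm.aemeasurable]
    calc _ ≤ ∫⁻ _ in U, 2 ^ Module.finrank ℝ E * (∫⁻ z in U, H z) := by
          refine setLIntegral_mono' hUm fun y hy => ?_
          have e : ∀ x, x + t • (y - x) = t • y + (1 - t) • x := fun x => by module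
          simp only [e]
          exact s9a_scale hUm hH _ (by linarith) fun x hx => hU hy hx h0 (by linarith) (by ring)
      _ = _ := by rw [setLIntegral_const]

/-- the inequality for smooth functions -/
theorem s9a_smooth {U : Set E} (hU : Convex ℝ U) (hUm : MeasurableSet U) {D : ℝ}
    (hD : ∀ x ∈ U, ∀ y ∈ U, ‖x - y‖ ≤ D) {φ : E → ℝ} (hφ : ContDiff ℝ 1 φ) :
    ∫⁻ x in U, ∫⁻ y in U, ENNReal.ofReal ((φ x - φ y) ^ 2) ≤
      ENNReal.ofReal (D ^ 2) * (2 ^ Module.finrank ℝ E * volume U) *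
        ∫⁻ z in U, ENNReal.ofReal (‖∇ φ z‖ ^ 2) := by
  have hc := s9a_cont_grad hφ
  set H : E → ℝ≥0∞ := fun z => ENNReal.ofReal (‖∇ φ z‖ ^ 2) with hHdef
  have hH : Measurable H := (by fun_prop : Continuous fun z => ‖∇ φ z‖ ^ 2).measurable.ennreal_ofReal
  have hm : Measurable fun q : (E × E) × ℝ => H (q.1.1 + q.2 • (q.1.2 - q.1.1)) := hH.comp (by fun_prop)
  have hm' : Measurable fun p : E × E => ∫⁻ t in Ioc (0 : ℝ) 1, H (p.1 + t • (p.2 - p.1)) :=
    hm.lintegral_prod_right'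
  calc ∫⁻ x in U, ∫⁻ y in U, ENNReal.ofReal ((φ x - φ y) ^ 2)
      ≤ ∫⁻ x in U, ∫⁻ y in U, ENNReal.ofReal (D ^ 2) * ∫⁻ t in Ioc (0 : ℝ) 1, H (x + t • (y - x)) := by
        refine setLIntegral_mono' hUm fun x hx => setLIntegral_mono' hUm fun y hy => ?_
        have h1 := s9a_seg hφ x y
        have hcont : Continuous fun t : ℝ => ‖∇ φ (x + t • (y - x))‖ ^ 2 := by fun_prop
        have h2 : ENNReal.ofReal (∫ t in (0 : ℝ)..1, ‖∇ φ (x + t • (y - x))‖ ^ 2) =
            ∫⁻ t in Ioc (0 : ℝ) 1, H (x + t • (y - x)) := by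
          rw [intervalIntegral.integral_of_le zero_le_one]
          exact ofReal_integral_eq_lintegral_ofReal (hcont.intervalIntegrable 0 1).1
            (Eventually.of_forall fun t => sq_nonneg _)
        rw [← h2, ← ENNReal.ofReal_mul (sq_nonneg _)]
        refine ENNReal.ofReal_le_ofReal (h1.trans (mul_le_mul_of_nonneg_right ?_ ?_))
        · exact pow_le_pow_left₀ (norm_nonneg _) (hD x hx y hy) 2
        · exact intervalIntegral.integral_nonneg zero_le_one fun t _ => sq_nonneg _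
    _ = ∫⁻ p : E × E, ENNReal.ofReal (D ^ 2) * ∫⁻ t in Ioc (0 : ℝ) 1, H (p.1 + t • (p.2 - p.1))
          ∂volume ∂((volume.restrict U).prod (volume.restrict U)) := by
        rw [lintegral_prod _ (hm'.const_mul _).aemeasurable]
    _ = ENNReal.ofReal (D ^ 2) * ∫⁻ t in Ioc (0 : ℝ) 1, ∫⁻ p : E × E, H (p.1 + t • (p.2 - p.1))
          ∂((volume.restrict U).prod (volume.restrict U)) := by
        rw [lintegral_const_mul _ hm', lintegral_lintegral_swap hm.aemeasurable]
    _ ≤ ENNReal.ofReal (D ^ 2) * ∫⁻ _ in Ioc (0 : ℝ) 1,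
          2 ^ Module.finrank ℝ E * (∫⁻ z in U, H z) * volume U := by
        refine mul_le_mul_right (setLIntegral_mono' measurableSet_Ioc fun t ht => ?_) _
        exact s9a_slice hU hUm hH ht.1.le ht.2
    _ = _ := by
        rw [setLIntegral_const]
        simp only [Real.volume_Ioc, sub_zero, ENNReal.ofReal_one, mul_one]
        ring

theorem s9a_lint_eq (μ : Measure E) (J : E → E) :
    ∫⁻ z, ENNReal.ofReal (‖J z‖ ^ 2) ∂μ = eLpNorm J 2 μ ^ 2 := by
  rw [eLpNorm_eq_lintegral_rpow_enorm_toReal two_ne_zero ENNReal.ofNat_ne_top]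
  simp only [ENNReal.toReal_ofNat, one_div]
  rw [← ENNReal.rpow_natCast, ← ENNReal.rpow_mul]
  norm_num

/-- Poincaré inequality on a bounded convex set for functions compared with their values on a subset: for smooth `f`,
`|f x - f y| ≤ ‖x - y‖ ∫₀¹ ‖∇ f (x + t (y - x))‖`, integrate over `x ∈ U`, `y ∈ A`; for `t ≤ 1/2` substitute in
`x`, for `t ≥ 1/2` substitute in `y` (and enlarge `A` to `U`).  `H1loc` functions by `H1loc.exists_h1`, `TH.dense`. -/
theorem poincare_pair {Ω U : Set E} (hΩ : IsOpen Ω) (hU : Convex ℝ U) (hc : IsCompact U) (hs : U ⊆ Ω) {D : ℝ}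
    (hD : ∀ x ∈ U, ∀ y ∈ U, ‖x - y‖ ≤ D) {f : E → ℝ} {G : E → E} (hf : H1loc Ω f G) :
    ∫ x in U, ∫ y in U, (f x - f y) ^ 2 ≤
      2 ^ (Module.finrank ℝ E + 1) * D ^ 2 * (volume U).toReal * ∫ x in U, ‖G x‖ ^ 2 := by
  have hUm : MeasurableSet U := hc.isClosed.measurableSet
  have hUfin : volume U ≠ ⊤ := hc.measure_lt_top.ne
  obtain ⟨f', G', W, hTH, -, hUW, -, heq, -⟩ := hf.exists_h1 hΩ hc hs
  obtain ⟨φ, hφ, hap, -, -⟩ := hTH.h1.dense
  have hφ1 : ∀ n, ContDiff ℝ 1 (φ n) := fun n => (hφ n).sm.of_le (by exact_mod_cast le_top)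
  have e1 : ∫ x in U, ∫ y in U, (f x - f y) ^ 2 = ∫ x in U, ∫ y in U, (f' x - f' y) ^ 2 := by
    refine setIntegral_congr_fun hUm fun x hx => setIntegral_congr_fun hUm fun y hy => ?_
    simp only [(heq x (hUW hx)).1, (heq y (hUW hy)).1]
  have e2 : ∫ x in U, ‖G x‖ ^ 2 = ∫ x in U, ‖G' x‖ ^ 2 := by
    refine setIntegral_congr_fun hUm fun x hx => ?_
    simp only [(heq x (hUW hx)).2]
  rw [e1, e2]
  set C : ℝ≥0∞ := ENNReal.ofReal (D ^ 2) * (2 ^ Module.finrank ℝ E * volume U) with hC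
  have hCfin : C ≠ ⊤ := by
    rw [hC]
    exact ENNReal.mul_ne_top ENNReal.ofReal_ne_top
      (ENNReal.mul_ne_top (ENNReal.pow_ne_top ENNReal.ofNat_ne_top) hUfin)
  have hGfin : eLpNorm G' 2 (volume.restrict U) ≠ ⊤ := (hTH.h1.mG.restrict U).eLpNorm_ne_top
  -- the bound for the approximations
  set b : ℕ → ℝ≥0∞ := fun n =>
    C * (eLpNorm (fun x => ∇ (φ n) x - G' x) 2 volume + eLpNorm G' 2 (volume.restrict U)) ^ 2 with hb
  have hbn : ∀ n, ∫⁻ x in U, ∫⁻ y in U, ENNReal.ofReal ((φ n x - φ n y) ^ 2) ≤ b n := fun n => by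
    refine (s9a_smooth hU hUm hD (hφ1 n)).trans ?_
    rw [s9a_lint_eq]
    refine mul_le_mul_right (pow_le_pow_left' ?_ 2) _
    have hm1 : AEStronglyMeasurable (fun x => ∇ (φ n) x - G' x) (volume.restrict U) :=
      ((s9a_cont_grad (hφ1 n)).aestronglyMeasurable.sub hTH.h1.mG.1).restrict
    have h1 := eLpNorm_add_le hm1 hTH.h1.mG.1.restrict (p := 2) one_le_two
    have e : ((fun x => ∇ (φ n) x - G' x) + G') = ∇ (φ n) := by
      funext x
      simp
    rw [e] at h1
    exact h1.trans (add_le_add_left (eLpNorm_mono_measure _ Measure.restrict_le_self) _)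
  have hbl : Tendsto b atTop (𝓝 (C * eLpNorm G' 2 (volume.restrict U) ^ 2)) := by
    have h1 := hap.l2G.add_const (eLpNorm G' 2 (volume.restrict U))
    rw [zero_add] at h1
    exact ENNReal.Tendsto.const_mul (ENNReal.Tendsto.pow h1) (Or.inr hCfin)
  -- Fatou
  have hms : ∀ n, Measurable fun p : E × E => ENNReal.ofReal ((φ n p.1 - φ n p.2) ^ 2) := fun n => by
    have := (hφ1 n).continuous
    exact (by fun_prop : Continuous fun p : E × E => (φ n p.1 - φ n p.2) ^ 2).measurable.ennreal_ofReal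
  have hae := ae_restrict_of_ae (s := U) hap.ae
  have hF : ∫⁻ x in U, ∫⁻ y in U, ENNReal.ofReal ((f' x - f' y) ^ 2) ≤
      C * eLpNorm G' 2 (volume.restrict U) ^ 2 := by
    calc ∫⁻ x in U, ∫⁻ y in U, ENNReal.ofReal ((f' x - f' y) ^ 2)
        ≤ ∫⁻ x in U, liminf (fun n => ∫⁻ y in U, ENNReal.ofReal ((φ n x - φ n y) ^ 2)) atTop := by
          refine lintegral_mono_ae ?_
          filter_upwards [hae] with x hx
          refine le_trans (le_of_eq ?_) (lintegral_liminf_le fun n => (hms n).comp measurable_prodMk_left)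
          refine lintegral_congr_ae ?_
          filter_upwards [hae] with y hy
          exact ((ENNReal.continuous_ofReal.tendsto _).comp ((hx.sub hy).pow 2)).liminf_eq.symm
      _ ≤ liminf (fun n => ∫⁻ x in U, ∫⁻ y in U, ENNReal.ofReal ((φ n x - φ n y) ^ 2)) atTop :=
          lintegral_liminf_le fun n => (hms n).lintegral_prod_right'
      _ ≤ liminf b atTop := liminf_le_liminf (Eventually.of_forall hbn)
      _ = _ := hbl.liminf_eq
  have hI : ∫⁻ z in U, ENNReal.ofReal (‖G' z‖ ^ 2) = ENNReal.ofReal (∫ x in U, ‖G' x‖ ^ 2) :=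
    (ofReal_integral_eq_lintegral_ofReal hTH.h1.int_grad_sq.integrableOn
      (Eventually.of_forall fun x => sq_nonneg _)).symm
  rw [← s9a_lint_eq, hI] at hF
  have hI0 : 0 ≤ ∫ x in U, ‖G' x‖ ^ 2 := integral_nonneg fun x => sq_nonneg _
  have h2 : ‖∫ x in U, ∫ y in U, (f' x - f' y) ^ 2‖ₑ ≤
      ∫⁻ x in U, ∫⁻ y in U, ENNReal.ofReal ((f' x - f' y) ^ 2) := by
    refine (enorm_integral_le_lintegral_enorm _).trans (lintegral_mono fun x => ?_)
    refine (enorm_integral_le_lintegral_enorm _).trans (le_of_eq (lintegral_congr fun y => ?_))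
    rw [Real.enorm_eq_ofReal (sq_nonneg _)]
  have h3 := ENNReal.toReal_mono (ENNReal.mul_ne_top hCfin ENNReal.ofReal_ne_top) (h2.trans hF)
  rw [toReal_enorm, hC, ENNReal.toReal_mul, ENNReal.toReal_mul, ENNReal.toReal_mul,
    ENNReal.toReal_ofReal (sq_nonneg _), ENNReal.toReal_ofReal hI0, ENNReal.toReal_pow,
    ENNReal.toReal_ofNat] at h3
  have h4 : 0 ≤ D ^ 2 * (2 ^ Module.finrank ℝ E * (volume U).toReal) * ∫ x in U, ‖G' x‖ ^ 2 := by positivity
  have h5 := (le_abs_self _).trans h3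
  calc _ ≤ _ := h5
    _ ≤ 2 * (D ^ 2 * (2 ^ Module.finrank ℝ E * (volume U).toReal) * ∫ x in U, ‖G' x‖ ^ 2) := by linarith
    _ = _ := by ring

end Crest.Agent.R335
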