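import Crest.Agent.R335.S9a

/-!
# R335/S9: Poincaré inequalities
-/

set_option autoImplicit false

namespace Crest.Agent.R335

open MeasureTheory Set Filter Topology
open scoped Gradient RealInnerProductSpace ENNReal ContDiff
open Crest.MathPhysics.ThreeBody

variable {E : Type} [NormedAddCommGroup E] [InnerProductSpace ℝ E] [FiniteDimensional ℝ E]
  [MeasurableSpace E] [BorelSpace E]

theorem s9b_int_in {X : Type} [MeasurableSpace X] {μ : Measure X} [IsFiniteMeasure μ] {f : X → ℝ}
    (hf : MemLp f 2 μ) (c : ℝ) : Integrable (fun y => (c - f y) ^ 2) μ :=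
  ((memLp_const c).sub hf).integrable_sq

theorem s9b_int_out {X : Type} [MeasurableSpace X] {μ : Measure X} [IsFiniteMeasure μ] {f : X → ℝ}
    (hf : MemLp f 2 μ) : Integrable (fun x => ∫ y, (f x - f y) ^ 2 ∂μ) μ := by
  have h2 : Integrable (fun y => f y ^ 2) μ := hf.integrable_sq
  have h1 : Integrable f μ := hf.integrable (by norm_num)
  have e : ∀ c : ℝ, ∫ y, (c - f y) ^ 2 ∂μ =
      μ.real univ * c ^ 2 - 2 * (∫ y, f y ∂μ) * c + ∫ y, f y ^ 2 ∂μ := by
    intro c
    have : (fun y => (c - f y) ^ 2) = fun y => (c ^ 2 - 2 * c * f y) + f y ^ 2 := by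
      funext y; ring
    have h3 : Integrable (fun y => c ^ 2 - 2 * c * f y) μ := (integrable_const _).sub (h1.const_mul _)
    rw [this, integral_add h3 h2,
      integral_sub (integrable_const _) (h1.const_mul _), integral_const, integral_const_mul, smul_eq_mul]
    ring
  simp only [e]
  exact ((h2.const_mul _).sub (h1.const_mul _)).add (integrable_const _)

theorem s9b_const {Ω U : Set E} (hΩ : IsOpen Ω) (hU : Convex ℝ U) (hc : IsCompact U) (hs : U ⊆ Ω)
    {f : E → ℝ} {G : E → E} (hf : H1loc Ω f G) (h0 : ∀ᵐ x, x ∈ Ω → G x = 0) :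
    ∃ c : ℝ, ∀ᵐ x, x ∈ U → f x = c := by
  obtain ⟨D, hD⟩ := Metric.isBounded_iff.1 hc.isBounded
  have hP := poincare_pair hΩ hU hc hs (D := D) (fun x hx y hy => by
    rw [← dist_eq_norm]; exact hD hx hy) hf
  have : IsFiniteMeasure (volume.restrict U) := isFiniteMeasure_restrict.2 hc.measure_lt_top.ne
  have hm := (hf.memLp hΩ hc hs).1
  have hz : ∫ x in U, ‖G x‖ ^ 2 = 0 := by
    refine integral_eq_zero_of_ae ?_
    refine (ae_restrict_iff' hc.measurableSet).2 ?_
    filter_upwards [h0] with x hx hxU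
    simp [hx (hs hxU)]
  rw [hz, mul_zero] at hP
  have hnn : ∀ x, 0 ≤ ∫ y in U, (f x - f y) ^ 2 := fun x => integral_nonneg fun y => sq_nonneg _
  have h1 := (integral_eq_zero_iff_of_nonneg hnn (s9b_int_out hm)).1
    (le_antisymm hP (integral_nonneg hnn))
  have h2 := (ae_restrict_iff' hc.measurableSet).1 h1
  by_cases hx : ∃ x, ∫ y in U, (f x - f y) ^ 2 = 0
  · obtain ⟨x, hx⟩ := hx
    have h3 := (integral_eq_zero_iff_of_nonneg (fun y => sq_nonneg (f x - f y)) (s9b_int_in hm _)).1 hx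
    have h4 := (ae_restrict_iff' hc.measurableSet).1 h3
    refine ⟨f x, ?_⟩
    filter_upwards [h4] with y hy hyU
    have h5 : (f x - f y) ^ 2 = 0 := hy hyU
    have := pow_eq_zero_iff (two_ne_zero) |>.1 h5
    linarith
  · refine ⟨0, ?_⟩
    filter_upwards [h2] with x h hxU
    exact absurd ⟨x, h hxU⟩ hx

/-- consequence for functions with `|f| ≤ m` on a subset `A` -/
theorem poincare_sub {Ω U A : Set E} (hΩ : IsOpen Ω) (hU : Convex ℝ U) (hc : IsCompact U) (hs : U ⊆ Ω) {D : ℝ}
    (hD : ∀ x ∈ U, ∀ y ∈ U, ‖x - y‖ ≤ D) (hA : MeasurableSet A) (hAU : A ⊆ U) {f : E → ℝ} {G : E → E}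
    (hf : H1loc Ω f G) {m : ℝ} (hm : ∀ᵐ x, x ∈ A → |f x| ≤ m) :
    (volume A).toReal * ∫ x in U, f x ^ 2 ≤ 2 * (volume A).toReal * (volume U).toReal * m ^ 2 +
      2 ^ (Module.finrank ℝ E + 2) * D ^ 2 * (volume U).toReal * ∫ x in U, ‖G x‖ ^ 2 := by
  have hP := poincare_pair hΩ hU hc hs hD hf
  have : IsFiniteMeasure (volume.restrict U) := isFiniteMeasure_restrict.2 hc.measure_lt_top.ne
  have hAf : volume A ≠ ⊤ := ((measure_mono hAU).trans_lt hc.measure_lt_top).ne
  have : IsFiniteMeasure (volume.restrict A) := isFiniteMeasure_restrict.2 hAf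
  have hmem := (hf.memLp hΩ hc hs).1
  have hout := s9b_int_out hmem
  have hnn : ∀ x, 0 ≤ ∫ y in U, (f x - f y) ^ 2 := fun x => integral_nonneg fun y => sq_nonneg _
  have h1 : ∀ x, ∫ y in U, f y ^ 2 ≤ 2 * (∫ y in U, (f x - f y) ^ 2) + 2 * (volume U).toReal * f x ^ 2 := by
    intro x
    calc ∫ y in U, f y ^ 2 ≤ ∫ y in U, (2 * (f x - f y) ^ 2 + 2 * f x ^ 2) :=
          integral_mono hmem.integrable_sq (((s9b_int_in hmem _).const_mul _).add (integrable_const _))
            fun y => by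
              have := sq_nonneg (2 * f x - f y)
              beta_reduce
              nlinarith
      _ = _ := by
          rw [integral_add ((s9b_int_in hmem _).const_mul _) (integrable_const _), integral_const_mul,
            integral_const, smul_eq_mul, measureReal_restrict_apply_univ, Measure.real]
          ring
  have houtA : IntegrableOn (fun x => ∫ y in U, (f x - f y) ^ 2) A := IntegrableOn.mono_set hout hAU
  have h2 : ∫ _ in A, (∫ y in U, f y ^ 2) ≤
      ∫ x in A, (2 * (∫ y in U, (f x - f y) ^ 2) + 2 * (volume U).toReal * m ^ 2) := by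
    refine integral_mono_ae (integrable_const _) ((houtA.const_mul _).add (integrable_const _)) ?_
    refine (ae_restrict_iff' hA).2 ?_
    filter_upwards [hm] with x hx hxA
    have h3 : f x ^ 2 ≤ m ^ 2 := by
      rw [← sq_abs]
      exact pow_le_pow_left₀ (abs_nonneg _) (hx hxA) 2
    have h4 : 2 * (volume U).toReal * f x ^ 2 ≤ 2 * (volume U).toReal * m ^ 2 :=
      mul_le_mul_of_nonneg_left h3 (by positivity)
    have := h1 x
    linarith
  rw [integral_add (houtA.const_mul _) (integrable_const _), integral_const_mul, integral_const,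
    integral_const, smul_eq_mul, smul_eq_mul, measureReal_restrict_apply_univ, Measure.real] at h2
  have h5 : ∫ x in A, ∫ y in U, (f x - f y) ^ 2 ≤ ∫ x in U, ∫ y in U, (f x - f y) ^ 2 :=
    setIntegral_mono_set hout (Eventually.of_forall hnn) hAU.eventuallyLE
  rw [pow_succ (2 : ℝ) (Module.finrank ℝ E + 1)]
  linarith

/-- a function with vanishing gradient on a convex open set is constant -/
theorem H1loc.const_of_grad {Ω : Set E} (hΩ : IsOpen Ω) (hc : Convex ℝ Ω) {f : E → ℝ} {G : E → E}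
    (hf : H1loc Ω f G) (h0 : ∀ᵐ x, x ∈ Ω → G x = 0) : ∃ c : ℝ, ∀ᵐ x, x ∈ Ω → f x = c := by
  let U : ℕ → Set E := fun n => Metric.closedBall 0 n ∩ {x | Metric.ball x (1 / ((n : ℝ) + 1)) ⊆ Ω}
  have hpos : ∀ n : ℕ, (0 : ℝ) < 1 / ((n : ℝ) + 1) := fun n => by positivity
  have hcv : ∀ n, Convex ℝ (U n) := by
    intro n
    refine (convex_closedBall _ _).inter ?_
    intro x hx y hy a b ha hb hab z hz
    have e : z = a • (x + (z - (a • x + b • y))) + b • (y + (z - (a • x + b • y))) := by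
      rw [smul_add, smul_add, add_add_add_comm, ← add_smul, hab, one_smul]
      abel
    rw [e]
    rw [Metric.mem_ball, dist_eq_norm] at hz
    refine hc (hx ?_) (hy ?_) ha hb hab <;> rw [Metric.mem_ball, dist_eq_norm, add_sub_cancel_left] <;> exact hz
  have hcp : ∀ n, IsCompact (U n) := by
    intro n
    refine (isCompact_closedBall _ _).inter_right ?_
    have e : {x : E | Metric.ball x (1 / ((n : ℝ) + 1)) ⊆ Ω} =
        ⋂ z ∈ Ωᶜ, (Metric.ball z (1 / ((n : ℝ) + 1)))ᶜ := by
      ext x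
      simp only [mem_ofPred_eq, mem_iInter, mem_compl_iff]
      constructor
      · intro h z hz hx
        exact hz (h (Metric.mem_ball_comm.1 hx))
      · intro h z hz
        by_contra hn
        exact h z hn (Metric.mem_ball_comm.1 hz)
    rw [e]
    exact isClosed_biInter fun z _ => Metric.isOpen_ball.isClosed_compl
  have hsub : ∀ n, U n ⊆ Ω := fun n x hx => hx.2 (Metric.mem_ball_self (hpos n))
  have hev : ∀ x ∈ Ω, ∀ᶠ n in atTop, x ∈ U n := by
    intro x hx
    obtain ⟨r, hr, hb⟩ := Metric.isOpen_iff.1 hΩ x hx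
    have h1 : ∀ᶠ n : ℕ in atTop, ‖x‖ ≤ (n : ℝ) := tendsto_natCast_atTop_atTop.eventually_ge_atTop _
    have h2 : ∀ᶠ n : ℕ in atTop, 1 / ((n : ℝ) + 1) < r :=
      tendsto_one_div_add_atTop_nhds_zero_nat.eventually (gt_mem_nhds hr)
    filter_upwards [h1, h2] with n a b
    exact ⟨by simpa using a, (Metric.ball_subset_ball b.le).trans hb⟩
  choose c hcn using fun n => s9b_const hΩ (hcv n) (hcp n) (hsub n) hf h0
  have hall := ae_all_iff.2 hcn
  by_cases hx : ∃ x ∈ Ω, ∀ n, x ∈ U n → f x = c n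
  · obtain ⟨x, hxΩ, hx⟩ := hx
    refine ⟨f x, ?_⟩
    filter_upwards [hall] with y hy hyΩ
    obtain ⟨n, h1, h2⟩ := ((hev x hxΩ).and (hev y hyΩ)).exists
    rw [hy n h2, hx n h1]
  · refine ⟨0, ?_⟩
    filter_upwards [hall] with y hy hyΩ
    exact absurd ⟨y, hyΩ, hy⟩ hx

end Crest.Agent.R335
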