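import Crest.Agent.R335.UCP_A1

/-!
# R335/UCP_A: weak characterisation of `H1loc`, gradients are curl free
-/

set_option autoImplicit false

namespace Crest.Agent.R335

open MeasureTheory Set Filter Topology
open scoped Gradient RealInnerProductSpace ENNReal ContDiff
open Crest.MathPhysics.ThreeBody

variable {E : Type} [NormedAddCommGroup E] [InnerProductSpace ℝ E] [FiniteDimensional ℝ E]
  [MeasurableSpace E] [BorelSpace E]


/-- `TH.ext_eq` with `J = Jr ∘ G` (`ContinuousLinearMap.comp_memLp'`), `h = 0` reduces to `ξ` with `Tst W ξ`.  Take the global representative `τ', G'` near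
`tsupport ξ` (`H1loc.exists_h1`; off `tsupport ξ` the gradient vanishes, `s1a_grad_zero`).  With `e i = EuclideanSpace.single i 1`:
`⟪Jr G', ∇ ξ⟫ = - ⟪G', e 1⟫ * ∂₀ξ + ⟪G', e 0⟫ * ∂₁ξ`, `∂ᵢξ = fun x => fderiv ℝ ξ x (e i)` is `Tst univ`; use `H1.wg` twice and the symmetry of the second
derivative (`ContDiffAt.isSymmSndFDerivAt`, `fderiv_clm_apply`). -/
theorem ucp_curl {W : Set E2} (hW : IsOpen W) {τ ξ : E2 → ℝ} {G K : E2 → E2} (h : H1loc W τ G) (hξ : TH W ξ K) :
    ∫ p, ⟪Jr (G p), K p⟫ = 0 := by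
  have key := TH.ext_eq hW (J := fun p => Jr (G p)) (h := fun _ => 0)
    (fun C hC hs => Jr.comp_memLp' (h.memLp hW hC hs).2) (fun C _ _ => MemLp.zero) (fun φ hφ => ?_) hξ
  · simpa using key
  obtain ⟨τ', G', U, hT, hU, hCU, -, he, -⟩ := h.exists_h1 hW hφ.cpt hφ.sub
  have hd : ∀ v : E2, Tst univ fun p => fderiv ℝ φ p v := fun v =>
    ⟨(hφ.sm.fderiv_right (m := ∞) le_rfl).clm_apply contDiff_const, hφ.cpt.fderiv_apply ℝ v, subset_univ _⟩
  have hg : ∀ p i, ∇ φ p i = fderiv ℝ φ p (EuclideanSpace.single i 1) := fun p i => by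
    rw [← inner_gradient_left, EuclideanSpace.inner_single_right]; simp
  have e1 : ∀ p, ⟪Jr (G p), ∇ φ p⟫ =
      ⟪G' p, EuclideanSpace.single 0 1⟫ * fderiv ℝ φ p (EuclideanSpace.single 1 1) -
        ⟪G' p, EuclideanSpace.single 1 1⟫ * fderiv ℝ φ p (EuclideanSpace.single 0 1) := fun p => by
    rw [← hg, ← hg]
    by_cases hp : p ∈ tsupport φ
    · rw [(he p (hCU hp)).2, ucp_inner2, EuclideanSpace.inner_single_right, EuclideanSpace.inner_single_right]
      simp
      ring
    · simp [s1a_grad_zero hp]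
  have sy : ∀ p (v w : E2), fderiv ℝ (fun p => fderiv ℝ φ p v) p w = fderiv ℝ (fun p => fderiv ℝ φ p w) p v := by
    intro p v w
    have h2 : DifferentiableAt ℝ (fderiv ℝ φ) p :=
      (hφ.sm.fderiv_right (m := 1) (by norm_cast)).differentiable one_ne_zero p
    rw [fderiv_clm_apply h2 (differentiableAt_const _), fderiv_clm_apply h2 (differentiableAt_const _)]
    simpa using (hφ.sm.contDiffAt (x := p)).isSymmSndFDerivAt (by simp; norm_cast) w v
  simp only [e1, zero_mul, integral_zero, add_zero]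
  rw [integral_sub (s1a_i2 hT.h1.mG (hd _) _) (s1a_i2 hT.h1.mG (hd _) _)]
  have w1 := hT.h1.wg _ (hd (EuclideanSpace.single 1 1)) (EuclideanSpace.single 0 1)
  have w2 := hT.h1.wg _ (hd (EuclideanSpace.single 0 1)) (EuclideanSpace.single 1 1)
  simp only [sy _ (EuclideanSpace.single 0 1) (EuclideanSpace.single 1 1)] at w2
  linarith

end Crest.Agent.R335
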