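import Crest.Agent.R335.UCP_D

/-!
# R335/UCP_A1: locally square integrable functions, weak characterisation of `H1loc`
-/

set_option autoImplicit false

namespace Crest.Agent.R335

open MeasureTheory Set Filter Topology
open scoped Gradient RealInnerProductSpace ENNReal ContDiff
open Crest.MathPhysics.ThreeBody

variable {E : Type} [NormedAddCommGroup E] [InnerProductSpace ℝ E] [FiniteDimensional ℝ E]
  [MeasurableSpace E] [BorelSpace E]


theorem H1loc.l2l {Ω : Set E} (hΩ : IsOpen Ω) {f : E → ℝ} {G : E → E} (hf : H1loc Ω f G) : L2l Ω f ∧ L2l Ω G :=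
  ⟨fun _ hC hs => (hf.memLp hΩ hC hs).1, fun _ hC hs => (hf.memLp hΩ hC hs).2⟩

theorem ua1_top {F : Type} [NormedAddCommGroup F] {Ω C : Set E} {a : E → F} (ha : ContinuousOn a Ω)
    (hC : IsCompact C) (hs : C ⊆ Ω) : MemLp a ⊤ (volume.restrict C) := by
  obtain ⟨M, hM⟩ := hC.exists_bound_of_continuousOn (ha.mono hs)
  refine memLp_top_of_bound ((ha.mono hs).aestronglyMeasurable hC.measurableSet) M ?_
  exact (ae_restrict_iff' hC.measurableSet).2 (Eventually.of_forall hM)

theorem ua1_glob {F : Type} [NormedAddCommGroup F] {C : Set E} {H : E → F} (hC : IsCompact C)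
    (hH : MemLp H 2 (volume.restrict C)) (h0 : ∀ x, x ∉ C → H x = 0) : MemLp H 2 volume := by
  have e : H = C.indicator H := by
    funext x
    by_cases hx : x ∈ C
    · rw [indicator_of_mem hx]
    · rw [indicator_of_notMem hx, h0 x hx]
  rw [e]
  exact (memLp_indicator_iff_restrict hC.measurableSet).2 hH

/-- product with a function which is continuous on `Ω` (bounded on the compact set: `IsCompact.exists_bound_of_continuousOn`;
measurable by `ContinuousOn.aestronglyMeasurable`; `MemLp.of_le_mul` with `ae_restrict_iff'`) -/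
theorem L2l.smul {F : Type} [NormedAddCommGroup F] [NormedSpace ℝ F] {Ω : Set E} {a : E → ℝ} {G : E → F}
    (ha : ContinuousOn a Ω) (hG : L2l Ω G) : L2l Ω fun x => a x • G x := by
  exact fun C hC hs => (hG C hC hs).smul (ua1_top ha hC hs)

/-- continuous functions (bounded on the compact set, which has finite measure: `MemLp.of_bound`) -/
theorem L2l.of_continuousOn {F : Type} [NormedAddCommGroup F] {Ω : Set E} {a : E → F} (ha : ContinuousOn a Ω) :
    L2l Ω a := by
  intro C hC hs
  haveI : IsFiniteMeasure (volume.restrict C) := isFiniteMeasure_restrict.2 hC.measure_lt_top.ne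
  exact (ua1_top ha hC hs).mono_exponent le_top

/-- For `φ` with `Tst Ω φ` put `C = tsupport φ`.  `φ f` and `φ • G + f • ∇ φ` agree with the same expressions for `C.indicator f`, `C.indicator G`
(`memLp_indicator_iff_restrict`, `s1a_grad_zero`, `image_eq_zero_of_notMem_tsupport`), and `φ`, `∇ φ` are bounded.  For a test function `ψ` use `h` with `φ ψ`
(`fderiv_mul`, `tsupport_mul_subset_left`, `inner_gradient_left`); the integrability for `integral_add` comes from `s1a_i1`, `s1a_i2`-like statements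
(`MemLp.integrable_mul`). -/
theorem ucp_of_weak {Ω : Set E} {f : E → ℝ} {G : E → E} (hf : L2l Ω f) (hG : L2l Ω G)
    (h : ∀ φ, Tst Ω φ → ∀ a : E, ∫ x, f x * fderiv ℝ φ x a = -∫ x, ⟪G x, a⟫ * φ x) : H1loc Ω f G := by
  intro φ hφ
  have hc : IsCompact (tsupport φ) := hφ.cpt
  have m1 : MemLp (fun x => φ x * f x) 2 volume :=
    ua1_glob hc (L2l.smul hφ.sm.continuous.continuousOn hf _ hc hφ.sub) fun x hx => by
      rw [image_eq_zero_of_notMem_tsupport hx, zero_mul]
  have m2 : MemLp (fun x => φ x • G x) 2 volume :=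
    ua1_glob hc (L2l.smul hφ.sm.continuous.continuousOn hG _ hc hφ.sub) fun x hx => by
      rw [image_eq_zero_of_notMem_tsupport hx, zero_smul]
  have m3 : MemLp (fun x => f x • ∇ φ x) 2 volume :=
    ua1_glob hc ((ua1_top (s1a_grad_cont (hφ.sm.of_le (by simp))).continuousOn hc hφ.sub).smul
      (hf _ hc hφ.sub)) fun x hx => by rw [s1a_grad_zero hx, smul_zero]
  refine ⟨m1, m2.add m3, fun ψ hψ a => ?_⟩
  have hT : Tst Ω fun x => φ x * ψ x :=
    ⟨hφ.sm.mul hψ.sm, hφ.cpt.mul_right, tsupport_mul_subset_left.trans hφ.sub⟩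
  have key := h _ hT a
  have e1 : ∀ x, f x * fderiv ℝ (fun x => φ x * ψ x) x a =
      φ x * f x * fderiv ℝ ψ x a + ⟪f x • ∇ φ x, a⟫ * ψ x := fun x => by
    rw [fderiv_fun_mul (hφ.sm.differentiable (by simp) x) (hψ.sm.differentiable (by simp) x),
      real_inner_smul_left, inner_gradient_left]
    simp only [ContinuousLinearMap.add_apply, ContinuousLinearMap.smul_apply, smul_eq_mul]
    ring
  have e2 : ∀ x, ⟪G x, a⟫ * (φ x * ψ x) = ⟪φ x • G x, a⟫ * ψ x := fun x => by
    rw [real_inner_smul_left]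
    ring
  simp only [e1, e2] at key
  rw [integral_add (s1a_i1 m1 hψ a) (s1a_i2 m3 hψ a)] at key
  simp only [inner_add_left, add_mul]
  rw [integral_add (s1a_i2 m2 hψ a) (s1a_i2 m3 hψ a)]
  linarith

end Crest.Agent.R335
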