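import Crest.Agent.R335.UCP_D

/-!
# R335/UCP_B: the log-log field

With `s = w.1² + w.2² + η ≥ η`, `h s = 1 / (1 + log (1 + 1/s)) ∈ (0, 1]`, `h' s = h s ² / (s (s + 1))`, `κ s = h s / s`,
`κ' s = h' s / s - h s / s²`, `k1 w = κ s * w.1`, `k2 w = κ s * w.2`, `L w = log (1 + log (1 + 1/s))`, `dL/ds = - h s / (s (s + 1))`.
`r = w.1² + w.2² = s - η`:  `dvg = 2 κ + 2 κ' r = 2 h η / s² + 2 h' r / s ≥ m := 2 h² r / (s² (s + 1))`,
`k1² + k2² = h² r / s² = m / 2 + h² r / (s (s + 1)) ≤ m + 1`, `‖∇L‖² = 4 r h² / (s² (s + 1)²) = 2 m / (s + 1) ≤ 2 m`.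
Bounds (sup norm on `ℝ × ℝ`, `ContinuousLinearMap.opNorm_le_bound`): `κ ≤ 1/η`, `|κ'| s ≤ 2/η`, `|w.1| (2 |w.1| + 2 |w.2|) ≤ 3 r`,
`2 |w.1| + 2 |w.2| ≤ 2 + r`.
-/

set_option autoImplicit false

namespace Crest.Agent.R335

open MeasureTheory Set Filter Topology
open scoped Gradient RealInnerProductSpace ENNReal ContDiff
open Crest.MathPhysics.ThreeBody


/-- functions of `s = w.1² + w.2² + η` -/
theorem ucp_rad {g : ℝ → ℝ} {g' η : ℝ} {w : ℝ × ℝ} (hg : HasDerivAt g g' (w.1 ^ 2 + w.2 ^ 2 + η)) :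
    DifferentiableAt ℝ (fun w : ℝ × ℝ => g (w.1 ^ 2 + w.2 ^ 2 + η)) w ∧
      ∀ v : ℝ × ℝ, fderiv ℝ (fun w : ℝ × ℝ => g (w.1 ^ 2 + w.2 ^ 2 + η)) w v =
        g' * (2 * w.1 * v.1 + 2 * w.2 * v.2) := by
  have h1 : HasFDerivAt (fun w : ℝ × ℝ => w.1) (ContinuousLinearMap.fst ℝ ℝ ℝ) w := hasFDerivAt_fst
  have h2 : HasFDerivAt (fun w : ℝ × ℝ => w.2) (ContinuousLinearMap.snd ℝ ℝ ℝ) w := hasFDerivAt_snd
  have h3 := hg.comp_hasFDerivAt w (((h1.pow 2).add (h2.pow 2)).add_const η)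
  refine ⟨h3.differentiableAt, fun v => ?_⟩
  have h4 : fderiv ℝ (fun w : ℝ × ℝ => g (w.1 ^ 2 + w.2 ^ 2 + η)) w = _ := h3.fderiv
  rw [h4]
  simp [mul_add]

/-- `1 + log (1 + 1 / s)` -/
noncomputable def ub_D (s : ℝ) : ℝ := 1 + Real.log (1 + 1 / s)

theorem ub_D_ge {s : ℝ} (hs : 0 < s) : 1 ≤ ub_D s := by
  have : 0 ≤ Real.log (1 + 1 / s) := Real.log_nonneg (by have := one_div_pos.2 hs; linarith)
  unfold ub_D
  linarith

theorem ub_D_deriv {s : ℝ} (hs : 0 < s) : HasDerivAt ub_D (-(1 / (s * (s + 1)))) s := by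
  have h1 : HasDerivAt (fun s : ℝ => 1 + 1 / s) (-(s ^ 2)⁻¹) s := by
    simpa [one_div] using (hasDerivAt_inv hs.ne').const_add 1
  have h2 := (h1.log (by positivity)).const_add 1
  refine h2.congr_deriv ?_
  field_simp

theorem ub_L_deriv {s : ℝ} (hs : 0 < s) :
    HasDerivAt (fun s => Real.log (ub_D s)) (-((ub_D s)⁻¹ / (s * (s + 1)))) s := by
  have hD := ub_D_ge hs
  refine ((ub_D_deriv hs).log (by positivity)).congr_deriv ?_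
  field_simp

theorem ub_k_deriv {s : ℝ} (hs : 0 < s) : HasDerivAt (fun s => (ub_D s)⁻¹ / s)
    ((ub_D s)⁻¹ ^ 2 / (s ^ 2 * (s + 1)) - (ub_D s)⁻¹ / s ^ 2) s := by
  have hD := ub_D_ge hs
  refine (((ub_D_deriv hs).inv (by positivity)).div (hasDerivAt_id s) hs.ne').congr_deriv ?_
  simp only [id, Pi.inv_apply]
  field_simp

theorem ub_cd {η : ℝ} (hη : 0 < η) : ContDiff ℝ 1 fun w : ℝ × ℝ => ub_D (w.1 ^ 2 + w.2 ^ 2 + η) := by
  unfold ub_D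
  refine contDiff_const.add (ContDiff.log (contDiff_const.add (contDiff_const.div (by fun_prop)
    fun w => by positivity)) fun w => by positivity)

theorem ub_cdk {η : ℝ} (hη : 0 < η) :
    ContDiff ℝ 1 fun w : ℝ × ℝ => (ub_D (w.1 ^ 2 + w.2 ^ 2 + η))⁻¹ / (w.1 ^ 2 + w.2 ^ 2 + η) :=
  ((ub_cd hη).inv fun w => (zero_lt_one.trans_le (ub_D_ge (by positivity))).ne').div (by fun_prop)
    fun w => by positivity

theorem ub_mul {κ p : ℝ × ℝ → ℝ} {w : ℝ × ℝ} (hκ : DifferentiableAt ℝ κ w) (hp : DifferentiableAt ℝ p w)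
    (v : ℝ × ℝ) : fderiv ℝ (fun w => κ w * p w) w v = κ w * fderiv ℝ p w v + p w * fderiv ℝ κ w v := by
  rw [fderiv_fun_mul hκ hp]
  simp

theorem ub_lin (a b : ℝ) (v : ℝ × ℝ) : |2 * a * v.1 + 2 * b * v.2| ≤ (2 * |a| + 2 * |b|) * ‖v‖ := by
  have h1 : |v.1| ≤ ‖v‖ := norm_fst_le v
  have h2 : |v.2| ≤ ‖v‖ := norm_snd_le v
  calc |2 * a * v.1 + 2 * b * v.2| ≤ |2 * a * v.1| + |2 * b * v.2| := abs_add_le _ _
    _ = 2 * |a| * |v.1| + 2 * |b| * |v.2| := by simp [abs_mul]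
    _ ≤ 2 * |a| * ‖v‖ + 2 * |b| * ‖v‖ := by gcongr
    _ = _ := by ring

theorem ub_bd {η s h κ' a b c t n : ℝ} (hη : 0 < η) (hs : s = a ^ 2 + b ^ 2 + η) (h0 : 0 < h) (h1 : h ≤ 1)
    (hκ : κ' = h ^ 2 / (s ^ 2 * (s + 1)) - h / s ^ 2) (hc : |c| = |a| ∨ |c| = |b|) {q : ℝ} (hn : 0 ≤ n)
    (ht : |t| ≤ n) (hq : |q| ≤ (2 * |a| + 2 * |b|) * n) : |h / s * t + c * (κ' * q)| ≤ 7 / η * n := by
  have s0 : 0 < s := by rw [hs]; positivity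
  have sη : η ≤ s := by rw [hs]; nlinarith [sq_nonneg a, sq_nonneg b]
  have k1 : h / s ≤ 1 / η := by gcongr
  have k2 : |κ'| ≤ 2 / s ^ 2 := by
    have e1 : h ^ 2 / (s ^ 2 * (s + 1)) ≤ 1 / s ^ 2 := by
      gcongr
      · exact pow_le_one₀ h0.le h1
      · nlinarith [pow_pos s0 2]
    have e2 : h / s ^ 2 ≤ 1 / s ^ 2 := by gcongr
    have e3 : 0 ≤ h ^ 2 / (s ^ 2 * (s + 1)) := by positivity
    have e4 : 0 ≤ h / s ^ 2 := by positivity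
    have e5 : 2 / s ^ 2 = 1 / s ^ 2 + 1 / s ^ 2 := by ring
    rw [hκ, abs_le]
    constructor <;> linarith
  have k3 : |c| * (2 * |a| + 2 * |b|) ≤ 3 * s := by
    have := sq_abs a
    have := sq_abs b
    rcases hc with hc | hc <;> rw [hc] <;> nlinarith [sq_nonneg (|a| - |b|)]
  calc |h / s * t + c * (κ' * q)| ≤ |h / s * t| + |c * (κ' * q)| := abs_add_le _ _
    _ = h / s * |t| + |c| * (|κ'| * |q|) := by rw [abs_mul, abs_mul, abs_mul, abs_of_pos (div_pos h0 s0)]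
    _ ≤ 1 / η * n + |c| * (2 / s ^ 2 * ((2 * |a| + 2 * |b|) * n)) := by gcongr
    _ = 1 / η * n + |c| * (2 * |a| + 2 * |b|) * (2 / s ^ 2 * n) := by ring
    _ ≤ 1 / η * n + 3 * s * (2 / s ^ 2 * n) := by gcongr
    _ = 1 / η * n + 6 / s * n := by field_simp; ring
    _ ≤ 1 / η * n + 6 / η * n := by gcongr
    _ = _ := by ring

theorem ucp_field {η : ℝ} (hη : 0 < η) : ∃ k1 k2 : ℝ × ℝ → ℝ, Fld k1 k2 (llog η) := by
  obtain ⟨σ, hσ⟩ : ∃ σ : ℝ × ℝ → ℝ, ∀ w, σ w = w.1 ^ 2 + w.2 ^ 2 + η := ⟨_, fun _ => rfl⟩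
  have s0 : ∀ w, 0 < σ w := fun w => by rw [hσ]; positivity
  have s0' : ∀ w : ℝ × ℝ, 0 < w.1 ^ 2 + w.2 ^ 2 + η := fun w => by positivity
  obtain ⟨h, hh⟩ : ∃ h : ℝ × ℝ → ℝ, ∀ w, h w = (ub_D (σ w))⁻¹ := ⟨_, fun _ => rfl⟩
  have h0 : ∀ w, 0 < h w := fun w => by
    rw [hh]; exact inv_pos.2 (zero_lt_one.trans_le (ub_D_ge (s0 w)))
  have h1 : ∀ w, h w ≤ 1 := fun w => by rw [hh]; exact inv_le_one_of_one_le₀ (ub_D_ge (s0 w))
  obtain ⟨κ, hκ⟩ : ∃ κ : ℝ × ℝ → ℝ,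
      κ = fun w => (ub_D (w.1 ^ 2 + w.2 ^ 2 + η))⁻¹ / (w.1 ^ 2 + w.2 ^ 2 + η) := ⟨_, rfl⟩
  have cκ : ContDiff ℝ 1 κ := by rw [hκ]; exact ub_cdk hη
  have κv : ∀ w, κ w = h w / σ w := fun w => by rw [hκ, hh, hσ]
  have dκ : ∀ w v : ℝ × ℝ, fderiv ℝ κ w v =
      (h w ^ 2 / (σ w ^ 2 * (σ w + 1)) - h w / σ w ^ 2) * (2 * w.1 * v.1 + 2 * w.2 * v.2) := fun w v => by
    rw [hκ, hh, hσ]
    exact (ucp_rad (g := fun s => (ub_D s)⁻¹ / s) (ub_k_deriv (s0' w))).2 v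
  have dL : ∀ w v : ℝ × ℝ, fderiv ℝ (llog η) w v =
      -(h w / (σ w * (σ w + 1))) * (2 * w.1 * v.1 + 2 * w.2 * v.2) := fun w v => by
    rw [hh, hσ]
    exact (ucp_rad (g := fun s => Real.log (ub_D s)) (ub_L_deriv (s0' w))).2 v
  have d1 : ∀ w v : ℝ × ℝ, fderiv ℝ (fun w => κ w * w.1) w v = h w / σ w * v.1 + w.1 *
      ((h w ^ 2 / (σ w ^ 2 * (σ w + 1)) - h w / σ w ^ 2) * (2 * w.1 * v.1 + 2 * w.2 * v.2)) := fun w v => by
    rw [ub_mul (cκ.differentiable one_ne_zero w) differentiableAt_fst, dκ, κv, fderiv_fst]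
    rfl
  have d2 : ∀ w v : ℝ × ℝ, fderiv ℝ (fun w => κ w * w.2) w v = h w / σ w * v.2 + w.2 *
      ((h w ^ 2 / (σ w ^ 2 * (σ w + 1)) - h w / σ w ^ 2) * (2 * w.1 * v.1 + 2 * w.2 * v.2)) := fun w v => by
    rw [ub_mul (cκ.differentiable one_ne_zero w) differentiableAt_snd, dκ, κv, fderiv_snd]
    rfl
  have dv : ∀ w, 2 * (h w ^ 2 * (w.1 ^ 2 + w.2 ^ 2) / (σ w ^ 2 * (σ w + 1))) ≤
      dvg (fun w => κ w * w.1) (fun w => κ w * w.2) w := fun w => by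
    have a0 := s0 w
    have a1 := h0 w
    have e : dvg (fun w => κ w * w.1) (fun w => κ w * w.2) w =
        2 * (h w ^ 2 * (w.1 ^ 2 + w.2 ^ 2) / (σ w ^ 2 * (σ w + 1))) +
          2 * h w * (σ w - (w.1 ^ 2 + w.2 ^ 2)) / σ w ^ 2 := by
      rw [dvg, d1, d2]
      field_simp
      ring
    have e2 : σ w - (w.1 ^ 2 + w.2 ^ 2) = η := by rw [hσ]; ring
    rw [e, e2]
    exact le_add_of_nonneg_right (by positivity)
  refine ⟨fun w => κ w * w.1, fun w => κ w * w.2, cκ.mul contDiff_fst, cκ.mul contDiff_snd,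
    (ub_cd hη).log fun w => (zero_lt_one.trans_le (ub_D_ge (s0' w))).ne', ⟨7 / η, fun w => ⟨?_, ?_, ?_⟩⟩,
    fun w => ?_, fun w => ?_⟩
  · refine ContinuousLinearMap.opNorm_le_bound _ (by positivity) fun v => ?_
    rw [d1]
    exact ub_bd hη (hσ w) (h0 w) (h1 w) rfl (Or.inl rfl) (norm_nonneg v) (norm_fst_le v) (ub_lin _ _ v)
  · refine ContinuousLinearMap.opNorm_le_bound _ (by positivity) fun v => ?_
    rw [d2]
    exact ub_bd hη (hσ w) (h0 w) (h1 w) rfl (Or.inr rfl) (norm_nonneg v) (norm_snd_le v) (ub_lin _ _ v)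
  · refine ContinuousLinearMap.opNorm_le_bound _ (by positivity) fun v => ?_
    have a0 := s0 w
    have a1 := h0 w
    have a2 := h1 w
    have a3 : 2 * |w.1| + 2 * |w.2| ≤ 2 * (σ w + 1) := by
      rw [hσ]
      nlinarith [sq_nonneg (|w.1| - 1), sq_nonneg (|w.2| - 1), sq_abs w.1, sq_abs w.2]
    have a4 : η ≤ σ w := by rw [hσ]; nlinarith [sq_nonneg w.1, sq_nonneg w.2]
    rw [dL, Real.norm_eq_abs, abs_mul, abs_neg, abs_of_pos (by positivity)]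
    calc h w / (σ w * (σ w + 1)) * |2 * w.1 * v.1 + 2 * w.2 * v.2|
        ≤ 1 / (σ w * (σ w + 1)) * (2 * (σ w + 1) * ‖v‖) := by
          gcongr
          exact (ub_lin _ _ v).trans (by gcongr)
      _ = 2 / σ w * ‖v‖ := by field_simp
      _ ≤ 7 / η * ‖v‖ := by gcongr; norm_num
  · have a0 := s0 w
    have a1 := h0 w
    have a2 := h1 w
    have a3 : w.1 ^ 2 + w.2 ^ 2 ≤ σ w := by rw [hσ]; linarith
    have e : (κ w * w.1) ^ 2 + (κ w * w.2) ^ 2 =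
        h w ^ 2 * (w.1 ^ 2 + w.2 ^ 2) / (σ w ^ 2 * (σ w + 1)) +
          h w ^ 2 * (w.1 ^ 2 + w.2 ^ 2) / (σ w * (σ w + 1)) := by
      rw [κv]
      field_simp
      ring
    have b1 : h w ^ 2 * (w.1 ^ 2 + w.2 ^ 2) / (σ w * (σ w + 1)) ≤ 1 := by
      rw [div_le_one (by positivity)]
      have : h w ^ 2 ≤ 1 := pow_le_one₀ a1.le a2
      nlinarith [sq_nonneg w.1, sq_nonneg w.2, sq_nonneg (σ w)]
    have b2 : 0 ≤ h w ^ 2 * (w.1 ^ 2 + w.2 ^ 2) / (σ w ^ 2 * (σ w + 1)) := by positivity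
    have := dv w
    rw [e]
    linarith
  · have a0 := s0 w
    have a1 := h0 w
    have e : fderiv ℝ (llog η) w (1, 0) ^ 2 + fderiv ℝ (llog η) w (0, 1) ^ 2 =
        4 * (h w ^ 2 * (w.1 ^ 2 + w.2 ^ 2) / (σ w ^ 2 * (σ w + 1))) / (σ w + 1) := by
      rw [dL, dL]
      field_simp
      ring
    have b2 : 0 ≤ 4 * (h w ^ 2 * (w.1 ^ 2 + w.2 ^ 2) / (σ w ^ 2 * (σ w + 1))) := by positivity
    have b3 := div_le_self b2 (by linarith : 1 ≤ σ w + 1)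
    have := dv w
    rw [e]
    linarith

/-- `1 / (r + η) ≤ 1 / δ` -/
theorem llog_le {η δ : ℝ} (hη : 0 < η) (hδ : 0 < δ) {w : ℝ × ℝ} (h : δ ≤ w.1 ^ 2) :
    0 ≤ llog η w ∧ llog η w ≤ Real.log (1 + Real.log (1 + 1 / δ)) := by
  have s0 : 0 < w.1 ^ 2 + w.2 ^ 2 + η := by positivity
  have h1 := ub_D_ge s0
  refine ⟨Real.log_nonneg h1, Real.log_le_log (zero_lt_one.trans_le h1) ?_⟩
  have h2 : δ ≤ w.1 ^ 2 + w.2 ^ 2 + η := by nlinarith [sq_nonneg w.2]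
  gcongr

/-- `η = 1 / (exp (exp N))` -/
theorem llog_big (N : ℝ) : ∃ η : ℝ, 0 < η ∧ N ≤ llog η (0, 0) := by
  refine ⟨1 / Real.exp (Real.exp N), by positivity, ?_⟩
  have h1 : Real.exp N ≤ Real.log (1 + Real.exp (Real.exp N)) :=
    (Real.le_log_iff_exp_le (by positivity)).2 (by linarith)
  have h2 := Real.exp_pos N
  simp only [llog, ne_eq, OfNat.ofNat_ne_zero, not_false_eq_true, zero_pow, add_zero, zero_add, one_div_one_div]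
  exact (Real.le_log_iff_exp_le (by linarith)).2 (by linarith)

end Crest.Agent.R335
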