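import Crest.Agent.R335.UCP_C1

/-!
# R335/UCP_C: smooth stream functions, normalisation, weak limits
-/

set_option autoImplicit false

namespace Crest.Agent.R335

open MeasureTheory Set Filter Topology
open scoped Gradient RealInnerProductSpace ENNReal ContDiff
open Crest.MathPhysics.ThreeBody
open scoped Convolution
open ContinuousLinearMap (lsmul)

variable {E : Type} [NormedAddCommGroup E] [InnerProductSpace ℝ E] [FiniteDimensional ℝ E]
  [MeasurableSpace E] [BorelSpace E]


/-- `poincare_pair`; if `volume D = 0` everything is `0`.  Otherwise `x ↦ ∫ y in D, (f y - f x)²` is integrable on `D` (expand the square, `H1loc.memLp`), and at some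
point `x₀` it is at most its mean value (`exists_le_setAverage`); `c = f x₀`. -/
theorem ucp_norm {Ω D : Set E} (hΩ : IsOpen Ω) (hD : Convex ℝ D) (hc : IsCompact D) (hs : D ⊆ Ω) :
    ∃ M : ℝ, 0 ≤ M ∧ ∀ (f : E → ℝ) (G : E → E), H1loc Ω f G →
      ∃ c : ℝ, ∫ x in D, (f x - c) ^ 2 ≤ M * ∫ x in D, ‖G x‖ ^ 2 := by
  obtain ⟨R, hR⟩ := Metric.isBounded_iff.1 hc.isBounded
  refine ⟨2 ^ (Module.finrank ℝ E + 1) * R ^ 2, by positivity, fun f G hf => ?_⟩
  by_cases h0 : volume D = 0
  · exact ⟨0, by simp [Measure.restrict_eq_zero.2 h0]⟩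
  have hP := poincare_pair hΩ hD hc hs (D := R) (fun x hx y hy => by rw [← dist_eq_norm]; exact hR hx hy) hf
  have hfin : volume D ≠ ⊤ := hc.measure_lt_top.ne
  have : IsFiniteMeasure (volume.restrict D) := ⟨by simpa using hc.measure_lt_top⟩
  have m2 := (hf.memLp hΩ hc hs).1
  have i2 : Integrable (fun x => f x ^ 2) (volume.restrict D) := m2.integrable_sq
  have i1 : Integrable f (volume.restrict D) := m2.integrable one_le_two
  have e : ∀ x, ∫ y in D, (f x - f y) ^ 2 =
      (volume D).toReal * f x ^ 2 - 2 * (∫ y in D, f y) * f x + ∫ y in D, f y ^ 2 := fun x => by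
    have : ∀ y, (f x - f y) ^ 2 = (f x ^ 2 - 2 * f x * f y) + f y ^ 2 := fun y => by ring
    simp only [this]
    have j : Integrable (fun y => f x ^ 2 - 2 * f x * f y) (volume.restrict D) :=
      (integrable_const _).sub (i1.const_mul _)
    rw [integral_add j i2, integral_sub (integrable_const _) (i1.const_mul _),
      integral_const_mul]
    simp [Measure.real]
    ring
  have i3 : IntegrableOn (fun x => ∫ y in D, (f x - f y) ^ 2) D := by
    simp only [e]
    exact ((i2.const_mul _).sub (i1.const_mul _)).add (integrable_const _)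
  obtain ⟨x, -, hx⟩ := exists_le_setAverage h0 hfin i3
  refine ⟨f x, ?_⟩
  have hv : 0 < (volume D).toReal := ENNReal.toReal_pos h0 hfin
  rw [setAverage_eq, smul_eq_mul, Measure.real, le_inv_mul_iff₀ hv] at hx
  have : ∀ y, (f y - f x) ^ 2 = (f x - f y) ^ 2 := fun y => by ring
  simp only [this]
  refine le_of_mul_le_mul_left (hx.trans (hP.trans (le_of_eq ?_))) hv
  ring

/-- `H1.exists_weak` gives `f, G`; test with `J = W.indicator (G - Y₀)`: `⟪K n, J⟫ = ⟪Y n, J⟫`, `s2c_lim`; so `∫ ‖J‖² = 0`; `H1.loc`, `H1loc.congr` -/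
theorem ucp_lim {W : Set E} (hW : IsOpen W) {φ : ℕ → E → ℝ} {K Y : ℕ → E → E} {Y₀ : E → E}
    (h : ∀ n, H1 (φ n) (K n)) {M : ℝ} (hM : ∀ n, nsq (φ n) ≤ M ∧ ∫ x, ‖K n x‖ ^ 2 ≤ M)
    (hY : ∀ n, MemLp (Y n) 2 volume) (hY0 : MemLp Y₀ 2 volume) (hKY : ∀ n, ∀ x ∈ W, K n x = Y n x)
    (hl : Tendsto (fun n => eLpNorm (fun x => Y n x - Y₀ x) 2 volume) atTop (𝓝 0)) : ∃ f, H1loc W f Y₀ := by
  obtain ⟨f, G, s, hs, hf, -, hw⟩ := H1.exists_weak h hM
  have hJ : MemLp (W.indicator fun x => G x - Y₀ x) 2 volume := (hf.mG.sub hY0).indicator hW.measurableSet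
  have t1 := hw _ hJ
  have t2 := (s2c_lim hJ hY hY0 hl).comp hs.tendsto_atTop
  have e : ∀ n, ∫ x, ⟪K n x, W.indicator (fun x => G x - Y₀ x) x⟫ =
      ∫ x, ⟪W.indicator (fun x => G x - Y₀ x) x, Y n x⟫ := fun n => by
    refine integral_congr_ae (Eventually.of_forall fun x => ?_)
    by_cases hx : x ∈ W
    · simp only [hKY n x hx, real_inner_comm]
    · simp [indicator_of_notMem hx]
  simp only [e] at t1
  have t3 := tendsto_nhds_unique t1 t2
  have int : ∀ {A B : E → E}, MemLp A 2 volume → MemLp B 2 volume → Integrable fun x => ⟪A x, B x⟫ :=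
    fun hA hB => (hA.norm.integrable_mul hB.norm).mono' (hA.1.inner hB.1)
      (Eventually.of_forall fun x => norm_inner_le_norm _ _)
  have t4 : ∫ x, ‖W.indicator (fun x => G x - Y₀ x) x‖ ^ 2 = 0 := by
    rw [← sub_eq_zero, ← integral_sub (int hf.mG hJ) (int hJ hY0)] at t3
    refine Eq.trans (integral_congr_ae (Eventually.of_forall fun x => ?_)) t3
    by_cases hx : x ∈ W
    · simp only [indicator_of_mem hx]
      rw [real_inner_comm (Y₀ x), ← inner_sub_left, real_inner_self_eq_norm_sq]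
    · simp [indicator_of_notMem hx]
  rw [integral_eq_zero_iff_of_nonneg (fun x => sq_nonneg _) (s2a_sq hJ)] at t4
  refine ⟨f, (hf.loc W).congr ?_⟩
  filter_upwards [t4] with x hx hxW
  simp only [indicator_of_mem hxW, Pi.zero_apply, ne_eq, OfNat.ofNat_ne_zero, not_false_eq_true, pow_eq_zero_iff,
    norm_eq_zero, sub_eq_zero] at hx
  exact ⟨rfl, hx⟩

end Crest.Agent.R335
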