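import Crest.Agent.R335.UCP_D

/-!
# R335/UCP_C1: smooth stream functions
-/

set_option autoImplicit false

namespace Crest.Agent.R335

open MeasureTheory Set Filter Topology
open scoped Gradient RealInnerProductSpace ENNReal ContDiff
open Crest.MathPhysics.ThreeBody
open scoped Convolution
open ContinuousLinearMap (lsmul)

variable {E : Type} [NormedAddCommGroup E] [InnerProductSpace ℝ E] [FiniteDimensional ℝ E]
  [MeasurableSpace E] [BorelSpace E]


theorem uc1_fderiv {X : E2 → E2} (hX : MemLp X 2 volume) {ρ : E2 → ℝ} (hρ : ContDiff ℝ ∞ ρ)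
    (hc : HasCompactSupport ρ) (x v : E2) :
    fderiv ℝ (ρ ⋆[lsmul ℝ ℝ] X) x v = ∫ t, fderiv ℝ ρ (x - t) v • X t := by
  have h1 := hc.hasFDerivAt_convolution_right (lsmul ℝ ℝ : ℝ →L[ℝ] E2 →L[ℝ] E2).flip (s2a_loc hX)
    (hρ.of_le (m := 1) (by simp)) x
  rw [convolution_flip] at h1
  rw [h1.fderiv, convolution_precompR_apply _ (s2a_loc hX) (hc.fderiv ℝ)
    (hρ.continuous_fderiv (by simp)), convolution_def]
  simp only [ContinuousLinearMap.flip_apply, ContinuousLinearMap.lsmul_apply]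

theorem uc1_sum (v : E2) :
    v = v 0 • EuclideanSpace.single 0 (1 : ℝ) + v 1 • EuclideanSpace.single 1 (1 : ℝ) := by
  ext i; fin_cases i <;> simp

theorem uc1_div {X : E2 → E2} (hX : MemLp X 2 volume) {ρ : E2 → ℝ} (hρ : ContDiff ℝ ∞ ρ)
    (hc : HasCompactSupport ρ) (x : E2) (h : ∫ p, ⟪X p, ∇ (fun t => ρ (x - t)) p⟫ = 0) :
    fderiv ℝ (ρ ⋆[lsmul ℝ ℝ] X) x (EuclideanSpace.single 0 1) 0 +
      fderiv ℝ (ρ ⋆[lsmul ℝ ℝ] X) x (EuclideanSpace.single 1 1) 1 = 0 := by
  have hi : ∀ v : E2, Integrable fun t => fderiv ℝ ρ (x - t) v • X t := fun v =>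
    (s2a_loc hX).integrable_smul_left_of_hasCompactSupport
      (((hρ.continuous_fderiv (by simp)).comp (continuous_const.sub continuous_id)).clm_apply continuous_const)
      (((hc.fderiv ℝ).comp_homeomorph (Homeomorph.subLeft x)).comp_left
        (g := fun L : E2 →L[ℝ] ℝ => L v) rfl)
  have hp : ∀ (v : E2) (i : Fin 2), (∫ t, fderiv ℝ ρ (x - t) v • X t) i =
      ∫ t, fderiv ℝ ρ (x - t) v * X t i := fun v i =>
    ((EuclideanSpace.proj i : E2 →L[ℝ] ℝ).integral_comp_comm (hi v)).symm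
  have hq : ∀ (v : E2) (i : Fin 2), Integrable fun t => fderiv ℝ ρ (x - t) v * X t i := fun v i =>
    (EuclideanSpace.proj i : E2 →L[ℝ] ℝ).integrable_comp (hi v)
  rw [uc1_fderiv hX hρ hc, uc1_fderiv hX hρ hc, hp, hp, ← integral_add (hq _ _) (hq _ _), ← neg_eq_zero,
    ← integral_neg, ← h]
  refine integral_congr_ae (Eventually.of_forall fun t => ?_)
  have h3 := ((hρ.differentiable (by simp)) (x - t)).hasFDerivAt.comp t ((hasFDerivAt_id t).const_sub x)
  simp only
  rw [real_inner_comm, inner_gradient_left, show fderiv ℝ (fun t => ρ (x - t)) t = _ from h3.fderiv]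
  conv_rhs => rw [uc1_sum (X t)]
  simp only [ContinuousLinearMap.comp_apply, map_add, map_smul, smul_eq_mul, neg_apply,
    ContinuousLinearMap.id_apply, map_neg]
  ring

/-- `Xb = ρ ⋆ X` (`ρ = b.normed volume`) is smooth (`s2a_conv_sm`).  Its components are `ρ ⋆ (fun p => X p i)`, and as in the proof of `s2a_grad_conv`
`fderiv ℝ (ρ ⋆ Xᵢ) x v = ∫ t, fderiv ℝ ρ (x - t) v * X t i`; `hdiv` with `ξ = fun t => ρ (x - t)` (`ContDiffBump.tsupport_normed_eq`) gives
`∂₀ Xb₀ + ∂₁ Xb₁ = 0` on `W`.  So `ω x = innerSL ℝ (Jr (Xb x))` has a symmetric derivative (expand `u, v` in coordinates), and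
`Convex.exists_forall_hasFDerivAt_of_fderiv_symmetric` gives `σ`; `contDiffOn_succ_iff_fderiv_of_isOpen` for the regularity. -/
theorem ucp_moll {W : Set E2} (hW : IsOpen W) (hc : Convex ℝ W) {X : E2 → E2} (hX : MemLp X 2 volume)
    (b : ContDiffBump (0 : E2))
    (hdiv : ∀ x ∈ W, ∀ ξ, Tst (Metric.closedBall x b.rOut) ξ → ∫ p, ⟪X p, ∇ ξ p⟫ = 0) :
    ∃ σ : E2 → ℝ, ContDiffOn ℝ 1 σ W ∧ ∀ x ∈ W, ∇ σ x = Jr ((b.normed volume ⋆[lsmul ℝ ℝ] X) x) := by
  set ρ : E2 → ℝ := b.normed volume with hρ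
  have hρs : ContDiff ℝ ∞ ρ := b.contDiff_normed
  have hρc : HasCompactSupport ρ := b.hasCompactSupport_normed
  set Xb : E2 → E2 := ρ ⋆[lsmul ℝ ℝ] X with hXb
  have hs : ContDiff ℝ ∞ Xb := s2a_conv_sm b hX
  have hd : Differentiable ℝ Xb := hs.differentiable (by simp)
  set L : E2 →L[ℝ] E2 →L[ℝ] ℝ := (innerSL ℝ : E2 →L[ℝ] E2 →L[ℝ] ℝ).comp Jr with hL
  have hL' : ∀ u v : E2, L u v = ⟪Jr u, v⟫ := fun u v => rfl
  have hω : ∀ a, HasFDerivAt (fun x => L (Xb x)) (L.comp (fderiv ℝ Xb a)) a := fun a =>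
    L.hasFDerivAt.comp a (hd a).hasFDerivAt
  obtain ⟨σ, hσ⟩ : ∃ σ : E2 → ℝ, ∀ a ∈ W, HasFDerivAt σ ((fun x => L (Xb x)) a) a :=
    hc.exists_forall_hasFDerivAt_of_fderiv_symmetric hW
    (fun a _ => (hω a).differentiableAt.differentiableWithinAt) (fun a ha u v => by
      have hξ : Tst (Metric.closedBall a b.rOut) fun t => ρ (a - t) := by
        refine ⟨hρs.comp (contDiff_const.sub contDiff_id), hρc.comp_homeomorph (Homeomorph.subLeft a), ?_⟩
        refine closure_minimal (fun t ht => ?_) Metric.isClosed_closedBall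
        have h1 : a - t ∈ tsupport ρ := subset_closure ht
        rw [hρ, b.tsupport_normed_eq, mem_closedBall_zero_iff] at h1
        rwa [Metric.mem_closedBall, dist_comm, dist_eq_norm]
      have h0 := uc1_div hX hρs hρc a (hdiv a ha _ hξ)
      rw [(hω a).fderiv]
      simp only [ContinuousLinearMap.comp_apply, hL', ucp_inner2, Jr_zero, Jr_one]
      rw [← hXb] at h0
      have e : ∀ (w : E2) (i : Fin 2), fderiv ℝ Xb a w i = w 0 * fderiv ℝ Xb a (EuclideanSpace.single 0 1) i +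
          w 1 * fderiv ℝ Xb a (EuclideanSpace.single 1 1) i := by
        intro w i
        conv_lhs => rw [uc1_sum w]
        simp only [map_add, map_smul, PiLp.add_apply, PiLp.smul_apply, smul_eq_mul]
      rw [e u, e u, e v, e v]
      linear_combination (u 0 * v 1 - u 1 * v 0) * h0)
  refine ⟨σ, ?_, fun x hx => ?_⟩
  · rw [show (1 : WithTop ℕ∞) = 0 + 1 from rfl, contDiffOn_succ_iff_fderiv_of_isOpen hW]
    refine ⟨fun a ha => (hσ a ha).differentiableAt.differentiableWithinAt, by simp, ?_⟩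
    rw [contDiffOn_zero]
    exact ((L.continuous.comp hs.continuous).continuousOn).congr fun a ha => (hσ a ha).fderiv
  · refine ext_inner_right ℝ fun v => ?_
    rw [inner_gradient_left, (hσ x hx).fderiv, hL']

end Crest.Agent.R335
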