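import Crest.Agent.R335.S9b

/-!
# R335/UCP_D: definitions for the part `UCP` (owner helper44).  DO NOT CHANGE.

Plan of the proof of `ucp2` (plane): `X = a G` is divergence free, so there is a stream function `σ` with `∇σ = a J G` near a compact
convex set (`UCP_C`, `UCP_E`).  With `F = (τ, σ)` and a vector field `k = (k1, k2)` on `ℝ × ℝ` test `div (a G) = 0` with `χ² k1(F)` and
`div (J G) = 0` (`UCP_A`) with `χ² k2(F)`:  `∫ χ² (div k)(F) a ‖G‖² = - cross terms` (`UCP_F`).  For the field of `UCP_B` this bounds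
`∇ log (1 + log (1 + 1/(‖F‖² + η)))` in `L²` uniformly in `η`, and the Poincaré inequality gives the contradiction (`UCP_G`).

Plan of the reduction `E3 → E2`: cylindrical coordinates `cyp α p` (`UCP_I`), circle averages `avgG` (`UCP_J`), `UCP_K`, `UCP_L`, `UCP_M`.
-/

set_option autoImplicit false

namespace Crest.Agent.R335

open MeasureTheory Set Filter Topology
open scoped Gradient RealInnerProductSpace ENNReal ContDiff
open Crest.MathPhysics.ThreeBody

/-- rotation by a right angle -/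
noncomputable def Jr : E2 →L[ℝ] E2 := LinearMap.toContinuousLinearMap
  { toFun := fun v => !₂[-v 1, v 0]
    map_add' := fun v w => by ext i; fin_cases i <;> simp [add_comm]
    map_smul' := fun c v => by ext i; fin_cases i <;> simp }

theorem Jr_def (v : E2) : Jr v = !₂[-v 1, v 0] := rfl
@[simp] theorem Jr_zero (v : E2) : Jr v 0 = -v 1 := rfl
@[simp] theorem Jr_one (v : E2) : Jr v 1 = v 0 := rfl

theorem ucp_inner2 (v w : E2) : ⟪v, w⟫ = v 0 * w 0 + v 1 * w 1 := by
  simp [PiLp.inner_apply, Fin.sum_univ_two, mul_comm]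

theorem ucp_inner3 (v w : E3) : ⟪v, w⟫ = v 0 * w 0 + v 1 * w 1 + v 2 * w 2 := by
  simp [PiLp.inner_apply, Fin.sum_univ_three, mul_comm]

theorem ucp_norm2 (v : E2) : ‖v‖ ^ 2 = v 0 ^ 2 + v 1 ^ 2 := by
  rw [← real_inner_self_eq_norm_sq, ucp_inner2]; ring

theorem inner_Jr_self (v : E2) : ⟪v, Jr v⟫ = 0 := by
  rw [ucp_inner2, Jr_zero, Jr_one]; ring

theorem inner_Jr_self' (v : E2) : ⟪Jr v, v⟫ = 0 := by
  rw [real_inner_comm, inner_Jr_self]

theorem inner_Jr_Jr (v w : E2) : ⟪Jr v, Jr w⟫ = ⟪v, w⟫ := by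
  simp only [ucp_inner2, Jr_zero, Jr_one]; ring

theorem norm_Jr (v : E2) : ‖Jr v‖ = ‖v‖ := by
  rw [← sq_eq_sq₀ (norm_nonneg _) (norm_nonneg _), ← real_inner_self_eq_norm_sq, inner_Jr_Jr,
    real_inner_self_eq_norm_sq]

/-- divergence of the field `(k1, k2)` -/
noncomputable def dvg (k1 k2 : ℝ × ℝ → ℝ) (w : ℝ × ℝ) : ℝ := fderiv ℝ k1 w (1, 0) + fderiv ℝ k2 w (0, 1)

/-- a field whose divergence controls the field and the gradient of `L` -/
structure Fld (k1 k2 L : ℝ × ℝ → ℝ) : Prop where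
  c1 : ContDiff ℝ 1 k1
  c2 : ContDiff ℝ 1 k2
  cL : ContDiff ℝ 1 L
  bd : ∃ B : ℝ, ∀ w, ‖fderiv ℝ k1 w‖ ≤ B ∧ ‖fderiv ℝ k2 w‖ ≤ B ∧ ‖fderiv ℝ L w‖ ≤ B
  hk : ∀ w, k1 w ^ 2 + k2 w ^ 2 ≤ dvg k1 k2 w + 1
  hL : ∀ w, fderiv ℝ L w (1, 0) ^ 2 + fderiv ℝ L w (0, 1) ^ 2 ≤ 2 * dvg k1 k2 w

/-- the log-log function -/
noncomputable def llog (η : ℝ) (w : ℝ × ℝ) : ℝ := Real.log (1 + Real.log (1 + 1 / (w.1 ^ 2 + w.2 ^ 2 + η)))

/-- cylindrical coordinates: `p = (ρ, z)`, angle `α` -/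
noncomputable def cyp (α : ℝ) : E2 →L[ℝ] E3 := LinearMap.toContinuousLinearMap
  { toFun := fun p => !₂[p 0 * Real.cos α, p 0 * Real.sin α, p 1]
    map_add' := fun v w => by ext i; fin_cases i <;> simp [add_mul]
    map_smul' := fun c v => by ext i; fin_cases i <;> simp [mul_assoc] }

/-- the adjoint of `cyp α` -/
noncomputable def cya (α : ℝ) : E3 →L[ℝ] E2 := LinearMap.toContinuousLinearMap
  { toFun := fun v => !₂[Real.cos α * v 0 + Real.sin α * v 1, v 2]
    map_add' := fun v w => by ext i; fin_cases i <;> simp; ring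
    map_smul' := fun c v => by ext i; fin_cases i <;> simp; ring }

theorem cyp_def (α : ℝ) (p : E2) : cyp α p = !₂[p 0 * Real.cos α, p 0 * Real.sin α, p 1] := rfl
@[simp] theorem cyp_zero (α : ℝ) (p : E2) : cyp α p 0 = p 0 * Real.cos α := rfl
@[simp] theorem cyp_one (α : ℝ) (p : E2) : cyp α p 1 = p 0 * Real.sin α := rfl
@[simp] theorem cyp_two (α : ℝ) (p : E2) : cyp α p 2 = p 1 := rfl
theorem cya_def (α : ℝ) (v : E3) : cya α v = !₂[Real.cos α * v 0 + Real.sin α * v 1, v 2] := rfl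
@[simp] theorem cya_zero (α : ℝ) (v : E3) : cya α v 0 = Real.cos α * v 0 + Real.sin α * v 1 := rfl
@[simp] theorem cya_one (α : ℝ) (v : E3) : cya α v 1 = v 2 := rfl

theorem inner_cya (α : ℝ) (v : E3) (y : E2) : ⟪cya α v, y⟫ = ⟪v, cyp α y⟫ := by
  simp only [ucp_inner2, ucp_inner3, cya_zero, cya_one, cyp_zero, cyp_one, cyp_two]; ring

/-- the coordinates `(ρ, z)` of a point -/
noncomputable def prj (x : E3) : E2 := !₂[cyl x, x 2]

@[simp] theorem prj_zero (x : E3) : prj x 0 = cyl x := rfl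
@[simp] theorem prj_one (x : E3) : prj x 1 = x 2 := rfl

/-- the field `Y₀ e_ρ + Y₁ e_z` -/
noncomputable def lft (Y : E2 → E2) (x : E3) : E3 :=
  !₂[Y (prj x) 0 * (x 0 / cyl x), Y (prj x) 0 * (x 1 / cyl x), Y (prj x) 1]

/-- the half plane -/
def H2 : Set E2 := {p | 0 < p 0}

/-- the open quadrant -/
def Q2 : Set E2 := {p | 0 < p 0 ∧ 0 < p 1}

/-- the upper half space without the axis -/
def Om3 : Set E3 := {x | x ∈ offA ∧ 0 < x 2}

/-- the measure `dρ dz dα` -/
noncomputable def cym : Measure (E2 × ℝ) := (volume.restrict H2).prod (volume.restrict (Ioo (-Real.pi) Real.pi))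

/-- circle average of the `(ρ, z)` components of a field -/
noncomputable def avgG (G : E3 → E3) (p : E2) : E2 :=
  (2 * Real.pi)⁻¹ • ∫ α in Ioo (-Real.pi) Real.pi, cya α (G (cyp α p))

/-- square integrable on compact subsets -/
def L2l {E F : Type} [TopologicalSpace E] [MeasureSpace E] [NormedAddCommGroup F] (Ω : Set E) (f : E → F) : Prop :=
  ∀ C, IsCompact C → C ⊆ Ω → MemLp f 2 (volume.restrict C)

/-- continuous with compact support in `Ω` -/
structure Ccs {E F : Type} [TopologicalSpace E] [TopologicalSpace F] [Zero F] (Ω : Set E) (f : E → F) : Prop where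
  cont : Continuous f
  cpt : HasCompactSupport f
  sub : tsupport f ⊆ Ω

end Crest.Agent.R335
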