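import Crest.Agent.R335.UCP_A

/-!
# R335/UCP_F1: the identity behind the energy estimate
-/

set_option autoImplicit false

namespace Crest.Agent.R335

open MeasureTheory Set Filter Topology
open scoped Gradient RealInnerProductSpace ENNReal ContDiff
open Crest.MathPhysics.ThreeBody


variable {W : Set E2} {a τ σ : E2 → ℝ} {G : E2 → E2}

/-- `ξ₁ = χ² k1(τ, σ)` and `ξ₂ = χ² k2(τ, σ)` are in `TH W` (`H1loc.comp2_lip`, `H1loc.th_mul`, `s13d_grad_sq`-type formula `∇ χ² = (2 χ) • ∇ χ` from `s2a_grad_mul`).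
`TH.ext_eq` with `J = a • G` (`L2l.smul`), `h = 0` gives `∫ ⟪a • G, K₁⟫ = 0`, `ucp_curl` gives `∫ ⟪Jr G, K₂⟫ = 0`.  The integrand below is
`⟪a • G, K₁⟫ + ⟪Jr G, K₂⟫` (`inner_Jr_self`, `inner_Jr_self'`, `inner_Jr_Jr`).  Integrability: `K₁, K₂ ∈ L²` vanish off `C = tsupport χ`, replace `a • G` by
`C.indicator (a • G) ∈ L²` (`memLp_indicator_iff_restrict`, `MemLp.integrable_inner`-type lemma as in `H1.int_inner`). -/
theorem ucp_ident (hW : IsOpen W) (ha : ContinuousOn a W) (hτ : H1loc W τ G) (hσ : H1loc W σ fun p => a p • Jr (G p))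
    (heq : ∀ ξ, Tst W ξ → ∫ p, a p * ⟪G p, ∇ ξ p⟫ = 0) {χ : E2 → ℝ} (hχ : Tst W χ) {k1 k2 L : ℝ × ℝ → ℝ}
    (hF : Fld k1 k2 L) :
    Integrable (fun p => χ p ^ 2 * (dvg k1 k2 (τ p, σ p) * (a p * ‖G p‖ ^ 2)) +
      2 * χ p * (k1 (τ p, σ p) * (a p * ⟪G p, ∇ χ p⟫) + k2 (τ p, σ p) * ⟪Jr (G p), ∇ χ p⟫)) ∧
    ∫ p, (χ p ^ 2 * (dvg k1 k2 (τ p, σ p) * (a p * ‖G p‖ ^ 2)) +
      2 * χ p * (k1 (τ p, σ p) * (a p * ⟪G p, ∇ χ p⟫) + k2 (τ p, σ p) * ⟪Jr (G p), ∇ χ p⟫)) = 0 := by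
  obtain ⟨B, hB⟩ := hF.bd
  have hc1 : ContDiff ℝ 1 χ := hχ.sm.of_le (by norm_cast)
  have hs : tsupport (fun p => χ p ^ 2) ⊆ tsupport χ := by
    simpa only [sq] using tsupport_mul_subset_left
  have hcp : HasCompactSupport fun p => χ p ^ 2 := hχ.cpt.of_isClosed_subset (isClosed_tsupport _) hs
  have hg : ∀ p, ∇ (fun p => χ p ^ 2) p = (2 * χ p) • ∇ χ p := fun p => by
    have h2 := (hc1.differentiable one_ne_zero p).hasFDerivAt.pow 2
    unfold gradient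
    rw [show fderiv ℝ (fun x => χ x ^ 2) p = _ from h2.fderiv]
    simp
  have t1 := (H1loc.comp2_lip hW hτ hσ hF.c1 fun t => (hB t).1).th_mul hW (hc1.pow 2) hcp (hs.trans hχ.sub)
  have t2 := (H1loc.comp2_lip hW hτ hσ hF.c2 fun t => (hB t).2.1).th_mul hW (hc1.pow 2) hcp (hs.trans hχ.sub)
  simp only [hg] at t1 t2
  have hX : L2l W fun p => a p • G p := (hτ.l2l hW).2.smul ha
  have i1 := TH.ext_eq hW (J := fun p => a p • G p) (h := fun _ => 0) hX (fun C _ _ => MemLp.zero)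
    (fun φ hφ => by simpa only [real_inner_smul_left, zero_mul, integral_zero, add_zero] using heq φ hφ) t1
  have i2 := ucp_curl hW hτ t2
  simp only [zero_mul, integral_zero, add_zero] at i1
  have hm : MeasurableSet (tsupport χ) := (isClosed_tsupport _).measurableSet
  have int : ∀ (J K : E2 → E2), L2l W J → MemLp K 2 volume → (∀ p, p ∉ tsupport χ → K p = 0) →
      Integrable fun p => ⟪J p, K p⟫ := fun J K hJ hK h0 => by
    have hJ' := (memLp_indicator_iff_restrict hm).2 (hJ _ hχ.cpt hχ.sub)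
    have : Integrable fun p => ⟪(tsupport χ).indicator J p, K p⟫ :=
      (hJ'.norm.integrable_mul hK.norm).mono' (hJ'.1.inner hK.1)
        (Eventually.of_forall fun x => norm_inner_le_norm _ _)
    refine this.congr (Eventually.of_forall fun p => ?_)
    by_cases hp : p ∈ tsupport χ
    · simp only [indicator_of_mem hp]
    · simp only [h0 p hp, inner_zero_right]
  have j1 := int _ _ hX t1.h1.mG fun p hp => by simp [image_eq_zero_of_notMem_tsupport hp]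
  have j2 := int (fun p => Jr (G p)) _ (fun C hC hs => Jr.comp_memLp' ((hτ.l2l hW).2 C hC hs)) t2.h1.mG
    fun p hp => by simp [image_eq_zero_of_notMem_tsupport hp]
  have j3 := j1.add j2
  have i3 := integral_add j1 j2
  rw [i1, i2, add_zero] at i3
  have e : ∀ p, χ p ^ 2 * (dvg k1 k2 (τ p, σ p) * (a p * ‖G p‖ ^ 2)) +
      2 * χ p * (k1 (τ p, σ p) * (a p * ⟪G p, ∇ χ p⟫) + k2 (τ p, σ p) * ⟪Jr (G p), ∇ χ p⟫) =
      ⟪a p • G p, χ p ^ 2 • (fderiv ℝ k1 (τ p, σ p) (1, 0) • G p + fderiv ℝ k1 (τ p, σ p) (0, 1) • a p • Jr (G p)) +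
        k1 (τ p, σ p) • (2 * χ p) • ∇ χ p⟫ +
      ⟪Jr (G p), χ p ^ 2 • (fderiv ℝ k2 (τ p, σ p) (1, 0) • G p + fderiv ℝ k2 (τ p, σ p) (0, 1) • a p • Jr (G p)) +
        k2 (τ p, σ p) • (2 * χ p) • ∇ χ p⟫ := fun p => by
    simp only [inner_add_right, real_inner_smul_left, real_inner_smul_right, inner_Jr_self, inner_Jr_self',
      inner_Jr_Jr, real_inner_self_eq_norm_sq, norm_Jr, dvg]
    ring
  simp only [e]
  exact ⟨j3, i3⟩

end Crest.Agent.R335
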