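import Crest.Agent.R335.UCP_H1

/-!
# R335/UCP_H: geometry of cylindrical coordinates
-/

set_option autoImplicit false

namespace Crest.Agent.R335

open MeasureTheory Set Filter Topology
open scoped Gradient RealInnerProductSpace ENNReal ContDiff
open Crest.MathPhysics.ThreeBody


theorem Tst.ccs {E : Type} [NormedAddCommGroup E] [InnerProductSpace ℝ E] [FiniteDimensional ℝ E] {Ω : Set E} {φ : E → ℝ}
    (h : Tst Ω φ) : Ccs Ω φ := ⟨h.sm.continuous, h.cpt, h.sub⟩

theorem uh_contDiffAt_prj {x : E3} (hx : x ∈ offA) : ContDiffAt ℝ ∞ prj x := by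
  refine contDiffAt_euclidean.2 fun i => ?_
  fin_cases i
  · exact contDiffOn_cyl.contDiffAt (isOpen_offA.mem_nhds hx)
  · exact (EuclideanSpace.proj 2 : E3 →L[ℝ] ℝ).contDiff.contDiffAt

theorem uh_ev_zero {F : Type} [NormedAddCommGroup F] {θ : E2 → F} {x : E3} (hx : prj x ∉ tsupport θ) :
    (fun x => θ (prj x)) =ᶠ[𝓝 x] fun _ => 0 :=
  (continuous_prj.tendsto x).eventually (notMem_tsupport_iff_eventuallyEq.1 hx)

/-- gluing: continuous on the open set `Ω`, zero off a compact subset (`continuous_of_tsupport`, `HasCompactSupport.intro`) -/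
theorem ccs_of_zero {E F : Type} [NormedAddCommGroup E] [NormedAddCommGroup F] {Ω C : Set E} (hΩ : IsOpen Ω) (hC : IsCompact C)
    (hs : C ⊆ Ω) {f : E → F} (hf : ContinuousOn f Ω) (h0 : ∀ x, x ∉ C → f x = 0) : Ccs Ω f := by
  refine ⟨continuous_iff_continuousAt.2 fun x => ?_, HasCompactSupport.intro hC h0,
    (closure_minimal (Function.support_subset_iff'.2 h0) hC.isClosed).trans hs⟩
  by_cases hx : x ∈ Ω
  · exact hf.continuousAt (hΩ.mem_nhds hx)
  · refine (continuousAt_const (y := (0 : F))).congr ?_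
    filter_upwards [hC.isClosed.isOpen_compl.mem_nhds fun h => hx (hs h)] with y hy using (h0 y hy).symm

theorem Ccs.comp_prj {F : Type} [NormedAddCommGroup F] {θ : E2 → F} (h : Ccs Q2 θ) : Ccs Om3 fun x => θ (prj x) := by
  exact ccs_of_zero isOpen_Om3 (isCompact_prj h.cpt) (fun x hx => prj_mem_Q2.1 (h.sub hx))
    (h.cont.comp continuous_prj).continuousOn fun x hx => image_eq_zero_of_notMem_tsupport hx

theorem Ccs.lift {Y : E2 → E2} (h : Ccs Q2 Y) : Ccs Om3 (lft Y) := by
  refine ccs_of_zero isOpen_Om3 (isCompact_prj h.cpt) (fun x hx => prj_mem_Q2.1 (h.sub hx)) ?_ fun x hx => ?_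
  · have hY := h.cont.comp continuous_prj
    have h0 : Continuous fun x => Y (prj x) 0 := (EuclideanSpace.proj 0 : E2 →L[ℝ] ℝ).continuous.comp hY
    have h1 : Continuous fun x => Y (prj x) 1 := (EuclideanSpace.proj 1 : E2 →L[ℝ] ℝ).continuous.comp hY
    have hd : ∀ i : Fin 3, ContinuousOn (fun x : E3 => x i / cyl x) Om3 := fun i =>
      (EuclideanSpace.proj i : E3 →L[ℝ] ℝ).continuous.continuousOn.div continuous_cyl.continuousOn
        fun x hx => ne_of_gt hx.1
    have h2 : ContinuousOn (fun x => (lft Y x).ofLp) Om3 := continuousOn_pi.2 fun i => by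
      fin_cases i
      · exact h0.continuousOn.mul (hd 0)
      · exact h0.continuousOn.mul (hd 1)
      · exact h1.continuousOn
    exact (PiLp.continuous_toLp 2 _).comp_continuousOn h2
  · have h0 : Y (prj x) = 0 := image_eq_zero_of_notMem_tsupport hx
    ext i
    fin_cases i <;> simp [lft, h0]

/-- `contDiffOn_cyl`, `contDiff_of_tsupport` (or `ContDiffAt` at every point: off the support the function is locally zero) -/
theorem Tst.comp_prj {φ : E2 → ℝ} (h : Tst Q2 φ) : Tst Om3 fun x => φ (prj x) := by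
  have hc := h.ccs.comp_prj
  refine ⟨contDiff_iff_contDiffAt.2 fun x => ?_, hc.cpt, hc.sub⟩
  by_cases hx : prj x ∈ tsupport φ
  · exact h.sm.contDiffAt.comp x (uh_contDiffAt_prj (prj_mem_Q2.1 (h.sub hx)).1)
  · exact contDiffAt_const.congr_of_eventuallyEq (uh_ev_zero hx)

/-- chain rule with `grad_cyl` on `offA` (`ext_inner_right`, `inner_gradient_left`, `ucp_inner2`, `ucp_inner3`); on the axis both sides vanish
(`prj x ∉ tsupport φ`, `s1a_grad_zero`) -/
theorem Tst.grad_prj {φ : E2 → ℝ} (h : Tst Q2 φ) (x : E3) : ∇ (fun x => φ (prj x)) x = lft (∇ φ) x := by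
  by_cases hx : prj x ∈ tsupport φ
  · have hA : x ∈ offA := (prj_mem_Q2.1 (h.sub hx)).1
    have hp := ((uh_contDiffAt_prj hA).differentiableAt (by simp)).hasFDerivAt
    have hφ := (h.sm.differentiable (by simp) (prj x)).hasFDerivAt
    have h0 : HasFDerivAt cyl ((EuclideanSpace.proj 0 : E2 →L[ℝ] ℝ).comp (fderiv ℝ prj x)) x :=
      (EuclideanSpace.proj 0 : E2 →L[ℝ] ℝ).hasFDerivAt.comp x hp
    have h1 : HasFDerivAt (fun y : E3 => y 2) ((EuclideanSpace.proj 1 : E2 →L[ℝ] ℝ).comp (fderiv ℝ prj x)) x :=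
      (EuclideanSpace.proj 1 : E2 →L[ℝ] ℝ).hasFDerivAt.comp x hp
    have h2 := h1.unique (EuclideanSpace.proj 2 : E3 →L[ℝ] ℝ).hasFDerivAt
    refine ext_inner_right ℝ fun v => ?_
    have e0 : fderiv ℝ prj x v 0 = ⟪∇ cyl x, v⟫ := by
      rw [inner_gradient_left, h0.fderiv]
      rfl
    have e1 : fderiv ℝ prj x v 1 = v 2 := DFunLike.congr_fun h2 v
    have e2 : fderiv ℝ (fun x => φ (prj x)) x = (fderiv ℝ φ (prj x)).comp (fderiv ℝ prj x) :=
      (hφ.comp x hp).fderiv
    rw [inner_gradient_left, e2, ContinuousLinearMap.comp_apply, ← inner_gradient_left, ucp_inner2, e0, e1,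
      grad_cyl hA, real_inner_smul_left, ucp_inner3, ucp_inner3]
    simp only [lft, Matrix.cons_val_zero, Matrix.cons_val_one, Matrix.cons_val]
    ring
  · have h0 : ∇ φ (prj x) = 0 := s1a_grad_zero hx
    rw [gradient, (uh_ev_zero hx).fderiv_eq]
    ext i
    fin_cases i <;> simp [lft, h0]

end Crest.Agent.R335
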