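import Crest.Agent.R335.UCP_D

/-!
# R335/UCP_H1: geometry of cylindrical coordinates, first part
-/

set_option autoImplicit false

namespace Crest.Agent.R335

open MeasureTheory Set Filter Topology
open scoped Gradient RealInnerProductSpace ENNReal ContDiff
open Crest.MathPhysics.ThreeBody


theorem uh1_norm3 (v : E3) : ‖v‖ ^ 2 = v 0 ^ 2 + v 1 ^ 2 + v 2 ^ 2 := by
  rw [← real_inner_self_eq_norm_sq, ucp_inner3]; ring

theorem uh1_c2 {X : Type} [TopologicalSpace X] {f : X → E2} (h0 : Continuous fun x => f x 0)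
    (h1 : Continuous fun x => f x 1) : Continuous f := by
  have h : Continuous fun x => (f x).ofLp := continuous_pi fun i => by
    fin_cases i
    · exact h0
    · exact h1
  exact (PiLp.continuous_toLp 2 _).comp h

theorem uh1_c3 {X : Type} [TopologicalSpace X] {f : X → E3} (h0 : Continuous fun x => f x 0)
    (h1 : Continuous fun x => f x 1) (h2 : Continuous fun x => f x 2) : Continuous f := by
  have h : Continuous fun x => (f x).ofLp := continuous_pi fun i => by
    fin_cases i
    · exact h0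
    · exact h1
    · exact h2
  exact (PiLp.continuous_toLp 2 _).comp h

theorem isOpen_Q2 : IsOpen Q2 := by
  exact (isOpen_lt continuous_const (by fun_prop : Continuous fun p : E2 => p 0)).inter
    (isOpen_lt continuous_const (by fun_prop : Continuous fun p : E2 => p 1))

theorem convex_Q2 : Convex ℝ Q2 := by
  intro x hx y hy a b ha hb hab
  have key : ∀ s t : ℝ, 0 < s → 0 < t → 0 < a * s + b * t := fun s t hs ht => by
    rcases ha.eq_or_lt with h | h
    · rw [← h, zero_add] at hab
      rw [← h, hab]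
      linarith
    · have := mul_pos h hs
      have := mul_nonneg hb ht.le
      linarith
  exact ⟨key _ _ hx.1 hy.1, key _ _ hx.2 hy.2⟩

theorem isOpen_Om3 : IsOpen Om3 := by
  exact isOpen_offA.inter (isOpen_lt continuous_const (by fun_prop : Continuous fun x : E3 => x 2))

theorem measurableSet_H2 : MeasurableSet H2 := by
  exact (isOpen_lt continuous_const (by fun_prop : Continuous fun p : E2 => p 0)).measurableSet

theorem continuous_prj : Continuous prj := by
  exact uh1_c2 continuous_cyl (by simp only [prj_one]; fun_prop)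

theorem continuous_cyp : Continuous fun q : E2 × ℝ => cyp q.2 q.1 := by
  refine uh1_c3 ?_ ?_ ?_
  · simp only [cyp_zero]; fun_prop
  · simp only [cyp_one]; fun_prop
  · simp only [cyp_two]; fun_prop

theorem continuous_cya : Continuous fun q : ℝ × E3 => cya q.1 q.2 := by
  refine uh1_c2 ?_ ?_
  · simp only [cya_zero]; fun_prop
  · simp only [cya_one]; fun_prop

theorem norm_cyp (α : ℝ) (p : E2) : ‖cyp α p‖ = ‖p‖ := by
  rw [← sq_eq_sq₀ (norm_nonneg _) (norm_nonneg _), uh1_norm3, ucp_norm2, cyp_zero, cyp_one, cyp_two]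
  linear_combination p 0 ^ 2 * Real.cos_sq_add_sin_sq α

theorem norm_cya_le (α : ℝ) (v : E3) : ‖cya α v‖ ≤ ‖v‖ := by
  refine abs_le_of_sq_le_sq' ?_ (norm_nonneg _) |>.2
  rw [uh1_norm3, ucp_norm2, cya_zero, cya_one]
  have h := Real.cos_sq_add_sin_sq α
  have h1 : (Real.cos α * v 0 + Real.sin α * v 1) ^ 2 + (Real.sin α * v 0 - Real.cos α * v 1) ^ 2 =
      v 0 ^ 2 + v 1 ^ 2 := by linear_combination (v 0 ^ 2 + v 1 ^ 2) * h
  linarith [sq_nonneg (Real.sin α * v 0 - Real.cos α * v 1)]

theorem norm_prj (x : E3) : ‖prj x‖ = ‖x‖ := by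
  rw [← sq_eq_sq₀ (norm_nonneg _) (norm_nonneg _), norm_sq_cyl, ucp_norm2, prj_zero, prj_one]

theorem cyl_cyp (α : ℝ) {p : E2} (h : 0 ≤ p 0) : cyl (cyp α p) = p 0 := by
  rw [← sq_eq_sq₀ (cyl_nonneg _) h, cyl_sq, cyp_zero, cyp_one]
  linear_combination p 0 ^ 2 * Real.cos_sq_add_sin_sq α

theorem prj_cyp (α : ℝ) {p : E2} (h : 0 ≤ p 0) : prj (cyp α p) = p := by
  ext i
  fin_cases i
  · exact cyl_cyp α h
  · rfl

theorem lft_cyp (Y : E2 → E2) (α : ℝ) {p : E2} (h : 0 < p 0) : lft Y (cyp α p) = cyp α (Y p) := by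
  unfold lft
  rw [prj_cyp α h.le, cyl_cyp α h.le, cyp_zero, cyp_one, mul_div_cancel_left₀ _ h.ne', mul_div_cancel_left₀ _ h.ne']
  rfl

theorem prj_mem_Q2 {x : E3} : prj x ∈ Q2 ↔ x ∈ Om3 := by
  exact Iff.rfl

/-- closed and bounded (`norm_prj`) -/
theorem isCompact_prj {C : Set E2} (hC : IsCompact C) : IsCompact (prj ⁻¹' C) := by
  obtain ⟨r, hr⟩ := hC.isBounded.exists_norm_le
  refine Metric.isCompact_of_isClosed_isBounded (hC.isClosed.preimage continuous_prj)
    (isBounded_iff_forall_norm_le.2 ⟨r, fun x hx => ?_⟩)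
  rw [← norm_prj]
  exact hr _ hx

end Crest.Agent.R335
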