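import Crest.Agent.R335.UCP_H
import Crest.Agent.R335.UCP_I

/-!
# R335/UCP_J1: circle averages, first part
-/

set_option autoImplicit false

namespace Crest.Agent.R335

open MeasureTheory Set Filter Topology
open scoped Gradient RealInnerProductSpace ENNReal ContDiff
open Crest.MathPhysics.ThreeBody


/-- `cyl_int` (`Continuous.integrable_of_hasCompactSupport`, `Ccs.comp_prj`), `integral_prod`, `prj_cyp`; `θ = 0` off `H2`
(`setIntegral_eq_integral_of_forall_compl_eq_zero`) -/
theorem cyl_scal {θ : E2 → ℝ} (h : Ccs Q2 θ) : ∫ x, θ (prj x) = 2 * Real.pi * ∫ p, p 0 * θ p := by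
  have hi : Integrable fun x => θ (prj x) := h.comp_prj.cont.integrable_of_hasCompactSupport h.comp_prj.cpt
  obtain ⟨h1, h2⟩ := cyl_int hi
  rw [h2, cym, integral_prod _ h1, ← integral_const_mul,
    ← setIntegral_eq_integral_of_forall_compl_eq_zero (s := H2)
      (f := fun p => 2 * Real.pi * (p 0 * θ p)) fun p hp => ?_]
  · refine setIntegral_congr_fun measurableSet_H2 fun p hp => ?_
    simp only [prj_cyp _ (le_of_lt hp), smul_eq_mul, integral_const, MeasurableSet.univ, measureReal_restrict_apply,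
      univ_inter, Real.volume_real_Ioo]
    rw [max_eq_left (by linarith [Real.pi_pos])]
    ring
  · rw [image_eq_zero_of_notMem_tsupport fun hh => hp (h.sub hh).1]
    simp

/-- the components of the field are square integrable in cylindrical coordinates: `G' = (prj ⁻¹' C).indicator G ∈ L²(E3)` (`isCompact_prj`, `prj_mem_Q2`), `cyl_int` for `‖G'‖²`,
`cyl_meas`, `p 0 ≥ m > 0` on `C`, `norm_cya_le`, `continuous_cya`; `(volume.restrict C).prod ν = cym.restrict (C ×ˢ univ)` (`Measure.prod_restrict`) -/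
theorem cyl_memLp {G : E3 → E3} (hG : L2l Om3 G) {C : Set E2} (hC : IsCompact C) (hs : C ⊆ Q2) :
    MemLp (fun q : E2 × ℝ => cya q.2 (G (cyp q.2 q.1))) 2
      ((volume.restrict C).prod (volume.restrict (Ioo (-Real.pi) Real.pi))) := by
  have hC' := isCompact_prj hC
  have hG' : MemLp ((prj ⁻¹' C).indicator G) 2 volume :=
    (memLp_indicator_iff_restrict hC'.measurableSet).2 (hG _ hC' fun x hx => prj_mem_Q2.1 (hs hx))
  have hm : (volume.restrict C).prod (volume.restrict (Ioo (-Real.pi) Real.pi)) = cym.restrict (C ×ˢ univ) := by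
    rw [cym, ← Measure.prod_restrict, Measure.restrict_restrict hC.measurableSet, Measure.restrict_univ,
      inter_eq_left.2 (show C ⊆ H2 from fun p hp => (hs hp).1)]
  have hae : ∀ᵐ q ∂cym.restrict (C ×ˢ (univ : Set ℝ)), q.1 ∈ C := by
    filter_upwards [ae_restrict_mem (hC.measurableSet.prod MeasurableSet.univ)] with q hq using hq.1
  have he : ∀ q : E2 × ℝ, q.1 ∈ C → (prj ⁻¹' C).indicator G (cyp q.2 q.1) = G (cyp q.2 q.1) := fun q hq =>
    indicator_of_mem (by rw [mem_preimage, prj_cyp _ (hs hq).1.le]; exact hq) _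
  rw [hm]
  refine MemLp.ae_eq (f := fun q : E2 × ℝ => cya q.2 ((prj ⁻¹' C).indicator G (cyp q.2 q.1))) ?_ ?_
  · filter_upwards [hae] with q hq
    rw [he q hq]
  have m1 : AEStronglyMeasurable (fun q : E2 × ℝ => cya q.2 ((prj ⁻¹' C).indicator G (cyp q.2 q.1)))
      (cym.restrict (C ×ˢ univ)) :=
    Continuous.comp_aestronglyMeasurable (g := fun q : ℝ × E3 => cya q.1 q.2)
      (f := fun q : E2 × ℝ => (q.2, (prj ⁻¹' C).indicator G (cyp q.2 q.1))) continuous_cya
      (measurable_snd.aestronglyMeasurable.prodMk (cyl_meas hG'.1).restrict)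
  rcases C.eq_empty_or_nonempty with rfl | hne
  · simp
  obtain ⟨p₀, hp₀, hmin⟩ := hC.exists_isMinOn hne (f := fun p : E2 => p 0) (by fun_prop)
  have h0 : 0 < p₀ 0 := (hs hp₀).1
  refine (memLp_two_iff_integrable_sq_norm m1).2
    (((cyl_int (s2a_sq hG')).1.restrict.const_mul (p₀ 0)⁻¹).mono' (m1.norm.pow 2) ?_)
  filter_upwards [hae] with q hq
  rw [Real.norm_of_nonneg (sq_nonneg _), smul_eq_mul, ← mul_assoc]
  refine (pow_le_pow_left₀ (norm_nonneg _) (norm_cya_le _ _) 2).trans (le_mul_of_one_le_left (sq_nonneg _) ?_)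
  rw [inv_mul_eq_div, one_le_div h0]
  exact hmin hq

end Crest.Agent.R335
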