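import Crest.Agent.R335.Z_Def

/-!
# R335/Z_Br: exponential weights times cut-offs (gradient lemmas: `R83.grad_mul`, `R83.grad_comp`, `R83.grad_coord`, ...)
-/

set_option autoImplicit false

namespace Crest.Agent.R335

open MeasureTheory Set Filter Topology
open scoped Gradient RealInnerProductSpace ENNReal ContDiff
open Crest.MathPhysics.ThreeBody

variable {k b L C c e1 e2 : ℝ} {R d V0 S v φ u ψ : E3 → ℝ} {GR Gd Gφ Gu Gψ : E3 → E3}

theorem zbr_grad_sub_sq (a x : E3) : ∇ (fun y : E3 => ‖y - a‖ ^ 2) x = (2 : ℝ) • (x - a) := by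
  refine ext_inner_right ℝ fun b => ?_
  have h := (hasStrictFDerivAt_norm_sq (x - a)).hasFDerivAt.comp x ((hasFDerivAt_id x).sub_const a)
  rw [R83.inner_grad, show (fun y : E3 => ‖y - a‖ ^ 2) = (fun y : E3 => ‖y‖ ^ 2) ∘ fun y => id y - a from rfl,
    h.fderiv, real_inner_smul_left]
  simp [inner_sub_left]

theorem zbr_grad_zero {η : E3 → ℝ} {x : E3} {c : ℝ} (h : η =ᶠ[𝓝 x] fun _ => c) : ∇ η x = 0 := by
  rw [gradient, h.fderiv_eq]
  simp

theorem zbr_theta : ∃ M : ℝ, 0 ≤ M ∧ ∀ t, |deriv Real.smoothTransition t| ≤ M := by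
  have hc : Continuous (deriv Real.smoothTransition) :=
    (Real.smoothTransition.contDiff (n := 1)).continuous_deriv le_rfl
  obtain ⟨M, hM⟩ := isCompact_Icc.exists_bound_of_continuousOn (hc.continuousOn (s := Icc (0 : ℝ) 1))
  have hM0 : 0 ≤ M := (norm_nonneg _).trans (hM 0 (by simp))
  refine ⟨M, hM0, fun t => ?_⟩
  rcases lt_or_ge t 0 with h | h
  · have : Real.smoothTransition =ᶠ[𝓝 t] fun _ => (0 : ℝ) := by
      filter_upwards [Iio_mem_nhds h] with s hs using Real.smoothTransition.zero_of_nonpos (le_of_lt hs)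
    rw [this.deriv_eq]; simpa using hM0
  rcases lt_or_ge 1 t with h1 | h1
  · have : Real.smoothTransition =ᶠ[𝓝 t] fun _ => (1 : ℝ) := by
      filter_upwards [Ioi_mem_nhds h1] with s hs using Real.smoothTransition.one_of_one_le (le_of_lt hs)
    rw [this.deriv_eq]; simpa using hM0
  exact hM t ⟨h, h1⟩

theorem zbr_coord (i : Fin 3) {n : WithTop ℕ∞} : ContDiff ℝ n fun y : E3 => y i :=
  (EuclideanSpace.proj (𝕜 := ℝ) i).contDiff

theorem zbr_norm_e (i : Fin 3) : ‖R83.e i‖ = 1 := by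
  simp [R83.e]

/-- the gradient of a cut-off vanishes in the inner ball -/
theorem zbr_cut_sq {η : E3 → ℝ} {a : E3} {s M : ℝ} (h1 : ∀ x ∈ Metric.ball a s, η x = 1)
    (hg : ∀ x, ‖∇ η x‖ ≤ M / s) (x : E3) :
    ‖∇ η x‖ ^ 2 ≤ M ^ 2 * (if s ≤ ‖x - a‖ then 1 / s ^ 2 else 0) := by
  split_ifs with h
  · calc ‖∇ η x‖ ^ 2 ≤ (M / s) ^ 2 := by gcongr; exact hg x
      _ = _ := by ring
  · have hx : x ∈ Metric.ball a s := by
      rw [mem_ball_iff_norm]; exact lt_of_not_ge h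
    have : η =ᶠ[𝓝 x] fun _ => (1 : ℝ) := by
      filter_upwards [Metric.isOpen_ball.mem_nhds hx] with y hy using h1 y hy
    rw [zbr_grad_zero this]; simp

theorem z_br (a : E3) : ContDiff ℝ ∞ (zbr a) ∧
    ∀ x, ‖∇ (zbr a) x‖ ≤ 1 ∧ ‖x - a‖ ≤ zbr a x ∧ zbr a x ≤ 1 + ‖x - a‖ := by
  have hsq : ContDiff ℝ ∞ fun x : E3 => 1 + ‖x - a‖ ^ 2 :=
    contDiff_const.add ((contDiff_norm_sq ℝ).comp (contDiff_id.sub contDiff_const))
  have hpos : ∀ x : E3, 0 < 1 + ‖x - a‖ ^ 2 := fun x => by positivity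
  refine ⟨hsq.sqrt fun x => (hpos x).ne', fun x => ?_⟩
  have hle : ‖x - a‖ ≤ zbr a x := Real.le_sqrt_of_sq_le (by linarith)
  have hz : 0 < zbr a x := Real.sqrt_pos.2 (hpos x)
  refine ⟨?_, hle, ?_⟩
  · have h := R83.grad_comp (f := fun y : E3 => 1 + ‖y - a‖ ^ 2) (x := x)
      (Real.hasDerivAt_sqrt (hpos x).ne') (hsq.differentiable (by simp) x)
    rw [show zbr a = fun y : E3 => √(1 + ‖y - a‖ ^ 2) from rfl, h, R83.grad_const_add, zbr_grad_sub_sq, smul_smul,
      norm_smul]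
    change ‖1 / (2 * zbr a x) * 2‖ * _ ≤ 1
    rw [Real.norm_of_nonneg (by positivity)]
    calc 1 / (2 * zbr a x) * 2 * ‖x - a‖ = ‖x - a‖ / zbr a x := by field_simp
      _ ≤ 1 := (div_le_one hz).2 hle
  · refine Real.sqrt_le_iff.2 ⟨by positivity, ?_⟩
    nlinarith [norm_nonneg (x - a)]

/-- `∇ (e^E η) = e^E (η ∇ E + ∇ η)`, `(p + q)² ≤ (1 + t) p² + (1 + 1/t) q²` -/
theorem z_grad_exp_mul {E η : E3 → ℝ} (hE : ContDiff ℝ 1 E) (hη : ContDiff ℝ 1 η) {β t : ℝ} (ht : 0 < t) {x : E3}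
    (hβ : ‖∇ E x‖ ≤ β) :
    ‖∇ (fun y => Real.exp (E y) * η y) x‖ ^ 2 ≤
      (1 + t) * β ^ 2 * (Real.exp (E x) * η x) ^ 2 + (1 + t⁻¹) * Real.exp (E x) ^ 2 * ‖∇ η x‖ ^ 2 := by
  have hEd := hE.differentiable (by simp) x
  have hηd := hη.differentiable (by simp) x
  have h1 : ∇ (fun y => Real.exp (E y)) x = Real.exp (E x) • ∇ E x :=
    R83.grad_comp (Real.hasDerivAt_exp (E x)) hEd
  rw [R83.grad_mul hEd.exp hηd, h1]
  have hb : 0 ≤ β := (norm_nonneg _).trans hβ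
  have he := Real.exp_pos (E x)
  set p := β * |Real.exp (E x) * η x| with hp
  set q := Real.exp (E x) * ‖∇ η x‖ with hq
  have hn : ‖Real.exp (E x) • ∇ η x + η x • Real.exp (E x) • ∇ E x‖ ≤ p + q := by
    refine (norm_add_le _ _).trans ?_
    rw [norm_smul, norm_smul, norm_smul, Real.norm_of_nonneg he.le, Real.norm_eq_abs, hp, hq, abs_mul,
      abs_of_pos he]
    have : |η x| * (Real.exp (E x) * ‖∇ E x‖) ≤ |η x| * (Real.exp (E x) * β) := by gcongr
    linarith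
  have h2 : (p + q) ^ 2 ≤ (1 + t) * p ^ 2 + (1 + t⁻¹) * q ^ 2 := by
    have h3 : 0 ≤ t⁻¹ * (t * p - q) ^ 2 := by positivity
    have h4 : t⁻¹ * (t * p - q) ^ 2 = t * p ^ 2 - 2 * p * q + t⁻¹ * q ^ 2 := by field_simp; ring
    nlinarith
  calc _ ≤ (p + q) ^ 2 := by gcongr
    _ ≤ _ := h2
    _ = _ := by rw [hp, hq, mul_pow, sq_abs]; ring

/-- `F = e^(-α zbr a) θ η`, `θ x = Real.smoothTransition (60 * x 2 / l - 5)` (its derivative is bounded: continuous with
compact support; it vanishes for `x 2 > l / 10`), `η` from `exists_cut`; `t = 1` -/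
theorem z_exists_F : ∃ M : ℝ, 0 ≤ M ∧ ∀ (α : ℝ) (a : E3) (l s : ℝ), 0 ≤ α → 0 < l → 0 < s →
    ∃ F : E3 → ℝ, ContDiff ℝ 1 F ∧ HasCompactSupport F ∧
      tsupport F ⊆ {x | ‖x - a‖ ≤ 2 * s ∧ l / 12 ≤ x 2} ∧
      (∀ x, ‖x - a‖ < s → ‖x - a‖ ≤ 1 → l / 10 ≤ x 2 → Real.exp (-2 * α) ≤ F x) ∧
      ∀ x, ‖∇ F x‖ ^ 2 ≤ 2 * α ^ 2 * F x ^ 2 + M * (Real.exp (-2 * α * ‖x - a‖) *
        ((if x 2 ≤ l / 10 then 1 / l ^ 2 else 0) + if s ≤ ‖x - a‖ then 1 / s ^ 2 else 0)) := by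
  obtain ⟨M1, hM1, hcut⟩ := exists_cut (E := E3)
  obtain ⟨M0, hM0, hθ⟩ := zbr_theta
  refine ⟨4 * (M1 ^ 2 + (60 * M0) ^ 2), by positivity, fun α a l s hα hl hs => ?_⟩
  obtain ⟨η, hη, h01, h1, hg⟩ := hcut a s hs
  obtain ⟨hb, hbb⟩ := z_br a
  have hlin : ContDiff ℝ 1 fun x : E3 => 60 / l * x 2 - 5 :=
    (contDiff_const.mul (zbr_coord 2)).sub contDiff_const
  set θ : E3 → ℝ := fun x => Real.smoothTransition (60 / l * x 2 - 5) with hθd
  have hθs : ContDiff ℝ 1 θ := (Real.smoothTransition.contDiff (n := 1)).comp hlin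
  have hηs : ContDiff ℝ 1 η := hη.sm.of_le (by simp)
  have hEs : ContDiff ℝ 1 fun x => -α * zbr a x := contDiff_const.mul (hb.of_le (by simp))
  have hθ1 : ∀ x : E3, l / 10 ≤ x 2 → θ x = 1 := fun x hx => by
    refine Real.smoothTransition.one_of_one_le ?_
    have : 60 / l * (l / 10) ≤ 60 / l * x 2 := by gcongr
    have h2 : 60 / l * (l / 10) = 6 := by field_simp; ring
    linarith
  have hθ0 : ∀ x : E3, x 2 < l / 12 → θ x = 0 := fun x hx => by
    refine Real.smoothTransition.zero_of_nonpos ?_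
    have : 60 / l * x 2 ≤ 60 / l * (l / 12) := by gcongr
    have h2 : 60 / l * (l / 12) = 5 := by field_simp; ring
    linarith
  refine ⟨fun x => Real.exp (-α * zbr a x) * (θ x * η x), hEs.exp.mul (hθs.mul hηs),
    (hη.cpt.mul_left (f := θ)).mul_left (f := fun x => Real.exp (-α * zbr a x)), ?_, ?_, fun x => ?_⟩
  · refine closure_minimal (fun x hx => ?_) ?_
    · have hx' : θ x ≠ 0 ∧ η x ≠ 0 := mul_ne_zero_iff.1 (mul_ne_zero_iff.1 hx).2
      refine ⟨?_, ?_⟩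
      · have := hη.sub (subset_tsupport _ hx'.2)
        rwa [mem_closedBall_iff_norm] at this
      · by_contra h
        exact hx'.1 (hθ0 x (lt_of_not_ge h))
    · exact (isClosed_le (f := fun x : E3 => ‖x - a‖) (by fun_prop) continuous_const).inter
        (isClosed_le continuous_const (zbr_coord 2 (n := 0)).continuous)
  · intro x hx hx1 hx2
    beta_reduce
    rw [hθ1 x hx2, h1 x (mem_ball_iff_norm.2 hx), mul_one, mul_one]
    refine Real.exp_le_exp.2 ?_
    have := (hbb x).2.2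
    nlinarith
  · have hE : ‖∇ (fun x => -α * zbr a x) x‖ ≤ α := by
      rw [R83.grad_const_mul _ (hb.differentiable (by simp) x), norm_smul, norm_neg, Real.norm_of_nonneg hα]
      exact mul_le_of_le_one_right hα (hbb x).1
    have h := z_grad_exp_mul hEs (hθs.mul hηs) one_pos hE
    have hθg : ‖∇ θ x‖ ^ 2 ≤ (60 * M0) ^ 2 * (if x 2 ≤ l / 10 then 1 / l ^ 2 else 0) := by
      split_ifs with hx
      · have hd : HasDerivAt Real.smoothTransition (deriv Real.smoothTransition (60 / l * x 2 - 5))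
            (60 / l * x 2 - 5) :=
          ((Real.smoothTransition.contDiff (n := 1)).differentiable (by simp) _).hasDerivAt
        have e1 := R83.grad_comp (f := fun x : E3 => 60 / l * x 2 - 5) (x := x) hd
          (hlin.differentiable (by simp) x)
        have e2 : ∇ (fun x : E3 => 60 / l * x 2 - 5) x = (60 / l) • R83.e 2 := by
          rw [R83.grad_sub ((contDiff_const.mul (zbr_coord 2 (n := 1))).differentiable (by simp) x)
            (differentiableAt_const _), R83.grad_const_mul _ ((zbr_coord 2 (n := 1)).differentiable (by simp) x),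
            R83.grad_coord, zbr_grad_zero (c := 5) (EventuallyEq.refl _ _), sub_zero]
        have e3 : ‖∇ θ x‖ ≤ M0 * (60 / l) := by
          rw [hθd, e1, e2, norm_smul, norm_smul, zbr_norm_e, mul_one, Real.norm_eq_abs,
            Real.norm_of_nonneg (by positivity)]
          gcongr
          exact hθ _
        calc ‖∇ θ x‖ ^ 2 ≤ (M0 * (60 / l)) ^ 2 := by gcongr
          _ = _ := by ring
      · have : θ =ᶠ[𝓝 x] fun _ => (1 : ℝ) := by
          have ho : IsOpen {y : E3 | l / 10 < y 2} :=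
            isOpen_lt continuous_const (zbr_coord 2 (n := 0)).continuous
          filter_upwards [ho.mem_nhds (lt_of_not_ge hx)] with y hy using hθ1 y (le_of_lt hy)
        rw [zbr_grad_zero this]; simp
    have hηg := zbr_cut_sq h1 hg x
    set A : ℝ := if x 2 ≤ l / 10 then 1 / l ^ 2 else 0 with hA
    set B : ℝ := if s ≤ ‖x - a‖ then 1 / s ^ 2 else 0 with hB
    have hA0 : 0 ≤ A := by rw [hA]; split_ifs <;> positivity
    have hB0 : 0 ≤ B := by rw [hB]; split_ifs <;> positivity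
    have hp : ‖∇ (fun y => θ y * η y) x‖ ≤ ‖∇ η x‖ + ‖∇ θ x‖ := by
      rw [R83.grad_mul (hθs.differentiable (by simp) x) (hηs.differentiable (by simp) x)]
      refine (norm_add_le _ _).trans ?_
      rw [norm_smul, norm_smul, Real.norm_of_nonneg (Real.smoothTransition.nonneg _),
        Real.norm_of_nonneg (h01 x).1]
      exact add_le_add (mul_le_of_le_one_left (norm_nonneg _) (Real.smoothTransition.le_one _))
        (mul_le_of_le_one_left (norm_nonneg _) (h01 x).2)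
    have hp2 : ‖∇ (fun y => θ y * η y) x‖ ^ 2 ≤ 2 * ((M1 ^ 2 + (60 * M0) ^ 2) * (A + B)) := by
      have : ‖∇ (fun y => θ y * η y) x‖ ^ 2 ≤ (‖∇ η x‖ + ‖∇ θ x‖) ^ 2 := by gcongr
      nlinarith [sq_nonneg (‖∇ η x‖ - ‖∇ θ x‖), mul_nonneg (sq_nonneg M1) hA0,
        mul_nonneg (sq_nonneg (60 * M0)) hB0]
    have hex : Real.exp (-α * zbr a x) ^ 2 ≤ Real.exp (-2 * α * ‖x - a‖) := by
      rw [← Real.exp_nat_mul]
      refine Real.exp_le_exp.2 ?_
      have := (hbb x).2.1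
      push_cast
      nlinarith
    have hfin : Real.exp (-α * zbr a x) ^ 2 * ‖∇ (fun y => θ y * η y) x‖ ^ 2 ≤
        Real.exp (-2 * α * ‖x - a‖) * (2 * ((M1 ^ 2 + (60 * M0) ^ 2) * (A + B))) := by gcongr
    refine h.trans ?_
    rw [inv_one]
    nlinarith

/-- `χ = e^(k (x 0 - ρ) - α zbr a) η`, `η` from `exists_cut` (`∇ η = 0` on `ball a s`) -/
theorem z_exists_chi : ∃ M : ℝ, 0 ≤ M ∧ ∀ (k α t ρ : ℝ) (a : E3) (s : ℝ), 0 ≤ k → 0 ≤ α → 0 < t → 0 < s →
    ∃ χ : E3 → ℝ, ContDiff ℝ 1 χ ∧ HasCompactSupport χ ∧ tsupport χ ⊆ Metric.closedBall a (2 * s) ∧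
      (∀ x, ‖x - a‖ < s → ‖x - a‖ ≤ 1 → Real.exp (k * (x 0 - ρ) - 2 * α) ≤ χ x) ∧
      ∀ x, ‖∇ χ x‖ ^ 2 ≤ (1 + t) * (k + α) ^ 2 * χ x ^ 2 +
        (1 + t⁻¹) * (M / s ^ 2) * Real.exp (-2 * α * s) * Real.exp (k * (x 0 - ρ)) ^ 2 := by
  obtain ⟨M1, hM1, hcut⟩ := exists_cut (E := E3)
  refine ⟨M1 ^ 2, by positivity, fun k α t ρ a s hk hα ht hs => ?_⟩
  obtain ⟨η, hη, h01, h1, hg⟩ := hcut a s hs
  obtain ⟨hb, hbb⟩ := z_br a
  have hηs : ContDiff ℝ 1 η := hη.sm.of_le (by simp)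
  have hl : ContDiff ℝ 1 fun x : E3 => x 0 - ρ := (zbr_coord 0).sub contDiff_const
  have hb1 : ContDiff ℝ 1 (zbr a) := hb.of_le (by simp)
  have hEs : ContDiff ℝ 1 fun x : E3 => k * (x 0 - ρ) - α * zbr a x :=
    (contDiff_const.mul hl).sub (contDiff_const.mul hb1)
  refine ⟨fun x => Real.exp (k * (x 0 - ρ) - α * zbr a x) * η x, hEs.exp.mul hηs,
    hη.cpt.mul_left (f := fun x => Real.exp (k * (x 0 - ρ) - α * zbr a x)),
    (tsupport_mul_subset_right (f := fun x => Real.exp (k * (x 0 - ρ) - α * zbr a x))).trans hη.sub, ?_,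
    fun x => ?_⟩
  · intro x hx hx1
    beta_reduce
    rw [h1 x (mem_ball_iff_norm.2 hx), mul_one]
    refine Real.exp_le_exp.2 ?_
    have := (hbb x).2.2
    nlinarith
  · have hE : ‖∇ (fun x : E3 => k * (x 0 - ρ) - α * zbr a x) x‖ ≤ k + α := by
      rw [R83.grad_sub ((contDiff_const.mul hl).differentiable (by simp) x)
        ((contDiff_const.mul hb1).differentiable (by simp) x),
        R83.grad_const_mul _ (hl.differentiable (by simp) x), R83.grad_const_mul _ (hb1.differentiable (by simp) x),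
        R83.grad_sub ((zbr_coord 0 (n := 1)).differentiable (by simp) x) (differentiableAt_const _),
        R83.grad_coord, zbr_grad_zero (c := ρ) (EventuallyEq.refl _ _), sub_zero]
      refine (norm_sub_le _ _).trans ?_
      rw [norm_smul, norm_smul, zbr_norm_e, mul_one, Real.norm_of_nonneg hk, Real.norm_of_nonneg hα]
      exact add_le_add le_rfl (mul_le_of_le_one_right hα (hbb x).1)
    refine (z_grad_exp_mul hEs hηs ht hE).trans (add_le_add le_rfl ?_)
    have hηg := zbr_cut_sq h1 hg x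
    have ht' : 0 < 1 + t⁻¹ := by positivity
    split_ifs at hηg with hx
    · have hex : Real.exp (k * (x 0 - ρ) - α * zbr a x) ^ 2 ≤
          Real.exp (-2 * α * s) * Real.exp (k * (x 0 - ρ)) ^ 2 := by
        rw [← Real.exp_nat_mul, ← Real.exp_nat_mul, ← Real.exp_add]
        refine Real.exp_le_exp.2 ?_
        have := (hbb x).2.1
        push_cast
        nlinarith
      calc _ ≤ (1 + t⁻¹) * (Real.exp (-2 * α * s) * Real.exp (k * (x 0 - ρ)) ^ 2) * (M1 ^ 2 * (1 / s ^ 2)) := by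
            gcongr
        _ = _ := by ring
    · have h0 : ‖∇ η x‖ ^ 2 = 0 := le_antisymm (by simpa using hηg) (sq_nonneg _)
      rw [h0, mul_zero]
      positivity

end Crest.Agent.R335
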