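import Crest.Agent.R335.Z_Coer
import Crest.Agent.R335.Z_Br

/-!
# R335/Z_Ag: the Agmon estimate
-/

set_option autoImplicit false

namespace Crest.Agent.R335

open MeasureTheory Set Filter Topology
open scoped Gradient RealInnerProductSpace ENNReal ContDiff
open Crest.MathPhysics.ThreeBody

variable {k b L C c e1 e2 : ℝ} {R d V0 S v φ u ψ : E3 → ℝ} {GR Gd Gφ Gu Gψ : E3 → E3}

theorem zag_bdd {χ : E3 → ℝ} (h1 : ContDiff ℝ 1 χ) (h2 : HasCompactSupport χ) :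
    ∃ M : ℝ, (∀ x, |χ x| ≤ M) ∧ ∀ x, ‖∇ χ x‖ ≤ M := by
  obtain ⟨M1, hM1⟩ := h1.continuous.bounded_above_of_compact_support h2
  obtain ⟨M2, hM2⟩ := (h1.continuous_fderiv one_ne_zero).bounded_above_of_compact_support (h2.fderiv ℝ)
  refine ⟨max M1 M2, fun x => (hM1 x).trans (le_max_left _ _), fun x => ?_⟩
  have : ‖∇ χ x‖ = ‖fderiv ℝ χ x‖ := by simp [gradient]
  rw [this]
  exact (hM2 x).trans (le_max_right _ _)

theorem zag_int {χ f : E3 → ℝ} (h1 : ContDiff ℝ 1 χ) {M : ℝ} (hM : ∀ x, ‖∇ χ x‖ ≤ M)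
    (hf : Integrable fun x => f x ^ 2) : Integrable fun x => ‖∇ χ x‖ ^ 2 * f x ^ 2 := by
  have e : ∀ x, ‖∇ χ x‖ = ‖fderiv ℝ χ x‖ := fun x => by simp [gradient]
  have hc : Continuous fun x => ‖∇ χ x‖ ^ 2 := by
    simp only [e]
    exact (h1.continuous_fderiv one_ne_zero).norm.pow 2
  refine hf.bdd_mul (c := M ^ 2) hc.aestronglyMeasurable (Eventually.of_forall fun x => ?_)
  rw [Real.norm_of_nonneg (by positivity)]
  exact pow_le_pow_left₀ (norm_nonneg _) (hM x) 2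

theorem zag_off {χ : E3 → ℝ} {x : E3} (hx : x ∉ tsupport χ) : χ x = 0 ∧ ‖∇ χ x‖ = 0 := by
  refine ⟨image_eq_zero_of_notMem_tsupport hx, ?_⟩
  have e : ‖∇ χ x‖ = ‖fderiv ℝ χ x‖ := by simp [gradient]
  have : fderiv ℝ χ x = 0 := image_eq_zero_of_notMem_tsupport fun h => hx (tsupport_fderiv_subset ℝ h)
  rw [e, this, norm_zero]

set_option maxHeartbeats 1600000 in
/-- `δ = e2 - e1`, `α = √(k² + δ) - k`, `t = δ / (2 (k² + δ))`, so `(1 + t) (k + α)² = k² + 3δ/2`.  `χ` from `z_exists_chi` with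
`a = pt ρ z`, `s = C₁ log ρ ≥ 1`; `tsupport χ ⊆ closedBall (pt ρ 0) (3 C₁ log ρ)`.  `Eig.loc` (bounds of `χ`, `∇ χ`: continuous with
compact support), `z_coer` with `η = δ / 8` and `3 C₁` for `ξ = χ φ` (`H1.mul_c1_cpt`):
`(δ/4) ∫ χ² φ² ≤ ∫ (‖∇χ‖² - (k² + 3δ/2) χ²) φ² ≤ (1 + 1/t) M e^(-2 α s) (2 C (3 s + 2) Cg g₀)² c₃ (2 s)³`
(`z_int_le`, `z_up`, `z1_geo`, `z_g_exp`; the integrand is `0` off `tsupport χ`), and
`∫ χ² φ² ≥ e^(-2k - 4α) a² c₃ r³` (`z_le_int`). -/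
theorem z_agmon (h : Red k b L C c R GR d Gd V0 S v e1 e2 φ Gφ u Gu ψ Gψ) (hφ : PhiB k b φ (23 / 10))
    (hτ : ∃ L' : ℝ, ∀ ρ z, L' ≤ ρ → lam ρ / 4 ≤ z → z ≤ Real.log ρ ^ 2 → |tau u ψ ρ z| ≤ ρ⁻¹) :
    ∃ α : ℝ, 0 < α ∧ ∀ C₁ : ℝ, 0 < C₁ → ∃ A L' : ℝ, 0 ≤ A ∧ ∀ ρ z r a : ℝ, L' ≤ ρ → |z| ≤ 1 → 0 < r → r ≤ 1 → 0 ≤ a →
      (∀ x ∈ Metric.ball (pt ρ z) r, a ≤ φ x) →
        a ^ 2 * r ^ 3 ≤ A * Real.log ρ ^ 5 * Real.exp (-2 * α * (C₁ * Real.log ρ)) * gfun k b (pt ρ 0) ^ 2 := by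
  have hk := h.tail.kpos
  have hC1 := h.tail.Cge
  set δ := e2 - e1 with hδ
  have hδ0 : 0 < δ := sub_pos.2 h.lt
  set α := √(k ^ 2 + δ) - k with hα
  have hsq : (k + α) ^ 2 = k ^ 2 + δ := by
    rw [hα, add_sub_cancel]; exact Real.sq_sqrt (by positivity)
  have hα0 : 0 < α := sub_pos.2 (Real.lt_sqrt_of_sq_lt (by linarith))
  set t := δ / (2 * (k ^ 2 + δ)) with ht
  have ht0 : 0 < t := by positivity
  have htt : (1 + t) * (k + α) ^ 2 = k ^ 2 + 3 * δ / 2 := by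
    rw [hsq, ht]; field_simp; ring
  refine ⟨α, hα0, fun C₁ hC₁ => ?_⟩
  obtain ⟨M, hM, hchi⟩ := z_exists_chi
  obtain ⟨L1, hL1, hgeo⟩ := z1_geo L C₁ hC₁
  obtain ⟨L2, hcoer⟩ := z_coer h hφ hτ (η := δ / 8) (C₁ := 3 * C₁) (by positivity) (by positivity)
  obtain ⟨Cg, hCg, hg⟩ := z_g_exp k b hk.le
  obtain ⟨c₃, hc₃, hvol⟩ := z_vol_ball
  have hV := FB.of_sumClass h.cls
  set q := Real.exp (-k - 2 * α) with hq
  have hq0 : 0 < q := Real.exp_pos _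
  set D := (1 + t⁻¹) * M * (10 * C * Cg) ^ 2 with hD
  have hD0 : 0 ≤ D := by positivity
  refine ⟨32 * D * C₁ ^ 5 / (δ * q ^ 2), max L1 L2, by positivity, fun ρ z r a hρ hz hr hr1 ha hlow => ?_⟩
  obtain ⟨hs1, -, hgeo'⟩ := hgeo ρ ((le_max_left _ _).trans hρ)
  have hρ4 : 4 ≤ ρ := hL1.trans ((le_max_left _ _).trans hρ)
  set s := C₁ * Real.log ρ with hs
  have hs0 : 0 < s := by linarith
  obtain ⟨χ, hχ1, hχc, hχs, hχl, hχd⟩ := hchi k α t ρ (pt ρ z) s hk.le hα0.le ht0 hs0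
  obtain ⟨Mχ, b1, b2⟩ := zag_bdd hχ1 hχc
  have hξ := h.oφ.eig.h1.mul_c1_cpt hχ1 hχc
  have hloc := Eig.loc hV h.oφ.eig hχ1 b1 b2
  have near : ∀ x : E3, ‖x - pt ρ z‖ ≤ 2 * s → ‖x - pt ρ 0‖ ≤ 3 * s := fun x hx => by
    have h1 : ‖x - pt ρ 0‖ ≤ ‖x - pt ρ z‖ + ‖pt ρ z - pt ρ 0‖ := norm_sub_le_norm_sub_add_norm_sub _ _ _
    have h2 := norm_pt_sub ρ z ρ 0
    rw [sub_self, abs_zero, zero_add, sub_zero] at h2
    linarith
  have hco := hcoer ρ ((le_max_right _ _).trans hρ) _ _ hξ fun x hx => by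
    have : x ∉ tsupport χ := fun h' => hx (by
      have h1 := hχs h'
      rw [mem_closedBall_iff_norm] at h1 ⊢
      have := near x h1
      rw [mul_assoc]; exact this)
    rw [(zag_off this).1, zero_mul]
  set N := nsq fun x => χ x * φ x with hN
  have i1 := zag_int hχ1 b2 h.oφ.eig.h1.int_sq
  have i2 := hξ.int_sq
  set g₀ := gfun k b (pt ρ 0) with hg₀
  set Ex := Real.exp (-2 * α * s) with hEx
  have hEx0 : 0 < Ex := Real.exp_pos _
  set B := D * Ex * s ^ 2 * g₀ ^ 2 with hB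
  have hB0 : 0 ≤ B := by positivity
  have up : ∫ x, (‖∇ χ x‖ ^ 2 * φ x ^ 2 - (k ^ 2 + 3 * δ / 2) * (χ x * φ x) ^ 2) ≤
      B * volume.real (Metric.closedBall (pt ρ z) (2 * s)) := by
    have i3 : Integrable fun x => ‖∇ χ x‖ ^ 2 * φ x ^ 2 - (k ^ 2 + 3 * δ / 2) * (χ x * φ x) ^ 2 :=
      i1.sub (i2.const_mul _)
    refine z_int_le i3 hB0 (Eventually.of_forall fun x hx => ?_)
      (Eventually.of_forall fun x hx => ?_)
    · obtain ⟨g1, -, -, g4, g5, -, -, g8⟩ := hgeo' x (near x hx)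
      have u1 := (z_up h g1).1
      have l1 : lam ρ ≤ 1 := z_lam_le_one (by linarith)
      have gx : 0 ≤ gfun k b x := p7a_g k b x
      have u2 : |φ x| ≤ 10 * C * s * gfun k b x := by
        refine u1.trans (mul_le_mul_of_nonneg_right ?_ gx)
        have h5 : |x 2| + lam (cyl x) ≤ 5 * s := by linarith
        have h6 := mul_le_mul_of_nonneg_left h5 (by positivity : 0 ≤ 2 * C)
        linarith
      have u3 := (hg ρ x hρ4 g4).1
      set ex := Real.exp (k * (x 0 - ρ)) with hex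
      have ex0 : 0 < ex := Real.exp_pos _
      have u4 : ex * |φ x| ≤ 10 * C * Cg * s * g₀ := by
        have h1 := mul_le_mul_of_nonneg_left u2 ex0.le
        have h2 := mul_le_mul_of_nonneg_left u3 (by positivity : 0 ≤ 10 * C * s)
        linarith
      have u5 : (ex * |φ x|) ^ 2 ≤ (10 * C * Cg * s * g₀) ^ 2 := pow_le_pow_left₀ (by positivity) u4 2
      rw [mul_pow, sq_abs] at u5
      have u6 : M / s ^ 2 ≤ M := div_le_self hM (one_le_pow₀ hs1)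
      have u7 := mul_le_mul_of_nonneg_right (hχd x) (sq_nonneg (φ x))
      rw [htt] at u7
      have u8 : (1 + t⁻¹) * (M / s ^ 2) * Ex * (ex ^ 2 * φ x ^ 2) ≤
          (1 + t⁻¹) * M * Ex * (10 * C * Cg * s * g₀) ^ 2 :=
        mul_le_mul (mul_le_mul_of_nonneg_right (mul_le_mul_of_nonneg_left u6 (by positivity)) hEx0.le) u5
          (by positivity) (by positivity)
      have u9 : (1 + t⁻¹) * M * Ex * (10 * C * Cg * s * g₀) ^ 2 = B := by rw [hB, hD]; ring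
      have u10 : ((k ^ 2 + 3 * δ / 2) * χ x ^ 2 + (1 + t⁻¹) * (M / s ^ 2) * Ex * ex ^ 2) * φ x ^ 2 =
          (k ^ 2 + 3 * δ / 2) * (χ x * φ x) ^ 2 + (1 + t⁻¹) * (M / s ^ 2) * Ex * (ex ^ 2 * φ x ^ 2) := by ring
      rw [u10] at u7
      linarith
    · have : x ∉ tsupport χ := fun h' => by
        have h1 := hχs h'
        rw [mem_closedBall_iff_norm] at h1
        linarith
      rw [(zag_off this).1, (zag_off this).2]
      simp
  rw [integral_sub i1 (i2.const_mul _), integral_const_mul, (hvol _ _ (by positivity)).2] at up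
  have up' : δ / 4 * N ≤ B * (c₃ * (2 * s) ^ 3) := by
    have e : ∫ x, (χ x * φ x) ^ 2 = N := rfl
    rw [e] at up
    have e2' : e2 = δ + e1 := by rw [hδ]; ring
    rw [e2'] at hco
    linarith
  have lo : (q * a) ^ 2 * volume.real (Metric.ball (pt ρ z) r) ≤ N := by
    refine z_le_int i2 (Eventually.of_forall fun x => sq_nonneg _) (Eventually.of_forall fun x hx => ?_)
    have h1 := hχl x (by linarith) (by linarith)
    have h2 : |(x - pt ρ z) 0| ≤ ‖x - pt ρ z‖ := by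
      simpa using PiLp.norm_apply_le (x - pt ρ z) 0
    have h3 : -1 ≤ x 0 - ρ := by
      have : (x - pt ρ z) 0 = x 0 - ρ := by simp
      rw [this] at h2
      linarith [(abs_le.1 h2).1]
    have h4 : q ≤ χ x := le_trans (Real.exp_le_exp.2 (by linarith [mul_le_mul_of_nonneg_left h3 hk.le])) h1
    have h5 := hlow x (mem_ball_iff_norm.2 hx)
    exact pow_le_pow_left₀ (by positivity) (mul_le_mul h4 h5 ha (hq0.le.trans h4)) 2
  rw [(hvol _ _ hr.le).1] at lo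
  have fin : c₃ * (δ * q ^ 2 * (a ^ 2 * r ^ 3)) ≤ c₃ * (32 * D * s ^ 5 * Ex * g₀ ^ 2) := by
    have h1 := mul_le_mul_of_nonneg_left lo hδ0.le
    have h2 : δ * ((q * a) ^ 2 * (c₃ * r ^ 3)) = c₃ * (δ * q ^ 2 * (a ^ 2 * r ^ 3)) := by ring
    have h3 : 4 * (B * (c₃ * (2 * s) ^ 3)) = c₃ * (32 * D * s ^ 5 * Ex * g₀ ^ 2) := by rw [hB]; ring
    linarith
  have fin2 := le_of_mul_le_mul_left fin hc₃
  have e : 32 * D * C₁ ^ 5 / (δ * q ^ 2) * Real.log ρ ^ 5 * Ex * g₀ ^ 2 =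
      32 * D * s ^ 5 * Ex * g₀ ^ 2 / (δ * q ^ 2) := by rw [hs]; ring
  rw [e, le_div_iff₀ (by positivity)]
  linarith

end Crest.Agent.R335
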