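import Crest.Agent.R335.Z_Def

/-!
# R335/Z_Bas1: elementary facts (`lam`, asymptotics, volumes)
-/

set_option autoImplicit false

namespace Crest.Agent.R335

open MeasureTheory Set Filter Topology
open scoped Gradient RealInnerProductSpace ENNReal ContDiff
open Crest.MathPhysics.ThreeBody

variable {k b L C c e1 e2 : ℝ} {R d V0 S v φ u ψ : E3 → ℝ} {GR Gd Gφ Gu Gψ : E3 → E3}

theorem z_lam_pos {ρ : ℝ} (h : 0 < ρ) : 0 < lam ρ := by
  exact Real.rpow_pos_of_pos h _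

theorem z_lam_le_one {ρ : ℝ} (h : 1 ≤ ρ) : lam ρ ≤ 1 := by
  exact Real.rpow_le_one_of_one_le_of_nonpos h (by norm_num)

theorem z_inv_le_lam {ρ : ℝ} (h : 1 ≤ ρ) : ρ⁻¹ ≤ lam ρ := by
  rw [← Real.rpow_neg_one]
  exact Real.rpow_le_rpow_of_exponent_le h (by norm_num)

/-- `lam ρ' ≤ lam (ρ / t) = t^(3/5) lam ρ ≤ t lam ρ` -/
theorem z_lam_le_mul {ρ ρ' t : ℝ} (hρ : 0 < ρ) (ht : 1 ≤ t) (h : ρ ≤ t * ρ') : lam ρ' ≤ t * lam ρ := by
  have ht0 : 0 < t := one_pos.trans_le ht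
  have h1 : ρ / t ≤ ρ' := by rw [div_le_iff₀ ht0]; linarith
  have h2 : lam ρ' ≤ (ρ / t) ^ (-(3 / 5) : ℝ) :=
    Real.rpow_le_rpow_of_nonpos (div_pos hρ ht0) h1 (by norm_num)
  refine h2.trans ?_
  rw [Real.div_rpow hρ.le ht0.le, Real.rpow_neg ht0.le, div_inv_eq_mul, mul_comm]
  refine mul_le_mul_of_nonneg_right ?_ (z_lam_pos hρ).le
  exact (Real.rpow_le_rpow_of_exponent_le ht (by norm_num : (3 / 5 : ℝ) ≤ 1)).trans_eq (Real.rpow_one t)

/-- `ρ'^(-m) ≤ (ρ/2)^(-m)` -/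
theorem z_rpow_half {ρ ρ' m : ℝ} (hρ : 0 < ρ) (hm : 0 ≤ m) (h : ρ / 2 ≤ ρ') :
    ρ' ^ (-m) ≤ 2 ^ m * ρ ^ (-m) := by
  refine (Real.rpow_le_rpow_of_nonpos (half_pos hρ) h (neg_nonpos.2 hm)).trans_eq ?_
  rw [Real.div_rpow hρ.le zero_le_two, Real.rpow_neg zero_le_two, div_inv_eq_mul, mul_comm]

/-- `tendsto_rpow_atTop` -/
theorem z_ev_rpow (A : ℝ) {p q : ℝ} (h : p < q) : ∀ᶠ ρ : ℝ in atTop, A * ρ ^ p ≤ ρ ^ q := by
  filter_upwards [(tendsto_rpow_atTop (sub_pos.2 h)).eventually_ge_atTop A, eventually_gt_atTop 0] with ρ h1 h2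
  calc A * ρ ^ p ≤ ρ ^ (q - p) * ρ ^ p := mul_le_mul_of_nonneg_right h1 (Real.rpow_nonneg h2.le p)
    _ = ρ ^ q := by rw [← Real.rpow_add h2, sub_add_cancel]

/-- `tendsto_rpow_mul_exp_neg_mul_atTop_nhds_zero` -/
theorem z_ev_exp (A p : ℝ) {t : ℝ} (ht : 0 < t) :
    ∀ᶠ ρ : ℝ in atTop, A * ρ ^ p * Real.exp (-(t * ρ)) ≤ 1 := by
  have h := (tendsto_rpow_mul_exp_neg_mul_atTop_nhds_zero p t ht).const_mul A
  rw [mul_zero] at h
  filter_upwards [h.eventually (ge_mem_nhds one_pos)] with ρ hρ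
  rwa [mul_assoc, ← neg_mul]

/-- `isLittleO_log_rpow_rpow_atTop` or `Real.isLittleO_pow_log_id_atTop` -/
theorem z_ev_log (A : ℝ) (n : ℕ) {p : ℝ} (hp : 0 < p) : ∀ᶠ ρ : ℝ in atTop, A * Real.log ρ ^ n ≤ ρ ^ p := by
  have h := ((isLittleO_log_rpow_rpow_atTop (n : ℝ) hp).const_mul_left A).def one_pos
  filter_upwards [h, eventually_gt_atTop 0] with ρ h1 h2
  rw [Real.rpow_natCast, one_mul, Real.norm_of_nonneg (Real.rpow_nonneg h2.le p)] at h1
  exact (le_abs_self _).trans h1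

/-- `Measure.addHaar_ball`, `Measure.addHaar_closedBall` -/
theorem z_vol_ball : ∃ c₃ : ℝ, 0 < c₃ ∧ ∀ (x : E3) (r : ℝ), 0 ≤ r →
    volume.real (Metric.ball x r) = c₃ * r ^ 3 ∧ volume.real (Metric.closedBall x r) = c₃ * r ^ 3 := by
  refine ⟨volume.real (Metric.ball (0 : E3) 1), ENNReal.toReal_pos (Metric.measure_ball_pos _ _ one_pos).ne'
    measure_ball_lt_top.ne, fun x r hr => ⟨?_, ?_⟩⟩
  · rw [Measure.real, Measure.addHaar_ball _ x hr, ENNReal.toReal_mul, ENNReal.toReal_ofReal (by positivity),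
      finrank_euclideanSpace_fin, mul_comm]
    rfl
  · rw [Measure.real, Measure.addHaar_closedBall _ x hr, ENNReal.toReal_mul, ENNReal.toReal_ofReal (by positivity),
      finrank_euclideanSpace_fin, mul_comm]
    rfl

/-- the strip is contained in a box of sides `2 Z, 2 Z, 2 l` (`PiLp.volume_preserving_ofLp`, `Real.volume_pi_Icc` /
`Real.volume_Icc_pi`) -/
theorem z_vol_strip (a : E3) {Z l : ℝ} (hZ : 0 ≤ Z) (hl : 0 ≤ l) :
    volume {x : E3 | ‖x - a‖ ≤ Z ∧ |x 2| ≤ l} ≤ ENNReal.ofReal (8 * Z ^ 2 * l) := by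
  have h1 : {x : E3 | ‖x - a‖ ≤ Z ∧ |x 2| ≤ l} ⊆
      (WithLp.ofLp : E3 → Fin 3 → ℝ) ⁻¹' Icc ![a 0 - Z, a 1 - Z, -l] ![a 0 + Z, a 1 + Z, l] := by
    rintro x ⟨hx, hx2⟩
    have h2 : ∀ i, |x i - a i| ≤ Z := fun i => (PiLp.norm_apply_le (x - a) i).trans hx
    have h3 := abs_le.1 (h2 0)
    have h4 := abs_le.1 (h2 1)
    have h5 := abs_le.1 hx2
    constructor <;> intro i <;> fin_cases i <;> simp <;> linarith [h3.1, h3.2, h4.1, h4.2, h5.1, h5.2]
  refine (measure_mono h1).trans_eq ?_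
  rw [(PiLp.volume_preserving_ofLp (Fin 3)).measure_preimage measurableSet_Icc.nullMeasurableSet,
    Real.volume_Icc_pi, Fin.prod_univ_three, ← ENNReal.ofReal_mul, ← ENNReal.ofReal_mul]
  · congr 1
    simp
    ring
  · simp
    nlinarith [sq_nonneg Z]
  · simp
    linarith

/-- an integral of a function which is bounded on a ball and not positive outside -/
theorem z_int_le {f : E3 → ℝ} (hf : Integrable f) {a : E3} {r B : ℝ} (hB : 0 ≤ B)
    (h1 : ∀ᵐ x, ‖x - a‖ ≤ r → f x ≤ B) (h2 : ∀ᵐ x, r < ‖x - a‖ → f x ≤ 0) :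
    ∫ x, f x ≤ B * volume.real (Metric.closedBall a r) := by
  have hm : MeasurableSet (Metric.closedBall a r) := measurableSet_closedBall
  rw [mul_comm, ← smul_eq_mul, ← integral_indicator_const B hm]
  refine integral_mono_ae hf ((integrable_indicator_iff hm).2
    (integrableOn_const measure_closedBall_lt_top.ne)) ?_
  filter_upwards [h1, h2] with x h3 h4
  by_cases hx : x ∈ Metric.closedBall a r
  · rw [indicator_of_mem hx]
    exact h3 (mem_closedBall_iff_norm.1 hx)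
  · rw [indicator_of_notMem hx]
    exact h4 (not_le.1 fun h => hx (mem_closedBall_iff_norm.2 h))

/-- lower bound of the integral of a nonnegative function -/
theorem z_le_int {f : E3 → ℝ} (hf : Integrable f) (h0 : ∀ᵐ x, 0 ≤ f x) {a : E3} {r B : ℝ}
    (h1 : ∀ᵐ x, ‖x - a‖ < r → B ≤ f x) : B * volume.real (Metric.ball a r) ≤ ∫ x, f x := by
  have hm : MeasurableSet (Metric.ball a r) := measurableSet_ball
  rw [mul_comm, ← smul_eq_mul, ← integral_indicator_const B hm]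
  refine integral_mono_ae ((integrable_indicator_iff hm).2 (integrableOn_const measure_ball_lt_top.ne)) hf ?_
  filter_upwards [h0, h1] with x h3 h4
  by_cases hx : x ∈ Metric.ball a r
  · rw [indicator_of_mem hx]
    exact h4 (mem_ball_iff_norm.1 hx)
  · rw [indicator_of_notMem hx]
    exact h3

end Crest.Agent.R335
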