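import Crest.Agent.R335.Z_Bas1

/-!
# R335/Z_Bas2: pointwise bounds of the orbitals, comparison of `gfun`
-/

set_option autoImplicit false

namespace Crest.Agent.R335

open MeasureTheory Set Filter Topology
open scoped Gradient RealInnerProductSpace ENNReal ContDiff
open Crest.MathPhysics.ThreeBody

variable {k b L C c e1 e2 : ℝ} {R d V0 S v φ u ψ : E3 → ℝ} {GR Gd Gφ Gu Gψ : E3 → E3}

/-- `Red.dens`, `Tail.R0`, `abs_le_of_sq_le` -/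
theorem z_dom (h : Red k b L C c R GR d Gd V0 S v e1 e2 φ Gφ u Gu ψ Gψ) :
    ∀ᵐ x, |φ x| ≤ 1 * R x ∧ |u x| ≤ 1 * R x ∧ |ψ x| ≤ 1 * R x := by
  filter_upwards [h.dens] with x hx
  have h0 := h.tail.R0 x
  simp only [one_mul]
  refine ⟨abs_le_of_sq_le_sq' ?_ h0 |> abs_le.2, abs_le_of_sq_le_sq' ?_ h0 |> abs_le.2,
    abs_le_of_sq_le_sq' ?_ h0 |> abs_le.2⟩ <;>
    nlinarith [sq_nonneg (φ x), sq_nonneg (u x), sq_nonneg (ψ x)]

theorem zbas2_up (h : Tail k b L C c R GR d Gd V0 S) {f : E3 → ℝ} (hf : ContinuousOn f offA)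
    (hd : ∀ᵐ x, |f x| ≤ 1 * R x) {x : E3} (hx : L < cyl x) :
    |f x| ≤ 2 * C * (|x 2| + lam (cyl x)) * gfun k b x := by
  have h1 : 1 ≤ cyl x := h.Lge.trans hx.le
  have h0 : 0 < cyl x := one_pos.trans_le h1
  have h2 : cyl x ≤ ‖x‖ := cyl_le_norm x
  have h3 : 0 < ‖x‖ := h0.trans_le h2
  have hg : 0 < gfun k b x := gfun_pos k b (norm_pos_iff.1 h3)
  have hC : 0 ≤ C := zero_le_one.trans h.Cge
  refine (h.cont_le hf zero_le_one hd x h0 (hx.trans_le h2)).trans ?_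
  refine mul_le_mul_of_nonneg_right ?_ hg.le
  have h4 : (‖x‖ ^ 2)⁻¹ ≤ (cyl x)⁻¹ := inv_anti₀ h0 (by nlinarith)
  have h5 : (‖x‖ ^ 2)⁻¹ ≤ lam (cyl x) := h4.trans (z_inv_le_lam h1)
  have h6 : (‖x‖ ^ 2)⁻¹ ≤ 1 := h5.trans (z_lam_le_one h1)
  have h7 : 0 < lam (cyl x) := z_lam_pos h0
  have h8 : (1 + |x 2|) / ‖x‖ ^ 2 ≤ lam (cyl x) + |x 2| := by
    rw [div_eq_mul_inv, add_mul, one_mul]
    exact add_le_add h5 (mul_le_of_le_one_right (abs_nonneg _) h6)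
  have h9 : |x 2| + (1 + |x 2|) / ‖x‖ ^ 2 ≤ 2 * (|x 2| + lam (cyl x)) := by linarith
  calc 1 * C * (|x 2| + (1 + |x 2|) / ‖x‖ ^ 2) = C * (|x 2| + (1 + |x 2|) / ‖x‖ ^ 2) := by ring
    _ ≤ C * (2 * (|x 2| + lam (cyl x))) := mul_le_mul_of_nonneg_left h9 hC
    _ = 2 * C * (|x 2| + lam (cyl x)) := by ring

/-- `Tail.cont_le` with `M = 1`; `1 / ‖x‖² ≤ (cyl x)⁻¹ ≤ lam (cyl x)` since `1 ≤ L < cyl x ≤ ‖x‖` -/
theorem z_up (h : Red k b L C c R GR d Gd V0 S v e1 e2 φ Gφ u Gu ψ Gψ) {x : E3} (hx : L < cyl x) :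
    |φ x| ≤ 2 * C * (|x 2| + lam (cyl x)) * gfun k b x ∧ |u x| ≤ 2 * C * (|x 2| + lam (cyl x)) * gfun k b x ∧
      |ψ x| ≤ 2 * C * (|x 2| + lam (cyl x)) * gfun k b x := by
  have hd := z_dom h
  exact ⟨zbas2_up h.tail h.oφ.cont (hd.mono fun _ h => h.1) hx,
    zbas2_up h.tail h.ou.orb.cont (hd.mono fun _ h => h.2.1) hx,
    zbas2_up h.tail h.oψ.cont (hd.mono fun _ h => h.2.2) hx⟩

theorem z_up_sec (h : Red k b L C c R GR d Gd V0 S v e1 e2 φ Gφ u Gu ψ Gψ) {x : E3} (hx : L < cyl x)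
    (hz : lam (cyl x) / 16 ≤ x 2) :
    φ x ≤ 34 * C * x 2 * gfun k b x ∧ u x ≤ 34 * C * x 2 * gfun k b x := by
  have h1 : 1 ≤ cyl x := h.tail.Lge.trans hx.le
  have h0 : 0 < cyl x := one_pos.trans_le h1
  have h3 : 0 < ‖x‖ := h0.trans_le (cyl_le_norm x)
  have hg : 0 < gfun k b x := gfun_pos k b (norm_pos_iff.1 h3)
  have hC : 0 ≤ C := zero_le_one.trans h.tail.Cge
  have h7 : 0 < lam (cyl x) := z_lam_pos h0
  have hz0 : 0 < x 2 := lt_of_lt_of_le (by positivity) hz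
  obtain ⟨a1, a2, -⟩ := z_up h hx
  rw [abs_of_pos hz0] at a1 a2
  have key : 2 * C * (x 2 + lam (cyl x)) * gfun k b x ≤ 34 * C * x 2 * gfun k b x := by
    refine mul_le_mul_of_nonneg_right ?_ hg.le
    have : x 2 + lam (cyl x) ≤ 17 * x 2 := by linarith
    nlinarith [mul_le_mul_of_nonneg_left this hC]
  exact ⟨((le_abs_self _).trans a1).trans key, ((le_abs_self _).trans a2).trans key⟩

/-- `Red.ulow`, `Red.posφ`, `z_up_sec` -/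
theorem z_s_le (h : Red k b L C c R GR d Gd V0 S v e1 e2 φ Gφ u Gu ψ Gψ) {x : E3} (hx : L < cyl x)
    (h1 : lam (cyl x) / 16 ≤ x 2) (h2 : x 2 ≤ cyl x / 2) :
    0 < u x ∧ 0 ≤ φ x / u x ∧ φ x / u x ≤ 34 * C / c := by
  have h0' : 1 ≤ cyl x := h.tail.Lge.trans hx.le
  have h0 : 0 < cyl x := one_pos.trans_le h0'
  have h3 : 0 < ‖x‖ := h0.trans_le (cyl_le_norm x)
  have hg : 0 < gfun k b x := gfun_pos k b (norm_pos_iff.1 h3)
  have hC : 0 ≤ C := zero_le_one.trans h.tail.Cge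
  have hc : 0 < c := h.tail.cpos
  have h7 : 0 < lam (cyl x) := z_lam_pos h0
  have hz0 : 0 < x 2 := lt_of_lt_of_le (by positivity) h1
  have hu : 0 < u x := h.ou.pos x h0 hz0
  have hφ : 0 < φ x := h.posφ x h0
  have hl := h.ulow x hx.le h1 h2
  have hup := (z_up_sec h hx h1).1
  refine ⟨hu, (div_pos hφ hu).le, ?_⟩
  rw [div_le_div_iff₀ hu hc]
  calc φ x * c ≤ 34 * C * x 2 * gfun k b x * c := mul_le_mul_of_nonneg_right hup hc.le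
    _ = 34 * C * (c * x 2 * gfun k b x) := by ring
    _ ≤ 34 * C * u x := mul_le_mul_of_nonneg_left hl (by positivity)

theorem z_pt_two (ρ z : ℝ) : pt ρ z 0 = ρ ∧ pt ρ z 1 = 0 ∧ pt ρ z 2 = z := by
  exact ⟨rfl, rfl, rfl⟩

/-- `norm_sq_cyl` -/
theorem z_gfun_pt (k b : ℝ) (x : E3) : gfun k b (pt (cyl x) |x 2|) = gfun k b x := by
  have h : ‖pt (cyl x) |x 2|‖ = ‖x‖ := by
    refine (pow_left_inj₀ (norm_nonneg _) (norm_nonneg _) two_ne_zero).1 ?_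
    rw [norm_sq_cyl, norm_sq_cyl x, cyl_pt (cyl_nonneg x), pt_2, sq_abs]
  unfold gfun
  rw [h]

/-- `gfun_le` -/
theorem z_g_near (k b : ℝ) (hk : 0 ≤ k) : ∃ Cg : ℝ, 1 ≤ Cg ∧ ∀ x y : E3, 4 ≤ ‖x‖ → ‖x - y‖ ≤ 2 →
    gfun k b y ≤ Cg * gfun k b x ∧ gfun k b x ≤ Cg * gfun k b y := by
  obtain ⟨C, hC, H⟩ := gfun_le k b hk
  have hC0 : 0 ≤ C := zero_le_one.trans hC
  refine ⟨C * Real.exp (k * 2), one_le_mul_of_one_le_of_one_le hC (Real.one_le_exp (by positivity)),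
    fun x y hx hxy => ?_⟩
  have hx0 : 0 < ‖x‖ := by linarith
  have hy0 : 0 < ‖y‖ := by linarith [norm_sub_norm_le x y]
  obtain ⟨a1, a2⟩ := H x y hx0 (by linarith)
  have e : C * Real.exp (k * ‖x - y‖) ≤ C * Real.exp (k * 2) :=
    mul_le_mul_of_nonneg_left (Real.exp_le_exp.2 (mul_le_mul_of_nonneg_left hxy hk)) hC0
  exact ⟨a1.trans (mul_le_mul_of_nonneg_right e (gfun_pos k b (norm_pos_iff.1 hx0)).le),
    a2.trans (mul_le_mul_of_nonneg_right e (gfun_pos k b (norm_pos_iff.1 hy0)).le)⟩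

theorem zbas2_rpow {p a c : ℝ} (ha : 0 < a) (hc : 0 < c) (h1 : a ≤ 2 * c) (h2 : c ≤ 2 * a) :
    a ^ p ≤ Real.exp (Real.log 2 * |p|) * c ^ p := by
  simpa using geob_le (k := 0) (p := p) (t := c - a) le_rfl ha hc h1 h2 le_rfl

/-- `‖x - pt ρ 0‖ ≤ ρ / 2`, so `ρ / 2 ≤ x 0 ≤ ‖x‖ ≤ 3 ρ / 2`, and `‖x‖ ≤ x 0 + 1` because
`‖x‖² = (x 0)² + (x 1)² + (x 2)² ≤ (x 0)² + ρ ≤ (x 0 + 1)²`; `‖pt ρ 0‖ = ρ`; compare `geob_le` (`k = 0`). -/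
theorem z_g_exp (k b : ℝ) (hk : 0 ≤ k) : ∃ Cg : ℝ, 1 ≤ Cg ∧ ∀ (ρ : ℝ) (x : E3), 4 ≤ ρ → ‖x - pt ρ 0‖ ^ 2 ≤ ρ →
    Real.exp (k * (x 0 - ρ)) * gfun k b x ≤ Cg * gfun k b (pt ρ 0) ∧
      gfun k b (pt ρ 0) ≤ Cg * (Real.exp (k * (x 0 - ρ)) * gfun k b x) := by
  have hA : 1 ≤ Real.exp (Real.log 2 * |b - 2|) :=
    Real.one_le_exp (mul_nonneg (Real.log_nonneg one_le_two) (abs_nonneg _))
  have hB : 1 ≤ Real.exp k := Real.one_le_exp hk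
  refine ⟨Real.exp (Real.log 2 * |b - 2|) * Real.exp k, one_le_mul_of_one_le_of_one_le hA hB,
    fun ρ x hρ hx => ?_⟩
  have hρ0 : 0 < ρ := by linarith
  have hn : ‖pt ρ 0‖ = ρ := by
    refine (pow_left_inj₀ (norm_nonneg _) hρ0.le two_ne_zero).1 ?_
    rw [norm_sq_cyl, cyl_pt hρ0.le, pt_2]
    ring
  have hs : ‖x - pt ρ 0‖ ^ 2 = (x 0 - ρ) ^ 2 + x 1 ^ 2 + x 2 ^ 2 := by
    rw [geob_norm_sq]
    simp only [PiLp.sub_apply, pt_0, pt_1, pt_2, sub_zero]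
  have hx2 := geob_norm_sq x
  rw [hs] at hx
  have b1 : (x 0 - ρ) ^ 2 ≤ (ρ / 2) ^ 2 := by nlinarith [sq_nonneg (x 1), sq_nonneg (x 2)]
  have b2 := abs_le.1 (abs_le_of_sq_le_sq' b1 (by positivity) |> abs_le.2)
  have b3 : ρ / 2 ≤ x 0 := by linarith [b2.1]
  have b4 : x 0 ≤ ‖x‖ := by
    refine (pow_le_pow_iff_left₀ (by linarith) (norm_nonneg x) two_ne_zero).1 ?_
    nlinarith [sq_nonneg (x 1), sq_nonneg (x 2)]
  have b5 : ‖x‖ ≤ x 0 + 1 := by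
    refine (pow_le_pow_iff_left₀ (norm_nonneg x) (by linarith) two_ne_zero).1 ?_
    nlinarith [sq_nonneg (x 0 - ρ)]
  have b6 : ‖x‖ ≤ 2 * ρ := by linarith [b2.2]
  have b7 : ρ ≤ 2 * ‖x‖ := by linarith
  have hr : 0 < ‖x‖ := by linarith
  have c1 := zbas2_rpow (p := b - 2) hr hρ0 b6 b7
  have c2 := zbas2_rpow (p := b - 2) hρ0 hr b7 b6
  have p1 : 0 < ‖x‖ ^ (b - 2) := Real.rpow_pos_of_pos hr _
  have p2 : 0 < ρ ^ (b - 2) := Real.rpow_pos_of_pos hρ0 _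
  have e1 : Real.exp (k * (x 0 - ρ)) * Real.exp (-k * ‖x‖) ≤ Real.exp k * Real.exp (-k * ρ) := by
    rw [← Real.exp_add, ← Real.exp_add, Real.exp_le_exp]
    nlinarith [mul_le_mul_of_nonneg_left b4 hk]
  have e2 : Real.exp (-k * ρ) ≤ Real.exp k * (Real.exp (k * (x 0 - ρ)) * Real.exp (-k * ‖x‖)) := by
    rw [← Real.exp_add, ← Real.exp_add, Real.exp_le_exp]
    nlinarith [mul_le_mul_of_nonneg_left b5 hk]
  unfold gfun
  rw [hn]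
  constructor
  · calc Real.exp (k * (x 0 - ρ)) * (‖x‖ ^ (b - 2) * Real.exp (-k * ‖x‖))
        = ‖x‖ ^ (b - 2) * (Real.exp (k * (x 0 - ρ)) * Real.exp (-k * ‖x‖)) := by ring
      _ ≤ (Real.exp (Real.log 2 * |b - 2|) * ρ ^ (b - 2)) * (Real.exp k * Real.exp (-k * ρ)) :=
        mul_le_mul c1 e1 (by positivity) (by positivity)
      _ = _ := by ring
  · calc ρ ^ (b - 2) * Real.exp (-k * ρ)
        ≤ (Real.exp (Real.log 2 * |b - 2|) * ‖x‖ ^ (b - 2)) *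
          (Real.exp k * (Real.exp (k * (x 0 - ρ)) * Real.exp (-k * ‖x‖))) :=
        mul_le_mul c2 e2 (by positivity) (by positivity)
      _ = _ := by ring

/-- `exists_rot_pt`, `OddU.symP` -/
theorem z_u_pt (h : Red k b L C c R GR d Gd V0 S v e1 e2 φ Gφ u Gu ψ Gψ) {x : E3} (hx : x ∈ offA) :
    u x = u (pt (cyl x) (x 2)) := by
  obtain ⟨T, h1, h2⟩ := exists_rot_pt x
  have hm : pt (cyl x) (x 2) ∈ offA := by
    change 0 < cyl (pt (cyl x) (x 2))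
    rw [cyl_pt (cyl_nonneg x)]
    exact hx
  have := h.ou.symP T h1 _ hm
  rwa [h2] at this

/-- `exists_refl_z` -/
theorem z_refl (h : Red k b L C c R GR d Gd V0 S v e1 e2 φ Gφ u Gu ψ Gψ) {x : E3} (hx : x ∈ offA) :
    φ (refl x) = φ x ∧ u (refl x) = -u x := by
  obtain ⟨T, h1, h2, -⟩ := exists_refl_z
  rw [← h2]
  exact ⟨h.evφ T (Or.inr h1) x hx, h.ou.symM T h1 x hx⟩

end Crest.Agent.R335
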