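import Crest.Agent.R335.Z_L1

/-!
# R335/Z_Coer: coercivity of the form on the ball
-/

set_option autoImplicit false

namespace Crest.Agent.R335

open MeasureTheory Set Filter Topology
open scoped Gradient RealInnerProductSpace ENNReal ContDiff
open Crest.MathPhysics.ThreeBody

variable {k b L C c e1 e2 : ℝ} {R d V0 S v φ u ψ : E3 → ℝ} {GR Gd Gφ Gu Gψ : E3 → E3}

/-- a bounded function which is small in `L¹` is small in `L^(3/2)`: `∫ f^(3/2) ≤ √M' ∫ f` -/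
theorem z_l32 {f : E3 → ℝ} {M' ε : ℝ} (hf : Integrable f) (h0 : ∀ x, 0 ≤ f x ∧ f x ≤ M') (hε : ∫ x, f x ≤ ε) :
    MemLp f (3 / 2) volume ∧ (eLpNorm f (3 / 2) volume).toReal ≤ (√M' * ε) ^ (2 / 3 : ℝ) := by
  have hz : (3 / 2 : ℝ≥0∞) ≠ 0 := by simp
  have ht : (3 / 2 : ℝ≥0∞) ≠ ⊤ := ENNReal.div_ne_top (by simp) (by simp)
  have hr : (3 / 2 : ℝ≥0∞).toReal = 3 / 2 := by simp
  have hle : ∀ x, ‖f x‖ ^ (3 / 2 : ℝ≥0∞).toReal ≤ √M' * f x := by
    intro x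
    rw [hr, Real.norm_eq_abs, abs_of_nonneg (h0 x).1, show (3 / 2 : ℝ) = 1 / 2 + 1 by norm_num,
      Real.rpow_add' (h0 x).1 (by norm_num), Real.rpow_one, ← Real.sqrt_eq_rpow]
    exact mul_le_mul_of_nonneg_right (Real.sqrt_le_sqrt (h0 x).2) (h0 x).1
  have hi : Integrable fun x => ‖f x‖ ^ (3 / 2 : ℝ≥0∞).toReal := by
    refine (hf.const_mul √M').mono' ?_ (Eventually.of_forall fun x => ?_)
    · exact (hf.1.norm.aemeasurable.pow_const _).aestronglyMeasurable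
    · rw [Real.norm_eq_abs, abs_of_nonneg (Real.rpow_nonneg (norm_nonneg _) _)]
      exact hle x
  have hm : MemLp f (3 / 2) volume := (integrable_norm_rpow_iff hf.1 hz ht).1 hi
  refine ⟨hm, ?_⟩
  have hn : 0 ≤ ∫ x, ‖f x‖ ^ (3 / 2 : ℝ≥0∞).toReal := integral_nonneg fun x => Real.rpow_nonneg (norm_nonneg _) _
  rw [hm.eLpNorm_eq_integral_rpow_norm hz ht, ENNReal.toReal_ofReal (Real.rpow_nonneg hn _)]
  have h2 : ((3 / 2 : ℝ≥0∞).toReal)⁻¹ = 2 / 3 := by rw [hr]; norm_num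
  rw [h2]
  refine Real.rpow_le_rpow hn ?_ (by norm_num)
  calc _ ≤ ∫ x, √M' * f x := integral_mono hi (hf.const_mul _) hle
    _ = √M' * ∫ x, f x := integral_const_mul _ _
    _ ≤ _ := mul_le_mul_of_nonneg_left hε (Real.sqrt_nonneg _)

theorem zcoer_norm_pt {ρ : ℝ} (h : 0 ≤ ρ) : ‖pt ρ 0‖ = ρ := by
  rw [EuclideanSpace.norm_eq]
  simp [pt, Fin.sum_univ_three, Real.sqrt_sq_eq_abs, abs_of_nonneg h]

theorem zcoer_pt (t κ M : ℝ) : κ - t ≤ min (max (κ - t) 0) (|κ| + M) + max (|t| - M) 0 := by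
  have h1 := le_max_left (|t| - M) 0
  have h2 := le_max_right (|t| - M) 0
  have h3 := le_max_left (κ - t) 0
  have h4 := le_abs_self κ
  have h5 := neg_le_abs t
  rcases min_choice (max (κ - t) 0) (|κ| + M) with h | h <;> rw [h] <;> linarith

/-- `κ = k²/2 - η`, `M` from `sumClass_far` (`e = e2`), `w = (|v - e2| - M)₊`, `M' = |κ| + M`, `B` the ball (`B ⊆ far L''` by `z1_geo`,
`cyl_le_norm`).  Where `ξ ≠ 0`: `v ≥ e2 + κ - zN ≥ e2 + κ - 1_B min zN M' - 1_{far} w`.  `exists_sob32` for both functions, each norm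
at most `1 / (4 (Cs + 1))` (`z_l1`, `z_l32`), so the two error terms together are at most `½ ∫ ‖K‖²`.  (`FB.int`, `H1.int_sq`.) -/
theorem z_coer (h : Red k b L C c R GR d Gd V0 S v e1 e2 φ Gφ u Gu ψ Gψ) (hφ : PhiB k b φ (23 / 10))
    (hτ : ∃ L' : ℝ, ∀ ρ z, L' ≤ ρ → lam ρ / 4 ≤ z → z ≤ Real.log ρ ^ 2 → |tau u ψ ρ z| ≤ ρ⁻¹)
    {η C₁ : ℝ} (hη : 0 < η) (hC : 0 < C₁) : ∃ L' : ℝ, ∀ ρ : ℝ, L' ≤ ρ → ∀ (ξ : E3 → ℝ) (K : E3 → E3), H1 ξ K →
      (∀ x, x ∉ Metric.closedBall (pt ρ 0) (C₁ * Real.log ρ) → ξ x = 0) →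
        (e2 + k ^ 2 / 2 - η) * nsq ξ ≤ qf v ξ K := by
  obtain ⟨Cs, hCs, hS⟩ := exists_sob32
  obtain ⟨M, hM0, hM⟩ := sumClass_far h.cls e2
  have hFB := FB.of_sumClass h.cls
  obtain ⟨δ, hδ⟩ : ∃ δ : ℝ, δ = 1 / (4 * (Cs + 1)) := ⟨_, rfl⟩
  have hδ0 : 0 < δ := by rw [hδ]; positivity
  have hδ1 : Cs * δ ≤ 1 / 4 := by
    rw [hδ, mul_one_div, div_le_div_iff₀ (by positivity) (by norm_num)]
    linarith
  obtain ⟨κ, hκ⟩ : ∃ κ : ℝ, κ = k ^ 2 / 2 - η := ⟨_, rfl⟩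
  have hM' : 0 ≤ |κ| + M := by positivity
  obtain ⟨L₁, hL₁⟩ := hM δ hδ0
  have hε : 0 < δ ^ (3 / 2 : ℝ) / (√(|κ| + M) + 1) := by positivity
  obtain ⟨L₂, hL₂⟩ := z_l1 h hφ hτ hη hC hε hM'
  rw [← hκ] at hL₂
  obtain ⟨L₃, hL₃⟩ := eventually_atTop.1 (z_ev_log (2 * C₁) 1 one_pos)
  refine ⟨max (max L₂ L₃) (2 * |L₁| + 1), fun ρ hρ ξ K hξ hs => ?_⟩
  have hρ2 : L₂ ≤ ρ := ((le_max_left _ _).trans (le_max_left _ _)).trans hρ
  have hρ3 : L₃ ≤ ρ := ((le_max_right _ _).trans (le_max_left _ _)).trans hρ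
  have hρ1 : 2 * |L₁| + 1 ≤ ρ := (le_max_right _ _).trans hρ
  have hρ0 : 0 ≤ ρ := le_trans (by positivity) hρ1
  obtain ⟨B, hB⟩ : ∃ B, B = Metric.closedBall (pt ρ 0) (C₁ * Real.log ρ) := ⟨_, rfl⟩
  have hBm : MeasurableSet B := hB ▸ Metric.isClosed_closedBall.measurableSet
  have hBf : B ⊆ far L₁ := by
    intro x hx
    rw [hB, Metric.mem_closedBall, dist_eq_norm] at hx
    have h1 := hL₃ ρ hρ3
    rw [pow_one, Real.rpow_one] at h1
    have h2 := norm_sub_norm_le (pt ρ 0) x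
    rw [zcoer_norm_pt hρ0, norm_sub_rev] at h2
    have h3 := le_abs_self L₁
    show L₁ < ‖x‖
    linarith
  obtain ⟨i1, i2⟩ := hL₂ ρ hρ2
  rw [← hB] at i1 i2 hs
  obtain ⟨f, hf⟩ : ∃ f : E3 → ℝ, f = B.indicator fun x => min (zN v e2 κ x) (|κ| + M) := ⟨_, rfl⟩
  obtain ⟨w, hw⟩ : ∃ w : E3 → ℝ, w = (far L₁).indicator fun x => max (|v x - e2| - M) 0 := ⟨_, rfl⟩
  have hf0 : ∀ x, 0 ≤ f x ∧ f x ≤ |κ| + M := by
    intro x
    rw [hf]
    by_cases hx : x ∈ B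
    · rw [indicator_of_mem hx]
      exact ⟨le_min (le_max_right _ _) hM', min_le_right _ _⟩
    · rw [indicator_of_notMem hx]
      exact ⟨le_rfl, hM'⟩
  have hw0 : ∀ x, 0 ≤ w x := fun x => hw ▸ indicator_nonneg (fun y _ => le_max_right _ _) x
  obtain ⟨m1, n1⟩ := z_l32 (f := f) (ε := δ ^ (3 / 2 : ℝ) / (√(|κ| + M) + 1))
    (hf ▸ (integrable_indicator_iff hBm).2 i1) hf0 (by rw [hf, integral_indicator hBm]; exact i2)
  have n1' : (eLpNorm f (3 / 2) volume).toReal ≤ δ := by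
    refine n1.trans ?_
    calc _ ≤ (δ ^ (3 / 2 : ℝ)) ^ (2 / 3 : ℝ) := by
          refine Real.rpow_le_rpow (by positivity) ?_ (by norm_num)
          rw [mul_div_assoc', div_le_iff₀ (by positivity)]
          have : 0 ≤ δ ^ (3 / 2 : ℝ) := by positivity
          nlinarith
      _ = δ := by rw [← Real.rpow_mul hδ0.le]; norm_num
  rw [← hw] at hL₁
  have m2 : MemLp w (3 / 2) volume := by
    refine ⟨?_, hL₁.trans_lt ENNReal.ofReal_lt_top⟩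
    rw [hw]
    refine AEStronglyMeasurable.indicator ?_ (measurableSet_lt measurable_const measurable_norm)
    exact (show Continuous fun t : ℝ => max (|t - e2| - M) 0 by fun_prop).comp_aestronglyMeasurable hFB.meas
  have n2 : (eLpNorm w (3 / 2) volume).toReal ≤ δ := ENNReal.toReal_le_of_le_ofReal hδ0.le hL₁
  obtain ⟨j1, k1⟩ := hS f ξ K m1 hξ
  obtain ⟨j2, k2⟩ := hS w ξ K m2 hξ
  have hK := s1_kin_nonneg K
  simp only [fun x => abs_of_nonneg (hf0 x).1] at k1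
  simp only [fun x => abs_of_nonneg (hw0 x)] at k2
  have k1' : ∫ x, f x * ξ x ^ 2 ≤ 1 / 4 * ∫ x, ‖K x‖ ^ 2 :=
    k1.trans (mul_le_mul_of_nonneg_right ((mul_le_mul_of_nonneg_left n1' hCs).trans hδ1) hK)
  have k2' : ∫ x, w x * ξ x ^ 2 ≤ 1 / 4 * ∫ x, ‖K x‖ ^ 2 :=
    k2.trans (mul_le_mul_of_nonneg_right ((mul_le_mul_of_nonneg_left n2 hCs).trans hδ1) hK)
  have hv := hFB.int ξ K hξ
  have key : ∫ x, (e2 + κ) * ξ x ^ 2 ≤ ∫ x, (v x * ξ x ^ 2 + f x * ξ x ^ 2 + w x * ξ x ^ 2) := by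
    refine integral_mono (hξ.int_sq.const_mul _) ((hv.add j1).add j2) fun x => ?_
    by_cases hx : x ∈ B
    · have h1 := zcoer_pt (v x - e2) κ M
      have h2 : f x = min (max (κ - (v x - e2)) 0) (|κ| + M) := by rw [hf, indicator_of_mem hx]; rfl
      have h3 : w x = max (|v x - e2| - M) 0 := by rw [hw, indicator_of_mem (hBf hx)]
      rw [← h2, ← h3] at h1
      have := mul_le_mul_of_nonneg_right h1 (sq_nonneg (ξ x))
      simp only
      linarith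
    · simp [hs x hx]
  have j3 : Integrable fun x => v x * ξ x ^ 2 + f x * ξ x ^ 2 := hv.add j1
  rw [integral_add j3 j2, integral_add hv j1, integral_const_mul] at key
  unfold nsq qf
  rw [add_sub_assoc, ← hκ]
  linarith

end Crest.Agent.R335
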