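import Crest.Agent.R335.Lib

/-!
# R335/Z_Def: definitions for part Z (owner helper82; do not edit; plan in the header of `Z.lean`)
-/

set_option autoImplicit false

namespace Crest.Agent.R335

open MeasureTheory Set Filter Topology
open scoped Gradient RealInnerProductSpace ENNReal ContDiff
open Crest.MathPhysics.ThreeBody

variable {k b L C c e1 e2 : ℝ} {R d V0 S v φ u ψ : E3 → ℝ} {GR Gd Gφ Gu Gψ : E3 → E3}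

/-- `⟨x - a⟩` -/
noncomputable def zbr (a x : E3) : ℝ := √(1 + ‖x - a‖ ^ 2)

/-- `φ ≤ A ρ^(-m) (|z| + lam ρ) g` for `|z| ≤ ρ / 5` -/
def ZP (k b : ℝ) (φ : E3 → ℝ) (m : ℝ) : Prop :=
  ∃ L' A : ℝ, 0 ≤ A ∧ ∀ x, L' ≤ cyl x → |x 2| ≤ cyl x / 5 →
    φ x ≤ A * cyl x ^ (-m) * (|x 2| + lam (cyl x)) * gfun k b x

/-- `φ ≤ A ρ^(-m) lam ρ g` on the layer -/
def ZQ (k b : ℝ) (φ : E3 → ℝ) (m : ℝ) : Prop :=
  ∃ L' A : ℝ, 0 ≤ A ∧ ∀ x, L' ≤ cyl x → |x 2| ≤ lam (cyl x) →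
    φ x ≤ A * cyl x ^ (-m) * lam (cyl x) * gfun k b x

/-- `φ ≤ A ρ^(-m) z g` on the sector -/
def ZS (k b : ℝ) (φ : E3 → ℝ) (m : ℝ) : Prop :=
  ∃ L' A : ℝ, 0 ≤ A ∧ ∀ x, L' ≤ cyl x → lam (cyl x) / 8 ≤ x 2 → x 2 ≤ cyl x / 5 →
    φ x ≤ A * cyl x ^ (-m) * x 2 * gfun k b x

/-- the part of `v - e` below `κ` -/
noncomputable def zN (v : E3 → ℝ) (e κ : ℝ) (x : E3) : ℝ := max (κ - (v x - e)) 0

end Crest.Agent.R335
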