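import Crest.Agent.R335.Z_Def

/-!
# R335/Z_En: the energy inequality for the powers of `s = φ / u`
-/

set_option autoImplicit false

namespace Crest.Agent.R335

open MeasureTheory Set Filter Topology
open scoped Gradient RealInnerProductSpace ENNReal ContDiff
open Crest.MathPhysics.ThreeBody

variable {k b L C c e1 e2 : ℝ} {R d V0 S v φ u ψ : E3 → ℝ} {GR Gd Gφ Gu Gψ : E3 → E3}

theorem zen_int {Ω B : Set E3} {g : E3 → ℝ} (hg : ContinuousOn g Ω) (hB : IsCompact B) (hs : B ⊆ Ω)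
    (h0 : ∀ x, x ∉ B → g x = 0) : Integrable g :=
  (integrableOn_iff_integrable_of_support_subset (s := B) fun x hx => by
    by_contra h
    exact hx (h0 x h)).1 ((hg.mono hs).integrableOn_compact hB)

theorem zen_pt (a w : E3) (m t s f U : ℝ) (ht : 0 ≤ t) :
    0 ≤ m * (U ^ 2 * ⟪a, (f * f) • ((m * t) • a) + (t * s) • (f • w + f • w)⟫) +
      U ^ 2 * (t * s ^ 2) * ‖w‖ ^ 2 := by
  have h : m * (U ^ 2 * ⟪a, (f * f) • ((m * t) • a) + (t * s) • (f • w + f • w)⟫) +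
      U ^ 2 * (t * s ^ 2) * ‖w‖ ^ 2 = U ^ 2 * t * ‖(m * f) • a + s • w‖ ^ 2 := by
    rw [norm_add_sq_real, norm_smul, norm_smul, mul_pow, mul_pow, Real.norm_eq_abs, Real.norm_eq_abs, sq_abs,
      sq_abs]
    simp only [inner_add_right, real_inner_smul_right, real_inner_smul_left, real_inner_self_eq_norm_sq]
    ring
  rw [h]
  positivity

theorem zen_diff (A B K : E3) (p U y : ℝ) (hU : U ≠ 0) :
    ⟪A, y • B + U • K⟫ - ⟪B, y • A + p • K⟫ = U ^ 2 * ⟪U⁻¹ • A - (p / U ^ 2) • B, K⟫ := by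
  simp only [inner_add_right, inner_sub_left, real_inner_smul_right, real_inner_smul_left]
  rw [real_inner_comm A B]
  field_simp
  ring

/-- `s = φ / u ∈ H1loc Ω` (`H1.loc`, `H1loc.div`, `Bl.of_continuousOn`; `u` has a positive minimum on compact subsets),
`s^(2n+1) ∈ H1loc Ω` (`H1loc.comp` with `O = univ`), `ξ = F² s^(2n+1)` is `TH Ω` (`H1loc.th_mul`) with gradient `K`, and so
are `ξ u`, `ξ φ` (`TH.mul_loc`).  Test `hφ.eq` with `ξ u` and `hu.eq` with `ξ φ` and subtract (`H1.int_inner`):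
`½ ∫ ⟪u Gφ - φ Gu, K⟫ = -(e2 - e1) ∫ φ u ξ`.  On `Ω`: `u Gφ - φ Gu = u² Gs`, `φ u ξ = u² s^(2n+2) F²`, and
`⟪Gs, K⟫ = (2n+1) s^(2n) F² ‖Gs‖² + 2 s^(2n+1) F ⟪Gs, ∇F⟫ ≥ -s^(2n+2) ‖∇F‖² / (2n+1)`.  Off `tsupport F` everything is `0`
(`R83.grad_eq_zero_of_notMem`).  Integrability: continuous on `Ω`, zero outside the compact set `tsupport F`. -/
theorem z_energy (hφ : Eig v e1 φ Gφ) (hu : Eig v e2 u Gu) {Ω : Set E3} (hΩ : IsOpen Ω) (cφ : ContinuousOn φ Ω)
    (cu : ContinuousOn u Ω) (h0 : ∀ x ∈ Ω, 0 < u x) {F : E3 → ℝ} (hF : ContDiff ℝ 1 F) (hc : HasCompactSupport F)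
    (hs : tsupport F ⊆ Ω) (n : ℕ) :
    Integrable (fun x => u x ^ 2 * (φ x / u x) ^ (2 * n + 2) * F x ^ 2) ∧
    Integrable (fun x => u x ^ 2 * (φ x / u x) ^ (2 * n + 2) * ‖∇ F x‖ ^ 2) ∧
    2 * (e2 - e1) * (2 * n + 1) * ∫ x, u x ^ 2 * (φ x / u x) ^ (2 * n + 2) * F x ^ 2 ≤
      ∫ x, u x ^ 2 * (φ x / u x) ^ (2 * n + 2) * ‖∇ F x‖ ^ 2 := by
  have cs : ContinuousOn (fun x => φ x / u x) Ω := cφ.div cu fun x hx => (h0 x hx).ne'
  have cG : Continuous (∇ F) := by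
    have h1 := hF.continuous_fderiv one_ne_zero
    exact (InnerProductSpace.toDual ℝ E3).symm.continuous.comp h1
  have hF0 : ∀ x, x ∉ tsupport F → F x = 0 := fun x hx => image_eq_zero_of_notMem_tsupport hx
  have hG0 : ∀ x, x ∉ tsupport F → ∇ F x = 0 := fun x hx => R83.grad_eq_zero_of_notMem hx
  have i1 : Integrable (fun x => u x ^ 2 * (φ x / u x) ^ (2 * n + 2) * F x ^ 2) :=
    zen_int (((cu.pow 2).mul (cs.pow _)).mul (hF.continuous.continuousOn.pow 2)) hc hs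
      fun x hx => by rw [hF0 x hx]; simp
  have i2 : Integrable (fun x => u x ^ 2 * (φ x / u x) ^ (2 * n + 2) * ‖∇ F x‖ ^ 2) :=
    zen_int (((cu.pow 2).mul (cs.pow _)).mul (cG.norm.continuousOn.pow 2)) hc hs
      fun x hx => by rw [hG0 x hx]; simp
  refine ⟨i1, i2, ?_⟩
  have bφ := Bl.of_continuousOn cφ
  have bu := Bl.of_continuousOn cu
  have hs1 := H1loc.div hΩ (hφ.h1.loc Ω) (hu.h1.loc Ω) bφ bu fun B hB hBΩ => by
    rcases B.eq_empty_or_nonempty with rfl | hne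
    · exact ⟨1, one_pos, Eventually.of_forall fun x hx => hx.elim⟩
    · obtain ⟨x0, hx0, hm⟩ := hB.exists_isMinOn hne (cu.mono hBΩ)
      exact ⟨u x0, h0 x0 (hBΩ hx0), Eventually.of_forall fun x hx => hm hx⟩
  have hp := H1loc.comp hΩ hs1 (h := fun t => t ^ (2 * n + 1)) isOpen_univ
    (contDiff_id.pow _).contDiffOn fun B hB hBΩ =>
      ⟨(fun x => φ x / u x) '' B, hB.image_of_continuousOn (cs.mono hBΩ), subset_univ _,
        Eventually.of_forall fun x hx => mem_image_of_mem _ hx⟩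
  have hsub : tsupport (fun x => F x * F x) ⊆ tsupport F := tsupport_mul_subset_left
  have hξ := H1loc.th_mul hΩ hp (χ := fun x => F x * F x) (hF.mul hF) (hc.mul_right) (hsub.trans hs)
  have bξ : Bl Ω fun x => F x * F x * (φ x / u x) ^ (2 * n + 1) :=
    Bl.of_continuousOn ((hF.continuous.continuousOn.mul hF.continuous.continuousOn).mul (cs.pow _))
  have t1 := (TH.mul_loc hΩ hξ (hu.h1.loc Ω) bξ bu).h1
  have t2 := (TH.mul_loc hΩ hξ (hφ.h1.loc Ω) bξ bφ).h1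
  have q1 := hφ.eq _ _ t1
  have q2 := hu.eq _ _ t2
  have j1 := hφ.h1.int_inner t1
  have j2 := hu.h1.int_inner t2
  unfold bf ip at q1 q2
  have hid : ∀ x, φ x * (F x * F x * (φ x / u x) ^ (2 * n + 1) * u x) =
      u x ^ 2 * (φ x / u x) ^ (2 * n + 2) * F x ^ 2 := by
    intro x
    by_cases hx : x ∈ Ω
    · have := (h0 x hx).ne'
      rw [pow_succ (φ x / u x) (2 * n + 1)]
      field_simp
    · rw [hF0 x fun h => hx (hs h)]
      simp
  have hid' : ∀ x, u x * (F x * F x * (φ x / u x) ^ (2 * n + 1) * φ x) =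
      u x ^ 2 * (φ x / u x) ^ (2 * n + 2) * F x ^ 2 := fun x => by rw [← hid x]; ring
  simp only [hid, hid'] at q1 q2
  have hm : (0 : ℝ) < 2 * n + 1 := by positivity
  have key := integral_nonneg (μ := volume) (f := fun x => (2 * n + 1 : ℝ) * (⟪Gφ x,
      (F x * F x * (φ x / u x) ^ (2 * n + 1)) • Gu x + u x • ((F x * F x) •
        (deriv (fun t : ℝ => t ^ (2 * n + 1)) (φ x / u x) • ((u x)⁻¹ • Gφ x - (φ x / u x ^ 2) • Gu x)) +
        (φ x / u x) ^ (2 * n + 1) • ∇ (fun x => F x * F x) x)⟫ - ⟪Gu x,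
      (F x * F x * (φ x / u x) ^ (2 * n + 1)) • Gφ x + φ x • ((F x * F x) •
        (deriv (fun t : ℝ => t ^ (2 * n + 1)) (φ x / u x) • ((u x)⁻¹ • Gφ x - (φ x / u x ^ 2) • Gu x)) +
        (φ x / u x) ^ (2 * n + 1) • ∇ (fun x => F x * F x) x)⟫) +
      u x ^ 2 * (φ x / u x) ^ (2 * n + 2) * ‖∇ F x‖ ^ 2) (fun x => by
    have hd := (hF.differentiable one_ne_zero) x
    simp only [Pi.zero_apply]
    rw [R83.grad_mul hd hd]
    by_cases hx : x ∈ Ω
    · rw [zen_diff _ _ _ _ _ _ (h0 x hx).ne']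
      have e1 : deriv (fun t : ℝ => t ^ (2 * n + 1)) (φ x / u x) =
          (2 * n + 1 : ℝ) * (φ x / u x) ^ (2 * n) := by
        simp
      have e2 : (φ x / u x) ^ (2 * n + 2) = (φ x / u x) ^ (2 * n) * (φ x / u x) ^ 2 := pow_add _ _ _
      rw [e1, e2, pow_succ (φ x / u x) (2 * n)]
      exact zen_pt _ _ _ _ _ _ _ (by rw [pow_mul]; positivity)
    · have hx' : x ∉ tsupport F := fun h => hx (hs h)
      rw [hF0 x hx', hG0 x hx']
      simp)
  rw [integral_add ((j1.sub' j2).const_mul _) i2, integral_const_mul, integral_sub j1 j2] at key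
  have e : ∀ a b w A : ℝ, 1 / 2 * a + w = e1 * A → 1 / 2 * b + w = e2 * A → a - b = -(2 * (e2 - e1) * A) :=
    fun a b w A h1 h2 => by linarith
  rw [e _ _ _ _ q1 q2] at key
  linarith

end Crest.Agent.R335
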