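import Crest.Agent.R335.Z_Bas2

/-!
# R335/Z_Geo: pointwise estimates for (Z2)
-/

set_option autoImplicit false

namespace Crest.Agent.R335

open MeasureTheory Set Filter Topology
open scoped Gradient RealInnerProductSpace ENNReal ContDiff
open Crest.MathPhysics.ThreeBody

variable {k b L C c e1 e2 : ℝ} {R d V0 S v φ u ψ : E3 → ℝ} {GR Gd Gφ Gu Gψ : E3 → E3}

theorem zgeo_z (x x₀ : E3) : |x 2 - x₀ 2| ≤ ‖x - x₀‖ := by
  have := abs_z_le_norm (x - x₀)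
  simpa using this

/-- `abs_cyl_sub_le`, `abs_z_le_norm`, `z_lam_le_mul`; take `L' = 2 |L| + 10` -/
theorem z2_geo (L : ℝ) : ∃ L' : ℝ, 10 ≤ L' ∧ ∀ x₀ x : E3, L' ≤ cyl x₀ → x₀ 2 ≤ cyl x₀ / 5 →
    ‖x - x₀‖ ≤ cyl x₀ / 10 → lam (cyl x₀) / 12 ≤ x 2 →
      L < cyl x ∧ lam (cyl x) / 16 ≤ x 2 ∧ x 2 ≤ cyl x / 2 ∧ cyl x₀ / 2 ≤ cyl x ∧ x 2 ≤ cyl x₀ / 2 ∧
        lam (cyl x) ≤ 10 / 9 * lam (cyl x₀) ∧ lam (cyl x₀) ≤ 11 / 10 * lam (cyl x) := by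
  refine ⟨2 * |L| + 10, by have := abs_nonneg L; linarith, fun x₀ x h0 h1 h2 h3 => ?_⟩
  have hL := le_abs_self L
  have hL0 := abs_nonneg L
  obtain ⟨a1, a2⟩ := abs_le.1 ((abs_cyl_sub_le x x₀).trans h2)
  obtain ⟨b1, b2⟩ := abs_le.1 ((zgeo_z x x₀).trans h2)
  have hρ0 : 0 < cyl x₀ := by linarith
  have hρ : 0 < cyl x := by linarith
  have l0 := z_lam_pos hρ0
  have l1 : lam (cyl x) ≤ 10 / 9 * lam (cyl x₀) := z_lam_le_mul hρ0 (by norm_num) (by linarith)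
  have l2 : lam (cyl x₀) ≤ 11 / 10 * lam (cyl x) := z_lam_le_mul hρ (by norm_num) (by linarith)
  refine ⟨by linarith, by linarith, by linarith, by linarith, by linarith, l1, l2⟩

/-- `x 2 ≥ l / 8 - l / 40 = l / 10`, `z2_geo`, `Red.ulow`, `z_g_near` -/
theorem z2_low (h : Red k b L C c R GR d Gd V0 S v e1 e2 φ Gφ u Gu ψ Gψ) : ∃ c' L' : ℝ, 0 < c' ∧ ∀ x₀ x : E3,
    L' ≤ cyl x₀ → lam (cyl x₀) / 8 ≤ x₀ 2 → x₀ 2 ≤ cyl x₀ / 5 → ‖x - x₀‖ ≤ lam (cyl x₀) / 40 →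
      lam (cyl x₀) / 10 ≤ x 2 ∧ c' * lam (cyl x₀) * gfun k b x₀ ≤ u x := by
  obtain ⟨L', hL', hgeo⟩ := z2_geo L
  obtain ⟨Cg, hCg, hg⟩ := z_g_near k b h.tail.kpos.le
  have hc := h.tail.cpos
  refine ⟨c / (10 * Cg), L', by positivity, fun x₀ x h0 h1 h2 h3 => ?_⟩
  have hρ0 : 10 ≤ cyl x₀ := hL'.trans h0
  have l0 : 0 < lam (cyl x₀) := z_lam_pos (by linarith)
  have l1 : lam (cyl x₀) ≤ 1 := z_lam_le_one (by linarith)
  obtain ⟨b1, b2⟩ := abs_le.1 ((zgeo_z x x₀).trans h3)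
  have hz : lam (cyl x₀) / 10 ≤ x 2 := by linarith
  obtain ⟨g1, g2, g3, g4, -, -, -⟩ := hgeo x₀ x h0 h2 (by linarith) (by linarith)
  refine ⟨hz, le_trans ?_ (h.ulow x g1.le g2 g3)⟩
  have hn0 : 4 ≤ ‖x₀‖ := by have := cyl_le_norm x₀; linarith
  have hx0 : x ≠ 0 := by
    intro hx
    have := cyl_le_norm x
    rw [hx, norm_zero] at this
    rw [hx] at g4
    linarith
  have gx := gfun_pos k b hx0
  have := (hg x₀ x hn0 (by rw [norm_sub_rev]; linarith)).2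
  calc c / (10 * Cg) * lam (cyl x₀) * gfun k b x₀
      ≤ c / (10 * Cg) * lam (cyl x₀) * (Cg * gfun k b x) := by gcongr
    _ = c * (lam (cyl x₀) / 10) * gfun k b x := by field_simp
    _ ≤ c * x 2 * gfun k b x := by gcongr

/-- `z2_geo`; `gfun x ≤ Cg e^(k ‖x - x₀‖) gfun x₀` (`gfun_le`, `‖x - x₀‖ ≤ cyl x₀ / 10 ≤ ‖x₀‖ / 2`).  Layer (`x 2 ≤ l / 10`):
`0 < u ≤ 34 C (l / 10) g` (`z_up_sec`), `0 ≤ s ≤ S₀`.  Shell (`cyl x₀ / 20 ≤ ‖x - x₀‖`): `u ≤ 34 C (cyl x₀ / 2) g`,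
`s ≤ 34 C / c` (`z_s_le`), `e^(-2 ‖x - x₀‖) ≤ e^(-cyl x₀ / 10)`. -/
theorem z2_err (h : Red k b L C c R GR d Gd V0 S v e1 e2 φ Gφ u Gu ψ Gψ) (n : ℕ) : ∃ A L' : ℝ, 0 ≤ A ∧
    ∀ (x₀ x : E3) (S₀ : ℝ), L' ≤ cyl x₀ → x₀ 2 ≤ cyl x₀ / 5 → 0 ≤ S₀ →
      (∀ x, cyl x₀ / 2 ≤ cyl x → lam (cyl x) / 16 ≤ x 2 → x 2 ≤ lam (cyl x) → φ x / u x ≤ S₀) →
      ‖x - x₀‖ ≤ 2 * (cyl x₀ / 20) → lam (cyl x₀) / 12 ≤ x 2 →
        u x ^ 2 * (φ x / u x) ^ (2 * n + 2) * (Real.exp (-2 * (k + 1) * ‖x - x₀‖) *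
          ((if x 2 ≤ lam (cyl x₀) / 10 then 1 / lam (cyl x₀) ^ 2 else 0) +
            if cyl x₀ / 20 ≤ ‖x - x₀‖ then 1 / (cyl x₀ / 20) ^ 2 else 0)) ≤
        A * gfun k b x₀ ^ 2 * (S₀ ^ (2 * n + 2) + Real.exp (-(1 / 10 * cyl x₀))) := by
  obtain ⟨L', hL', hgeo⟩ := z2_geo L
  obtain ⟨Cg, hCg, hg⟩ := gfun_le k b h.tail.kpos.le
  have hc := h.tail.cpos
  have hC := h.tail.Cge
  have hk := h.tail.kpos
  refine ⟨(340 * C * Cg) ^ 2 * (1 + (34 * C / c) ^ (2 * n + 2)), L', by positivity,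
    fun x₀ x S₀ h0 h1 hS hs h2 h3 => ?_⟩
  have hρ0 : 10 ≤ cyl x₀ := hL'.trans h0
  have l0 : 0 < lam (cyl x₀) := z_lam_pos (by linarith)
  obtain ⟨g1, g2, g3, g4, g5, g6, g7⟩ := hgeo x₀ x h0 h1 (by linarith) h3
  have hn0 := cyl_le_norm x₀
  have hx0 : x ≠ 0 := by
    intro hx
    have := cyl_le_norm x
    rw [hx, norm_zero] at this
    rw [hx] at g4
    linarith
  have hx00 : x₀ ≠ 0 := by
    intro hx
    rw [hx, norm_zero] at hn0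
    rw [hx] at hρ0
    linarith
  have gx := gfun_pos k b hx0
  have gx0 := gfun_pos k b hx00
  have hgx := (hg x₀ x (by linarith) (by rw [norm_sub_rev]; linarith)).1
  rw [norm_sub_rev] at hgx
  obtain ⟨u0, s0, s1⟩ := z_s_le h g1 g2 g3
  have u1 := (z_up_sec h g1 g2).2
  set r := ‖x - x₀‖ with hr
  have r0 : 0 ≤ r := norm_nonneg _
  set l := lam (cyl x₀) with hl
  set ρ := cyl x₀ with hρ
  set s := φ x / u x with hs'
  set g₀ := gfun k b x₀ with hg₀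
  have hz0 : 0 < x 2 := by linarith
  -- the basic bound
  have key : u x ^ 2 * Real.exp (-2 * (k + 1) * r) ≤ (34 * C * Cg * x 2 * g₀) ^ 2 * Real.exp (-2 * r) := by
    have e1 : u x ≤ 34 * C * x 2 * (Cg * Real.exp (k * r) * g₀) := u1.trans (by gcongr)
    have e2 : Real.exp (k * r) ^ 2 * Real.exp (-2 * (k + 1) * r) = Real.exp (-2 * r) := by
      rw [← Real.exp_nat_mul, ← Real.exp_add]
      congr 1
      push_cast
      ring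
    calc u x ^ 2 * Real.exp (-2 * (k + 1) * r)
        ≤ (34 * C * x 2 * (Cg * Real.exp (k * r) * g₀)) ^ 2 * Real.exp (-2 * (k + 1) * r) := by gcongr
      _ = (34 * C * Cg * x 2 * g₀) ^ 2 * (Real.exp (k * r) ^ 2 * Real.exp (-2 * (k + 1) * r)) := by ring
      _ = _ := by rw [e2]
  have B0 : 0 ≤ (340 * C * Cg) ^ 2 * g₀ ^ 2 := by positivity
  have T0 : 0 ≤ (34 * C / c) ^ (2 * n + 2) := by positivity
  have t1 : u x ^ 2 * s ^ (2 * n + 2) * (Real.exp (-2 * (k + 1) * r) * (if x 2 ≤ l / 10 then 1 / l ^ 2 else 0)) ≤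
      (340 * C * Cg) ^ 2 * g₀ ^ 2 * S₀ ^ (2 * n + 2) := by
    split_ifs with hc1
    · have hρx : 0 < lam (cyl x) := z_lam_pos (by linarith)
      have s2 : s ≤ S₀ := hs x g4 g2 (by linarith)
      have e3 : Real.exp (-2 * r) ≤ 1 := Real.exp_le_one_iff.2 (by linarith)
      calc u x ^ 2 * s ^ (2 * n + 2) * (Real.exp (-2 * (k + 1) * r) * (1 / l ^ 2))
          = u x ^ 2 * Real.exp (-2 * (k + 1) * r) * (1 / l ^ 2) * s ^ (2 * n + 2) := by ring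
        _ ≤ (34 * C * Cg * x 2 * g₀) ^ 2 * Real.exp (-2 * r) * (1 / l ^ 2) * S₀ ^ (2 * n + 2) := by gcongr
        _ ≤ (34 * C * Cg * (10 * l) * g₀) ^ 2 * 1 * (1 / l ^ 2) * S₀ ^ (2 * n + 2) := by
            gcongr
            linarith
        _ = _ := by field_simp; ring
    · simp only [mul_zero]
      positivity
  have t2 : u x ^ 2 * s ^ (2 * n + 2) * (Real.exp (-2 * (k + 1) * r) * (if ρ / 20 ≤ r then 1 / (ρ / 20) ^ 2 else 0)) ≤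
      (340 * C * Cg) ^ 2 * g₀ ^ 2 * ((34 * C / c) ^ (2 * n + 2) * Real.exp (-(1 / 10 * ρ))) := by
    split_ifs with hc1
    · have e3 : Real.exp (-2 * r) ≤ Real.exp (-(1 / 10 * ρ)) := Real.exp_le_exp.2 (by linarith)
      have hρ' : 0 < ρ := by linarith
      calc u x ^ 2 * s ^ (2 * n + 2) * (Real.exp (-2 * (k + 1) * r) * (1 / (ρ / 20) ^ 2))
          = u x ^ 2 * Real.exp (-2 * (k + 1) * r) * (1 / (ρ / 20) ^ 2) * s ^ (2 * n + 2) := by ring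
        _ ≤ (34 * C * Cg * x 2 * g₀) ^ 2 * Real.exp (-2 * r) * (1 / (ρ / 20) ^ 2) * (34 * C / c) ^ (2 * n + 2) := by
            gcongr
        _ ≤ (34 * C * Cg * (ρ / 2) * g₀) ^ 2 * Real.exp (-(1 / 10 * ρ)) * (1 / (ρ / 20) ^ 2) *
              (34 * C / c) ^ (2 * n + 2) := by gcongr
        _ = _ := by field_simp; ring
    · simp only [mul_zero]
      positivity
  have S0 : 0 ≤ S₀ ^ (2 * n + 2) := by positivity
  have E0 : 0 < Real.exp (-(1 / 10 * ρ)) := Real.exp_pos _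
  calc _ = u x ^ 2 * s ^ (2 * n + 2) * (Real.exp (-2 * (k + 1) * r) * (if x 2 ≤ l / 10 then 1 / l ^ 2 else 0)) +
        u x ^ 2 * s ^ (2 * n + 2) * (Real.exp (-2 * (k + 1) * r) *
          (if ρ / 20 ≤ r then 1 / (ρ / 20) ^ 2 else 0)) := by ring
    _ ≤ _ := add_le_add t1 t2
    _ ≤ _ := by
      have m1 := mul_nonneg (mul_nonneg B0 T0) S0
      have m2 := mul_nonneg B0 E0.le
      nlinarith

end Crest.Agent.R335
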