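import Crest.Agent.R335.Z_Geo

/-!
# R335/Z_Hol: Hölder continuity of `s = φ / u`
-/

set_option autoImplicit false

namespace Crest.Agent.R335

open MeasureTheory Set Filter Topology
open scoped Gradient RealInnerProductSpace ENNReal ContDiff
open Crest.MathPhysics.ThreeBody

variable {k b L C c e1 e2 : ℝ} {R d V0 S v φ u ψ : E3 → ℝ} {GR Gd Gφ Gu Gψ : E3 → E3}

/-- `holder` for `φ` and `u` with `K = 2 C ρ₀ Cg g₀` (`z_up`, `z_g_near`; on `ball x₀ 1`: `|z| + lam ≤ ρ₀/5 + 2 ≤ ρ₀`),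
`φ₀/u₀ - φ/u = (φ₀ - φ)/u + (φ₀/u₀) (u - u₀)/u`, `z2_low` (`ρ₀^(-42) ≤ lam ρ₀ / 40`), `z_s_le`:
the difference is at most `A ρ₀^(1 - 14 + 3/5) ≤ ρ₀^(-12) / 2` (`z_ev_rpow`). -/
theorem z2_hol (h : Red k b L C c R GR d Gd V0 S v e1 e2 φ Gφ u Gu ψ Gψ) : ∃ L' : ℝ, ∀ x₀ : E3,
    L' ≤ cyl x₀ → lam (cyl x₀) / 8 ≤ x₀ 2 → x₀ 2 ≤ cyl x₀ / 5 → ∀ x ∈ Metric.ball x₀ (cyl x₀ ^ (-42 : ℝ)),
      φ x₀ / u x₀ - cyl x₀ ^ (-12 : ℝ) / 2 ≤ φ x / u x := by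
  obtain ⟨C1, hC1, h1⟩ := holder h.cls h.sv e1
  obtain ⟨C2, hC2, h2⟩ := holder h.cls h.sv e2
  obtain ⟨Cg, hCg, hg⟩ := z_g_near k b h.tail.kpos.le
  obtain ⟨c', L1, hc', hlow⟩ := z2_low h
  have hc := h.tail.cpos
  have hC := h.tail.Cge
  have hL := h.tail.Lge
  have ev := (z_ev_rpow (2 * ((C1 + 34 * C / c * C2) * (2 * C * Cg)) / c') (p := -13) (q := -12 + -(3 / 5))
    (by norm_num)).and ((z_ev_rpow 40 (p := -42) (q := -(3 / 5)) (by norm_num)).and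
      ((eventually_ge_atTop (L + 4)).and (eventually_ge_atTop L1)))
  obtain ⟨L', hL'⟩ := eventually_atTop.1 ev
  refine ⟨L', fun x₀ hx hz1 hz2 x hxb => ?_⟩
  obtain ⟨a1, a2, a3, a4⟩ := hL' _ hx
  have hρ : 0 < cyl x₀ := by linarith
  have hl := z_lam_pos hρ
  have hl1 := z_lam_le_one (ρ := cyl x₀) (by linarith)
  have hn : ‖x - x₀‖ < cyl x₀ ^ (-42 : ℝ) := mem_ball_iff_norm.1 hxb
  have hn1 : ‖x - x₀‖ ≤ lam (cyl x₀) / 40 := by unfold lam; linarith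
  have g0 : 0 < gfun k b x₀ := gfun_pos k b (norm_pos_iff.1 (hρ.trans_le (cyl_le_norm x₀)))
  have hK : ∀ y ∈ Metric.ball x₀ 1, 2 * C * (|y 2| + lam (cyl y)) * gfun k b y ≤
      2 * C * cyl x₀ * (Cg * gfun k b x₀) ∧ L < cyl y := fun y hy => by
    have b1 : ‖y - x₀‖ < 1 := mem_ball_iff_norm.1 hy
    have b2 := (abs_le.1 (abs_cyl_sub_le y x₀)).1
    have b3 := abs_le.1 (abs_z_le_norm (y - x₀))
    rw [PiLp.sub_apply] at b3
    have b4 := z_lam_le_one (ρ := cyl y) (by linarith)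
    have b5 : |y 2| ≤ cyl x₀ / 5 + 1 := abs_le.2 ⟨by linarith [b3.1], by linarith [b3.2]⟩
    have b6 := (hg x₀ y (by linarith [cyl_le_norm x₀]) (by rw [norm_sub_rev]; linarith)).1
    have b7 : 0 < gfun k b y := gfun_pos k b (norm_pos_iff.1 (by linarith [cyl_le_norm y]))
    have b8 : |y 2| + lam (cyl y) ≤ cyl x₀ := by linarith
    exact ⟨by gcongr, by linarith⟩
  have hr : ‖x - x₀‖ ^ (1 / 3 : ℝ) ≤ cyl x₀ ^ (-14 : ℝ) := by
    refine (Real.rpow_le_rpow (norm_nonneg _) hn.le (by norm_num)).trans_eq ?_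
    rw [← Real.rpow_mul hρ.le]
    norm_num
  have d1 := (h1 φ Gφ x₀ _ h.oφ.eig h.oφ.cont (by linarith)
    (fun y hy => (z_up h (hK y hy).2).1.trans (hK y hy).1) x (by linarith)).trans
    (mul_le_mul_of_nonneg_left hr (by positivity))
  have d2 := (h2 u Gu x₀ _ h.ou.orb.eig h.ou.orb.cont (by linarith)
    (fun y hy => (z_up h (hK y hy).2).2.1.trans (hK y hy).1) x (by linarith)).trans
    (mul_le_mul_of_nonneg_left hr (by positivity))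
  obtain ⟨u0, s0, s1⟩ := z_s_le h (x := x₀) (by linarith) (by linarith) (by linarith)
  have u1 := (hlow x₀ x a4 hz1 hz2 hn1).2
  have u2 : 0 < u x := lt_of_lt_of_le (by positivity) u1
  have e1 : φ x₀ / u x₀ - φ x / u x = ((φ x₀ - φ x) + φ x₀ / u x₀ * (u x - u x₀)) / u x := by
    field_simp
    ring
  have e2 : cyl x₀ * cyl x₀ ^ (-14 : ℝ) = cyl x₀ ^ (-13 : ℝ) := by
    rw [show (-13 : ℝ) = 1 + -14 by norm_num, Real.rpow_add hρ, Real.rpow_one]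
  have d3 : φ x₀ / u x₀ * (u x - u x₀) ≤
      34 * C / c * (C2 * (2 * C * cyl x₀ * (Cg * gfun k b x₀)) * cyl x₀ ^ (-14 : ℝ)) :=
    (mul_le_mul_of_nonneg_left ((le_abs_self _).trans d2) s0).trans (mul_le_mul_of_nonneg_right s1 (by positivity))
  have d4 : (φ x₀ - φ x) + φ x₀ / u x₀ * (u x - u x₀) ≤
      (C1 + 34 * C / c * C2) * (2 * C * Cg) * (cyl x₀ * cyl x₀ ^ (-14 : ℝ)) * gfun k b x₀ := by
    have := (abs_le.1 d1).1
    linarith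
  rw [e2] at d4
  rw [Real.rpow_add hρ, div_mul_eq_mul_div, div_le_iff₀ hc'] at a1
  have d5 : φ x₀ / u x₀ - φ x / u x ≤ cyl x₀ ^ (-12 : ℝ) / 2 := by
    rw [e1, div_le_iff₀ u2]
    refine d4.trans (le_trans ?_ (mul_le_mul_of_nonneg_left u1 (by positivity)))
    have := mul_le_mul_of_nonneg_right a1 g0.le
    unfold lam
    linarith
  linarith

end Crest.Agent.R335
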