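import Crest.Agent.R335.Z_Geo
import Crest.Agent.R335.Z_Br
import Crest.Agent.R335.Z_En

/-!
# R335/Z_Int: the integral form of (Z2)
-/

set_option autoImplicit false

namespace Crest.Agent.R335

open MeasureTheory Set Filter Topology
open scoped Gradient RealInnerProductSpace ENNReal ContDiff
open Crest.MathPhysics.ThreeBody

variable {k b L C c e1 e2 : ℝ} {R d V0 S v φ u ψ : E3 → ℝ} {GR Gd Gφ Gu Gψ : E3 → E3}

theorem zint_fin {c' l g₀ P E c₃ r M A T ρ : ℝ} (hc' : 0 < c') (hg : 0 < g₀) (hc₃ : 0 < c₃) (hρ : 1 ≤ ρ)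
    (hl : ρ⁻¹ ≤ l) (hP : 0 ≤ P) (hr : 0 < r) (hM : 0 ≤ M) (hA : 0 ≤ A) (hT : 0 ≤ T)
    (h : (c' * l * g₀) ^ 2 * P * Real.exp (-E) ^ 2 * (c₃ * r ^ 3) ≤
      M * (A * g₀ ^ 2 * T) * (c₃ * (2 * (ρ / 20)) ^ 3)) :
    P * r ^ 3 ≤ M * A * Real.exp E ^ 2 / c' ^ 2 * ρ ^ 5 * T := by
  have hρ0 : 0 < ρ := by linarith
  have hE := Real.exp_pos E
  have h1 : 1 ≤ ρ * l := by
    have := mul_le_mul_of_nonneg_left hl hρ0.le
    rwa [mul_inv_cancel₀ hρ0.ne'] at this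
  have h2 : 1 ≤ (ρ * l) ^ 2 := one_le_pow₀ h1
  have h3 : (2 * (ρ / 20)) ^ 3 ≤ ρ ^ 3 := pow_le_pow_left₀ (by positivity) (by linarith) 3
  have h4 : (c' * l * g₀) ^ 2 * P * Real.exp (-E) ^ 2 * (c₃ * r ^ 3) ≤
      M * (A * g₀ ^ 2 * T) * (c₃ * ρ ^ 3) := h.trans (by gcongr)
  have h5 := mul_le_mul_of_nonneg_right h4
    (show 0 ≤ ρ ^ 2 * Real.exp E ^ 2 / (c' ^ 2 * g₀ ^ 2 * c₃) by positivity)
  rw [Real.exp_neg] at h5
  calc P * r ^ 3 = 1 * (P * r ^ 3) := (one_mul _).symm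
    _ ≤ (ρ * l) ^ 2 * (P * r ^ 3) := by gcongr
    _ = _ := by field_simp
    _ ≤ _ := h5
    _ = _ := by field_simp

/-- `n₀` such that `2 (k+1)² + 1 ≤ 2 (e2 - e1) (2 n + 1)`.  `ρ₀ = cyl x₀`, `l = lam ρ₀`, `F` from `z_exists_F` with `α = k + 1`,
`a = x₀`, `s = ρ₀ / 20`; `z_energy` on `Ω = offA ∩ {x | 0 < x 2}` (`OddU.pos`, `z2_geo`).  With `w = u² s^(2n+2)`:
`∫ w F² ≤ ∫ (w ‖∇F‖² - 2 α² w F²) ≤ M A g₀² (S₀^(2n+2) + e^(-ρ₀/10)) c₃ (ρ₀/10)³` (`z_int_le`, `z2_err` on `tsupport F`, the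
integrand is `0` off `tsupport F`), and `∫ w F² ≥ (c' l g₀)² a^(2n+2) e^(-4α) c₃ r³` (`z_le_int`, `z2_low`).  Finally
`l ≥ ρ₀⁻¹` (`z_inv_le_lam`), `g₀ > 0`. -/
theorem z2_int (h : Red k b L C c R GR d Gd V0 S v e1 e2 φ Gφ u Gu ψ Gψ) : ∃ n₀ : ℕ, ∀ n, n₀ ≤ n → ∃ A L' : ℝ, 0 ≤ A ∧
    ∀ (x₀ : E3) (S₀ r a : ℝ), L' ≤ cyl x₀ → lam (cyl x₀) / 8 ≤ x₀ 2 → x₀ 2 ≤ cyl x₀ / 5 → 0 ≤ S₀ →
      (∀ x, cyl x₀ / 2 ≤ cyl x → lam (cyl x) / 16 ≤ x 2 → x 2 ≤ lam (cyl x) → φ x / u x ≤ S₀) →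
      0 < r → r ≤ lam (cyl x₀) / 40 → 0 ≤ a → (∀ x ∈ Metric.ball x₀ r, a ≤ φ x / u x) →
        a ^ (2 * n + 2) * r ^ 3 ≤ A * cyl x₀ ^ 5 * (S₀ ^ (2 * n + 2) + Real.exp (-(1 / 10 * cyl x₀))) := by
  have hδ : 0 < e2 - e1 := sub_pos.2 h.lt
  have hk := h.tail.kpos
  obtain ⟨n₀, hn₀⟩ := exists_nat_ge ((2 * (k + 1) ^ 2 + 1) / (2 * (e2 - e1)))
  refine ⟨n₀, fun n hn => ?_⟩
  have hn' : 2 * (k + 1) ^ 2 + 1 ≤ 2 * (e2 - e1) * (2 * n + 1) := by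
    rw [div_le_iff₀ (by positivity)] at hn₀
    have a1 : (n₀ : ℝ) ≤ n := by exact_mod_cast hn
    have a2 : (n₀ : ℝ) ≤ 2 * n + 1 := by linarith [(Nat.cast_nonneg n : (0 : ℝ) ≤ n)]
    calc _ ≤ n₀ * (2 * (e2 - e1)) := hn₀
      _ ≤ (2 * n + 1) * (2 * (e2 - e1)) := by gcongr
      _ = _ := by ring
  obtain ⟨L₁, hL₁, geo⟩ := z2_geo L
  obtain ⟨c', L₂, hc', low⟩ := z2_low h
  obtain ⟨A, L₃, hA, err⟩ := z2_err h n
  obtain ⟨M, hM, exF⟩ := z_exists_F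
  obtain ⟨c₃, hc₃, vol⟩ := z_vol_ball
  refine ⟨M * A * Real.exp (2 * (k + 1)) ^ 2 / c' ^ 2, max L₁ (max L₂ L₃), by positivity,
    fun x₀ S₀ r a hx h1 h2 hS lay hr hrl ha hball => ?_⟩
  have b1 : L₁ ≤ cyl x₀ := (le_max_left _ _).trans hx
  have b2 : L₂ ≤ cyl x₀ := (le_max_left _ _).trans ((le_max_right _ _).trans hx)
  have b3 : L₃ ≤ cyl x₀ := (le_max_right _ _).trans ((le_max_right _ _).trans hx)
  have hρ : 10 ≤ cyl x₀ := hL₁.trans b1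
  have hl : 0 < lam (cyl x₀) := z_lam_pos (by linarith)
  have hl1 : lam (cyl x₀) ≤ 1 := z_lam_le_one (by linarith)
  have hx0 : x₀ ≠ 0 := by
    intro h0
    have := cyl_le_norm x₀
    rw [h0, norm_zero] at this
    rw [h0] at hρ
    linarith
  have hg := gfun_pos k b hx0
  obtain ⟨F, hF, hc, hs, hlow, hgrad⟩ :=
    exF (k + 1) x₀ (lam (cyl x₀)) (cyl x₀ / 20) (by linarith) hl (by linarith)
  have hΩ : IsOpen (offA ∩ {x : E3 | 0 < x 2}) :=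
    isOpen_offA.inter (isOpen_lt continuous_const (by fun_prop))
  have hsub : tsupport F ⊆ offA ∩ {x : E3 | 0 < x 2} := by
    intro x hx
    obtain ⟨c1, c2⟩ := hs hx
    have c3 := (geo x₀ x b1 h2 (by linarith) c2).1
    exact ⟨show 0 < cyl x by linarith [h.tail.Lge], show 0 < x 2 by linarith⟩
  obtain ⟨i1, i2, en⟩ := z_energy h.oφ.eig h.ou.orb.eig hΩ (h.oφ.cont.mono inter_subset_left)
    (h.ou.orb.cont.mono inter_subset_left) (fun x hx => h.ou.pos x hx.1 hx.2) hF hc hsub n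
  have hw : ∀ x, 0 ≤ u x ^ 2 * (φ x / u x) ^ (2 * n + 2) := fun x =>
    mul_nonneg (sq_nonneg _) (((even_two_mul n).add even_two).pow_nonneg _)
  have hT : 0 ≤ S₀ ^ (2 * n + 2) + Real.exp (-(1 / 10 * cyl x₀)) := by positivity
  have hB : 0 ≤ M * (A * gfun k b x₀ ^ 2 * (S₀ ^ (2 * n + 2) + Real.exp (-(1 / 10 * cyl x₀)))) := by
    positivity
  have hout : ∀ x, x ∉ tsupport F → u x ^ 2 * (φ x / u x) ^ (2 * n + 2) * ‖∇ F x‖ ^ 2 -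
      2 * (k + 1) ^ 2 * (u x ^ 2 * (φ x / u x) ^ (2 * n + 2) * F x ^ 2) = 0 := by
    intro x hx
    rw [R83.grad_eq_zero_of_notMem hx, image_eq_zero_of_notMem_tsupport hx]
    simp
  have up := z_int_le (i2.sub (i1.const_mul (2 * (k + 1) ^ 2))) (a := x₀) (r := 2 * (cyl x₀ / 20)) hB
    (Eventually.of_forall fun x _ => by
      by_cases hx : x ∈ tsupport F
      · obtain ⟨c1, c2⟩ := hs hx
        have e1 := mul_le_mul_of_nonneg_left (err x₀ x S₀ b3 h2 hS lay c1 c2) hM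
        have e2 := mul_le_mul_of_nonneg_left (hgrad x) (hw x)
        simp only [Pi.sub_apply]
        linarith
      · exact (hout x hx).trans_le hB)
    (Eventually.of_forall fun x hx => (hout x fun hx' => absurd (hs hx').1 (not_le.2 hx)).le)
  simp only [Pi.sub_apply] at up
  rw [integral_sub i2 (i1.const_mul _), integral_const_mul, (vol x₀ _ (by linarith)).2] at up
  have h0 : ∀ x, 0 ≤ u x ^ 2 * (φ x / u x) ^ (2 * n + 2) * F x ^ 2 := fun x =>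
    mul_nonneg (hw x) (sq_nonneg _)
  have lo := z_le_int i1 (Eventually.of_forall h0) (a := x₀) (r := r)
    (B := (c' * lam (cyl x₀) * gfun k b x₀) ^ 2 * a ^ (2 * n + 2) * Real.exp (-(2 * (k + 1))) ^ 2)
    (Eventually.of_forall fun x hx => by
      obtain ⟨c1, c2⟩ := low x₀ x b2 h1 h2 (by linarith)
      have c3 := hlow x (by linarith) (by linarith) c1
      have c4 := hball x (mem_ball_iff_norm.2 hx)
      have c5 := hw x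
      rw [neg_mul] at c3
      gcongr)
  rw [(vol x₀ r hr.le).1] at lo
  have hI : 0 ≤ ∫ x, u x ^ 2 * (φ x / u x) ^ (2 * n + 2) * F x ^ 2 := integral_nonneg h0
  have e3 := mul_le_mul_of_nonneg_right hn' hI
  exact zint_fin hc' hg hc₃ (by linarith) (z_inv_le_lam (by linarith)) (pow_nonneg ha _) hr hM hA hT
    (by linarith)

end Crest.Agent.R335
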