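import Crest.Agent.R335.Z_Neg

/-!
# R335/Z_L1: the truncated negative part is small in `L¹` on the whole ball
-/

set_option autoImplicit false

namespace Crest.Agent.R335

open MeasureTheory Set Filter Topology
open scoped Gradient RealInnerProductSpace ENNReal ContDiff
open Crest.MathPhysics.ThreeBody

variable {k b L C c e1 e2 : ℝ} {R d V0 S v φ u ψ : E3 → ℝ} {GR Gd Gφ Gu Gψ : E3 → E3}

/-- The ball is covered by `B₊ = {lam ρ ≤ x 2}`, `B₋ = {x 2 ≤ -lam ρ}` and the strip.  `∫_{B₋} zN = ∫_{B₊} zN` by the reflection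
(`exists_refl_z`, `LinearIsometryEquiv.measurePreserving`, `Red.sv`; `refl` fixes `pt ρ 0`), the strip contributes at most
`M' · 8 (C₁ log ρ)² lam ρ` (`z_vol_strip`, `z_ev_log`). -/
theorem z_l1 (h : Red k b L C c R GR d Gd V0 S v e1 e2 φ Gφ u Gu ψ Gψ) (hφ : PhiB k b φ (23 / 10))
    (hτ : ∃ L' : ℝ, ∀ ρ z, L' ≤ ρ → lam ρ / 4 ≤ z → z ≤ Real.log ρ ^ 2 → |tau u ψ ρ z| ≤ ρ⁻¹)
    {η C₁ ε M' : ℝ} (hη : 0 < η) (hC : 0 < C₁) (hε : 0 < ε) (hM : 0 ≤ M') : ∃ L' : ℝ, ∀ ρ : ℝ, L' ≤ ρ →
      IntegrableOn (fun x => min (zN v e2 (k ^ 2 / 2 - η) x) M') (Metric.closedBall (pt ρ 0) (C₁ * Real.log ρ)) ∧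
      ∫ x in Metric.closedBall (pt ρ 0) (C₁ * Real.log ρ), min (zN v e2 (k ^ 2 / 2 - η) x) M' ≤ ε := by
  obtain ⟨L1, hL1⟩ := z_neg h hφ hτ hη hC (ε := ε / 3) (by positivity)
  have hev : ∀ᶠ ρ : ℝ in atTop, (M' * 8 * C₁ ^ 2 * 3 / ε) * Real.log ρ ^ 2 ≤ ρ ^ (3 / 5 : ℝ) :=
    z_ev_log _ 2 (by norm_num)
  obtain ⟨L2, hL2⟩ := eventually_atTop.1 hev
  refine ⟨max (max L1 L2) 1, fun ρ hρ => ?_⟩
  have hρ1 : 1 ≤ ρ := le_trans (le_max_right _ _) hρ
  have hρ0 : 0 < ρ := by linarith
  obtain ⟨hint, hle⟩ := hL1 ρ (le_trans (le_trans (le_max_left _ _) (le_max_left _ _)) hρ)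
  have hlog := hL2 ρ (le_trans (le_trans (le_max_right _ _) (le_max_left _ _)) hρ)
  set N := zN v e2 (k ^ 2 / 2 - η) with hN
  set Z := C₁ * Real.log ρ with hZ
  have hZ0 : 0 ≤ Z := mul_nonneg hC.le (Real.log_nonneg hρ1)
  have hl0 : 0 < lam ρ := z_lam_pos hρ0
  have hN0 : ∀ x, 0 ≤ N x := fun x => le_max_right _ _
  set B : Set E3 := Metric.closedBall (pt ρ 0) Z with hB
  have hBm : MeasurableSet B := Metric.isClosed_closedBall.measurableSet
  have hBfin : volume B < ⊤ := (isCompact_closedBall _ _).measure_lt_top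
  have hmin : IntegrableOn (fun x => min (N x) M') B := by
    refine Integrable.mono' hint (hint.aestronglyMeasurable.inf aestronglyMeasurable_const) ?_
    refine Eventually.of_forall fun x => ?_
    rw [Real.norm_eq_abs, abs_of_nonneg (le_min (hN0 x) hM)]
    exact min_le_left _ _
  refine ⟨hmin, ?_⟩
  have c2 : Continuous fun x : E3 => x 2 := by fun_prop
  have cn : Continuous fun x : E3 => ‖x - pt ρ 0‖ := by fun_prop
  set Bp : Set E3 := {x : E3 | ‖x - pt ρ 0‖ ≤ Z ∧ lam ρ ≤ x 2} with hBp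
  set Bm : Set E3 := {x : E3 | ‖x - pt ρ 0‖ ≤ Z ∧ x 2 ≤ -lam ρ} with hBm'
  set Bs : Set E3 := {x : E3 | ‖x - pt ρ 0‖ ≤ Z ∧ |x 2| ≤ lam ρ} with hBs
  have mp : MeasurableSet Bp :=
    ((isClosed_le cn continuous_const).inter (isClosed_le continuous_const c2)).measurableSet
  have mm : MeasurableSet Bm :=
    ((isClosed_le cn continuous_const).inter (isClosed_le c2 continuous_const)).measurableSet
  have ms : MeasurableSet Bs :=
    ((isClosed_le cn continuous_const).inter (isClosed_le c2.abs continuous_const)).measurableSet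
  have sp : Bp ⊆ B := fun x hx => by simpa [hB, dist_eq_norm] using hx.1
  have sm : Bm ⊆ B := fun x hx => by simpa [hB, dist_eq_norm] using hx.1
  have ss : Bs ⊆ B := fun x hx => by simpa [hB, dist_eq_norm] using hx.1
  have ip : Integrable (Bp.indicator N) := (integrable_indicator_iff mp).2 (hint.mono_set sp)
  have im : Integrable (Bm.indicator N) := (integrable_indicator_iff mm).2 (hint.mono_set sm)
  have hsfin : volume Bs < ⊤ := lt_of_le_of_lt (measure_mono ss) hBfin
  have is : Integrable (Bs.indicator fun _ => M') :=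
    (integrable_indicator_iff ms).2 (integrableOn_const hsfin.ne)
  obtain ⟨T, hT, hT1, -⟩ := exists_refl_z
  have hTp : T (pt ρ 0) = pt ρ 0 := by
    rw [hT1]; ext j; fin_cases j <;> simp [refl, pt]
  have hpm : ∫ x, Bm.indicator N x = ∫ x, Bp.indicator N x := by
    rw [← T.measurePreserving.integral_comp T.toHomeomorph.measurableEmbedding (Bp.indicator N)]
    refine integral_congr_ae ?_
    filter_upwards [h.sv T (Or.inr hT)] with x hx
    have hn : ‖T x - pt ρ 0‖ = ‖x - pt ρ 0‖ := by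
      conv_lhs => rw [← hTp, ← map_sub, T.norm_map]
    have hmem : T x ∈ Bp ↔ x ∈ Bm := by
      simp only [hBp, hBm', mem_ofPred_eq, hn, hT x]
      constructor <;> rintro ⟨h1, h2⟩ <;> exact ⟨h1, by linarith⟩
    have hNx : N (T x) = N x := by simp only [hN, zN, hx]
    by_cases hx' : x ∈ Bm
    · rw [indicator_of_mem hx', indicator_of_mem (hmem.2 hx'), hNx]
    · rw [indicator_of_notMem hx', indicator_of_notMem (fun h' => hx' (hmem.1 h'))]
  have hstrip : ∫ x, Bs.indicator (fun _ => M') x ≤ ε / 3 := by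
    rw [integral_indicator ms, setIntegral_const, smul_eq_mul]
    have h1 : volume.real Bs ≤ 8 * Z ^ 2 * lam ρ := by
      have := z_vol_strip (pt ρ 0) hZ0 hl0.le
      exact ENNReal.toReal_le_of_le_ofReal (by positivity) this
    have h2 : lam ρ * ρ ^ (3 / 5 : ℝ) = 1 := by
      rw [lam, ← Real.rpow_add hρ0]; norm_num
    have h3 : M' * 8 * C₁ ^ 2 * 3 * Real.log ρ ^ 2 ≤ ε * ρ ^ (3 / 5 : ℝ) := by
      have := mul_le_mul_of_nonneg_left hlog hε.le
      calc M' * 8 * C₁ ^ 2 * 3 * Real.log ρ ^ 2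
          = ε * (M' * 8 * C₁ ^ 2 * 3 / ε * Real.log ρ ^ 2) := by field_simp
        _ ≤ _ := this
    have h4 := mul_le_mul_of_nonneg_left h3 hl0.le
    have h5 : lam ρ * (ε * ρ ^ (3 / 5 : ℝ)) = ε := by
      calc lam ρ * (ε * ρ ^ (3 / 5 : ℝ)) = ε * (lam ρ * ρ ^ (3 / 5 : ℝ)) := by ring
        _ = ε := by rw [h2, mul_one]
    have h6 := mul_le_mul_of_nonneg_right h1 hM
    rw [h5] at h4
    have h7 : 8 * Z ^ 2 * lam ρ * M' = lam ρ * (M' * 8 * C₁ ^ 2 * 3 * Real.log ρ ^ 2) / 3 := by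
      rw [hZ]; ring
    linarith
  have hpt : ∀ x, B.indicator (fun x => min (N x) M') x ≤
      Bp.indicator N x + Bm.indicator N x + Bs.indicator (fun _ => M') x := by
    intro x
    have a1 : 0 ≤ Bp.indicator N x := indicator_nonneg (fun y _ => hN0 y) x
    have a2 : 0 ≤ Bm.indicator N x := indicator_nonneg (fun y _ => hN0 y) x
    have a3 : 0 ≤ Bs.indicator (fun _ => M') x := indicator_nonneg (fun y _ => hM) x
    by_cases hx : x ∈ B
    · rw [indicator_of_mem hx]
      have hx' : ‖x - pt ρ 0‖ ≤ Z := by simpa [hB, dist_eq_norm] using hx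
      by_cases h1 : lam ρ ≤ x 2
      · rw [indicator_of_mem (show x ∈ Bp from ⟨hx', h1⟩)]
        linarith [min_le_left (N x) M']
      · by_cases h2 : x 2 ≤ -lam ρ
        · rw [indicator_of_mem (show x ∈ Bm from ⟨hx', h2⟩)]
          linarith [min_le_left (N x) M']
        · rw [indicator_of_mem (show x ∈ Bs from ⟨hx', abs_le.2 ⟨by linarith, by linarith⟩⟩)]
          linarith [min_le_right (N x) M']
    · rw [indicator_of_notMem hx]; positivity
  rw [← integral_indicator hBm]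
  have hI := integral_mono ((integrable_indicator_iff hBm).2 hmin) ((ip.add im).add is) hpt
  have hS : ∫ x, (Bp.indicator N x + Bm.indicator N x + Bs.indicator (fun _ => M') x) =
      (∫ x, Bp.indicator N x) + (∫ x, Bm.indicator N x) + ∫ x, Bs.indicator (fun _ => M') x := by
    rw [← integral_add ip im]
    exact integral_add (ip.add im) is
  have hp : ∫ x, Bp.indicator N x ≤ ε / 3 := by rw [integral_indicator mp]; exact hle
  have hI' : ∫ x, B.indicator (fun x => min (N x) M') x ≤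
      ∫ x, (Bp.indicator N x + Bm.indicator N x + Bs.indicator (fun _ => M') x) := hI
  rw [hS, hpm] at hI'
  linarith

end Crest.Agent.R335
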