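import Crest.Agent.R335.Z_Bas2

/-!
# R335/Z_Lay: the gain in the layer
-/

set_option autoImplicit false

namespace Crest.Agent.R335

open MeasureTheory Set Filter Topology
open scoped Gradient RealInnerProductSpace ENNReal ContDiff
open Crest.MathPhysics.ThreeBody

variable {k b L C c e1 e2 : ℝ} {R d V0 S v φ u ψ : E3 → ℝ} {GR Gd Gφ Gu Gψ : E3 → E3}

theorem zlay_norm {ρ : ℝ} (h : 0 ≤ ρ) : ‖pt ρ 0‖ = ρ := by
  have h1 := norm_sq_cyl (pt ρ 0)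
  rw [cyl_pt h, (z_pt_two ρ 0).2.2, zero_pow two_ne_zero, add_zero] at h1
  exact (pow_left_inj₀ (norm_nonneg _) h two_ne_zero).1 h1

theorem zlay_sq {ρ : ℝ} (h : 0 < ρ) : (ρ ^ (-(3 / 10) : ℝ)) ^ 2 = lam ρ := by
  unfold lam
  rw [← Real.rpow_natCast, ← Real.rpow_mul h.le]
  norm_num

theorem zlay_third {ρ : ℝ} (h : 1 ≤ ρ) : (ρ ^ (-(3 / 10) : ℝ) / ρ) ^ (2 / 3 : ℝ) ≤ lam ρ := by
  have h0 : 0 < ρ := by linarith
  unfold lam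
  have e : ρ ^ (-(3 / 10) : ℝ) / ρ = ρ ^ (-(13 / 10) : ℝ) := by
    rw [show (-(13 / 10) : ℝ) = -(3 / 10) - 1 by norm_num, Real.rpow_sub_one h0.ne']
  rw [e, ← Real.rpow_mul h0.le]
  exact Real.rpow_le_rpow_of_exponent_le h (by norm_num)

theorem zlay_cube {ρ m' : ℝ} (h : 1 ≤ ρ) (h1 : m' ≤ 12 / 5) : 1 / ρ ^ 3 ≤ ρ ^ (-m') * lam ρ := by
  have h0 : 0 < ρ := by linarith
  unfold lam
  rw [← Real.rpow_add h0, one_div, ← Real.rpow_natCast, ← Real.rpow_neg h0.le]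
  exact Real.rpow_le_rpow_of_exponent_le h (by push_cast; linarith)

theorem zlay_gain {ρ m m' : ℝ} (h : 1 ≤ ρ) (h2 : m' ≤ m + 3 / 10) :
    ρ ^ (-m) * ρ ^ (-(3 / 10) : ℝ) ≤ ρ ^ (-m') := by
  have h0 : 0 < ρ := by linarith
  rw [← Real.rpow_add h0]
  exact Real.rpow_le_rpow_of_exponent_le h (by linarith)

/-- `ρ = cyl x`, `z = |x 2| ≤ lam ρ`, `φ x = φ (pt ρ z)` (`Even3.eq_pt`), `z_gfun_pt`.  `ss` with `s = ρ^(-3/10)` (`z_refl`):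
`(z/s)², s², (s/ρ)^(2/3) ≤ lam ρ`.  On `ball (pt ρ 0) (3 s)`: `cyl y ≥ ρ / 2`, `|y 2| ≤ 3 s`, `lam (cyl y) ≤ 2 lam ρ ≤ 2 s`, so
`|φ y| = φ y ≤ A 2^m ρ^(-m) 5 s Cg g(pt ρ 0)` (`z_rpow_half`, `z_g_near`).  `Tail.plane_le` with `M = 1` (`z_dom`):
`φ (pt ρ 0) ≤ C ρ^(-3) g = C ρ^(-12/5) lam ρ g`. -/
theorem z_lay (h : Red k b L C c R GR d Gd V0 S v e1 e2 φ Gφ u Gu ψ Gψ) {m m' : ℝ} (hm0 : 0 ≤ m)
    (h1 : m' ≤ 12 / 5) (h2 : m' ≤ m + 3 / 10) (hP : ZP k b φ m) : ZQ k b φ m' := by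
  obtain ⟨L', A, hA, HP⟩ := hP
  obtain ⟨Cs, hCs, Hs⟩ := ss h.cls h.sv e1
  obtain ⟨Cg, hCg, Hg⟩ := z_g_near k b h.tail.kpos.le
  obtain ⟨L0, hL0⟩ := eventually_atTop.1 (z_ev_rpow 2 (p := -(3 / 10)) (q := 0) (by norm_num))
  have hC : 0 ≤ C := by linarith [h.tail.Cge]
  have hCg0 : 0 ≤ Cg := by linarith
  have h2m : (0 : ℝ) ≤ 2 ^ m := Real.rpow_nonneg (by norm_num) _
  refine ⟨max (max L0 (L + 1)) (max (2 * L') 16), (C + Cs * 3 * (A * 2 ^ m * 5 * Cg)) * Cg, by positivity,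
    fun x hx hz => ?_⟩
  simp only [max_le_iff] at hx
  obtain ⟨⟨hx0, hx1⟩, hx2, hx3⟩ := hx
  set ρ := cyl x with hρ
  have hρ0 : 0 < ρ := by linarith
  have hρ1 : 1 ≤ ρ := by linarith
  set s : ℝ := ρ ^ (-(3 / 10) : ℝ) with hs
  have hs0 : 0 < s := Real.rpow_pos_of_pos hρ0 _
  have hs1 : s ≤ 1 / 2 := by
    have := hL0 ρ hx0
    rw [Real.rpow_zero] at this
    linarith
  have hsq : s ^ 2 = lam ρ := zlay_sq hρ0
  have hlam0 : 0 < lam ρ := z_lam_pos hρ0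
  have hls : lam ρ ≤ s := by rw [← hsq]; nlinarith
  have hxo : x ∈ offA := hρ0
  have hn0 : ‖pt ρ 0‖ = ρ := zlay_norm hρ0.le
  set g0 := gfun k b (pt ρ 0) with hg0
  have hg00 : 0 ≤ g0 := p7a_g k b _
  have hrm : 0 ≤ ρ ^ (-m) := Real.rpow_nonneg hρ0.le _
  have hrm' : 0 ≤ ρ ^ (-m') := Real.rpow_nonneg hρ0.le _
  -- the bound on the ball
  have hK : ∀ y ∈ Metric.ball (pt ρ 0) (3 * s), |φ y| ≤ A * (2 ^ m * ρ ^ (-m)) * (5 * s) * (Cg * g0) := by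
    intro y hy
    rw [Metric.mem_ball, dist_eq_norm] at hy
    have c1 := abs_cyl_sub_le y (pt ρ 0)
    rw [cyl_pt hρ0.le] at c1
    have c2 : ρ / 2 ≤ cyl y := by
      have := (abs_le.1 c1).1
      linarith
    have c3 : |y 2| ≤ 3 * s := by
      have := abs_z_le_norm (y - pt ρ 0)
      rw [PiLp.sub_apply, (z_pt_two ρ 0).2.2, sub_zero] at this
      linarith
    have hyo : y ∈ offA := by
      change 0 < cyl y
      linarith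
    have c4 : lam (cyl y) ≤ 2 * lam ρ := z_lam_le_mul hρ0 (by norm_num) (by linarith)
    have c5 := HP y (by linarith) (by linarith)
    have c6 := z_rpow_half hρ0 hm0 c2
    have c7 : gfun k b y ≤ Cg * g0 :=
      (Hg (pt ρ 0) y (by rw [hn0]; linarith) (by rw [norm_sub_rev]; linarith)).1
    rw [abs_of_pos (h.posφ y hyo)]
    refine c5.trans ?_
    have c8 : 0 < lam (cyl y) := z_lam_pos hyo
    have c9 : |y 2| + lam (cyl y) ≤ 5 * s := by linarith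
    have c10 := p7a_g k b y
    gcongr
  have hz0 : 0 ≤ |x 2| := abs_nonneg _
  have key := Hs φ Gφ ρ |x 2| s _ h.oφ.eig h.oφ.cont (fun y hy => (z_refl h hy).1) (by linarith) hs0 hs1
    (by rw [abs_abs]; linarith) hK
  have e1' : (|x 2| / s) ^ 2 ≤ lam ρ := by
    rw [← hsq]
    refine pow_le_pow_left₀ (by positivity) ?_ 2
    rw [div_le_iff₀ hs0]
    nlinarith
  have e2' : (|x 2| / s) ^ 2 + s ^ 2 + (s / ρ) ^ (2 / 3 : ℝ) ≤ 3 * lam ρ := by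
    have := zlay_third hρ1
    linarith
  have hpl := h.tail.plane_le h.oφ.cont zero_le_one ((z_dom h).mono fun y hy => hy.1) ρ (by linarith)
  have f1 : φ (pt ρ 0) ≤ C * (ρ ^ (-m') * lam ρ) * g0 := by
    refine (le_abs_self _).trans (hpl.trans ?_)
    have := zlay_cube hρ1 h1
    calc 1 * C / ρ ^ 3 * g0 = C * (1 / ρ ^ 3) * g0 := by ring
      _ ≤ C * (ρ ^ (-m') * lam ρ) * g0 := by gcongr
  have f2 : φ (pt ρ |x 2|) - φ (pt ρ 0) ≤ Cs * 3 * (A * 2 ^ m * 5 * Cg) * (ρ ^ (-m') * lam ρ) * g0 := by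
    refine (le_abs_self _).trans (key.trans ?_)
    have := zlay_gain hρ1 h2
    calc Cs * ((|x 2| / s) ^ 2 + s ^ 2 + (s / ρ) ^ (2 / 3 : ℝ)) * (A * (2 ^ m * ρ ^ (-m)) * (5 * s) * (Cg * g0))
        ≤ Cs * (3 * lam ρ) * (A * (2 ^ m * ρ ^ (-m)) * (5 * s) * (Cg * g0)) := by gcongr
      _ = Cs * 3 * (A * 2 ^ m * 5 * Cg) * ((ρ ^ (-m) * s) * lam ρ) * g0 := by ring
      _ ≤ Cs * 3 * (A * 2 ^ m * 5 * Cg) * (ρ ^ (-m') * lam ρ) * g0 := by gcongr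
  have f3 : g0 ≤ Cg * gfun k b x := by
    rw [← z_gfun_pt k b x]
    refine (Hg (pt ρ 0) (pt ρ |x 2|) (by rw [hn0]; linarith) ?_).2
    refine (norm_pt_sub _ _ _ _).trans ?_
    rw [sub_self, abs_zero, zero_add, zero_sub, abs_neg, abs_abs]
    linarith
  rw [h.evφ.eq_pt hxo]
  calc φ (pt ρ |x 2|) ≤ (C + Cs * 3 * (A * 2 ^ m * 5 * Cg)) * (ρ ^ (-m') * lam ρ) * g0 := by linarith
    _ ≤ (C + Cs * 3 * (A * 2 ^ m * 5 * Cg)) * (ρ ^ (-m') * lam ρ) * (Cg * gfun k b x) := by gcongr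
    _ = _ := by ring

end Crest.Agent.R335
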