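import Crest.Agent.R335.Z_Def
import Crest.Agent.R83.Inf

/-!
# R335/Z_M: the test function `m`
-/

set_option autoImplicit false

namespace Crest.Agent.R335

open MeasureTheory Set Filter Topology
open scoped Gradient RealInnerProductSpace ENNReal ContDiff
open Crest.MathPhysics.ThreeBody

variable {k b L C c e1 e2 : ℝ} {R d V0 S v φ u ψ : E3 → ℝ} {GR Gd Gφ Gu Gψ : E3 → E3}

/-- smooth, with bounds on the function, the gradient and the Laplacian -/
structure ZmBd (f : E3 → ℝ) (B l : ℝ) : Prop where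
  sm : ContDiff ℝ ∞ f
  b0 : ∀ x, 0 ≤ f x ∧ f x ≤ 1
  b1 : ∀ x, ‖∇ f x‖ ≤ B / l
  b2 : ∀ x, |lap f x| ≤ B / l ^ 2

theorem zm_two {V : Type} [NormedAddCommGroup V] [NormedSpace ℝ V] {f : V → ℝ} (h : ContDiff ℝ ∞ f) :
    ContDiff ℝ 2 f := h.of_le (WithTop.coe_le_coe.2 (le_top : (2 : ℕ∞) ≤ ⊤))

theorem ZmBd.mul {f g : E3 → ℝ} {B l : ℝ} (hB : 0 ≤ B) (hl : 0 < l) (hf : ZmBd f B l) (hg : ZmBd g B l) :
    ZmBd (fun x => f x * g x) (2 * B + 2 * B ^ 2) l := by
  have hf2 := zm_two hf.sm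
  have hg2 := zm_two hg.sm
  refine ⟨hf.sm.mul hg.sm, fun x => ⟨mul_nonneg (hf.b0 x).1 (hg.b0 x).1,
    mul_le_one₀ (hf.b0 x).2 (hg.b0 x).1 (hg.b0 x).2⟩, fun x => ?_, fun x => ?_⟩
  · rw [R83.grad_mul (hf2.differentiable (by simp) x) (hg2.differentiable (by simp) x)]
    refine (norm_add_le _ _).trans ?_
    rw [norm_smul, norm_smul, Real.norm_of_nonneg (hf.b0 x).1, Real.norm_of_nonneg (hg.b0 x).1]
    have h1 := mul_le_mul (hf.b0 x).2 (hg.b1 x) (norm_nonneg _) zero_le_one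
    have h2 := mul_le_mul (hg.b0 x).2 (hf.b1 x) (norm_nonneg _) zero_le_one
    have h3 : 0 ≤ 2 * B ^ 2 / l := by positivity
    have h4 : (2 * B + 2 * B ^ 2) / l = B / l + B / l + 2 * B ^ 2 / l := by ring
    linarith
  · rw [lap, R83.lap_mul hf2.contDiffAt hg2.contDiffAt]
    refine (abs_add_le _ _).trans ((add_le_add (abs_add_le _ _) le_rfl).trans ?_)
    rw [abs_mul, abs_mul, abs_mul, abs_of_nonneg (hf.b0 x).1, abs_of_nonneg (hg.b0 x).1, abs_two]
    have h1 := mul_le_mul (hf.b0 x).2 (hg.b2 x) (abs_nonneg _) zero_le_one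
    have h2 := mul_le_mul (hg.b0 x).2 (hf.b2 x) (abs_nonneg _) zero_le_one
    have h3 := (abs_real_inner_le_norm (∇ f x) (∇ g x)).trans
      (mul_le_mul (hf.b1 x) (hg.b1 x) (norm_nonneg _) (by positivity))
    have h4 : (2 * B + 2 * B ^ 2) / l ^ 2 = B / l ^ 2 + 2 * (B / l * (B / l)) + B / l ^ 2 := by
      field_simp
      ring
    simp only [lap] at h1 h2
    linarith

theorem zm_grad_sub (a : E3 → ℝ) (p x : E3) : ∇ (fun y => a (y - p)) x = ∇ a (x - p) := by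
  rw [gradient, gradient, fderiv_comp_sub]

theorem zm_lap_sub (a : E3 → ℝ) (p x : E3) : lap (fun y => a (y - p)) x = lap a (x - p) := by
  have h : ∇ (fun y => a (y - p)) = fun y => ∇ a (y - p) := funext (zm_grad_sub a p)
  simp only [lap, R83.lap, R83.dvg, h]
  rw [fderiv_comp_sub]

theorem zm_lap_coord (i : Fin 3) (x : E3) : lap (fun y : E3 => y i) x = 0 := by
  have h : ∇ (fun y : E3 => y i) = fun _ => R83.e i := funext (R83.grad_coord i)
  simp [lap, R83.lap, R83.dvg, h]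

theorem zm_coord (i : Fin 3) : ContDiff ℝ ∞ (fun y : E3 => y i) :=
  (EuclideanSpace.proj i : E3 →L[ℝ] ℝ).contDiff

theorem zm_grad_h {h : ℝ → ℝ} (hh : ContDiff ℝ ∞ h) (i : Fin 3) (x : E3) :
    ∇ (fun y : E3 => h (y i)) x = deriv h (x i) • R83.e i := by
  rw [R83.grad_comp (f := fun y : E3 => y i) ((zm_two hh).differentiable (by simp) _).hasDerivAt
    ((zm_two (zm_coord i)).differentiable (by simp) _), R83.grad_coord]

theorem zm_lap_h {h : ℝ → ℝ} (hh : ContDiff ℝ ∞ h) (i : Fin 3) (x : E3) :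
    lap (fun y : E3 => h (y i)) x = deriv (deriv h) (x i) := by
  have h0 := zm_lap_coord i x
  rw [lap] at h0
  rw [lap, R83.lap_comp (a := fun y : E3 => y i) (zm_two (zm_coord i)).contDiffAt (zm_two hh).contDiffAt, h0,
    R83.grad_coord]
  simp

/-- the cut-off in one variable -/
noncomputable def zmTh (t : ℝ) : ℝ := Real.smoothTransition (2 * t - 1)

theorem zm_th_sm : ContDiff ℝ ∞ zmTh :=
  Real.smoothTransition.contDiff.comp ((contDiff_const.mul contDiff_id).sub contDiff_const)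

theorem zm_th_zero {t : ℝ} (h : t ≤ 1 / 2) : zmTh t = 0 :=
  Real.smoothTransition.zero_of_nonpos (by linarith)

theorem zm_th_one {t : ℝ} (h : 1 ≤ t) : zmTh t = 1 :=
  Real.smoothTransition.one_of_one_le (by linarith)

theorem zm_th_cpt : HasCompactSupport (deriv zmTh) := by
  refine HasCompactSupport.intro (isCompact_Icc (a := (0 : ℝ)) (b := 2)) fun t ht => ?_
  rw [mem_Icc, not_and_or, not_le, not_le] at ht
  rcases ht with ht | ht
  · have : zmTh =ᶠ[𝓝 t] fun _ => 0 := by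
      filter_upwards [Iio_mem_nhds ht] with s hs using zm_th_zero (by linarith [mem_Iio.1 hs])
    rw [this.deriv_eq, deriv_const]
  · have : zmTh =ᶠ[𝓝 t] fun _ => 1 := by
      filter_upwards [Ioi_mem_nhds ht] with s hs using zm_th_one (by linarith [mem_Ioi.1 hs])
    rw [this.deriv_eq, deriv_const]

theorem zm_scale {f : E3 → ℝ} {B : ℝ} (hf : ZmBd f B 1) {c l : ℝ} (hc : 0 ≤ c) (hl : 0 < l) (hcl : c ≤ l⁻¹) :
    ZmBd (fun y => f (c • y)) B l := by
  have hB : 0 ≤ B := by simpa using (norm_nonneg _).trans (hf.b1 0)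
  refine ⟨hf.sm.comp (contDiff_id.const_smul c), fun x => hf.b0 _, fun x => ?_, fun x => ?_⟩
  · rw [R83.grad_comp_smul, norm_smul, Real.norm_of_nonneg hc, div_eq_inv_mul]
    exact mul_le_mul hcl (by simpa using hf.b1 (c • x)) (norm_nonneg _) (by positivity)
  · rw [lap, R83.lap_comp_smul (zm_two hf.sm), abs_mul, abs_of_nonneg (sq_nonneg c), div_eq_inv_mul, ← inv_pow]
    exact mul_le_mul (pow_le_pow_left₀ hc hcl 2) (by simpa using hf.b2 (c • x)) (abs_nonneg _) (by positivity)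

theorem zm_shift {f : E3 → ℝ} {B l : ℝ} (hf : ZmBd f B l) (p : E3) : ZmBd (fun y => f (y - p)) B l :=
  ⟨hf.sm.comp (contDiff_id.sub contDiff_const), fun _ => hf.b0 _, fun x => by rw [zm_grad_sub]; exact hf.b1 _,
    fun x => by rw [zm_lap_sub]; exact hf.b2 _⟩

theorem ZmBd.mono {f : E3 → ℝ} {B B' l : ℝ} (hf : ZmBd f B l) (hl : 0 < l) (h : B ≤ B') : ZmBd f B' l :=
  ⟨hf.sm, hf.b0, fun x => (hf.b1 x).trans (by gcongr), fun x => (hf.b2 x).trans (by gcongr)⟩

theorem zm_th_bd : ∃ B : ℝ, ZmBd (fun y : E3 => zmTh (y 2)) B 1 := by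
  have h1 : ContDiff ℝ ∞ (deriv zmTh) := zm_th_sm.deriv'
  obtain ⟨B1, hB1⟩ := h1.continuous.bounded_above_of_compact_support zm_th_cpt
  obtain ⟨B2, hB2⟩ := (h1.continuous_deriv (by simp)).bounded_above_of_compact_support zm_th_cpt.deriv
  refine ⟨max B1 B2, zm_th_sm.comp (zm_coord 2),
    fun x => ⟨Real.smoothTransition.nonneg _, Real.smoothTransition.le_one _⟩, fun x => ?_, fun x => ?_⟩
  · rw [zm_grad_h zm_th_sm, norm_smul]
    simpa using Or.inl (by simpa using hB1 (x 2))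
  · rw [zm_lap_h zm_th_sm]
    simpa using Or.inr (by simpa using hB2 (x 2))

theorem zm_lap_zero {f : E3 → ℝ} {x : E3} (hx : x ∉ tsupport f) : lap f x = 0 := by
  rw [lap, R83.lap_congr (b := fun _ => 0) (notMem_tsupport_iff_eventuallyEq.1 hx), R83.lap_const]

theorem zm_eta_bd (η : ContDiffBump (0 : E3)) : ∃ B : ℝ, ZmBd η B 1 := by
  have h0 : ContDiff ℝ ∞ η := η.contDiff
  have h1 : Continuous (∇ η) :=
    (contDiff_iff_contDiffAt.2 fun x => R83.contDiffAt_grad (n := 1) (zm_two h0).contDiffAt).continuous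
  obtain ⟨B1, hB1⟩ := h1.bounded_above_of_compact_support
    (HasCompactSupport.intro η.hasCompactSupport fun x hx => R83.grad_eq_zero_of_notMem hx)
  obtain ⟨B2, hB2⟩ := (R83.continuous_lap (zm_two h0)).bounded_above_of_compact_support
    (HasCompactSupport.intro η.hasCompactSupport fun x hx => zm_lap_zero hx)
  refine ⟨max B1 B2, h0, fun x => ⟨η.nonneg, η.le_one⟩, fun x => ?_, fun x => ?_⟩
  · simpa using Or.inl (hB1 x)
  · simpa using Or.inr (by simpa using hB2 x)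

theorem zm_exp_deriv (k ρ : ℝ) :
    deriv (fun t => Real.exp (k * (t - ρ))) = fun t => k * Real.exp (k * (t - ρ)) := by
  funext t
  have := ((((hasDerivAt_id t).sub_const ρ).const_mul k).exp).deriv
  simpa [mul_comm] using this

theorem zm_exp_sm (k ρ : ℝ) : ContDiff ℝ ∞ fun t => Real.exp (k * (t - ρ)) :=
  Real.contDiff_exp.comp (contDiff_const.mul (contDiff_id.sub contDiff_const))

theorem zm_exp_mul {w : E3 → ℝ} {B l : ℝ} (hw : ZmBd w B l) (hl : 0 < l) (hl1 : l ≤ 1) (k ρ : ℝ) (x : E3) :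
    |lap (fun y : E3 => Real.exp (k * (y 0 - ρ)) * w y) x| ≤
      (B + 2 * |k| * B + k ^ 2) / l ^ 2 * Real.exp (k * (x 0 - ρ)) := by
  have hB : 0 ≤ B := by
    have := (norm_nonneg _).trans (hw.b1 0)
    exact (div_nonneg_iff.1 this).elim (·.1) fun h => absurd h.2 (not_le.2 hl)
  have ha : ContDiff ℝ ∞ fun y : E3 => Real.exp (k * (y 0 - ρ)) := (zm_exp_sm k ρ).comp (zm_coord 0)
  have h2 := zm_lap_h (zm_exp_sm k ρ) 0 x
  rw [lap, zm_exp_deriv, deriv_const_mul_field, zm_exp_deriv] at h2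
  rw [lap, R83.lap_mul (zm_two ha).contDiffAt (zm_two hw.sm).contDiffAt, h2, zm_grad_h (zm_exp_sm k ρ),
    zm_exp_deriv]
  set E := Real.exp (k * (x 0 - ρ)) with hE
  have hE0 : 0 < E := Real.exp_pos _
  refine (abs_add_le _ _).trans ((add_le_add (abs_add_le _ _) le_rfl).trans ?_)
  have h3 : |⟪(k * E) • R83.e 0, ∇ w x⟫| ≤ |k| * E * (B / l) := by
    refine (abs_real_inner_le_norm _ _).trans (mul_le_mul ?_ (hw.b1 x) (norm_nonneg _) (by positivity))
    rw [norm_smul]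
    simp [abs_of_pos hE0]
  have h4 : |E * R83.lap w x| ≤ E * (B / l ^ 2) := by
    rw [abs_mul, abs_of_pos hE0]
    exact mul_le_mul_of_nonneg_left (hw.b2 x) hE0.le
  have h5 : |w x * (k * (k * E))| ≤ k ^ 2 * E := by
    rw [abs_mul, abs_of_nonneg (hw.b0 x).1, ← mul_assoc, ← sq, abs_of_nonneg (by positivity)]
    exact mul_le_of_le_one_left (by positivity) (hw.b0 x).2
  have h6 : B / l ≤ B / l ^ 2 := div_le_div_of_nonneg_left hB (by positivity) (by nlinarith)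
  have h7 : k ^ 2 ≤ k ^ 2 / l ^ 2 := le_div_self (sq_nonneg k) (by positivity) (by nlinarith)
  have h8 : (B + 2 * |k| * B + k ^ 2) / l ^ 2 * E =
      E * (B / l ^ 2) + 2 * (|k| * E * (B / l ^ 2)) + k ^ 2 / l ^ 2 * E := by ring
  have h9 : |k| * E * (B / l) ≤ |k| * E * (B / l ^ 2) := mul_le_mul_of_nonneg_left h6 (by positivity)
  have h10 := mul_le_mul_of_nonneg_right h7 hE0.le
  rw [abs_mul 2, abs_two]
  linarith

/-- `m = e^(k (x 0 - ρ)) θ(x 2 / l) η(Z⁻¹ • (x - pt ρ 0))`, `θ t = Real.smoothTransition (2 t - 1)` (`θ'`, `θ''` are continuous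
with compact support, hence bounded), `η : ContDiffBump (0 : E3)` with `rIn = 1`, `rOut = 2` (`∇ η`, `lap η` bounded).
`R83.lap_mul`, `R83.lap_comp`, `R83.lap_comp_smul`, `R83.grad_comp_smul`, `R83.grad_mul`, `R83.grad_comp`, `R83.grad_coord`;
`lap` of a coordinate is `0`; `∇` and `lap` commute with translations (`fderiv_comp_sub`). -/
theorem z_exists_m (k : ℝ) : ∃ M : ℝ, 0 ≤ M ∧ ∀ ρ l Z : ℝ, 0 < l → l ≤ 1 → 1 ≤ Z → ∃ m : E3 → ℝ,
    Tst {x | ‖x - pt ρ 0‖ ≤ 2 * Z ∧ l / 2 ≤ x 2} m ∧ (∀ x, 0 ≤ m x ∧ m x ≤ Real.exp (k * (x 0 - ρ))) ∧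
    (∀ x, ‖x - pt ρ 0‖ ≤ Z → l ≤ x 2 → m x = Real.exp (k * (x 0 - ρ))) ∧
    (∀ x, x ∉ tsupport m → lap m x = 0) ∧
    ∀ x, |lap m x| ≤ M / l ^ 2 * Real.exp (k * (x 0 - ρ)) := by
  let η : ContDiffBump (0 : E3) := ⟨1, 2, one_pos, one_lt_two⟩
  obtain ⟨B1, h1⟩ := zm_th_bd
  obtain ⟨B2, h2⟩ := zm_eta_bd η
  set B := max (max B1 B2) 0 with hB
  have hB0 : 0 ≤ B := le_max_right _ _
  have h1' := h1.mono one_pos ((le_max_left B1 B2).trans (le_max_left _ 0))
  have h2' := h2.mono one_pos ((le_max_right B1 B2).trans (le_max_left _ 0))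
  refine ⟨(2 * B + 2 * B ^ 2) + 2 * |k| * (2 * B + 2 * B ^ 2) + k ^ 2, by positivity, fun ρ l Z hl hl1 hZ => ?_⟩
  have hZ0 : 0 < Z := by linarith
  have hw := (zm_scale h1' (inv_nonneg.2 hl.le) hl le_rfl).mul hB0 hl
    (zm_shift (zm_scale h2' (inv_nonneg.2 hZ0.le) hl (inv_anti₀ hl (hl1.trans hZ))) (pt ρ 0))
  have hcl : IsClosed {x : E3 | ‖x - pt ρ 0‖ ≤ 2 * Z ∧ l / 2 ≤ x 2} :=
    IsClosed.and (isClosed_le (continuous_id.sub continuous_const).norm continuous_const)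
      (isClosed_le continuous_const (zm_coord 2).continuous)
  have hsub : tsupport (fun y : E3 => Real.exp (k * (y 0 - ρ)) *
      (zmTh ((l⁻¹ • y) 2) * η (Z⁻¹ • (y - pt ρ 0)))) ⊆ {x : E3 | ‖x - pt ρ 0‖ ≤ 2 * Z ∧ l / 2 ≤ x 2} := by
    refine closure_minimal (fun x hx => ?_) hcl
    by_contra hn
    rw [mem_ofPred_eq, not_and_or, not_le, not_le] at hn
    refine hx ?_
    rcases hn with hn | hn
    · have : η (Z⁻¹ • (x - pt ρ 0)) = 0 := by
        refine η.zero_of_le_dist ?_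
        rw [dist_zero_right, norm_smul, Real.norm_of_nonneg (inv_nonneg.2 hZ0.le), le_inv_mul_iff₀ hZ0]
        show Z * 2 ≤ _
        linarith
      simp only [this, mul_zero]
    · have : zmTh ((l⁻¹ • x) 2) = 0 := by
        refine zm_th_zero ?_
        rw [PiLp.smul_apply, smul_eq_mul, inv_mul_le_iff₀ hl]
        linarith
      simp only [this, mul_zero, zero_mul]
  refine ⟨fun y : E3 => Real.exp (k * (y 0 - ρ)) * (zmTh ((l⁻¹ • y) 2) * η (Z⁻¹ • (y - pt ρ 0))),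
    ⟨((zm_exp_sm k ρ).comp (zm_coord 0)).mul hw.sm, ?_, hsub⟩, fun x => ⟨?_, ?_⟩, fun x hx hx2 => ?_,
    fun x hx => zm_lap_zero hx, fun x => zm_exp_mul hw hl hl1 k ρ x⟩
  · refine (isCompact_closedBall (pt ρ 0) (2 * Z)).of_isClosed_subset (isClosed_tsupport _) fun x hx => ?_
    rw [mem_closedBall_iff_norm]
    exact (hsub hx).1
  · exact mul_nonneg (Real.exp_pos _).le (hw.b0 x).1
  · exact mul_le_of_le_one_right (Real.exp_pos _).le (hw.b0 x).2
  · have e1 : η (Z⁻¹ • (x - pt ρ 0)) = 1 := by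
      refine η.one_of_mem_closedBall ?_
      rw [mem_closedBall_zero_iff, norm_smul, Real.norm_of_nonneg (inv_nonneg.2 hZ0.le), inv_mul_le_iff₀ hZ0]
      show _ ≤ Z * 1
      linarith
    have e2 : zmTh ((l⁻¹ • x) 2) = 1 := by
      refine zm_th_one ?_
      rw [PiLp.smul_apply, smul_eq_mul, le_inv_mul_iff₀ hl]
      linarith
    simp only [e1, e2, mul_one]

end Crest.Agent.R335
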