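import Crest.Agent.R335.Z_Bas2

/-!
# R335/Z_Nu: the defect measure controls the negative part of the potential
-/

set_option autoImplicit false

namespace Crest.Agent.R335

open MeasureTheory Set Filter Topology
open scoped Gradient RealInnerProductSpace ENNReal ContDiff
open Crest.MathPhysics.ThreeBody

variable {k b L C c e1 e2 : ℝ} {R d V0 S v φ u ψ : E3 → ℝ} {GR Gd Gφ Gu Gψ : E3 → E3}

theorem znu_lap {Ω : Set E3} {m : E3 → ℝ} (hm : Tst Ω m) : MemLp (lap m) 2 volume := by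
  have h1 := s7_grad_c1 (hm.sm.of_le (by norm_cast) : ContDiff ℝ 2 m)
  have h2 := (s7_grad_cpt hm.cpt).fderiv ℝ
  have h3 := h1.continuous_fderiv one_ne_zero
  refine Continuous.memLp_of_hasCompactSupport ?_ (h2.comp_left
    (g := fun A : E3 →L[ℝ] E3 => ∑ i, A (Crest.Agent.R83.e i) i) (by simp))
  change Continuous fun x => ∑ i, fderiv ℝ (∇ m) x (Crest.Agent.R83.e i) i
  fun_prop

theorem znu_key (h : Red k b L C c R GR d Gd V0 S v e1 e2 φ Gφ u Gu ψ Gψ) {L' κ : ℝ} (hL : L ≤ L')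
    (hκ : ∀ x : E3, L' < ‖x‖ → κ ≤ V0 x - C / ‖x‖ ^ 4) {m ξ : E3 → ℝ} (hm : Tst (far L') m)
    (hξ : Tst (far L') ξ) (h0 : ∀ x, 0 ≤ ξ x ∧ ξ x ≤ m x) :
    ∫ x, (κ - (v x - e2)) * (R x * ξ x) ≤ -(1 / 2) * (∫ x, ⟪GR x, ∇ m x⟫) - ∫ x, (v x - e2) * (R x * m x) := by
  have hW : FB fun x => v x - e2 := (FB.of_sumClass h.cls).sub_const e2
  have hR := h.tail.hR
  have hC : 0 ≤ C := zero_le_one.trans h.tail.Cge
  have a1 := h.tail.sub ξ _ (hξ.th.mono fun x (hx : L' < ‖x‖) => hL.trans_lt hx) (ae_of_all _ fun x => (h0 x).1)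
  have a2 := h.kato _ _ ((hm.th.add (hξ.th.const_mul (-1))).mono (subset_univ _))
    (ae_of_all _ fun x => by linarith [(h0 x).2])
  have i1 := hR.int_mul hξ.h1
  have hz : ∀ x, ¬ L' < ‖x‖ → ξ x = 0 := fun x hx => image_eq_zero_of_notMem_tsupport fun h' => hx (hξ.sub h')
  have i2 : Integrable fun x => ((V0 x - C / ‖x‖ ^ 4) * R x - (0 : E3 → ℝ) x) * ξ x := by
    refine (i1.norm.const_mul (C + k ^ 2 + |k * b| + C)).mono' ?_ (ae_of_all _ fun x => ?_)
    · exact ((((h.tail.mV.sub (by fun_prop)).aestronglyMeasurable.mul hR.mf.1).sub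
        aestronglyMeasurable_zero).mul hξ.h1.mf.1)
    by_cases hx : L' < ‖x‖
    swap
    · simp [hz x hx]
    have h1 : 1 ≤ ‖x‖ := h.tail.Lge.trans (hL.trans hx.le)
    have h2 := abs_le.1 (h.tail.V0a x (hL.trans_lt hx))
    have h3 : C / ‖x‖ ^ 2 ≤ C := div_le_self hC (one_le_pow₀ h1)
    have h4 : C / ‖x‖ ^ 4 ≤ C := div_le_self hC (one_le_pow₀ h1)
    have h5 : 0 ≤ C / ‖x‖ ^ 4 := by positivity
    have h6 : |k * b / ‖x‖| ≤ |k * b| := by
      rw [abs_div, abs_norm]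
      exact div_le_self (abs_nonneg _) h1
    have h7 := abs_le.1 h6
    have h8 : 2 * k * b / ‖x‖ = 2 * (k * b / ‖x‖) := by ring
    rw [Pi.zero_apply, sub_zero, mul_assoc, norm_mul]
    refine mul_le_mul_of_nonneg_right (abs_le.2 ⟨?_, ?_⟩) (norm_nonneg _) <;> nlinarith [sq_nonneg k, abs_nonneg (k * b)]
  have a3 : ∫ x, κ * (R x * ξ x) ≤ ∫ x, ((V0 x - C / ‖x‖ ^ 4) * R x - (0 : E3 → ℝ) x) * ξ x := by
    refine integral_mono (i1.const_mul κ) i2 fun x => ?_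
    by_cases hx : L' < ‖x‖
    swap
    · simp [hz x hx]
    simp only [Pi.zero_apply, sub_zero, mul_assoc]
    exact mul_le_mul_of_nonneg_right (hκ x hx) (mul_nonneg (h.tail.R0 x) (h0 x).1)
  have e1 : ∫ x, ⟪GR x, ∇ m x + (-1 : ℝ) • ∇ ξ x⟫ = (∫ x, ⟪GR x, ∇ m x⟫) - ∫ x, ⟪GR x, ∇ ξ x⟫ := by
    rw [← integral_sub (hR.int_inner hm.h1) (hR.int_inner hξ.h1)]
    refine integral_congr_ae (ae_of_all _ fun x => ?_)
    simp only [inner_add_right, inner_smul_right]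
    ring
  have e2' : ∫ x, ((v x - e2) * R x - (0 : E3 → ℝ) x) * (m x + -1 * ξ x) =
      (∫ x, (v x - e2) * (R x * m x)) - ∫ x, (v x - e2) * (R x * ξ x) := by
    rw [← integral_sub (hW.int_mul hR hm.h1) (hW.int_mul hR hξ.h1)]
    refine integral_congr_ae (ae_of_all _ fun x => ?_)
    simp only [Pi.zero_apply]
    ring
  rw [e1, e2'] at a2
  simp only [sub_mul κ]
  rw [integral_sub (i1.const_mul κ) (hW.int_mul hR hξ.h1)]
  linarith

/-- For `Tst (far L') ξ`, `0 ≤ ξ ≤ m`: `Tail.sub` gives `½ ∫ ⟪GR, ∇ξ⟫ + κ ∫ R ξ ≤ 0` (`V0 - C/‖x‖⁴` is measurable and bounded on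
`far L` by `Tail.V0a`), `Red.kato` for `m - ξ` (`TH.add`, `TH.const_mul`, `Tst.th`, `TH.mono`) gives
`½ ∫ ⟪GR, ∇m⟫ + ∫ (v - e2) R m ≤ ½ ∫ ⟪GR, ∇ξ⟫ + ∫ (v - e2) R ξ` (integrability: `FB.of_sumClass`, `FB.sub_const`, `FB.int_mul`,
`H1.int_inner`).  So `∫ (κ - (v - e2)) R ξ ≤ -½ ∫ ⟪GR, ∇m⟫ - ∫ (v - e2) R m`.  `exists_tst_indicator` with
`A = {x | v' x - e2 < κ}` (`v'` a measurable modification of `v`) and dominated convergence (bound `(|κ| + |v - e2|) R m`).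
The equation of `u` tested with `m` and `H1.green` for `R - u` rewrite the right side. -/
theorem z_nu (h : Red k b L C c R GR d Gd V0 S v e1 e2 φ Gφ u Gu ψ Gψ) {L' κ : ℝ} (hL : L ≤ L')
    (hκ : ∀ x : E3, L' < ‖x‖ → κ ≤ V0 x - C / ‖x‖ ^ 4) {m : E3 → ℝ} (hm : Tst (far L') m) (h0 : ∀ x, 0 ≤ m x) :
    Integrable (fun x => zN v e2 κ x * R x * m x) ∧
    Integrable (fun x => (R x - u x) * (lap m x - 2 * (v x - e2) * m x)) ∧
    2 * ∫ x, zN v e2 κ x * R x * m x ≤ ∫ x, (R x - u x) * (lap m x - 2 * (v x - e2) * m x) := by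
  have hV := FB.of_sumClass h.cls
  have hW : FB fun x => v x - e2 := hV.sub_const e2
  have hR := h.tail.hR
  have hu := h.ou.orb.eig
  have hb : Integrable fun x => (κ - (v x - e2)) * (R x * m x) := by
    simp only [sub_mul κ]
    exact ((hR.int_mul hm.h1).const_mul κ).sub (hW.int_mul hR hm.h1)
  obtain ⟨ξ, hξ, hξ0, hlim⟩ := exists_tst_indicator hm h0
    (A := {x | hW.meas.mk _ x < κ}) (measurableSet_lt hW.meas.measurable_mk measurable_const)
  have hmeas : ∀ n, AEStronglyMeasurable (fun x => (κ - (v x - e2)) * (R x * ξ n x)) volume := fun n =>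
    (aestronglyMeasurable_const.sub hW.meas).mul (hR.mf.1.mul (hξ n).h1.mf.1)
  have hbd : ∀ n, ∀ᵐ x, ‖(κ - (v x - e2)) * (R x * ξ n x)‖ ≤ ‖(κ - (v x - e2)) * (R x * m x)‖ := fun n =>
    ae_of_all _ fun x => by
      simp only [norm_mul]
      gcongr
      rw [Real.norm_of_nonneg (hξ0 n x).1, Real.norm_of_nonneg (h0 x)]
      exact (hξ0 n x).2
  have hl : ∀ᵐ x, Tendsto (fun n => (κ - (v x - e2)) * (R x * ξ n x)) atTop (𝓝 (zN v e2 κ x * R x * m x)) := by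
    filter_upwards [hlim, hW.meas.ae_eq_mk] with x hx hx'
    convert (hx.const_mul (R x)).const_mul (κ - (v x - e2)) using 2
    by_cases hA : v x - e2 < κ
    · rw [indicator_of_mem (show x ∈ {x | hW.meas.mk _ x < κ} from hx'.symm.trans_lt hA), zN, max_eq_left (sub_pos.2 hA).le,
        mul_assoc]
    · rw [indicator_of_notMem (show x ∉ {x | hW.meas.mk _ x < κ} from fun h' => hA (hx'.trans_lt h')), zN,
        max_eq_right (sub_nonpos.2 (not_lt.1 hA))]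
      simp
  have hle := le_of_tendsto' (tendsto_integral_of_dominated_convergence _ hmeas hb.norm hbd hl)
    fun n => znu_key h hL hκ hm (hξ n) (hξ0 n)
  have j1 : Integrable fun x => R x * lap m x := hR.mf.integrable_mul (znu_lap hm)
  have j2 : Integrable fun x => u x * lap m x := hu.h1.mf.integrable_mul (znu_lap hm)
  have j12 : Integrable fun x => R x * lap m x - u x * lap m x := j1.sub j2
  have j3 := hW.int_mul hR hm.h1
  have j4 := hV.int_mul hu.h1 hm.h1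
  have j5 := hu.h1.int_mul hm.h1
  have e : (fun x => (R x - u x) * (lap m x - 2 * (v x - e2) * m x)) = fun x =>
      (R x * lap m x - u x * lap m x - 2 * ((v x - e2) * (R x * m x))) +
        (2 * (v x * (u x * m x)) - 2 * e2 * (u x * m x)) := by
    funext x
    ring
  have k1 : Integrable fun x => R x * lap m x - u x * lap m x - 2 * ((v x - e2) * (R x * m x)) :=
    j12.sub (j3.const_mul 2)
  have k2 : Integrable fun x => 2 * (v x * (u x * m x)) - 2 * e2 * (u x * m x) :=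
    (j4.const_mul 2).sub (j5.const_mul (2 * e2))
  refine ⟨hb.norm.mono' (aestronglyMeasurable_of_tendsto_ae atTop hmeas hl) ?_, e ▸ k1.add k2, ?_⟩
  · filter_upwards [hl, ae_all_iff.2 hbd] with x hx hx'
    exact le_of_tendsto' hx.norm hx'
  have h2 : ContDiff ℝ 2 m := hm.sm.of_le (by norm_cast)
  have g1 := hR.green h2 hm.cpt
  have g2 := hu.h1.green h2 hm.cpt
  have g3 := hu.eq m _ hm.h1
  rw [e, integral_add k1 k2, integral_sub j12 (j3.const_mul 2), integral_sub j1 j2,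
    integral_sub (j4.const_mul 2) (j5.const_mul (2 * e2)), integral_const_mul, integral_const_mul,
    integral_const_mul]
  simp only [bf, ip] at g3
  linarith

/-- `Tail.V0a` -/
theorem z_V0 (h : Red k b L C c R GR d Gd V0 S v e1 e2 φ Gφ u Gu ψ Gψ) {η : ℝ} (hη : 0 < η) :
    ∃ L' : ℝ, L ≤ L' ∧ ∀ x : E3, L' < ‖x‖ → k ^ 2 / 2 - η ≤ V0 x - C / ‖x‖ ^ 4 := by
  have hC : 0 ≤ C := zero_le_one.trans h.tail.Cge
  refine ⟨max L ((|k * b| + 2 * C) / η), le_max_left _ _, fun x hx => ?_⟩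
  have hL := (le_max_left _ _).trans_lt hx
  have h1 : 1 ≤ ‖x‖ := h.tail.Lge.trans hL.le
  have h0 : 0 < ‖x‖ := by linarith
  have h2 := abs_le.1 (h.tail.V0a x hL)
  have h3 : C / ‖x‖ ^ 2 ≤ C / ‖x‖ := div_le_div_of_nonneg_left hC h0 (le_self_pow₀ h1 two_ne_zero)
  have h4 : C / ‖x‖ ^ 4 ≤ C / ‖x‖ := div_le_div_of_nonneg_left hC h0 (le_self_pow₀ h1 four_ne_zero)
  have h5 : k * b / ‖x‖ ≤ |k * b| / ‖x‖ := div_le_div_of_nonneg_right (le_abs_self _) h0.le
  have h6 : (|k * b| + 2 * C) / ‖x‖ ≤ η := by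
    rw [div_le_iff₀ h0, mul_comm η, ← div_le_iff₀ hη]
    exact ((le_max_right _ _).trans_lt hx).le
  have h7 : 0 ≤ C / ‖x‖ := by positivity
  have h8 : 2 * k * b / ‖x‖ = 2 * (k * b / ‖x‖) := by ring
  have h9 : (|k * b| + 2 * C) / ‖x‖ = |k * b| / ‖x‖ + 2 * (C / ‖x‖) := by ring
  linarith

end Crest.Agent.R335
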