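import Crest.Agent.R335.Z_Rhs
import Crest.Agent.R335.Z_Nu
import Crest.Agent.R335.Z_M

/-!
# R335/Z_Neg: the negative part of the potential is small in `L¹` above the layer
-/

set_option autoImplicit false

namespace Crest.Agent.R335

open MeasureTheory Set Filter Topology
open scoped Gradient RealInnerProductSpace ENNReal ContDiff
open Crest.MathPhysics.ThreeBody

variable {k b L C c e1 e2 : ℝ} {R d V0 S v φ u ψ : E3 → ℝ} {GR Gd Gφ Gu Gψ : E3 → E3}

/-- `m` from `z_exists_m` (`l = lam ρ`, `Z = C₁ log ρ`), `z_V0`, `z_nu`, `z_rhs`.  On the set: `R m ≥ u m ≥ c lam ρ g e^(k (x 0 - ρ))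
≥ c lam ρ g₀ / Cg` (`z_dom`, `Red.ulow`, `z1_geo`, `z_g_exp`).  So the integral is at most `A' log⁴ ρ ρ^(-1/5)` (`z_ev_log`).
Integrability: `zN ≤ |κ| + |v - e2|`, `sumClass_ball`. -/
theorem z_neg (h : Red k b L C c R GR d Gd V0 S v e1 e2 φ Gφ u Gu ψ Gψ) (hφ : PhiB k b φ (23 / 10))
    (hτ : ∃ L' : ℝ, ∀ ρ z, L' ≤ ρ → lam ρ / 4 ≤ z → z ≤ Real.log ρ ^ 2 → |tau u ψ ρ z| ≤ ρ⁻¹)
    {η C₁ ε : ℝ} (hη : 0 < η) (hC : 0 < C₁) (hε : 0 < ε) : ∃ L' : ℝ, ∀ ρ : ℝ, L' ≤ ρ →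
      IntegrableOn (zN v e2 (k ^ 2 / 2 - η)) (Metric.closedBall (pt ρ 0) (C₁ * Real.log ρ)) ∧
      ∫ x in {x : E3 | ‖x - pt ρ 0‖ ≤ C₁ * Real.log ρ ∧ lam ρ ≤ x 2}, zN v e2 (k ^ 2 / 2 - η) x ≤ ε := by
  obtain ⟨M, hM, hm⟩ := z_exists_m k
  obtain ⟨L1, hL1, hV⟩ := z_V0 h hη
  obtain ⟨A, L2, hA, hrhs⟩ := z_rhs h hφ hτ hC hM
  obtain ⟨L3, hL3, hgeo⟩ := z1_geo L1 C₁ hC
  obtain ⟨Cg, hCg, hg⟩ := z_g_exp k b h.tail.kpos.le
  have hc := h.tail.cpos
  obtain ⟨L4, hL4⟩ := eventually_atTop.1 (z_ev_log (A * Cg / (2 * c * ε)) 4 (p := 1 / 5) (by norm_num))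
  refine ⟨max L2 (max L3 L4), fun ρ hρ => ?_⟩
  have r2 : L2 ≤ ρ := (le_max_left _ _).trans hρ
  have r3 : L3 ≤ ρ := ((le_max_left _ _).trans (le_max_right _ _)).trans hρ
  have r4 : L4 ≤ ρ := ((le_max_right _ _).trans (le_max_right _ _)).trans hρ
  have ρ4 : 4 ≤ ρ := hL3.trans r3
  have ρ0 : 0 < ρ := by linarith
  constructor
  · have i1 := p3a_int h.cls e2 (isCompact_closedBall (pt ρ 0) (C₁ * Real.log ρ))
    have i2 : IntegrableOn (fun _ : E3 => k ^ 2 / 2 - η) (Metric.closedBall (pt ρ 0) (C₁ * Real.log ρ)) :=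
      integrableOn_const (isCompact_closedBall _ _).measure_lt_top.ne
    exact (i2.sub i1).pos_part
  obtain ⟨hZ, -, hx⟩ := hgeo ρ r3
  have l0 := z_lam_pos ρ0
  obtain ⟨m, hT, h01, h1, hl0, hl⟩ := hm ρ (lam ρ) (C₁ * Real.log ρ) l0 (z_lam_le_one (by linarith)) hZ
  have hT' : Tst (far L1) m := ⟨hT.sm, hT.cpt, fun x hx' => by
    have h2 := (hT.sub hx').1
    exact ((hx x (by linarith)).1).trans_le (cyl_le_norm x)⟩
  obtain ⟨i1, i2, hnu⟩ := z_nu h hL1 hV hT' fun x => (h01 x).1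
  have hr := hrhs ρ m r2 (fun x hx' => by
    have : x ∉ tsupport m := fun h' => hx' (hT.sub h')
    exact ⟨image_eq_zero_of_notMem_tsupport this, hl0 x this⟩) h01 hl i2
  set g0 := gfun k b (pt ρ 0) with hg0
  have g0pos : 0 < g0 := gfun_pos k b fun h' => by
    have := (z_pt_two ρ 0).1
    rw [h'] at this
    simp at this; linarith
  have Cg0 : 0 < Cg := by linarith
  have zN0 : ∀ x, 0 ≤ zN v e2 (k ^ 2 / 2 - η) x := fun x => le_max_right _ _
  set B := {x : E3 | ‖x - pt ρ 0‖ ≤ C₁ * Real.log ρ ∧ lam ρ ≤ x 2} with hB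
  have hBm : MeasurableSet B := by
    have t1 : IsClosed {x : E3 | ‖x - pt ρ 0‖ ≤ C₁ * Real.log ρ} := isClosed_le (by fun_prop) continuous_const
    have t2 : IsClosed {x : E3 | lam ρ ≤ x 2} := isClosed_le continuous_const (by fun_prop)
    exact (t1.inter t2).measurableSet
  set J := ∫ x in B, zN v e2 (k ^ 2 / 2 - η) x with hJ
  have key : c * lam ρ * g0 / Cg * J ≤ ∫ x, zN v e2 (k ^ 2 / 2 - η) x * R x * m x := by
    calc c * lam ρ * g0 / Cg * J = ∫ x in B, c * lam ρ * g0 / Cg * zN v e2 (k ^ 2 / 2 - η) x := by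
          rw [integral_const_mul]
      _ ≤ ∫ x in B, zN v e2 (k ^ 2 / 2 - η) x * R x * m x := by
          refine integral_mono_of_nonneg (ae_of_all _ fun x => mul_nonneg (by positivity) (zN0 x))
            i1.integrableOn ?_
          rw [EventuallyLE, ae_restrict_iff' hBm]
          filter_upwards [z_dom h] with x hd hxB
          obtain ⟨b1, b2⟩ := hxB
          obtain ⟨a1, -, -, a4, -, -, a7, a8⟩ := hx x (by linarith)
          have z0 : 0 < x 2 := l0.trans_le b2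
          have c0 := cyl_nonneg x
          have hu := h.ulow x (hL1.trans a1.le) (by linarith) (by linarith [le_abs_self (x 2)])
          have hR : u x ≤ R x := by linarith [le_abs_self (u x), hd.2.1]
          have hgx := (hg ρ x ρ4 a4).2
          have E0 := Real.exp_pos (k * (x 0 - ρ))
          have gx0 : 0 ≤ gfun k b x := by unfold gfun; positivity
          have : c * lam ρ * g0 / Cg ≤ R x * m x := by
            rw [h1 x b1 b2, div_le_iff₀ Cg0]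
            calc c * lam ρ * g0 ≤ c * x 2 * (Cg * (Real.exp (k * (x 0 - ρ)) * gfun k b x)) := by gcongr
              _ = c * x 2 * gfun k b x * (Real.exp (k * (x 0 - ρ)) * Cg) := by ring
              _ ≤ R x * (Real.exp (k * (x 0 - ρ)) * Cg) :=
                  mul_le_mul_of_nonneg_right (hu.trans hR) (by positivity)
              _ = _ := by ring
          rw [mul_assoc (zN _ _ _ _), mul_comm (zN _ _ _ _)]
          exact mul_le_mul_of_nonneg_right this (zN0 x)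
      _ ≤ _ := setIntegral_le_integral i1 (ae_of_all _ fun x =>
          mul_nonneg (mul_nonneg (zN0 x) (h.tail.R0 x)) (h01 x).1)
  have f1 : 2 * (c * lam ρ * g0 / Cg * J) ≤ A * Real.log ρ ^ 4 * ρ ^ (-(4 / 5) : ℝ) * g0 := by linarith
  have f2 := hL4 ρ r4
  rw [div_mul_eq_mul_div, div_le_iff₀ (by positivity)] at f2
  have e : lam ρ = ρ ^ (1 / 5 : ℝ) * ρ ^ (-(4 / 5) : ℝ) := by
    rw [← Real.rpow_add ρ0, lam]; norm_num
  have p4 : 0 < ρ ^ (-(4 / 5) : ℝ) := Real.rpow_pos_of_pos ρ0 _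
  have f3 : A * Real.log ρ ^ 4 * ρ ^ (-(4 / 5) : ℝ) * g0 ≤ 2 * (c * lam ρ * g0 / Cg * ε) := by
    have : 2 * (c * lam ρ * g0 / Cg * ε) =
        ρ ^ (1 / 5 : ℝ) * (2 * c * ε) * (ρ ^ (-(4 / 5) : ℝ) * g0 / Cg) := by rw [e]; ring
    rw [this]
    calc A * Real.log ρ ^ 4 * ρ ^ (-(4 / 5) : ℝ) * g0
        = A * Cg * Real.log ρ ^ 4 * (ρ ^ (-(4 / 5) : ℝ) * g0 / Cg) := by field_simp
      _ ≤ _ := mul_le_mul_of_nonneg_right f2 (by positivity)
  have f4 : c * lam ρ * g0 / Cg * J ≤ c * lam ρ * g0 / Cg * ε := by linarith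
  exact le_of_mul_le_mul_left f4 (by positivity)

end Crest.Agent.R335
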