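import Crest.Agent.R335.Z_Sec
import Crest.Agent.R335.Z_Lay

/-!
# R335/Z_Pre: `phi_pre` and `phi_post`
-/

set_option autoImplicit false

namespace Crest.Agent.R335

open MeasureTheory Set Filter Topology
open scoped Gradient RealInnerProductSpace ENNReal ContDiff
open Crest.MathPhysics.ThreeBody

variable {k b L C c e1 e2 : ℝ} {R d V0 S v φ u ψ : E3 → ℝ} {GR Gd Gφ Gu Gψ : E3 → E3}

theorem zpre_g_nonneg (k b : ℝ) (x : E3) : 0 ≤ gfun k b x := by
  unfold gfun
  positivity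

theorem z_P0 (h : Red k b L C c R GR d Gd V0 S v e1 e2 φ Gφ u Gu ψ Gψ) : ZP k b φ 0 := by
  refine ⟨L + 1, 2 * C, by linarith [h.tail.Cge], fun x hx _ => ?_⟩
  rw [neg_zero, Real.rpow_zero, mul_one]
  exact (le_abs_self _).trans (z_up h (by linarith)).1

theorem z_P_of (h : Red k b L C c R GR d Gd V0 S v e1 e2 φ Gφ u Gu ψ Gψ) {m m' : ℝ} (hm : m' ≤ m)
    (hQ : ZQ k b φ m) (hS : ZS k b φ m') : ZP k b φ m' := by
  obtain ⟨L₁, A₁, hA₁, hQ⟩ := hQ
  obtain ⟨L₂, A₂, hA₂, hS⟩ := hS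
  refine ⟨max (max L₁ L₂) 1, A₁ + A₂, by positivity, fun x hx hz => ?_⟩
  have h1 : L₁ ≤ cyl x := (le_max_left _ _).trans ((le_max_left _ _).trans hx)
  have h2 : L₂ ≤ cyl x := (le_max_right _ _).trans ((le_max_left _ _).trans hx)
  have h3 : 1 ≤ cyl x := (le_max_right _ _).trans hx
  have h0 : 0 < cyl x := by linarith
  have hg := zpre_g_nonneg k b x
  have hl := z_lam_pos h0
  have hp : 0 ≤ cyl x ^ (-m') := by positivity
  rcases le_total |x 2| (lam (cyl x)) with hc | hc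
  · refine (hQ x h1 hc).trans ?_
    have h4 : cyl x ^ (-m) ≤ cyl x ^ (-m') := Real.rpow_le_rpow_of_exponent_le h3 (by linarith)
    have h5 : A₁ ≤ A₁ + A₂ := by linarith
    have h6 : lam (cyl x) ≤ |x 2| + lam (cyl x) := by linarith [abs_nonneg (x 2)]
    gcongr
  · have hy := hS (pt (cyl x) |x 2|)
    rw [cyl_pt h0.le, (z_pt_two _ _).2.2, z_gfun_pt, ← h.evφ.eq_pt h0] at hy
    refine (hy h2 (by linarith) hz).trans ?_
    have h5 : A₂ ≤ A₁ + A₂ := by linarith
    have h6 : |x 2| ≤ |x 2| + lam (cyl x) := by linarith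
    gcongr

theorem z_phiB {m m' : ℝ} (hm : m' < m) (hS : ZS k b φ m) : PhiB k b φ m' := by
  obtain ⟨L₁, A, hA, hS⟩ := hS
  obtain ⟨L₂, h2⟩ := eventually_atTop.1 (z_ev_rpow A (neg_lt_neg hm))
  refine ⟨max (max L₁ L₂) 1, fun x hx h1 hz => ?_⟩
  have a1 : L₁ ≤ cyl x := (le_max_left _ _).trans ((le_max_left _ _).trans hx)
  have a2 : L₂ ≤ cyl x := (le_max_right _ _).trans ((le_max_left _ _).trans hx)
  have a3 : 1 ≤ cyl x := (le_max_right _ _).trans hx
  have hg := zpre_g_nonneg k b x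
  have hl := z_lam_pos (by linarith : 0 < cyl x)
  have hz0 : 0 ≤ x 2 := by linarith
  refine (hS x a1 h1 hz).trans ?_
  have := h2 _ a2
  gcongr

theorem z_pre (h : Red k b L C c R GR d Gd V0 S v e1 e2 φ Gφ u Gu ψ Gψ) : PhiB k b φ (23 / 10) := by
  have key : ∀ j : ℕ, j ≤ 8 → ZP k b φ (j / 4) := by
    intro j
    induction j with
    | zero => intro _; simpa using z_P0 h
    | succ j ih =>
      intro hj
      have hj' : (j : ℝ) ≤ 7 := by exact_mod_cast (by omega : j ≤ 7)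
      have hj0 : (0 : ℝ) ≤ j := Nat.cast_nonneg j
      have hQ : ZQ k b φ (j / 4 + 3 / 10) :=
        z_lay h (by positivity) (by linarith) le_rfl (ih (by omega))
      have hS := z_sec h (by positivity) (by linarith) (by norm_num : (0 : ℝ) < 1 / 20) hQ
      have e : ((j + 1 : ℕ) : ℝ) / 4 = j / 4 + 3 / 10 - 1 / 20 := by push_cast; ring
      rw [e]
      exact z_P_of h (by linarith) hQ hS
  have h8 : ZP k b φ 2 := by
    have := key 8 le_rfl
    norm_num at this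
    exact this
  have hQ : ZQ k b φ (23 / 10) := z_lay h (by norm_num) (by norm_num) (by norm_num) h8
  have hS := z_sec h (by norm_num) (by norm_num) (by norm_num : (0 : ℝ) < 1 / 20) hQ
  have h9 := z_P_of h (by norm_num) hQ hS
  have hQ' : ZQ k b φ (12 / 5) := z_lay h (by norm_num) le_rfl (by norm_num) h9
  exact z_phiB (by norm_num) (z_sec h (by norm_num) (by norm_num) (by norm_num : (0 : ℝ) < 1 / 20) hQ')

theorem z_phi_post (h : Red k b L C c R GR d Gd V0 S v e1 e2 φ Gφ u Gu ψ Gψ)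
    (hz : ∃ L' : ℝ, ∀ x, L' ≤ cyl x → |x 2| ≤ 1 → φ x ≤ cyl x ^ (-12 : ℝ) * gfun k b x) : PhiB k b φ 11 := by
  obtain ⟨L₁, hz⟩ := hz
  have hQ : ZQ k b φ (57 / 5) := by
    refine ⟨max L₁ 1, 1, zero_le_one, fun x hx h1 => ?_⟩
    have a1 : L₁ ≤ cyl x := (le_max_left _ _).trans hx
    have a3 : 1 ≤ cyl x := (le_max_right _ _).trans hx
    refine (hz x a1 (h1.trans (z_lam_le_one a3))).trans (le_of_eq ?_)
    unfold lam
    rw [one_mul, ← Real.rpow_add (by linarith)]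
    norm_num
  exact z_phiB (by norm_num) (z_sec h (by norm_num) (by norm_num) (by norm_num : (0 : ℝ) < 1 / 10) hQ)

end Crest.Agent.R335
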