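import Crest.Agent.R335.Z_Ru

/-!
# R335/Z_Rhs: upper bound of the defect measure
-/

set_option autoImplicit false

namespace Crest.Agent.R335

open MeasureTheory Set Filter Topology
open scoped Gradient RealInnerProductSpace ENNReal ContDiff
open Crest.MathPhysics.ThreeBody

variable {k b L C c e1 e2 : ℝ} {R d V0 S v φ u ψ : E3 → ℝ} {GR Gd Gφ Gu Gψ : E3 → E3}

theorem zrhs_rpow {ρ : ℝ} (h : 0 < ρ) : ρ ^ (-(4 / 5) : ℝ) = 1 / (ρ ^ 2 * lam ρ ^ 2) := by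
  unfold lam
  rw [← Real.rpow_natCast ρ 2, ← Real.rpow_natCast (ρ ^ (-(3 / 5) : ℝ)) 2, ← Real.rpow_mul h.le,
    ← Real.rpow_add h, one_div, ← Real.rpow_neg h.le]
  norm_num

theorem zrhs_pt {D l m w E g N Q0 g0 : ℝ} (hD0 : 0 ≤ D) (hD : D ≤ Q0 * g) (hQ0 : 0 ≤ Q0) (hg : 0 ≤ g) (hN : 0 ≤ N)
    (hE : E * g ≤ g0) (hm0 : 0 ≤ m) (hm : m ≤ E) (hl : |l| ≤ N * E) :
    D * (l - 2 * w * m) ≤ Q0 * g0 * (N + 2 * |w|) := by
  have hE0 : 0 ≤ E := hm0.trans hm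
  have h1 : -(w * m) ≤ |w| * E :=
    (neg_le_abs _).trans (by rw [abs_mul, abs_of_nonneg hm0]; exact mul_le_mul_of_nonneg_left hm (abs_nonneg w))
  have h2 : l - 2 * w * m ≤ E * (N + 2 * |w|) := by linarith [le_abs_self l]
  have h3 : 0 ≤ N + 2 * |w| := by positivity
  calc D * (l - 2 * w * m) ≤ D * (E * (N + 2 * |w|)) := mul_le_mul_of_nonneg_left h2 hD0
    _ ≤ Q0 * g * (E * (N + 2 * |w|)) := mul_le_mul_of_nonneg_right hD (by positivity)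
    _ = Q0 * (E * g) * (N + 2 * |w|) := by ring
    _ ≤ Q0 * g0 * (N + 2 * |w|) := mul_le_mul_of_nonneg_right (mul_le_mul_of_nonneg_left hE hQ0) h3

/-- `Z = C₁ log ρ`.  A.e. the integrand is at most `1_B · A' ρ^(-2) Z g₀ (M / lam ρ² + 2 |v - e2|)`, `B = ball (pt ρ 0) (3 Z)`
(`z_Ru`, `z1_geo`, `z_g_exp`; `lam (cyl x) / 4 ≤ lam ρ / 2 ≤ x 2`).  `sumClass_ball` for `v - e2` (`sumClass_sub_const`),
`z_vol_ball`, `ρ^(-2) / lam ρ² = ρ^(-4/5)`, `lam ρ ≤ 1`. -/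
theorem z_rhs (h : Red k b L C c R GR d Gd V0 S v e1 e2 φ Gφ u Gu ψ Gψ) (hφ : PhiB k b φ (23 / 10))
    (hτ : ∃ L' : ℝ, ∀ ρ z, L' ≤ ρ → lam ρ / 4 ≤ z → z ≤ Real.log ρ ^ 2 → |tau u ψ ρ z| ≤ ρ⁻¹)
    {C₁ M : ℝ} (hC : 0 < C₁) (hM : 0 ≤ M) : ∃ A L' : ℝ, 0 ≤ A ∧ ∀ (ρ : ℝ) (m : E3 → ℝ), L' ≤ ρ →
      (∀ x, ¬(‖x - pt ρ 0‖ ≤ 2 * (C₁ * Real.log ρ) ∧ lam ρ / 2 ≤ x 2) → m x = 0 ∧ lap m x = 0) →
      (∀ x, 0 ≤ m x ∧ m x ≤ Real.exp (k * (x 0 - ρ))) →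
      (∀ x, |lap m x| ≤ M / lam ρ ^ 2 * Real.exp (k * (x 0 - ρ))) →
      Integrable (fun x => (R x - u x) * (lap m x - 2 * (v x - e2) * m x)) →
      ∫ x, (R x - u x) * (lap m x - 2 * (v x - e2) * m x) ≤
        A * Real.log ρ ^ 4 * ρ ^ (-(4 / 5) : ℝ) * gfun k b (pt ρ 0) := by
  obtain ⟨L1, A1, hA1, hRu⟩ := z_Ru h hφ hτ
  obtain ⟨L2, hL2, hgeo⟩ := z1_geo L1 C₁ hC
  obtain ⟨Cg, hCg, hexp⟩ := z_g_exp k b h.tail.kpos.le
  obtain ⟨Cv, hCv, hball⟩ := sumClass_ball (sumClass_sub_const h.cls e2)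
  obtain ⟨c₃, hc₃, hvol⟩ := z_vol_ball
  refine ⟨12 * A1 * Cg * C₁ ^ 4 * (27 * c₃ * M + 60 * Cv), L2, by positivity, fun ρ m hρ h0 hm hl hI => ?_⟩
  obtain ⟨hZ, -, hg⟩ := hgeo ρ hρ
  have hρ4 : 4 ≤ ρ := hL2.trans hρ
  have hρ0 : 0 < ρ := by linarith
  have hl0 : 0 < lam ρ := z_lam_pos hρ0
  have hl1 : lam ρ ≤ 1 := z_lam_le_one (by linarith)
  have hgn : ∀ x, 0 ≤ gfun k b x := fun x => by unfold gfun; positivity
  obtain ⟨Z, hZe⟩ : ∃ Z, Z = C₁ * Real.log ρ := ⟨_, rfl⟩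
  rw [← hZe] at hZ hg h0
  have hZ0 : 0 < Z := by linarith
  obtain ⟨i1, b1⟩ := hball (pt ρ 0) (3 * Z) (by positivity)
  obtain ⟨Q, hQ⟩ : ∃ Q, Q = 12 * A1 * Z / ρ ^ 2 * (Cg * gfun k b (pt ρ 0)) := ⟨_, rfl⟩
  have hQ0 : 0 ≤ Q := by
    have := hgn (pt ρ 0)
    rw [hQ]
    positivity
  have hN : 0 ≤ M / lam ρ ^ 2 := by positivity
  have i0 : IntegrableOn (fun _ : E3 => M / lam ρ ^ 2) (Metric.ball (pt ρ 0) (3 * Z)) :=
    integrableOn_const measure_ball_lt_top.ne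
  have i2 : IntegrableOn (fun x => Q * (M / lam ρ ^ 2 + 2 * |v x - e2|)) (Metric.ball (pt ρ 0) (3 * Z)) :=
    (i0.add (i1.abs.const_mul 2)).const_mul Q
  have hb : ∀ᵐ x, (R x - u x) * (lap m x - 2 * (v x - e2) * m x) ≤
      (Metric.ball (pt ρ 0) (3 * Z)).indicator (fun x => Q * (M / lam ρ ^ 2 + 2 * |v x - e2|)) x := by
    filter_upwards [hRu] with x hx
    by_cases hS : ‖x - pt ρ 0‖ ≤ 2 * Z ∧ lam ρ / 2 ≤ x 2
    · obtain ⟨g1, g2, -, g4, g5, g6, -, g8⟩ := hg x (by linarith [hS.1])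
      obtain ⟨r1, r2⟩ := hx g1.le (by linarith [hS.2]) ((le_abs_self _).trans g6)
      rw [indicator_of_mem (by rw [mem_ball_iff_norm]; linarith [hS.1]), hQ]
      refine zrhs_pt (by linarith) (r2.trans (mul_le_mul_of_nonneg_right ?_ (hgn x))) (by positivity) (hgn x) hN
        (hexp ρ x hρ4 g4).1 (hm x).1 (hm x).2 (hl x)
      have a1 : A1 / cyl x ^ 2 ≤ A1 / (ρ / 2) ^ 2 :=
        div_le_div_of_nonneg_left hA1 (by positivity) (pow_le_pow_left₀ (by positivity) g2 2)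
      have a2 := mul_le_mul a1 ((le_abs_self _).trans g5) (by linarith [hS.2]) (by positivity)
      refine a2.trans (le_of_eq ?_)
      field_simp
      ring
    · rw [(h0 x hS).1, (h0 x hS).2, mul_zero, sub_zero, mul_zero]
      exact indicator_nonneg (fun y _ => by positivity) x
  refine (integral_mono_ae hI (i2.integrable_indicator measurableSet_ball) hb).trans ?_
  rw [integral_indicator measurableSet_ball, integral_const_mul, integral_add i0 (i1.abs.const_mul 2),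
    integral_const_mul, setIntegral_const, (hvol _ _ (by positivity)).1, smul_eq_mul]
  have z3 : Z ≤ Z ^ 3 := le_self_pow₀ hZ (by norm_num)
  have l2 : lam ρ ^ 2 ≤ 1 := pow_le_one₀ hl0.le hl1
  have b2 : Cv * (3 * Z + (3 * Z) ^ 3) ≤ 30 * Cv * Z ^ 3 / lam ρ ^ 2 := by
    refine le_trans ?_ (le_div_self (by positivity) (by positivity) l2)
    nlinarith [mul_le_mul_of_nonneg_left z3 hCv]
  have b3 : c₃ * (3 * Z) ^ 3 * (M / lam ρ ^ 2) + 2 * ∫ x in Metric.ball (pt ρ 0) (3 * Z), |v x - e2| ≤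
      c₃ * (3 * Z) ^ 3 * (M / lam ρ ^ 2) + 2 * (30 * Cv * Z ^ 3 / lam ρ ^ 2) := by linarith
  refine (mul_le_mul_of_nonneg_left b3 hQ0).trans (le_of_eq ?_)
  rw [hQ, zrhs_rpow hρ0, hZe]
  field_simp
  ring

end Crest.Agent.R335
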