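import Crest.Agent.R335.Z_Bas2

/-!
# R335/Z_Ru: `R - u` is small
-/

set_option autoImplicit false

namespace Crest.Agent.R335

open MeasureTheory Set Filter Topology
open scoped Gradient RealInnerProductSpace ENNReal ContDiff
open Crest.MathPhysics.ThreeBody

variable {k b L C c e1 e2 : ℝ} {R d V0 S v φ u ψ : E3 → ℝ} {GR Gd Gφ Gu Gψ : E3 → E3}

theorem zru_alg {R u φ ψ w r c C' : ℝ} (hc : 0 < c) (hw : 0 < w) (h1 : c * w ≤ u) (h2 : u ≤ C' * w) (h3 : u ≤ R)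
    (h4 : R ^ 2 = 2 * φ ^ 2 + u ^ 2 + ψ ^ 2) (h5 : 0 ≤ φ) (h6 : φ ≤ r * w) (h7 : |ψ| ≤ r * u) :
    R - u ≤ (2 / c + C') * r ^ 2 * w := by
  have hu : 0 < u := (mul_pos hc hw).trans_le h1
  have e1 : φ ^ 2 ≤ (r * w) ^ 2 := pow_le_pow_left₀ h5 h6 2
  have e2 : ψ ^ 2 ≤ (r * u) ^ 2 := by
    rw [← sq_abs]
    exact pow_le_pow_left₀ (abs_nonneg _) h7 2
  have e3 : w ≤ u / c := by rw [le_div_iff₀ hc]; linarith
  have e4 : r ^ 2 * w * w ≤ r ^ 2 * w * (u / c) := mul_le_mul_of_nonneg_left e3 (by positivity)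
  have e5 : r ^ 2 * u * u ≤ r ^ 2 * u * (C' * w) := mul_le_mul_of_nonneg_left h2 (by positivity)
  have e6 : 0 ≤ (R - u) * R := mul_nonneg (by linarith) (by linarith)
  refine le_of_mul_le_mul_right ?_ hu
  have e7 : (2 / c + C') * r ^ 2 * w * u = 2 * (r ^ 2 * w * (u / c)) + r ^ 2 * u * (C' * w) := by ring
  rw [e7]
  nlinarith

/-- `R² - u² = 2 φ² + ψ²`, `0 < u ≤ R`, so `R - u ≤ (2 φ² + ψ²) / u`.  `0 < φ ≤ ρ^(-23/10) z g` (`log² ρ ≤ ρ / 5`: `z_ev_log`),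
`|ψ| ≤ u / ρ` (`Even3.eq_pt`, `z_u_pt`), `c z g ≤ u ≤ 34 C z g` (`Red.ulow`, `z_up_sec`); `A = 2 / c + 34 C`. -/
theorem z_Ru (h : Red k b L C c R GR d Gd V0 S v e1 e2 φ Gφ u Gu ψ Gψ) (hφ : PhiB k b φ (23 / 10))
    (hτ : ∃ L' : ℝ, ∀ ρ z, L' ≤ ρ → lam ρ / 4 ≤ z → z ≤ Real.log ρ ^ 2 → |tau u ψ ρ z| ≤ ρ⁻¹) :
    ∃ L' A : ℝ, 0 ≤ A ∧ ∀ᵐ x, L' ≤ cyl x → lam (cyl x) / 4 ≤ x 2 → x 2 ≤ Real.log (cyl x) ^ 2 →
      u x ≤ R x ∧ R x - u x ≤ A / cyl x ^ 2 * x 2 * gfun k b x := by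
  obtain ⟨L1, h1⟩ := hφ
  obtain ⟨L2, h2⟩ := hτ
  obtain ⟨L3, h3⟩ := eventually_atTop.1 (z_ev_log 5 2 one_pos)
  have hc := h.tail.cpos
  have hC := h.tail.Cge
  have hL := h.tail.Lge
  refine ⟨max (max L1 L2) (max L3 (L + 1)), 2 / c + 34 * C, by positivity, ?_⟩
  filter_upwards [h.dens, z_dom h] with x hd hdom hx hz1 hz2
  simp only [max_le_iff] at hx
  obtain ⟨⟨hx1, hx2⟩, hx3, hx4⟩ := hx
  have hρ : 1 ≤ cyl x := by linarith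
  have hρ0 : 0 < cyl x := by linarith
  have hl := z_lam_pos hρ0
  have hz : 0 < x 2 := by linarith
  have h4 := h3 _ hx3
  rw [Real.rpow_one] at h4
  have hx0 : x ≠ 0 := norm_pos_iff.1 (hρ0.trans_le (cyl_le_norm x))
  have hg := gfun_pos k b hx0
  have hu1 := h.ulow x (by linarith) (by linarith) (by linarith)
  have hu2 := (z_up_sec h (x := x) (by linarith) (by linarith)).2
  have hu0 : 0 < u x := lt_of_lt_of_le (by positivity) hu1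
  have hR : u x ≤ R x := by
    have := hdom.2.1
    rw [one_mul] at this
    exact (le_abs_self _).trans this
  have h5 := h1 x hx1 (by linarith) (by linarith)
  have h6 : cyl x ^ (-(23 / 10) : ℝ) ≤ (cyl x)⁻¹ := by
    rw [← Real.rpow_neg_one]
    exact Real.rpow_le_rpow_of_exponent_le hρ (by norm_num)
  have h7 : φ x ≤ (cyl x)⁻¹ * (x 2 * gfun k b x) := by
    rw [mul_assoc] at h5
    exact h5.trans (mul_le_mul_of_nonneg_right h6 (by positivity))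
  have h8 := h2 (cyl x) (x 2) hx2 hz1 hz2
  have h9 := h.evψ.eq_pt (x := x) hρ0
  rw [abs_of_pos hz] at h9
  rw [tau, ← h9, ← z_u_pt h (x := x) hρ0, abs_div, abs_of_pos hu0, div_le_iff₀ hu0] at h8
  refine ⟨hR, ?_⟩
  have h10 := zru_alg (C' := 34 * C) hc (mul_pos hz hg) (by rwa [← mul_assoc]) (by rwa [← mul_assoc]) hR hd
    (h.posφ x hρ0).le h7 h8
  refine h10.trans_eq ?_
  field_simp

/-- geometry of the ball of radius `C₁ log ρ` (`abs_cyl_sub_le`, `z_ev_log`, `log (ρ/2) ≥ (log ρ) / 2` for `ρ ≥ 4`) -/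
theorem z1_geo (L C₁ : ℝ) (hC : 0 < C₁) : ∃ L' : ℝ, 4 ≤ L' ∧ ∀ ρ : ℝ, L' ≤ ρ → 1 ≤ C₁ * Real.log ρ ∧ 1 ≤ Real.log ρ ∧
    ∀ x : E3, ‖x - pt ρ 0‖ ≤ 3 * (C₁ * Real.log ρ) →
      L < cyl x ∧ ρ / 2 ≤ cyl x ∧ cyl x ≤ 2 * ρ ∧ ‖x - pt ρ 0‖ ^ 2 ≤ ρ ∧ |x 2| ≤ 3 * (C₁ * Real.log ρ) ∧
        |x 2| ≤ Real.log (cyl x) ^ 2 ∧ |x 2| ≤ cyl x / 5 ∧ lam (cyl x) ≤ 2 * lam ρ := by
  have e1 := Real.tendsto_log_atTop.eventually_ge_atTop (max (max (1 / C₁) 1) (12 * C₁))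
  obtain ⟨L1, h1⟩ := eventually_atTop.1 (e1.and ((z_ev_log (9 * C₁ ^ 2) 2 one_pos).and
    (z_ev_log (30 * C₁) 1 one_pos)))
  refine ⟨max (max L1 4) (2 * L + 1), (le_max_right _ _).trans (le_max_left _ _), fun ρ hρ => ?_⟩
  simp only [max_le_iff] at hρ
  obtain ⟨⟨hρ1, hρ2⟩, hρ3⟩ := hρ
  obtain ⟨h2, h3, h4⟩ := h1 ρ hρ1
  simp only [max_le_iff] at h2
  obtain ⟨⟨h5, h6⟩, h7⟩ := h2
  rw [Real.rpow_one] at h3 h4
  rw [pow_one] at h4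
  rw [div_le_iff₀ hC] at h5
  refine ⟨by linarith, h6, fun x hx => ?_⟩
  have hρ0 : 0 < ρ := by linarith
  have h8 := abs_cyl_sub_le x (pt ρ 0)
  rw [cyl_pt hρ0.le, abs_le] at h8
  have h9 : |x 2| ≤ ‖x - pt ρ 0‖ := by
    have := abs_z_le_norm (x - pt ρ 0)
    rwa [PiLp.sub_apply, pt_2, sub_zero] at this
  have h10 : ρ / 2 ≤ cyl x := by linarith [h8.1]
  have h11 : Real.log ρ / 2 ≤ Real.log (cyl x) := by
    have a1 := Real.log_le_log (by positivity) h10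
    have a2 := Real.log_le_log (by positivity) hρ2
    rw [Real.log_div hρ0.ne' two_ne_zero] at a1
    rw [show (4 : ℝ) = 2 ^ 2 by norm_num, Real.log_pow] at a2
    push_cast at a2
    linarith
  have h12 := pow_le_pow_left₀ (by linarith) h11 2
  have h13 := pow_le_pow_left₀ (norm_nonneg _) hx 2
  have h14 := mul_le_mul_of_nonneg_right h7 (by linarith : 0 ≤ Real.log ρ)
  refine ⟨by linarith, h10, by linarith [h8.2], by nlinarith, h9.trans hx, by nlinarith, by linarith [h8.1],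
    z_lam_le_mul hρ0 one_le_two (by linarith)⟩

end Crest.Agent.R335
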