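import Crest.Agent.R335.Z_Two

/-!
# R335/Z_Sec: from the layer to the sector
-/

set_option autoImplicit false

namespace Crest.Agent.R335

open MeasureTheory Set Filter Topology
open scoped Gradient RealInnerProductSpace ENNReal ContDiff
open Crest.MathPhysics.ThreeBody

variable {k b L C c e1 e2 : ℝ} {R d V0 S v φ u ψ : E3 → ℝ} {GR Gd Gφ Gu Gψ : E3 → E3}

/-- `z2` with `S₀ = (16 A / c) 2^m ρ₀^(-m)` (`Red.ulow`: `u ≥ c z g ≥ c (lam/16) g`, `z_rpow_half`; `x 2 ≤ lam ≤ 1 ≤ cyl / 2`),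
then `φ x₀ = s u ≤ s · 34 C z g` (`z_up_sec`, `z_s_le`), `ρ₀^(-12) ≤ ρ₀^(-(m - κ))`. -/
theorem z_sec (h : Red k b L C c R GR d Gd V0 S v e1 e2 φ Gφ u Gu ψ Gψ) {m κ : ℝ} (hm0 : 0 ≤ m) (hm : m ≤ 12)
    (hκ : 0 < κ) (hQ : ZQ k b φ m) : ZS k b φ (m - κ) := by
  obtain ⟨L1, A, hA, hQ⟩ := hQ
  obtain ⟨L2, h2⟩ := z2 h hκ
  have hc := h.tail.cpos
  have hC := h.tail.Cge
  have hL := h.tail.Lge
  refine ⟨max (max L2 (2 * L1)) (2 * L + 4), (16 * A / c * 2 ^ m + 1) * (34 * C), by positivity,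
    fun x₀ hx hz1 hz2 => ?_⟩
  have a1 : L2 ≤ cyl x₀ := ((le_max_left _ _).trans (le_max_left _ _)).trans hx
  have a2 : 2 * L1 ≤ cyl x₀ := ((le_max_right _ _).trans (le_max_left _ _)).trans hx
  have a3 : 2 * L + 4 ≤ cyl x₀ := (le_max_right _ _).trans hx
  have hρ : 0 < cyl x₀ := by linarith
  have hl := z_lam_pos hρ
  have key := h2 x₀ (16 * A / c * (2 ^ m * cyl x₀ ^ (-m))) a1 hz1 hz2 (by positivity) fun x b1 b2 b3 => by
    have c0 : 0 < cyl x := by linarith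
    have c1 := z_lam_pos c0
    have c2 := z_lam_le_one (ρ := cyl x) (by linarith)
    have c3 : 0 < gfun k b x := gfun_pos k b (norm_pos_iff.1 (c0.trans_le (cyl_le_norm x)))
    have c4 := h.ulow x (by linarith) b2 (by linarith)
    have c5 := hQ x (by linarith) (abs_le.2 ⟨by linarith, b3⟩)
    have c6 : c * (lam (cyl x) / 16) * gfun k b x ≤ u x := le_trans (by gcongr) c4
    have c7 := z_rpow_half hρ hm0 b1
    have c8 : 0 < c * (lam (cyl x) / 16) * gfun k b x := by positivity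
    rw [div_le_iff₀ (c8.trans_le c6)]
    calc φ x ≤ A * (2 ^ m * cyl x₀ ^ (-m)) * lam (cyl x) * gfun k b x := c5.trans (by gcongr)
      _ = 16 * A / c * (2 ^ m * cyl x₀ ^ (-m)) * (c * (lam (cyl x) / 16) * gfun k b x) := by
          field_simp
      _ ≤ _ := by gcongr
  obtain ⟨u0, s0, -⟩ := z_s_le h (x := x₀) (by linarith) (by linarith) (by linarith)
  have u1 := (z_up_sec h (x := x₀) (by linarith) (by linarith)).2
  have e1 : cyl x₀ ^ κ * cyl x₀ ^ (-m) = cyl x₀ ^ (-(m - κ)) := by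
    rw [← Real.rpow_add hρ]
    congr 1
    ring
  have e2 : cyl x₀ ^ (-12 : ℝ) ≤ cyl x₀ ^ (-(m - κ)) :=
    Real.rpow_le_rpow_of_exponent_le (by linarith) (by linarith)
  have e3 : φ x₀ / u x₀ ≤ (16 * A / c * 2 ^ m + 1) * cyl x₀ ^ (-(m - κ)) := by
    refine key.trans ?_
    rw [add_mul, one_mul, ← e1]
    rw [← e1] at e2
    linarith
  rw [div_le_iff₀ u0] at e3
  refine e3.trans ((mul_le_mul_of_nonneg_left u1 (by positivity)).trans_eq ?_)
  ring

end Crest.Agent.R335
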