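import Crest.Agent.R335.Z_Int
import Crest.Agent.R335.Z_Hol

/-!
# R335/Z_Two: (Z2)
-/

set_option autoImplicit false

namespace Crest.Agent.R335

open MeasureTheory Set Filter Topology
open scoped Gradient RealInnerProductSpace ENNReal ContDiff
open Crest.MathPhysics.ThreeBody

variable {k b L C c e1 e2 : ℝ} {R d V0 S v φ u ψ : E3 → ℝ} {GR Gd Gφ Gu Gψ : E3 → E3}

/-- Choose `n ≥ n₀` with `132 ≤ κ (2n+2)`.  If the inequality fails, `z2_hol` and `z2_int` with `r = ρ₀^(-42)`,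
`a = ρ₀^κ S₀ + ρ₀^(-12)/2` give `a^(2n+2) ρ₀^(-126) ≤ A ρ₀^5 (S₀^(2n+2) + e^(-ρ₀/10))`.  But
`a^N ≥ (ρ₀^κ S₀)^N + (ρ₀^(-12)/2)^N` (`pow_add_pow_le`), `ρ₀^(κ N - 126) ≥ ρ₀^6 ≥ A ρ₀^5` and
`A ρ₀^5 e^(-ρ₀/10) < (ρ₀^(-12)/2)^N ρ₀^(-126)` for large `ρ₀` (`z_ev_exp` with `2 A 2^N`). -/
theorem z2 (h : Red k b L C c R GR d Gd V0 S v e1 e2 φ Gφ u Gu ψ Gψ) {κ : ℝ} (hκ : 0 < κ) : ∃ L' : ℝ,
    ∀ (x₀ : E3) (S₀ : ℝ), L' ≤ cyl x₀ → lam (cyl x₀) / 8 ≤ x₀ 2 → x₀ 2 ≤ cyl x₀ / 5 → 0 ≤ S₀ →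
      (∀ x, cyl x₀ / 2 ≤ cyl x → lam (cyl x) / 16 ≤ x 2 → x 2 ≤ lam (cyl x) → φ x / u x ≤ S₀) →
        φ x₀ / u x₀ ≤ cyl x₀ ^ κ * S₀ + cyl x₀ ^ (-12 : ℝ) := by
  obtain ⟨n₀, hn₀⟩ := z2_int h
  obtain ⟨n1, hn1⟩ := exists_nat_ge (132 / κ)
  obtain ⟨A, L1, hA, h1⟩ := hn₀ (n₀ + n1) (Nat.le_add_right _ _)
  obtain ⟨L2, h2⟩ := z2_hol h
  obtain ⟨N, hN⟩ : ∃ N : ℕ, N = 2 * (n₀ + n1) + 2 := ⟨_, rfl⟩
  rw [← hN] at h1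
  have hN0 : N ≠ 0 := by omega
  have hκN : 132 ≤ κ * N := by
    have a1 : (n1 : ℝ) ≤ N := by exact_mod_cast (by omega : n1 ≤ N)
    rw [div_le_iff₀' hκ] at hn1
    exact hn1.trans (mul_le_mul_of_nonneg_left a1 hκ.le)
  have ev := ((z_ev_rpow A (p := 5) (q := 6) (by norm_num)).and
    (z_ev_exp (2 * A * 2 ^ N) (12 * N + 131) (t := 1 / 10) (by norm_num))).and
    ((z_ev_rpow 40 (p := -42) (q := -(3 / 5)) (by norm_num)).and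
      ((eventually_ge_atTop 1).and ((eventually_ge_atTop L1).and (eventually_ge_atTop L2))))
  obtain ⟨L', hL'⟩ := eventually_atTop.1 ev
  refine ⟨L', fun x₀ S₀ hx hz1 hz2 hS hlay => not_lt.1 fun hlt => ?_⟩
  obtain ⟨⟨e1, e2⟩, e3, e4, e5, e6⟩ := hL' _ hx
  have hρ : 0 < cyl x₀ := by linarith
  have key := h1 x₀ S₀ (cyl x₀ ^ (-42 : ℝ)) (cyl x₀ ^ κ * S₀ + cyl x₀ ^ (-12 : ℝ) / 2) e5 hz1 hz2 hS hlay
    (by positivity) (by unfold lam; linarith) (by positivity) fun x hx' => by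
      have := h2 x₀ e6 hz1 hz2 x hx'
      linarith
  generalize cyl x₀ = ρ at *
  have p1 := pow_add_pow_le (x := ρ ^ κ * S₀) (y := ρ ^ (-12 : ℝ) / 2) (by positivity) (by positivity) hN0
  have r5 : ρ ^ (5 : ℝ) = ρ ^ 5 := by exact_mod_cast Real.rpow_natCast ρ 5
  have p2 : A * ρ ^ 5 * S₀ ^ N ≤ (ρ ^ κ * S₀) ^ N * (ρ ^ (-42 : ℝ)) ^ 3 := by
    have a1 : ρ ^ (6 : ℝ) ≤ (ρ ^ κ) ^ N * (ρ ^ (-42 : ℝ)) ^ 3 := by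
      rw [← Real.rpow_mul_natCast hρ.le, ← Real.rpow_mul_natCast hρ.le, ← Real.rpow_add hρ]
      exact Real.rpow_le_rpow_of_exponent_le e4 (by push_cast; linarith)
    rw [r5] at e1
    rw [mul_pow, mul_right_comm ((ρ ^ κ) ^ N)]
    exact mul_le_mul_of_nonneg_right (e1.trans a1) (by positivity)
  have p3 : 0 < (ρ ^ (-12 : ℝ) / 2) ^ N * (ρ ^ (-42 : ℝ)) ^ 3 := by positivity
  have p4 : 2 * (A * ρ ^ 5 * Real.exp (-(1 / 10 * ρ))) ≤ (ρ ^ (-12 : ℝ) / 2) ^ N * (ρ ^ (-42 : ℝ)) ^ 3 := by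
    have a1 : ρ ^ (12 * N + 131 : ℝ) * ((ρ ^ (-12 : ℝ)) ^ N * (ρ ^ (-42 : ℝ)) ^ 3) = ρ ^ 5 := by
      rw [← Real.rpow_mul_natCast hρ.le, ← Real.rpow_mul_natCast hρ.le, ← Real.rpow_add hρ, ← Real.rpow_add hρ, ← r5]
      congr 1
      push_cast
      ring
    refine le_trans (le_of_eq ?_) (mul_le_of_le_one_left p3.le e2)
    rw [← a1, div_pow]
    field_simp
  have p5 := mul_le_mul_of_nonneg_right p1 (by positivity : 0 ≤ (ρ ^ (-42 : ℝ)) ^ 3)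
  rw [add_mul] at p5
  rw [mul_add] at key
  linarith

end Crest.Agent.R335
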